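import Vale.Agent.P166.Ah1

/-! P166: concentration of the overlap at the Haar level. -/

namespace Vale.Agent.P166

open MeasureTheory Finset Real Vale.Agent.P157 Vale.Agent.P157.Alg

noncomputable section

namespace Ah

lemma shift1 {Ω : Type} (hA : AApi) {Q : Op Ω} (hQ : Mk Q) (g : Ω → ℝ) (c : ℝ) (ω0 : Ω) :
    Q (fun ω => (g ω - c) ^ 2) ω0 = Q (fun ω => (g ω - Q g ω0) ^ 2) ω0 + (Q g ω0 - c) ^ 2 := by
  have h : ∀ a : ℝ, Q (fun ω => (g ω - a) ^ 2) ω0 =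
      Q (fun ω => g ω ^ 2) ω0 - 2 * a * Q g ω0 + a ^ 2 := by
    intro a
    rw [show (fun ω => (g ω - a) ^ 2) = fun ω =>
        1 * (1 * g ω ^ 2 + (-2 * a) * g ω) + a ^ 2 * 1 from
      funext fun ω => by ring, op_lin, op_lin, hA.const hQ]
    ring
  rw [h, h]; ring

lemma shift2 {Ω : Type} (hA : AApi) {P : ℕ → Op Ω} {e : ℕ → ℝ} {t : ℕ} (hO : Ok P e t)
    (Z : Ω → ℝ) {l : ℕ} (hl : l ≤ t) (φ : Ω → Ω → ℝ) (c : ℝ) (ω0 : Ω) :
    E2 P e Z l t (fun x y => (φ x y - c) ^ 2) ω0 =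
      E2 P e Z l t (fun x y => (φ x y - E2 P e Z l t φ ω0) ^ 2) ω0 +
        (E2 P e Z l t φ ω0 - c) ^ 2 := by
  have h : ∀ a : ℝ, E2 P e Z l t (fun x y => (φ x y - a) ^ 2) ω0 =
      E2 P e Z l t (fun x y => φ x y ^ 2) ω0 - 2 * a * E2 P e Z l t φ ω0 + a ^ 2 := by
    intro a
    rw [show (fun x y => (φ x y - a) ^ 2) = fun x y =>
        1 * (1 * φ x y ^ 2 + (-2 * a) * φ x y) + a ^ 2 * 1 from
      funext fun x => funext fun y => by ring, hA.e2add, hA.e2add, hA.e2const hO Z l hl]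
    ring
  rw [h, h]; ring

variable {I : Type} [Fintype I] [DecidableEq I]

/-- cubature against a continuous density -/
lemma cub (hC : CubStmt) (ν : Measure (OG I)) [IsProbabilityMeasure ν] (W : OG I → ℝ)
    (hW : Continuous W) (hW0 : ∀ U, 0 ≤ W U) (hW1 : ∫ U, W U ∂ν = 1) {J : Type} [Fintype J]
    (F : J → OG I → ℝ) (hF : ∀ j, Continuous (F j)) {η : ℝ} (hη : 0 < η) :
    ∃ (m : ℕ) (w : Fin m → ℝ) (x : Fin m → OG I), (∀ t, 0 ≤ w t) ∧ ∑ t, w t = 1 ∧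
      ∀ j, |∑ t, w t * F j (x t) - ∫ U, W U * F j U ∂ν| ≤ η := by
  have hm : Measurable fun U => ENNReal.ofReal (W U) := hW.measurable.ennreal_ofReal
  have hi : Integrable W ν := hW.integrable_of_hasCompactSupport (HasCompactSupport.of_compactSpace _)
  have hp : IsProbabilityMeasure (ν.withDensity fun U => ENNReal.ofReal (W U)) := by
    constructor
    rw [withDensity_apply _ MeasurableSet.univ, Measure.restrict_univ,
      ← ofReal_integral_eq_lintegral_ofReal hi (Filter.Eventually.of_forall hW0), hW1,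
      ENNReal.ofReal_one]
  obtain ⟨m, w, x, h1, h2, h3⟩ := hC I J _ F η hp hF hη
  refine ⟨m, w, x, h1, h2, fun j => ?_⟩
  have h4 := h3 j
  rw [integral_withDensity_eq_integral_toReal_smul hm
    (Filter.Eventually.of_forall fun U => ENNReal.ofReal_lt_top)] at h4
  simpa only [ENNReal.toReal_ofReal (hW0 _), smul_eq_mul] using h4

end Ah

open Ah in
theorem ahStmt (hA : AApi) (hR : RApi) (hH : HApi) (hAg : AgStmt) (hC : CubStmt) : AhStmt := by
  intro T I _ _ _ _ ν n lev Z s A h ε hν hn hlev hZ hs hh hne hsq hε hε2 hG hv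
  haveI := hν.prob
  obtain ⟨hO, hP⟩ := hR.ok (I := I) n lev hn
  have h1 := hH.one lev hν hn hZ
  set W : OG I → ℝ := fun U => exp ((Xv n lev (Z U) - TH ν n lev Z) / n) with hWdef
  have hc := fun g φ => hR.cont n lev Z g φ hn hZ
  have hWc : Continuous W := by
    have := (hc Z (fun _ _ _ => 0)).1 (n + 1) (w0 T I) le_rfl
    exact continuous_exp.comp ((this.sub continuous_const).div_const _)
  have hW1 : ∫ U, W U ∂ν = 1 := by
    have h2 := h1.const 1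
    unfold EH at h2
    have h3 : ∀ U, Ev n lev (Z U) (fun _ => 1) = 1 := fun U =>
      hA.const (hA.ce hO (Z U) 0 (n + 1) le_rfl) 1 _
    simpa only [h3, mul_one] using h2
  have cEv : ∀ g : OG I → Cf T I → ℝ, Ct g → Continuous fun U => Ev n lev (Z U) (g U) :=
    fun g hg => (hc g (fun _ _ _ => 0)).2.1 hg 0 (n + 1) (w0 T I) le_rfl
  have cEw : ∀ φ : OG I → Cf T I → Cf T I → ℝ, Ct2 φ → ∀ d, d ≤ n →
      Continuous fun U => Ew n lev (Z U) d (φ U) :=
    fun φ hφ d hd => (hc Z φ).2.2 hφ d hd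
  set R : OG I → Cf T I → Cf T I → ℝ := fun U => aR (fun i => s i U) A with hRdef
  have cR : Ct2 R := by
    intro ω ω'
    simp only [hRdef, aR]
    exact (continuous_finset_sum _ fun i _ => (hs i ω).mul (hs i ω')).div_const _
  set c0 : ℝ := EH ν n lev Z (fun U x => R U x x) with hc0
  set F : Fin 5 × Fin n → OG I → ℝ := fun q => ![
    fun U => Ev n lev (Z U) (fun ω => R U ω ω),
    fun U => Ev n lev (Z U) (fun ω => (R U ω ω - c0) ^ 2),
    fun U => Ev n lev (Z U) (fun ω => (h q.2 U ω - EH ν n lev Z (h q.2)) ^ 2),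
    fun U => Ew n lev (Z U) q.2 (R U),
    fun U => Ew n lev (Z U) q.2 (fun ω ω' => (R U ω ω' - EW ν n lev Z q.2 R) ^ 2)] q.1 with hF
  have cF : ∀ q, Continuous (F q) := by
    rintro ⟨k, l⟩
    fin_cases k
    · exact cEv (fun U ω => R U ω ω) (fun ω => cR ω ω)
    · exact cEv (fun U ω => (R U ω ω - c0) ^ 2) (fun ω => ((cR ω ω).sub continuous_const).pow 2)
    · exact cEv (fun U ω => (h l U ω - EH ν n lev Z (h l)) ^ 2)
        (fun ω => ((hh l ω).sub continuous_const).pow 2)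
    · exact cEw R cR l l.2.le
    · exact cEw (fun U ω ω' => (R U ω ω' - EW ν n lev Z l R) ^ 2)
        (fun ω ω' => ((cR ω ω').sub continuous_const).pow 2) l l.2.le
  obtain ⟨m, w, x, hw, hw1, hcub⟩ := cub hC ν W hWc (fun U => (exp_pos _).le) hW1 F cF
    (η := ε ^ 2) (by positivity)
  have hm : Nonempty (Fin m) := by
    by_contra hc'
    rw [not_nonempty_iff] at hc'
    simp at hw1
  obtain ⟨t0⟩ := hm
  have hO' := ok_hat hO hw hw1
  have hM' := hA.ce hO' (Zh n (ch lev) (fun t => Z (x t)) (w0 T I)) 0 (n + 1) le_rfl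
  have hG0 := gg_hat hA hn hO hw hw1 (fun t => Z (x t)) (w0 T I) (fun i t => s i (x t)) A
    (fun l t => h l (x t)) (fun t => hG (x t)) t0
  have hG' : GG1 (hat n w (ch lev)) n (Zh n (ch lev) (fun t => Z (x t)) (w0 T I))
      (fun i p => s i (x p.1) p.2) A (fun l p => h l (x p.1) p.2) (t0, w0 T I) (2 * ε) :=
    ⟨hG0.u0.trans (by linarith), fun κ hκ => (hG0.u1 κ hκ).trans (by linarith),
      fun κ l hκ hl => (hG0.u2 κ l hκ hl).trans (by linarith),
      fun l hl1 hl => (hG0.sh l hl1 hl).trans (by linarith)⟩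
  have hE := fun g => ce_top hA hO hw1 (fun t => Z (x t)) (w0 T I) (Nat.zero_le n) g t0
  have hE2 := fun l (hl : l < n) φ => e2_top hA hO hw1 (fun t => Z (x t)) (w0 T I) hl φ t0
  have hv' : ∀ κ, κ < n →
      Ce (hat n w (ch lev)) (ex n) (Zh n (ch lev) (fun t => Z (x t)) (w0 T I)) 0 (n + 1)
        (fun p => (h κ (x p.1) p.2 -
          Ce (hat n w (ch lev)) (ex n) (Zh n (ch lev) (fun t => Z (x t)) (w0 T I)) 0 (n + 1)
            (fun p => h κ (x p.1) p.2) (t0, w0 T I)) ^ 2) (t0, w0 T I) ≤ (2 * ε) ^ 2 := by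
    intro κ hκ
    have a1 := shift1 hA hM' (fun p => h κ (x p.1) p.2) (EH ν n lev Z (h κ)) (t0, w0 T I)
    have a2 := (abs_le.1 (hcub (2, ⟨κ, hκ⟩))).2
    have a3 := hv κ hκ
    rw [hE] at a1
    have a4 : ∑ t, w t * F (2, ⟨κ, hκ⟩) (x t) = ∑ t, w t * Ce (ch lev) (ex n) (Z (x t)) 0 (n + 1)
        (fun y => (h κ (x t) y - EH ν n lev Z (h κ)) ^ 2) (w0 T I) := rfl
    have a5 : ∫ U, W U * F (2, ⟨κ, hκ⟩) U ∂ν =
        EH ν n lev Z (fun U ω => (h κ U ω - EH ν n lev Z (h κ)) ^ 2) := rfl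
    rw [a4, a5, a1] at a2
    nlinarith [sq_nonneg (Ce (hat n w (ch lev)) (ex n) (Zh n (ch lev) (fun t => Z (x t)) (w0 T I))
      0 (n + 1) (fun p => h κ (x p.1) p.2) (t0, w0 T I) - EH ν n lev Z (h κ)), sq_nonneg ε]
  obtain ⟨g1, g2⟩ := hAg _ I _ _ n hn hO' (fil_hat hP n w) _ (fun i p => s i (x p.1) p.2) A _
    (t0, w0 T I) (2 * ε) hne (fun p => hsq _ _) (by linarith) hε2 hG' hv'
  have he1 : ε ^ 2 ≤ ε / 2 := by nlinarith
  have he2 : (ε ^ 2) ^ 2 ≤ ε ^ 2 := by nlinarith [sq_nonneg ε]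
  set R' : Fin m × Cf T I → Fin m × Cf T I → ℝ := aR (fun i p => s i (x p.1) p.2) A with hR'
  constructor
  · have a1 := shift1 hA hM' (fun p => R' p p) c0 (t0, w0 T I)
    have a2 := (abs_le.1 (hcub (1, ⟨0, hn⟩))).1
    have a3 := hcub (0, ⟨0, hn⟩)
    have a4 : ∑ t, w t * F (1, ⟨0, hn⟩) (x t) =
        Ce (hat n w (ch lev)) (ex n) (Zh n (ch lev) (fun t => Z (x t)) (w0 T I)) 0 (n + 1)
          (fun p => (R' p p - c0) ^ 2) (t0, w0 T I) := by rw [hE]; rfl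
    have a5 : ∑ t, w t * F (0, ⟨0, hn⟩) (x t) =
        Ce (hat n w (ch lev)) (ex n) (Zh n (ch lev) (fun t => Z (x t)) (w0 T I)) 0 (n + 1)
          (fun p => R' p p) (t0, w0 T I) := by rw [hE]; rfl
    have a6 : ∫ U, W U * F (0, ⟨0, hn⟩) U ∂ν = c0 := rfl
    have a7 : ∫ U, W U * F (1, ⟨0, hn⟩) U ∂ν =
        EH ν n lev Z (fun U ω => (R U ω ω - c0) ^ 2) := rfl
    rw [a4, a7, a1] at a2
    rw [a5, a6] at a3
    have a8 := sq_le_sq' (abs_le.1 a3).1 (abs_le.1 a3).2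
    linarith
  · have each : ∀ l ∈ Ico 1 n, EW ν n lev Z l (fun U ω1 ω2 => (R U ω1 ω2 - EW ν n lev Z l R) ^ 2) ≤
        E2 (hat n w (ch lev)) (ex n) (Zh n (ch lev) (fun t => Z (x t)) (w0 T I)) (l + 1) (n + 1)
          (fun p q => (R' p q - E2 (hat n w (ch lev)) (ex n)
            (Zh n (ch lev) (fun t => Z (x t)) (w0 T I)) (l + 1) (n + 1) R' (t0, w0 T I)) ^ 2)
          (t0, w0 T I) + 2 * ε ^ 2 := by
      intro l hl
      have hl' := (mem_Ico.1 hl).2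
      have a1 := shift2 hA hO' (Zh n (ch lev) (fun t => Z (x t)) (w0 T I)) (l := l + 1) (by omega)
        R' (EW ν n lev Z l R) (t0, w0 T I)
      have a2 := (abs_le.1 (hcub (4, ⟨l, hl'⟩))).1
      have a3 := hcub (3, ⟨l, hl'⟩)
      have a4 : ∑ t, w t * F (4, ⟨l, hl'⟩) (x t) =
          E2 (hat n w (ch lev)) (ex n) (Zh n (ch lev) (fun t => Z (x t)) (w0 T I)) (l + 1) (n + 1)
            (fun p q => (R' p q - EW ν n lev Z l R) ^ 2) (t0, w0 T I) := by rw [hE2 l hl']; rfl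
      have a5 : ∑ t, w t * F (3, ⟨l, hl'⟩) (x t) =
          E2 (hat n w (ch lev)) (ex n) (Zh n (ch lev) (fun t => Z (x t)) (w0 T I)) (l + 1) (n + 1)
            R' (t0, w0 T I) := by rw [hE2 l hl']; rfl
      have a6 : ∫ U, W U * F (3, ⟨l, hl'⟩) U ∂ν = EW ν n lev Z l R := rfl
      have a7 : ∫ U, W U * F (4, ⟨l, hl'⟩) U ∂ν =
          EW ν n lev Z l (fun U ω1 ω2 => (R U ω1 ω2 - EW ν n lev Z l R) ^ 2) := rfl
      rw [a4, a7, a1] at a2
      rw [a5, a6] at a3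
      have a8 := sq_le_sq' (abs_le.1 a3).1 (abs_le.1 a3).2
      linarith
    have hn0 : (0 : ℝ) < n := by exact_mod_cast hn
    have hn1 : (1 : ℝ) ≤ n := by exact_mod_cast hn
    have tot := sum_le_sum each
    rw [sum_add_distrib, sum_const, Nat.card_Ico, nsmul_eq_mul] at tot
    have h4 : ((n - 1 : ℕ) : ℝ) ≤ n := by exact_mod_cast Nat.sub_le n 1
    have h5 : ((n - 1 : ℕ) : ℝ) * (2 * ε ^ 2) ≤ n * (2 * ε ^ 2) :=
      mul_le_mul_of_nonneg_right h4 (by positivity)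
    have h6 := mul_le_mul_of_nonneg_left (tot.trans (add_le_add le_rfl h5))
      (by positivity : (0 : ℝ) ≤ 1 / n)
    rw [mul_add, show (1 / (n : ℝ)) * (n * (2 * ε ^ 2)) = 2 * ε ^ 2 by field_simp] at h6
    have hs0 : 0 ≤ √ε := sqrt_nonneg _
    have hs2 : √ε * √ε = ε := mul_self_sqrt hε.le
    have hs1 : √ε ≤ 1 := sqrt_le_one.2 (by linarith)
    have h7 : √(2 * ε) ≤ 3 / 2 * √ε := by
      rw [sqrt_le_left (by positivity)]
      nlinarith
    have h8 : ε ≤ √ε := by nlinarith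
    have h9 : 1 ≤ (n : ℝ) ^ 2 := one_le_pow₀ hn1
    have h10 : (n : ℝ) ^ 2 * √(2 * ε) ≤ (n : ℝ) ^ 2 * (3 / 2 * √ε) :=
      mul_le_mul_of_nonneg_left h7 (by positivity)
    have h11 : √ε ≤ (n : ℝ) ^ 2 * √ε := le_mul_of_one_le_left hs0 h9
    refine h6.trans ?_
    linarith

end

end Vale.Agent.P166
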