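import Vale.Agent.P166.Stm
import Vale.Agent.P157.Alg

/-! P166: finite mixtures of energies at the top level of a chain. -/

namespace Vale.Agent.P166

open Finset Real Vale.Agent.P157 Vale.Agent.P157.Alg

noncomputable section

namespace Ah

variable {Ω : Type} {m : ℕ}

/-- act on the fibre -/
def loc (Q : Op Ω) : Op (Fin m × Ω) where
  toFun g := fun p => Q (fun ω => g (p.1, ω)) p.2
  map_add' g h := by
    ext p; exact congrFun (Q.map_add (fun ω => g (p.1, ω)) (fun ω => h (p.1, ω))) p.2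
  map_smul' c g := by ext p; exact congrFun (Q.map_smul c (fun ω => g (p.1, ω))) p.2

/-- resample the fibre -/
def mix (w : Fin m → ℝ) (Q : Op Ω) : Op (Fin m × Ω) where
  toFun g := fun p => ∑ t, w t * Q (fun ω => g (t, ω)) p.2
  map_add' g h := by
    ext p
    simp only [Pi.add_apply, ← sum_add_distrib]
    refine sum_congr rfl fun t _ => ?_
    have := congrFun (Q.map_add (fun ω => g (t, ω)) (fun ω => h (t, ω))) p.2
    simp only [Pi.add_apply] at this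
    rw [← mul_add, ← this]; rfl
  map_smul' c g := by
    ext p
    simp only [Pi.smul_apply, smul_eq_mul, RingHom.id_apply, mul_sum]
    refine sum_congr rfl fun t _ => ?_
    rw [op_mul]; ring

def hat (n : ℕ) (w : Fin m → ℝ) (P : ℕ → Op Ω) (j : ℕ) : Op (Fin m × Ω) :=
  if j = n then mix w (P j) else loc (P j)

def rhat (n : ℕ) (r : ℕ → Ω → Ω → Prop) (d : ℕ) (p q : Fin m × Ω) : Prop :=
  r d p.2 q.2 ∧ (d ≤ n → p.1 = q.1)

/-- normalised energy -/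
def Zh (n : ℕ) (P : ℕ → Op Ω) (Z : Fin m → Ω → ℝ) (ω0 : Ω) (p : Fin m × Ω) : ℝ :=
  Z p.1 p.2 - XX P (ex n) (Z p.1) (n + 1) ω0

lemma hat_ne {n j : ℕ} (h : j ≠ n) (w : Fin m → ℝ) (P : ℕ → Op Ω) (g : Fin m × Ω → ℝ) (t : Fin m)
    (ω : Ω) : hat n w P j g (t, ω) = P j (fun x => g (t, x)) ω := by
  rw [hat, if_neg h]; rfl

lemma hat_eq (n : ℕ) (w : Fin m → ℝ) (P : ℕ → Op Ω) (g : Fin m × Ω → ℝ) (t : Fin m)
    (ω : Ω) : hat n w P n g (t, ω) = ∑ t', w t' * P n (fun x => g (t', x)) ω := by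
  rw [hat, if_pos rfl]; rfl

lemma ok_hat {n : ℕ} {P : ℕ → Op Ω} (hO : Ok P (ex n) (n + 1)) {w : Fin m → ℝ}
    (hw : ∀ t, 0 ≤ w t) (hw1 : ∑ t, w t = 1) : Ok (hat n w P) (ex n) (n + 1) := by
  refine ⟨fun j => ⟨fun g hg p => ?_, fun p => ?_⟩, hO.pos, hO.le1, hO.anti⟩
  · obtain ⟨t, ω⟩ := p
    by_cases h : j = n
    · subst h
      rw [hat_eq]
      exact sum_nonneg fun t' _ => mul_nonneg (hw t') ((hO.mk' j).1 _ (fun x => hg _) ω)
    · rw [hat_ne h]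
      exact (hO.mk' j).1 _ (fun x => hg _) ω
  · obtain ⟨t, ω⟩ := p
    by_cases h : j = n
    · subst h
      rw [hat_eq]
      simp only [(hO.mk' j).2 ω, mul_one, hw1]
    · rw [hat_ne h]
      exact (hO.mk' j).2 ω

lemma fil_hat {P : ℕ → Op Ω} {r : ℕ → Ω → Ω → Prop} (hP : Fil P r) (n : ℕ) (w : Fin m → ℝ) :
    Fil (hat n w P) (rhat n r) := by
  refine ⟨fun d p => ⟨hP.refl d _, fun _ => rfl⟩,
    fun d p q h => ⟨hP.symm d _ _ h.1, fun hd => (h.2 hd).symm⟩,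
    fun d p q s h h' => ⟨hP.trans d _ _ _ h.1 h'.1, fun hd => (h.2 hd).trans (h'.2 hd)⟩,
    fun p q h => Prod.ext (h.2 (Nat.zero_le n)) (hP.zero _ _ h.1),
    fun d p q h => ⟨hP.mono d _ _ h.1, fun hd => h.2 (by omega)⟩, ?_, ?_⟩
  · rintro d u u' ⟨t, ω⟩ h
    by_cases hd : d = n
    · subst hd
      rw [hat_eq, hat_eq]
      refine sum_congr rfl fun t' _ => ?_
      rw [hP.supp d (fun x => u (t', x)) (fun x => u' (t', x)) ω
        (fun ω' hr => h (t', ω') ⟨hr, fun hc => absurd hc (by omega)⟩)]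
    · rw [hat_ne hd, hat_ne hd]
      exact hP.supp d _ _ ω (fun ω' hr => h (t, ω') ⟨hr, fun _ => rfl⟩)
  · rintro d u hu ⟨t, ω⟩ ⟨t', ω'⟩ h
    have h1 : ∀ s, Dep r d (fun x => u (s, x)) := fun s x x' hx => hu _ _ ⟨hx, fun _ => rfl⟩
    by_cases hd : d = n
    · subst hd
      rw [hat_eq, hat_eq]
      exact sum_congr rfl fun s _ => by rw [hP.dep d _ (h1 s) ω ω' h.1]
    · rw [hat_ne hd, hat_ne hd]
      have h2 : (fun x => u (t', x)) = fun x => u (t, x) := by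
        funext x
        by_cases hdn : d + 1 ≤ n
        · have : t = t' := h.2 hdn
          rw [this]
        · exact hu _ _ ⟨hP.refl d x, fun hc => absurd hc (by omega)⟩
      rw [h2]
      exact hP.dep d _ (h1 t) ω ω' h.1

lemma qq_apply (P : ℕ → Op Ω) (e : ℕ → ℝ) (Z : Ω → ℝ) (j : ℕ) (g : Ω → ℝ) (ω : Ω) :
    QQ P e Z j g ω =
      exp (-(e j * XX P e Z (j + 1) ω)) * P j (fun x => exp (e j * XX P e Z j x) * g x) ω := rfl

lemma exp_xx (hA : AApi) {n : ℕ} {P : ℕ → Op Ω} (hO : Ok P (ex n) (n + 1)) (Z : Ω → ℝ) {j : ℕ}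
    (hj : j < n + 1) (ω : Ω) : exp (ex n j * XX P (ex n) Z (j + 1) ω) =
      P j (fun x => exp (ex n j * XX P (ex n) Z j x)) ω := by
  have h1 := hA.jen (hO.mk' j) (fun x => ex n j * XX P (ex n) Z j x) ω
  have h2 : XX P (ex n) Z (j + 1) ω =
      (ex n j)⁻¹ * log (P j (fun x => exp (ex n j * XX P (ex n) Z j x)) ω) := rfl
  rw [h2, mul_inv_cancel_left₀ (hO.pos j hj).ne', exp_log ((exp_pos _).trans_le h1)]

variable {n : ℕ} {P : ℕ → Op Ω}

lemma xx_hat (hA : AApi) (hO : Ok P (ex n) (n + 1)) (w : Fin m → ℝ) (Z : Fin m → Ω → ℝ) (ω0 : Ω)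
    (j : ℕ) (hj : j ≤ n) (t : Fin m) (ω : Ω) :
    XX (hat n w P) (ex n) (Zh n P Z ω0) j (t, ω) =
      XX P (ex n) (Z t) j ω - XX P (ex n) (Z t) (n + 1) ω0 := by
  induction j generalizing t ω with
  | zero => rfl
  | succ j ih =>
    have h2 : XX (hat n w P) (ex n) (Zh n P Z ω0) (j + 1) (t, ω) = (ex n j)⁻¹ * log (hat n w P j
        (fun x => exp (ex n j * XX (hat n w P) (ex n) (Zh n P Z ω0) j x)) (t, ω)) := rfl
    rw [h2, hat_ne (by omega)]
    simp only [ih (by omega)]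
    rw [show (fun x => exp (ex n j * (XX P (ex n) (Z t) j x - XX P (ex n) (Z t) (n + 1) ω0))) =
        fun x => exp (-(ex n j * XX P (ex n) (Z t) (n + 1) ω0)) *
          exp (ex n j * XX P (ex n) (Z t) j x) from funext fun x => by
        rw [← exp_add]; congr 1; ring,
      op_mul, ← exp_xx hA hO (Z t) (by omega), ← exp_add, log_exp]
    have := (hO.pos j (by omega)).ne'
    field_simp
    ring

lemma xx_top (hA : AApi) (hO : Ok P (ex n) (n + 1)) {w : Fin m → ℝ} (hw1 : ∑ t, w t = 1)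
    (Z : Fin m → Ω → ℝ) (ω0 : Ω) (t : Fin m) :
    XX (hat n w P) (ex n) (Zh n P Z ω0) (n + 1) (t, ω0) = 0 := by
  have h2 : XX (hat n w P) (ex n) (Zh n P Z ω0) (n + 1) (t, ω0) = (ex n n)⁻¹ * log (hat n w P n
      (fun x => exp (ex n n * XX (hat n w P) (ex n) (Zh n P Z ω0) n x)) (t, ω0)) := rfl
  rw [h2, hat_eq]
  have h3 : ∀ s, P n (fun x => exp (ex n n * XX (hat n w P) (ex n) (Zh n P Z ω0) n (s, x))) ω0 =
      1 := by
    intro s
    simp only [xx_hat hA hO w Z ω0 n le_rfl]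
    rw [show (fun x => exp (ex n n * (XX P (ex n) (Z s) n x - XX P (ex n) (Z s) (n + 1) ω0))) =
        fun x => exp (-(ex n n * XX P (ex n) (Z s) (n + 1) ω0)) *
          exp (ex n n * XX P (ex n) (Z s) n x) from funext fun x => by
        rw [← exp_add]; congr 1; ring,
      op_mul, ← exp_xx hA hO (Z s) (by omega), ← exp_add]
    simp
  simp only [h3, mul_one, hw1, log_one, mul_zero]

lemma qq_hat (hA : AApi) (hO : Ok P (ex n) (n + 1)) (w : Fin m → ℝ) (Z : Fin m → Ω → ℝ) (ω0 : Ω)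
    {j : ℕ} (hj : j < n) (g : Fin m × Ω → ℝ) (t : Fin m) (ω : Ω) :
    QQ (hat n w P) (ex n) (Zh n P Z ω0) j g (t, ω) =
      QQ P (ex n) (Z t) j (fun x => g (t, x)) ω := by
  rw [qq_apply, qq_apply, hat_ne hj.ne, xx_hat hA hO w Z ω0 (j + 1) hj]
  simp only [xx_hat hA hO w Z ω0 j hj.le]
  rw [show (fun x => exp (ex n j * (XX P (ex n) (Z t) j x - XX P (ex n) (Z t) (n + 1) ω0)) *
        g (t, x)) = fun x => exp (-(ex n j * XX P (ex n) (Z t) (n + 1) ω0)) *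
          (exp (ex n j * XX P (ex n) (Z t) j x) * g (t, x)) from funext fun x => by
        rw [← mul_assoc, ← exp_add]; congr 2; ring,
    op_mul, ← mul_assoc, ← exp_add]
  congr 2
  ring

lemma qq_top (hA : AApi) (hO : Ok P (ex n) (n + 1)) {w : Fin m → ℝ} (hw1 : ∑ t, w t = 1)
    (Z : Fin m → Ω → ℝ) (ω0 : Ω) (g : Fin m × Ω → ℝ) (t : Fin m) :
    QQ (hat n w P) (ex n) (Zh n P Z ω0) n g (t, ω0) =
      ∑ s, w s * QQ P (ex n) (Z s) n (fun x => g (s, x)) ω0 := by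
  rw [qq_apply, xx_top hA hO hw1, hat_eq, mul_zero, neg_zero, exp_zero, one_mul]
  refine sum_congr rfl fun s _ => ?_
  simp only [xx_hat hA hO w Z ω0 n le_rfl]
  rw [show (fun x => exp (ex n n * (XX P (ex n) (Z s) n x - XX P (ex n) (Z s) (n + 1) ω0)) *
        g (s, x)) = fun x => exp (-(ex n n * XX P (ex n) (Z s) (n + 1) ω0)) *
          (exp (ex n n * XX P (ex n) (Z s) n x) * g (s, x)) from funext fun x => by
        rw [← mul_assoc, ← exp_add]; congr 2; ring,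
    op_mul, qq_apply]

lemma ce_succ (P : ℕ → Op Ω) (e : ℕ → ℝ) (Z : Ω → ℝ) {a b : ℕ} (h : a ≤ b) (g : Ω → ℝ) :
    Ce P e Z a (b + 1) g = QQ P e Z b (Ce P e Z a b g) := by
  rw [Ce, if_pos h]; rfl

lemma ce_hat (hA : AApi) (hO : Ok P (ex n) (n + 1)) (w : Fin m → ℝ) (Z : Fin m → Ω → ℝ) (ω0 : Ω)
    (a b : ℕ) (hb : b ≤ n) (g : Fin m × Ω → ℝ) (t : Fin m) (ω : Ω) :
    Ce (hat n w P) (ex n) (Zh n P Z ω0) a b g (t, ω) =
      Ce P (ex n) (Z t) a b (fun x => g (t, x)) ω := by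
  induction b generalizing ω with
  | zero => rfl
  | succ b ih =>
    by_cases hab : a ≤ b
    · rw [ce_succ _ _ _ hab, ce_succ _ _ _ hab, qq_hat hA hO w Z ω0 hb]
      simp only [ih (by omega)]
    · rw [hA.self _ _ _ (by omega), hA.self _ _ _ (by omega)]

lemma ce_top (hA : AApi) (hO : Ok P (ex n) (n + 1)) {w : Fin m → ℝ} (hw1 : ∑ t, w t = 1)
    (Z : Fin m → Ω → ℝ) (ω0 : Ω) {a : ℕ} (ha : a ≤ n) (g : Fin m × Ω → ℝ) (t : Fin m) :
    Ce (hat n w P) (ex n) (Zh n P Z ω0) a (n + 1) g (t, ω0) =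
      ∑ s, w s * Ce P (ex n) (Z s) a (n + 1) (fun x => g (s, x)) ω0 := by
  rw [ce_succ _ _ _ ha, qq_top hA hO hw1]
  refine sum_congr rfl fun s _ => ?_
  rw [ce_succ _ _ _ ha]
  simp only [ce_hat hA hO w Z ω0 a n le_rfl]

lemma e2_top (hA : AApi) (hO : Ok P (ex n) (n + 1)) {w : Fin m → ℝ} (hw1 : ∑ t, w t = 1)
    (Z : Fin m → Ω → ℝ) (ω0 : Ω) {l : ℕ} (hl : l ≤ n) (φ : Fin m × Ω → Fin m × Ω → ℝ) (t : Fin m) :
    E2 (hat n w P) (ex n) (Zh n P Z ω0) l (n + 1) φ (t, ω0) =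
      ∑ s, w s * E2 P (ex n) (Z s) l (n + 1) (fun x y => φ (s, x) (s, y)) ω0 := by
  unfold E2
  rw [ce_top hA hO hw1 Z ω0 hl]
  simp only [ce_hat hA hO w Z ω0 0 l hl]

lemma rho_hat {I : Type} (hA : AApi) (hO : Ok P (ex n) (n + 1)) (w : Fin m → ℝ)
    (Z : Fin m → Ω → ℝ) (ω0 : Ω) (s : I → Fin m → Ω → ℝ) (A : Finset I) {d : ℕ} (hd : d < n)
    (t : Fin m) (x y : Ω) :
    aρ (hat n w P) n (Zh n P Z ω0) (fun i p => s i p.1 p.2) A d (t, x) (t, y) =
      aρ P n (Z t) (fun i => s i t) A d x y := by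
  unfold aρ
  simp only [ce_hat hA hO w Z ω0 0 (d + 1) hd]

lemma avg_abs {w : Fin m → ℝ} (hw : ∀ t, 0 ≤ w t) (hw1 : ∑ t, w t = 1) {a b : Fin m → ℝ} {ε : ℝ}
    (h : ∀ t, |a t - b t| ≤ ε) : |∑ t, w t * a t - ∑ t, w t * b t| ≤ ε := by
  rw [← sum_sub_distrib]
  refine (abs_sum_le_sum_abs _ _).trans ?_
  calc ∑ t, |w t * a t - w t * b t| ≤ ∑ t, w t * ε := sum_le_sum fun t _ => by
        rw [← mul_sub, abs_mul, abs_of_nonneg (hw t)]
        exact mul_le_mul_of_nonneg_left (h t) (hw t)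
    _ = ε := by rw [← sum_mul, hw1, one_mul]

/-- the identities pass to the mixture -/
lemma gg_hat {I : Type} (hA : AApi) (hn : 1 ≤ n) (hO : Ok P (ex n) (n + 1)) {w : Fin m → ℝ}
    (hw : ∀ t, 0 ≤ w t) (hw1 : ∑ t, w t = 1) (Z : Fin m → Ω → ℝ) (ω0 : Ω)
    (s : I → Fin m → Ω → ℝ) (A : Finset I) (h : ℕ → Fin m → Ω → ℝ) {ε : ℝ}
    (hG : ∀ t, GG1 P n (Z t) (fun i => s i t) A (fun l => h l t) ω0 ε) (t0 : Fin m) :
    GG1 (hat n w P) n (Zh n P Z ω0) (fun i p => s i p.1 p.2) A (fun l p => h l p.1 p.2)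
      (t0, ω0) ε := by
  refine ⟨?_, fun κ hκ => ?_, fun κ l hκ hl => ?_, fun l hl1 hl => ?_⟩
  · rw [ce_top hA hO hw1 Z ω0 (Nat.zero_le n), ce_top hA hO hw1 Z ω0 (Nat.zero_le n)]
    exact avg_abs hw hw1 fun t => (hG t).u0
  · rw [ce_top hA hO hw1 Z ω0 (Nat.zero_le n), ce_top hA hO hw1 Z ω0 (Nat.zero_le n)]
    refine avg_abs hw hw1 fun t => le_trans (le_of_eq ?_) ((hG t).u1 κ hκ)
    congr 2
    refine op_congr _ (fun x => ?_) _
    rw [sum_congr rfl fun d hd =>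
      rho_hat hA hO w Z ω0 s A (d := d) (by have := (mem_Icc.1 hd).2; omega) t x x]
    rfl
  · rw [e2_top hA hO hw1 Z ω0 hl, e2_top hA hO hw1 Z ω0 hl]
    refine avg_abs hw hw1 fun t => le_trans (le_of_eq ?_) ((hG t).u2 κ l hκ hl)
    congr 3
    funext x y
    rw [sum_congr rfl fun d hd =>
      rho_hat hA hO w Z ω0 s A (d := d) (by have := (mem_Icc.1 hd).2; omega) t x x]
    rfl
  · rw [e2_top hA hO hw1 Z ω0 hl, e2_top hA hO hw1 Z ω0 hl]
    refine avg_abs hw hw1 fun t => le_trans (le_of_eq ?_) ((hG t).sh l hl1 hl)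
    congr 3
    funext x y
    rw [sum_congr rfl fun d hd => by
      rw [rho_hat hA hO w Z ω0 s A (d := d) (by have := (mem_Ico.1 hd).2; omega) t x x,
        rho_hat hA hO w Z ω0 s A (d := d) (by have := (mem_Ico.1 hd).2; omega) t x y],
      rho_hat hA hO w Z ω0 s A hl t x x]
    rfl

end Ah

end

end Vale.Agent.P166
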