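import Vale.Agent.P166.Stm

/-! P166: the value at an approximate fixed point bounds the discrete formula. -/

namespace Vale.Agent.P166

open MeasureTheory Finset Real Vale.Agent.P157

namespace An2

lemma tele {n : ℕ} {W e : ℕ → ℝ} {t : ℝ} (hW : Path n W) (he : ∀ l, l < n → e l ≤ t) :
    ∑ l ∈ range n, (W l - W (l + 1)) * e l / 2 ≤ W 0 * t / 2 := by
  have h1 : ∑ l ∈ range n, (W l - W (l + 1)) * e l / 2 ≤
      ∑ l ∈ range n, (W l - W (l + 1)) * (t / 2) := by
    refine Finset.sum_le_sum fun l hl => ?_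
    have hl' := Finset.mem_range.1 hl
    have := mul_le_mul_of_nonneg_left (he l hl') (sub_nonneg.2 (hW.1 l hl'))
    linarith
  rw [← Finset.sum_mul, Finset.sum_range_sub', hW.2] at h1
  linarith

lemma d1 (a θ x : ℝ) (h : a = 0 ∨ 0 < 1 + θ * x) :
    HasDerivAt (fun x => a / (1 + θ * x)) (-(a * θ / (1 + θ * x) ^ 2)) x := by
  rcases h with h | h
  · subst h; simpa using hasDerivAt_const x (0 : ℝ)
  · have h1 : HasDerivAt (fun x => 1 + θ * x) θ x := by
      simpa using ((hasDerivAt_id x).const_mul θ).const_add 1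
    have h2 := (hasDerivAt_const x a).div h1 h.ne'
    have h3 : -(a * θ / (1 + θ * x) ^ 2) = (0 * (1 + θ * x) - a * θ) / (1 + θ * x) ^ 2 := by ring
    rw [h3]; exact h2

lemma d2 (a θ x : ℝ) (h : a = 0 ∨ 0 < 1 + θ * x) :
    HasDerivAt (fun x => a * ph θ x) (a / (1 + θ * x) ^ 2) x := by
  rcases h with h | h
  · subst h; simpa using hasDerivAt_const x (0 : ℝ)
  · have h1 : HasDerivAt (fun x => 1 + θ * x) θ x := by
      simpa using ((hasDerivAt_id x).const_mul θ).const_add 1
    have h2 := ((hasDerivAt_id x).div h1 h.ne').const_mul a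
    have h3 : a / (1 + θ * x) ^ 2 = a * ((1 * (1 + θ * x) - id x * θ) / (1 + θ * x) ^ 2) := by
      simp only [id]; ring
    rw [h3]; exact h2

lemma d3 (a θ x : ℝ) (h : a = 0 ∨ 0 < 1 + θ * x) :
    HasDerivAt (fun x => a * log (1 + θ * x)) (a * θ / (1 + θ * x)) x := by
  rcases h with h | h
  · subst h; simpa using hasDerivAt_const x (0 : ℝ)
  · have h1 : HasDerivAt (fun x => 1 + θ * x) θ x := by
      simpa using ((hasDerivAt_id x).const_mul θ).const_add 1
    have h2 := (h1.log h.ne').const_mul a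
    have h3 : a * θ / (1 + θ * x) = a * (θ / (1 + θ * x)) := by ring
    rw [h3]; exact h2

variable {κ : Type} [Fintype κ] {α lam : κ → ℝ} {τ : κ} {Γ η : ℝ}

lemma alt (hW : Wt α lam τ Γ η) {x : ℝ} (hx : 0 ≤ x) (k : κ) :
    α k = 0 ∨ 0 < 1 + (lam τ - lam k) * x := by
  rcases (hW.nn k).eq_or_lt with h | h
  · exact Or.inl h.symm
  · have := mul_nonneg (sub_nonneg.2 (hW.le k h)) hx
    exact Or.inr (by linarith)

/-- the explicit primitive -/
noncomputable def FF (α lam : κ → ℝ) (τ : κ) (x : ℝ) : ℝ :=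
  ((lam τ - mn α lam) * Xi α lam τ x + rho α lam τ x - 1 - log (rho α lam τ x) -
    ∑ k, α k * log (1 + (lam τ - lam k) * x)) / 2

lemma der (hW : Wt α lam τ Γ η) {x : ℝ} (hx : 0 ≤ x) (hρ : 0 < rho α lam τ x) :
    HasDerivAt (FF α lam τ)
      (bt α lam τ x / 2 * ∑ k, α k / (1 + (lam τ - lam k) * x) ^ 2) x := by
  have h1 : HasDerivAt (rho α lam τ)
      (∑ k, -(α k * (lam τ - lam k) / (1 + (lam τ - lam k) * x) ^ 2)) x :=
    HasDerivAt.fun_sum fun k _ => d1 _ _ x (alt hW hx k)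
  have h2 : HasDerivAt (Xi α lam τ) (∑ k, α k / (1 + (lam τ - lam k) * x) ^ 2) x :=
    HasDerivAt.fun_sum fun k _ => d2 _ _ x (alt hW hx k)
  have h3 : HasDerivAt (fun x => ∑ k, α k * log (1 + (lam τ - lam k) * x))
      (∑ k, α k * (lam τ - lam k) / (1 + (lam τ - lam k) * x)) x :=
    HasDerivAt.fun_sum fun k _ => d3 _ _ x (alt hW hx k)
  have h4 := (((((h2.const_mul (lam τ - mn α lam)).add h1).sub_const 1).sub (h1.log hρ.ne')).sub
    h3).div_const 2
  set r' := ∑ k, -(α k * (lam τ - lam k) / (1 + (lam τ - lam k) * x) ^ 2) with hr'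
  set D := ∑ k, α k / (1 + (lam τ - lam k) * x) ^ 2 with hD
  set A := ∑ k, α k * (lam τ - lam k) / (1 + (lam τ - lam k) * x) with hA
  have e1 : rho α lam τ x + x * A = 1 := by
    rw [← hW.sum, hA, rho, Finset.mul_sum, ← Finset.sum_add_distrib]
    refine Finset.sum_congr rfl fun k _ => ?_
    rcases alt hW hx k with h | h
    · simp [h]
    · have := h.ne'
      field_simp
  have e2 : D = rho α lam τ x + x * r' := by
    rw [hD, hr', rho, Finset.mul_sum, ← Finset.sum_add_distrib]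
    refine Finset.sum_congr rfl fun k _ => ?_
    rcases alt hW hx k with h | h
    · simp [h]
    · have := h.ne'
      field_simp
      ring
  have e3 : bt α lam τ x / 2 * D =
      ((lam τ - mn α lam) * D + r' - r' / rho α lam τ x - A) / 2 := by
    rw [bt, ← hA]
    have hne := hρ.ne'
    field_simp
    linear_combination (-A) * e2 + (-r') * e1
  rw [e3]
  exact h4

end An2

theorem an2Stmt (hT : TApi) (hD : DApi) (hSep : SepStmt) (hSec : SecStmt) : An2Stmt := by
  intro Γ η L hη hL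
  set X : ℝ := max 1 (1 / η) with hX
  have hX1 : 1 ≤ X := le_max_left _ _
  have hX2 : 1 / η ≤ X := le_max_right _ _
  have hLη : 0 ≤ L / η := div_nonneg hL hη.le
  refine ⟨L * (X / η) + 2 * (L / η) * X + L / η, by positivity, ?_⟩
  intro n κ _ α lam τ p pv t hn hW hb hp hp0 hpv hpv0 hmax hell
  have ht : 0 ≤ t := (abs_nonneg _).trans (hell 0 hn)
  obtain ⟨hXi0, hbt0, -, hbas⟩ := hD.basic hη hW
  set pb := fp n (Xi α lam τ) p with hpb
  set Q := fp n (bt α lam τ) p with hQ
  set h : ℝ → ℝ := fun x => gD α lam τ x - mn α lam * x / 2 with hh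
  have hpp : 0 ≤ p 0 := (hT.nn hp 0 (Nat.zero_le _)).1
  have hpbP : Path n pb := hT.fp_path hp fun x hx x' _ hxx => by
    have := (hD.xlip hη hW x x' hx.1 hxx).1
    have h2 := mul_nonneg hη.le (sub_nonneg.2 hxx)
    linarith
  have hQP : Path n Q := hT.fp_path hp fun x hx x' _ hxx => by
    have := (hb x x' hx.1 hxx).1
    linarith
  have hpb0 : pb 0 ≤ X := by
    have := (hT.lip (f := Xi α lam τ) (L := 1) hp fun x x' hx hxx _ => by
      have h1 := hD.xlip hη hW x x' hx hxx
      have h2 := mul_nonneg hη.le (sub_nonneg.2 hxx)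
      rw [abs_of_nonneg (by linarith)]; linarith).1
    rw [hpb, hT.fp_zero]
    linarith [le_abs_self (tr n (Xi α lam τ) p)]
  have hQ0 : Q 0 ≤ L / η := by
    have := (hT.lip (f := bt α lam τ) (L := L) hp fun x x' hx hxx _ => by
      have h1 := hb x x' hx hxx
      rw [abs_of_nonneg h1.1]; exact h1.2).1
    rw [hQ, hT.fp_zero]
    have h2 : L * p 0 ≤ L / η := by
      rw [div_eq_mul_one_div]; exact mul_le_mul_of_nonneg_left hp0 hL
    linarith [le_abs_self (tr n (bt α lam τ) p)]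
  have hF : ∀ x, 0 ≤ x → h (Xi α lam τ x) = An2.FF α lam τ x := fun x hx => by
    simp only [hh, An2.FF]
    rw [hD.val hη hW x hx]; ring
  have hsec : Sec h X (L / η) (L * (X / η)) := by
    refine hSep κ α lam τ Γ η X L (L * (X / η)) (An2.FF α lam τ) (fun x => bt α lam τ x / 2) h hη hL
      hW (fun x hx => An2.der hW hx (hη.trans_le (hbas x hx).2.1)) (fun x x' hx hxx hx' => ?_) hF
    have h1 := hb 0 x le_rfl hx
    have h2 := hb 0 x' le_rfl (hx.trans hxx)
    have h3 := hb x x' hx hxx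
    have h4 : L * x' ≤ L * (X / η) := mul_le_mul_of_nonneg_left hx' hL
    have h5 : 0 ≤ L * x' := mul_nonneg hL (hx.trans hxx)
    rw [hbt0] at h1 h2
    refine ⟨by linarith [h1.1], by linarith [h2.2], by linarith [h3.1], ?_⟩
    have h6 : 0 ≤ L * (x' - x) := mul_nonneg hL (sub_nonneg.2 hxx)
    linarith [h3.2]
  obtain ⟨W, hWP, hW0, hWe⟩ := hSec n h X (L / η) (L * (X / η)) pv pb hn hLη hsec hpv hpbP
    (hpv0.le.trans hX1) hpb0
  have s1 : tr n h pv - tr n h pb ≤ W 0 * t / 2 := by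
    rw [hWe]; exact An2.tele hWP fun l hl => (abs_le.1 (hell l hl)).2
  have s2 : W 0 * t / 2 ≤ (L * (X / η) + 2 * (L / η) * X) * t := by
    have h1 : 2 * (L / η) * (pv 0 + pb 0) ≤ 2 * (L / η) * (2 * X) :=
      mul_le_mul_of_nonneg_left (by linarith) (by positivity)
    have h2 : W 0 ≤ 2 * (L * (X / η) + 2 * (L / η) * X) := by linarith
    have := mul_le_mul_of_nonneg_right h2 ht
    linarith
  have s3 : VD n α lam τ ≤ tr n (gD α lam τ) pv + (psi n Q + ip n pv Q) := by
    have h1 := (hT.vbdd (g := gD α lam τ) (L := Γ / 2) hn fun x x' hx hxx _ =>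
      hD.glip hη hW x x' hx hxx).1
    have h2 : sSup (dualSet n pv) ≤ psi n Q + ip n pv Q :=
      csSup_le ⟨_, Q, hQP, rfl⟩ (by rintro _ ⟨q, hq, rfl⟩; exact hmax q hq)
    have h3 : VD n α lam τ ≤ tr n (gD α lam τ) pv + sSup (dualSet n pv) :=
      csInf_le h1 ⟨pv, hpv, hpv0, rfl⟩
    linarith
  have s4 : tr n (gD α lam τ) pv = tr n h pv + mn α lam / 2 := by
    have h1 : gD α lam τ = fun x => 1 * h x + mn α lam / 2 * (fun x => x) x + 0 := by
      funext x; simp only [hh]; ring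
    have h2 := hT.fp_lin n h (fun x => x) 1 (mn α lam / 2) 0 pv 0
    rw [← h1, hT.fp_id hpv 0 (Nat.zero_le _), hT.fp_zero, hT.fp_zero, hpv0] at h2
    linarith
  have s5 : tr n h pb = tr n (fun x => bt α lam τ x * Xi α lam τ x) p / 2 +
      tr n (fun x => -log (rho α lam τ x) / 2) p + ∑ k, α k * tr n (lg (lam τ - lam k)) p := by
    have h1 := hT.fp_comp n (Xi α lam τ) h p 0 hXi0
    have h2 := hT.fp_congr (f := fun x => h (Xi α lam τ x))
      (g := fun x => 1 * (fun x => (1 / 2) * (fun x => bt α lam τ x * Xi α lam τ x) x +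
        1 * (fun x => -log (rho α lam τ x) / 2) x + 0) x +
        1 * (fun x => ∑ k, α k * lg (lam τ - lam k) x) x + 0) hp (fun x hx _ => by
        rw [hF x hx]
        have h3 := (hbas x hx).2.2.2
        have h4 : ∑ k, α k * lg (lam τ - lam k) x =
            -(∑ k, α k * log (1 + (lam τ - lam k) * x)) / 2 := by
          rw [← Finset.sum_neg_distrib, Finset.sum_div]
          exact Finset.sum_congr rfl fun k _ => by unfold lg; ring
        simp only [An2.FF, h4]
        linarith) 0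
    rw [hT.fp_lin, hT.fp_lin, hT.fp_sum] at h2
    rw [← hT.fp_zero n h pb, hpb, h1, h2]
    simp only [hT.fp_zero]
    ring
  have s6 := hT.bil n (bt α lam τ) (Xi α lam τ) p hn hbt0 hXi0
  rw [← hT.fp_zero n (bt α lam τ), ← hT.fp_zero n (Xi α lam τ), ← hpb, ← hQ] at s6
  have s7 := hT.pair n Q pb hn hQP.2
  have s8 := hT.pair n Q pv hn hQP.2
  have s9 := An2.tele (e := fun l => ell n pb l - ell n pv l) (t := t) hQP fun l hl => by
    have := (abs_le.1 (hell l hl)).1
    linarith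
  have s10 : ∑ l ∈ range n, (Q l - Q (l + 1)) * (ell n pb l - ell n pv l) / 2 =
      ∑ l ∈ range n, (Q l - Q (l + 1)) * ell n pb l / 2 -
        ∑ l ∈ range n, (Q l - Q (l + 1)) * ell n pv l / 2 := by
    rw [← Finset.sum_sub_distrib]
    exact Finset.sum_congr rfl fun l _ => by ring
  have s11 : ip n Q pb = ip n pb Q := by
    unfold ip
    congr 1
    exact Finset.sum_congr rfl fun d _ => mul_comm _ _
  have s12 : Q 0 * t ≤ L / η * t := mul_le_mul_of_nonneg_right hQ0 ht
  have s13 : 0 ≤ L / η * t := mul_nonneg hLη ht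
  rw [s10, s7, s8, hpv0] at s9
  rw [s11] at s6
  linarith

end Vale.Agent.P166
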