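import Vale.Agent.P166.Stm

/-! P166: the analytic part of one step of the upper bound. -/

namespace Vale.Agent.P166

open MeasureTheory ProbabilityTheory Finset Real Filter Topology Vale.Agent.P157

namespace An3

variable {κ : Type} [Fintype κ]

theorem wt_le_one {α lam : κ → ℝ} {τ : κ} {Γ η : ℝ} (h : Wt α lam τ Γ η) (k : κ) : α k ≤ 1 := by
  rw [← h.sum]
  exact single_le_sum (fun j _ => h.nn j) (mem_univ k)

theorem val' (hD : DApi) {α lam : κ → ℝ} {τ : κ} {Γ η : ℝ} (hη : 0 < η) (h : Wt α lam τ Γ η)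
    {x : ℝ} (hx : 0 ≤ x) : gD α lam τ (Xi α lam τ x) =
      (Xi α lam τ x * lam τ + rho α lam τ x - 1 -
        ∑ k, α k * log (Xi α lam τ x * lam τ + rho α lam τ x - Xi α lam τ x * lam k)) / 2 := by
  obtain ⟨h1, h2, -, -⟩ := (hD.basic hη h).2.2.2 x hx
  have hρ : 0 < rho α lam τ x := hη.trans_le h2
  have h3 : ∑ k, α k * log (Xi α lam τ x * lam τ + rho α lam τ x - Xi α lam τ x * lam k) =
      ∑ k, (α k * log (rho α lam τ x) + α k * log (1 + (lam τ - lam k) * x)) := by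
    refine sum_congr rfl fun k _ => ?_
    rcases (h.nn k).eq_or_lt with h0 | h0
    · rw [← h0]; ring
    · have h4 : 0 < 1 + (lam τ - lam k) * x := by
        have := h.le k h0
        have : 0 ≤ (lam τ - lam k) * x := mul_nonneg (by linarith) hx
        linarith
      rw [show Xi α lam τ x * lam τ + rho α lam τ x - Xi α lam τ x * lam k =
        rho α lam τ x * (1 + (lam τ - lam k) * x) by rw [h1]; ring, log_mul hρ.ne' h4.ne']
      ring
  rw [hD.val hη h x hx, h3, sum_add_distrib, ← sum_mul, h.sum]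
  ring

theorem dif [DecidableEq κ] {α α' lam lam' : κ → ℝ} {τ k0 : κ} {u : ℝ} (hk : k0 ≠ τ)
    (h1 : α' τ = α τ + u) (h2 : α' k0 = α k0 - u) (h3 : ∀ k, k ≠ τ → k ≠ k0 → α' k = α k)
    (h4 : ∀ k, k ≠ τ → lam' k = lam k) (G : ℝ → ℝ) :
    ∑ k, α' k * G (lam' k) - ∑ k, α k * G (lam k) =
      (α τ + u) * G (lam' τ) - α τ * G (lam τ) - u * G (lam k0) := by
  rw [← sum_sub_distrib, Fintype.sum_eq_add τ k0 hk.symm (fun k hk' => by
    rw [h3 k hk'.1 hk'.2, h4 k hk'.1, sub_self]), h1, h2, h4 k0 hk]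
  ring

theorem ph_anti {θ θ' x : ℝ} (h0 : 0 ≤ θ') (h : θ' ≤ θ) (hx : 0 ≤ x) : ph θ x ≤ ph θ' x := by
  unfold ph
  have : 0 ≤ θ' * x := mul_nonneg h0 hx
  have : θ' * x ≤ θ * x := mul_le_mul_of_nonneg_right h hx
  gcongr

theorem upR {a u θ dl x c : ℝ} (ha : 0 ≤ a) (hu : 0 < u) (hau : a + u ≤ 1)
    (hdl1 : (a + u) * dl = θ * u) (hdl0 : 0 ≤ dl) (hdlθ : dl ≤ θ) (hx : 0 ≤ x) (t1 : x * dl ≤ c * u)
    (hs : c * u ≤ 1 / 2) (hc0 : 0 ≤ c) :
    (-(a * log (1 - x * dl)) - u * log (1 + (θ - dl) * x)) / 2 ≤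
      u * (θ / 2 * x + lg θ x + (c ^ 2 + c) * u) := by
  have t0 : 0 ≤ x * dl := mul_nonneg hx hdl0
  have p1 : 0 < 1 - x * dl := by linarith
  have p0 : 0 ≤ (θ - dl) * x := mul_nonneg (by linarith) hx
  have p2 : 0 < 1 + (θ - dl) * x := by linarith
  have p3 : 0 < 1 + θ * x := by nlinarith
  have l1 : -log (1 - x * dl) ≤ x * dl + 2 * (x * dl) ^ 2 := by
    have h6 := one_sub_inv_le_log_of_pos p1
    have h7 : (1 - x * dl)⁻¹ ≤ 1 + x * dl + 2 * (x * dl) ^ 2 := by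
      rw [inv_le_iff_one_le_mul₀ p1]
      nlinarith [mul_nonneg (sq_nonneg (x * dl)) (show 0 ≤ 1 - 2 * (x * dl) by linarith)]
    linarith
  have l2 : log (1 + θ * x) ≤ log (1 + (θ - dl) * x) + x * dl := by
    have h6 := log_le_sub_one_of_pos (div_pos p3 p2)
    rw [log_div p3.ne' p2.ne'] at h6
    have h7 : (1 + θ * x) / (1 + (θ - dl) * x) ≤ 1 + x * dl := by
      rw [div_le_iff₀ p2]
      nlinarith [mul_nonneg t0 p0]
    linarith
  have l3 : a * -log (1 - x * dl) ≤ a * (x * dl + 2 * (x * dl) ^ 2) :=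
    mul_le_mul_of_nonneg_left l1 ha
  have l4 : a * (x * dl) ≤ θ * u * x := by
    rw [← hdl1]
    nlinarith [mul_nonneg hu.le t0]
  have l5 : a * (x * dl) ^ 2 ≤ (c * u) ^ 2 := by
    have h6 : (x * dl) ^ 2 ≤ (c * u) ^ 2 := by gcongr
    have h7 : a * (x * dl) ^ 2 ≤ 1 * (x * dl) ^ 2 :=
      mul_le_mul_of_nonneg_right (by linarith) (sq_nonneg _)
    linarith
  have l6 : u * log (1 + θ * x) ≤ u * (log (1 + (θ - dl) * x) + c * u) :=
    mul_le_mul_of_nonneg_left (by linarith) hu.le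
  unfold lg
  linarith [mul_nonneg hc0 (sq_nonneg u)]

theorem loR {a u θ dl x c : ℝ} (hau0 : 0 ≤ a + u) (hau : a + u ≤ 1)
    (hdl1 : (a + u) * dl = θ * u) (hdl0 : 0 ≤ dl) (hx : 0 ≤ x) (t1 : x * dl ≤ c * u) (hc0 : 0 ≤ c) :
    u * (θ / 2 * x + lg θ x - (c ^ 2 + c) * u) ≤
      ((a + u) * log (1 + x * dl) - u * log (1 + θ * x)) / 2 := by
  have t0 : 0 ≤ x * dl := mul_nonneg hx hdl0
  have p1 : 0 < 1 + x * dl := by linarith
  have l1 : x * dl - (x * dl) ^ 2 ≤ log (1 + x * dl) := by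
    have h6 := one_sub_inv_le_log_of_pos p1
    have h7 : (1 + x * dl)⁻¹ ≤ 1 - x * dl + (x * dl) ^ 2 := by
      rw [inv_le_iff_one_le_mul₀ p1]
      nlinarith [mul_nonneg (sq_nonneg (x * dl)) t0]
    linarith
  have l3 := mul_le_mul_of_nonneg_left l1 hau0
  have l4 : (a + u) * (x * dl) = θ * u * x := by rw [← hdl1]; ring
  have l5 : (a + u) * (x * dl) ^ 2 ≤ (c * u) ^ 2 := by
    have h6 : (x * dl) ^ 2 ≤ (c * u) ^ 2 := by gcongr
    have h7 : (a + u) * (x * dl) ^ 2 ≤ 1 * (x * dl) ^ 2 :=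
      mul_le_mul_of_nonneg_right hau (sq_nonneg _)
    linarith
  unfold lg
  linarith [mul_nonneg hc0 (sq_nonneg u), sq_nonneg (c * u)]

theorem xi_le [DecidableEq κ] {α α' lam lam' : κ → ℝ} {τ k0 : κ} {Γ η u : ℝ} (hu : 0 < u)
    (hk : k0 ≠ τ) (hW' : Wt α' lam' τ Γ η) (h1 : α' τ = α τ + u) (h2 : α' k0 = α k0 - u)
    (h3 : ∀ k, k ≠ τ → k ≠ k0 → α' k = α k) (h4 : ∀ k, k ≠ τ → lam' k = lam k)
    (hθ : 0 ≤ lam τ - lam k0) (hdl : lam' τ ≤ lam τ) {x : ℝ} (hx : 0 ≤ x) :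
    Xi α lam τ x ≤ Xi α' lam' τ x := by
  have d := dif hk h1 h2 h3 h4 (fun t => ph (lam τ - t) x)
  have h9 : α' τ * ph (lam' τ - lam' τ) x - α' τ * ph (lam τ - lam' τ) x ≤
      ∑ k, (α' k * ph (lam' τ - lam' k) x - α' k * ph (lam τ - lam' k) x) := by
    refine single_le_sum (f := fun k => α' k * ph (lam' τ - lam' k) x -
      α' k * ph (lam τ - lam' k) x) (fun k _ => ?_) (mem_univ τ)
    rcases (hW'.nn k).eq_or_lt with h0 | h0
    · rw [← h0, zero_mul, zero_mul, sub_zero]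
    · exact sub_nonneg.2 (mul_le_mul_of_nonneg_left
        (ph_anti (by linarith [hW'.le k h0]) (by linarith) hx) h0.le)
  rw [sum_sub_distrib, sub_self, h1] at h9
  rw [sub_self] at d
  have h10 := mul_le_mul_of_nonneg_left (ph_anti le_rfl hθ hx) hu.le
  unfold Xi
  linarith

/-- the two envelope estimates -/
theorem env [DecidableEq κ] (hD : DApi) (hT : TApi) {α α' lam lam' : κ → ℝ} {τ k0 : κ}
    {Γ η u : ℝ} (hη : 0 < η) (hu : 0 < u) (hk : k0 ≠ τ) (hW : Wt α lam τ Γ η)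
    (hW' : Wt α' lam' τ Γ η) (h1 : α' τ = α τ + u) (h2 : α' k0 = α k0 - u)
    (h3 : ∀ k, k ≠ τ → k ≠ k0 → α' k = α k)
    (h5 : lam' τ = (α τ * lam τ + lam k0 * u) / (α τ + u)) (h4 : ∀ k, k ≠ τ → lam' k = lam k)
    (hs : 2 * Γ / η ^ 2 * u ≤ 1 / 2) {x' : ℝ} (hx' : 0 ≤ x') (hξ : Xi α' lam' τ x' ≤ 1) :
    |(lam τ - lam k0) / 2 * x' + lg (lam τ - lam k0) x' -
      (gD α lam τ (Xi α' lam' τ x') - gD α' lam' τ (Xi α' lam' τ x')) / u| ≤
      ((2 * Γ / η ^ 2) ^ 2 + 2 * Γ / η ^ 2) * u := by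
  have hτ := hW.top
  have hαu : 0 < α τ + u := by linarith
  have hαu1 : α τ + u ≤ 1 := h1 ▸ wt_le_one hW' τ
  have hθ0 : 0 ≤ lam τ - lam k0 := by
    have := hW.le k0 (by have := hW'.nn k0; linarith)
    linarith
  have hθΓ : lam τ - lam k0 ≤ 2 * Γ := by
    linarith [(abs_le.1 (hW.bd τ)).2, (abs_le.1 (hW.bd k0)).1]
  have hdl1 : (α τ + u) * (lam τ - lam' τ) = (lam τ - lam k0) * u := by
    rw [h5]
    field_simp
    ring
  obtain ⟨θ, hθ⟩ : ∃ θ, θ = lam τ - lam k0 := ⟨_, rfl⟩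
  obtain ⟨dl, hdl⟩ : ∃ dl, dl = lam τ - lam' τ := ⟨_, rfl⟩
  obtain ⟨c, hc⟩ : ∃ c, c = 2 * Γ / η ^ 2 := ⟨_, rfl⟩
  obtain ⟨ξ, hξd⟩ : ∃ ξ, ξ = Xi α' lam' τ x' := ⟨_, rfl⟩
  have hθ0' := hθ0
  rw [← hθ] at hθ0 hθΓ hdl1 ⊢
  rw [← hdl] at hdl1
  rw [← hc] at hs ⊢
  rw [← hξd] at hξ ⊢
  have hdl0 : 0 ≤ dl := by
    by_contra hn
    have := mul_neg_of_pos_of_neg hαu (not_le.1 hn)
    linarith [mul_nonneg hθ0 hu.le]
  have hdl2 : η * dl ≤ 2 * Γ * u := by
    linarith [mul_nonneg hu.le hdl0, mul_le_mul_of_nonneg_right hτ hdl0,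
      mul_le_mul_of_nonneg_right hθΓ hu.le]
  have hdlθ : dl ≤ θ := by
    by_contra hn
    have h6 : θ * u < dl * u := mul_lt_mul_of_pos_right (not_le.1 hn) hu
    linarith [mul_nonneg (hη.le.trans hτ) hdl0]
  have tb : ∀ {x : ℝ}, 0 ≤ x → η * x ≤ 1 → x * dl ≤ c * u := by
    intro x hx hx1
    rw [hc, div_mul_eq_mul_div, le_div_iff₀ (by positivity)]
    have h6 : 0 ≤ η * dl := by positivity
    linarith [mul_le_mul hx1 hdl2 h6 zero_le_one]
  have hb' := hD.basic hη hW'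
  have hb := hD.basic hη hW
  obtain ⟨e1', e2', -, -⟩ := hb'.2.2.2 x' hx'
  have hρ' : 0 < rho α' lam' τ x' := hη.trans_le e2'
  rw [← hξd] at e1'
  have hξ0 : 0 ≤ ξ := by rw [e1']; positivity
  have hx1' : η * x' ≤ 1 := by
    have := (hD.xlip hη hW' 0 x' le_rfl hx').1
    rw [hb'.1, ← hξd] at this
    linarith
  obtain ⟨x, hx, hx1, hxe⟩ := hD.surj hη hW ξ hξ0
  have hx2 : η * x ≤ 1 := by
    rw [le_div_iff₀ hη] at hx1
    linarith
  obtain ⟨e1, e2, -, -⟩ := hb.2.2.2 x hx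
  have hρ : 0 < rho α lam τ x := hη.trans_le e2
  have hc0 : 0 ≤ c := by
    have : 0 ≤ Γ := by linarith
    rw [hc]
    positivity
  have up : gD α lam τ ξ - gD α' lam' τ ξ ≤ u * (θ / 2 * x' + lg θ x' + (c ^ 2 + c) * u) := by
    have t1 := tb hx' hx1'
    have v1 := val' hD hη hW' hx'
    rw [← hξd] at v1
    generalize rho α' lam' τ x' = ρ' at v1 e1' hρ'
    have q1 : ξ * lam' τ + ρ' - ξ * lam τ = ρ' * (1 - x' * dl) := by
      rw [hdl, e1']; ring
    have q2 : ξ * lam' τ + ρ' - ξ * lam k0 = ρ' * (1 + (θ - dl) * x') := by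
      rw [hdl, hθ, e1']; ring
    have p1 : 0 < 1 - x' * dl := by linarith
    have p2 : 0 < 1 + (θ - dl) * x' := by
      have : 0 ≤ (θ - dl) * x' := mul_nonneg (by linarith) hx'
      linarith
    have v2 := hD.le hη hW ξ (ξ * lam' τ + ρ') hξ0 (by linarith [mul_pos hρ' p1])
    have d := dif hk h1 h2 h3 h4 (fun t => log (ξ * lam' τ + ρ' - ξ * t))
    rw [q1, q2, add_sub_cancel_left, log_mul hρ'.ne' p1.ne', log_mul hρ'.ne' p2.ne'] at d
    have := upR (hW.nn τ) hu hαu1 hdl1 hdl0 hdlθ hx' t1 hs hc0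
    linarith
  have hxx : x' ≤ x := by
    by_contra hn
    have h6 := (hD.xlip hη hW' x x' hx (not_le.1 hn).le).1
    have h7 := xi_le hu hk hW' h1 h2 h3 h4 hθ0' (by linarith) hx
    have h12 : 0 < η * (x' - x) := mul_pos hη (by linarith [not_le.1 hn])
    linarith
  have lo : u * (θ / 2 * x' + lg θ x' - (c ^ 2 + c) * u) ≤ gD α lam τ ξ - gD α' lam' τ ξ := by
    have t1 := tb hx hx2
    have v1 := val' hD hη hW hx
    rw [hxe] at v1 e1
    generalize rho α lam τ x = ρ at v1 e1 hρ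
    have q1 : ξ * lam τ + ρ - ξ * lam' τ = ρ * (1 + x * dl) := by
      rw [hdl, e1]; ring
    have q2 : ξ * lam τ + ρ - ξ * lam k0 = ρ * (1 + θ * x) := by
      rw [hθ, e1]; ring
    have p1 : 0 < 1 + x * dl := by positivity
    have p3 : 0 < 1 + θ * x := by positivity
    have v2 := hD.le hη hW' ξ (ξ * lam τ + ρ) hξ0 (by linarith [mul_pos hρ p1])
    have d := dif hk h1 h2 h3 h4 (fun t => log (ξ * lam τ + ρ - ξ * t))
    rw [q1, q2, add_sub_cancel_left, log_mul hρ.ne' p1.ne', log_mul hρ.ne' p3.ne'] at d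
    have l6 := (abs_le.1 (hT.phl θ θ x' x hθ0 hθ0 hx' hxx).2.2.2.1).1
    have l7 : u * (θ / 2 * x' + lg θ x') ≤ u * (θ / 2 * x + lg θ x) :=
      mul_le_mul_of_nonneg_left (by linarith) hu.le
    have := loR hαu.le hαu1 hdl1 hdl0 hx t1 hc0
    linarith
  rw [abs_le]
  constructor
  · have : (gD α lam τ ξ - gD α' lam' τ ξ) / u ≤ θ / 2 * x' + lg θ x' + (c ^ 2 + c) * u := by
      rw [div_le_iff₀ hu]; linarith
    linarith
  · have : θ / 2 * x' + lg θ x' - (c ^ 2 + c) * u ≤ (gD α lam τ ξ - gD α' lam' τ ξ) / u := by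
      rw [le_div_iff₀ hu]; linarith
    linarith

noncomputable def DD (α lam : κ → ℝ) (τ : κ) (x : ℝ) : ℝ := ∑ k, α k / (1 + (lam τ - lam k) * x) ^ 2

theorem DD_prop {α lam : κ → ℝ} {τ : κ} {Γ η : ℝ} (h : Wt α lam τ Γ η) {x x' : ℝ} (hx : 0 ≤ x)
    (hxx : x ≤ x') : η ≤ DD α lam τ x' ∧ DD α lam τ x' ≤ DD α lam τ x ∧
      DD α lam τ x - DD α lam τ x' ≤ 4 * Γ * (x' - x) := by
  have key : ∀ k, 0 ≤ α k / (1 + (lam τ - lam k) * x) ^ 2 - α k / (1 + (lam τ - lam k) * x') ^ 2 ∧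
      α k / (1 + (lam τ - lam k) * x) ^ 2 - α k / (1 + (lam τ - lam k) * x') ^ 2 ≤
        α k * (4 * Γ * (x' - x)) := by
    intro k
    rcases (h.nn k).eq_or_lt with h0 | h0
    · rw [← h0]; simp
    · have a0 : 0 ≤ lam τ - lam k := by linarith [h.le k h0]
      have a1 : lam τ - lam k ≤ 2 * Γ := by
        linarith [(abs_le.1 (h.bd τ)).2, (abs_le.1 (h.bd k)).1]
      set a := 1 + (lam τ - lam k) * x with ha
      set b := 1 + (lam τ - lam k) * x' with hb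
      have ha1 : 1 ≤ a := by have := mul_nonneg a0 hx; linarith
      have hab : a ≤ b := by have := mul_le_mul_of_nonneg_left hxx a0; linarith
      have hba : b - a ≤ 2 * Γ * (x' - x) := by
        have := mul_le_mul_of_nonneg_right a1 (show 0 ≤ x' - x by linarith)
        nlinarith
      have hb1 : 1 ≤ b := ha1.trans hab
      constructor
      · have : α k / b ^ 2 ≤ α k / a ^ 2 := by gcongr
        linarith
      · have e : α k / a ^ 2 - α k / b ^ 2 = α k * ((b - a) * ((a + b) / (a ^ 2 * b ^ 2))) := by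
          field_simp
          ring
        rw [e]
        refine mul_le_mul_of_nonneg_left ?_ h0.le
        have : (a + b) / (a ^ 2 * b ^ 2) ≤ 2 := by
          rw [div_le_iff₀ (by positivity)]
          have b1 : b ≤ b ^ 2 := by nlinarith
          have b2 : 1 ≤ a ^ 2 := by nlinarith
          nlinarith
        calc (b - a) * ((a + b) / (a ^ 2 * b ^ 2)) ≤ (b - a) * 2 :=
              mul_le_mul_of_nonneg_left this (by linarith)
          _ ≤ _ := by linarith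
  refine ⟨?_, ?_, ?_⟩
  · refine h.top.trans (le_trans (le_of_eq ?_) (single_le_sum
      (f := fun k => α k / (1 + (lam τ - lam k) * x') ^ 2)
      (fun k _ => div_nonneg (h.nn k) (sq_nonneg _)) (mem_univ τ)))
    simp
  · exact sum_le_sum fun k _ => sub_nonneg.1 (key k).1
  · unfold DD
    rw [← sum_sub_distrib]
    refine (sum_le_sum fun k _ => (key k).2).trans (le_of_eq ?_)
    rw [← sum_mul, h.sum, one_mul]

theorem sec (hD : DApi) (hT : TApi) (hS : SepStmt) {α lam : κ → ℝ} {τ : κ} {Γ η θ : ℝ} (hη : 0 < η)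
    (h : Wt α lam τ Γ η) (hθ0 : 0 ≤ θ) (hθ : θ ≤ 2 * Γ) : ∃ H : ℝ → ℝ,
    (∀ x, 0 ≤ x → H (Xi α lam τ x) = θ / 2 * x + lg θ x) ∧
      Sec H (1 / η) ((2 * Γ ^ 2 / η + 4 * Γ ^ 2 / η ^ 2) / η) (Γ / η) := by
  classical
  let H : ℝ → ℝ := fun ξ => if hξ : 0 ≤ ξ then
    θ / 2 * (hD.surj hη h ξ hξ).choose + lg θ (hD.surj hη h ξ hξ).choose else 0
  have hH : ∀ x, 0 ≤ x → H (Xi α lam τ x) = θ / 2 * x + lg θ x := by
    intro x hx
    have h0 : 0 ≤ Xi α lam τ x := by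
      have := (hD.xlip hη h 0 x le_rfl hx).1
      rw [(hD.basic hη h).1] at this
      nlinarith
    obtain ⟨h1, -, h2⟩ := (hD.surj hη h _ h0).choose_spec
    have h3 : (hD.surj hη h _ h0).choose = x := by
      rcases le_total (hD.surj hη h _ h0).choose x with h4 | h4
      · have := (hD.xlip hη h _ x h1 h4).1
        rw [h2, sub_self] at this
        nlinarith
      · have := (hD.xlip hη h x _ hx h4).1
        rw [h2, sub_self] at this
        nlinarith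
    simp only [H, dif_pos h0, h3]
  refine ⟨H, hH, hS κ α lam τ Γ η (1 / η) _ _ (fun x => θ / 2 * x + lg θ x)
    (fun x => θ ^ 2 / 2 * ph θ x / DD α lam τ x) H hη (by positivity) h ?_ ?_ hH⟩
  · intro x hx
    have hD0 : 0 < DD α lam τ x := hη.trans_le (DD_prop h hx le_rfl).1
    have p : 0 < 1 + θ * x := by positivity
    have h1 : HasDerivAt (fun x => θ / 2 * x + lg θ x) (θ / 2 * 1 + -(θ * 1 / (1 + θ * x)) / 2) x := by
      unfold lg
      exact ((hasDerivAt_id x).const_mul _).add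
        (((((hasDerivAt_id x).const_mul θ).const_add 1).log p.ne').neg.div_const 2)
    refine h1.congr_deriv ?_
    change _ = θ ^ 2 / 2 * ph θ x / DD α lam τ x * DD α lam τ x
    rw [div_mul_cancel₀ _ hD0.ne']
    unfold ph
    field_simp
    ring
  · intro x x' hx hxx _
    obtain ⟨d1, d2, d3⟩ := DD_prop h hx hxx
    have hD' : 0 < DD α lam τ x' := hη.trans_le d1
    have hD0 : 0 < DD α lam τ x := hD'.trans_le d2
    obtain ⟨p1, p2, -⟩ := hT.phl θ θ x x' hθ0 hθ0 hx hxx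
    have hΓ : 0 ≤ Γ := by linarith
    have q0 : ∀ y, 0 ≤ y → 0 ≤ θ ^ 2 / 2 * ph θ y ∧ θ ^ 2 / 2 * ph θ y ≤ Γ := by
      intro y hy
      have p : 0 < 1 + θ * y := by positivity
      refine ⟨by unfold ph; positivity, ?_⟩
      have : θ * ph θ y ≤ 1 := by
        unfold ph
        rw [← mul_div_assoc, div_le_one p]
        linarith
      nlinarith
    obtain ⟨a0, a1⟩ := q0 x hx
    obtain ⟨b0, b1⟩ := q0 x' (hx.trans hxx)
    have ab : θ ^ 2 / 2 * ph θ x ≤ θ ^ 2 / 2 * ph θ x' :=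
      mul_le_mul_of_nonneg_left (by linarith) (by positivity)
    have ab2 : θ ^ 2 / 2 * ph θ x' - θ ^ 2 / 2 * ph θ x ≤ 2 * Γ ^ 2 * (x' - x) := by
      rw [← mul_sub]
      exact mul_le_mul (by nlinarith) p2 p1 (by positivity)
    set a := θ ^ 2 / 2 * ph θ x
    set b := θ ^ 2 / 2 * ph θ x'
    set D := DD α lam τ x
    set D' := DD α lam τ x'
    refine ⟨by positivity, by gcongr, by gcongr, ?_⟩
    have e : b / D' - a / D = (b - a) / D' + a * (D - D') / (D * D') := by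
      field_simp
      ring
    have hx0 : 0 ≤ x' - x := by linarith
    have f1 : (b - a) / D' ≤ 2 * Γ ^ 2 * (x' - x) / η := by gcongr
    have f2 : a * (D - D') / (D * D') ≤ Γ * (4 * Γ * (x' - x)) / (η * η) := by
      have : 0 ≤ D - D' := by linarith
      gcongr
      exact d1.trans d2
    rw [e]
    calc _ ≤ 2 * Γ ^ 2 * (x' - x) / η + Γ * (4 * Γ * (x' - x)) / (η * η) := add_le_add f1 f2
      _ = _ := by field_simp

end An3

open An3 in
theorem an3Stmt (hT : TApi) (hD : DApi) (hS : SepStmt) (hSec : SecStmt) : An3Stmt := by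
  intro Γ η hη
  set L := (2 * Γ ^ 2 / η + 4 * Γ ^ 2 / η ^ 2) / η with hL
  have hL0 : 0 ≤ L := by positivity
  set c := 2 * |Γ| / η ^ 2 with hc
  have hc0 : 0 ≤ c := by positivity
  refine ⟨2 * (|Γ| / η) + 2 * L * (1 / η + 1), by positivity, fun n ε hn hε => ?_⟩
  obtain ⟨N1, hN1⟩ := exists_nat_ge (max 1 (max (2 * c) (2 * (n : ℝ) ^ 2 * (c ^ 2 + c) / ε)))
  refine ⟨N1, fun N hN κ _ _ α α' lam lam' τ k0 p q hk hW hW' h1 h2 h3 h5 h4 hp hp0 hq hq0 => ?_⟩
  have hN' : (N1 : ℝ) ≤ N := by exact_mod_cast hN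
  have n1 : (1 : ℝ) ≤ N := (le_max_left _ _).trans (hN1.trans hN')
  have n2 : 2 * c ≤ N := (le_max_left _ _).trans ((le_max_right _ _).trans (hN1.trans hN'))
  have n3 : 2 * (n : ℝ) ^ 2 * (c ^ 2 + c) / ε ≤ N :=
    (le_max_right _ _).trans ((le_max_right _ _).trans (hN1.trans hN'))
  have hN0 : (0 : ℝ) < N := by linarith
  have hu : (0 : ℝ) < 1 / N := by positivity
  have hθ0 : 0 ≤ lam τ - lam k0 := by
    have := hW.le k0 (by have := hW'.nn k0; linarith)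
    linarith
  have hθΓ : lam τ - lam k0 ≤ 2 * Γ := by
    linarith [(abs_le.1 (hW.bd τ)).2, (abs_le.1 (hW.bd k0)).1]
  have hΓ : 0 ≤ Γ := by linarith
  rw [abs_of_nonneg hΓ] at hc ⊢
  obtain ⟨H, hH, hSe⟩ := sec hD hT hS hη hW' hθ0 hθΓ
  have hb' := hD.basic hη hW'
  have hqb : Path n (fp n (Xi α' lam' τ) q) := hT.fp_path hq fun x hx x' _ hxx => by
    have := (hD.xlip hη hW' x x' hx.1 hxx).1
    nlinarith
  have hqb0 : fp n (Xi α' lam' τ) q 0 ≤ 1 / η := by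
    have := (hT.lip (f := Xi α' lam' τ) (L := 1) hq fun x x' hx hxx _ => by
      have h6 := hD.xlip hη hW' x x' hx hxx
      rw [abs_of_nonneg (by nlinarith [h6.1]), one_mul]
      exact h6.2).1
    rw [hT.fp_zero]
    linarith [le_abs_self (tr n (Xi α' lam' τ) q)]
  have hη1 : 1 ≤ 1 / η := by
    rw [le_div_iff₀ hη]
    linarith [hW.top, wt_le_one hW τ]
  obtain ⟨W, hWp, hW0, hW1⟩ := hSec n H (1 / η) L (Γ / η) _ p hn hL0 hSe hqb hp hqb0 (by rwa [hp0])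
  refine ⟨W, hWp, hW0.trans (by rw [hp0]; gcongr), ?_⟩
  have e1 : tr n H (fp n (Xi α' lam' τ) q) =
      (lam τ - lam k0) / 2 * q 0 + tr n (lg (lam τ - lam k0)) q := by
    rw [← hT.fp_zero, hT.fp_comp n _ _ _ _ hb'.1, hT.fp_congr
      (g := fun x => (lam τ - lam k0) / 2 * x + 1 * lg (lam τ - lam k0) x + 0) hq
      (fun x hx _ => by rw [hH x hx]; ring),
      hT.fp_lin n (fun x => x), hT.fp_id hq 0 (Nat.zero_le _), hT.fp_zero, one_mul]
  have e2 := hT.pair n W p hn hWp.2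
  have e3 := hT.sup (f := H) (g := fun x => N * gD α lam τ x + (-N) * gD α' lam' τ x + 0)
    (δ := (c ^ 2 + c) * (1 / N)) hp (fun ξ hξ hξ1 => by
      obtain ⟨x', hx', -, hxe⟩ := hD.surj hη hW' ξ hξ
      have := env hD hT hη hu hk hW hW' h1 h2 h3 (by rw [h5]; ring) h4
        (by rw [← hc, mul_one_div, div_le_iff₀ hN0]; linarith) hx' (by rw [hxe, ← hp0]; exact hξ1)
      rw [← hH x' hx', hxe, ← hc] at this
      rwa [show (N : ℝ) * gD α lam τ ξ + -N * gD α' lam' τ ξ + 0 =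
        (gD α lam τ ξ - gD α' lam' τ ξ) / (1 / N) by field_simp; ring])
  have e4 : tr n (fun x => N * gD α lam τ x + (-N) * gD α' lam' τ x + 0) p =
      N * (tr n (gD α lam τ) p - tr n (gD α' lam' τ) p) := by
    rw [← hT.fp_zero, hT.fp_lin, hT.fp_zero, hT.fp_zero]
    ring
  rw [e4] at e3
  have e5 : 2 * (n : ℝ) ^ 2 * ((c ^ 2 + c) * (1 / N)) ≤ ε := by
    rw [div_le_iff₀ hε] at n3
    rw [← mul_assoc, mul_one_div, div_le_iff₀ hN0]
    linarith
  have e6 : ∑ l ∈ range n, (W l - W (l + 1)) * (ell n (fp n (Xi α' lam' τ) q) l - ell n p l) / 2 =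
      ∑ l ∈ range n, (W l - W (l + 1)) * ell n (fp n (Xi α' lam' τ) q) l / 2 -
        ∑ l ∈ range n, (W l - W (l + 1)) * ell n p l / 2 := by
    rw [← sum_sub_distrib]
    exact sum_congr rfl fun l _ => by ring
  rw [e6, e2, e1, hp0] at hW1
  linarith [(abs_le.1 e3).2]

end Vale.Agent.P166
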