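import Vale.Agent.P166.Lb

namespace Vale.Agent.P166

open MeasureTheory Finset Real Filter Vale.Agent.P157

noncomputable section

namespace Bl

open Lb (vb_box box_sub wt_pw)

variable {κ : Type} {b : ℕ}

def pN (hb : 0 < b) (pat : Fin b → κ) (i : ℕ) : κ := pat ⟨i % b, Nat.mod_lt _ hb⟩

lemma per_sum (hb : 0 < b) (pat : Fin b → κ) (F : κ → ℝ) (j : ℕ) :
    ∑ t ∈ range b, F (pN hb pat (j + t)) = ∑ t, F (pat t) := by
  induction j with
  | zero =>
    rw [← Fin.sum_univ_eq_sum_range (fun t => F (pN hb pat (0 + t)))]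
    refine sum_congr rfl fun t _ => ?_
    unfold pN
    congr 2
    ext
    simp [Nat.mod_eq_of_lt t.2]
  | succ j ih =>
    have h1 := sum_range_succ (fun t => F (pN hb pat (j + t))) b
    have h2 := sum_range_succ' (fun t => F (pN hb pat (j + t))) b
    have h3 : pN hb pat (j + b) = pN hb pat (j + 0) := by simp [pN]
    have h4 : ∀ t, j + 1 + t = j + (t + 1) := fun t => by ring
    simp only [h4]
    rw [h3] at h1
    linarith

variable [DecidableEq κ]

def ct (hb : 0 < b) (pat : Fin b → κ) (k : κ) (j : ℕ) : ℝ :=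
  ∑ i ∈ range j, if pN hb pat i = k then 1 else 0

lemma ct_eq (hb : 0 < b) (pat : Fin b → κ) (lam : κ → ℝ) (k : κ) (j : ℕ) :
    (((s0 (per hb pat j) lam).cls k).card : ℝ) = ct hb pat k j := by
  unfold ct Sys.cls
  rw [← Fin.sum_univ_eq_sum_range (fun i => if pN hb pat i = k then (1 : ℝ) else 0), card_filter]
  push_cast
  rfl

lemma ct_add (hb : 0 < b) (pat : Fin b → κ) (k : κ) (j t : ℕ) :
    |ct hb pat k j - ct hb pat k (j + t)| ≤ t := by
  unfold ct
  rw [sum_range_add, sub_add_cancel_left, abs_neg]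
  refine (abs_sum_le_sum_abs _ _).trans ((sum_le_card_nsmul _ _ 1 fun i _ => ?_).trans (by simp))
  split_ifs <;> simp

lemma pw_eq (hb : 0 < b) (pat : Fin b → κ) (k : κ) :
    ∑ t, (if pat t = k then (1 : ℝ) else 0) = b * pw pat k := by
  have hb0 : (0 : ℝ) < b := by exact_mod_cast hb
  unfold pw
  rw [mul_div_cancel₀ _ hb0.ne', card_filter]
  push_cast
  rfl

lemma pw_bd (hb : 0 < b) (pat : Fin b → κ) (k : κ) : 0 ≤ pw pat k ∧ pw pat k ≤ 1 := by
  have hb0 : (0 : ℝ) < b := by exact_mod_cast hb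
  unfold pw
  refine ⟨by positivity, (div_le_one hb0).2 ?_⟩
  have := card_le_univ (univ.filter (fun t => pat t = k))
  rw [Fintype.card_fin] at this
  exact_mod_cast this

lemma ct_near (hb : 0 < b) (pat : Fin b → κ) (k : κ) (j : ℕ) :
    |ct hb pat k j - j * pw pat k| ≤ b := by
  induction j using Nat.strong_induction_on with
  | _ j ih =>
  rcases lt_or_ge j b with h | h
  · have h1 := ct_add hb pat k 0 j
    have h2 : 0 ≤ ct hb pat k j := sum_nonneg fun i _ => by split_ifs <;> simp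
    have h3 : ct hb pat k 0 = 0 := by simp [ct]
    have h4 : (j : ℝ) ≤ b := by exact_mod_cast h.le
    obtain ⟨h5, h6⟩ := pw_bd hb pat k
    have h7 : (0 : ℝ) ≤ j := by positivity
    rw [h3, zero_add, zero_sub, abs_neg, abs_of_nonneg h2] at h1
    rw [abs_le]
    constructor <;> nlinarith
  · obtain ⟨i, rfl⟩ := Nat.exists_eq_add_of_le' h
    have h1 := ih i (by omega)
    have h2 : ct hb pat k (i + b) = ct hb pat k i + b * pw pat k := by
      unfold ct
      rw [sum_range_add, per_sum hb pat (fun x => if x = k then (1 : ℝ) else 0) i, pw_eq hb]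
    rw [h2]
    push_cast
    convert h1 using 2
    ring

lemma avg_eq [Fintype κ] (hb : 0 < b) (pat : Fin b → κ) (F : κ → ℝ) :
    ∑ t, F (pat t) = b * ∑ k, pw pat k * F k := by
  rw [mul_sum]
  simp only [← mul_assoc, ← pw_eq hb, sum_mul]
  rw [sum_comm]
  exact sum_congr rfl fun t _ => by simp

lemma pw_ge (hb : 0 < b) {pat : Fin b → κ} (hs : Function.Surjective pat) (k : κ) :
    1 / (b : ℝ) ≤ pw pat k := by
  have hb0 : (0 : ℝ) < b := by exact_mod_cast hb
  unfold pw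
  refine div_le_div_of_nonneg_right ?_ hb0.le
  obtain ⟨t, ht⟩ := hs k
  exact_mod_cast card_pos.2 ⟨t, mem_filter.2 ⟨mem_univ _, ht⟩⟩

lemma tele (T a : ℕ → ℝ) (j t : ℕ) (h : ∀ s, s < t → T (j + s) + a s ≤ T (j + s + 1)) :
    T j + ∑ s ∈ range t, a s ≤ T (j + t) := by
  induction t with
  | zero => simp
  | succ t ih =>
    have h1 := ih fun s hs => h s (by omega)
    have h2 := h t (by omega)
    rw [sum_range_succ, ← add_assoc j]
    linarith

lemma tele2 (T : ℕ → ℝ) (C : ℝ) (j t : ℕ) (h : ∀ s, s < t → |T (j + s + 1) - T (j + s)| ≤ C) :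
    |T (j + t) - T j| ≤ t * C := by
  have h1 := tele T (fun _ => -C) j t fun s hs => by linarith [(abs_le.1 (h s hs)).1]
  have h2 := tele (fun i => -T i) (fun _ => -C) j t fun s hs => by linarith [(abs_le.1 (h s hs)).2]
  rw [sum_const, card_range, nsmul_eq_mul] at h1 h2
  rw [abs_le]
  constructor <;> linarith

lemma big (hb : 0 < b) {pat : Fin b → κ} (hs : Function.Surjective pat) (lam : κ → ℝ) (k : κ)
    {ρ η Nr : ℝ} {N : ℕ} (hη : η ≤ ρ / (2 * b)) (h0 : 0 ≤ Nr) (h1 : ρ * Nr ≤ N)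
    (h2 : 2 * (b : ℝ) ^ 2 ≤ Nr * ρ) : η * Nr ≤ ((s0 (per hb pat N) lam).cls k).card := by
  have hb0 : (0 : ℝ) < b := by exact_mod_cast hb
  have a1 := (abs_le.1 (ct_near hb pat k N)).1
  have a2 := mul_le_mul_of_nonneg_left (pw_ge hb hs k) (Nat.cast_nonneg (α := ℝ) N)
  have a3 := mul_le_mul_of_nonneg_right hη h0
  have a4 : ρ / (2 * b) * Nr + b ≤ N * (1 / b) := by
    rw [mul_one_div, le_div_iff₀ hb0, add_mul, show ρ / (2 * b) * Nr * b = ρ * Nr / 2 by field_simp]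
    nlinarith
  rw [ct_eq]
  linarith

lemma near (hb : 0 < b) (pat : Fin b → κ) (lam : κ → ℝ) (k : κ) {δ : ℝ} {N : ℕ} (hN : 1 ≤ N)
    (h : b ≤ δ * N) : |(s0 (per hb pat N) lam).al k - pw pat k| ≤ δ := by
  have hN0 : (0 : ℝ) < N := by exact_mod_cast hN
  unfold Sys.al
  rw [ct_eq, Fintype.card_fin, div_sub' hN0.ne', abs_div, abs_of_pos hN0, div_le_iff₀ hN0]
  exact (ct_near hb pat k N).trans h

end Bl

open Bl in
open Lb (vb_box box_sub wt_pw) in
theorem blStmt (hNr : NrStmt) (hGd : GdStmt) (hSf : SfStmt) : BlStmt := by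
  intro κ _ _ τ lam b hb pat Γ g0 ρ ε hs hΓ hg hl hρ hε
  have hb0 : (0 : ℝ) < b := by exact_mod_cast hb
  obtain ⟨η, hη, hη1, hη2⟩ : ∃ η : ℝ, 0 < η ∧ η ≤ 1 / b ∧ η ≤ ρ / (2 * b) :=
    ⟨min (1 / b) (ρ / (2 * b)), by positivity, min_le_left _ _, min_le_right _ _⟩
  have hW0 := wt_pw hb hs hΓ hg hl
  have hW : Wt (pw pat) lam τ Γ η := ⟨hW0.nn, hW0.sum, hη1.trans hW0.top, hW0.bd, hW0.le⟩
  have hα : ∀ k, η ≤ pw pat k := fun k => hη1.trans (pw_ge hb hs k)
  obtain ⟨v1, δ1, hv1, hδ1, hNr⟩ := hNr (Fintype.card κ) Γ η g0 hη hg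
  obtain ⟨v2, δ2, hv2, hδ2, n2, hSf⟩ := hSf (Fintype.card κ) Γ η g0 ε hη hg hε
  obtain ⟨n3, hGd⟩ := hGd η 1 hη one_pos
  refine ⟨min v1 v2, by positivity, max n2 n3, fun n hn0 hn lp hl0 hl1 hl2 => ?_⟩
  obtain ⟨C1, hC1, N1, hNr⟩ := hNr n hn
  obtain ⟨N2, hSf⟩ := hSf n (le_of_max_le_left hn0) hn lp (2 * b * C1 + b) hl0 hl1
    (hl2.trans (min_le_right _ _)) (by positivity)
  obtain ⟨N3, hGd⟩ := hGd n (le_of_max_le_right hn0) hn lp 0 hl0 hl1 le_rfl
  refine ⟨N1 + N2 + N3 + ⌈2 * (b : ℝ) ^ 2 / ρ⌉₊ + ⌈b / (min δ1 δ2 * ρ)⌉₊, fun Nr hN => ?_⟩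
  obtain ⟨D1, hNr⟩ := hNr Nr (by omega)
  obtain ⟨D2, hSf⟩ := hSf Nr (by omega)
  obtain ⟨D3, hGd⟩ := hGd Nr (by omega)
  refine ⟨D1 + D2 + D3, fun D hD ν j y hν hj hjb hy => ?_⟩
  have hN1 : 2 * (b : ℝ) ^ 2 ≤ Nr * ρ := by
    rw [← div_le_iff₀ hρ]
    exact Nat.ceil_le.1 (by omega)
  have hN2 : (b : ℝ) ≤ Nr * (min δ1 δ2 * ρ) := by
    rw [← div_le_iff₀ (by positivity)]
    exact Nat.ceil_le.1 (le_trans (Nat.le_add_left _ _) hN)
  have hbig : ∀ s k, η * Nr ≤ ((s0 (per hb pat (j + s)) lam).cls k).card := fun s k =>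
    big hb hs lam k hη2 (Nat.cast_nonneg _) (hj.trans (by exact_mod_cast by omega)) hN1
  have hnear : ∀ s k, |(s0 (per hb pat (j + s + 1)) lam).al k - pw pat k| ≤ min δ1 δ2 :=
    fun s k => near hb pat lam k (by omega) (by
      have h1 : ρ * Nr ≤ ((j + s + 1 : ℕ) : ℝ) := hj.trans (by exact_mod_cast by omega)
      have h2 := mul_le_mul_of_nonneg_left h1 (show 0 ≤ min δ1 δ2 by positivity)
      linarith)
  have hch : ∀ t, t ≤ b → ∀ y', Box n 0 (4 * lp) y' →
      |(s0 (per hb pat (j + t)) lam).T (ν (j + t)) D n y' -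
        (s0 (per hb pat j) lam).T (ν j) D n y'| ≤ b * C1 := fun t ht y' hy' =>
    (tele2 (fun i => (s0 (per hb pat i) lam).T (ν i) D n y') C1 j t fun s hs' =>
      hNr D (by omega) (j + s) κ (ν _) (ν _) τ _ lam (per hb pat (j + s + 1)) y' (hν _) (hν _) le_rfl
        (by omega) hW hα hl (hbig s) (fun k => (hnear s k).trans (min_le_left _ _))
        (fun k l hl' => by
          obtain ⟨h1, h2⟩ := hy' k l hl'
          rw [abs_of_nonneg h1]
          linarith)
        (fun k => (vb_box hy' k).trans (hl2.trans (min_le_left _ _)))).trans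
      (mul_le_mul_of_nonneg_right (by exact_mod_cast ht) hC1)
  have hnm : ∀ t, t ≤ b →
      NM n Nr lp ((s0 (per hb pat (j + t)) lam).T (ν (j + t)) D n) y (2 * b * C1 + b) :=
    fun t ht => ⟨hy.1, fun y' hy' => by
      have h1 := (abs_le.1 (hch t ht y' hy')).2
      have h2 := (abs_le.1 (hch t ht y (box_sub hl0 hy.1))).1
      have h3 := hy.2 y' hy'
      linarith⟩
  obtain ⟨⟨p, hp, hp0, hpin⟩, -⟩ := hGd D (by omega) κ (Fin j) Empty (ν j) (s0 (per hb pat j) lam)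
    y τ (hν j) (fun s => s.elim) (by rw [Fintype.card_fin]; omega) (hbig 0 τ) hy
  have key := tele (fun i => (s0 (per hb pat i) lam).T (ν i) D n y)
    (fun s => VD n (pw pat) lam τ + tr n (lg (lam τ - lam (pN hb pat (j + s)))) p -
      ∑ k, pw pat k * tr n (lg (lam τ - lam k)) p - ε) j b fun s hs' => by
    have h1 := hSf D (by omega) (j + s) κ (ν _) (ν _) τ _ lam (per hb pat (j + s + 1)) y p _ (hν _)
      (hν _) le_rfl (by omega) hW hα hl (hbig s) (fun k => (hnear s k).trans (min_le_right _ _))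
      (hnm s hs'.le) (hnm (s + 1) hs') hp hp0 (by
        have h2 := ct_add hb pat τ j s
        rw [← ct_eq hb pat lam, ← ct_eq hb pat lam] at h2
        have h3 : (s : ℝ) ≤ b := by exact_mod_cast hs'.le
        have h4 : 0 ≤ 2 * b * C1 := by positivity
        exact h2.trans (by linarith)) hpin
    have e1 : per hb pat (j + s + 1) (Fin.last (j + s)) = pN hb pat (j + s) := rfl
    have e2 : per hb pat (j + s + 1) ∘ Fin.castSucc = per hb pat (j + s) := rfl
    rw [e1, e2] at h1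
    linarith
  rw [sum_sub_distrib, sum_sub_distrib, sum_add_distrib,
    per_sum hb pat (fun k => tr n (lg (lam τ - lam k)) p) j,
    avg_eq hb pat (fun k => tr n (lg (lam τ - lam k)) p)] at key
  simp only [sum_const, card_range, nsmul_eq_mul] at key
  linarith

end

end Vale.Agent.P166
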