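import Vale.Agent.P166.Av

/-! P166: recorded signs versus the scalar recursion. -/

namespace Vale.Agent.P166

open Finset Real Vale.Agent.P157

noncomputable section

namespace Brx

open Avx

variable {R : Type} [Fintype R] [DecidableEq R]

theorem step (hC : CApi) {T : Type} [Fintype T] [DecidableEq T] (n : ℕ) (lv : R → ℕ) (a : R → ℝ)
    (f : R → T) (hf : Function.Injective f) (Φ : ℝ → ℝ) (d : ℕ) (e' : R → Bool) :
    (1 - (d : ℝ) / n)⁻¹ * log ((∑ e : T → Bool, exp ((1 - (d : ℝ) / n) *
      sc n (univ.val.map (fun r => (lv r, a r))) Φ d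
        (xs lv a d (fun r => if lv r = d then e (f r) else e' r)))) /
      (Fintype.card (T → Bool) : ℝ)) =
      sc n (univ.val.map (fun r => (lv r, a r))) Φ (d + 1) (xs lv a (d + 1) e') := by
  simp only [xs_mix lv a d _ e']
  rw [avg_lv hC f hf a (fun x => exp ((1 - (d : ℝ) / n) *
    sc n (univ.val.map (fun r => (lv r, a r))) Φ d x)), ← lst]
  rfl

theorem one (hC : CApi) (n : ℕ) (lv : R → ℕ) (a : R → ℝ) (d : ℕ) (ω : Cf (Unit ⊕ R) Empty) :
    XX (ch (Sum.elim (fun _ : Unit => 0) lv)) (ex n)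
      (fun ω : Cf (Unit ⊕ R) Empty => log (cosh (sg a (ω.1 ∘ Sum.inr)))) (d + 1) ω =
      sc n (univ.val.map (fun r => (lv r, a r))) (fun x => log (cosh x)) d
        (xs lv a d (ω.1 ∘ Sum.inr)) := by
  induction d generalizing ω with
  | zero => rw [zero_add, xx_one_empty, xs_zero]; rfl
  | succ d ih =>
    rw [xx_succ, ← step hC n lv a (Sum.inr : R → Unit ⊕ R) Sum.inr_injective]
    simp only [ih]
    rfl

theorem two (n : ℕ) (lv : R → ℕ) (a : R → ℝ) :
    XX (ch (Sum.elim (fun _ : Unit => 0) lv)) (ex n)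
      (fun ω : Cf (Unit ⊕ R) Empty => sg a (ω.1 ∘ Sum.inr) * spin (ω.1 (Sum.inl ()))) 2 =
    XX (ch (Sum.elim (fun _ : Unit => 0) lv)) (ex n)
      (fun ω : Cf (Unit ⊕ R) Empty => log (cosh (sg a (ω.1 ∘ Sum.inr)))) 2 := by
  funext ω
  rw [xx_succ n _ _ 0, xx_succ n _ _ 0]
  simp only [zero_add, xx_one_empty, Nat.cast_zero, zero_div, sub_zero, one_mul, Sum.elim_inl,
    if_true, exp_log (cosh_pos _)]
  congr 3
  refine (sum_one (Sum.inl ()) (fun c (e : Unit ⊕ R → Bool) => exp (sg a
    (fun r => if lv r = 0 then e (Sum.inr r) else ω.1 (Sum.inr r)) * c)) (fun c e => ?_)).trans ?_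
  · simp only [Function.update_of_ne (Sum.inr_ne_inl)]
  · refine sum_congr rfl fun e _ => ?_
    rw [cosh_eq, mul_one, mul_neg_one]
    rfl

theorem avg_prod {I : Type} [Fintype I] [DecidableEq I] (G : I → (R → Bool) → ℝ) :
    (∑ e : I × R → Bool, ∏ i, G i (fun r => e (i, r))) / (Fintype.card (I × R → Bool) : ℝ) =
      ∏ i, (∑ e, G i e) / (Fintype.card (R → Bool) : ℝ) := by
  rw [prod_div_distrib, prod_univ_sum, Fintype.piFinset_univ, prod_const, card_univ,
    Fintype.card_congr (Equiv.curry I R Bool), Fintype.card_fun (α := I), Nat.cast_pow]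
  congr 1
  exact Equiv.sum_comp (Equiv.curry I R Bool) (fun e => ∏ i, G i (e i))

theorem many (hC : CApi) {I : Type} [Fintype I] [DecidableEq I] (n : ℕ) (lv : R → ℕ) (a : R → ℝ)
    (d : ℕ) (ω : Cf (I × R) I) :
    XX (ch (fun s : I × R => lv s.2)) (ex n) (siteF a) (d + 1) ω =
      ∑ i, sc n (univ.val.map (fun r => (lv r, a r))) (fun x => log (cosh x)) d
        (xs lv a d (fun r => ω.1 (i, r))) := by
  induction d generalizing ω with
  | zero =>
    have h := avg_cosh (T := I) id Function.injective_id (fun i => sg a (fun r => ω.1 (i, r)))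
      univ 0
    simp only [zero_add, exp_zero, one_mul, id, mul_comm (spin _)] at h
    simp only [xs_zero, XX, ch, ex, rs0, LinearMap.coe_mk, AddHom.coe_mk, siteF, one_mul, inv_one]
    rw [h, log_prod (fun i _ => (cosh_pos _).ne')]
    rfl
  | succ d ih =>
    rw [xx_succ]
    simp only [ih, mul_sum, exp_sum]
    rw [avg_prod (fun i e => exp ((1 - (d : ℝ) / n) *
      sc n (univ.val.map (fun r => (lv r, a r))) (fun x => log (cosh x)) d
        (xs lv a d (fun r => if lv r = d then e r else ω.1 (i, r))))),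
      log_prod (fun i _ => (div_pos (sum_pos (fun _ _ => exp_pos _) univ_nonempty) card_pos).ne'),
      mul_sum]
    exact sum_congr rfl fun i _ => step hC n lv a id Function.injective_id _ d _

end Brx

open Brx Avx in
theorem brStmt (hC : CApi) (hLink : LinkStmt) : BrStmt := by
  intro n R _ _ lv a hn hl
  rw [(hLink n _ hn).2]
  refine ⟨?_, fun I _ _ => ?_⟩
  · unfold Xs Xv
    rw [xx_congr _ _ (two n lv a) (show 2 ≤ n + 1 by omega), one hC, xs_top hl]
  · unfold Xv
    rw [many hC]
    simp only [xs_top hl, sum_const, card_univ, nsmul_eq_mul]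

end

end Vale.Agent.P166
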