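import Vale.Agent.P166.Av
import Vale.Agent.P157.G2

/-! P166: many small recorded signs act as one Gaussian coordinate per level. -/

namespace Vale.Agent.P166

open MeasureTheory ProbabilityTheory Finset Real Vale.Agent.P157

noncomputable section

namespace Brgx

open Avx G2

theorem logP (hA : AApi) {Ω : Type} {P : Op Ω} (hP : Mk P) {f g : Ω → ℝ} {ε : ℝ}
    (hf : ∀ ω, 0 < f ω) (hg : ∀ ω, 0 < g ω) (h : ∀ ω, log (f ω) ≤ log (g ω) + ε) (ω : Ω) :
    log (P f ω) ≤ log (P g ω) + ε := by
  have pos : ∀ u : Ω → ℝ, (∀ ω, 0 < u ω) → 0 < P u ω := fun u hu => by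
    have := hA.jen hP (fun x => log (u x)) ω
    simp only [exp_log (hu _)] at this
    exact (exp_pos _).trans_le this
  have h1 : P f ω ≤ P (exp ε • g) ω := hA.mono' hP (fun x => by
    have := exp_le_exp.2 (h x)
    rwa [exp_add, exp_log (hf x), exp_log (hg x), mul_comm] at this) ω
  rw [map_smul, Pi.smul_apply, smul_eq_mul] at h1
  have h2 := log_le_log (pos f hf) h1
  rwa [log_mul (exp_pos _).ne' (pos g hg).ne', log_exp, add_comm] at h2

theorem logP2 (hA : AApi) {Ω : Type} {P : Op Ω} (hP : Mk P) {f g : Ω → ℝ} {ε : ℝ}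
    (hf : ∀ ω, 0 < f ω) (hg : ∀ ω, 0 < g ω) (h : ∀ ω, |log (f ω) - log (g ω)| ≤ ε) (ω : Ω) :
    |log (P f ω) - log (P g ω)| ≤ ε := by
  have h1 := logP hA hP hf hg (ε := ε) (fun x => by linarith [(abs_le.1 (h x)).2]) ω
  have h2 := logP hA hP hg hf (ε := ε) (fun x => by linarith [(abs_le.1 (h x)).1]) ω
  exact abs_le.2 ⟨by linarith, by linarith⟩

theorem lipY (hA : AApi) {Ω : Type} {P : ℕ → Op Ω} {m : ℕ → ℝ} {t : ℕ} (h : Ok P m t) {K : ℝ}
    {G : Ω → ℝ → ℝ} (hG : ∀ ω, Lp K (G ω)) (δ : ℕ → ℝ) (j : ℕ) (hj : j ≤ t) :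
    ∀ ω, Lp K (YG P m G δ j ω) := by
  induction j with
  | zero => exact hG
  | succ j ih =>
    have ih := ih (by omega)
    have m0 := h.pos j hj
    have m1 := h.le1 j hj
    have key : ∀ ω x k, YG P m G δ (j + 1) ω (x + k) ≤ YG P m G δ (j + 1) ω x + K * |k| := by
      intro ω x k
      have h1 := logP hA (h.mk' j) (ε := m j * (K * |k|))
        (fun ω' => integral_exp_pos (((ih ω').mul m0.le m1).int (x + k) √(δ j)))
        (fun ω' => integral_exp_pos (((ih ω').mul m0.le m1).int x √(δ j))) (fun ω' => by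
          have := mul_le_mul_of_nonneg_left ((ih ω').one m0 m1 √(δ j) x k) m0.le
          rwa [mul_add, mul_inv_cancel_left₀ m0.ne', mul_inv_cancel_left₀ m0.ne'] at this) ω
      have h2 := mul_le_mul_of_nonneg_left h1 (inv_pos.2 m0).le
      rwa [mul_add, inv_mul_cancel_left₀ m0.ne'] at h2
    intro ω x k
    have h1 := key ω x k
    have h2 := key ω (x + k) (-k)
    rw [add_neg_cancel_right, abs_neg] at h2
    exact abs_le.2 ⟨by linarith, by linarith⟩

variable {T I R : Type} [Fintype T] [DecidableEq T] [Fintype I] [DecidableEq I] [Fintype R]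
  [DecidableEq R]

theorem split (hC : CApi) (lev : T → ℕ) (lv' : R → ℕ) (a : R → ℝ) (H : Cf T I → ℝ → ℝ) (j : ℕ)
    (ω : Cf (T ⊕ R) I) :
    ch (Sum.elim lev lv') j (fun ω' : Cf (T ⊕ R) I =>
      H (pull Sum.inl ω') (xs lv' a (j - 1) (ω'.1 ∘ Sum.inr))) ω =
    ch lev j (fun ω' => (lv ((univ.filter (fun r => lv' r + 1 = j)).val.map a) : Op (ℝ × Unit))
      (fun y => H ω' y.1) (xs lv' a j (ω.1 ∘ Sum.inr), ())) (pull Sum.inl ω) := by
  cases j with
  | zero =>
    rw [filter_false_of_mem (fun r _ => by omega), empty_val, Multiset.map_zero, hC.lv_zero]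
    rfl
  | succ d =>
    simp only [ch, rsl_apply, Nat.add_sub_cancel, Nat.add_right_cancel_iff]
    simp only [← avg_lv hC (T := R) id Function.injective_id a]
    rw [← sum_div, div_div, ← Fintype.sum_prod_type',
      Fintype.card_congr (Equiv.sumArrowEquivProdArrow T R Bool), Fintype.card_prod, Nat.cast_mul,
      mul_comm ((Fintype.card (T → Bool) : ℕ) : ℝ)]
    congr 1
    refine Fintype.sum_equiv (Equiv.sumArrowEquivProdArrow T R Bool) _ _ fun e => ?_
    simp only [id]
    rw [← xs_mix]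
    congr 1

end Brgx

open Brgx Avx G2 in
theorem brgStmt (hA : AApi) (hC : CApi) (hLin : LinStmt) (hR : RApi) : BrgStmt := by
  intro n K Q ε hn hε
  have hn0 : (0 : ℝ) < n := by exact_mod_cast hn
  obtain ⟨η, hη, hL⟩ := hLin K Q (ε / ((n + 1) * n)) (by positivity)
  refine ⟨η, hη, fun T I R _ _ _ _ _ _ lev G p lv' a hG hp hQ hM => ?_⟩
  have ok := (hR.ok (I := I) n lev hn).1
  have ok' := (hR.ok (I := I) n (Sum.elim lev lv') hn).1
  have key : ∀ j, j ≤ n + 1 → ∀ ω : Cf (T ⊕ R) I, |XX (ch (Sum.elim lev lv')) (ex n)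
      (fun ω => G (pull Sum.inl ω) (sg a (ω.1 ∘ Sum.inr))) j ω -
      YG (ch lev) (ex n) G (inc p) j (pull Sum.inl ω) (xs lv' a (j - 1) (ω.1 ∘ Sum.inr))| ≤
      j * (ε / (n + 1)) := by
    intro j
    induction j with
    | zero => intro _ ω; simp [XX, YG, xs_zero]
    | succ j ih =>
      intro hj ω
      have ih := ih (by omega)
      have m0 := ok.pos j hj
      have m1 := ok.le1 j hj
      have mn : (ex n j)⁻¹ ≤ n := by
        rw [inv_le_comm₀ m0 hn0, ← one_div]
        cases j with
        | zero => rw [div_le_iff₀ hn0]; simpa [ex] using hn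
        | succ d => exact (mpos (show d < n by omega)).1
      have hY := lipY hA ok hG (inc p) j (by omega)
      have h1 := logP2 hA (ok'.mk' j) (ε := ex n j * (j * (ε / (n + 1))))
        (fun ω' => exp_pos (ex n j * XX (ch (Sum.elim lev lv')) (ex n)
          (fun ω => G (pull Sum.inl ω) (sg a (ω.1 ∘ Sum.inr))) j ω'))
        (fun ω' => exp_pos (ex n j * YG (ch lev) (ex n) G (inc p) j (pull Sum.inl ω')
          (xs lv' a (j - 1) (ω'.1 ∘ Sum.inr)))) (fun ω' => by
            rw [log_exp, log_exp, ← mul_sub, abs_mul, abs_of_pos m0]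
            exact mul_le_mul_of_nonneg_left (ih ω') m0.le) ω
      rw [split hC lev lv' a (fun ω' x => exp (ex n j * YG (ch lev) (ex n) G (inc p) j ω' x))] at h1
      have hs : 0 ≤ inc p j ∧ inc p j ≤ Q ∧
          |(((univ.filter (fun r => lv' r + 1 = j)).val.map a).map (fun a => a ^ 2)).sum -
            inc p j| ≤ η := by
        have p0 := anti hp (Nat.zero_le n) le_rfl
        rw [hp.2] at p0
        cases j with
        | zero =>
          rw [filter_false_of_mem (fun r _ => by omega)]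
          simpa [inc] using ⟨p0.trans hQ, hη.le⟩
        | succ d =>
          have a1 := anti hp (Nat.zero_le d) (by omega)
          have a2 := anti hp (show d + 1 ≤ n by omega) le_rfl
          have a3 := hp.1 d (by omega)
          rw [hp.2] at a2
          refine ⟨by simp only [inc]; linarith, by simp only [inc]; linarith, ?_⟩
          simp only [Nat.add_right_cancel_iff, Multiset.map_map]
          exact hM.2.2 d (by omega)
      have h2 := logP2 hA (ok.mk' j) (ε := ε / ((n + 1) * n))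
        (fun ω' => (exp_pos _).trans_le (hA.jen (hC.lv_mk (S := Unit)
          ((univ.filter (fun r => lv' r + 1 = j)).val.map a))
          (fun y => ex n j * YG (ch lev) (ex n) G (inc p) j ω' y.1)
          (xs lv' a j (ω.1 ∘ Sum.inr), ())))
        (fun ω' => integral_exp_pos (((hY ω').mul m0.le m1).int (xs lv' a j (ω.1 ∘ Sum.inr))
          √(inc p j))) (fun ω' => (hL (fun t => ex n j * YG (ch lev) (ex n) G (inc p) j ω' t) _ _ _
            ((hY ω').mul m0.le m1) hs.1 hs.2.1 (fun b hb => by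
            obtain ⟨r, _, rfl⟩ := Multiset.mem_map.1 hb
            exact hM.2.1 r) hs.2.2).2) (pull Sum.inl ω)
      have h3 := (abs_sub_le _ _ _).trans (add_le_add h1 h2)
      simp only [XX, YG, Nat.add_sub_cancel]
      rw [← mul_sub, abs_mul, abs_of_pos (inv_pos.2 m0)]
      refine (mul_le_mul_of_nonneg_left h3 (inv_pos.2 m0).le).trans ?_
      rw [mul_add, inv_mul_cancel_left₀ m0.ne']
      have h4 : (ex n j)⁻¹ * (ε / ((n + 1) * n)) ≤ ε / (n + 1) :=
        (mul_le_mul_of_nonneg_right mn (by positivity)).trans (le_of_eq (by field_simp))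
      push_cast
      linarith
  have h := key (n + 1) le_rfl (w0 _ _)
  rw [Nat.add_sub_cancel, xs_top hM.1] at h
  refine h.trans (le_of_eq ?_)
  push_cast
  field_simp

end

end Vale.Agent.P166
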