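import Vale.Agent.P166.Stm

/-! P166: the cavity step at the Haar level. -/

namespace Vale.Agent.P166

open MeasureTheory ProbabilityTheory Finset Real Filter Topology Vale.Agent.P157

noncomputable section

namespace Cav

section
variable {I I' : Type} [Fintype I] [DecidableEq I] [Fintype I'] [DecidableEq I']

theorem intc (ν : Measure (OG I)) [IsFiniteMeasure ν] {f : OG I → ℝ} (hf : Continuous f) :
    Integrable f ν :=
  hf.integrable_of_hasCompactSupport (HasCompactSupport.of_compactSpace f)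

theorem fub {ν : Measure (OG I)} {ν' : Measure (OG I')} (hν : Haar ν) (hν' : Haar ν')
    {em : OG I → OG I'} (he : Continuous em) {F : OG I' → ℝ} (hF : Continuous F) :
    Integrable (fun W => ∫ U, F (W * em U) ∂ν) ν' ∧
      ∫ W, F W ∂ν' = ∫ W, ∫ U, F (W * em U) ∂ν ∂ν' := by
  have := hν.prob
  have := hν'.prob
  have hc : Continuous (Function.uncurry fun (W : OG I') (U : OG I) => F (W * em U)) :=
    hF.comp (continuous_fst.mul (he.comp continuous_snd))
  have hi : Integrable (Function.uncurry fun (W : OG I') (U : OG I) => F (W * em U)) (ν'.prod ν) :=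
    hc.integrable_of_hasCompactSupport (HasCompactSupport.of_compactSpace _)
  refine ⟨hi.integral_prod_left, ?_⟩
  rw [integral_integral_swap hi]
  simp only [hν'.right _ F hF, integral_const, probReal_univ, one_smul]

theorem shift_eq {ν : Measure (OG I)} (hν : Haar ν) {n : ℕ} (hn : 1 ≤ n) {Y : OG I → ℝ}
    (hY : Continuous Y) (V : OG I) (c : ℝ) :
    exp ((n * log (∫ U, exp (Y U / n) ∂ν) + c) / n) = ∫ U, exp ((Y (V * U) + c) / n) ∂ν := by
  have := hν.prob
  have n0 : (n : ℝ) ≠ 0 := by positivity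
  have hc : Continuous fun U => exp (Y U / n) := by fun_prop
  have hp : 0 < ∫ U, exp (Y U / n) ∂ν := integral_exp_pos (intc ν hc)
  simp only [add_div, exp_add, mul_div_cancel_left₀ _ n0, exp_log hp, integral_mul_const]
  rw [hν.left V _ hc]

theorem int_le {ν : Measure (OG I)} (hν : Haar ν) {n : ℕ} (hn : 1 ≤ n) {F Y : OG I → ℝ}
    (hF : Continuous F) (hY : Continuous Y) (V : OG I) (c : ℝ) (h : ∀ U, F U ≤ Y (V * U) + c) :
    ∫ U, exp (F U / n) ∂ν ≤ exp ((n * log (∫ U, exp (Y U / n) ∂ν) + c) / n) := by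
  have := hν.prob
  rw [shift_eq hν hn hY V c]
  refine integral_mono (intc ν (by fun_prop)) (intc ν (by fun_prop)) (fun U => ?_)
  exact exp_le_exp.2 (div_le_div_of_nonneg_right (h U) (Nat.cast_nonneg n))

theorem le_int {ν : Measure (OG I)} (hν : Haar ν) {n : ℕ} (hn : 1 ≤ n) {F Y : OG I → ℝ}
    (hF : Continuous F) (hY : Continuous Y) (V : OG I) (c : ℝ) (h : ∀ U, Y (V * U) + c ≤ F U) :
    exp ((n * log (∫ U, exp (Y U / n) ∂ν) + c) / n) ≤ ∫ U, exp (F U / n) ∂ν := by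
  have := hν.prob
  rw [shift_eq hν hn hY V c]
  refine integral_mono (intc ν (by fun_prop)) (intc ν (by fun_prop)) (fun U => ?_)
  exact exp_le_exp.2 (div_le_div_of_nonneg_right (h U) (Nat.cast_nonneg n))

theorem xcont (hR : RApi) {T : Type} [Fintype T] [DecidableEq T] {n : ℕ} (hn : 1 ≤ n) (lev : T → ℕ)
    {Z : OG I → Cf T I → ℝ} (hZ : Ct Z) : Continuous fun U => Xv n lev (Z U) :=
  (hR.cont n lev Z Z (fun _ _ _ => 0) hn hZ).1 (n + 1) _ le_rfl

theorem exp_sum_le {J : Type} [Fintype J] {K : ℕ} (hK : Fintype.card J ≤ K) (a : J → ℝ)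
    (ha : ∀ j, 0 ≤ a j) : exp (∑ j, a j) ≤ 1 * 1 + 1 * ∑ j, exp (K * a j) := by
  rcases isEmpty_or_nonempty J with h | h
  · simp
  · obtain ⟨j, -, hj⟩ := exists_max_image univ a univ_nonempty
    have h1 : ∑ j, a j ≤ K * a j := by
      refine (sum_le_card_nsmul _ _ _ hj).trans ?_
      rw [card_univ, nsmul_eq_mul]
      exact mul_le_mul_of_nonneg_right (by exact_mod_cast hK) (ha j)
    have h2 := single_le_sum (f := fun j => exp (K * a j)) (fun j _ => (exp_pos _).le) (mem_univ j)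
    linarith [exp_le_exp.2 h1]

theorem up_le (hMom : MomStmt) (hO : OApi) (hH : HApi) {κ J Ts : Type} [Fintype κ] [DecidableEq κ]
    [Fintype J] [Fintype Ts] [DecidableEq Ts] {ν : Measure (OG I)} (S : Sys κ I Ts) (D : ℕ) {n : ℕ}
    (y : κ → ℕ → ℝ) (τ : κ) (sp : J → I) {K : ℕ} {η v δ : ℝ} (hν : Haar ν) (hn : 1 ≤ n)
    (hL : LevOk n S.levs) (hK : Fintype.card J ≤ K) (hsp : ∀ j, S.c (sp j) = τ) (v0 : 0 ≤ v)
    (v1 : v ≤ 1) (hKv : 8 * K * v ≤ η) (hN : 2 ≤ η * Fintype.card I)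
    (hc : η * Fintype.card I ≤ (S.cls τ).card) (hI : S.Inv D n y δ) (δ0 : 0 ≤ δ)
    (hδ : δ * exp (K * Fintype.card I) ≤ 1) :
    TH ν n (S.lev D n) (fun U ω => S.Z D n y U ω + ∑ j, v * yy U ω.2 (sp j) ^ 2 / 2) ≤
      S.T ν D n y + 5 * K := by
  have hZ := hH.ctz S D n y
  have H := hH.one (S.lev D n) hν hn hZ.1
  have cy := fun σ i => hO.cont (I := I) σ i
  have h1 : ∀ j, EH ν n (S.lev D n) (S.Z D n y)
      (fun U ω => exp (K * v / 2 * yy U ω.2 (sp j) ^ 2)) ≤ 5 := fun j => by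
    have hj : sp j ∈ S.cls τ := by simp [Sys.cls, hsp j]
    have hA : (((S.cls τ).erase (sp j)).card : ℝ) = (S.cls τ).card - 1 := by
      rw [← card_erase_add_one hj]; push_cast; ring
    have hA0 : (0 : ℝ) < ((S.cls τ).erase (sp j)).card := by linarith
    refine (hMom _ I ν n (S.lev D n) (S.Z D n y) (fs D n I Ts) ((S.cls τ).erase (sp j)) (sp j) δ hν hn
      (hZ.2 hL) hZ.1 (notMem_erase _ _) (card_pos.1 (by exact_mod_cast hA0))
      (fun R hR => hI R (hO.supblk _ R S.c τ hR (fun i hi => ?_)))).2 _ (by positivity) ?_ ?_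
    · rw [insert_erase hj] at hi
      exact (mem_filter.1 hi).2
    · rw [mul_div_assoc', div_le_iff₀ hA0, hA]
      nlinarith [mul_le_mul_of_nonneg_right hKv (Nat.cast_nonneg (α := ℝ) (Fintype.card I))]
    · refine le_trans (mul_le_mul_of_nonneg_left (exp_le_exp.2 ?_) δ0) hδ
      have : (0 : ℝ) ≤ K * Fintype.card I := by positivity
      nlinarith
  have c1 : Ct (fun (U : OG I) (ω : Cf (Sg D n I Ts) I) => ∑ j, v * yy U ω.2 (sp j) ^ 2 / 2) :=
    fun ω => by fun_prop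
  have c2 : Ct (fun (U : OG I) (ω : Cf (Sg D n I Ts) I) =>
      exp (∑ j, v * yy U ω.2 (sp j) ^ 2 / 2)) := fun ω => by fun_prop
  have c3 : ∀ j, Ct (fun (U : OG I) (ω : Cf (Sg D n I Ts) I) =>
      exp (K * v / 2 * yy U ω.2 (sp j) ^ 2)) := fun j ω => by fun_prop
  have c4 : Ct (fun (U : OG I) (ω : Cf (Sg D n I Ts) I) =>
      ∑ j, exp (K * v / 2 * yy U ω.2 (sp j) ^ 2)) := fun ω => by fun_prop
  have c5 : Ct (fun (_ : OG I) (_ : Cf (Sg D n I Ts) I) => (1 : ℝ)) := fun ω => continuous_const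
  have h2 := H.mono _ _ c5 c2 (fun U ω => one_le_exp (by positivity))
  have h3 := H.mono _ (fun U ω => 1 * 1 + 1 * ∑ j, exp (K * v / 2 * yy U ω.2 (sp j) ^ 2)) c2
    (fun ω => by fun_prop) (fun U ω => (exp_sum_le hK _ (fun j => by positivity)).trans
      (le_of_eq (by congr 2; exact sum_congr rfl (fun j _ => by congr 1; ring))))
  rw [H.lin _ _ 1 1 c5 c4, H.sum _ _ (fun j _ => c3 j)] at h3
  rw [H.const] at h2 h3
  have h4 := sum_le_card_nsmul _ _ _ (fun j (_ : j ∈ univ) => h1 j)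
  rw [card_univ, nsmul_eq_mul] at h4
  have h5 : (Fintype.card J : ℝ) ≤ K := by exact_mod_cast hK
  have h6 := log_le_sub_one_of_pos (one_pos.trans_le h2)
  have h7 := H.xup _ c1
  unfold Sys.T
  linarith

theorem cav_ct (hO : OApi) (hH : HApi) {κ J : Type} [Fintype J] (S : Sys κ I Empty) (D n : ℕ)
    (y : κ → ℕ → ℝ) (s : ℝ) (sp : J → I) (θ γ : J → ℝ) : Ct (cavZ S D n y s sp θ γ) := fun ω => by
  have h1 := (hH.ctz S D n y).1 (pull Sum.inl ω)
  have cy := fun σ i => hO.cont (I := I) σ i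
  unfold cavZ qd
  fun_prop

theorem spin_sq (b : Bool) : spin b ^ 2 = 1 := by cases b <;> simp [spin]

theorem cav_ge (hSy : SyStmt) (hA : AApi) (hO : OApi) (hR : RApi) (hH : HApi) {κ J : Type}
    [Fintype κ] [DecidableEq κ] [Fintype J] {ν : Measure (OG I)} (S : Sys κ I Empty) (D : ℕ) {n : ℕ}
    (y : κ → ℕ → ℝ) (τ : κ) (sp : J → I) (l : ℕ) (θ γ : J → ℝ) {K : ℕ} {η Γ s : ℝ} (hν : Haar ν)
    (hn : 1 ≤ n) (hK : Fintype.card J ≤ K) (hsp : ∀ j, S.c (sp j) = τ) (η0 : 0 < η) (Γ0 : 0 ≤ Γ)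
    (hc : η * Fintype.card I ≤ (S.cls τ).card) (hs : |s| ≤ 1)
    (hθ : ∀ j, θ j ≤ 2 * Γ + 2 ∧ |γ j| ≤ Γ) :
    S.T ν D n y ≤ TH ν n (Sum.elim (S.lev D n) (lB l)) (cavZ S D n y s sp θ γ) +
      (1 + K * Γ + (2 * Γ + 1) * (K * (1 / η))) := by
  have hZ := hH.ctz S D n y
  have H := hH.one (S.lev D n) hν hn hZ.1
  have cy := fun σ i => hO.cont (I := I) σ i
  have h5 : (Fintype.card J : ℝ) ≤ K := by exact_mod_cast hK
  have c1 : Ct (fun (U : OG I) (ω : Cf (Sg D n I Empty) I) => ∑ j, yy U ω.2 (sp j) ^ 2) :=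
    fun ω => by fun_prop
  have c2 : Ct (fun (U : OG I) (ω : Cf (Sg D n I Empty) I) =>
      -(2 * Γ + 1) * ∑ j, yy U ω.2 (sp j) ^ 2 + 0 * ∑ j, yy U ω.2 (sp j) ^ 2) := fun ω => by fun_prop
  have h1 := H.low _ c2
  rw [H.lin _ _ _ _ c1 c1, H.sum _ _ (fun j _ ω => by fun_prop)] at h1
  have h2 : ∀ j ∈ univ, EH ν n (S.lev D n) (S.Z D n y) (fun U ω => yy U ω.2 (sp j) ^ 2) ≤ 1 / η :=
    fun j _ => ((hSy κ I Empty ν S D n y hν hn).1 (sp j)).trans (by
      rw [hsp]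
      refine div_le_of_le_mul₀ (Nat.cast_nonneg _) (by positivity) ?_
      rw [one_div_mul_eq_div, le_div_iff₀ η0]
      linarith)
  have h3 := sum_le_card_nsmul _ _ _ h2
  rw [card_univ, nsmul_eq_mul] at h3
  have h4 := mul_le_mul_of_nonneg_left (h3.trans (mul_le_mul_of_nonneg_right h5 (by positivity)))
    (show 0 ≤ 2 * Γ + 1 by positivity)
  have h6 := hH.ptw (S.lev D n) (Sum.elim (S.lev D n) (lB l)) (1 + K * Γ) hν hn
    (Z := fun U ω => S.Z D n y U ω +
      (-(2 * Γ + 1) * ∑ j, yy U ω.2 (sp j) ^ 2 + 0 * ∑ j, yy U ω.2 (sp j) ^ 2))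
    (fun ω => (hZ.1 ω).add (c2 ω)) (cav_ct hO hH S D n y s sp θ γ) (fun U => by
      rw [← (hR.emb n (S.lev D n) (Sum.elim (S.lev D n) (lB l)) Sum.inl
        ⟨Sum.inl_injective, fun _ => rfl⟩ _).1]
      refine hA.xle (hR.ok n _ hn).1 (fun ω => ?_) _ le_rfl _
      have a1 : ∀ j ∈ univ, -(2 * Γ + 1) * yy U ω.2 (sp j) ^ 2 -
          qd (θ j) (γ j) (yy U ω.2 (sp j) * spin (ω.1 (Sum.inr false))) ≤ Γ := fun j _ => by
        set t := yy U ω.2 (sp j) * spin (ω.1 (Sum.inr false)) with ht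
        have e : yy U ω.2 (sp j) ^ 2 = t ^ 2 := by rw [ht, mul_pow, spin_sq, mul_one]
        have b1 : -(γ j * t) ≤ Γ * |t| := by
          refine (neg_le_abs _).trans ?_
          rw [abs_mul]
          exact mul_le_mul_of_nonneg_right (hθ j).2 (abs_nonneg _)
        have b2 : |t| ≤ 1 + t ^ 2 := by rw [← sq_abs]; nlinarith [sq_nonneg (|t| - 1)]
        rw [e, qd]
        nlinarith [mul_le_mul_of_nonneg_left b2 Γ0, mul_le_mul_of_nonneg_right (hθ j).1 (sq_nonneg t)]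
      have a2 := sum_le_card_nsmul _ _ _ a1
      rw [card_univ, nsmul_eq_mul, sum_sub_distrib, ← mul_sum] at a2
      have a3 : -1 ≤ s * spin (ω.1 (Sum.inr true)) * spin (ω.1 (Sum.inr false)) := by
        have := abs_le.1 hs
        cases ω.1 (Sum.inr true) <;> cases ω.1 (Sum.inr false) <;> simp [spin] <;> linarith
      have a4 := mul_le_mul_of_nonneg_right h5 Γ0
      show S.Z D n y U (pull Sum.inl ω) + (-(2 * Γ + 1) * ∑ j, yy U ω.2 (sp j) ^ 2 +
        0 * ∑ j, yy U ω.2 (sp j) ^ 2) ≤ _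
      unfold cavZ
      linarith)
  unfold Sys.T
  linarith

theorem bad_int (hSm : SmStmt) {κ : Type} [Fintype κ] [DecidableEq κ] {ν : Measure (OG I)}
    (hν : Haar ν) (c : I → κ) (i0 : I) {K : ℕ} (hK : Fintype.card κ ≤ K) (d : ℝ) :
    Integrable (fun W : OG I => (∑ k, (∑ i ∈ univ.filter (fun i => c i = k), W.1 i i0 ^ 2 -
      (univ.filter (fun i => c i = k)).card / (Fintype.card I : ℝ)) ^ 2) / d ^ 2) ν ∧
    ∫ W, (∑ k, (∑ i ∈ univ.filter (fun i => c i = k), W.1 i i0 ^ 2 -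
      (univ.filter (fun i => c i = k)).card / (Fintype.card I : ℝ)) ^ 2) / d ^ 2 ∂ν ≤
      K * (3 / Fintype.card I) / d ^ 2 := by
  have := hν.prob
  have ce : ∀ i j, Continuous fun W : OG I => W.1 i j := fun i j =>
    (continuous_apply_apply i j).comp continuous_subtype_val
  have cm : ∀ k, Continuous fun W : OG I => (∑ i ∈ univ.filter (fun i => c i = k), W.1 i i0 ^ 2 -
      (univ.filter (fun i => c i = k)).card / (Fintype.card I : ℝ)) ^ 2 := fun k =>
    ((continuous_finsetSum _ (fun i _ => (ce i i0).pow 2)).sub continuous_const).pow 2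
  refine ⟨intc ν ((continuous_finsetSum _ (fun k _ => cm k)).div_const _), ?_⟩
  rw [integral_div, integral_finsetSum _ (fun k _ => intc ν (cm k))]
  refine div_le_div_of_nonneg_right ?_ (sq_nonneg d)
  refine (sum_le_card_nsmul _ _ _ (fun k _ => hSm I ν _ i0 hν)).trans ?_
  rw [card_univ, nsmul_eq_mul]
  exact mul_le_mul_of_nonneg_right (by exact_mod_cast hK) (by positivity)

end

theorem fin {X : Type} [MeasurableSpace X] {μ : Measure X} [IsProbabilityMeasure μ]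
    {Φ bad : X → ℝ} (hΦ : Integrable Φ μ) (hb : Integrable bad μ) {n : ℕ} (hn : 1 ≤ n)
    {a a' b C β e : ℝ} (C0 : 0 ≤ C) (hβ : ∫ W, bad W ∂μ ≤ β) (β0 : 0 ≤ β) (h0 : ∀ W, 0 ≤ Φ W)
    (b0 : ∀ W, 0 ≤ bad W) (h1 : ∀ W, Φ W ≤ exp (b / n))
    (h2 : ∀ W, 1 ≤ bad W ∨ (exp (a' / n) ≤ Φ W ∧ Φ W ≤ exp (a / n))) (hC : b ≤ a + C)
    (h3 : exp C * β ≤ e / n) (h4 : β ≤ 1 - exp (-(e / n))) :
    n * log (∫ W, Φ W ∂μ) ≤ a + e ∧ a' - e ≤ n * log (∫ W, Φ W ∂μ) ∧
      n * log (∫ W, Φ W ∂μ) ≤ b := by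
  have n0 : (0 : ℝ) < n := by positivity
  have n1 : (1 : ℝ) ≤ n := by exact_mod_cast hn
  have l1 : exp ((a' - e) / n) ≤ ∫ W, Φ W ∂μ := by
    have := integral_mono (f := fun W => exp (a' / n) - exp (a' / n) * bad W)
      ((integrable_const _).sub (hb.const_mul _)) hΦ (fun W => by
        rcases h2 W with h | h
        · nlinarith [h0 W, exp_pos (a' / n)]
        · nlinarith [h.1, b0 W, exp_pos (a' / n)])
    rw [integral_sub (integrable_const _) (hb.const_mul _), integral_const_mul, integral_const,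
      probReal_univ, one_smul] at this
    rw [sub_div, sub_eq_add_neg, exp_add]
    nlinarith [exp_pos (a' / n)]
  have p0 : 0 < ∫ W, Φ W ∂μ := (exp_pos _).trans_le l1
  have l2 : ∫ W, Φ W ∂μ ≤ exp ((a + e) / n) := by
    have := integral_mono (g := fun W => exp (a / n) + exp (b / n) * bad W) hΦ
      ((integrable_const _).add (hb.const_mul _)) (fun W => by
        rcases h2 W with h | h
        · nlinarith [h1 W, exp_pos (a / n), exp_pos (b / n)]
        · nlinarith [h.2, b0 W, exp_pos (b / n)])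
    rw [integral_add (integrable_const _) (hb.const_mul _), integral_const_mul, integral_const,
      probReal_univ, one_smul] at this
    have e1 : exp (b / n) ≤ exp (a / n) * exp C := by
      rw [← exp_add]
      refine exp_le_exp.2 ((div_le_div_of_nonneg_right hC n0.le).trans ?_)
      rw [add_div]
      linarith [div_le_self C0 n1]
    rw [add_div, exp_add]
    have e2 := mul_le_mul_of_nonneg_left hβ (exp_pos (b / n)).le
    have e3 := mul_le_mul_of_nonneg_right e1 β0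
    have e4 := mul_le_mul_of_nonneg_left (h3.trans (show e / n ≤ exp (e / n) - 1 by
      linarith [add_one_le_exp (e / n)])) (exp_pos (a / n)).le
    nlinarith
  have l3 : ∫ W, Φ W ∂μ ≤ exp (b / n) := by
    simpa using integral_mono hΦ (integrable_const (exp (b / n))) h1
  refine ⟨?_, ?_, ?_⟩
  · rw [← le_div_iff₀' n0, log_le_iff_le_exp p0]; exact l2
  · rw [← div_le_iff₀' n0, le_log_iff_exp_le p0]; exact l1
  · rw [← le_div_iff₀' n0, log_le_iff_le_exp p0]; exact l3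

theorem mn_le {κ : Type} [Fintype κ] {α lam : κ → ℝ} {τ : κ} {Γ η : ℝ} (h : Wt α lam τ Γ η) :
    |mn α lam| ≤ Γ := by
  refine (abs_sum_le_sum_abs _ _).trans ?_
  calc ∑ k, |α k * lam k| ≤ ∑ k, α k * Γ := sum_le_sum (fun k _ => by
        rw [abs_mul, abs_of_nonneg (h.nn k)]
        exact mul_le_mul_of_nonneg_left (h.bd k) (h.nn k))
    _ = Γ := by rw [← sum_mul, h.sum, one_mul]

theorem small (K d b η : ℝ) (hb : 0 < b) (hη : 0 < η) :
    ∃ N0 : ℕ, ∀ N : ℕ, N0 ≤ N → K * (3 / ((N + 1 : ℕ) : ℝ)) / d ^ 2 ≤ b ∧ 2 ≤ η * N := by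
  obtain ⟨N0, h⟩ := exists_nat_ge (max (|K * 3 / d ^ 2| / b) (2 / η))
  refine ⟨N0, fun N hN => ?_⟩
  have h1 : (N0 : ℝ) ≤ N := by exact_mod_cast hN
  have h2 := (div_le_iff₀ hb).1 ((le_max_left _ _).trans (h.trans h1))
  have h3 := (div_le_iff₀ hη).1 ((le_max_right _ _).trans (h.trans h1))
  refine ⟨?_, by linarith⟩
  have e : K * (3 / ((N + 1 : ℕ) : ℝ)) / d ^ 2 = (K * 3 / d ^ 2) / ((N + 1 : ℕ) : ℝ) := by ring
  rw [e, div_le_iff₀ (by positivity)]
  push_cast
  nlinarith [le_abs_self (K * 3 / d ^ 2)]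

end Cav

open Cav in
theorem cavStmt (h1 : Cv1Stmt) (h2 : Cv2Stmt) (hSm : SmStmt) (hMom : MomStmt) (hSy : SyStmt)
    (hA : AApi) (hO : OApi) (hR : RApi) (hH : HApi) : CavStmt := by
  intro K Γ η v ε η0 v0 v1 hKv ε0
  obtain ⟨d, d0, h1⟩ := h1 K Γ η v η0 v0
  refine ⟨d / 2, by positivity, fun n hn => ?_⟩
  have n0 : (0 : ℝ) < n := by positivity
  set C1 : ℝ := 5 * K + |Γ| / 2 + 3 with hC1
  set C2 : ℝ := 1 + K * |Γ| + (2 * |Γ| + 1) * (K * (1 / η)) with hC2
  have p1 : 0 ≤ C1 := by positivity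
  have p2 : 0 ≤ C2 := by positivity
  have p3 : 0 ≤ C1 + C2 + |Γ| := by positivity
  have p4 : 0 < 1 - exp (-(ε / 2 / n)) := sub_pos.2 (exp_lt_one_iff.2 (neg_lt_zero.2 (by positivity)))
  obtain ⟨N0, hN0⟩ := small K (d / 2) (min (ε / 2 / n / exp (C1 + C2 + |Γ|)) (1 - exp (-(ε / 2 / n))))
    η (lt_min (by positivity) p4) η0
  refine ⟨C1 + C2 + |Γ| + 1 + ε, by positivity, N0, fun N hN => ?_⟩
  obtain ⟨em, hem, h1⟩ := h1 N
  obtain ⟨hβ, hN2⟩ := hN0 N hN
  refine ⟨min (min 1 (ε / 2)) (exp (-(K * N))), by positivity, ?_⟩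
  set δ := min (min 1 (ε / 2)) (exp (-(K * N : ℝ))) with hδ
  have δ0 : 0 ≤ δ := by positivity
  have δ1 : δ ≤ 1 := (min_le_left _ _).trans (min_le_left _ _)
  have δ2 : δ ≤ ε / 2 := (min_le_left _ _).trans (min_le_right _ _)
  have δ3 : δ * exp (K * N) ≤ 1 := by
    refine (mul_le_mul_of_nonneg_right (min_le_right _ _) (exp_pos _).le).trans ?_
    rw [← exp_add, neg_add_cancel, exp_zero]
  intro κ J _ _ _ _ ν ν' D τ cl sp c' α lam nu γ y l s hν hν' hK hsp hc hcl hα hW hD hb hal hl hs hV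
    hcls hI' hI
  have := hν.prob
  have := hν'.prob
  have Γ0 : 0 ≤ Γ := (abs_nonneg _).trans (hW.bd τ)
  rw [abs_of_nonneg Γ0] at hC1 hC2
  have hm := abs_le.1 (mn_le hW)
  have hτ := abs_le.1 (hW.bd τ)
  have hJ : Fintype.card J ≤ K := by
    have := Fintype.card_congr cl
    rw [Fintype.card_option] at this
    omega
  set S' := sL c' lam l s with hS'
  set S := (s0 (c' ∘ Fin.castSucc) lam).up (univ.image sp) τ with hS
  have hSτ : ∀ j, S.c (sp j) = τ := fun j => by simp [hS, Sys.up]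
  have hcls' : η * Fintype.card (Fin N) ≤ (S.cls τ).card := by simpa using hcls
  have cZ' := hH.ctz S' D n y
  have cZ := hH.ctz S D n y
  have cX := xcont hR hn (S'.lev D n) cZ'.1
  have cy := fun σ i => hO.cont (I := Fin N) σ i
  have u1 := up_le hMom hO hH S D y τ sp hν hn (fun e => e.elim) hJ hSτ v0.le v1 hKv
    (by simpa using hN2) hcls' hI δ0 (by simpa using δ3)
  have u2 := cav_ge hSy hA hO hR hH S D y τ sp l (fun j => lam τ - nu j - 2 * v) γ hν hn hJ hSτ η0 Γ0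
    hcls' hs (fun j => ⟨by linarith [abs_le.1 (hb j).1], (hb j).2⟩)
  have u3 := cav_ge hSy hA hO hR hH S D y τ sp l (fun j => lam τ - nu j + 2 * v) γ hν hn hJ hSτ η0 Γ0
    hcls' hs (fun j => ⟨by linarith [abs_le.1 (hb j).1], (hb j).2⟩)
  obtain ⟨f1, f2⟩ := fub hν hν' hem (F := fun W => exp (Xv n (S'.lev D n) (S'.Z D n y W) / n))
    (by fun_prop)
  obtain ⟨g1, g2⟩ := bad_int hSm hν' c' (Fin.last N) hK (d / 2)
  replace g2 := g2.trans (le_of_eq (show _ = K * (3 / ((N + 1 : ℕ) : ℝ)) / (d / 2) ^ 2 by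
    rw [Fintype.card_fin]))
  have hinv : ∀ B, Blk c' B → ∀ W, |Xv n (S'.lev D n) (S'.Z D n y (B * W)) -
      Xv n (S'.lev D n) (S'.Z D n y W)| ≤ δ := fun B hB W => by
    have := hI' B hB W _ (S'.lev D n) id ⟨Function.injective_id, fun _ => rfl⟩
      (cZ'.2 (fun _ => hl)) (fun _ => 0) (fun _ _ _ _ => rfl)
    simp only [add_zero] at this
    exact this
  have cW : ∀ W : OG (Fin (N + 1)),
      Continuous fun U => Xv n (S'.lev D n) (S'.Z D n y (W * em U)) := fun W =>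
    cX.comp (continuous_const.mul hem)
  have key := fin f1 g1 hn
    (a := TH ν n (Sum.elim (S.lev D n) (lB l)) (cavZ S D n y s sp (fun j => lam τ - nu j - 2 * v) γ) +
      (mn α lam / 2 + v + δ))
    (a' := TH ν n (Sum.elim (S.lev D n) (lB l)) (cavZ S D n y s sp (fun j => lam τ - nu j + 2 * v) γ) +
      (mn α lam / 2 - v - δ))
    (b := TH ν n (S.lev D n) (fun U ω => S.Z D n y U ω + ∑ j, v * yy U ω.2 (sp j) ^ 2 / 2) +
      (lam τ / 2 + v / 2 + 1 + δ)) (e := ε / 2) p3 g2 (by positivity)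
    (fun W => integral_nonneg (fun U => (exp_pos _).le)) (fun W => by positivity) (fun W => ?_)
    (fun W => ?_) (by rw [abs_of_nonneg Γ0]; linarith)
    (by rw [mul_comm, ← le_div_iff₀ (exp_pos _)]; exact hβ.trans (min_le_left _ _))
    (hβ.trans (min_le_right _ _))
  · rw [← f2] at key
    obtain ⟨k1, k2, k3⟩ := key
    change S'.T ν' D n y ≤ _ at k1 k3
    change _ ≤ S'.T ν' D n y at k2
    refine ⟨by linarith, by linarith, abs_le.2 ⟨?_, ?_⟩⟩ <;> rw [abs_of_nonneg Γ0] <;> linarith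
  · obtain ⟨B, V, hB, hBV⟩ := h1 κ J cl sp c' α lam nu γ hK hsp hc hcl hα hW.sum hW.bd hD W
    refine int_le hν hn (cW W) (xcont hR hn (S.lev D n)
      (Z := fun U ω => S.Z D n y U ω + ∑ j, v * yy U ω.2 (sp j) ^ 2 / 2)
      (fun ω => (cZ.1 ω).add (by fun_prop))) V _ (fun U => ?_)
    have := (h2 N κ J D n τ cl sp c' lam nu γ y l s v (mn α lam) (B * (W * em U)) (V * U) hl hs hV hsp
      hc hcl (fun k => hW.le k (η0.trans_le (hα k))) (fun σ => (hBV U σ).1)
      (fun σ => (hBV U σ).2.1)).1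
    linarith [abs_le.1 (hinv B hB (W * em U))]
  · obtain ⟨B, V, hB, hBV⟩ := h1 κ J cl sp c' α lam nu γ hK hsp hc hcl hα hW.sum hW.bd hD W
    by_cases hg : ∀ k, |∑ i ∈ univ.filter (fun i => c' i = k), W.1 i (Fin.last N) ^ 2 - α k| ≤ d
    · have h3 := fun U => (h2 N κ J D n τ cl sp c' lam nu γ y l s v (mn α lam) (B * (W * em U)) (V * U)
        hl hs hV hsp hc hcl (fun k => hW.le k (η0.trans_le (hα k))) (fun σ => (hBV U σ).1)
        (fun σ => (hBV U σ).2.1)).2 (fun σ => (hBV U σ).2.2 hg)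
      refine Or.inr ⟨le_int hν hn (cW W) (xcont hR hn _ (cav_ct hO hH S D n y s sp _ γ)) V _
        (fun U => ?_), int_le hν hn (cW W) (xcont hR hn _ (cav_ct hO hH S D n y s sp _ γ)) V _
        (fun U => ?_)⟩
      · linarith [(h3 U).2, abs_le.1 (hinv B hB (W * em U))]
      · linarith [(h3 U).1, abs_le.1 (hinv B hB (W * em U))]
    · obtain ⟨k, hk⟩ := not_forall.1 hg
      refine Or.inl ?_
      rw [one_le_div (by positivity)]
      refine le_trans ?_ (single_le_sum (fun k _ => sq_nonneg _) (mem_univ k))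
      have a1 : |((univ.filter (fun i => c' i = k)).card / (Fintype.card (Fin (N + 1)) : ℝ)) - α k| ≤
          d / 2 := hal k
      have a2 := abs_sub_le (∑ i ∈ univ.filter (fun i => c' i = k), W.1 i (Fin.last N) ^ 2)
        ((univ.filter (fun i => c' i = k)).card / (Fintype.card (Fin (N + 1)) : ℝ)) (α k)
      rw [← sq_abs (_ - _)]
      exact pow_le_pow_left₀ (by positivity) (by linarith [not_le.1 hk]) 2

end

end Vale.Agent.P166
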