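import Vale.Agent.P166.Stm

/-! P166: concentration passes to a large subset of directions. -/

namespace Vale.Agent.P166

open MeasureTheory Finset Vale.Agent.P157

namespace Crs

lemma alg (a a0 k K P q r S Y : ℝ) (h0 : 0 < a0) (ha : a = a0 + k) (hk0 : 0 ≤ k) (hk : k ≤ K)
    (h2 : 2 * K ≤ a) (hq : q ^ 2 ≤ P ^ 2) (hS : S ^ 2 ≤ k * Y / 2) (hY : 0 ≤ Y) :
    ((a * r - S) / a0 - q) ^ 2 ≤ 12 * (r - q) ^ 2 + (12 * K ^ 2 * P ^ 2 / a ^ 2 + 6 * K / a ^ 2 * Y) := by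
  have hapos : 0 < a := by linarith
  have h1 : (a * r - S) / a0 - q = (a * (r - q) + k * q - S) / a0 := by
    field_simp; rw [ha]; ring
  have h3 : a ^ 2 ≤ 4 * a0 ^ 2 := by nlinarith
  have h4 : (a * (r - q) + k * q - S) ^ 2 ≤ 3 * (a ^ 2 * (r - q) ^ 2 + k ^ 2 * q ^ 2 + S ^ 2) := by
    nlinarith [sq_nonneg (a * (r - q) - k * q), sq_nonneg (a * (r - q) + S), sq_nonneg (k * q + S)]
  have h5 : k ^ 2 * q ^ 2 ≤ K ^ 2 * P ^ 2 :=
    mul_le_mul (pow_le_pow_left₀ hk0 hk 2) hq (sq_nonneg _) (sq_nonneg _)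
  have h6 : S ^ 2 ≤ K * Y / 2 := hS.trans (by have := mul_le_mul_of_nonneg_right hk hY; linarith)
  have h7 : 12 * (r - q) ^ 2 + (12 * K ^ 2 * P ^ 2 / a ^ 2 + 6 * K / a ^ 2 * Y) =
      4 * (3 * (a ^ 2 * (r - q) ^ 2 + K ^ 2 * P ^ 2 + K * Y / 2)) / a ^ 2 := by
    field_simp; ring
  rw [h1, h7, div_pow, div_le_div_iff₀ (by positivity) (by positivity)]
  have h8 : (a * (r - q) + k * q - S) ^ 2 ≤
      3 * (a ^ 2 * (r - q) ^ 2 + K ^ 2 * P ^ 2 + K * Y / 2) := by linarith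
  have h9 : 0 ≤ 3 * (a ^ 2 * (r - q) ^ 2 + K ^ 2 * P ^ 2 + K * Y / 2) := (sq_nonneg _).trans h8
  calc (a * (r - q) + k * q - S) ^ 2 * a ^ 2
      ≤ 3 * (a ^ 2 * (r - q) ^ 2 + K ^ 2 * P ^ 2 + K * Y / 2) * (4 * a0 ^ 2) :=
        mul_le_mul h8 h3 (sq_nonneg _) h9
    _ = _ := by ring

lemma pt {I : Type} [DecidableEq I] (A A0 : Finset I) (y y' : I → ℝ) (q K P : ℝ) (hA : A0 ⊆ A)
    (h0 : A0.Nonempty) (hk : ((A \ A0).card : ℝ) ≤ K) (h2 : 2 * K ≤ A.card) (hq : q ^ 2 ≤ P ^ 2) :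
    ((∑ i ∈ A0, y i * y' i) / (A0.card : ℝ) - q) ^ 2 ≤
      12 * ((∑ i ∈ A, y i * y' i) / (A.card : ℝ) - q) ^ 2 +
        (12 * K ^ 2 * P ^ 2 / (A.card : ℝ) ^ 2 +
          6 * K / (A.card : ℝ) ^ 2 * ∑ i ∈ A \ A0, (y i ^ 4 + y' i ^ 4)) := by
  have ha0 : (0 : ℝ) < A0.card := by exact_mod_cast h0.card_pos
  have ha : (A.card : ℝ) = A0.card + (A \ A0).card := by
    rw [← Finset.card_sdiff_add_card_eq_card hA]; push_cast; ring
  have hk0 : (0 : ℝ) ≤ (A \ A0).card := Nat.cast_nonneg _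
  have hapos : (0 : ℝ) < A.card := by linarith
  have hs : ∑ i ∈ A0, y i * y' i =
      A.card * ((∑ i ∈ A, y i * y' i) / (A.card : ℝ)) - ∑ i ∈ A \ A0, y i * y' i := by
    rw [mul_div_cancel₀ _ hapos.ne', ← Finset.sum_sdiff hA]; ring
  rw [hs]
  refine alg _ _ _ K P q _ _ _ ha0 ha hk0 hk h2 hq ?_
    (Finset.sum_nonneg fun i _ => by positivity)
  have h3 := sq_sum_le_card_mul_sum_sq (s := A \ A0) (f := fun i => y i * y' i)
  have h4 : ∑ i ∈ A \ A0, (y i * y' i) ^ 2 ≤ (∑ i ∈ A \ A0, (y i ^ 4 + y' i ^ 4)) / 2 := by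
    rw [Finset.sum_div]
    exact Finset.sum_le_sum fun i _ => by nlinarith [sq_nonneg (y i ^ 2 - y' i ^ 2)]
  have := mul_le_mul_of_nonneg_left h4 hk0
  linarith

end Crs

theorem crsStmt (hO : OApi) (hH : HApi) (hT : TApi) : CrsStmt := by
  intro T I _ _ _ _ ν n lev Z A A0 p e K M P hν hn hZ hA h0 hk h2 hM hm hp hP hc
  have H := hH.one lev hν hn hZ
  have hK : 0 ≤ K := (Nat.cast_nonneg _).trans hk
  have hq : ∀ d, d ≤ n → p d ^ 2 ≤ P ^ 2 := fun d hd =>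
    pow_le_pow_left₀ (hT.nn hp d hd).1 ((hT.nn hp d hd).2.trans hP) 2
  have cy : ∀ σ i, Continuous fun U : OG I => yy U σ i := fun σ i => hO.cont σ i
  have cr : ∀ (B : Finset I) σ σ', Continuous fun U : OG I => rA B U σ σ' := fun B σ σ' =>
    (continuous_finsetSum _ fun i _ => (cy σ i).mul (cy σ' i)).div_const _
  have c4 : ∀ i, Ct (fun U (ω : Cf T I) => yy U ω.2 i ^ 4) := fun i ω => (cy _ i).pow 4
  set c1 : ℝ := 12 * K ^ 2 * P ^ 2 / (A.card : ℝ) ^ 2 with hc1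
  set c2 : ℝ := 6 * K / (A.card : ℝ) ^ 2 with hc2
  have hc20 : 0 ≤ c2 := by positivity
  have hfin : c1 + c2 * (2 * (K * M)) = 12 * K ^ 2 * (P ^ 2 + M) / (A.card : ℝ) ^ 2 := by
    rw [hc1, hc2]; ring
  have hsum : ∑ i ∈ A \ A0, EH ν n lev Z (fun U ω => yy U ω.2 i ^ 4) ≤ K * M := by
    refine (Finset.sum_le_card_nsmul _ _ M hm).trans ?_
    rw [nsmul_eq_mul]
    exact mul_le_mul_of_nonneg_right hk hM
  have key : ∀ d, d ≤ n → ∀ q : ℝ, q ^ 2 ≤ P ^ 2 → ∀ (φ ψ : OG I → Cf T I → Cf T I → ℝ), Ct2 φ →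
      Ct2 ψ → (∀ U ω ω', φ U ω ω' ≤ 12 * ψ U ω ω' +
        (c1 + c2 * ∑ i ∈ A \ A0, (yy U ω.2 i ^ 4 + yy U ω'.2 i ^ 4))) →
      EW ν n lev Z d φ ≤ 12 * EW ν n lev Z d ψ +
        12 * K ^ 2 * (P ^ 2 + M) / (A.card : ℝ) ^ 2 := by
    intro d hd q _ φ ψ hφ hψ hle
    have cs : ∀ i, Ct2 (fun U (ω ω' : Cf T I) => 1 * yy U ω.2 i ^ 4 + 1 * yy U ω'.2 i ^ 4) :=
      fun i ω ω' => (continuous_const.mul ((cy _ i).pow 4)).add (continuous_const.mul ((cy _ i).pow 4))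
    have cS : Ct2 (fun U (ω ω' : Cf T I) =>
        ∑ i ∈ A \ A0, (1 * yy U ω.2 i ^ 4 + 1 * yy U ω'.2 i ^ 4)) :=
      fun ω ω' => continuous_finsetSum _ fun i _ => cs i ω ω'
    have c0 : Ct2 (fun (_ : OG I) (_ _ : Cf T I) => (1 : ℝ)) := fun _ _ => continuous_const
    have cT : Ct2 (fun U (ω ω' : Cf T I) => c1 * 1 +
        c2 * ∑ i ∈ A \ A0, (1 * yy U ω.2 i ^ 4 + 1 * yy U ω'.2 i ^ 4)) :=
      fun ω ω' => continuous_const.add (continuous_const.mul (cS ω ω'))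
    have h1 := H.mono2 d hd φ (fun U ω ω' => 12 * ψ U ω ω' + 1 * (c1 * 1 +
        c2 * ∑ i ∈ A \ A0, (1 * yy U ω.2 i ^ 4 + 1 * yy U ω'.2 i ^ 4))) hφ
      (fun ω ω' => (continuous_const.mul (hψ ω ω')).add (continuous_const.mul (cT ω ω')))
      (fun U ω ω' => by simpa only [one_mul, mul_one] using hle U ω ω')
    rw [H.lin2 d hd _ _ _ _ hψ cT, H.lin2 d hd _ _ _ _ c0 cS, H.const2 d hd,
      H.sum2 d hd _ _ (fun i _ => cs i)] at h1
    have h3 : ∑ i ∈ A \ A0, EW ν n lev Z d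
        (fun U ω ω' => 1 * yy U ω.2 i ^ 4 + 1 * yy U ω'.2 i ^ 4) =
        2 * ∑ i ∈ A \ A0, EH ν n lev Z (fun U ω => yy U ω.2 i ^ 4) := by
      rw [Finset.mul_sum]
      refine Finset.sum_congr rfl fun i _ => ?_
      rw [H.lin2 d hd (fun U ω _ => yy U ω.2 i ^ 4) (fun U _ ω' => yy U ω'.2 i ^ 4) 1 1
        (fun ω _ => c4 i ω) (fun _ ω' => c4 i ω'), (H.one d hd _ (c4 i)).1, (H.one d hd _ (c4 i)).2]
      ring
    rw [h3] at h1
    have h4 := mul_le_mul_of_nonneg_left hsum hc20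
    linarith
  constructor
  · have cg : ∀ B : Finset I, Ct (fun U (ω : Cf T I) => (rA B U ω.2 ω.2 - p 0) ^ 2) :=
      fun B ω => ((cr B _ _).sub continuous_const).pow 2
    have cS : Ct (fun U (ω : Cf T I) => ∑ i ∈ A \ A0, yy U ω.2 i ^ 4) :=
      fun ω => continuous_finsetSum _ fun i _ => c4 i ω
    have c0 : Ct (fun (_ : OG I) (_ : Cf T I) => (1 : ℝ)) := fun _ => continuous_const
    have cT : Ct (fun U (ω : Cf T I) => c1 * 1 + (2 * c2) * ∑ i ∈ A \ A0, yy U ω.2 i ^ 4) :=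
      fun ω => continuous_const.add (continuous_const.mul (cS ω))
    have h1 := H.mono _ (fun U ω => 12 * (rA A U ω.2 ω.2 - p 0) ^ 2 + 1 * (c1 * 1 +
        (2 * c2) * ∑ i ∈ A \ A0, yy U ω.2 i ^ 4)) (cg A0)
      (fun ω => (continuous_const.mul (cg A ω)).add (continuous_const.mul (cT ω)))
      (fun U ω => by
        have := Crs.pt A A0 (yy U ω.2) (yy U ω.2) (p 0) K P hA h0 hk h2 (hq 0 (Nat.zero_le _))
        rw [Finset.sum_add_distrib] at this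
        unfold rA
        linarith)
    rw [H.lin _ _ _ _ (cg A) cT, H.lin _ _ _ _ c0 cS, H.const, H.sum _ _ (fun i _ => c4 i)] at h1
    have h4 := mul_le_mul_of_nonneg_left hsum hc20
    have h5 := hc.1
    linarith
  · set c : ℝ := 12 * K ^ 2 * (P ^ 2 + M) / (A.card : ℝ) ^ 2 with hcdef
    have hc0 : 0 ≤ c := by positivity
    have hnp : (0 : ℝ) < n := by exact_mod_cast hn
    have h1 : ∑ d ∈ Ico 1 n, EW ν n lev Z d (fun U ω ω' => (rA A0 U ω.2 ω'.2 - p d) ^ 2) ≤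
        ∑ d ∈ Ico 1 n, (12 * EW ν n lev Z d (fun U ω ω' => (rA A U ω.2 ω'.2 - p d) ^ 2) + c) := by
      refine Finset.sum_le_sum fun d hd => ?_
      have hd' : d ≤ n := (Finset.mem_Ico.1 hd).2.le
      exact key d hd' (p d) (hq d hd') _ _
        (fun ω ω' => ((cr A0 _ _).sub continuous_const).pow 2)
        (fun ω ω' => ((cr A _ _).sub continuous_const).pow 2)
        (fun U ω ω' => Crs.pt A A0 (yy U ω.2) (yy U ω'.2) (p d) K P hA h0 hk h2 (hq d hd'))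
    rw [Finset.sum_add_distrib, ← Finset.mul_sum, Finset.sum_const, nsmul_eq_mul] at h1
    have h2' : ((Ico 1 n).card : ℝ) ≤ n := by
      rw [Nat.card_Ico]; exact_mod_cast Nat.sub_le n 1
    have h3 : (1 / (n : ℝ)) * (((Ico 1 n).card : ℝ) * c) ≤ c := by
      rw [one_div, inv_mul_le_iff₀ hnp]
      exact mul_le_mul_of_nonneg_right h2' hc0
    have h4 := mul_le_mul_of_nonneg_left h1 (by positivity : 0 ≤ 1 / (n : ℝ))
    have h5 := hc.2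
    rw [mul_add, mul_left_comm] at h4
    linarith

end Vale.Agent.P166
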