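import Vale.Agent.P166.Stm

/-! P166: finite cubature on the orthogonal group. -/

namespace Vale.Agent.P166

open MeasureTheory Finset Vale.Agent.P157

theorem cubStmt : CubStmt := by
  intro I J _ _ _ ν F ε hν hF hε
  classical
  have hc : Continuous fun U : OG I => fun j => F j U := continuous_pi hF
  have hi : Integrable (fun U : OG I => fun j => F j U) ν :=
    hc.integrable_of_hasCompactSupport (HasCompactSupport.of_compactSpace _)
  have hm : (∫ U, (fun j => F j U) ∂ν) ∈
      closure (convexHull ℝ (Set.range fun U : OG I => fun j => F j U)) :=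
    ((convex_convexHull ℝ _).closure).integral_mem isClosed_closure
      (Filter.Eventually.of_forall fun U =>
        subset_closure (subset_convexHull ℝ _ (Set.mem_range_self U))) hi
  obtain ⟨b, hb, hd⟩ := Metric.mem_closure_iff.1 hm ε hε
  obtain ⟨ι, _, w, z, hw0, hw1, hz, hs⟩ := mem_convexHull_iff_exists_fintype.1 hb
  choose x hx using hz
  let e := (Fintype.equivFin ι).symm
  refine ⟨Fintype.card ι, fun t => w (e t), fun t => x (e t), fun t => hw0 _, ?_, fun j => ?_⟩
  · rw [← hw1]; exact e.sum_comp w
  · have h1 : ∑ t, w (e t) * F j (x (e t)) = b j := by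
      rw [e.sum_comp (fun i => w i * F j (x i)), ← hs, Finset.sum_apply]
      refine Finset.sum_congr rfl fun i _ => ?_
      rw [← hx i]; simp
    have h2 : (∫ U, (fun j => F j U) ∂ν) j = ∫ U, F j U ∂ν :=
      ((ContinuousLinearMap.proj (R := ℝ) (φ := fun _ : J => ℝ) j).integral_comp_comm hi).symm
    rw [h1, ← h2, abs_sub_comm, ← Real.dist_eq]
    exact (dist_le_pi_dist _ _ j).trans hd.le

end Vale.Agent.P166
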