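import Vale.Agent.P166.Stm

/-! P166: linear algebra of the cavity step. -/

namespace Vale.Agent.P166

open MeasureTheory ProbabilityTheory Finset Real Filter Topology Vale.Agent.P157 Matrix

noncomputable section

namespace Cv1

section
variable {I A κ : Type} [Fintype I] [DecidableEq I] [Fintype A] [DecidableEq A] [DecidableEq κ]

theorem mv_mul (U V : OG I) (x : I → ℝ) : (U * V).1 *ᵥ x = U.1 *ᵥ (V.1 *ᵥ x) := by
  rw [Matrix.mulVec_mulVec]; rfl

theorem yy_eq (U : OG I) (σ : I → Bool) : yy U σ = U.1 *ᵥ (fun j => spin (σ j)) := rfl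

theorem sq_mv (U : OG I) (x : I → ℝ) : ∑ i, (U.1 *ᵥ x) i ^ 2 = ∑ i, x i ^ 2 := by
  have h := (Matrix.mem_orthogonalGroup_iff' _ _).1 U.2
  have h1 : (U.1 *ᵥ x) ⬝ᵥ (U.1 *ᵥ x) = x ⬝ᵥ x := by
    rw [Matrix.dotProduct_mulVec, Matrix.vecMul_mulVec, h, Matrix.vecMul_one]
  simpa [dotProduct, sq] using h1

/-- block Householder matrix -/
def hb (c : I → κ) (d : I → ℝ) : Matrix I I ℝ := fun i j =>
  (if i = j then 1 else 0) -
    if c i = c j then 2 * d i * d j / ∑ l ∈ univ.filter (fun l => c l = c i), d l ^ 2 else 0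

theorem hb_mv (c : I → κ) (d x : I → ℝ) (i : I) : (hb c d *ᵥ x) i = x i -
    2 * d i * (∑ l ∈ univ.filter (fun l => c l = c i), d l * x l) /
      ∑ l ∈ univ.filter (fun l => c l = c i), d l ^ 2 := by
  simp only [hb, mulVec, dotProduct, sub_mul, sum_sub_distrib, ite_mul, one_mul, zero_mul,
    sum_ite_eq, mem_univ, if_true]
  congr 1
  generalize (∑ l ∈ univ.filter (fun l => c l = c i), d l ^ 2) = m
  rw [mul_sum, sum_div, sum_filter]
  refine sum_congr rfl (fun j _ => ?_)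
  by_cases h : c i = c j
  · rw [if_pos h, if_pos h.symm]; ring
  · rw [if_neg h, if_neg (Ne.symm h)]

theorem hb_symm (c : I → κ) (d : I → ℝ) : (hb c d)ᵀ = hb c d := by
  ext i j
  simp only [hb, transpose_apply]
  by_cases h : c i = c j
  · simp only [h, if_true, eq_comm (a := j)]; ring
  · simp only [h, Ne.symm h, if_false, eq_comm (a := j)]

theorem d_zero {c : I → κ} {d : I → ℝ} {i : I}
    (h : ∑ l ∈ univ.filter (fun l => c l = c i), d l ^ 2 = 0) : d i = 0 := by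
  have := (sum_eq_zero_iff_of_nonneg (fun l _ => sq_nonneg (d l))).1 h i (by simp)
  simpa using this

theorem hb_hb (c : I → κ) (d x : I → ℝ) : hb c d *ᵥ (hb c d *ᵥ x) = x := by
  funext i
  rw [hb_mv, hb_mv]
  set m := ∑ l ∈ univ.filter (fun l => c l = c i), d l ^ 2 with hm
  set t := ∑ l ∈ univ.filter (fun l => c l = c i), d l * x l with ht
  have h1 : ∑ l ∈ univ.filter (fun l => c l = c i), d l * (hb c d *ᵥ x) l = t - 2 * m * t / m := by
    have h2 : ∀ l ∈ univ.filter (fun l => c l = c i), d l * (hb c d *ᵥ x) l =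
        d l * x l - (2 * t / m) * d l ^ 2 := fun l hl => by
      rw [hb_mv, (mem_filter.1 hl).2, ← ht, ← hm]
      ring
    rw [sum_congr rfl h2, sum_sub_distrib, ← mul_sum, ← ht, ← hm]
    ring
  rw [h1]
  by_cases h0 : m = 0
  · rw [d_zero h0]; ring
  · field_simp; ring

theorem hb_mem (c : I → κ) (d : I → ℝ) : hb c d ∈ Matrix.orthogonalGroup I ℝ := by
  rw [Matrix.mem_orthogonalGroup_iff, hb_symm]
  refine Matrix.ext_of_mulVec_single (fun i => ?_)
  rw [← Matrix.mulVec_mulVec, hb_hb, Matrix.one_mulVec]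

theorem exists_blk (c : I → κ) (u w : I → ℝ)
    (h : ∀ k, ∑ l ∈ univ.filter (fun l => c l = k), u l ^ 2 =
      ∑ l ∈ univ.filter (fun l => c l = k), w l ^ 2) : ∃ B : OG I, Blk c B ∧ B.1 *ᵥ u = w := by
  refine ⟨⟨hb c (u - w), hb_mem _ _⟩, fun i j hij => ?_, ?_⟩
  · have : i ≠ j := fun e => hij (by rw [e])
    simp [hb, hij, this]
  · funext i
    show (hb c (u - w) *ᵥ u) i = w i
    rw [hb_mv]
    have h1 : ∑ l ∈ univ.filter (fun l => c l = c i), (u - w) l ^ 2 =
        2 * ∑ l ∈ univ.filter (fun l => c l = c i), (u - w) l * u l := by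
      have h2 : ∑ l ∈ univ.filter (fun l => c l = c i), (u - w) l ^ 2 =
          2 * ∑ l ∈ univ.filter (fun l => c l = c i), (u - w) l * u l -
            ∑ l ∈ univ.filter (fun l => c l = c i), u l ^ 2 +
            ∑ l ∈ univ.filter (fun l => c l = c i), w l ^ 2 := by
        rw [mul_sum, ← sum_sub_distrib, ← sum_add_distrib]
        exact sum_congr rfl (fun l _ => by simp only [Pi.sub_apply]; ring)
      rw [h2, h (c i)]; ring
    by_cases h0 : ∑ l ∈ univ.filter (fun l => c l = c i), (u - w) l ^ 2 = 0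
    · have := d_zero h0
      rw [h0, div_zero, sub_zero]
      simpa [sub_eq_zero] using this
    · rw [h1] at h0 ⊢
      have : ∑ l ∈ univ.filter (fun l => c l = c i), (u - w) l * u l ≠ 0 := fun e => h0 (by rw [e, mul_zero])
      field_simp
      simp

theorem hb_unit (d x : I → ℝ) (i : I) : (hb (fun _ => ()) d *ᵥ x) i =
    x i - 2 * d i * (∑ l, d l * x l) / ∑ l, d l ^ 2 := by
  rw [hb_mv]; simp

/-- a rotation close to the identity -/
theorem exists_rot (a b : I → ℝ) (ha : ∑ i, a i ^ 2 = 1) (hb' : ∑ i, b i ^ 2 = 1)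
    (hab : 0 ≤ ∑ i, a i * b i) : ∃ R : OG I, R.1 *ᵥ a = b ∧ ∀ x : I → ℝ,
      ∑ i, ((R.1 *ᵥ x) i - x i) ^ 2 ≤ 30 * (∑ i, (b i - a i) ^ 2) * ∑ i, x i ^ 2 := by
  set t := ∑ i, a i * b i with ht
  have hs : ∑ l, (a + b) l ^ 2 = 2 * (1 + t) := by
    have : ∑ l, (a + b) l ^ 2 = ∑ l, a l ^ 2 + ∑ l, b l ^ 2 + 2 * t := by
      rw [ht, mul_sum, ← sum_add_distrib, ← sum_add_distrib]
      exact sum_congr rfl (fun l _ => by simp only [Pi.add_apply]; ring)
    rw [this, ha, hb']; ring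
  have hd : ∑ l, (b l - a l) ^ 2 = 2 - 2 * t := by
    have : ∑ l, (b l - a l) ^ 2 = ∑ l, a l ^ 2 + ∑ l, b l ^ 2 - 2 * t := by
      rw [ht, mul_sum, ← sum_add_distrib, ← sum_sub_distrib]
      exact sum_congr rfl (fun l _ => by ring)
    rw [this, ha, hb']; ring
  have t0 : 0 < 1 + t := by linarith
  have key : ∀ x i, (hb (fun _ => ()) (a + b) *ᵥ (hb (fun _ => ()) a *ᵥ x)) i - x i =
      (-(2 - 2 * t) * (∑ l, a l * x l) * b i + 2 * (∑ l, a l * x l) * (b i - a i) -
        (∑ l, (b l - a l) * x l) * (a i + b i)) / (1 + t) := fun x i => by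
    rw [hb_unit, hs]
    have h1 : ∑ l, (a + b) l * (hb (fun _ => ()) a *ᵥ x) l =
        2 * (∑ l, a l * x l) + ∑ l, (b l - a l) * x l - 2 * (∑ l, a l * x l) * (1 + t) := by
      have : ∀ l, (a + b) l * (hb (fun _ => ()) a *ᵥ x) l = 2 * (a l * x l) + (b l - a l) * x l -
          2 * (∑ l, a l * x l) * (a l ^ 2 + a l * b l) := fun l => by
        rw [hb_unit, ha]; simp only [Pi.add_apply]; ring
      simp only [this, sum_sub_distrib, sum_add_distrib, ← mul_sum, ha, ← ht]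
    rw [h1, hb_unit, ha]
    simp only [Pi.add_apply]
    field_simp
    ring
  refine ⟨⟨hb (fun _ => ()) (a + b), hb_mem _ _⟩ * ⟨hb (fun _ => ()) a, hb_mem _ _⟩, ?_, fun x => ?_⟩
  · funext i
    rw [mv_mul]
    have h1 := key a i
    have e1 : ∑ l, a l * a l = 1 := by simpa [sq] using ha
    have e2 : ∑ l, (b l - a l) * a l = t - 1 := by
      rw [← e1, ht, ← sum_sub_distrib]; exact sum_congr rfl (fun l _ => by ring)
    rw [e1, e2] at h1
    have : (-(2 - 2 * t) * 1 * b i + 2 * 1 * (b i - a i) - (t - 1) * (a i + b i)) / (1 + t) =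
        b i - a i := by field_simp; ring
    rw [this] at h1
    show (hb (fun _ => ()) (a + b) *ᵥ (hb (fun _ => ()) a *ᵥ a)) i = b i
    linarith
  · rw [mv_mul]
    set p := ∑ l, a l * x l
    set q := ∑ l, (b l - a l) * x l
    set X := ∑ l, x l ^ 2
    have hp : p ^ 2 ≤ X := by simpa [ha] using sum_mul_sq_le_sq_mul_sq univ a x
    have hq : q ^ 2 ≤ (2 - 2 * t) * X := by
      simpa [hd] using sum_mul_sq_le_sq_mul_sq univ (fun l => b l - a l) x
    have hd0 : 0 ≤ 2 - 2 * t := by rw [← hd]; positivity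
    have h1 : ∀ i, ((hb (fun _ => ()) (a + b) *ᵥ (hb (fun _ => ()) a *ᵥ x)) i - x i) ^ 2 ≤
        3 * ((2 - 2 * t) ^ 2 * p ^ 2 * b i ^ 2 + 4 * p ^ 2 * (b i - a i) ^ 2 +
          q ^ 2 * (a + b) i ^ 2) := fun i => by
      rw [key, div_pow]
      refine (div_le_self (sq_nonneg _) (by nlinarith)).trans ?_
      simp only [Pi.add_apply]
      nlinarith [sq_nonneg ((2 - 2 * t) * p * b i + 2 * p * (b i - a i)),
        sq_nonneg ((2 - 2 * t) * p * b i - q * (a i + b i)),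
        sq_nonneg (2 * p * (b i - a i) + q * (a i + b i))]
    refine (sum_le_sum (fun i _ => h1 i)).trans ?_
    simp only [← mul_sum, sum_add_distrib, hb', hd, hs]
    have X0 : 0 ≤ X := by positivity
    have a1 : (2 - 2 * t) ^ 2 * p ^ 2 ≤ (2 - 2 * t) * 2 * X := by
      rw [sq (2 - 2 * t)]
      exact mul_le_mul (mul_le_mul_of_nonneg_left (by linarith) hd0) hp (sq_nonneg _) (by positivity)
    have a2 : p ^ 2 * (2 - 2 * t) ≤ X * (2 - 2 * t) := mul_le_mul_of_nonneg_right hp hd0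
    have a3 : q ^ 2 * (2 * (1 + t)) ≤ (2 - 2 * t) * X * 4 :=
      mul_le_mul hq (by linarith) (by positivity) (by positivity)
    nlinarith

/-- the inclusion matrix -/
def pm (e : A → I) : Matrix I A ℝ := fun i a => if i = e a then 1 else 0

theorem pm_t (e : A → I) (x : I → ℝ) : (pm e)ᵀ *ᵥ x = x ∘ e := by
  funext a; simp [pm, mulVec, dotProduct]

theorem pm_in {e : A → I} (he : Function.Injective e) (z : A → ℝ) (a : A) :
    (pm e *ᵥ z) (e a) = z a := by
  simp [pm, mulVec, dotProduct, he.eq_iff]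

theorem pm_out {e : A → I} (z : A → ℝ) {i : I} (hi : i ∉ Set.range e) : (pm e *ᵥ z) i = 0 := by
  have : ∀ a, i ≠ e a := fun a h => hi ⟨a, h.symm⟩
  simp [pm, mulVec, dotProduct, this]

theorem pm_pm {e : A → I} (he : Function.Injective e) : (pm e)ᵀ * pm e = 1 := by
  refine Matrix.ext_of_mulVec_single (fun a => ?_)
  rw [← Matrix.mulVec_mulVec, pm_t, Matrix.one_mulVec]
  funext b
  exact pm_in he _ b

/-- extension by the identity -/
def ext {e : A → I} (he : Function.Injective e) (G : OG A) : OG I :=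
  ⟨1 + pm e * (G.1 - 1) * (pm e)ᵀ, by
    have h := (Matrix.mem_orthogonalGroup_iff _ _).1 G.2
    rw [Matrix.mem_orthogonalGroup_iff]
    have h2 : pm e * (G.1 - 1) * (pm e)ᵀ * (pm e * (G.1ᵀ - 1) * (pm e)ᵀ) =
        pm e * ((G.1 - 1) * (G.1ᵀ - 1)) * (pm e)ᵀ := by
      rw [Matrix.mul_assoc (pm e * (G.1 - 1)), ← Matrix.mul_assoc (pm e)ᵀ,
        ← Matrix.mul_assoc (pm e)ᵀ, pm_pm he, Matrix.one_mul, ← Matrix.mul_assoc,
        Matrix.mul_assoc (pm e)]
    have h3 : (G.1 - 1) * (G.1ᵀ - 1) = -(G.1 - 1) - (G.1ᵀ - 1) := by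
      rw [Matrix.sub_mul, Matrix.mul_sub, h, Matrix.mul_one, Matrix.one_mul]; abel
    simp only [transpose_add, transpose_one, transpose_mul, transpose_transpose, transpose_sub]
    rw [← Matrix.mul_assoc, Matrix.add_mul, Matrix.mul_add, Matrix.mul_add, h2, h3]
    simp only [Matrix.one_mul, Matrix.mul_one, Matrix.mul_sub, Matrix.sub_mul, Matrix.mul_neg,
      Matrix.neg_mul]
    abel⟩

theorem ext_cont {e : A → I} (he : Function.Injective e) : Continuous (ext he) := by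
  refine Continuous.subtype_mk ?_ _
  have : Continuous fun G : OG A => G.1 := continuous_subtype_val
  fun_prop

theorem ext_mv {e : A → I} (he : Function.Injective e) (G : OG A) (x : I → ℝ) :
    (ext he G).1 *ᵥ x = x + pm e *ᵥ (G.1 *ᵥ (x ∘ e) - x ∘ e) := by
  show (1 + pm e * (G.1 - 1) * (pm e)ᵀ) *ᵥ x = _
  rw [Matrix.add_mulVec, Matrix.one_mulVec, ← Matrix.mulVec_mulVec, ← Matrix.mulVec_mulVec, pm_t,
    Matrix.sub_mulVec, Matrix.one_mulVec]

theorem ext_in {e : A → I} (he : Function.Injective e) (G : OG A) (x : I → ℝ) (a : A) :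
    ((ext he G).1 *ᵥ x) (e a) = (G.1 *ᵥ (x ∘ e)) a := by
  rw [ext_mv, Pi.add_apply, pm_in he]; simp

theorem ext_out {e : A → I} (he : Function.Injective e) (G : OG A) (x : I → ℝ) {i : I}
    (hi : i ∉ Set.range e) : ((ext he G).1 *ᵥ x) i = x i := by
  rw [ext_mv, Pi.add_apply, pm_out _ hi, add_zero]

theorem quad {lam z z' : I → ℝ} {Γ l : ℝ} (hl : 0 < l) (hΓ : 0 ≤ Γ) (h : ∀ i, |lam i| ≤ Γ)
    (h1 : ∑ i, z' i ^ 2 = ∑ i, z i ^ 2) (h2 : ∑ i, (z' i - z i) ^ 2 ≤ 30 * l ^ 2 * ∑ i, z i ^ 2) :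
    |∑ i, lam i * z' i ^ 2 - ∑ i, lam i * z i ^ 2| ≤ 17 * Γ * l * ∑ i, z i ^ 2 := by
  rw [← sum_sub_distrib]
  refine (abs_sum_le_sum_abs _ _).trans ?_
  have h3 : ∀ i, |lam i * z' i ^ 2 - lam i * z i ^ 2| ≤
      Γ * ((z' i - z i) ^ 2 / (2 * l) + l * (z' i ^ 2 + z i ^ 2)) := fun i => by
    rw [← mul_sub, abs_mul]
    refine mul_le_mul (h i) ?_ (abs_nonneg _) hΓ
    have e : (z' i - z i) ^ 2 / (2 * l) + l * (z' i ^ 2 + z i ^ 2) =
        ((z' i - z i) ^ 2 + 2 * l ^ 2 * (z' i ^ 2 + z i ^ 2)) / (2 * l) := by field_simp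
    rw [e, le_div_iff₀ (by positivity), ← abs_of_pos (show 0 < 2 * l by positivity), ← abs_mul, abs_le]
    constructor <;> nlinarith [sq_nonneg (z' i - z i + l * (z' i + z i)),
      sq_nonneg (z' i - z i - l * (z' i + z i)), sq_nonneg (l * (z' i - z i))]
  refine (sum_le_sum (fun i _ => h3 i)).trans ?_
  rw [← mul_sum, sum_add_distrib, ← sum_div, ← mul_sum, sum_add_distrib, h1]
  have h4 : (∑ i, (z' i - z i) ^ 2) / (2 * l) ≤ 15 * l * ∑ i, z i ^ 2 := by
    rw [div_le_iff₀ (by positivity)]; nlinarith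
  nlinarith [mul_le_mul_of_nonneg_left h4 hΓ]

end

theorem fix_last {N : ℕ} (M : OG (Fin (N + 1)))
    (h : M.1 *ᵥ Pi.single (Fin.last N) 1 = Pi.single (Fin.last N) 1) :
    ∃ V : OG (Fin N), ∀ z : Fin (N + 1) → ℝ, (M.1 *ᵥ z) (Fin.last N) = z (Fin.last N) ∧
      ∀ i : Fin N, (M.1 *ᵥ z) i.castSucc = (V.1 *ᵥ (z ∘ Fin.castSucc)) i := by
  have h1 : ∀ i, M.1 i (Fin.last N) = if i = Fin.last N then 1 else 0 := fun i => by
    have := congrFun h i
    simpa [Pi.single_apply] using this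
  have h2 : ∀ j, M.1 (Fin.last N) j = if Fin.last N = j then 1 else 0 := fun j => by
    have := congrFun (congrFun ((Matrix.mem_orthogonalGroup_iff' _ _).1 M.2) (Fin.last N)) j
    simpa [Matrix.mul_apply, h1, Matrix.one_apply] using this
  have h3 : ∀ i : Fin N, M.1 i.castSucc (Fin.last N) = 0 := fun i => by
    rw [h1, if_neg (Fin.castSucc_lt_last i).ne]
  refine ⟨⟨M.1.submatrix Fin.castSucc Fin.castSucc, ?_⟩, fun z => ⟨?_, fun i => ?_⟩⟩
  · rw [Matrix.mem_orthogonalGroup_iff]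
    ext i j
    have := congrFun (congrFun ((Matrix.mem_orthogonalGroup_iff _ _).1 M.2) i.castSucc) j.castSucc
    simpa [Matrix.mul_apply, Fin.sum_univ_castSucc, h3, Matrix.one_apply] using this
  · simp [mulVec, dotProduct, h2]
  · simp [mulVec, dotProduct, Fin.sum_univ_castSucc, h3]

theorem sqrt_sub {m a : ℝ} (hm : 0 ≤ m) (ha : 0 ≤ a) : (√m - √a) ^ 2 ≤ |m - a| := by
  have h1 := sq_sqrt hm
  have h2 := sq_sqrt ha
  have h3 := sqrt_nonneg m
  have h4 := sqrt_nonneg a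
  rcases le_total (√m) (√a) with h | h
  · exact le_trans (by nlinarith) (neg_le_abs _)
  · exact le_trans (by nlinarith) (le_abs_self _)

end Cv1

open Cv1 in
theorem cv1Stmt : Cv1Stmt := by
  intro K Γ η v hη hv
  set l : ℝ := v / (17 * (|Γ| + 1)) with hl
  have l0 : 0 < l := by positivity
  refine ⟨l ^ 2 / (K + 1), by positivity, fun N => ⟨ext (Fin.castSucc_injective N), ext_cont _, ?_⟩⟩
  intro κ J _ _ _ _ cl sp c' α lam nu γ hK hsp hc hcl hα hs hlam hD W
  obtain ⟨O, hO, hq⟩ := hD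
  have α0 : ∀ k, 0 ≤ α k := fun k => hη.le.trans (hα k)
  let spc : Option J → Fin (N + 1) := fun a => a.elim (Fin.last N) (fun j => (sp j).castSucc)
  have hspc : Function.Injective spc := by
    rintro (_ | a) (_ | b) h
    · rfl
    · exact absurd h.symm (Fin.castSucc_lt_last _).ne
    · exact absurd h (Fin.castSucc_lt_last _).ne
    · rw [hsp (Fin.castSucc_injective N h)]
  have hcs : ∀ a, c' (spc a) = cl a := by
    rintro (_ | a)
    · exact hcl
    · exact hc a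
  set w : Fin (N + 1) → ℝ := fun i => W.1 i (Fin.last N) with hw
  have hwe : W.1 *ᵥ Pi.single (Fin.last N) 1 = w := by funext i; simp [hw]
  set ms : κ → ℝ := fun k => ∑ i ∈ univ.filter (fun i => c' i = k), w i ^ 2 with hms
  have ms0 : ∀ k, 0 ≤ ms k := fun k => by simp only [hms]; positivity
  set r : Option J → ℝ := fun a => √(ms (cl a)) with hr
  have hr1 : ∑ a, r a ^ 2 = 1 := by
    simp only [hr, sq_sqrt (ms0 _)]
    rw [Equiv.sum_comp cl ms, hms, sum_fiberwise, ← hwe, sq_mv]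
    simp [Pi.single_apply]
  have hr0 : ∑ a, O.1 a none ^ 2 = 1 := by
    simp only [hO, sq_sqrt (α0 _)]
    rw [Equiv.sum_comp cl α, hs]
  obtain ⟨B, hB, hBw⟩ := exists_blk c' w (pm spc *ᵥ r) (fun k => by
    obtain ⟨a, rfl⟩ := cl.surjective k
    show ms (cl a) = _
    rw [sum_filter, ← Fintype.sum_of_injective spc hspc
      (fun b => if cl b = cl a then r b ^ 2 else 0) _ (fun i hi => by simp [pm_out _ hi])
      (fun b => by rw [hcs, pm_in hspc])]
    simp only [EmbeddingLike.apply_eq_iff_eq, sum_ite_eq', mem_univ, if_true, hr, sq_sqrt (ms0 _)])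
  obtain ⟨R, hR, hRx⟩ := exists_rot (fun a => O.1 a none) r hr0 hr1
    (sum_nonneg (fun a _ => by rw [hO]; simp only [hr]; positivity))
  set G := ext hspc (R * O) with hG
  have hGe : G.1 *ᵥ Pi.single (Fin.last N) 1 = pm spc *ᵥ r := by
    funext i
    by_cases hi : i ∈ Set.range spc
    · obtain ⟨a, rfl⟩ := hi
      rw [ext_in, pm_in hspc, mv_mul, ← hR]
      congr 2
      have : (Pi.single (Fin.last N) (1 : ℝ) : Fin (N + 1) → ℝ) ∘ spc = Pi.single none 1 := by
        funext b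
        have := hspc.eq_iff (a := b) (b := none)
        simp only [Function.comp, Pi.single_apply, ← this]
        rfl
      rw [this]
      funext b; simp
    · rw [ext_out _ _ _ hi, pm_out _ hi, Pi.single_apply, if_neg (fun h => hi ⟨none, h.symm⟩)]
  obtain ⟨V, hV⟩ := fix_last (G⁻¹ * (B * W)) (by
    rw [mv_mul, mv_mul, hwe, hBw, ← hGe, ← mv_mul, inv_mul_cancel]
    exact Matrix.one_mulVec _)
  refine ⟨B, V, hB, fun U σ => ?_⟩
  set z := (ext (Fin.castSucc_injective N) U).1 *ᵥ (fun j => spin (σ j)) with hz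
  set x := (G⁻¹ * (B * W)).1 *ᵥ z with hx
  have e1 : yy (B * (W * ext (Fin.castSucc_injective N) U)) σ = G.1 *ᵥ x := by
    rw [hx, ← mv_mul, mul_inv_cancel_left, yy_eq, ← mul_assoc, mv_mul]
  have e2 : x (Fin.last N) = spin (σ (Fin.last N)) := by
    rw [hx, (hV z).1, hz, ext_out]
    rintro ⟨i, hi⟩
    exact (Fin.castSucc_lt_last i).ne hi
  have e3 : ∀ i, x i.castSucc = yy (V * U) (σ ∘ Fin.castSucc) i := fun i => by
    rw [hx, (hV z).2, yy_eq, mv_mul]
    refine congrFun (congrArg _ (funext fun j => ext_in _ U _ j)) i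
  have e4 : ∀ a, yy (B * (W * ext (Fin.castSucc_injective N) U)) σ (spc a) =
      (R.1 *ᵥ (O.1 *ᵥ (x ∘ spc))) a := fun a => by rw [e1, ext_in, mv_mul]
  have e5 : spin (σ (Fin.last N)) ^ 2 = 1 := by cases σ (Fin.last N) <;> simp [spin]
  have e6 : ∑ a, (x ∘ spc) a ^ 2 = 1 + ∑ j, yy (V * U) (σ ∘ Fin.castSucc) (sp j) ^ 2 := by
    rw [Fintype.sum_option]
    simp only [Function.comp, spc, Option.elim, e2, e3, e5]
  refine ⟨fun i hi => ?_, ?_, fun hm => ?_⟩
  · rw [e1, ext_out, e3]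
    rintro ⟨_ | j, hj⟩
    · exact (Fin.castSucc_lt_last i).ne hj.symm
    · exact hi ⟨j, Fin.castSucc_injective N hj⟩
  · rw [← e6, ← sq_mv O, ← sq_mv R, Fintype.sum_option, ← e4]
    simp only [← e4]
    rfl
  · have hd : ∑ a, (r a - O.1 a none) ^ 2 ≤ l ^ 2 := by
      have h1 : ∀ a, (r a - O.1 a none) ^ 2 ≤ l ^ 2 / (K + 1) := fun a => by
        rw [hO]
        exact (sqrt_sub (ms0 _) (α0 _)).trans (hm (cl a))
      refine (sum_le_card_nsmul _ _ _ (fun a _ => h1 a)).trans ?_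
      have h2 : (Fintype.card (Option J) : ℝ) ≤ K + 1 := by
        rw [Fintype.card_congr cl]
        exact_mod_cast hK.trans (Nat.le_succ K)
      rw [card_univ, nsmul_eq_mul, mul_div_assoc', div_le_iff₀ (by positivity)]
      nlinarith [sq_nonneg l]
    have h1 := quad (lam := fun a => lam (cl a)) (z := O.1 *ᵥ (x ∘ spc))
      (z' := R.1 *ᵥ (O.1 *ᵥ (x ∘ spc))) l0 (abs_nonneg Γ) (fun a => (hlam _).trans (le_abs_self Γ))
      (sq_mv R _) ((hRx _).trans (by gcongr))
    have h2 := hq (spin (σ (Fin.last N))) (fun j => yy (V * U) (σ ∘ Fin.castSucc) (sp j))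
    have h3 : ∀ a, (O.1 *ᵥ (x ∘ spc)) a = O.1 a none * spin (σ (Fin.last N)) +
        ∑ j, O.1 a (some j) * yy (V * U) (σ ∘ Fin.castSucc) (sp j) := fun a => by
      simp only [mulVec, dotProduct, Fintype.sum_option, Function.comp, spc, Option.elim, e2, e3]
    rw [sq_mv, e6] at h1
    simp only [← h3] at h2
    rw [h2, e5, mul_one, Fintype.sum_option] at h1
    simp only [← e4] at h1
    refine le_trans h1 (mul_le_mul_of_nonneg_right ?_ (by positivity))
    rw [hl, mul_div_assoc', div_le_iff₀ (by positivity)]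
    nlinarith [abs_nonneg Γ]

end

end Vale.Agent.P166
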