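import Vale.Agent.P166.Stm

namespace Vale.Agent.P166

open Finset Real Vale.Agent.P157

noncomputable section

namespace Cv2

theorem idp_mono {T I : Type} {A B : Finset T} {u : Cf T I → ℝ} (h : A ⊆ B) (hu : Idp B u) :
    Idp A u := fun e e' σ he => hu e e' σ fun s hs => he s fun h' => hs (h h')

theorem spin_sq (b : Bool) : spin b ^ 2 = 1 := by unfold spin; split_ifs <;> norm_num

theorem var_le {κ I' : Type} [Fintype I'] [DecidableEq I'] {D n : ℕ} {y : κ → ℕ → ℝ} {v : ℝ}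
    (hv : Vb n y v) (k : I' → κ) (z : I' → ℝ) (P : Finset I') :
    ∑ r ∈ univ.filter (fun r : Fin D × Fin n × I' => r.2.2 ∈ P),
      (y (k r.2.2) r.2.1 / √(D : ℝ) * z r.2.2) ^ 2 / 2 ≤ v / 2 * ∑ i ∈ P, z i ^ 2 := by
  rw [sum_filter, Fintype.sum_prod_type]
  simp only [Fintype.sum_prod_type_right]
  rw [sum_const, card_univ, Fintype.card_fin, nsmul_eq_mul, mul_sum, mul_sum,
    ← sum_subset (subset_univ P) fun i _ hi => by simp [hi]]
  refine sum_le_sum fun i hi => ?_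
  have h1 := hv (k i)
  have h0 : 0 ≤ ∑ l ∈ range n, y (k i) l ^ 2 := sum_nonneg fun _ _ => sq_nonneg _
  simp only [if_pos hi, mul_pow, div_pow, sq_sqrt (Nat.cast_nonneg (α := ℝ) D)]
  rw [← sum_div, ← sum_mul, ← sum_div, ← sum_range fun l => y (k i) l ^ 2]
  have h2 : (D : ℝ) * ((∑ l ∈ range n, y (k i) l ^ 2) / D) ≤ v := by
    rcases Nat.eq_zero_or_pos D with h | h
    · rw [h, Nat.cast_zero, zero_mul]; exact h0.trans h1
    · rw [mul_div_cancel₀ _ (by positivity)]; exact h1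
  nlinarith [mul_le_mul_of_nonneg_right h2 (sq_nonneg (z i))]

/-- the fields of amplitude `y (k i)` on the coordinates `z` -/
def FS {κ T I I' : Type} [Fintype I'] {D n : ℕ} (ι : Fin D × Fin n × I' → T) (y : κ → ℕ → ℝ)
    (k : I' → κ) (z : Cf T I → I' → ℝ) (ω : Cf T I) : ℝ :=
  ∑ r, spin (ω.1 (ι r)) * (y (k r.2.2) r.2.1 / √(D : ℝ) * z ω r.2.2)

theorem cmp (hA : AApi) (hR : RApi) (hQ : QApi) {κ T I I' : Type} [Fintype T] [DecidableEq T]
    [Fintype I] [DecidableEq I] [Fintype I'] [DecidableEq I'] {D n : ℕ} (hn : 1 ≤ n) {lev : T → ℕ}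
    (hl : LevOk n lev) {ι : Fin D × Fin n × I' → T} (hι : Function.Injective ι) {y : κ → ℕ → ℝ}
    {v : ℝ} (hv : Vb n y v) (P : Finset I') {k k' : I' → κ} {z z' : Cf T I → I' → ℝ}
    {H H' : Cf T I → ℝ} (hz : ∀ i, Idp (univ.image ι) fun ω => z ω i)
    (hz' : ∀ i, Idp (univ.image ι) fun ω => z' ω i) (hH : Idp (univ.image ι) H)
    (hH' : Idp (univ.image ι) H') (hag : ∀ i, i ∉ P → k i = k' i ∧ ∀ ω, z ω i = z' ω i) {c : ℝ}
    (hle : ∀ ω, H' ω + v / 2 * ∑ i ∈ P, z' ω i ^ 2 ≤ H ω + c) :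
    Xv n lev (fun ω => FS ι y k' z' ω + H' ω) ≤ Xv n lev (fun ω => FS ι y k z ω + H ω) + c := by
  set Q := univ.filter (fun r : Fin D × Fin n × I' => r.2.2 ∈ P) with hQd
  have hsub : Q.image ι ⊆ univ.image ι := image_subset_image (subset_univ _)
  have key : ∀ (k : I' → κ) (z : Cf T I → I' → ℝ) (H : Cf T I → ℝ),
      (∀ i, Idp (univ.image ι) fun ω => z ω i) → Idp (univ.image ι) H →
      Xv n lev (fun ω => ∑ r ∈ univ.filter (fun r : Fin D × Fin n × I' => r.2.2 ∉ P),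
        spin (ω.1 (ι r)) * (y (k r.2.2) r.2.1 / √(D : ℝ) * z ω r.2.2) + H ω) ≤
        Xv n lev (fun ω => FS ι y k z ω + H ω) ∧
      Xv n lev (fun ω => FS ι y k z ω + H ω) ≤
        Xv n lev (fun ω => ∑ r ∈ univ.filter (fun r : Fin D × Fin n × I' => r.2.2 ∉ P),
          spin (ω.1 (ι r)) * (y (k r.2.2) r.2.1 / √(D : ℝ) * z ω r.2.2) + H ω +
          ∑ r ∈ Q, (y (k r.2.2) r.2.1 / √(D : ℝ) * z ω r.2.2) ^ 2 / 2) := by
    intro k z H hz hH
    have h := hQ.hole n lev (Q.image ι)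
      (fun ω => ∑ r ∈ univ.filter (fun r : Fin D × Fin n × I' => r.2.2 ∉ P),
        spin (ω.1 (ι r)) * (y (k r.2.2) r.2.1 / √(D : ℝ) * z ω r.2.2) + H ω)
      (Function.extend ι (fun r ω => y (k r.2.2) r.2.1 / √(D : ℝ) * z ω r.2.2) 0) hn hl
      (fun e e' σ he => by
        have h1 := idp_mono hsub hH e e' σ he
        simp only [h1]
        congr 1
        refine sum_congr rfl fun r hr => ?_
        have h2 : z (e, σ) r.2.2 = z (e', σ) r.2.2 := idp_mono hsub (hz r.2.2) e e' σ he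
        rw [h2, he _ fun h3 => ?_]
        obtain ⟨r', h4, h5⟩ := mem_image.1 h3
        rw [hι h5] at h4
        exact (mem_filter.1 hr).2 (mem_filter.1 h4).2)
      (fun s hs => by
        obtain ⟨r, -, rfl⟩ := mem_image.1 hs
        rw [hι.extend_apply]
        intro e e' σ he
        have h2 : z (e, σ) r.2.2 = z (e', σ) r.2.2 := idp_mono hsub (hz r.2.2) e e' σ he
        simp only [h2])
    simp only [sum_image hι.injOn, hι.extend_apply] at h
    have e1 : ∀ ω : Cf T I, ∑ r ∈ univ.filter (fun r : Fin D × Fin n × I' => r.2.2 ∉ P),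
        spin (ω.1 (ι r)) * (y (k r.2.2) r.2.1 / √(D : ℝ) * z ω r.2.2) + H ω +
        ∑ r ∈ Q, spin (ω.1 (ι r)) * (y (k r.2.2) r.2.1 / √(D : ℝ) * z ω r.2.2) =
        FS ι y k z ω + H ω := fun ω => by
      rw [FS, ← sum_filter_add_sum_filter_not univ (fun r : Fin D × Fin n × I' => r.2.2 ∈ P)]
      ring
    simp only [e1] at h
    exact h
  refine (key k' z' H' hz' hH').2.trans (le_trans (hA.xle (hR.ok n lev hn).1 (fun ω => ?_) (n + 1)
    le_rfl _) (add_le_add_left (key k z H hz hH).1 c))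
  rw [sum_congr rfl fun r hr => by
    rw [← (hag _ (mem_filter.1 hr).2).1, ← (hag _ (mem_filter.1 hr).2).2 ω]]
  linarith [var_le (D := D) hv k' (z' ω) P, hle ω]

variable {N : ℕ} {J : Type} [Fintype J] [DecidableEq J]

/-- the special directions -/
def spc (sp : J → Fin N) : Finset (Fin (N + 1)) :=
  insert (Fin.last N) (univ.image fun j => (sp j).castSucc)

theorem sum_spc {sp : J → Fin N} (h : Function.Injective sp) (F : Fin (N + 1) → ℝ) :
    ∑ i ∈ spc sp, F i = F (Fin.last N) + ∑ j, F (sp j).castSucc := by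
  rw [spc, sum_insert (by simp [Fin.castSucc_ne_last]),
    sum_image fun a _ b _ e => h (Fin.castSucc_injective _ e)]

theorem not_spc {sp : J → Fin N} {i : Fin (N + 1)} (h : i ∉ spc sp) :
    ∃ i0 : Fin N, i = i0.castSucc ∧ i0 ∉ Set.range sp := by
  rw [spc, mem_insert, not_or] at h
  obtain ⟨i0, rfl⟩ := Fin.exists_castSucc_eq.2 h.1
  exact ⟨i0, rfl, fun ⟨j, hj⟩ => h.2 (mem_image.2 ⟨j, mem_univ _, by rw [hj]⟩)⟩

abbrev T1 (D n N : ℕ) : Type := Sg D n (Fin (N + 1)) Unit ⊕ Unit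

def g0 {D n : ℕ} : Sg D n (Fin N) Empty → T1 D n N :=
  Sum.elim (fun r => Sum.inl (Sum.inl (r.1, r.2.1, r.2.2.castSucc))) Empty.elim

def g2 {D n : ℕ} : Sg D n (Fin N) Empty ⊕ Bool → T1 D n N :=
  Sum.elim g0 fun b => if b then Sum.inl (Sum.inr ()) else Sum.inr ()

theorem g2_inj {D n : ℕ} : Function.Injective (g2 (N := N) (D := D) (n := n)) := by
  rintro ((⟨a, b, c⟩ | x) | _ | _) ((⟨a', b', c'⟩ | x') | _ | _) h <;>
    first | exact x.elim | exact x'.elim | simp_all [g2, g0]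

end Cv2

open Cv2 in
theorem cv2Stmt (hA : AApi) (hR : RApi) (hQ : QApi) : Cv2Stmt := by
  intro N κ J _ _ _ _ D n τ cl sp c' lam nu γ y l s v m U' U hl hs hv hsp hc1 hc2 hτ hns hsq
  have hn : 1 ≤ n := by omega
  set S0 := (s0 (c' ∘ Fin.castSucc) lam).up (univ.image sp) τ with hS0
  set lev : T1 D n N → ℕ := Sum.elim ((sL c' lam l s).lev D n) (fun _ : Unit => 0) with hlev
  have hlo : LevOk n lev := by
    rintro ((r | _) | _)
    · exact r.2.1.2
    · exact hl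
    · exact hn
  have E2 : Emb (Sum.elim (S0.lev D n) (lB l)) lev g2 := by
    refine ⟨g2_inj, ?_⟩
    rintro ((r | x) | _ | _)
    · rfl
    · exact x.elim
    · rfl
    · rfl
  have E0 : Emb (S0.lev D n) lev g0 :=
    ⟨g2_inj.comp Sum.inl_injective, fun s => E2.2 (Sum.inl s)⟩
  set ι : Fin D × Fin n × Fin (N + 1) → T1 D n N := fun r => Sum.inl (Sum.inl r) with hι
  have hιi : Function.Injective ι := Sum.inl_injective.comp Sum.inl_injective
  have idp : ∀ h : Bool → Bool → (Fin N → Bool) → ℝ, Idp (univ.image ι)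
      fun ω : Cf (T1 D n N) (Fin N) => h (ω.1 (Sum.inl (Sum.inr ()))) (ω.1 (Sum.inr ())) ω.2 :=
    fun h e e' σ he => by
      simp only
      rw [he _ (by simp [hι]), he (Sum.inr ()) (by simp [hι])]
  set z' : Cf (T1 D n N) (Fin N) → Fin (N + 1) → ℝ :=
    fun ω => yy U' (Fin.snoc ω.2 (ω.1 (Sum.inr ()))) with hz'
  set z : Cf (T1 D n N) (Fin N) → Fin (N + 1) → ℝ := fun ω => Fin.snoc (yy U ω.2) 0 with hz
  set k : Fin (N + 1) → κ := Fin.snoc S0.c τ with hk
  have i1 : ∀ i, Idp (univ.image ι) fun ω => z' ω i := fun i =>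
    idp fun _ b σ => yy U' (Fin.snoc σ b) i
  have i2 : ∀ i, Idp (univ.image ι) fun ω => z ω i := fun i =>
    idp fun _ _ σ => (Fin.snoc (yy U σ) 0 : Fin (N + 1) → ℝ) i
  have sn : ∀ (σ : Fin N → Bool) (b : Bool),
      (Fin.snoc σ b : Fin (N + 1) → Bool) ∘ Fin.castSucc = σ := fun σ b => by
    funext i; simp
  have hag : ∀ i, i ∉ spc sp → k i = c' i ∧ ∀ ω, z ω i = z' ω i := fun i hi => by
    obtain ⟨i0, rfl, h0⟩ := not_spc hi
    refine ⟨?_, fun ω => ?_⟩
    · have : i0 ∉ univ.image sp := by simpa using h0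
      simp only [hk, Fin.snoc_castSucc, hS0, Sys.up, s0, if_neg this]
      rfl
    · simp only [hz, hz', Fin.snoc_castSucc]
      rw [hns _ _ h0, sn]
  have eL : Xv n ((sL c' lam l s).lev D n) ((sL c' lam l s).Z D n y U') =
      Xv n lev (fun ω => FS ι y c' z' ω + (∑ i, lam (c' i) * z' ω i ^ 2 / 2 +
        s * spin (ω.1 (Sum.inl (Sum.inr ()))) * spin (ω.1 (Sum.inr ())))) := by
    rw [hR.last n N _ _ hn]
    congr 1
    funext ω
    simp only [Sys.Z, sL, FS, pull, Function.comp_apply, Fin.snoc_last, hz', hι]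
    ring
  have eZ : ∀ ω : Cf (T1 D n N) (Fin N), S0.Z D n y U (pull g0 ω) =
      FS ι y k z ω + ∑ i, lam (k i) * z ω i ^ 2 / 2 := fun ω => by
    simp only [Sys.Z, FS, Fintype.sum_prod_type, Fin.sum_univ_castSucc, hk, hz, Fin.snoc_castSucc,
      Fin.snoc_last, hι]
    simp [pull, g0, hS0, Sys.up, s0, add_comm]
  have eE : ∀ ω : Cf (T1 D n N) (Fin N), ∑ i, lam (c' i) * z' ω i ^ 2 / 2 =
      ∑ i, lam (k i) * z ω i ^ 2 / 2 + (lam (cl none) * z' ω (Fin.last N) ^ 2 +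
        ∑ j, lam (cl (some j)) * z' ω (sp j).castSucc ^ 2) / 2 -
        lam τ * (∑ j, yy U ω.2 (sp j) ^ 2) / 2 := fun ω => by
    have h1 : ∑ i, (lam (c' i) * z' ω i ^ 2 / 2 - lam (k i) * z ω i ^ 2 / 2) =
        ∑ i ∈ spc sp, (lam (c' i) * z' ω i ^ 2 / 2 - lam (k i) * z ω i ^ 2 / 2) :=
      (sum_subset (subset_univ _) fun i _ hi => by
        rw [(hag i hi).1, (hag i hi).2, sub_self]).symm
    have h2 : ∀ j, k (sp j).castSucc = τ := fun j => by simp [hk, hS0, Sys.up]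
    rw [sum_spc hsp, sum_sub_distrib, sum_sub_distrib] at h1
    simp only [h2, hc1, hc2, hz, Fin.snoc_last, Fin.snoc_castSucc, ← sum_div, ← mul_sum] at h1 ⊢
    linarith
  have q1 : ∀ ω : Cf (T1 D n N) (Fin N), ∑ i ∈ spc sp, z' ω i ^ 2 =
      1 + ∑ j, yy U ω.2 (sp j) ^ 2 := fun ω => by
    rw [sum_spc hsp, hz']
    simp only
    rw [hsq, sn]
  have q2 : ∀ ω : Cf (T1 D n N) (Fin N), ∑ i ∈ spc sp, z ω i ^ 2 =
      ∑ j, yy U ω.2 (sp j) ^ 2 := fun ω => by
    rw [sum_spc hsp]; simp [hz]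
  have eC : ∀ θ : J → ℝ, Xv n (Sum.elim (S0.lev D n) (lB l)) (cavZ S0 D n y s sp θ γ U) =
      Xv n lev (fun ω => FS ι y k z ω + (∑ i, lam (k i) * z ω i ^ 2 / 2 +
        s * spin (ω.1 (Sum.inl (Sum.inr ()))) * spin (ω.1 (Sum.inr ())) +
        ∑ j, (-θ j * yy U ω.2 (sp j) ^ 2 / 2 +
          spin (ω.1 (Sum.inr ())) * (γ j * yy U ω.2 (sp j))))) := fun θ => by
    rw [← (hR.emb n _ lev g2 E2 _).1]
    congr 1
    funext ω
    have : ∀ j, qd (θ j) (γ j) (yy U ω.2 (sp j) * spin (ω.1 (Sum.inr ()))) =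
        -θ j * yy U ω.2 (sp j) ^ 2 / 2 + spin (ω.1 (Sum.inr ())) * (γ j * yy U ω.2 (sp j)) :=
      fun j => by rw [qd, mul_pow, spin_sq]; ring
    rw [← sum_congr rfl fun j _ => this j, ← add_assoc, ← add_assoc, ← eZ]
    rfl
  have iL := idp fun a b σ => ∑ i, lam (c' i) * yy U' (Fin.snoc σ b) i ^ 2 / 2 + s * spin a * spin b
  have iC := fun θ : J → ℝ => idp fun a b σ =>
    ∑ i, lam (k i) * (Fin.snoc (yy U σ) 0 : Fin (N + 1) → ℝ) i ^ 2 / 2 + s * spin a * spin b +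
      ∑ j, (-θ j * yy U σ (sp j) ^ 2 / 2 + spin b * (γ j * yy U σ (sp j)))
  refine ⟨?_, fun hm => ?_⟩
  · rw [eL, ← (hR.emb n _ lev g0 E0 _).1, add_assoc, add_assoc]
    simp only [eZ, add_assoc]
    refine cmp hA hR hQ hn hlo hιi hv (spc sp) i2 i1 (idp fun _ _ σ =>
      ∑ i, lam (k i) * (Fin.snoc (yy U σ) 0 : Fin (N + 1) → ℝ) i ^ 2 / 2 +
        ∑ j, v * yy U σ (sp j) ^ 2 / 2) iL hag fun ω => ?_
    have a1 : lam (cl none) * z' ω (Fin.last N) ^ 2 +
        ∑ j, lam (cl (some j)) * z' ω (sp j).castSucc ^ 2 ≤ lam τ * ∑ i ∈ spc sp, z' ω i ^ 2 := by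
      rw [sum_spc hsp, mul_add, mul_sum]
      exact add_le_add (mul_le_mul_of_nonneg_right (hτ _) (sq_nonneg _))
        (sum_le_sum fun j _ => mul_le_mul_of_nonneg_right (hτ _) (sq_nonneg _))
    have a2 : s * spin (ω.1 (Sum.inl (Sum.inr ()))) * spin (ω.1 (Sum.inr ())) ≤ 1 := by
      have := abs_le.1 hs
      unfold spin; split_ifs <;> linarith [this.1, this.2]
    rw [q1] at a1
    rw [eE, q1]
    simp only [pull, ← sum_div, ← mul_sum]
    linarith
  · have a1 := fun ω : Cf (T1 D n N) (Fin N) => abs_le.1 (hm (Fin.snoc ω.2 (ω.1 (Sum.inr ()))))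
    simp only [sn, Fin.snoc_last] at a1
    rw [eL, eC, eC]
    refine ⟨?_, ?_⟩
    · rw [add_assoc]
      refine cmp hA hR hQ hn hlo hιi hv (spc sp) i2 i1 (iC _) iL hag fun ω => ?_
      have a2 := (a1 ω).2
      rw [eE, q1]
      simp only [neg_mul, sub_mul, sum_add_distrib, ← sum_div, sum_neg_distrib, sum_sub_distrib,
        ← mul_sum, hz']
      linarith
    · have := cmp hA hR hQ hn hlo hιi hv (spc sp) i1 i2 iL
        (iC fun j => lam τ - nu j + 2 * v) (c := v - m / 2)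
        (fun i hi => ⟨(hag i hi).1.symm, fun ω => ((hag i hi).2 ω).symm⟩) fun ω => by
          have a2 := (a1 ω).1
          have a3 := eE ω
          have a4 : 0 ≤ v := (sum_nonneg fun _ _ => sq_nonneg _).trans (hv τ)
          rw [q2]
          simp only [neg_mul, sub_mul, add_mul, sum_add_distrib, ← sum_div, sum_neg_distrib,
            sum_sub_distrib, ← mul_sum, hz', hz] at a3 ⊢
          linarith
      linarith

end

end Vale.Agent.P166
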