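import Vale.Agent.P166.Stm

namespace Vale.Agent.P166

open Finset Real Vale.Agent.P157

namespace Dm

variable {κ : Type} [Fintype κ] {α lam : κ → ℝ} {τ : κ} {Γ η : ℝ}

lemma cases (h : Wt α lam τ Γ η) (k : κ) : α k = 0 ∨ (0 < α k ∧ 0 ≤ lam τ - lam k) :=
  (h.nn k).eq_or_lt.imp Eq.symm fun hk => ⟨hk, sub_nonneg.2 (h.le k hk)⟩

lemma sum_le (h : Wt α lam τ Γ η) {f g : κ → ℝ} (hfg : ∀ k, 0 ≤ lam τ - lam k → f k ≤ g k) :
    ∑ k, α k * f k ≤ ∑ k, α k * g k := sum_le_sum fun k _ => by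
  rcases cases h k with h0 | h0
  · simp [h0]
  · exact mul_le_mul_of_nonneg_left (hfg k h0.2) h0.1.le

lemma sum_eq (h : Wt α lam τ Γ η) {f g : κ → ℝ} (hfg : ∀ k, 0 ≤ lam τ - lam k → f k = g k) :
    ∑ k, α k * f k = ∑ k, α k * g k :=
  le_antisymm (sum_le h fun k hk => (hfg k hk).le) (sum_le h fun k hk => (hfg k hk).ge)

lemma sum_c (h : Wt α lam τ Γ η) (c : ℝ) : ∑ k, α k * c = c := by
  rw [← sum_mul, h.sum, one_mul]

lemma top_le (h : Wt α lam τ Γ η) {f : κ → ℝ} (hf : ∀ k, 0 ≤ lam τ - lam k → 0 ≤ f k) :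
    η * f τ ≤ ∑ k, α k * f k := by
  refine (mul_le_mul_of_nonneg_right h.top (hf τ (by simp))).trans
    (single_le_sum (f := fun k => α k * f k) (fun k _ => ?_) (mem_univ τ))
  rcases cases h k with h0 | h0
  · simp [h0]
  · exact mul_nonneg h0.1.le (hf k h0.2)

lemma rho_eq (x : ℝ) : rho α lam τ x = ∑ k, α k * (1 + (lam τ - lam k) * x)⁻¹ := by
  simp only [rho, div_eq_mul_inv]

lemma low (h : Wt α lam τ Γ η) {x b : ℝ} (hx : 0 ≤ x) (hb : x * lam τ < b) :
    -(x * Γ) ≤ b - 1 - ∑ k, α k * log (b - x * lam k) := by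
  have := sum_le h (f := fun k => log (b - x * lam k)) (g := fun _ => b + x * Γ - 1) fun k hk => by
    have h1 : 0 < b - x * lam k := by nlinarith
    have h2 := log_le_sub_one_of_pos h1
    nlinarith [(abs_le.1 (h.bd k)).1]
  rw [sum_c h] at this
  linarith

lemma bdd (h : Wt α lam τ Γ η) {x : ℝ} (hx : 0 ≤ x) : BddBelow
    ((fun b => b - 1 - ∑ k, α k * log (b - x * lam k)) '' Set.Ioi (x * lam τ)) :=
  ⟨-(x * Γ), by rintro _ ⟨b, hb, rfl⟩; exact low h hx hb⟩

lemma xi_eq (x : ℝ) : Xi α lam τ x = x * rho α lam τ x := by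
  simp only [Xi, rho, ph, mul_sum]
  exact sum_congr rfl fun k _ => by ring

lemma rho_ge (h : Wt α lam τ Γ η) {x : ℝ} (hx : 0 ≤ x) : η ≤ rho α lam τ x := by
  have := top_le h (f := fun k => (1 + (lam τ - lam k) * x)⁻¹) fun k hk => by positivity
  rw [rho_eq]
  simpa using this

lemma rho_le (h : Wt α lam τ Γ η) {x : ℝ} (hx : 0 ≤ x) : rho α lam τ x ≤ 1 := by
  rw [rho_eq]
  exact (sum_le h fun k hk => inv_le_one_of_one_le₀ (by nlinarith)).trans (sum_c h 1).le

lemma val (hη : 0 < η) (h : Wt α lam τ Γ η) {x : ℝ} (hx : 0 ≤ x) :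
    gD α lam τ (Xi α lam τ x) = (lam τ * Xi α lam τ x + rho α lam τ x - 1 -
      log (rho α lam τ x) - ∑ k, α k * log (1 + (lam τ - lam k) * x)) / 2 := by
  have hρ : 0 < rho α lam τ x := hη.trans_le (rho_ge h hx)
  have hξ := xi_eq (α := α) (lam := lam) (τ := τ) x
  set ρ := rho α lam τ x with hρ'
  set ξ := Xi α lam τ x
  have hξ0 : 0 ≤ ξ := by rw [hξ]; positivity
  have e1 : ∀ k, ξ * lam τ + ρ - ξ * lam k = ρ * (1 + (lam τ - lam k) * x) := fun k => by
    rw [hξ]; ring
  have e2 : ∑ k, α k * log (ξ * lam τ + ρ - ξ * lam k) =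
      log ρ + ∑ k, α k * log (1 + (lam τ - lam k) * x) := by
    rw [← sum_c h (log ρ), ← sum_add_distrib]
    simp only [← mul_add]
    refine sum_eq h fun k hk => ?_
    rw [e1, log_mul hρ.ne' (by positivity)]
  have hl : IsLeast ((fun b => b - 1 - ∑ k, α k * log (b - ξ * lam k)) '' Set.Ioi (ξ * lam τ))
      (ξ * lam τ + ρ - 1 - ∑ k, α k * log (ξ * lam τ + ρ - ξ * lam k)) := by
    refine ⟨⟨ξ * lam τ + ρ, by simpa using hρ, rfl⟩, ?_⟩
    rintro _ ⟨b, hb, rfl⟩
    have hb' : ξ * lam τ < b := hb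
    have h1 := sum_le h (f := fun k => log (b - ξ * lam k))
      (g := fun k => log (ξ * lam τ + ρ - ξ * lam k) +
        (b - (ξ * lam τ + ρ)) / ρ * (1 + (lam τ - lam k) * x)⁻¹) fun k hk => by
      have h1 : 0 < b - ξ * lam k := by nlinarith
      have h2 : 0 < 1 + (lam τ - lam k) * x := by positivity
      have h3 : 0 < ξ * lam τ + ρ - ξ * lam k := by rw [e1]; positivity
      have h4 := log_le_sub_one_of_pos (div_pos h1 h3)
      rw [log_div h1.ne' h3.ne'] at h4
      have e : (b - ξ * lam k) / (ξ * lam τ + ρ - ξ * lam k) - 1 =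
          (b - (ξ * lam τ + ρ)) / ρ * (1 + (lam τ - lam k) * x)⁻¹ := by
        rw [div_sub_one h3.ne', e1]
        have : b - ξ * lam k - ρ * (1 + (lam τ - lam k) * x) = b - (ξ * lam τ + ρ) := by
          rw [← e1]; ring
        rw [this]
        field_simp
      linarith
    simp only [mul_add, sum_add_distrib] at h1
    have e3 : ∑ k, α k * ((b - (ξ * lam τ + ρ)) / ρ * (1 + (lam τ - lam k) * x)⁻¹) =
        b - (ξ * lam τ + ρ) := by
      have : ∀ k, α k * ((b - (ξ * lam τ + ρ)) / ρ * (1 + (lam τ - lam k) * x)⁻¹) =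
          (b - (ξ * lam τ + ρ)) / ρ * (α k * (1 + (lam τ - lam k) * x)⁻¹) := fun k => by ring
      simp only [this]
      rw [← mul_sum, ← rho_eq, ← hρ', div_mul_cancel₀ _ hρ.ne']
    simp only
    linarith
  rw [gD, hl.csInf_eq, e2]
  ring

lemma xlip (h : Wt α lam τ Γ η) {x x' : ℝ} (hx : 0 ≤ x) (hxx : x ≤ x') :
    η * (x' - x) ≤ Xi α lam τ x' - Xi α lam τ x ∧ Xi α lam τ x' - Xi α lam τ x ≤ x' - x := by
  have hx' : 0 ≤ x' := hx.trans hxx
  have e : Xi α lam τ x' - Xi α lam τ x = ∑ k, α k *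
      ((x' - x) / ((1 + (lam τ - lam k) * x) * (1 + (lam τ - lam k) * x'))) := by
    rw [Xi, Xi, ← sum_sub_distrib]
    simp only [← mul_sub]
    refine sum_eq h fun k hk => ?_
    have h1 : 0 < 1 + (lam τ - lam k) * x := by positivity
    have h2 : 0 < 1 + (lam τ - lam k) * x' := by positivity
    simp only [ph]
    field_simp
    ring
  have hd : 0 ≤ x' - x := sub_nonneg.2 hxx
  rw [e]
  constructor
  · have := top_le h (f := fun k => (x' - x) /
      ((1 + (lam τ - lam k) * x) * (1 + (lam τ - lam k) * x'))) fun k hk => by positivity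
    simpa using this
  · refine (sum_le h fun k hk => ?_).trans (sum_c h _).le
    refine div_le_self hd (one_le_mul_of_one_le_of_one_le ?_ ?_) <;> nlinarith

lemma shift (h : Wt α lam τ Γ η) {x x' δ : ℝ} (hx : 0 ≤ x) (hx' : 0 ≤ x')
    (hδ : ∀ k, (x' - x) * lam k ≤ δ) : gD α lam τ x' ≤ gD α lam τ x + δ / 2 := by
  have : sInf ((fun b => b - 1 - ∑ k, α k * log (b - x' * lam k)) '' Set.Ioi (x' * lam τ)) - δ ≤
      sInf ((fun b => b - 1 - ∑ k, α k * log (b - x * lam k)) '' Set.Ioi (x * lam τ)) := by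
    refine le_csInf (Set.nonempty_Ioi.image _) ?_
    rintro _ ⟨b, hb, rfl⟩
    have hb' : x * lam τ < b := hb
    have h1 := csInf_le (bdd h hx') ⟨b + δ, show x' * lam τ < b + δ by linarith [hδ τ], rfl⟩
    have h2 := sum_le h (f := fun k => log (b - x * lam k))
      (g := fun k => log (b + δ - x' * lam k)) fun k hk =>
      log_le_log (by nlinarith) (by linarith [hδ k])
    simp only at h1 ⊢
    linarith
  rw [gD, gD]
  linarith

end Dm

open Dm in
theorem dApi : DApi where
  val hη h _ hx := val hη h hx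
  basic := by
    intro κ _ α lam τ Γ η hη h
    refine ⟨by simp [Xi, ph], ?_, ?_, fun x hx => ⟨xi_eq x, rho_ge h hx, rho_le h hx, ?_⟩⟩
    · simp only [bt, rho, mul_zero, add_zero, div_one, h.sum, mul_sub, sum_sub_distrib, sum_c h, mn]
      ring
    · rw [mn, abs_le]
      constructor
      · rw [← sum_c h (-Γ)]; exact sum_le h fun k _ => (abs_le.1 (h.bd k)).1
      · rw [← sum_c h Γ]; exact sum_le h fun k _ => (abs_le.1 (h.bd k)).2
    · have hρ : 0 < rho α lam τ x := hη.trans_le (rho_ge h hx)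
      have e : x * ∑ k, α k * (lam τ - lam k) / (1 + (lam τ - lam k) * x) =
          1 - rho α lam τ x := by
        rw [rho_eq, eq_sub_iff_add_eq, mul_sum, ← sum_add_distrib]
        simp only [mul_div_assoc, mul_left_comm x, ← mul_add]
        refine (sum_eq h fun k hk => ?_).trans (sum_c h 1)
        have h1 : 0 < 1 + (lam τ - lam k) * x := by positivity
        field_simp
        ring
      rw [xi_eq, bt]
      field_simp
      linarith
  xlip _ h _ _ hx hxx := xlip h hx hxx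
  surj := by
    intro κ _ α lam τ Γ η hη h ξ hξ
    have h0 : 0 ≤ ξ / η := by positivity
    have hc : ContinuousOn (Xi α lam τ) (Set.Icc 0 (ξ / η)) := by
      refine continuousOn_finsetSum _ fun k _ => ?_
      rcases cases h k with h1 | h1
      · simp only [h1, zero_mul]; exact continuousOn_const
      · refine continuousOn_const.mul (ContinuousOn.div (by fun_prop) (by fun_prop) fun x hx => ?_)
        have := mul_nonneg h1.2 hx.1
        positivity
    have h1 := (xlip h le_rfl h0).1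
    have h2 : Xi α lam τ 0 = 0 := by simp [Xi, ph]
    rw [h2, sub_zero, sub_zero, mul_div_cancel₀ _ hη.ne'] at h1
    obtain ⟨x, hx, e⟩ := intermediate_value_Icc h0 hc ⟨h2.le.trans hξ, h1⟩
    exact ⟨x, hx.1, hx.2, e⟩
  glip := by
    intro κ _ α lam τ Γ η _ h x x' hx hxx
    have hd : 0 ≤ x' - x := sub_nonneg.2 hxx
    have h1 := shift h (δ := Γ * (x' - x)) hx (hx.trans hxx) fun k => by
      nlinarith [(abs_le.1 (h.bd k)).2]
    have h2 := shift h (δ := Γ * (x' - x)) (hx.trans hxx) hx fun k => by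
      nlinarith [(abs_le.1 (h.bd k)).1]
    rw [abs_le]
    constructor <;> linarith
  pure := by
    intro κ _ α lam τ Γ h x hx
    classical
    have h1 : rho α lam τ x = 1 := le_antisymm (rho_le h hx) (rho_ge h hx)
    have h2 := val one_pos h hx
    rw [xi_eq, h1, mul_one] at h2
    have h3 : ∑ k, α k * log (1 + (lam τ - lam k) * x) = 0 := sum_eq_zero fun k _ => by
      by_cases hk : k = τ
      · simp [hk]
      · have h4 := h.sum
        rw [← add_sum_erase _ _ (mem_univ τ)] at h4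
        have h5 := single_le_sum (f := α) (fun k _ => h.nn k) (mem_erase.2 ⟨hk, mem_univ k⟩)
        have h6 : α k = 0 := le_antisymm (by linarith [h.top]) (h.nn k)
        simp [h6]
    rw [h2, h3]
    simp
  le := by
    intro κ _ α lam τ Γ η _ h x b hx hb
    have := csInf_le (bdd h hx) ⟨b, hb, rfl⟩
    rw [gD]
    simp only at this
    linarith

end Vale.Agent.P166
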