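import Vale.Agent.P166.Stm

/-! P166: discretisation of the spectral law. -/

namespace Vale.Agent.P166

open MeasureTheory Finset Real Filter Topology Vale.Agent.P157

namespace Ds1m

theorem hall {N : ℕ} {x y : Fin N → ℝ}
    (h : ∀ i, (univ.filter fun j => x i ≤ x j).card ≤ (univ.filter fun j => x i ≤ y j).card) :
    ∃ pm : Equiv.Perm (Fin N), ∀ i, x i ≤ y (pm i) := by
  classical
  obtain ⟨f, hf, hr⟩ := (Fintype.all_card_le_filter_rel_iff_exists_injective
    fun i j => x i ≤ y j).1 fun A => by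
      rcases A.eq_empty_or_nonempty with rfl | hA
      · simp
      obtain ⟨i, hi, hm⟩ := A.exists_min_image x hA
      refine (card_le_card fun j hj => ?_).trans ((h i).trans (card_le_card fun j hj => ?_))
      · exact mem_filter.2 ⟨mem_univ _, hm j hj⟩
      · simp only [mem_filter, mem_univ, true_and] at hj ⊢
        exact ⟨i, hi, hj⟩
  exact ⟨Equiv.ofBijective f hf.bijective_of_finite, hr⟩

theorem cnt (N : ℕ) {b : ℕ} (hb : 0 < b) (n : ℕ) :
    ((univ.filter fun i : Fin N => (i : ℕ) % b < n).card : ℝ) ≤ (N / b + 1) * n := by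
  have := card_le_card_of_injOn (s := univ.filter fun i : Fin N => (i : ℕ) % b < n)
    (t := range (N / b + 1) ×ˢ range n) (fun i => ((i : ℕ) / b, (i : ℕ) % b))
    (fun i hi => by
      simp only [coe_filter, mem_univ, true_and, Set.mem_setOf_eq] at hi
      simp only [coe_product, coe_range, Set.mem_prod, Set.mem_Iio]
      exact ⟨Nat.lt_succ_of_le (Nat.div_le_div_right i.2.le), hi⟩)
    (fun i _ j _ h => by
      simp only [Prod.mk.injEq] at h
      exact Fin.ext (by rw [← Nat.div_add_mod i b, h.1, h.2, Nat.div_add_mod]))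
  rw [card_product, card_range, card_range] at this
  refine (Nat.cast_le.2 this).trans ?_
  push_cast
  gcongr
  exact Nat.cast_div_le

theorem tl_eq {I κ : Type} [Fintype I] [Fintype κ] [DecidableEq κ] (c : I → κ) (t : κ → ℝ)
    (M u : ℝ) : tl (fun k => ((univ.filter fun i => c i = k).card : ℝ) / M) t u =
      ((univ.filter fun i => u ≤ t (c i)).card : ℝ) / M := by
  simp only [tl, card_filter, Nat.cast_sum, Nat.cast_ite, Nat.cast_one, Nat.cast_zero, sum_div]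
  have : ∀ k, (if u ≤ t k then ∑ i, (if c i = k then (1 : ℝ) else 0) / M else 0) =
      ∑ i, if c i = k then (if u ≤ t k then (1 : ℝ) else 0) / M else 0 := fun k => by
    split_ifs <;> simp [ite_div]
  simp only [this]
  rw [sum_comm]
  simp

noncomputable def fg (K : ℕ) (P : ℕ → Prop) : Fin (K + 1) :=
  open Classical in ⟨Nat.findGreatest P K, Nat.lt_succ_of_le (Nat.findGreatest_le K)⟩

theorem le_fg {K : ℕ} {P : ℕ → Prop} (hP : ∀ k k', k ≤ k' → k' ≤ K → P k' → P k) {k : ℕ}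
    (hk : k ≤ K) : k ≤ fg K P ↔ k = 0 ∨ P k := by
  classical
  refine ⟨fun h => ?_, fun h => h.elim (fun h => h ▸ Nat.zero_le _) (Nat.le_findGreatest hk)⟩
  rcases Nat.eq_zero_or_pos k with h0 | h0
  · exact Or.inl h0
  · exact Or.inr (hP _ _ h (Nat.findGreatest_le K) (Nat.findGreatest_of_ne_zero rfl
      (h0.trans_le h).ne'))

theorem thr (K : ℕ) (A h u : ℝ) (h0 : 0 < h) : A + K * h < u ∨ ∃ k, k ≤ K ∧ u ≤ A + k * h ∧
    (∀ k' : ℕ, u ≤ A + k' * h ↔ k ≤ k') ∧ (k = 0 ∨ A + k * h - h < u) := by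
  classical
  rcases lt_or_ge (A + K * h) u with hu | hu
  · exact Or.inl hu
  have ex : ∃ k : ℕ, u ≤ A + k * h := ⟨K, hu⟩
  refine Or.inr ⟨Nat.find ex, Nat.find_min' ex hu, Nat.find_spec ex, fun k' =>
    ⟨Nat.find_min' ex, fun hk => (Nat.find_spec ex).trans (by gcongr)⟩, ?_⟩
  rcases Nat.eq_zero_or_pos (Nat.find ex) with h1 | h1
  · exact Or.inl h1
  · have := Nat.find_min ex (Nat.sub_one_lt h1.ne')
    rw [Nat.cast_sub h1, Nat.cast_one, not_le] at this
    exact Or.inr (by linarith)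

noncomputable def ramp (w s : ℝ) : BoundedContinuousFunction ℝ ℝ :=
  BoundedContinuousFunction.ofNormedAddCommGroup (fun x => max 0 (min 1 ((x - s) / w)))
    (by fun_prop) 1 fun _ => by
      rw [norm_of_nonneg (le_max_left _ _)]
      exact max_le zero_le_one (min_le_left _ _)

theorem ramp_le {w : ℝ} (hw : 0 < w) (s x : ℝ) : ramp w s x ≤ if s ≤ x then 1 else 0 := by
  change max 0 (min 1 ((x - s) / w)) ≤ _
  split_ifs with h
  · exact max_le zero_le_one (min_le_left _ _)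
  · exact max_le le_rfl (min_le_of_right_le (div_nonpos_of_nonpos_of_nonneg (by linarith) hw.le))

theorem le_ramp {w : ℝ} (hw : 0 < w) (s x : ℝ) : (if s + w ≤ x then 1 else 0) ≤ ramp w s x := by
  change _ ≤ max 0 (min 1 ((x - s) / w))
  split_ifs with h
  · exact le_max_of_le_right (le_min le_rfl ((one_le_div hw).2 (by linarith)))
  · exact le_max_left _ _

theorem mass (μ : Measure ℝ) (s : ℝ) :
    ∫ x, (if s ≤ x then (1 : ℝ) else 0) ∂μ = μ.real (Set.Ici s) := by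
  rw [← integral_indicator_one measurableSet_Ici]
  rfl

theorem mi (μ : Measure ℝ) [IsProbabilityMeasure μ] (s : ℝ) :
    Integrable (fun x => if s ≤ x then (1 : ℝ) else 0) μ :=
  (integrable_const (1 : ℝ)).indicator measurableSet_Ici

theorem M_le {w : ℝ} (hw : 0 < w) (μ : Measure ℝ) [IsProbabilityMeasure μ] (s : ℝ) :
    ∫ x, ramp w s x ∂μ ≤ μ.real (Set.Ici s) :=
  (integral_mono ((ramp w s).integrable μ) (mi μ s) (ramp_le hw s)).trans_eq (mass μ s)

theorem le_M {w : ℝ} (hw : 0 < w) (μ : Measure ℝ) [IsProbabilityMeasure μ] (s : ℝ) :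
    μ.real (Set.Ici (s + w)) ≤ ∫ x, ramp w s x ∂μ :=
  (mass μ _).symm.trans_le (integral_mono (mi μ _) ((ramp w s).integrable μ) (le_ramp hw s))

theorem S_le {w : ℝ} (hw : 0 < w) {N : ℕ} (y : Fin N → ℝ) (s : ℝ) :
    ∑ i, ramp w s (y i) ≤ (univ.filter fun i => s ≤ y i).card := by
  rw [card_filter]
  push_cast
  exact sum_le_sum fun i _ => ramp_le hw s _

theorem le_S {w : ℝ} (hw : 0 < w) {N : ℕ} (y : Fin N → ℝ) (s : ℝ) :
    ((univ.filter fun i => s + w ≤ y i).card : ℝ) ≤ ∑ i, ramp w s (y i) := by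
  rw [card_filter]
  push_cast
  exact sum_le_sum fun i _ => le_ramp hw s _

theorem seqn {m : ℕ → ℝ} {K : ℕ} {a e : ℝ} (m0 : m 0 = 1) (ma : ∀ k, m (k + 1) ≤ m k) (aK : a ≤ m K)
    (a0 : 0 < a) (e0 : 0 < e) (e2 : (K + 2) * e ≤ a / 4) :
    ∃ (b : ℕ) (n : ℕ → ℕ) (pat : Fin b → Fin (K + 1)), 0 < b ∧ n 0 = b ∧ (∀ k, k ≤ K → n k ≤ b) ∧
      (∀ k, k ≤ K → (n k : ℝ) / b ≤ m k - k * e) ∧ (∀ k, m k - (k + 1) * e ≤ (n k : ℝ) / b) ∧
      a / 2 ≤ (n K : ℝ) / b ∧ (∀ k, k ≤ K → ∀ j, k ≤ pat j ↔ (j : ℕ) < n k) ∧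
      (∀ k, k ≤ K → (univ.filter fun j => k ≤ pat j).card = n k) ∧ Function.Surjective pat := by
  obtain ⟨b, hb⟩ := exists_nat_gt (1 / e)
  rw [div_lt_iff₀ e0] at hb
  have b0 : (0 : ℝ) < b := pos_of_mul_pos_left (b := e) (by linarith) e0.le
  have b0' : 0 < b := by exact_mod_cast b0
  have mK : ∀ k, k ≤ K → a ≤ m k := fun k hk => aK.trans (antitone_nat_of_succ_le ma hk)
  have ke : ∀ k : ℕ, k ≤ K → k * e ≤ K * e := fun k hk => by gcongr
  obtain ⟨n, hn⟩ : ∃ n : ℕ → ℕ, ∀ k, n k = ⌊b * (m k - k * e)⌋₊ := ⟨_, fun _ => rfl⟩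
  have n0 : n 0 = b := by simp [hn, m0]
  have n1 : ∀ k, k ≤ K → (n k : ℝ) / b ≤ m k - k * e := fun k hk => by
    rw [div_le_iff₀' b0, hn]
    exact Nat.floor_le (mul_nonneg b0.le (by linarith [mK k hk, ke k hk]))
  have n2 : ∀ k, m k - (k + 1) * e ≤ (n k : ℝ) / b := fun k => by
    rw [le_div_iff₀' b0, hn]
    have := Nat.lt_floor_add_one (b * (m k - k * e))
    nlinarith
  have n3 : ∀ k, k + 1 ≤ K → n (k + 1) < n k := fun k hk => by
    have i1 := n1 _ hk
    have i2 := Nat.lt_floor_add_one (b * (m k - k * e))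
    rw [div_le_iff₀' b0] at i1
    push_cast at i1
    have i3 := mul_le_mul_of_nonneg_left (ma k) b0.le
    have : (n (k + 1) : ℝ) < n k := by rw [← hn] at i2; nlinarith
    exact_mod_cast this
  have n4 : ∀ k k', k ≤ k' → k' ≤ K → n k' ≤ n k := fun k k' h h' => by
    induction k', h using Nat.le_induction with
    | base => exact le_rfl
    | succ _ _ ih => exact (n3 _ h').le.trans (ih (Nat.le_of_succ_le h'))
  have n5 : a / 2 ≤ (n K : ℝ) / b := by nlinarith [n2 K]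
  have n6 : 0 < n K := by
    have : (0 : ℝ) < n K := (div_pos_iff_of_pos_right b0).1 (by linarith)
    exact_mod_cast this
  obtain ⟨pat, hpat⟩ : ∃ pat : Fin b → Fin (K + 1), ∀ j, pat j = fg K fun k => (j : ℕ) < n k :=
    ⟨_, fun _ => rfl⟩
  have pl : ∀ k, k ≤ K → ∀ j, k ≤ pat j ↔ (j : ℕ) < n k := fun k hk j => by
    rw [hpat, le_fg (fun k k' h h' p => p.trans_le (n4 k k' h h')) hk]
    exact ⟨fun h => h.elim (fun h => h ▸ n0 ▸ j.2) id, Or.inr⟩
  have pc : ∀ k, k ≤ K → (univ.filter fun j => k ≤ pat j).card = n k := fun k hk => by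
    simp only [pl k hk]
    rw [Fin.card_filter_val_lt, min_eq_right (n0 ▸ n4 0 k (Nat.zero_le k) hk)]
  refine ⟨b, n, pat, b0', n0, fun k hk => n0 ▸ n4 0 k (Nat.zero_le k) hk, n1, n2, n5, pl, pc,
    fun k => ?_⟩
  · have hk := Nat.lt_succ_iff.1 k.2
    have p := n6.trans_le (n4 _ _ hk le_rfl)
    have q : n k - 1 < b := (Nat.sub_one_lt p.ne').trans_le (n0 ▸ n4 0 k (Nat.zero_le _) hk)
    refine ⟨⟨n k - 1, q⟩, Fin.ext (le_antisymm (not_lt.1 fun h => ?_)
      ((pl k hk _).2 (Nat.sub_one_lt p.ne')))⟩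
    have h' : (k : ℕ) + 1 ≤ K := h.trans_le (Nat.lt_succ_iff.1 (Fin.is_lt _))
    have := (pl _ h' _).1 h
    have := n3 _ h'
    simp only at *
    omega

theorem low {m : ℕ → ℝ} {K b N : ℕ} {A w e : ℝ} {n : ℕ → ℕ} {pat : Fin b → Fin (K + 1)}
    {t : Fin (K + 1) → ℝ} (ht : ∀ k, t k = A + (k : ℕ) * (4 * w)) (w0 : 0 < w) (e0 : 0 < e)
    (b0' : 0 < b) (nb : ∀ k, k ≤ K → n k ≤ b) (n1 : ∀ k, k ≤ K → (n k : ℝ) / b ≤ m k - k * e)
    (pl : ∀ k, k ≤ K → ∀ j, k ≤ pat j ↔ (j : ℕ) < n k) {y : Fin N → ℝ}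
    (h1 : ∀ k ∈ range (K + 1), |(∑ i, ramp w (A + (k : ℕ) * (4 * w)) (y i)) / N - m k| < e / 2)
    (h2 : A < ⨅ i, y i) (h3 : 2 * b / e ≤ N) (h4 : 0 < N) :
    ∃ pm : Equiv.Perm (Fin N), ∀ i, t (per b0' pat N i) ≤ y (pm i) := by
  have sm : ∀ k k' : ℕ, k ≤ k' → A + k * (4 * w) ≤ A + k' * (4 * w) := fun k k' h => by gcongr
  have N0 : (0 : ℝ) < N := by exact_mod_cast h4
  refine hall fun i => ?_
  obtain ⟨k, hk⟩ : ∃ k, k = per b0' pat N i := ⟨_, rfl⟩
  have kK := Nat.lt_succ_iff.1 k.2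
  rw [← hk]
  rcases Nat.eq_zero_or_pos k with k0 | k0
  · refine card_le_card fun j _ => mem_filter.2 ⟨mem_univ _, ?_⟩
    simp only [ht, k0, Nat.cast_zero, zero_mul, add_zero]
    exact h2.le.trans (ciInf_le (Set.finite_range _).bddBelow j)
  have c1 := cnt N b0' (n k)
  have c2 := S_le w0 y (t k)
  rw [ht] at c2
  have c3 := (abs_lt.1 (h1 k (mem_range.2 k.2))).1
  have c4 := n1 k kK
  have c5 : (n k : ℝ) ≤ b := by exact_mod_cast nb k kK
  have c6 : e ≤ (k : ℕ) * e := le_mul_of_one_le_left e0.le (by exact_mod_cast k0)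
  rw [div_le_iff₀ e0] at h3
  rw [lt_sub_iff_add_lt, lt_div_iff₀ N0] at c3
  have c7 : (N / b + 1 : ℝ) * n k = N * (n k / b) + n k := by ring
  have c8 := mul_le_mul_of_nonneg_left (c4.trans (sub_le_sub_left c6 _)) N0.le
  refine Nat.cast_le (α := ℝ).1 (le_trans (Nat.cast_le.2 (card_le_card fun j hj => mem_filter.2
    ⟨mem_univ _, ?_⟩)) (c1.trans (by rw [ht]; nlinarith)))
  refine (pl k kK ⟨j % b, Nat.mod_lt _ b0'⟩).1 (not_lt.1 fun h => ?_)
  have := sm _ _ h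
  have := (mem_filter.1 hj).2
  simp only [ht, per] at this
  push_cast at *
  linarith

theorem upp {m : ℕ → ℝ} {K b N : ℕ} {A w e a : ℝ} {n : ℕ → ℕ} {pat : Fin b → Fin (K + 1)}
    {t : Fin (K + 1) → ℝ} (ht : ∀ k, t k = A + (k : ℕ) * (4 * w)) (w0 : 0 < w) (e0 : 0 < e)
    (b0 : (0 : ℝ) < b) (n0 : n 0 = b) (n2 : ∀ k, m k - (k + 1) * e ≤ (n k : ℝ) / b)
    (t0 : ∀ u, 0 ≤ tl (pw pat) t u) (tq : ∀ u k, k ≤ K → (∀ k' : ℕ, u ≤ A + k' * (4 * w) ↔ k ≤ k') →
      tl (pw pat) t u = n k / b) {y : Fin N → ℝ}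
    (h1 : ∀ k ∈ range (K + 1), |(∑ i, ramp w (A + (k : ℕ) * (4 * w)) (y i)) / N - m k| < e / 2)
    (h2 : ⨆ i, y i < A + (K + 1) * (4 * w) + w)
    (h3 : a / 2 < (∑ i, ramp w (A + K * (4 * w) + w) (y i)) / N) (h4 : 0 < N) :
    ∃ c : Fin N → Fin (K + 1), (∀ i, y i ≤ t (c i) + 8 * w) ∧
      a / 2 * N ≤ ((s0 c t).cls (Fin.last K)).card ∧
      ∀ u, tl (s0 c t).al t u ≤ tl (pw pat) t u + (K + 2) * e := by
  have h0 : 0 < 4 * w := by linarith
  have sm : ∀ k k' : ℕ, k ≤ k' → A + k * (4 * w) ≤ A + k' * (4 * w) := fun k k' h => by gcongr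
  have tK : ∀ k, t k ≤ A + K * (4 * w) := fun k => ht k ▸ sm _ _ (Nat.lt_succ_iff.1 k.2)
  have ke : ∀ k : ℕ, k ≤ K → k * e ≤ K * e := fun k hk => by gcongr
  have N0 : (0 : ℝ) < N := by exact_mod_cast h4
  obtain ⟨c, hcc⟩ : ∃ c : Fin N → Fin (K + 1), ∀ i, c i = fg K fun k => A + k * (4 * w) + w ≤ y i :=
    ⟨_, fun _ => rfl⟩
  have cl : ∀ k, k ≤ K → ∀ i, k ≤ c i ↔ k = 0 ∨ A + k * (4 * w) + w ≤ y i := fun k hk i =>
    hcc i ▸ le_fg (fun k k' h _ p => by linarith [sm k k' h]) hk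
  refine ⟨c, fun i => ?_, ?_, fun u => ?_⟩
  · rcases (Nat.lt_succ_iff.1 (c i).2).eq_or_lt with h | h
    · have := (le_ciSup (Set.finite_range _).bddAbove i).trans_lt h2
      simp only [ht, h]
      linarith
    · have := mt (cl _ h i).2 (Nat.not_succ_le_self _)
      push_cast at this
      simp only [ht]
      linarith [not_le.1 (not_or.1 this).2]
  · rw [lt_div_iff₀ N0] at h3
    refine h3.le.trans ((S_le w0 _ _).trans (Nat.cast_le.2 (card_le_card fun i hi => mem_filter.2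
      ⟨mem_univ _, Fin.ext (le_antisymm (Nat.lt_succ_iff.1 (Fin.is_lt _)) ?_)⟩)))
    exact (cl K le_rfl i).2 (Or.inr (mem_filter.1 hi).2)
  · have : tl (s0 c t).al t u = ((univ.filter fun i => u ≤ t (c i)).card : ℝ) / N := by
      rw [← tl_eq c t N u, show (N : ℝ) = Fintype.card (Fin N) by rw [Fintype.card_fin]]
      rfl
    rw [this]
    rcases thr K A (4 * w) u h0 with h | ⟨k, hk, -, h5, -⟩
    · rw [filter_false_of_mem fun j _ => not_le.2 ((tK _).trans_lt h)]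
      simpa using add_nonneg (t0 u) (by positivity)
    rw [tq u k hk h5]
    simp only [ht, h5, cl k hk]
    rcases Nat.eq_zero_or_pos k with rfl | k0
    · simp only [true_or, filter_true, card_univ, Fintype.card_fin, n0, div_self N0.ne',
        div_self b0.ne']
      exact le_add_of_nonneg_right (by positivity)
    simp only [k0.ne', false_or]
    have c1 := div_le_div_of_nonneg_right (le_S w0 (y) (A + k * (4 * w))) N0.le
    have c3 := (abs_lt.1 (h1 k (mem_range.2 (Nat.lt_succ_of_le hk)))).2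
    linarith [n2 k, ke k hk]


end Ds1m

open Ds1m in
theorem ds1Stmt : Ds1Stmt := by
  intro μ lam ε _ hc hw hlo hhi hε
  have hne := Measure.nonempty_support (IsProbabilityMeasure.ne_zero μ)
  set lo := sInf μ.support
  set hi := sSup μ.support
  have hs : ∀ u ∈ μ.support, lo ≤ u ∧ u ≤ hi := fun u hu =>
    ⟨csInf_le hc.bddBelow hu, le_csSup hc.bddAbove hu⟩
  have hae : ∀ᵐ u ∂μ, lo ≤ u ∧ u ≤ hi := mem_of_superset μ.support_mem_ae hs
  obtain ⟨w, rfl⟩ : ∃ w, ε = 8 * w := ⟨ε / 8, by ring⟩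
  have w0 : 0 < w := by linarith
  have h0 : 0 < 4 * w := by linarith
  obtain ⟨K, hK⟩ := exists_nat_gt ((hi - lo) / (4 * w))
  rw [div_lt_iff₀ h0] at hK
  obtain ⟨A, hA⟩ : ∃ A, A = hi - (K + 1) * (4 * w) := ⟨_, rfl⟩
  obtain ⟨m, hm⟩ : ∃ m : ℕ → ℝ, ∀ k, m k = ∫ x, ramp w (A + k * (4 * w)) x ∂μ := ⟨_, fun _ => rfl⟩
  have sm : ∀ k k' : ℕ, k ≤ k' → A + k * (4 * w) ≤ A + k' * (4 * w) := fun k k' h => by gcongr
  have m1 : ∀ k, m k ≤ 1 := fun k => hm k ▸ (M_le w0 μ _).trans measureReal_le_one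
  have mIci : ∀ k : ℕ, ∀ u, A + k * (4 * w) + w ≤ u → μ.real (Set.Ici u) ≤ m k := fun k u h =>
    hm k ▸ (measureReal_mono (Set.Ici_subset_Ici.2 h)).trans (le_M w0 μ _)
  have m0 : m 0 = 1 := by
    refine le_antisymm (m1 0) (le_trans (le_of_eq ?_) (mIci 0 lo (by push_cast; nlinarith)))
    rw [← probReal_univ (μ := μ)]
    exact measureReal_congr (hae.mono fun u hu => eq_true trivial |>.trans (eq_true hu.1).symm)
  have ma : ∀ k, m (k + 1) ≤ m k := fun k =>
    (hm _ ▸ M_le w0 μ _ :).trans (mIci k _ (by push_cast; linarith))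
  obtain ⟨a, ha⟩ : ∃ a, a = ∫ x, ramp w (A + K * (4 * w) + w) x ∂μ := ⟨_, rfl⟩
  have a0 : 0 < a := by
    refine lt_of_lt_of_le ?_ (ha ▸ le_M w0 μ _)
    exact ENNReal.toReal_pos (((Measure.mem_support_iff_forall _).1 (hc.sSup_mem hne) _
      (Ici_mem_nhds (by change _ < hi; linarith))).ne') (measure_ne_top _ _)
  have aK : a ≤ m K := (ha ▸ M_le w0 μ _).trans (mIci K _ le_rfl)
  obtain ⟨Γ, hΓ⟩ : ∃ Γ, Γ = |lo| + |hi| + (K + 1) * (4 * w) + 8 * w := ⟨_, rfl⟩
  have K0 : 0 ≤ (K + 1) * (4 * w) := by positivity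
  have G0 : 8 * w ≤ Γ := by linarith [abs_nonneg lo, abs_nonneg hi]
  have G1 : 0 < Γ := by linarith
  obtain ⟨e, he⟩ : ∃ e, e = 2 * w * a / Γ / (K + 2) := ⟨_, rfl⟩
  have e0 : 0 < e := by rw [he]; positivity
  have e1 : (K + 2) * e * Γ = 2 * w * a := by rw [he]; field_simp
  have e2 : (K + 2) * e ≤ a / 4 := le_of_mul_le_mul_right (by nlinarith) G1
  obtain ⟨b, n, pat, b0', n0, nb, n1, n2, n5, pl, pc, hsurj⟩ := seqn m0 ma aK a0 e0 e2
  have b0 : (0 : ℝ) < b := by exact_mod_cast b0'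
  have ke : ∀ k : ℕ, k ≤ K → k * e ≤ K * e := fun k hk => by gcongr
  obtain ⟨t, ht⟩ : ∃ t : Fin (K + 1) → ℝ, ∀ k, t k = A + (k : ℕ) * (4 * w) := ⟨_, fun _ => rfl⟩
  have tK : ∀ k, t k ≤ A + K * (4 * w) := fun k => ht k ▸ sm _ _ (Nat.lt_succ_iff.1 k.2)
  have tp : ∀ u, tl (pw pat) t u = ((univ.filter fun j => u ≤ t (pat j)).card : ℝ) / b :=
    tl_eq pat t b
  have tq : ∀ u k, k ≤ K → (∀ k' : ℕ, u ≤ A + k' * (4 * w) ↔ k ≤ k') →
      tl (pw pat) t u = n k / b := fun u k hk h => by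
    rw [tp, ← pc k hk]
    simp only [ht, h]
  have t0 : ∀ u, 0 ≤ tl (pw pat) t u := fun u => by rw [tp]; positivity
  have ev1 : ∀ᶠ N : ℕ in atTop, ∀ k ∈ range (K + 1),
      |(∑ i, ramp w (A + (k : ℕ) * (4 * w)) (lam N i)) / N - m k| < e / 2 :=
    (eventually_all_finset _).2 fun k _ => by
      simpa only [Real.dist_eq, hm] using Metric.tendsto_nhds.1 (hw (ramp w (A + k * (4 * w)))) _
        (half_pos e0)
  refine ⟨K + 1, b, b0', Fin.last K, t, pat, 4 * w, Γ, a / 2, (K + 2) * e, hsurj, h0,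
    fun k hk => ?_, fun k => ?_, fun u hu => ?_, half_pos a0, by positivity, ?_, ?_, ?_,
    fun u => ?_, fun u => ?_, ?_, ?_⟩
  · have := sm (k + 1) K (Fin.val_lt_last hk)
    simp only [ht, Fin.val_last]
    push_cast at this
    linarith
  · have := tK k
    have : A ≤ t k := ht k ▸ le_add_of_nonneg_right (by positivity)
    rw [abs_le]
    constructor <;> linarith [abs_nonneg lo, le_abs_self hi, neg_abs_le hi]
  · have := abs_le_max_abs_abs (hs u hu).1 (hs u hu).2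
    have := max_le (le_add_of_nonneg_right (abs_nonneg hi) : |lo| ≤ _)
      (le_add_of_nonneg_left (abs_nonneg lo))
    linarith
  · have : pw pat (Fin.last K) = n K / b := by
      rw [pw, ← pc K le_rfl]
      rw [filter_congr fun j _ => show pat j = Fin.last K ↔ K ≤ pat j from
        ⟨fun h => by simp [h], fun h => Fin.ext (le_antisymm (Nat.lt_succ_iff.1 (pat j).2) h)⟩]
    rw [this]
    nlinarith
  · simp only [ht, Fin.val_last]; linarith
  · simp only [ht, Fin.val_last]; linarith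
  · rcases thr K A (4 * w) u h0 with h | ⟨k, hk, h1, h2, -⟩
    · rw [tp, filter_false_of_mem fun j _ => not_le.2 ((tK _).trans_lt h)]
      simp
    · rw [tq u k hk h2]
      exact (n1 k hk).trans ((sub_le_self _ (by positivity)).trans ((hm k ▸ M_le w0 μ _ :).trans
        (measureReal_mono (Set.Ici_subset_Ici.2 h1))))
  · rcases thr K A (4 * w) (u - 8 * w) h0 with h | ⟨k, hk, h1, h2, h3⟩
    · have : μ.real (Set.Ici u) = 0 := by
        rw [measureReal_eq_zero_iff]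
        refine measure_mono_null (fun x hx => ?_) (ae_iff.1 hae)
        have : u ≤ x := hx
        exact fun hx' => by linarith [hx'.2]
      rw [this]
      exact add_nonneg (t0 _) (by positivity)
    · have : μ.real (Set.Ici u) ≤ m k := h3.elim (fun h => by rw [h, m0]; exact measureReal_le_one)
        fun h => mIci k u (by linarith)
      rw [tq _ k hk h2]
      linarith [n2 k, ke k hk]
  · filter_upwards [ev1, hlo.eventually (lt_mem_nhds (show A < lo by linarith)),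
      tendsto_natCast_atTop_atTop.eventually_ge_atTop (2 * b / e), eventually_gt_atTop 0]
      with N h1 h2 h3 h4 using low ht w0 e0 b0' nb n1 pl h1 h2 h3 h4
  · filter_upwards [ev1, hhi.eventually (gt_mem_nhds (show hi < A + (K + 1) * (4 * w) + w by
      linarith)), (hw (ramp w (A + K * (4 * w) + w))).eventually
      (lt_mem_nhds (show a / 2 < _ by linarith)), eventually_gt_atTop 0]
      with N h1 h2 h3 h4 using upp ht w0 e0 b0 n0 n2 t0 tq h1 h2 h3 h4

end Vale.Agent.P166
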