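import Vale.Agent.P166.Stm

namespace Vale.Agent.P166

open MeasureTheory Finset Real Vale.Agent.P157

namespace Endm

variable {κ I Ts T : Type} [Fintype I] [DecidableEq I] [Fintype Ts] [DecidableEq Ts] [Fintype T]
  [DecidableEq T]

lemma xle (hA : AApi) (hR : RApi) {n : ℕ} (hn : 1 ≤ n) (lev : T → ℕ) {Z Z' : Cf T I → ℝ} {c : ℝ}
    (h : ∀ ω, Z ω ≤ Z' ω + c) : Xv n lev Z ≤ Xv n lev Z' + c :=
  hA.xle (hR.ok n lev hn).1 h _ le_rfl _

lemma fields (hA : AApi) (hO : OApi) (hR : RApi) (hQ : QApi) (hH : HApi) (S : Sys κ I Ts)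
    (D n : ℕ) (y : κ → ℕ → ℝ) (v : ℝ) (hn : 1 ≤ n) (hl : LevOk n S.levs) (hv : Vb n y v)
    (U : OG I) :
    Xv n (S.lev D n) (fun ω => ∑ i, S.lam (S.c i) * yy U ω.2 i ^ 2 / 2 + S.SF (pull Sum.inr ω)) ≤
      Xv n (S.lev D n) (S.Z D n y U) ∧ Xv n (S.lev D n) (S.Z D n y U) ≤
      Xv n (S.lev D n) (fun ω => ∑ i, S.lam (S.c i) * yy U ω.2 i ^ 2 / 2 + S.SF (pull Sum.inr ω)) +
        Fintype.card I * v / 2 := by
  let u : Sg D n I Ts → Cf (Sg D n I Ts) I → ℝ := fun s ω =>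
    Sum.elim (fun s : Fin D × Fin n × I => y (S.c s.2.2) s.2.1 / √(D : ℝ) * yy U ω.2 s.2.2)
      (fun _ => 0) s
  have h := hQ.hole n (S.lev D n) (fs D n I Ts)
    (fun ω => ∑ i, S.lam (S.c i) * yy U ω.2 i ^ 2 / 2 + S.SF (pull Sum.inr ω)) u hn
    ((hH.ctz S D n y).2 hl) (fun e e' σ he => ?_) fun s _ _ _ _ _ => rfl
  swap
  · have : e ∘ Sum.inr = e' ∘ Sum.inr := funext fun s => he _ (by simp [fs])
    simp only [pull, this]
  have e : (fun ω : Cf (Sg D n I Ts) I => ∑ i, S.lam (S.c i) * yy U ω.2 i ^ 2 / 2 +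
      S.SF (pull Sum.inr ω) + ∑ s ∈ fs D n I Ts, spin (ω.1 s) * u s ω) = S.Z D n y U := by
    funext ω
    rw [fs, sum_image fun _ _ _ _ h => Sum.inl_injective h, Sys.Z]
    simp only [u, Sum.elim_inl]
    ring
  rw [e] at h
  refine ⟨h.1, h.2.trans (xle hA hR hn _ fun ω => add_le_add_right ?_ _)⟩
  rw [fs, sum_image fun _ _ _ _ h => Sum.inl_injective h, ← hO.sq U ω.2, sum_mul, sum_div,
    Fintype.sum_prod_type]
  simp only [u, Sum.elim_inl, sum_const, card_univ, Fintype.card_fin, nsmul_eq_mul]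
  rw [Fintype.sum_prod_type, sum_comm, mul_sum]
  refine sum_le_sum fun i _ => ?_
  have h1 := hv (S.c i)
  rw [← Fin.sum_univ_eq_sum_range (fun l => y (S.c i) l ^ 2)] at h1
  have h2 : (D : ℝ) * (D : ℝ)⁻¹ ≤ 1 := mul_inv_le_one
  have e2 : (D : ℝ) * ∑ l : Fin n, (y (S.c i) l / √(D : ℝ) * yy U ω.2 i) ^ 2 / 2 =
      (D * (D : ℝ)⁻¹) * (yy U ω.2 i ^ 2 * (∑ l : Fin n, y (S.c i) l ^ 2) / 2) := by
    rw [mul_assoc, mul_sum, mul_sum, sum_div, mul_sum, mul_sum]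
    refine sum_congr rfl fun l _ => ?_
    rw [mul_pow, div_pow, sq_sqrt (Nat.cast_nonneg D)]
    ring
  rw [e2]
  refine (mul_le_of_le_one_left (by positivity) h2).trans ?_
  gcongr

lemma th0 (hR : RApi) (ν : Measure (OG I)) {n : ℕ} (hn : 1 ≤ n) (lev : T → ℕ) (Λ : I → ℝ) :
    TH0 ν n Λ = TH ν n lev fun U ω => ∑ i, Λ i * yy U ω.2 i ^ 2 / 2 + 0 := by
  rw [TH0, TH]
  congr 3
  funext U
  simp only [add_zero]
  rw [hR.empty n lev (fun σ => ∑ i, Λ i * yy U σ i ^ 2 / 2) hn, F0]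

lemma ct0 (hO : OApi) (Λ : I → ℝ) :
    Ct fun U (ω : Cf T I) => ∑ i, Λ i * yy U ω.2 i ^ 2 / 2 + 0 := fun ω => by
  have := hO.cont ω.2
  fun_prop

lemma xv_zero (hR : RApi) {n : ℕ} (hn : 1 ≤ n) (lev : T → ℕ) :
    Xv n lev (fun _ : Cf T I => 0) = 0 := by
  rw [hR.empty n lev (fun _ => 0) hn]
  simp

lemma th_zero (hR : RApi) {ν : Measure (OG I)} (hν : Haar ν) {n : ℕ} (hn : 1 ≤ n) (lev : T → ℕ) :
    TH ν n lev (fun _ _ => 0) = 0 := by
  have := hν.prob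
  simp [TH, xv_zero hR hn]

end Endm

open Endm in
theorem endStmt (hA : AApi) (hO : OApi) (hR : RApi) (hQ : QApi) (hH : HApi) (hB : BrStmt) :
    EndStmt := by
  intro κ I _ _ _ _ ν c lam D n y v hν hn hv
  have hl0 : LevOk n (s0 c lam).levs := fun s => s.elim
  refine ⟨?_, ?_, fun Γ hΓ => ?_, fun R _ _ lv hlv => ⟨?_, fun a τ hτ => ?_⟩⟩
  · rw [th0 hR ν hn ((s0 c lam).lev D n), Sys.T, ← add_zero (TH _ _ _ (Sys.Z _ _ _ _))]
    exact hH.ptw _ _ 0 hν hn (ct0 hO _) (hH.ctz _ D n y).1 fun U =>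
      (fields hA hO hR hQ hH (s0 c lam) D n y v hn hl0 hv U).1.trans (add_zero _).ge
  · rw [th0 hR ν hn ((s0 c lam).lev D n)]
    exact hH.ptw _ _ _ hν hn (hH.ctz _ D n y).1 (ct0 hO _) fun U =>
      (fields hA hO hR hQ hH (s0 c lam) D n y v hn hl0 hv U).2
  · have key : ∀ (U : OG I) σ, |∑ i, (lam ∘ c) i * yy U σ i ^ 2 / 2 + 0| ≤
        Γ * Fintype.card I / 2 := fun U σ => by
      rw [add_zero, ← hO.sq U σ, mul_sum, sum_div]
      refine (abs_sum_le_sum_abs _ _).trans (sum_le_sum fun i _ => ?_)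
      rw [abs_div, abs_mul, abs_two, abs_sq]
      gcongr
      exact hΓ _
    have h1 := hH.le (fun _ : Empty => 0) (Γ * Fintype.card I / 2) hν hn (ct0 hO (lam ∘ c))
      (Z' := fun _ _ => 0) (fun _ => continuous_const) fun U ω => by
        linarith [(abs_le.1 (key U ω.2)).2]
    have h2 := hH.le (fun _ : Empty => 0) (Γ * Fintype.card I / 2) hν hn (Z := fun _ _ => 0)
      (fun _ => continuous_const) (ct0 hO (lam ∘ c)) fun U ω => by
        linarith [(abs_le.1 (key U ω.2)).1]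
    rw [← th0 hR ν hn, th_zero hR hν hn] at h1 h2
    exact abs_le.2 ⟨by linarith, by linarith⟩
  · rw [th0 hR ν hn ((sF c lam lv fun _ => 0).lev D n), Sys.T,
      ← add_zero (TH _ _ _ (Sys.Z _ _ _ _))]
    refine hH.ptw _ _ 0 hν hn (ct0 hO _) (hH.ctz _ D n y).1 fun U => le_trans (le_of_eq ?_)
      ((fields hA hO hR hQ hH (sF c lam lv fun _ => 0) D n y v hn (fun s => hlv _) hv U).1.trans
        (add_zero _).ge)
    simp [sF, siteF, sg]
  · have h1 := hH.ptw ((sF c lam lv a).lev D n) (fun _ : Empty => 0) (Fintype.card I *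
      ((lam τ + v) / 2 + PD n (univ.val.map (fun r => (lv r, a r))))) hν hn
      (hH.ctz (sF c lam lv a) D n y).1 (Z' := fun _ _ => 0) (fun _ => continuous_const)
      fun U => ?_
    · rwa [th_zero hR hν hn, zero_add] at h1
    have h2 := (fields hA hO hR hQ hH (sF c lam lv a) D n y v hn (fun s => hlv _) hv U).2
    have h3 := xle hA hR hn ((sF c lam lv a).lev D n)
      (Z := fun ω => ∑ i, (sF c lam lv a).lam ((sF c lam lv a).c i) * yy U ω.2 i ^ 2 / 2 +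
        (sF c lam lv a).SF (pull Sum.inr ω)) (Z' := fun ω => siteF a (pull Sum.inr ω))
      (c := lam τ * Fintype.card I / 2) fun ω => by
        simp only [sF, hτ]
        rw [← hO.sq U ω.2, mul_sum, sum_div, add_comm]
    rw [(hR.emb n (fun s : I × R => lv s.2) ((sF c lam lv a).lev D n) Sum.inr
      ⟨Sum.inr_injective, fun _ => rfl⟩ (siteF a)).1, (hB n R lv a hn hlv).2 I] at h3
    rw [xv_zero hR hn]
    linarith

end Vale.Agent.P166
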