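import Vale.Agent.P166.Stm

/-! P166: the response of a near maximiser is read off from the top path. -/

namespace Vale.Agent.P166

open MeasureTheory Finset Real Vale.Agent.P157

noncomputable section

namespace Fam

theorem abs_le_of_sq {x w t : ℝ} (ht : 0 < t) (h : x ^ 2 ≤ w) : |x| ≤ t / 2 + w / (2 * t) := by
  have h1 : 0 ≤ (|x| - t) ^ 2 := sq_nonneg _
  have h2 : |x| ^ 2 = x ^ 2 := sq_abs x
  rw [← sub_nonneg]
  have e : t / 2 + w / (2 * t) - |x| = (t ^ 2 + w - 2 * t * |x|) / (2 * t) := by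
    field_simp
  rw [e]
  refine div_nonneg ?_ (by positivity)
  nlinarith

section
variable {T I : Type} [Fintype T] [DecidableEq T] [Fintype I] [DecidableEq I]

theorem rA_cont (hO : OApi) (A : Finset I) (σ σ' : I → Bool) :
    Continuous fun U : OG I => rA A U σ σ' := by
  unfold rA
  exact (continuous_finset_sum _ fun i _ => (hO.cont σ i).mul (hO.cont σ' i)).div_const _

/-- the response of one class -/
def lc (ν : Measure (OG I)) (n : ℕ) (lev : T → ℕ) (Z : OG I → Cf T I → ℝ) (A : Finset I) (l : ℕ) :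
    ℝ :=
  EH ν n lev Z (fun U ω => rA A U ω.2 ω.2) -
    (1 / (n : ℝ)) * ∑ d ∈ Icc 1 l, EW ν n lev Z d (fun U ω ω' => rA A U ω.2 ω'.2)

theorem lc_near (hO : OApi) {ν : Measure (OG I)} {n : ℕ} {lev : T → ℕ} {Z : OG I → Cf T I → ℝ}
    (h1 : HOne ν n lev Z) {A : Finset I} {p : ℕ → ℝ} {t : ℝ} (ht : 0 < t)
    (hC : ConcH ν n lev Z A p (t ^ 2)) {l : ℕ} (hl : l < n) :
    |lc ν n lev Z A l - ell n p l| ≤ 2 * t := by
  have hn : (0 : ℝ) < n := by exact_mod_cast (by omega : 0 < n)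
  have c1 : Ct (fun U (ω : Cf T I) => rA A U ω.2 ω.2) := fun ω => rA_cont hO A _ _
  have c2 : Ct2 (fun U (ω ω' : Cf T I) => rA A U ω.2 ω'.2) := fun ω ω' => rA_cont hO A _ _
  have e1 : EH ν n lev Z (fun U ω => rA A U ω.2 ω.2 - p 0) =
      EH ν n lev Z (fun U ω => rA A U ω.2 ω.2) - p 0 := by
    have h := h1.lin _ (fun _ _ => p 0) 1 (-1) c1 (fun _ => continuous_const)
    rw [h1.const] at h
    have e : (fun (U : OG I) (ω : Cf T I) => rA A U ω.2 ω.2 - p 0) =
        fun U ω => 1 * rA A U ω.2 ω.2 + (-1) * p 0 := by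
      funext U ω; ring
    rw [e, h]; ring
  have e2 : ∀ d, d ≤ n → EW ν n lev Z d (fun U ω ω' => rA A U ω.2 ω'.2 - p d) =
      EW ν n lev Z d (fun U ω ω' => rA A U ω.2 ω'.2) - p d := by
    intro d hd
    have h := h1.lin2 d hd _ (fun _ _ _ => p d) 1 (-1) c2 (fun _ _ => continuous_const)
    rw [h1.const2 d hd] at h
    have e : (fun (U : OG I) (ω ω' : Cf T I) => rA A U ω.2 ω'.2 - p d) =
        fun U ω ω' => 1 * rA A U ω.2 ω'.2 + (-1) * p d := by
      funext U ω ω'; ring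
    rw [e, h]; ring
  have b1 : |EH ν n lev Z (fun U ω => rA A U ω.2 ω.2) - p 0| ≤ t := by
    have h := h1.sq (fun U ω => rA A U ω.2 ω.2 - p 0) (fun ω => (c1 ω).sub continuous_const)
    rw [e1] at h
    exact abs_le_of_sq_le_sq' (h.trans hC.1) ht.le |> abs_le.2
  have s2 : ∀ d, d ≤ n → (EW ν n lev Z d (fun U ω ω' => rA A U ω.2 ω'.2) - p d) ^ 2 ≤
      EW ν n lev Z d (fun U ω ω' => (rA A U ω.2 ω'.2 - p d) ^ 2) := by
    intro d hd
    have h := h1.sq2 d hd (fun U ω ω' => rA A U ω.2 ω'.2 - p d)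
      (fun ω ω' => (c2 ω ω').sub continuous_const)
    rwa [e2 d hd] at h
  have b2 : |(1 / (n : ℝ)) * ∑ d ∈ Icc 1 l,
      (EW ν n lev Z d (fun U ω ω' => rA A U ω.2 ω'.2) - p d)| ≤ t := by
    have hs : Icc 1 l ⊆ Ico 1 n := by
      intro d hd
      simp only [mem_Icc, mem_Ico] at hd ⊢
      omega
    have k1 : |∑ d ∈ Icc 1 l, (EW ν n lev Z d (fun U ω ω' => rA A U ω.2 ω'.2) - p d)| ≤
        ∑ d ∈ Ico 1 n, (t / 2 +
          EW ν n lev Z d (fun U ω ω' => (rA A U ω.2 ω'.2 - p d) ^ 2) / (2 * t)) := by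
      refine (abs_sum_le_sum_abs _ _).trans ((sum_le_sum_of_subset_of_nonneg hs
        (fun _ _ _ => abs_nonneg _)).trans (sum_le_sum fun d hd => ?_))
      exact abs_le_of_sq ht (s2 d (by simp only [mem_Ico] at hd; omega))
    rw [sum_add_distrib, sum_const, Nat.card_Ico, nsmul_eq_mul, ← sum_div] at k1
    have k2 : ((n - 1 : ℕ) : ℝ) ≤ n := by exact_mod_cast Nat.sub_le n 1
    have k3 := hC.2
    rw [abs_mul, abs_of_pos (by positivity : (0 : ℝ) < 1 / n)]
    set W := ∑ d ∈ Ico 1 n, EW ν n lev Z d (fun U ω ω' => (rA A U ω.2 ω'.2 - p d) ^ 2)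
    have k4 : (1 / (n : ℝ)) * (((n - 1 : ℕ) : ℝ) * (t / 2)) ≤ t / 2 := by
      rw [← mul_assoc]
      refine mul_le_of_le_one_left (by positivity) ?_
      rw [one_div, inv_mul_le_iff₀ hn]
      linarith
    have k5 : (1 / (n : ℝ)) * (W / (2 * t)) ≤ t / 2 := by
      rw [← mul_div_assoc, div_le_iff₀ (by positivity)]
      nlinarith
    calc _ ≤ (1 / (n : ℝ)) * (((n - 1 : ℕ) : ℝ) * (t / 2) + W / (2 * t)) :=
          mul_le_mul_of_nonneg_left k1 (by positivity)
      _ ≤ t := by rw [mul_add]; linarith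
  have e3 : lc ν n lev Z A l - ell n p l = (EH ν n lev Z (fun U ω => rA A U ω.2 ω.2) - p 0) -
      (1 / (n : ℝ)) * ∑ d ∈ Icc 1 l, (EW ν n lev Z d (fun U ω ω' => rA A U ω.2 ω'.2) - p d) := by
    rw [sum_sub_distrib]
    unfold lc ell
    ring
  rw [e3]
  exact (abs_sub _ _).trans (by linarith)

end

section
variable {κ I Ts : Type} [Fintype κ] [DecidableEq κ] [Fintype I] [DecidableEq I] [Fintype Ts]
  [DecidableEq Ts]

omit [Fintype Ts] [DecidableEq Ts] in
theorem al_rA (S : Sys κ I Ts) (U : OG I) (σ σ' : I → Bool) :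
    ∑ k, S.al k * rA (S.cls k) U σ σ' = (∑ i, yy U σ i * yy U σ' i) / (Fintype.card I : ℝ) := by
  rw [← sum_fiberwise (s := univ) (g := S.c) (f := fun i => yy U σ i * yy U σ' i), sum_div]
  refine sum_congr rfl fun k _ => ?_
  unfold Sys.al rA
  rcases (S.cls k).eq_empty_or_nonempty with h | h
  · have h' : univ.filter (fun i => S.c i = k) = ∅ := h
    rw [h, h']
    simp
  · have hc : ((S.cls k).card : ℝ) ≠ 0 := by exact_mod_cast h.card_pos.ne'
    have h' : univ.filter (fun i => S.c i = k) = S.cls k := rfl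
    rw [h']
    field_simp

omit [DecidableEq I] [Fintype Ts] [DecidableEq Ts] in
theorem al_sum (S : Sys κ I Ts) (hI : 0 < Fintype.card I) : ∑ k, S.al k = 1 := by
  unfold Sys.al Sys.cls
  rw [← sum_div, div_eq_one_iff_eq (by exact_mod_cast hI.ne')]
  have h := card_eq_sum_card_fiberwise (s := (univ : Finset I)) (t := (univ : Finset κ))
    (f := S.c) (fun _ _ => mem_coe.2 (mem_univ _))
  rw [card_univ] at h
  exact_mod_cast h.symm

theorem lt_eq (hO : OApi) {ν : Measure (OG I)} {S : Sys κ I Ts} {D n : ℕ} {y : κ → ℕ → ℝ}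
    (h1 : HOne ν n (S.lev D n) (S.Z D n y)) (hI : 0 < Fintype.card I) {l : ℕ} (hl : l < n) :
    S.lt ν D n y l = ∑ k, S.al k * lc ν n (S.lev D n) (S.Z D n y) (S.cls k) l := by
  have hI' : (Fintype.card I : ℝ) ≠ 0 := by exact_mod_cast hI.ne'
  have e1 : ∑ k, S.al k * EH ν n (S.lev D n) (S.Z D n y) (fun U ω => rA (S.cls k) U ω.2 ω.2) = 1 := by
    have h := h1.sum univ (fun k U ω => S.al k * rA (S.cls k) U ω.2 ω.2)
      (fun k _ ω => continuous_const.mul (rA_cont hO _ _ _))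
    have e : (fun (U : OG I) (ω : Cf (Sg D n I Ts) I) => ∑ k, S.al k * rA (S.cls k) U ω.2 ω.2) =
        fun _ _ => 1 := by
      funext U ω
      rw [al_rA, div_eq_one_iff_eq hI', ← hO.sq U ω.2]
      exact sum_congr rfl fun i _ => by ring
    rw [e, h1.const] at h
    rw [h]
    refine sum_congr rfl fun k _ => ?_
    have h2 := h1.lin (fun U ω => rA (S.cls k) U ω.2 ω.2) (fun _ _ => 0) (S.al k) 0
      (fun ω => rA_cont hO _ _ _) (fun _ => continuous_const)
    simp only [mul_zero, add_zero, zero_mul] at h2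
    exact h2.symm
  have e2 : ∀ d ∈ Icc 1 l, EW ν n (S.lev D n) (S.Z D n y) d
      (fun _ ω ω' => (∑ i, spin (ω.2 i) * spin (ω'.2 i)) / (Fintype.card I : ℝ)) =
      ∑ k, S.al k * EW ν n (S.lev D n) (S.Z D n y) d (fun U ω ω' => rA (S.cls k) U ω.2 ω'.2) := by
    intro d hd
    have hd' : d ≤ n := by simp only [mem_Icc] at hd; omega
    have h := h1.sum2 d hd' univ (fun k U ω ω' => S.al k * rA (S.cls k) U ω.2 ω'.2)
      (fun k _ ω ω' => continuous_const.mul (rA_cont hO _ _ _))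
    have e : (fun (U : OG I) (ω ω' : Cf (Sg D n I Ts) I) =>
        ∑ k, S.al k * rA (S.cls k) U ω.2 ω'.2) =
        fun _ ω ω' => (∑ i, spin (ω.2 i) * spin (ω'.2 i)) / (Fintype.card I : ℝ) := by
      funext U ω ω'
      rw [al_rA, hO.dot]
    rw [e] at h
    rw [h]
    refine sum_congr rfl fun k _ => ?_
    have h2 := h1.lin2 d hd' (fun U ω ω' => rA (S.cls k) U ω.2 ω'.2) (fun _ _ _ => 0) (S.al k) 0
      (fun ω ω' => rA_cont hO _ _ _) (fun _ _ => continuous_const)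
    simp only [mul_zero, add_zero, zero_mul] at h2
    exact h2
  unfold Sys.lt ltot lc
  rw [sum_congr rfl e2, sum_comm]
  simp only [mul_sub, sum_sub_distrib]
  rw [e1, mul_sum]
  congr 1
  refine sum_congr rfl fun k _ => ?_
  rw [← mul_sum]
  ring

omit [Fintype κ] [Fintype Ts] [DecidableEq Ts] in
theorem up_card (S : Sys κ I Ts) {i : I} {τ : κ} (hi : S.c i ≠ τ) :
    ((S.up {i} τ).cls τ).card = (S.cls τ).card + 1 := by
  have e : (S.up {i} τ).cls τ = insert i (S.cls τ) := by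
    ext j
    simp only [Sys.cls, Sys.up, mem_filter, mem_univ, true_and, mem_singleton, mem_insert]
    by_cases h : j = i
    · simp [h]
    · simp [h]
  rw [e, card_insert_of_notMem]
  simp only [Sys.cls, mem_filter, mem_univ, true_and]
  exact hi

omit [Fintype κ] [DecidableEq κ] in
theorem vb_of_box {n : ℕ} {lam v : ℝ} {y : κ → ℕ → ℝ} (hy : Box n 0 (4 * lam) y)
    (hv : 16 * n * lam ^ 2 ≤ v) : Vb n y v := by
  intro k
  refine le_trans ?_ hv
  calc ∑ l ∈ range n, y k l ^ 2 ≤ ∑ l ∈ range n, (4 * lam) ^ 2 :=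
        sum_le_sum fun l hl => by
          obtain ⟨a, b⟩ := hy k l (mem_range.1 hl)
          exact pow_le_pow_left₀ a b 2
    _ = 16 * n * lam ^ 2 := by rw [sum_const, card_range, nsmul_eq_mul]; ring

omit [Fintype κ] [DecidableEq κ] in
theorem box_mono {n : ℕ} {lam : ℝ} {y : κ → ℕ → ℝ} (hl : 0 < lam) (hy : Box n lam (3 * lam) y) :
    Box n 0 (4 * lam) y := fun k l h => ⟨by linarith [(hy k l h).1], by linarith [(hy k l h).2]⟩

theorem up_nm (hNear : NearStmt) {ν : Measure (OG I)} {S : Sys κ I Ts} {D n Nr : ℕ}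
    {y : κ → ℕ → ℝ} {τ : κ} {i : I} {η lam v Γ C0 : ℝ} (hν : Haar ν) (hn : 1 ≤ n)
    (hlev : LevOk n S.levs) (hη : 0 < η) (hl : 0 < lam) (hv : 16 * n * lam ^ 2 ≤ v)
    (hΓ : ∀ k, |S.lam k| ≤ Γ) (hi : S.c i ≠ τ) (hg : S.lam (S.c i) + v ≤ S.lam τ)
    (hI : Fintype.card I ≤ Nr) (hτ : η * Nr ≤ (S.cls τ).card) (hNM : NM n Nr lam (S.T ν D n) y C0) :
    NM n Nr lam ((S.up {i} τ).T ν D n) y (C0 + (2 * Γ + v) / (2 * η)) := by
  refine ⟨hNM.1, fun y' hy' => ?_⟩
  have hB : ∀ j ∈ ({i} : Finset I), S.c j ≠ τ → S.lam (S.c j) + v ≤ S.lam τ := by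
    intro j hj _
    rw [mem_singleton.1 hj]
    exact hg
  have a1 := (hNear κ I Ts ν S D n y' {i} τ v Γ hν hn hlev (vb_of_box hy' hv) hΓ hB).2
  have a2 := (hNear κ I Ts ν S D n y {i} τ v Γ hν hn hlev
    (vb_of_box (box_mono hl hNM.1) hv) hΓ hB).1
  have a3 := hNM.2 y' hy'
  have hΓ0 : 0 ≤ Γ := (abs_nonneg _).trans (hΓ τ)
  have hv0 : 0 ≤ v := le_trans (by positivity) hv
  have a4 : (({i} : Finset I).card : ℝ) * (2 * Γ + v) * Fintype.card I /
      (2 * ((S.up {i} τ).cls τ).card) ≤ (2 * Γ + v) / (2 * η) := by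
    rw [up_card S hi, card_singleton]
    have hI' : (Fintype.card I : ℝ) ≤ Nr := by exact_mod_cast hI
    have h0 : (0 : ℝ) ≤ (S.cls τ).card := Nat.cast_nonneg _
    push_cast
    rw [div_le_div_iff₀ (by positivity) (by positivity)]
    have h2 : η * Fintype.card I ≤ (S.cls τ).card + 1 := by nlinarith
    have h3 : 0 ≤ 2 * Γ + v := by positivity
    nlinarith [mul_le_mul_of_nonneg_left h2 h3]
  linarith

end

end Fam

open Fam in
theorem famStmt (hO : OApi) (hH : HApi) (hT : TApi) (hGd : GdStmt) (hNear : NearStmt)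
    (hIso : IsoStmt) (hRel : RelStmt) : FamStmt := by
  intro η g0 Γ ε hη hg0 hε
  obtain ⟨e0, v1, he0, hv1, hR⟩ := hRel η g0 Γ (ε / 2) hη hg0 (by positivity)
  obtain ⟨n0, hG⟩ := hGd η (min e0 ((ε / 4) ^ 2)) hη (lt_min he0 (by positivity))
  refine ⟨min v1 g0, lt_min hv1 hg0, n0, fun n hn0 hn lam C0 hl hl1 hv hC0 => ?_⟩
  obtain ⟨N1, hR⟩ := hR n hn
  have hvp : 0 < min v1 g0 := lt_min hv1 hg0
  obtain ⟨N2, hG⟩ := hG n hn0 hn lam (C0 + (2 * |Γ| + min v1 g0) / (2 * η) + 1) hl hl1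
    (by positivity)
  refine ⟨max N2 (⌈(N1 : ℝ) / η⌉₊ + 1), fun Nr hNr => ?_⟩
  obtain ⟨δ, hδ, hR⟩ := hR Nr
  obtain ⟨D1, hG⟩ := hG Nr (le_trans (le_max_left _ _) hNr)
  obtain ⟨D2, hI⟩ := hIso n Nr 4 δ hn hδ
  refine ⟨max D1 D2, fun D hD κ I Ts _ _ _ _ _ _ ν S y τ p M hν hlev hcard hReg hNM hp hp0 hM hPin
    l hln => ?_⟩
  have hG := hG D (le_trans (le_max_left _ _) hD)
  have hI := hI D (le_trans (le_max_right _ _) hD)
  have hNr2 : ⌈(N1 : ℝ) / η⌉₊ + 1 ≤ Nr := le_trans (le_max_right _ _) hNr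
  have hNr3 : (N1 : ℝ) / η + 1 ≤ Nr := by
    have h1 := Nat.le_ceil ((N1 : ℝ) / η)
    have h2 : ((⌈(N1 : ℝ) / η⌉₊ + 1 : ℕ) : ℝ) ≤ Nr := by exact_mod_cast hNr2
    push_cast at h2
    linarith
  have hN1 : (N1 : ℝ) + η ≤ η * Nr := by
    have h := mul_le_mul_of_nonneg_left hNr3 hη.le
    rwa [mul_add, mul_one, mul_div_cancel₀ _ hη.ne'] at h
  have hcl : ∀ k, ((S.cls k).card : ℝ) ≤ Fintype.card I := fun k => by
    exact_mod_cast card_le_univ _
  have hIN : (N1 : ℝ) + η ≤ Fintype.card I := hN1.trans (hReg.top.trans (hcl τ))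
  have hI0 : 0 < Fintype.card I := by
    have h : (0 : ℝ) < Fintype.card I := lt_of_lt_of_le (by positivity) hIN
    exact_mod_cast h
  have hI1 : N1 ≤ Fintype.card I := by
    have h : (N1 : ℝ) ≤ Fintype.card I := by linarith
    exact_mod_cast h
  have hΓ0 : 0 ≤ Γ := (abs_nonneg _).trans (hReg.bd τ)
  have hΓa : |Γ| = Γ := abs_of_nonneg hΓ0
  rw [hΓa] at hG
  have hc1 : 0 ≤ (2 * Γ + min v1 g0) / (2 * η) := by positivity
  have hNM' : NM n Nr lam (S.T ν D n) y (C0 + (2 * Γ + min v1 g0) / (2 * η) + 1) :=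
    ⟨hNM.1, fun y' hy' => by linarith [hNM.2 y' hy']⟩
  have hy4 : ∀ k l, l < n → |y k l| ≤ 4 := fun k l h => by
    obtain ⟨a, b⟩ := hNM.1 k l h
    rw [abs_le]
    constructor <;> linarith
  have hcard' : (Fintype.card I : ℝ) ≤ Nr := by exact_mod_cast hcard
  have hηI : η * Fintype.card I ≤ η * Nr := mul_le_mul_of_nonneg_left hcard' hη.le
  have h1 : HOne ν n (S.lev D n) (S.Z D n y) := hH.one _ hν hn (hH.ctz S D n y).1
  have key : ∀ k, (S.cls k).Nonempty → |lc ν n (S.lev D n) (S.Z D n y) (S.cls k) l -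
      ell n (fp n (ph (S.lam τ - S.lam k)) p) l| ≤ ε := by
    intro k hk
    by_cases hkτ : k = τ
    · subst hkτ
      have hc := (hG κ I Ts ν S y k hν hlev hcard hReg.top hNM').2 p M hp hp0 (by linarith) hPin
      have hc' : ConcH ν n (S.lev D n) (S.Z D n y) (S.cls k) p ((ε / 4) ^ 2) :=
        ⟨hc.1.trans (min_le_right _ _), hc.2.trans (min_le_right _ _)⟩
      have b := lc_near hO h1 (by positivity) hc' hln
      have e : ell n (fp n (ph (S.lam k - S.lam k)) p) l = ell n p l := by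
        have e0 : ph (S.lam k - S.lam k) = fun x => x := by
          funext x
          simp [ph]
        rw [e0]
        unfold ell
        rw [hT.fp_id hp 0 (Nat.zero_le _), sum_congr rfl fun d hd => hT.fp_id hp d
          (by simp only [mem_Icc] at hd; omega)]
      rw [e]
      linarith
    · obtain ⟨i, hi⟩ := hk
      have hik : S.c i = k := (mem_filter.1 hi).2
      have hiτ : S.c i ≠ τ := hik ▸ hkτ
      have hbig := hReg.big k ⟨i, hi⟩
      have hgap := hReg.gap k hkτ ⟨i, hi⟩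
      obtain ⟨⟨q, hq, hq0, hqP⟩, hG2⟩ := hG κ I Ts ν S y k hν hlev hcard hbig hNM'
      have hc := hG2 q _ hq hq0 (by rw [sub_self, abs_zero]; positivity) hqP
      have hc' : ConcH ν n (S.lev D n) (S.Z D n y) (S.cls k) q ((ε / 4) ^ 2) :=
        ⟨hc.1.trans (min_le_right _ _), hc.2.trans (min_le_right _ _)⟩
      have b := lc_near hO h1 (by positivity) hc' hln
      have hup := up_nm hNear (D := D) hν hn hlev hη hl hv hReg.bd hiτ
        (by rw [hik]; linarith [min_le_right v1 g0]) hcard hReg.top hNM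
      have hup' : NM n Nr lam ((S.up {i} τ).T ν D n) y (C0 + (2 * Γ + min v1 g0) / (2 * η) + 1) :=
        ⟨hup.1, fun y' hy' => by linarith [hup.2 y' hy']⟩
      have hcu : (((S.up {i} τ).cls τ).card : ℝ) = (S.cls τ).card + 1 := by
        rw [up_card S hiτ]; push_cast; ring
      have hc2 := (hG κ I Ts ν (S.up {i} τ) y τ hν hlev hcard
        (by rw [hcu]; linarith [hReg.top]) hup').2 p M hp hp0
        (by rw [hcu, abs_le]; rw [abs_le] at hM; constructor <;> linarith [hM.1, hM.2]) hPin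
      have hvb : Vb n y v1 := fun k' =>
        (vb_of_box (box_mono hl hNM.1) hv k').trans (min_le_left _ _)
      have b2 := hR κ I Ts ν S D y τ i p q hν hlev hI1 hcard hiτ (by rw [hik]; linarith)
        (by linarith [hReg.top]) (by rw [hik]; exact hgap) hReg.bd hvb (hI κ I Ts S y hcard hy4)
        (hI κ I Ts (S.up {i} τ) y hcard hy4) hp hq hp0 hq0
        (by rw [hik]; exact ⟨hc.1.trans (min_le_left _ _), hc.2.trans (min_le_left _ _)⟩)
        ⟨hc2.1.trans (min_le_left _ _), hc2.2.trans (min_le_left _ _)⟩ l hln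
      rw [hik] at b2
      exact (abs_sub_le _ (ell n q l) _).trans (by linarith)
  have e : ell n (fp n (Xi S.al S.lam τ) p) l =
      ∑ k, S.al k * ell n (fp n (ph (S.lam τ - S.lam k)) p) l := by
    rw [← hT.ell_sum]
    congr 1
    funext d
    exact hT.fp_sum univ n (fun k => ph (S.lam τ - S.lam k)) S.al p d
  rw [lt_eq hO h1 hI0 hln, e, ← sum_sub_distrib]
  refine (abs_sum_le_sum_abs _ _).trans ?_
  calc ∑ k, |S.al k * lc ν n (S.lev D n) (S.Z D n y) (S.cls k) l -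
        S.al k * ell n (fp n (ph (S.lam τ - S.lam k)) p) l| ≤ ∑ k, S.al k * ε := by
        refine sum_le_sum fun k _ => ?_
        have h0 : 0 ≤ S.al k := by unfold Sys.al; positivity
        rw [← mul_sub, abs_mul, abs_of_nonneg h0]
        rcases (S.cls k).eq_empty_or_nonempty with h | h
        · have h2 : S.al k = 0 := by unfold Sys.al; rw [h]; simp
          rw [h2, zero_mul, zero_mul]
        · exact mul_le_mul_of_nonneg_left (key k h) h0
    _ = ε := by rw [← sum_mul, al_sum S hI0, one_mul]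

end

end Vale.Agent.P166
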