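import Vale.Agent.P166.Stm

namespace Vale.Agent.P166

open MeasureTheory Finset Real Filter Vale.Agent.P157

noncomputable section

namespace Fln

lemma spin_sq (b : Bool) : spin b ^ 2 = 1 := by cases b <;> simp [spin]

lemma spin_abs (b : Bool) : |spin b| = 1 := by cases b <;> simp [spin]

variable {κ I R Q : Type} [Fintype I] [DecidableEq I] [Fintype R] [DecidableEq R] [Fintype Q]

/-- the signs of the slots `g` -/
def AA (D n : ℕ) (I : Type) [Fintype I] {g : Q → R} (hg : Function.Injective g) :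
    Finset (Sg D n I (I × R)) :=
  univ.map ⟨fun x : I × Q => Sum.inr (x.1, g x.2), fun x y h => by
    have := Prod.ext_iff.1 (Sum.inr_injective h)
    exact Prod.ext this.1 (hg this.2)⟩

def uu (D n : ℕ) (δ : R → ℝ) (s : Sg D n I (I × R)) (ω : Cf (Sg D n I (I × R)) I) : ℝ :=
  Sum.elim (fun _ => 0) (fun p : I × R => δ p.2 * spin (ω.2 p.1)) s

omit [DecidableEq I] [Fintype R] [DecidableEq R] in
lemma sumA {D n : ℕ} {g : Q → R} (hg : Function.Injective g) (F : Sg D n I (I × R) → ℝ) :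
    ∑ s ∈ AA D n I hg, F s = ∑ i, ∑ q, F (Sum.inr (i, g q)) := by
  unfold AA
  rw [sum_map, Fintype.sum_prod_type]
  rfl

omit [DecidableEq R] in
lemma zadd {D n : ℕ} {g : Q → R} (hg : Function.Injective g) (c : I → κ) (lam : κ → ℝ)
    (lv : R → ℕ) {a a' : R → ℝ} (h : ∀ r, r ∉ Set.range g → a' r = a r) (y : κ → ℕ → ℝ) (U : OG I)
    (ω : Cf (Sg D n I (I × R)) I) : (sF c lam lv a').Z D n y U ω = (sF c lam lv a).Z D n y U ω +
      ∑ s ∈ AA D n I hg, spin (ω.1 s) * uu D n (a' - a) s ω := by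
  rw [sumA]
  unfold Sys.Z
  rw [add_assoc _ _ (∑ i, ∑ q, _)]
  congr 1
  show siteF a' _ = siteF a _ + _
  unfold siteF sg
  rw [← sum_add_distrib]
  refine sum_congr rfl fun i _ => ?_
  rw [Fintype.sum_of_injective g hg
    (fun q => spin (ω.1 (Sum.inr (i, g q))) * uu D n (a' - a) (Sum.inr (i, g q)) ω)
    (fun r => spin (ω.1 (Sum.inr (i, r))) * ((a' r - a r) * spin (ω.2 i)))
    (fun r hr => by rw [h r hr, sub_self, zero_mul, mul_zero]) (fun _ => rfl), sum_mul, sum_mul,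
    ← sum_add_distrib]
  refine sum_congr rfl fun r _ => ?_
  simp only [pull, Function.comp]
  ring

lemma idpZ {D n : ℕ} {g : Q → R} (hg : Function.Injective g) (c : I → κ) (lam : κ → ℝ)
    (lv : R → ℕ) {a : R → ℝ} (h : ∀ q, a (g q) = 0) (y : κ → ℕ → ℝ) (U : OG I) :
    Idp (AA D n I hg) ((sF c lam lv a).Z D n y U) := by
  intro e e' σ he
  unfold Sys.Z
  congr 1
  · congr 1
    refine sum_congr rfl fun s _ => ?_
    simp only [he (Sum.inl s) (by simp [AA])]
  · show siteF a _ = siteF a _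
    unfold siteF sg
    refine sum_congr rfl fun i _ => ?_
    congr 1
    refine sum_congr rfl fun r _ => ?_
    by_cases hr : r ∈ Set.range g
    · obtain ⟨q, rfl⟩ := hr
      rw [h, mul_zero, mul_zero]
    · simp only [pull, Function.comp]
      rw [he (Sum.inr (i, r)) (fun h1 => ?_)]
      obtain ⟨x, -, hx⟩ := mem_map.1 h1
      exact hr ⟨x.2, (Prod.ext_iff.1 (Sum.inr_injective hx)).2⟩

omit [Fintype I] [DecidableEq I] [Fintype R] [DecidableEq R] in
lemma idpu {D n : ℕ} (A : Finset (Sg D n I (I × R))) (δ : R → ℝ) (s : Sg D n I (I × R)) :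
    Idp A (uu D n δ s) := fun _ _ _ _ => rfl

variable {Ds n : ℕ}

def cc (W : ℕ → ℝ) (N Ds l : ℕ) : ℝ := √((W l - W (l + 1)) / (N * Ds : ℝ))

lemma cc_sq {W : ℕ → ℝ} (hW : Path n W) (N Ds : ℕ) {l : ℕ} (hl : l < n) :
    cc W N Ds l ^ 2 = (W l - W (l + 1)) / (N * Ds : ℝ) :=
  sq_sqrt (div_nonneg (sub_nonneg.2 (hW.1 l hl)) (by positivity))

omit [Fintype R] in
lemma act_on {f : Fin Ds × Fin n → R} (hf : Function.Injective f) (a : R → ℝ) (W : ℕ → ℝ)
    (N t : ℕ) (s : Fin Ds × Fin n) :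
    act a f W N t (f s) = a (f s) + if (s.1 : ℕ) < t then cc W N Ds s.2 else 0 := by
  unfold act
  rw [sum_eq_single s (fun s' _ h => if_neg fun h' => h (hf h'.1))
    (fun h => absurd (mem_univ _) h)]
  simp only [true_and]
  rfl

omit [Fintype R] in
lemma act_off {f : Fin Ds × Fin n → R} (a : R → ℝ) (W : ℕ → ℝ) (N t : ℕ) {r : R}
    (hr : r ∉ Set.range f) : act a f W N t r = a r := by
  unfold act
  rw [sum_eq_zero (fun s _ => if_neg fun h => hr ⟨s, h.1⟩), add_zero]

lemma tele (W : ℕ → ℝ) (n : ℕ) : ∑ l : Fin n, (W l - W (l + 1)) = W 0 - W n := by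
  rw [Fin.sum_univ_eq_sum_range (fun l => W l - W (l + 1)), sum_range_sub']

end Fln

open Fln in
theorem flnStmt (hA : AApi) (hR : RApi) (hQ : QApi) (hH : HApi) (hT : TApi) : FlnStmt := by
  intro κ I R _ _ _ _ _ _ ν D n Ds c lam lv a f W y t0 hν hn hlv hf ha hW
  have hlev := (hH.ctz (sF c lam lv a) D n y).2 fun s => hlv s.2
  have hole := fun U => hQ.hole n _ (AA D n I hf.1) _
    (uu D n (act a f W (Fintype.card I) t0 - a)) hn hlev (idpZ hf.1 c lam lv ha y U)
    (fun s _ => idpu _ _ s)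
  have e1 : ∀ U, (sF c lam lv (act a f W (Fintype.card I) t0)).Z D n y U = fun ω => _ :=
    fun U => funext (zadd hf.1 c lam lv (fun r hr => act_off a W _ t0 hr) y U)
  have c1 := (hH.ctz (sF c lam lv a) D n y).1
  have c2 := (hH.ctz (sF c lam lv (act a f W (Fintype.card I) t0)) D n y).1
  refine ⟨(hH.ptw _ _ 0 hν hn c1 c2 fun U => ?_).trans_eq (add_zero _),
    hH.ptw _ _ _ hν hn c2 c1 fun U => ?_⟩
  · rw [add_zero, e1]
    exact (hole U).1
  · rw [e1]
    refine (hole U).2.trans (hA.xle (hR.ok n _ hn).1 (fun ω => add_le_add le_rfl ?_) _ le_rfl _)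
    have h0 := (hT.nn hW 0 (Nat.zero_le _)).1
    rw [← sum_div, sumA]
    refine div_le_div_of_nonneg_right ?_ zero_le_two
    calc _ ≤ ∑ _i : I, ∑ q : Fin Ds × Fin n,
          (W q.2 - W (q.2 + 1)) / (Fintype.card I * Ds : ℝ) := by
          refine sum_le_sum fun i _ => sum_le_sum fun q _ => ?_
          rw [← cc_sq hW _ _ q.2.2]
          simp only [uu, Sum.elim_inr, Pi.sub_apply, act_on hf.1, add_sub_cancel_left, mul_pow,
            spin_sq, mul_one]
          split_ifs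
          · exact le_rfl
          · rw [zero_pow two_ne_zero]; exact sq_nonneg _
      _ = (Fintype.card I * Ds : ℝ) / (Fintype.card I * Ds : ℝ) * W 0 := by
          rw [Fintype.sum_prod_type]
          simp only [← sum_div, tele, hW.2, sub_zero, sum_const, card_univ, Fintype.card_fin,
            nsmul_eq_mul]
          ring
      _ ≤ W 0 := mul_le_of_le_one_left h0 (div_self_le_one _)

namespace Fln

variable {κ I R : Type} [Fintype I] [DecidableEq I] [Fintype R]
  [DecidableEq R] {Ds n : ℕ}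

lemma gm_eq (hH : HApi) {ν : Measure (OG I)} (hν : Haar ν) (hn : 1 ≤ n) (D : ℕ)
    (S : Sys κ I (I × R)) (y : κ → ℕ → ℝ) {g : Fin n → R} (hg : Function.Injective g)
    (hl : ∀ i l, S.levs (i, g l) = l) (δ : R → ℝ) (hI : (0 : ℝ) < Fintype.card I) :
    GmH ν n (S.lev D n) (S.Z D n y) (AA D n I hg) (fun s _ => uu D n δ s) (fun _ _ _ _ => 0) =
      ∑ l : Fin n, Fintype.card I * δ (g l) ^ 2 * S.lt ν D n y l / 2 := by
  have h1 := hH.one (S.lev D n) hν hn (hH.ctz S D n y).1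
  have ct : ∀ φ : Cf (Sg D n I (I × R)) I → Cf (Sg D n I (I × R)) I → ℝ,
      Ct2 (fun _ : OG I => φ) := fun φ _ _ => continuous_const
  unfold GmH
  rw [sumA, sum_comm]
  refine sum_congr rfl fun l _ => ?_
  have e1 : ∀ i, S.lev D n (Sum.inr (i, g l)) = l := fun i => hl i l
  have e2 : ∀ d ∈ Icc 1 (l : ℕ), ∑ i, EW ν n (S.lev D n) (S.Z D n y) d
      (fun _ ω ω' => δ (g l) * spin (ω.2 i) * (δ (g l) * spin (ω'.2 i))) =
      Fintype.card I * δ (g l) ^ 2 * EW ν n (S.lev D n) (S.Z D n y) d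
        (fun _ ω ω' => (∑ i, spin (ω.2 i) * spin (ω'.2 i)) / (Fintype.card I : ℝ)) := by
    intro d hd
    have hd' : d ≤ n := (mem_Icc.1 hd).2.trans l.2.le
    have a1 := h1.lin2 d hd' _ _ (Fintype.card I * δ (g l) ^ 2) 0
      (ct fun ω ω' => (∑ i, spin (ω.2 i) * spin (ω'.2 i)) / (Fintype.card I : ℝ)) (ct 0)
    rw [zero_mul, add_zero] at a1
    rw [← a1, ← h1.sum2 d hd' univ _ (fun i _ => ct _)]
    congr 1
    ext U ω ω'
    rw [zero_mul, add_zero, mul_div_assoc', mul_assoc, mul_div_cancel_left₀ _ hI.ne', mul_sum]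
    exact sum_congr rfl fun i _ => by ring
  simp only [uu, Sum.elim_inr, e1, mul_pow, spin_sq, mul_one, zero_add, h1.const]
  rw [← sum_div, sum_sub_distrib, ← mul_sum, sum_comm, sum_congr rfl e2, ← mul_sum, sum_const,
    card_univ, nsmul_eq_mul]
  unfold Sys.lt ltot
  ring

lemma step {C : ℝ} (hH : HApi) (hT : TApi) {ν : Measure (OG I)} {D : ℕ}
    (hG : ∀ (lev : Sg D n I (I × R) → ℕ) (A : Finset (Sg D n I (I × R)))
      (Z Z' : OG I → Cf (Sg D n I (I × R)) I → ℝ) u v (b : ℝ), Haar ν → 1 ≤ n → LevOk n lev →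
      b ≤ 1 → Ct Z → Ct Z' → (∀ s, Ct (u s)) → (∀ s s', Ct (v s s')) →
      (∀ U, Exq A (Z U) (Z' U) (fun s => u s U) (fun s s' => v s s' U) b) →
      |TH ν n lev Z' - TH ν n lev Z - GmH ν n lev Z A u v| ≤ C * b ^ 3)
    (c : I → κ) (lam : κ → ℝ) {lv : R → ℕ} {a : R → ℝ} {f : Fin Ds × Fin n → R} {W L : ℕ → ℝ}
    {Wb : ℝ} (y : κ → ℕ → ℝ) (hν : Haar ν) (hn : 1 ≤ n) (hN : 1 ≤ Fintype.card I)
    (hlv : LevOk n lv) (hf : Emb (fun s : Fin Ds × Fin n => (s.2 : ℕ)) lv f) (ha : ∀ s, a (f s) = 0)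
    (hW : Path n W) (hW0 : W 0 ≤ Wb) (hb : Fintype.card I * n * √Wb / √Ds ≤ 1) (t : ℕ)
    (ht : t < Ds)
    (hL : ∀ l, l < n → L l ≤ (sF c lam lv (act a f W (Fintype.card I) t)).lt ν D n y l) :
    (sF c lam lv (act a f W (Fintype.card I) t)).T ν D n y +
        ((∑ l ∈ range n, (W l - W (l + 1)) * L l / 2) / Ds -
          C * (Fintype.card I * n * √Wb / √Ds) ^ 3) ≤
      (sF c lam lv (act a f W (Fintype.card I) (t + 1))).T ν D n y := by
  have hI : (1 : ℝ) ≤ Fintype.card I := by exact_mod_cast hN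
  have hD : (0 : ℝ) < Ds := by exact_mod_cast (by omega : 0 < Ds)
  have hg : Function.Injective fun l : Fin n => f (⟨t, ht⟩, l) := fun l l' h =>
    (Prod.ext_iff.1 (hf.1 h)).2
  have z0 : ∀ l, act a f W (Fintype.card I) t (f (⟨t, ht⟩, l)) = 0 := fun l => by
    rw [act_on hf.1, ha, if_neg (lt_irrefl _), add_zero]
  have z1 : ∀ l, (act a f W (Fintype.card I) (t + 1) - act a f W (Fintype.card I) t)
      (f (⟨t, ht⟩, l)) = cc W (Fintype.card I) Ds l := fun l => by
    rw [Pi.sub_apply, z0, act_on hf.1, ha, if_pos (Nat.lt_succ_self _), zero_add, sub_zero]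
  have z2 : ∀ r, r ∉ Set.range (fun l : Fin n => f (⟨t, ht⟩, l)) →
      act a f W (Fintype.card I) (t + 1) r = act a f W (Fintype.card I) t r := by
    intro r hr
    by_cases h : r ∈ Set.range f
    · obtain ⟨s, rfl⟩ := h
      have : (s.1 : ℕ) ≠ t := fun h1 => hr ⟨s.2, congrArg f (Prod.ext (Fin.ext h1.symm) rfl)⟩
      rw [act_on hf.1, act_on hf.1, if_congr (show (s.1 : ℕ) < t + 1 ↔ (s.1 : ℕ) < t by omega) rfl rfl]
    · rw [act_off _ _ _ _ h, act_off _ _ _ _ h]
  have hb0 : 0 ≤ Fintype.card I * n * √Wb / √Ds := by positivity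
  have key := hG _ (AA D n I hg) _ _
    (fun s _ => uu D n (act a f W (Fintype.card I) (t + 1) - act a f W (Fintype.card I) t) s)
    (fun _ _ _ _ => 0) _ hν hn
    ((hH.ctz (sF c lam lv (act a f W (Fintype.card I) t)) D n y).2 fun s => hlv s.2) hb
    (hH.ctz (sF c lam lv (act a f W (Fintype.card I) t)) D n y).1
    (hH.ctz (sF c lam lv (act a f W (Fintype.card I) (t + 1))) D n y).1
    (fun _ _ => continuous_const) (fun _ _ _ => continuous_const) (fun U =>
      ⟨idpZ hg c lam lv z0 y U, fun s _ => idpu _ _ s, fun _ _ _ _ _ _ _ _ => rfl, fun ω => by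
        rw [sumA]
        refine (abs_sum_le_sum_abs _ _).trans ((sum_le_card_nsmul _ _ (n * (√Wb / √Ds))
          fun i _ => (abs_sum_le_sum_abs _ _).trans ((sum_le_card_nsmul _ _ (√Wb / √Ds)
            fun l _ => ?_).trans (by simp))).trans (by
              rw [card_univ, nsmul_eq_mul]; exact le_of_eq (by ring)))
        simp only [uu, Sum.elim_inr, z1, abs_mul, spin_abs, one_mul, mul_one]
        unfold cc
        rw [abs_of_nonneg (sqrt_nonneg _), ← sqrt_div' _ hD.le]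
        have a1 := (hT.nn hW l l.2.le).2
        have a2 := (hT.nn hW (l + 1) l.2).1
        have a3 := hW.1 l l.2
        exact sqrt_le_sqrt (div_le_div₀ (by linarith) (by linarith) hD
          (le_mul_of_one_le_left hD.le hI)),
        fun ω => by simpa using sq_nonneg _, fun ω => by
          rw [zadd hg c lam lv z2 y U ω]
          simpa using pow_nonneg hb0 3⟩)
  rw [gm_eq hH hν hn D _ y hg (fun i l => hf.2 (⟨t, ht⟩, l)) _ (by linarith)] at key
  have a1 : (∑ l ∈ range n, (W l - W (l + 1)) * L l / 2) / Ds ≤ ∑ l : Fin n, Fintype.card I *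
      (act a f W (Fintype.card I) (t + 1) - act a f W (Fintype.card I) t) (f (⟨t, ht⟩, l)) ^ 2 *
        (sF c lam lv (act a f W (Fintype.card I) t)).lt ν D n y l / 2 := by
    rw [sum_div, ← Fin.sum_univ_eq_sum_range (fun l => (W l - W (l + 1)) * L l / 2 / Ds)]
    refine sum_le_sum fun l _ => ?_
    rw [z1, cc_sq hW _ _ l.2, show (Fintype.card I : ℝ) * ((W l - W (l + 1)) /
      (Fintype.card I * Ds)) = (W l - W (l + 1)) / Ds by field_simp]
    have := mul_le_mul_of_nonneg_left (hL l l.2)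
      (div_nonneg (sub_nonneg.2 (hW.1 l l.2)) hD.le)
    linarith [show (W l - W (l + 1)) * L l / 2 / Ds = (W l - W (l + 1)) / Ds * L l / 2 by ring]
  have a2 := (abs_le.1 key).1
  have e3 : (sF c lam lv (act a f W (Fintype.card I) (t + 1))).T ν D n y =
    TH ν n ((sF c lam lv (act a f W (Fintype.card I) t)).lev D n)
      ((sF c lam lv (act a f W (Fintype.card I) (t + 1))).Z D n y) := rfl
  rw [e3]
  unfold Sys.T
  linarith

end Fln

open Fln in
theorem fldStmt (hG : GrhStmt) (hH : HApi) (hT : TApi) : FldStmt := by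
  intro n N Wb ε hn hε
  obtain ⟨C, hC, hG⟩ := hG
  obtain ⟨D0, hD0⟩ := eventually_atTop.1 ((tendsto_natCast_atTop_atTop (R := ℝ)).eventually_ge_atTop
    (max 1 (max (N * n * √Wb) (C * (N * n * √Wb) ^ 3 / ε)) ^ 2))
  refine ⟨D0, fun Ds hDs κ I R _ _ _ _ _ _ ν D c lam lv a f W L y hν hI hN hlv hf ha hW hW0 hL => ?_⟩
  subst hI
  obtain ⟨h1, h2⟩ := max_le_iff.1 ((le_abs_self _).trans (abs_le_sqrt (hD0 Ds hDs)))
  obtain ⟨h2, h3⟩ := max_le_iff.1 h2
  have hs : 0 < √(Ds : ℝ) := by linarith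
  have hD : (0 : ℝ) < Ds := sqrt_pos.1 hs
  have key : ∀ t, t ≤ Ds → (sF c lam lv a).T ν D n y +
      t * ((∑ l ∈ range n, (W l - W (l + 1)) * L l / 2) / Ds -
        C * (Fintype.card I * n * √Wb / √Ds) ^ 3) ≤
      (sF c lam lv (act a f W (Fintype.card I) t)).T ν D n y := by
    intro t
    induction t with
    | zero =>
      intro _
      have : act a f W (Fintype.card I) 0 = a := by
        ext r
        simp [act]
      rw [this, Nat.cast_zero, zero_mul, add_zero]
    | succ t ih =>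
      intro ht
      have a1 := step hH hT (hG _ I ν n) c lam y hν hn hN hlv hf ha hW hW0
        ((div_le_one hs).2 h2) t ht (hL t (by omega))
      have a2 := ih (by omega)
      push_cast
      linarith
  have a1 := key Ds le_rfl
  have a2 : Ds * (C * (Fintype.card I * n * √Wb / √Ds) ^ 3) ≤ ε := by
    rw [div_le_iff₀ hε] at h3
    have e : (Ds : ℝ) * (C * (Fintype.card I * n * √Wb / √Ds) ^ 3) =
        C * (Fintype.card I * n * √Wb) ^ 3 / √Ds := by
      rw [div_pow, pow_succ √(Ds : ℝ) 2, sq_sqrt hD.le]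
      field_simp
    rw [e, div_le_iff₀ hs]
    linarith
  rw [mul_sub, mul_div_cancel₀ _ hD.ne'] at a1
  linarith

end

end Vale.Agent.P166
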