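import Vale.Agent.P166.Gg

/-! P166: near maximisers are concentrated. -/

namespace Vale.Agent.P166

open MeasureTheory ProbabilityTheory Finset Real Filter Vale.Agent.P157

noncomputable section

namespace Gd

section
variable {T I : Type} [Fintype T] [DecidableEq T] [Fintype I] [DecidableEq I]
  {ν : Measure (OG I)} {n : ℕ} {lev : T → ℕ} {Z : OG I → Cf T I → ℝ}

theorem aff (H : HOne ν n lev Z) {g : OG I → Cf T I → ℝ} (hg : Ct g) (a c : ℝ) :
    EH ν n lev Z (fun U ω => a * g U ω + c) = a * EH ν n lev Z g + c := by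
  have := H.lin g (fun _ _ => 1) a c hg (fun _ => continuous_const)
  simpa only [mul_one, H.const] using this

theorem aff2 (H : HOne ν n lev Z) {d : ℕ} (hd : d ≤ n) {φ : OG I → Cf T I → Cf T I → ℝ}
    (hφ : Ct2 φ) (a c : ℝ) :
    EW ν n lev Z d (fun U ω ω' => a * φ U ω ω' + c) = a * EW ν n lev Z d φ + c := by
  have := H.lin2 d hd φ (fun _ _ _ => 1) a c hφ (fun _ _ => continuous_const)
  simpa only [mul_one, H.const2 d hd] using this

theorem sqc (H : HOne ν n lev Z) {g : OG I → Cf T I → ℝ} (hg : Ct g) (c : ℝ) :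
    EH ν n lev Z (fun U ω => (g U ω - c) ^ 2) =
      EH ν n lev Z (fun U ω => g U ω ^ 2) - 2 * c * EH ν n lev Z g + c ^ 2 := by
  have h1 := H.lin (fun U ω => g U ω ^ 2) (fun U ω => (-2 * c) * g U ω + c ^ 2) 1 1
    (fun ω => (hg ω).pow 2) (fun ω => (continuous_const.mul (hg ω)).add continuous_const)
  rw [aff H hg] at h1
  have e : (fun U ω => (g U ω - c) ^ 2) =
      fun U ω => 1 * g U ω ^ 2 + 1 * ((-2 * c) * g U ω + c ^ 2) := by
    funext U ω; ring
  rw [e, h1]; ring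

theorem var_le (H : HOne ν n lev Z) {g : OG I → Cf T I → ℝ} (hg : Ct g) (c : ℝ) :
    EH ν n lev Z (fun U ω => (g U ω - EH ν n lev Z g) ^ 2) ≤
        EH ν n lev Z (fun U ω => (g U ω - c) ^ 2) ∧
      (EH ν n lev Z g - c) ^ 2 ≤ EH ν n lev Z (fun U ω => (g U ω - c) ^ 2) := by
  rw [sqc H hg, sqc H hg]
  constructor <;> nlinarith [sq_nonneg (EH ν n lev Z g - c), H.sq g hg]

theorem mgf (H : HOne ν n lev Z) (hn : 1 ≤ n) {G : OG I → Cf T I → ℝ} (hG : Ct G) {t a K : ℝ}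
    (hK : 0 ≤ K) (h : TH ν n lev (fun U ω => Z U ω + t * G U ω) ≤ TH ν n lev Z + a * t + K) :
    exp (-(a * t / n)) * EH ν n lev Z (fun U ω => exp (t * G U ω / n)) ≤ exp K := by
  have hn' : (1 : ℝ) ≤ n := by exact_mod_cast hn
  have h1 := (H.lowexp (fun U ω => t * G U ω) (fun ω => continuous_const.mul (hG ω))).trans h
  have h2 : log (EH ν n lev Z (fun U ω => exp (t * G U ω / n))) ≤ a * t / n + K := by
    have : K ≤ n * K := le_mul_of_one_le_left hK hn'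
    rw [div_add' _ _ _ (by positivity), le_div_iff₀ (by positivity)]
    linarith
  refine (mul_le_mul_of_nonneg_left ((le_exp_log _).trans (exp_le_exp.2 h2)) (exp_pos _).le).trans
    (le_of_eq ?_)
  rw [← exp_add]; congr 1; ring

theorem second (H : HOne ν n lev Z) (hn : 1 ≤ n) {G : OG I → Cf T I → ℝ} (hG : Ct G) {u a K : ℝ}
    (hK : 0 ≤ K) (hp : TH ν n lev (fun U ω => Z U ω + u * G U ω) ≤ TH ν n lev Z + a * u + K)
    (hm : TH ν n lev (fun U ω => Z U ω + -u * G U ω) ≤ TH ν n lev Z + a * -u + K) :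
    (u / n) ^ 2 * EH ν n lev Z (fun U ω => (G U ω - a) ^ 2) ≤ 4 * exp K := by
  have h1 := mgf H hn hG hK hp
  have h2 := mgf H hn hG hK hm
  have c1 : ∀ t : ℝ, Ct fun U ω => exp (t * G U ω / n) := fun t ω =>
    ((continuous_const.mul (hG ω)).div_const _).rexp
  have c2 : Ct fun U ω => (G U ω - a) ^ 2 := fun ω => ((hG ω).sub continuous_const).pow 2
  have h3 := H.lin _ _ (2 * exp (-(a * u / n))) (2 * exp (-(a * -u / n))) (c1 u) (c1 (-u))
  have h4 := H.mono (fun U ω => (u / n) ^ 2 * (G U ω - a) ^ 2 + 0)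
    (fun U ω => 2 * exp (-(a * u / n)) * exp (u * G U ω / n) +
        2 * exp (-(a * -u / n)) * exp (-u * G U ω / n))
    (fun ω => (continuous_const.mul (c2 ω)).add continuous_const)
    (fun ω => (continuous_const.mul (c1 u ω)).add (continuous_const.mul (c1 (-u) ω)))
    (fun U ω => by
      rw [mul_assoc, mul_assoc, ← exp_add, ← exp_add, ← mul_pow, add_zero]
      have e1 : -(a * u / n) + u * G U ω / n = u / n * (G U ω - a) := by ring
      have e2 : -(a * -u / n) + -u * G U ω / n = -(u / n * (G U ω - a)) := by ring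
      rw [e1, e2]
      generalize u / n * (G U ω - a) = x
      rcases le_total 0 x with hx | hx
      · nlinarith [quadratic_le_exp_of_nonneg hx, exp_pos (-x)]
      · nlinarith [quadratic_le_exp_of_nonneg (neg_nonneg.2 hx), exp_pos x])
  rw [aff H c2, h3] at h4
  linarith

theorem lift1 (hA : AApi) (hR : RApi) (hn : 1 ≤ n) (c : OG I → ℝ) :
    EH ν n lev Z (fun U _ => c U) = ∫ U, exp ((Xv n lev (Z U) - TH ν n lev Z) / n) * c U ∂ν := by
  unfold EH Ev
  congr 1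
  funext U
  rw [hA.const (hA.ce (hR.ok n lev hn).1 _ 0 _ le_rfl)]

theorem ev_rho (hA : AApi) (hF : FApi) (hR : RApi) (hn : 1 ≤ n) (Z : Cf T I → ℝ)
    (s : I → Cf T I → ℝ) (A : Finset I) {d : ℕ} (hd : d ≤ n) :
    Ev n lev Z (fun ω => aρ (ch lev) n Z s A d ω ω) = Ew n lev Z d (aR s A) := by
  obtain ⟨ho, hf⟩ := hR.ok (I := I) n lev hn
  have e1 : ∀ i, Ev n lev Z (fun ω => s i ω * Ce (ch lev) (ex n) Z 0 (d + 1) (s i) ω) =
      Ew n lev Z d (fun ω ω' => s i ω * s i ω') := by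
    intro i
    rw [Ew, hA.e2mul, Ev, ← hA.comp (ch lev) (ex n) Z (Nat.zero_le (d + 1)) (by omega)]
    refine congrArg (fun g => Ce (ch lev) (ex n) Z (d + 1) (n + 1) g (w0 T I)) ?_
    funext ω
    simp only [mul_comm (s i _)]
    exact hF.pull hf _ _ _ _ _ _
      (hF.depC hf _ _ (Nat.zero_le _) fun a b hab => by rw [hf.zero a b hab]) ω
  have e2 : (fun ω => aρ (ch lev) n Z s A d ω ω) = (A.card : ℝ)⁻¹ •
      ∑ i ∈ A, fun ω => s i ω * Ce (ch lev) (ex n) Z 0 (d + 1) (s i) ω := by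
    funext ω
    simp only [aρ, Pi.smul_apply, Finset.sum_apply, smul_eq_mul]
    ring
  have e3 := hA.e2add (ch lev) (ex n) Z (d + 1) (n + 1) (fun x x' => ∑ i ∈ A, s i x * s i x')
    (aR s A) (A.card : ℝ)⁻¹ 0 (w0 T I)
  rw [hA.e2sum, zero_mul, add_zero] at e3
  have e4 : aR s A = fun x x' => (A.card : ℝ)⁻¹ * ∑ i ∈ A, s i x * s i x' + 0 * aR s A x x' := by
    funext x x'
    rw [zero_mul, add_zero, aR]; ring
  rw [e2, Ev, map_smul, map_sum, Pi.smul_apply, Finset.sum_apply, smul_eq_mul, Ew, e4, e3]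
  congr 1
  exact sum_congr rfl fun i _ => e1 i

theorem u1_int (hA : AApi) (hF : FApi) (hR : RApi) (H : HOne ν n lev Z) (hn : 1 ≤ n) (hZ : Ct Z)
    {s : I → OG I → Cf T I → ℝ} (hs : ∀ i, Ct (s i)) (A : Finset I) {h : OG I → Cf T I → ℝ}
    (hh : Ct h) {l : ℕ} (hl : l ≤ n) {ε : ℝ}
    (hu : ∀ U, |Ev n lev (Z U) (h U) - Ev n lev (Z U) (fun ω => aR (fun i => s i U) A ω ω -
      (1 / (n : ℝ)) * ∑ d ∈ Icc 1 l, aρ (ch lev) n (Z U) (fun i => s i U) A d ω ω)| ≤ ε) :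
    |EH ν n lev Z h - (EH ν n lev Z (fun U ω => aR (fun i => s i U) A ω ω) -
      (1 / (n : ℝ)) * ∑ d ∈ Icc 1 l, EW ν n lev Z d (fun U => aR (fun i => s i U) A))| ≤ ε := by
  have cR : Ct2 fun U => aR (fun i => s i U) A := fun ω ω' =>
    (continuous_finsetSum _ fun i _ => (hs i ω).mul (hs i ω')).div_const _
  have c1 : ∀ g, Ct g → Ct fun U (_ : Cf T I) => Ev n lev (Z U) (g U) := fun g hg _ =>
    (hR.cont n lev Z g (fun _ _ _ => 0) hn hZ).2.1 hg 0 _ _ le_rfl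
  have c2 : ∀ d, d ≤ n → Ct fun U (_ : Cf T I) => Ew n lev (Z U) d (aR (fun i => s i U) A) :=
    fun d hd _ => (hR.cont n lev Z Z (fun U => aR (fun i => s i U) A) hn hZ).2.2 cR d hd
  have c3 : Ct fun U (_ : Cf T I) => ∑ d ∈ Icc 1 l, Ew n lev (Z U) d (aR (fun i => s i U) A) :=
    fun ω => continuous_finsetSum _ fun d hd => c2 d ((mem_Icc.1 hd).2.trans hl) ω
  have c4 := c1 (fun U ω => aR (fun i => s i U) A ω ω) fun ω => cR ω ω
  have c5 : Ct fun U (_ : Cf T I) => 1 * Ev n lev (Z U) (fun ω => aR (fun i => s i U) A ω ω) +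
      -(1 / (n : ℝ)) * ∑ d ∈ Icc 1 l, Ew n lev (Z U) d (aR (fun i => s i U) A) := fun ω =>
    (continuous_const.mul (c4 ω)).add (continuous_const.mul (c3 ω))
  have e1 : ∀ U, Ev n lev (Z U) (fun ω => aR (fun i => s i U) A ω ω -
      (1 / (n : ℝ)) * ∑ d ∈ Icc 1 l, aρ (ch lev) n (Z U) (fun i => s i U) A d ω ω) =
      1 * Ev n lev (Z U) (fun ω => aR (fun i => s i U) A ω ω) +
        -(1 / (n : ℝ)) * ∑ d ∈ Icc 1 l, Ew n lev (Z U) d (aR (fun i => s i U) A) := by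
    intro U
    have : (fun ω => aR (fun i => s i U) A ω ω -
        (1 / (n : ℝ)) * ∑ d ∈ Icc 1 l, aρ (ch lev) n (Z U) (fun i => s i U) A d ω ω) =
        (fun ω => aR (fun i => s i U) A ω ω) - (1 / (n : ℝ)) •
          ∑ d ∈ Icc 1 l, fun ω => aρ (ch lev) n (Z U) (fun i => s i U) A d ω ω := by
      funext ω
      simp only [Pi.sub_apply, Pi.smul_apply, Finset.sum_apply, smul_eq_mul]
    rw [this, Ev, map_sub, map_smul, map_sum, Pi.sub_apply, Pi.smul_apply, Finset.sum_apply,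
      smul_eq_mul, one_mul, neg_mul, ← sub_eq_add_neg]
    congr 2
    exact sum_congr rfl fun d hd => ev_rho hA hF hR hn _ _ _ ((mem_Icc.1 hd).2.trans hl)
  have e2 := H.lin _ _ 1 (-(1 / (n : ℝ))) c4 c3
  rw [H.sum (Icc 1 l) _ fun d hd => c2 d ((mem_Icc.1 hd).2.trans hl)] at e2
  have e3 := H.lin _ _ 1 (-1) (c1 h hh) c5
  rw [e2] at e3
  have c6 : Ct fun U (ω : Cf T I) => 1 * Ev n lev (Z U) (h U) + -1 *
      (1 * Ev n lev (Z U) (fun ω => aR (fun i => s i U) A ω ω) +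
        -(1 / (n : ℝ)) * ∑ d ∈ Icc 1 l, Ew n lev (Z U) d (aR (fun i => s i U) A)) := fun ω =>
    (continuous_const.mul (c1 h hh ω)).add (continuous_const.mul (c5 ω))
  have b1 := H.mono _ (fun _ _ => ε) c6 (fun _ => continuous_const) fun U _ => by
    have := (abs_le.1 (hu U)).2
    rw [e1] at this; linarith
  have b2 := H.mono (fun _ _ => -ε) _ (fun _ => continuous_const) c6 fun U _ => by
    have := (abs_le.1 (hu U)).1
    rw [e1] at this; linarith
  rw [e3, H.const] at b1 b2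
  simp only [lift1 hA hR hn] at b1 b2
  unfold EH EW
  rw [abs_le]; constructor <;> linarith

/-- the mean overlaps -/
def pst (ν : Measure (OG I)) (n : ℕ) (lev : T → ℕ) (Z : OG I → Cf T I → ℝ) (A : Finset I) (d : ℕ) :
    ℝ :=
  if d = 0 then EH ν n lev Z (fun U ω => rA A U ω.2 ω.2)
  else if d < n then EW ν n lev Z d (fun U ω ω' => rA A U ω.2 ω'.2) else 0

theorem ct_rA (hO : OApi) (A : Finset I) :
    Ct2 fun U (ω ω' : Cf T I) => rA A U ω.2 ω'.2 := fun ω ω' =>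
  (continuous_finsetSum _ fun i _ => (hO.cont ω.2 i).mul (hO.cont ω'.2 i)).div_const _

theorem path_pst (hO : OApi) (H : HOne ν n lev Z) (hn : 1 ≤ n) (A : Finset I) :
    Path n (pst ν n lev Z A) := by
  have cg : ∀ i, Ct fun U (ω : Cf T I) => yy U ω.2 i := fun i ω => hO.cont ω.2 i
  have e1 : EH ν n lev Z (fun U ω => rA A U ω.2 ω.2) =
      (A.card : ℝ)⁻¹ * ∑ i ∈ A, EH ν n lev Z (fun U ω => yy U ω.2 i ^ 2) + 0 := by
    rw [← H.sum A (fun i U ω => yy U ω.2 i ^ 2) fun i _ ω => (cg i ω).pow 2,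
      ← aff H (g := fun U ω => ∑ i ∈ A, yy U ω.2 i ^ 2)
        fun ω => continuous_finsetSum _ fun i _ => (cg i ω).pow 2]
    congr 1
    funext U ω
    simp only [rA, pow_two]; ring
  have e2 : ∀ d, d ≤ n → EW ν n lev Z d (fun U ω ω' => rA A U ω.2 ω'.2) = (A.card : ℝ)⁻¹ *
      ∑ i ∈ A, EW ν n lev Z d (fun U ω ω' => yy U ω.2 i * yy U ω'.2 i) + 0 := by
    intro d hd
    rw [← H.sum2 d hd A (fun i U ω ω' => yy U ω.2 i * yy U ω'.2 i)
      fun i _ ω ω' => (cg i ω).mul (cg i ω'),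
      ← aff2 H hd (φ := fun U ω ω' => ∑ i ∈ A, yy U ω.2 i * yy U ω'.2 i)
        fun ω ω' => continuous_finsetSum _ fun i _ => (cg i ω).mul (cg i ω')]
    congr 1
    funext U ω ω'
    simp only [rA]; ring
  have hc : (0 : ℝ) ≤ (A.card : ℝ)⁻¹ := by positivity
  refine ⟨fun d hd => ?_, by simp [pst, show n ≠ 0 by omega]⟩
  simp only [pst, hd, if_true, Nat.succ_ne_zero, if_false]
  split_ifs with h1 h2 h2
  · rw [e1, e2 _ h1.le]
    gcongr with i
    exact (H.anti _ _ le_rfl h1.le _ (cg i)).2.2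
  · rw [e2 _ h1.le, e2 _ hd.le]
    gcongr with i
    exact (H.anti _ _ (Nat.le_succ d) h1.le _ (cg i)).2.1
  · rw [e1, add_zero]
    exact mul_nonneg hc (sum_nonneg fun i _ => (H.anti n n le_rfl le_rfl _ (cg i)).1.trans
      (H.anti n n le_rfl le_rfl _ (cg i)).2.2)
  · rw [e2 _ hd.le, add_zero]
    exact mul_nonneg hc (sum_nonneg fun i _ => (H.anti d d le_rfl hd.le _ (cg i)).1)

theorem aR_eq (A : Finset I) (U : OG I) (c : ℝ) (hc : 0 ≤ c) (ω ω' : Cf T I) :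
    aR (fun i (x : Cf T I) => √c * yy U x.2 i) A ω ω' = c * rA A U ω.2 ω'.2 + 0 := by
  have e2 : ∀ a b : ℝ, √c * a * (√c * b) = c * (a * b) := fun a b => by
    linear_combination a * b * mul_self_sqrt hc
  simp only [aR, rA, e2, ← mul_sum]
  ring

theorem gg_mono {Ω : Type} {P : ℕ → Op Ω} {Z : Ω → ℝ} {s : I → Ω → ℝ} {A : Finset I}
    {h : ℕ → Ω → ℝ} {ω0 : Ω} {ε ε' : ℝ} (H : GG1 P n Z s A h ω0 ε) (hε : ε ≤ ε') :
    GG1 P n Z s A h ω0 ε' :=
  ⟨H.u0.trans hε, fun κ a => (H.u1 κ a).trans hε, fun κ l a b => (H.u2 κ l a b).trans hε,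
    fun l a b => (H.sh l a b).trans hε⟩

theorem key {η c τ z p : ℝ} (hη : 0 < η) (hρ : η ≤ c) (h1 : |z - p| ≤ τ) (r : ℝ) :
    (r - p) ^ 2 ≤ 2 / η ^ 2 * (c * r + 0 - c * z) ^ 2 + 2 * τ ^ 2 := by
  have h2 := sq_le_sq' (abs_le.1 h1).1 (abs_le.1 h1).2
  rw [add_zero, ← mul_sub, mul_pow]
  have h3 : 2 ≤ 2 / η ^ 2 * c ^ 2 := by
    rw [div_mul_eq_mul_div, le_div_iff₀ (by positivity)]
    linarith [pow_le_pow_left₀ hη.le hρ 2]
  nlinarith [mul_le_mul_of_nonneg_right h3 (sq_nonneg (r - z)), sq_nonneg (r - z - (z - p))]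

theorem conc (hO : OApi) (H : HOne ν n lev Z) (hn : 1 ≤ n) (A : Finset I) {c η τ e1 e2 e0 : ℝ}
    {p z : ℕ → ℝ} (hη : 0 < η) (hρ : η ≤ c) (hd : ∀ d, d < n → |z d - p d| ≤ τ)
    (r1 : EH ν n lev Z (fun U ω => (c * rA A U ω.2 ω.2 + 0 - c * z 0) ^ 2) ≤ e1)
    (r2 : 1 / (n : ℝ) * ∑ d ∈ Ico 1 n,
      EW ν n lev Z d (fun U ω ω' => (c * rA A U ω.2 ω'.2 + 0 - c * z d) ^ 2) ≤ e2)
    (h1 : 2 / η ^ 2 * e1 + 2 * τ ^ 2 ≤ e0) (h2 : 2 / η ^ 2 * e2 + 2 * τ ^ 2 ≤ e0) :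
    ConcH ν n lev Z A p e0 := by
  have hn' : (1 : ℝ) ≤ n := by exact_mod_cast hn
  have cr := ct_rA (T := T) hO A
  have c2 : ∀ a : ℝ, Ct2 fun U (ω ω' : Cf T I) => (c * rA A U ω.2 ω'.2 + 0 - a) ^ 2 :=
    fun a ω ω' => (((continuous_const.mul (cr ω ω')).add continuous_const).sub
      continuous_const).pow 2
  have hη2 : 0 ≤ 2 / η ^ 2 := by positivity
  constructor
  · have := (H.mono (fun U ω => (rA A U ω.2 ω.2 - p 0) ^ 2) _
      (fun ω => ((cr ω ω).sub continuous_const).pow 2)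
      (by exact fun ω => (continuous_const.mul (c2 _ ω ω)).add continuous_const)
      fun U ω => key hη hρ (hd 0 hn) (rA A U ω.2 ω.2)).trans_eq
        (aff H (by exact fun ω => c2 _ ω ω) _ _)
    linarith [mul_le_mul_of_nonneg_left r1 hη2]
  · have h1 := sum_le_sum (s := Ico 1 n) fun d hd' => (H.mono2 d (mem_Ico.1 hd').2.le
      (fun U ω ω' => (rA A U ω.2 ω'.2 - p d) ^ 2) _
      (fun ω ω' => ((cr ω ω').sub continuous_const).pow 2)
      (by exact fun ω ω' => (continuous_const.mul (c2 _ ω ω')).add continuous_const)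
      fun U ω ω' => key hη hρ (hd d (mem_Ico.1 hd').2) (rA A U ω.2 ω'.2)).trans_eq
        (aff2 H (mem_Ico.1 hd').2.le (c2 _) _ _)
    rw [sum_add_distrib, ← mul_sum, sum_const, nsmul_eq_mul] at h1
    refine (mul_le_mul_of_nonneg_left h1 (by positivity)).trans ?_
    have h3 : 1 / (n : ℝ) * ((Ico 1 n).card * (2 * τ ^ 2)) ≤ 2 * τ ^ 2 := by
      rw [← mul_assoc]
      refine mul_le_of_le_one_left (by positivity) ?_
      rw [one_div, inv_mul_le_iff₀ (by positivity), mul_one]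
      exact_mod_cast (by simp : (Ico 1 n).card ≤ n)
    linarith [mul_le_mul_of_nonneg_left r2 hη2]

theorem num_ell {M M0 y a b c q η lam τ C0 n : ℝ} (hη : 0 < η) (hlam : 0 < lam) (hn : 0 < n)
    (hC0 : 0 ≤ C0) (q1 : 1 ≤ q) (q5 : 2 * n * (3 * C0 / η + 2) ≤ q * (η * lam * τ))
    (hM : η * q ^ 4 ≤ M0) (hMM : |M - M0| ≤ C0) (y1 : lam ≤ y) (y2 : y ≤ 3) (h3 : 0 ≤ b)
    (h4 : b ≤ 1 / η) (h1 : |M0 * y * a - c| ≤ q ^ 3) (h2 : |M * y * b - c| ≤ q ^ 3) :
    |a - b| ≤ τ / (2 * n) := by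
  have y0 := hlam.trans_le y1
  have q0 : 0 < q := by linarith
  have hM0 : 0 < M0 := lt_of_lt_of_le (by positivity) hM
  have h5 : |(M - M0) * (y * b)| ≤ C0 * (3 * (1 / η)) := by
    rw [abs_mul, abs_of_nonneg (mul_nonneg y0.le h3)]
    exact mul_le_mul hMM (mul_le_mul y2 h4 h3 (by norm_num)) (mul_nonneg y0.le h3) hC0
  have h6 : |M0 * y * (a - b)| ≤ C0 * (3 * (1 / η)) + 2 * q ^ 3 := by
    have := abs_le.1 h5
    have := abs_le.1 h1
    have := abs_le.1 h2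
    rw [abs_le]; constructor <;> linarith
  rw [abs_mul, abs_of_pos (by positivity)] at h6
  have h7 : η * q ^ 4 * lam ≤ M0 * y := mul_le_mul hM y1 hlam.le hM0.le
  have h8 := (mul_le_mul_of_nonneg_right h7 (abs_nonneg _)).trans h6
  have h9 : C0 * (3 * (1 / η)) ≤ 3 * C0 / η * q ^ 3 := by
    rw [show C0 * (3 * (1 / η)) = 3 * C0 / η by ring]
    exact le_mul_of_one_le_right (by positivity) (one_le_pow₀ q1)
  have h10 := mul_le_mul_of_nonneg_right q5 (show 0 ≤ q ^ 3 by positivity)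
  rw [le_div_iff₀ (by positivity)]
  refine le_of_mul_le_mul_left ?_ (show 0 < η * q ^ 4 * lam by positivity)
  linarith [mul_le_mul_of_nonneg_left (h8.trans (add_le_add h9 le_rfl))
    (show 0 ≤ 2 * n by positivity)]

theorem num_pin {M N Nr n y E p0 S a v q : ℝ} (hN : 0 < N) (hNr : N ≤ Nr) (y0 : 0 < y)
    (y3 : y ≤ 3) (hv : 0 < v) (q2 : 1 + v ≤ q)
    (h1 : |(y * N)⁻¹ * E + 0 - (M / N * p0 - 1 / n * (M / N * S))| ≤ 1 / (3 * Nr))
    (h5 : (E - a) ^ 2 ≤ (v * q ^ 2) ^ 2) : |M * y * (p0 - 1 / n * S) - a| ≤ q ^ 3 := by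
  have hNr0 : 0 < Nr := hN.trans_le hNr
  have h2 := mul_le_mul_of_nonneg_left h1 (show 0 ≤ y * N by positivity)
  rw [← abs_of_pos (show 0 < y * N by positivity), ← abs_mul,
    abs_of_pos (show 0 < y * N by positivity)] at h2
  have h3 : y * N * (1 / (3 * Nr)) ≤ 1 := by
    rw [mul_one_div, div_le_one (by positivity)]
    exact mul_le_mul y3 hNr hN.le (by norm_num)
  have h4 := abs_le.1 (h2.trans h3)
  have h5 := abs_le.1 (abs_le_of_sq_le_sq h5 (by positivity))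
  have e2 : y * N * ((y * N)⁻¹ * E + 0 - (M / N * p0 - 1 / n * (M / N * S))) =
      E - M * y * (p0 - 1 / n * S) := by
    field_simp; ring
  rw [e2] at h4
  have h6 : 1 + v * q ^ 2 ≤ q ^ 3 := by
    nlinarith [one_le_pow₀ (n := 2) (show 1 ≤ q by linarith),
      mul_le_mul_of_nonneg_right q2 (sq_nonneg q)]
  rw [abs_le]; constructor <;> linarith

end

section
variable {κ I Ts : Type} [Fintype κ] [DecidableEq κ] [Fintype I] [DecidableEq I] [Fintype Ts]
  [DecidableEq Ts]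

/-- the field of level `l` on the class `k` -/
def HH (S : Sys κ I Ts) (D n : ℕ) (k : κ) (l : ℕ) (U : OG I) (ω : Cf (Sg D n I Ts) I) : ℝ :=
  hN (S.cls k) Sum.inl (fun i σ => yy U σ i) l ω

theorem ct_HH (hO : OApi) (S : Sys κ I Ts) (D n : ℕ) (k : κ) (l : ℕ) : Ct (HH S D n k l) := by
  intro ω
  refine continuous_finsetSum _ fun r _ => ?_
  split_ifs
  · exact (continuous_const.mul (hO.cont _ _)).div_const _
  · exact continuous_const

theorem Z_upd (S : Sys κ I Ts) (D n : ℕ) (y : κ → ℕ → ℝ) (k : κ) (l : ℕ) (t : ℝ) :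
    S.Z D n (fun k' l' => y k' l' + if k' = k ∧ l' = l then t else 0) =
      fun U ω => S.Z D n y U ω + t * HH S D n k l U ω := by
  funext U ω
  simp only [Sys.Z, HH, hN, mul_sum]
  rw [add_right_comm _ (S.SF _)]
  congr 1
  rw [add_assoc, ← sum_add_distrib]
  congr 1
  refine sum_congr rfl fun r _ => ?_
  simp only [Sys.cls, mem_filter, mem_univ, true_and, and_comm (a := (r.2.1 : ℕ) = l)]
  split_ifs <;> ring

theorem pn_upd {n : ℕ} (Nr : ℕ) (lam : ℝ) (y : κ → ℕ → ℝ) (k : κ) {l : ℕ} (hl : l < n) (t : ℝ) :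
    pn n Nr lam (fun k' l' => y k' l' + if k' = k ∧ l' = l then t else 0) =
      pn n Nr lam y + 8 * Nr * (y k l - 2 * lam) * t + 4 * Nr * t ^ 2 := by
  have e : ∀ k' l', ((y k' l' + if k' = k ∧ l' = l then t else 0) - 2 * lam) ^ 2 =
      (y k' l' - 2 * lam) ^ 2 +
        if k' = k then if l' = l then 2 * (y k l - 2 * lam) * t + t ^ 2 else 0 else 0 := by
    intro k' l'
    by_cases h1 : k' = k <;> by_cases h2 : l' = l <;> simp [h1, h2]
    ring
  simp only [pn, e, sum_add_distrib]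
  rw [sum_comm (s := univ) (f := fun k' l' => if k' = k then _ else _)]
  simp only [sum_ite_eq', mem_univ, mem_range, hl, if_true]
  ring

theorem Z_split (S : Sys κ I Ts) (D n : ℕ) (y : κ → ℕ → ℝ) (k : κ) (U : OG I) :
    S.Z D n y U = fun ω => S.Z D n (fun k' l => if k' = k then 0 else y k' l) U ω +
      ∑ l ∈ range n, y k l * hN (S.cls k) Sum.inl (fun i σ => yy U σ i) l ω := by
  funext ω
  rw [Gg.sum_tm]
  simp only [Sys.Z]
  rw [add_right_comm _ (S.SF _)]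
  congr 1
  rw [add_assoc, ← sum_add_distrib]
  congr 1
  refine sum_congr rfl fun r _ => ?_
  simp only [Gg.tm, Sys.cls, mem_filter, mem_univ, true_and]
  split_ifs with h
  · rw [h]; ring
  · ring

theorem idp (S : Sys κ I Ts) (D n : ℕ) (y : κ → ℕ → ℝ) (k : κ) (U : OG I) :
    Idp ((univ.filter (fun r : Fin D × Fin n × I => r.2.2 ∈ S.cls k)).image Sum.inl)
      (S.Z D n (fun k' l => if k' = k then 0 else y k' l) U) := by
  intro e e' σ h
  simp only [Sys.Z]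
  congr 2
  · refine sum_congr rfl fun r _ => ?_
    split_ifs with hr
    · simp
    · rw [h _ (by simpa [Sys.cls] using hr)]
  · simp only [pull]
    congr 1
    funext t
    exact h _ (by simp)

theorem sec (hO : OApi) {S : Sys κ I Ts} {D n Nr : ℕ} {y : κ → ℕ → ℝ} {ν : Measure (OG I)}
    {lam C0 q v : ℝ} (H : HOne ν n (S.lev D n) (S.Z D n y)) (hn : 1 ≤ n)
    (hNM : NM n Nr lam (S.T ν D n) y C0) (hC0 : 0 ≤ C0) (q1 : 1 ≤ q) (q3 : 1 ≤ q * lam)
    (hq : (Nr : ℝ) = q ^ 4) (hv2 : v ^ 2 = 16 * n ^ 2 * exp (1 + C0)) (k : κ) (l : ℕ) (hl : l < n) :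
    EH ν n (S.lev D n) (S.Z D n y)
      (fun U ω => (HH S D n k l U ω - 8 * Nr * (y k l - 2 * lam)) ^ 2) ≤ (v * q ^ 2) ^ 2 := by
  have hn' : (1 : ℝ) ≤ n := by exact_mod_cast hn
  have q0 : 0 < q := by linarith
  have h1 : ∀ t : ℝ, |t| = 1 / (2 * q ^ 2) →
      TH ν n (S.lev D n) (fun U ω => S.Z D n y U ω + t * HH S D n k l U ω) ≤
        TH ν n (S.lev D n) (S.Z D n y) + 8 * Nr * (y k l - 2 * lam) * t + (1 + C0) := by
    intro t ht
    have t1 : |t| ≤ lam := by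
      rw [ht, div_le_iff₀ (by positivity)]; nlinarith
    have t2 : 4 * Nr * t ^ 2 = 1 := by rw [← sq_abs, ht, hq]; field_simp; norm_num
    have := hNM.2 (fun k' l' => y k' l' + if k' = k ∧ l' = l then t else 0) fun k' l' hl' => by
      have b1 := hNM.1 k' l' hl'
      have b2 := abs_le.1 t1
      dsimp only
      split_ifs <;> constructor <;> linarith
    rw [pn_upd Nr lam y k hl, Sys.T, Sys.T, Z_upd] at this
    linarith
  have h2 := second H hn (ct_HH hO S D n k l) (u := 1 / (2 * q ^ 2)) (by linarith)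
    (h1 _ (abs_of_pos (by positivity))) (h1 _ (by rw [abs_neg, abs_of_pos (by positivity)]))
  rw [div_pow, div_pow, div_div, one_pow, one_div, inv_mul_le_iff₀ (by positivity)] at h2
  refine h2.trans (le_of_eq ?_)
  rw [mul_pow v, hv2]; ring

end

end Gd

open Gd in
theorem gdStmt (hA : AApi) (hF : FApi) (hO : OApi) (hR : RApi) (hH : HApi) (hT : TApi)
    (hG : GgStmt) (hAh : AhStmt) : GdStmt := by
  intro η e0 hη he0
  refine ⟨⌈(48 / (η ^ 2 * e0)) ^ 2⌉₊, fun n hn0 hn lam C0 hlam hlam1 hC0 => ?_⟩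
  have hn' : (1 : ℝ) ≤ n := by exact_mod_cast hn
  have a1 : 2 / η ^ 2 * (8 / √(n : ℝ)) ≤ e0 / 3 := by
    have h1 : 48 / (η ^ 2 * e0) ≤ √(n : ℝ) :=
      le_sqrt_of_sq_le ((Nat.le_ceil _).trans (by exact_mod_cast hn0))
    rw [div_le_iff₀ (by positivity)] at h1
    rw [div_mul_div_comm, div_le_iff₀ (by positivity)]
    linarith
  obtain ⟨ε, hε, hε1, a2, a3⟩ : ∃ ε : ℝ, 0 < ε ∧ 2 * ε ≤ 1 ∧ 2 / η ^ 2 * (7 * ε) ≤ e0 / 3 ∧
      2 / η ^ 2 * (400 * (n : ℝ) ^ 2 * √ε) ≤ e0 / 3 := by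
    obtain ⟨r, r0, r1, r2⟩ : ∃ r : ℝ, 0 < r ∧ r ≤ 1 / 2 ∧ r * (2400 * n ^ 2) ≤ η ^ 2 * e0 :=
      ⟨min (1 / 2) (η ^ 2 * e0 / (2400 * n ^ 2)), by positivity, min_le_left _ _,
        (le_div_iff₀ (by positivity)).1 (min_le_right _ _)⟩
    have h1 : r ≤ r * n ^ 2 := le_mul_of_one_le_right r0.le (one_le_pow₀ hn')
    refine ⟨r ^ 2, by positivity, by nlinarith, ?_, ?_⟩
    · rw [div_mul_eq_mul_div, div_le_iff₀ (by positivity)]; nlinarith
    · rw [sqrt_sq r0.le, div_mul_eq_mul_div, div_le_iff₀ (by positivity)]; nlinarith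
  obtain ⟨τ, hτ, a4⟩ : ∃ τ : ℝ, 0 < τ ∧ 2 * τ ^ 2 ≤ e0 / 3 :=
    ⟨√(e0 / 6), by positivity, by rw [sq_sqrt (by positivity)]; linarith⟩
  obtain ⟨v, hv, hv2⟩ : ∃ v : ℝ, 0 < v ∧ v ^ 2 = 16 * n ^ 2 * exp (1 + C0) :=
    ⟨√(16 * n ^ 2 * exp (1 + C0)), by positivity, sq_sqrt (by positivity)⟩
  refine ⟨⌈(1 + v + 1 / lam + v / (lam * η * ε) + 2 * n * (3 * C0 / η + 2) / (η * lam * τ)) ^ 4⌉₊,
    fun Nr hNr => ?_⟩
  obtain ⟨q, q1, q2, q3, q4, q5, hq, hq'⟩ : ∃ q : ℝ, 1 ≤ q ∧ 1 + v ≤ q ∧ 1 ≤ q * lam ∧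
      v ≤ q * (lam * η * ε) ∧ 2 * n * (3 * C0 / η + 2) ≤ q * (η * lam * τ) ∧ (Nr : ℝ) = q ^ 4 ∧
      √(Nr : ℝ) * √(√(Nr : ℝ)) = q ^ 3 := by
    have b1 : 0 ≤ 1 / lam := by positivity
    have b2 : 0 ≤ v / (lam * η * ε) := by positivity
    have b3 : 0 ≤ 2 * n * (3 * C0 / η + 2) / (η * lam * τ) := by positivity
    have h1 : 1 + v + 1 / lam + v / (lam * η * ε) + 2 * n * (3 * C0 / η + 2) / (η * lam * τ) ≤
        √(√(Nr : ℝ)) := by
      refine le_sqrt_of_sq_le (le_sqrt_of_sq_le ?_)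
      rw [← pow_mul]
      exact (Nat.le_ceil _).trans (by exact_mod_cast hNr)
    have e1 := sq_sqrt (sqrt_nonneg (Nr : ℝ))
    have e2 := sq_sqrt (Nat.cast_nonneg (α := ℝ) Nr)
    refine ⟨√(√(Nr : ℝ)), by linarith, by linarith, (div_le_iff₀ hlam).1 (by linarith),
      (div_le_iff₀ (by positivity)).1 (by linarith), (div_le_iff₀ (by positivity)).1 (by linarith),
      ?_, ?_⟩
    · rw [show 4 = 2 * 2 from rfl, pow_mul, e1, e2]
    · rw [pow_succ, e1]
  have q0 : 0 < q := by linarith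
  have hNr0 : (0 : ℝ) < Nr := by rw [hq]; positivity
  obtain ⟨D0, hD0⟩ := hG n Nr 3 (min ε (1 / (3 * Nr))) hn (by positivity)
  refine ⟨D0, fun D hD κ I Ts _ _ _ _ _ _ ν S y k hν hlev hI hM hNM => ?_⟩
  obtain ⟨cZ, hlev'⟩ := hH.ctz S D n y
  replace hlev' := hlev' hlev
  have H := hH.one (S.lev D n) hν hn cZ
  set A := S.cls k with hAdef
  have hM0 : (0 : ℝ) < A.card := lt_of_lt_of_le (by positivity) hM
  have hAn : A.Nonempty := card_pos.1 (by exact_mod_cast hM0)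
  have hAI : (A.card : ℝ) ≤ Fintype.card I := by exact_mod_cast card_le_univ A
  have hI0 : (0 : ℝ) < Fintype.card I := hM0.trans_le hAI
  have hI' : (Fintype.card I : ℝ) ≤ Nr := by exact_mod_cast hI
  have hy : ∀ l, l < n → lam ≤ y k l ∧ y k l ≤ 3 := fun l hl =>
    ⟨(hNM.1 k l hl).1, (hNM.1 k l hl).2.trans (by linarith)⟩
  have hyy : ∀ (U : OG I) σ, ∑ i ∈ A, yy U σ i ^ 2 ≤ Fintype.card I := fun U σ =>
    (sum_le_sum_of_subset_of_nonneg (subset_univ A) fun _ _ _ => sq_nonneg _).trans (hO.sq U σ).le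
  have cH := ct_HH hO S D n k
  have sec := sec hO H hn hNM hC0 q1 q3 hq hv2 k
  have gg : ∀ U : OG I, GG1 (ch (S.lev D n)) n (S.Z D n y U)
      (fun i ω => √((A.card : ℝ) / Fintype.card I) * yy U ω.2 i) A
      (fun l ω => HH S D n k l U ω / (y k l * Fintype.card I)) (w0 _ I) (min ε (1 / (3 * Nr))) := by
    intro U
    rw [Z_split S D n y k U]
    exact hD0 D hD _ I (S.lev D n) _ A Sum.inl (fun i σ => yy U σ i) (y k) hlev'
      ⟨Sum.inl_injective, fun _ => rfl⟩ hI hAn (hyy U)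
      (fun l hl => ⟨hlam.trans_le (hy l hl).1, (hy l hl).2⟩) (idp S D n y k U)
  have cs : ∀ i, Ct fun U (ω : Cf (Sg D n I Ts) I) =>
      √((A.card : ℝ) / Fintype.card I) * yy U ω.2 i := fun i ω =>
    continuous_const.mul (hO.cont _ _)
  have ch : ∀ l, Ct fun U ω => HH S D n k l U ω / (y k l * Fintype.card I) := fun l ω =>
    (cH l ω).div_const _
  have cr := ct_rA (T := Sg D n I Ts) hO A
  have hc : 0 ≤ (A.card : ℝ) / Fintype.card I := by positivity
  obtain ⟨r1, r2⟩ := hAh _ I ν n (S.lev D n) (S.Z D n y) _ A _ ε hν hn hlev' cZ cs ch hAn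
    (fun U ω => by
      simp only [mul_pow, sq_sqrt hc, ← mul_sum]
      rw [div_mul_eq_mul_div, div_le_iff₀ hI0]
      exact mul_le_mul_of_nonneg_left (hyy U _) hM0.le) hε hε1
    (fun U => gg_mono (gg U) (min_le_left _ _)) (fun l hl => by
      refine (var_le H (ch l) (8 * Nr * (y k l - 2 * lam) / (y k l * Fintype.card I))).1.trans ?_
      have e : (fun U ω => (HH S D n k l U ω / (y k l * Fintype.card I) -
          8 * Nr * (y k l - 2 * lam) / (y k l * Fintype.card I)) ^ 2) = fun U ω =>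
          ((y k l * Fintype.card I) ^ 2)⁻¹ *
            (HH S D n k l U ω - 8 * Nr * (y k l - 2 * lam)) ^ 2 + 0 := by
        funext U ω
        rw [← sub_div, div_pow]; ring
      have y0 := hlam.trans_le (hy l hl).1
      rw [e, aff H (g := fun U ω => (HH S D n k l U ω - 8 * Nr * (y k l - 2 * lam)) ^ 2)
        fun ω => ((cH l ω).sub continuous_const).pow 2, add_zero,
        inv_mul_le_iff₀ (by positivity), ← mul_pow]
      refine (sec l hl).trans (pow_le_pow_left₀ (by positivity) ?_ 2)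
      have b1 : lam * (η * q ^ 4) ≤ y k l * Fintype.card I :=
        mul_le_mul (hy l hl).1 (by rw [← hq]; exact hM.trans hAI) (by positivity) y0.le
      have b2 : v * q ^ 2 ≤ q * (lam * η * ε) * q ^ 3 :=
        mul_le_mul q4 (pow_le_pow_right₀ q1 (by norm_num)) (by positivity) (by positivity)
      nlinarith [mul_le_mul_of_nonneg_right b1 hε.le])
  have m0 : EH ν n (S.lev D n) (S.Z D n y) (fun U x => aR (fun i (ω : Cf (Sg D n I Ts) I) =>
      √((A.card : ℝ) / Fintype.card I) * yy U ω.2 i) A x x) =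
      A.card / Fintype.card I * pst ν n (S.lev D n) (S.Z D n y) A 0 := by
    simp only [aR_eq A _ _ hc]
    rw [aff H (g := fun U ω => rA A U ω.2 ω.2) fun ω => cr ω ω, add_zero, pst, if_pos rfl]
  have m1 : ∀ d, 1 ≤ d → d < n → EW ν n (S.lev D n) (S.Z D n y) d (fun U => aR (fun i
      (ω : Cf (Sg D n I Ts) I) => √((A.card : ℝ) / Fintype.card I) * yy U ω.2 i) A) =
      A.card / Fintype.card I * pst ν n (S.lev D n) (S.Z D n y) A d := by
    intro d h1 h2
    have e : (fun U => aR (fun i (ω : Cf (Sg D n I Ts) I) =>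
        √((A.card : ℝ) / Fintype.card I) * yy U ω.2 i) A) =
        fun U ω ω' => A.card / Fintype.card I * rA A U ω.2 ω'.2 + 0 := by
      funext U ω ω'
      exact aR_eq A _ _ hc _ _
    rw [e, aff2 H h2.le cr, add_zero, pst, if_neg (by omega), if_pos h2]
  have hp := path_pst hO H hn A
  have hρ : η ≤ A.card / Fintype.card I := by
    rw [le_div_iff₀ hI0]
    exact (mul_le_mul_of_nonneg_left hI' hη.le).trans hM
  have pin : Pin n Nr lam (y k) (pst ν n (S.lev D n) (S.Z D n y) A) A.card := by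
    intro l hl
    have y0 := hlam.trans_le (hy l hl).1
    have h1 := u1_int hA hF hR H hn cZ cs A (ch l) hl.le fun U => (gg U).u1 l hl
    rw [m0, sum_congr rfl fun d hd => m1 d (mem_Icc.1 hd).1 ((mem_Icc.1 hd).2.trans_lt hl),
      ← mul_sum] at h1
    have e : (fun U ω => HH S D n k l U ω / (y k l * Fintype.card I)) =
        fun U ω => (y k l * Fintype.card I)⁻¹ * HH S D n k l U ω + 0 := by
      funext U ω; ring
    rw [e, aff H (cH l)] at h1
    rw [hq']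
    exact num_pin hI0 hI' y0 (hy l hl).2 hv q2 (h1.trans (min_le_right _ _))
      ((var_le H (cH l) _).2.trans (sec l hl))
  refine ⟨⟨_, hp, ?_, pin⟩, fun p M hp' hp0 hMM pin' => ?_⟩
  · rw [pst, if_pos rfl, ← H.const (1 / η)]
    refine H.mono _ _ (fun ω => cr ω ω) (fun _ => continuous_const) fun U ω => ?_
    rw [rA, div_le_div_iff₀ hM0 hη]
    have := hyy U ω.2
    simp only [pow_two] at this
    rw [le_div_iff₀ hI0] at hρ
    nlinarith
  have hd := hT.ell_inv (n := n) (p := pst ν n (S.lev D n) (S.Z D n y) A) (p' := p)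
    (τ := τ / (2 * n)) fun l hl =>
      num_ell hη hlam (by linarith) hC0 q1 q5 (by rw [← hq]; exact hM) hMM (hy l hl).1 (hy l hl).2
        (hT.ell_bd hp' l hl).1 ((hT.ell_bd hp' l hl).2.trans hp0) ((pin l hl).trans_eq hq')
        ((pin' l hl).trans_eq hq')
  rw [mul_div_cancel₀ _ (by positivity)] at hd
  rw [m0] at r1
  rw [sum_congr rfl fun d hd => by rw [m1 d (mem_Ico.1 hd).1 (mem_Ico.1 hd).2]] at r2
  simp only [aR_eq A _ _ hc] at r1 r2
  exact conc hO H hn A hη hρ hd r1 r2 (by linarith) (by linarith)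

end

end Vale.Agent.P166
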