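import Vale.Agent.P166.Stm
import Vale.Agent.P157.Gg

/-! P166: the approximate identities for the recorded fields. -/

namespace Vale.Agent.P166

open MeasureTheory ProbabilityTheory Finset Real Filter Vale.Agent.P157

noncomputable section

namespace Gg

open Vale.Agent.P157.Gg

section
variable {Ω : Type} {P : ℕ → Op Ω} {r : ℕ → Ω → Ω → Prop} {κ n : ℕ} {F : Ω → Ω}
  {e s Z0 : Ω → ℝ}

theorem ce_low' (hF : FApi) (hf : Fil P r) (h : Flip P r κ F e (fun _ => 1) Z0) (m : ℕ → ℝ)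
    (y : ℝ) {d : ℕ} (hd : d ≤ κ) (ω : Ω) :
    Ce P m Z0 0 (d + 1) (fun x => y * e x * s x) ω = y * e ω * Ce P m Z0 0 (d + 1) s ω := by
  refine hF.pull hf m Z0 0 (d + 1) (fun x => y * e x) s ?_ ω
  intro x x' hr
  have := dep_le hf (show d + 1 ≤ κ + 1 by omega) h.dep x x' hr
  simp only [this]

theorem ce_high' (hA : AApi) (h : Flip P r κ F e (fun _ => 1) Z0) (sF : ∀ x, s (F x) = s x)
    (m : ℕ → ℝ) (y : ℝ) {d : ℕ} (hd : κ < d) (ω : Ω) :
    Ce P m Z0 0 (d + 1) (fun x => y * e x * s x) ω = 0 := by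
  have h1 := ce_th hA h m (d + 1) (fun x => y * e x * s x) ω
  have h2 : ¬ (d + 1 ≤ κ + 1) := by omega
  simp only [th, h2, if_false, id, h.eF, sF] at h1
  have h3 : (fun x => y * -e x * s x) = -(fun x => y * e x * s x) := by
    funext x; simp
  rw [h3, map_neg, Pi.neg_apply] at h1
  linarith

def pU (n κ : ℕ) (s : Ω → ℝ) (β : ℕ → Ω → ℝ) (x : Ω) : ℝ :=
  s x * s x - (1 / (n : ℝ)) * ∑ d ∈ Icc 1 κ, s x * β d x

def pS (n l : ℕ) (s : Ω → ℝ) (β : ℕ → Ω → ℝ) (x x' : Ω) : ℝ :=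
  s x * s x + s x * s x' - (1 / (n : ℝ)) * ∑ d ∈ Ico 1 l, (s x * β d x + s x * β d x') -
    (ex n l + 1 / (n : ℝ)) * (s x * β l x)

theorem mul_bd {a b c : ℝ} (ha : |a| ≤ 1) (hb : |b| ≤ c) : |a * b| ≤ c := by
  rw [abs_mul]
  exact (mul_le_mul ha hb (abs_nonneg _) zero_le_one).trans (one_mul c).le

theorem pU_le (hn : 1 ≤ n) (hκ : κ < n) (hs : ∀ x, |s x| ≤ 1)
    {β β' : ℕ → Ω → ℝ} {δ : ℝ} (hδ : 0 ≤ δ) (h1 : ∀ d, d ≤ n → ∀ x, |β d x| ≤ 1)
    (h2 : ∀ d, d ≤ n → ∀ x, |β' d x - β d x| ≤ δ) (x : Ω) :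
    |pU n κ s β x| ≤ 6 ∧ |pU n κ s β' x - pU n κ s β x| ≤ 4 * δ := by
  have hc : (Icc 1 κ).card ≤ n := by simp; omega
  have a0 := abs_le.1 (mul_bd (hs x) (hs x))
  have a1 := abs_le.1 (avg_le hn _ hc (fun d => s x * β d x) 1 zero_le_one (fun d hd =>
    mul_bd (hs x) (h1 d (by have := (mem_Icc.1 hd).2; omega) x)))
  have a2 := abs_le.1 (avg_le hn _ hc (fun d => s x * β' d x - s x * β d x) δ hδ (fun d hd => by
    rw [← mul_sub]
    exact mul_bd (hs x) (h2 d (by have := (mem_Icc.1 hd).2; omega) x)))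
  rw [sum_sub_distrib, mul_sub] at a2
  unfold pU
  constructor <;> rw [abs_le] <;> constructor <;> linarith [a0.1, a0.2, a1.1, a1.2, a2.1, a2.2]

theorem pS_le {l : ℕ} (hn : 1 ≤ n) (hl : l < n) (hs : ∀ x, |s x| ≤ 1)
    {β β' : ℕ → Ω → ℝ} {δ : ℝ} (hδ : 0 ≤ δ) (h1 : ∀ d, d ≤ n → ∀ x, |β d x| ≤ 1)
    (h2 : ∀ d, d ≤ n → ∀ x, |β' d x - β d x| ≤ δ) (x x' : Ω) :
    |pS n l s β x x'| ≤ 6 ∧ |pS n l s β' x x' - pS n l s β x x'| ≤ 4 * δ := by
  have hc : (Ico 1 l).card ≤ n := by simp; omega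
  have b1 : ∀ d, d ≤ n → ∀ z, |s x * β d z| ≤ 1 := fun d hd z => mul_bd (hs x) (h1 d hd z)
  have b2 : ∀ d, d ≤ n → ∀ z, |s x * β' d z - s x * β d z| ≤ δ := fun d hd z => by
    rw [← mul_sub]; exact mul_bd (hs x) (h2 d hd z)
  have a0 := abs_le.1 (mul_bd (hs x) (hs x))
  have a1 := abs_le.1 (avg_le hn _ hc (fun d => s x * β d x + s x * β d x') 2 (by norm_num)
    (fun d hd => by
      have hd' : d ≤ n := by have := (mem_Ico.1 hd).2; omega
      exact (abs_add_le _ _).trans (by linarith [b1 d hd' x, b1 d hd' x'])))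
  have a2 := abs_le.1 (avg_le hn _ hc
    (fun d => (s x * β' d x + s x * β' d x') - (s x * β d x + s x * β d x')) (2 * δ) (by linarith)
    (fun d hd => by
      have hd' : d ≤ n := by have := (mem_Ico.1 hd).2; omega
      have e1 := abs_le.1 (b2 d hd' x)
      have e2 := abs_le.1 (b2 d hd' x')
      rw [abs_le]; constructor <;> linarith))
  rw [sum_sub_distrib, mul_sub] at a2
  have a3' := abs_le.1 (mul_bd (hs x) (hs x'))
  obtain ⟨c0, c2⟩ := ex_bd hn hl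
  have a4 : |(ex n l + 1 / (n : ℝ)) * (s x * β l x)| ≤ 2 := by
    rw [abs_mul, abs_of_nonneg c0]
    nlinarith [b1 l hl.le x, abs_nonneg (s x * β l x)]
  have a5 : |(ex n l + 1 / (n : ℝ)) * (s x * β' l x) - (ex n l + 1 / (n : ℝ)) * (s x * β l x)| ≤
      2 * δ := by
    rw [← mul_sub, abs_mul, abs_of_nonneg c0]
    nlinarith [b2 l hl.le x, abs_nonneg (s x * β' l x - s x * β l x)]
  have a4' := abs_le.1 a4
  have a5' := abs_le.1 a5
  unfold pS
  constructor <;> rw [abs_le] <;> constructor <;>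
    linarith [a0.1, a0.2, a1.1, a1.2, a2.1, a2.2, a3'.1, a3'.2, a4'.1, a4'.2, a5'.1, a5'.2]

theorem ww_high' (hA : AApi) (hF : FApi) (hf : Fil P r) (h : Flip P r κ F e (fun _ => 1) Z0)
    (sF : ∀ x, s (F x) = s x) (y : ℝ) {l : ℕ} (hl : κ < l) (x : Ω) :
    e x * s x * WW P n Z0 (fun x => y * e x * s x) (l + 1) x = y * pU n κ s (bb P n Z0 s) x := by
  unfold WW
  rw [abel n (fun j => Ce P (ex n) Z0 0 j (fun x => y * e x * s x) x) l, ce_high' hA h sF _ y hl,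
    hA.self P _ Z0 le_rfl]
  have e1 : ∑ d ∈ Ico 1 l, Ce P (ex n) Z0 0 (d + 1) (fun x => y * e x * s x) x =
      ∑ d ∈ Icc 1 κ, y * e x * bb P n Z0 s d x := by
    rw [← sum_subset (s₁ := Icc 1 κ) (fun d hd => by
      rw [mem_Icc] at hd; rw [mem_Ico]; omega) (fun d hd hd' => by
      rw [mem_Ico] at hd; rw [mem_Icc] at hd'
      exact ce_high' hA h sF _ y (by omega) x)]
    exact sum_congr rfl (fun d hd => ce_low' hF hf h _ y (mem_Icc.1 hd).2 x)
  rw [e1, pU, ← mul_sum, ← mul_sum]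
  have h1 := h.e2 x
  generalize ∑ d ∈ Icc 1 κ, bb P n Z0 s d x = T
  linear_combination (y * s x ^ 2 - y * (1 / (n : ℝ)) * s x * T) * h1

theorem ww_sh' (hA : AApi) (hF : FApi) (hf : Fil P r) (h : Flip P r κ F e (fun _ => 1) Z0)
    (sF : ∀ x, s (F x) = s x) (y : ℝ) (hκ1 : 1 ≤ κ) (hκ : κ < n) (x x' : Ω) (hr : r (κ + 1) x x') :
    e x * s x * (WW P n Z0 (fun x => y * e x * s x) (n + 1) x +
      WW P n Z0 (fun x => y * e x * s x) (κ + 1) x') = y * pS n κ s (bb P n Z0 s) x x' := by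
  rw [mul_add, ww_high' hA hF hf h sF y hκ]
  unfold WW
  rw [abel n (fun j => Ce P (ex n) Z0 0 j (fun x => y * e x * s x) x') κ,
    ce_low' hF hf h _ y le_rfl, hA.self P _ Z0 le_rfl]
  have e1 : ∑ d ∈ Ico 1 κ, Ce P (ex n) Z0 0 (d + 1) (fun x => y * e x * s x) x' =
      ∑ d ∈ Ico 1 κ, y * e x' * bb P n Z0 s d x' :=
    sum_congr rfl (fun d hd => ce_low' hF hf h _ y (mem_Ico.1 hd).2.le x')
  have e2 : Ce P (ex n) Z0 0 (κ + 1) s x' = bb P n Z0 s κ x :=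
    (hF.depC hf (ex n) Z0 (Nat.zero_le _) (fun a b hab => by rw [hf.zero a b hab]) x x' hr).symm
  have e3 : Icc 1 κ = insert κ (Ico 1 κ) := by
    ext d; simp only [mem_Icc, mem_insert, mem_Ico]; omega
  rw [e1, e2, ← h.dep x x' hr, pU, pS, e3, sum_insert (by simp), sum_add_distrib, ← mul_sum,
    ← mul_sum, ← mul_sum]
  have h1 := h.e2 x
  generalize ∑ d ∈ Ico 1 κ, bb P n Z0 s d x = T
  generalize ∑ d ∈ Ico 1 κ, bb P n Z0 s d x' = T'
  linear_combination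
    (y * s x * s x' - y * (1 / (n : ℝ)) * s x * T' - y * ex n κ * s x * bb P n Z0 s κ x) * h1

theorem fin' (hA : AApi) {C : ℝ} (hL : L3 C) (ho : Ok P (ex n) (n + 1)) (hf : Fil P r)
    (he : ∀ x, e x ^ 2 = 1) (hs : ∀ x, |s x| ≤ 1) {y : ℝ} (hy0 : 0 < y) (hy : y ≤ 1) {l : ℕ}
    (hl : l ≤ n) (φ : Ω → Ω → ℝ) (hφ : ∀ x x', |φ x x'| ≤ 1) (ψ : (ℕ → Ω → ℝ) → Ω → Ω → ℝ)
    (hψ : ∀ (β β' : ℕ → Ω → ℝ) (δ : ℝ), 0 ≤ δ → (∀ d, d ≤ n → ∀ x, |β d x| ≤ 1) →
      (∀ d, d ≤ n → ∀ x, |β' d x - β d x| ≤ δ) → ∀ x x',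
      |ψ β x x'| ≤ 6 ∧ |ψ β' x x' - ψ β x x'| ≤ 4 * δ) (ω0 : Ω)
    (hid : E2 P (ex n) Z0 (l + 1) (n + 1) (fun x x' => φ x x' * (e x * s x) * (1 +
        WW P n Z0 (fun x => y * e x * s x) (n + 1) x +
        WW P n Z0 (fun x => y * e x * s x) (l + 1) x')) ω0 =
      y * E2 P (ex n) Z0 (l + 1) (n + 1) (fun x x' => φ x x' * ψ (bb P n Z0 s) x x') ω0) :
    |E2 P (ex n) (Z0 + fun x => y * e x * s x) (l + 1) (n + 1)
        (fun x x' => φ x x' * (e x * s x)) ω0 -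
      y * E2 P (ex n) (Z0 + fun x => y * e x * s x) (l + 1) (n + 1)
        (fun x x' => φ x x' * ψ (bb P n (Z0 + fun x => y * e x * s x) s) x x') ω0| ≤
      CC C * y ^ 2 := by
  have hes : ∀ x, |e x * s x| ≤ 1 := fun x => mul_bd (abs_sq (he x)).le (hs x)
  have hb : ∀ x, |y * e x * s x| ≤ y := fun x => by
    rw [mul_assoc, abs_mul, abs_of_pos hy0]
    exact mul_le_of_le_one_right hy0.le (hes x)
  have a1 := hL Ω P r (ex n) (n + 1) ho hf Z0 (fun x => y * e x * s x) y hb hy (l + 1) (by omega)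
    (fun x x' => φ x x' * (e x * s x)) (fun x x' => mul_bd (hφ x x') (hes x)) ω0
  have hid' := hid
  unfold WW at hid'
  rw [hid'] at a1
  have hδ : 0 ≤ 4 * exp 2 * y := by positivity
  have a2 := hψ (bb P n Z0 s) (bb P n (Z0 + fun x => y * e x * s x) s) (4 * exp 2 * y) hδ
    (fun d hd x => hA.abs_le (hA.ce ho Z0 0 (d + 1) (by omega)) hs x)
    (fun d hd x => ce_chg hA ho Z0 _ y hb hy (by omega) s hs x)
  have a3 := e2_chg hA ho Z0 (fun x => y * e x * s x) y hb hy (l := l + 1) (by omega)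
    (fun x x' => φ x x' * ψ (bb P n (Z0 + fun x => y * e x * s x) s) x x')
    (fun x x' => φ x x' * ψ (bb P n Z0 s) x x') (4 * (4 * exp 2 * y)) 6
    (fun x x' => mul_bd (hφ x x') (a2 x x').1)
    (fun x x' => by
      rw [← mul_sub]
      exact mul_bd (hφ x x') (a2 x x').2) ω0
  have a4 := mul_le_mul_of_nonneg_left a3 hy0.le
  rw [← abs_of_pos hy0, ← abs_mul, abs_of_pos hy0, mul_sub] at a4
  have a5 : C * y ^ 2 ≤ |C| * y ^ 2 := mul_le_mul_of_nonneg_right (le_abs_self C) (sq_nonneg y)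
  have b1 := abs_le.1 a1
  have b4 := abs_le.1 a4
  unfold CC
  rw [abs_le]; constructor <;> nlinarith [b1.1, b1.2, b4.1, b4.2]

theorem mainU' (hA : AApi) (hF : FApi) {C : ℝ} (hL : L3 C) (ho : Ok P (ex n) (n + 1))
    (hf : Fil P r) (h : Flip P r κ F e (fun _ => 1) Z0) (sF : ∀ x, s (F x) = s x)
    (hs : ∀ x, |s x| ≤ 1) {y : ℝ} (hy0 : 0 < y) (hy : y ≤ 1) {l : ℕ}
    (hκ : κ < l) (hl : l ≤ n) (φ : Ω → Ω → ℝ) (hφ : ∀ x x', |φ x x'| ≤ 1)
    (hφF : ∀ x x', φ (F x) x' = φ x x') (ω0 : Ω) :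
    |E2 P (ex n) (Z0 + fun x => y * e x * s x) (l + 1) (n + 1)
        (fun x x' => φ x x' * (e x * s x)) ω0 -
      y * E2 P (ex n) (Z0 + fun x => y * e x * s x) (l + 1) (n + 1)
        (fun x x' => φ x x' * pU n κ s (bb P n (Z0 + fun x => y * e x * s x) s) x) ω0| ≤
      CC C * y ^ 2 := by
  refine fin' hA hL ho hf h.e2 hs hy0 hy hl φ hφ (fun β x _ => pU n κ s β x)
    (fun β β' δ hδ h1 h2 x _ => pU_le (by omega) (by omega) hs hδ h1 h2 x) ω0 ?_
  set O : Ω → Ω → ℝ := fun x x' => φ x x' * (e x * s x) *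
    (1 + WW P n Z0 (fun x => y * e x * s x) (l + 1) x') with hO
  have e0 : E2 P (ex n) Z0 (l + 1) (n + 1) O ω0 = 0 := by
    have e1 := e2_first hA h (ex n) (l := l + 1) (n + 1) (by omega) O ω0
    have e2 : (fun x x' => O (F x) x') = fun x x' => - O x x' := by
      funext x x'; simp only [hO, hφF, h.eF, sF]; ring
    rw [e2, e2_neg hA] at e1
    linarith
  have e3 := hA.e2add P (ex n) Z0 (l + 1) (n + 1)
    (fun x x' => φ x x' * pU n κ s (bb P n Z0 s) x) O y 1 ω0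
  rw [e0] at e3
  rw [mul_zero, add_zero] at e3
  rw [← e3]
  congr 1
  funext x x'
  have := ww_high' (n := n) hA hF hf h sF y (l := n) (by omega) x
  simp only [hO]
  linear_combination φ x x' * this

theorem mainS' (hA : AApi) (hF : FApi) {C : ℝ} (hL : L3 C) (ho : Ok P (ex n) (n + 1))
    (hf : Fil P r) (h : Flip P r κ F e (fun _ => 1) Z0) (sF : ∀ x, s (F x) = s x)
    (hs : ∀ x, |s x| ≤ 1) {y : ℝ} (hy0 : 0 < y) (hy : y ≤ 1)
    (hκ1 : 1 ≤ κ) (hκ : κ < n) (φ : Ω → Ω → ℝ) (hφ : ∀ x x', |φ x x'| ≤ 1)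
    (hφF : ∀ x x', φ (F x) (F x') = φ x x') (ω0 : Ω) :
    |E2 P (ex n) (Z0 + fun x => y * e x * s x) (κ + 1) (n + 1)
        (fun x x' => φ x x' * (e x * s x)) ω0 -
      y * E2 P (ex n) (Z0 + fun x => y * e x * s x) (κ + 1) (n + 1)
        (fun x x' => φ x x' * pS n κ s (bb P n (Z0 + fun x => y * e x * s x) s) x x') ω0| ≤
      CC C * y ^ 2 := by
  refine fin' hA hL ho hf h.e2 hs hy0 hy hκ.le φ hφ (fun β x x' => pS n κ s β x x')
    (fun β β' δ hδ h1 h2 x x' => pS_le (by omega) hκ hs hδ h1 h2 x x') ω0 ?_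
  set O : Ω → Ω → ℝ := fun x x' => φ x x' * (e x * s x) with hO
  have e0 : E2 P (ex n) Z0 (κ + 1) (n + 1) O ω0 = 0 := by
    have e1 := e2_both hA h (ex n) (l := κ + 1) (t := n + 1) (by omega) (by omega) O ω0
    have e2 : (fun x x' => O (F x) (F x')) = fun x x' => - O x x' := by
      funext x x'; simp only [hO, hφF, h.eF, sF]; ring
    rw [e2, e2_neg hA] at e1
    linarith
  have e3 := hA.e2add P (ex n) Z0 (κ + 1) (n + 1)
    (fun x x' => φ x x' * pS n κ s (bb P n Z0 s) x x') O y 1 ω0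
  rw [e0] at e3
  rw [mul_zero, add_zero] at e3
  rw [← e3]
  refine hF.e2supp hf _ _ _ _ _ _ (fun x x' hr => ?_) ω0
  have := ww_sh' (n := n) hA hF hf h sF y hκ1 hκ x x' hr
  simp only [hO]
  linear_combination φ x x' * this

theorem avg' (hA : AApi) {J : Type} (m : ℕ → ℝ) (Z : Ω → ℝ) (l t : ℕ) (S : Finset J) {c y K : ℝ}
    (hc : 0 < c) (hy0 : 0 < y) (G ψ : J → Ω → Ω → ℝ) (G' ψ' : Ω → Ω → ℝ) (ω0 : Ω)
    (hG : ∀ x x', G' x x' = (∑ i ∈ S, G i x x') / (y * c))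
    (hψ : ∀ x x', ψ' x x' = (∑ i ∈ S, ψ i x x') / c)
    (h : ∀ i ∈ S, |E2 P m Z l t (G i) ω0 - y * E2 P m Z l t (ψ i) ω0| ≤ K * y ^ 2) :
    |E2 P m Z l t G' ω0 - E2 P m Z l t ψ' ω0| ≤ S.card / c * (K * y) := by
  have e1 : E2 P m Z l t G' ω0 = (y * c)⁻¹ * ∑ i ∈ S, E2 P m Z l t (G i) ω0 := by
    rw [← hA.e2sum]
    have := hA.e2add P m Z l t (fun x x' => ∑ i ∈ S, G i x x') G' (y * c)⁻¹ 0 ω0
    rw [zero_mul, add_zero] at this
    rw [← this]
    congr 1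
    funext x x'
    rw [hG]; ring
  have e2 : E2 P m Z l t ψ' ω0 = (y * c)⁻¹ * ∑ i ∈ S, y * E2 P m Z l t (ψ i) ω0 := by
    rw [← mul_sum, ← hA.e2sum]
    have := hA.e2add P m Z l t (fun x x' => ∑ i ∈ S, ψ i x x') G' c⁻¹ 0 ω0
    rw [zero_mul, add_zero] at this
    rw [← mul_assoc, show (y * c)⁻¹ * y = c⁻¹ by field_simp, ← this]
    congr 1
    funext x x'
    rw [hψ]; ring
  rw [e1, e2, ← mul_sub, ← sum_sub_distrib, abs_mul, abs_of_pos (by positivity),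
    inv_mul_le_iff₀ (by positivity)]
  refine (abs_sum_le_sum_abs _ _).trans ((sum_le_card_nsmul _ _ _ h).trans (le_of_eq ?_))
  rw [nsmul_eq_mul]; field_simp

theorem sumU' {I : Type} (P : ℕ → Op Ω) (n κ D : ℕ) (hD : 0 < D) (Z : Ω → ℝ) (s : I → Ω → ℝ)
    (A : Finset I) (hA : A.Nonempty) (c : ℝ) (x : Ω) :
    c * (aR (fun i x => √(A.card : ℝ) * s i x) A x x - (1 / (n : ℝ)) * ∑ d ∈ Icc 1 κ,
        aρ P n Z (fun i x => √(A.card : ℝ) * s i x) A d x x) =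
      (∑ q ∈ (univ : Finset (Fin D)) ×ˢ A, c * pU n κ (s q.2) (bb P n Z (s q.2)) x) / D := by
  have hc : (0 : ℝ) < A.card := by exact_mod_cast hA.card_pos
  have hD' : (D : ℝ) ≠ 0 := by exact_mod_cast hD.ne'
  have e1 : ∀ i d, Ce P (ex n) Z 0 (d + 1) (fun x => √(A.card : ℝ) * s i x) x =
      √(A.card : ℝ) * Ce P (ex n) Z 0 (d + 1) (s i) x := fun i d =>
    congrFun (map_smul (Ce P (ex n) Z 0 (d + 1)) (√(A.card : ℝ)) (s i)) x
  have e2 : ∀ a b : ℝ, √(A.card : ℝ) * a * (√(A.card : ℝ) * b) = A.card * (a * b) := fun a b => by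
    linear_combination a * b * mul_self_sqrt hc.le
  rw [sum_product]
  simp only [sum_const, card_univ, Fintype.card_fin, nsmul_eq_mul]
  simp only [pU, aρ, aR, bb, e1, e2, ← mul_sum, sum_sub_distrib, ← sum_div]
  rw [sum_comm]
  simp only [← mul_sum]
  field_simp

theorem sumS' {I : Type} (P : ℕ → Op Ω) (n l D : ℕ) (hD : 0 < D) (Z : Ω → ℝ) (s : I → Ω → ℝ)
    (A : Finset I) (hA : A.Nonempty) (c : ℝ) (x x' : Ω) :
    c * (aR (fun i x => √(A.card : ℝ) * s i x) A x x + aR (fun i x => √(A.card : ℝ) * s i x) A x x'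
        - (1 / (n : ℝ)) * ∑ d ∈ Ico 1 l, (aρ P n Z (fun i x => √(A.card : ℝ) * s i x) A d x x +
            aρ P n Z (fun i x => √(A.card : ℝ) * s i x) A d x x')
          - (ex n l + 1 / (n : ℝ)) * aρ P n Z (fun i x => √(A.card : ℝ) * s i x) A l x x) =
      (∑ q ∈ (univ : Finset (Fin D)) ×ˢ A, c * pS n l (s q.2) (bb P n Z (s q.2)) x x') / D := by
  have hc : (0 : ℝ) < A.card := by exact_mod_cast hA.card_pos
  have hD' : (D : ℝ) ≠ 0 := by exact_mod_cast hD.ne'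
  have e1 : ∀ i d x, Ce P (ex n) Z 0 (d + 1) (fun x => √(A.card : ℝ) * s i x) x =
      √(A.card : ℝ) * Ce P (ex n) Z 0 (d + 1) (s i) x := fun i d x =>
    congrFun (map_smul (Ce P (ex n) Z 0 (d + 1)) (√(A.card : ℝ)) (s i)) x
  have e2 : ∀ a b : ℝ, √(A.card : ℝ) * a * (√(A.card : ℝ) * b) = A.card * (a * b) := fun a b => by
    linear_combination a * b * mul_self_sqrt hc.le
  rw [sum_product]
  simp only [sum_const, card_univ, Fintype.card_fin, nsmul_eq_mul]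
  simp only [pS, aρ, aR, bb, e1, e2, ← mul_sum, sum_sub_distrib, sum_add_distrib, ← sum_div]
  rw [sum_comm (s := Ico 1 l), sum_comm (s := Ico 1 l)]
  simp only [← mul_sum]
  field_simp

end

section
variable {T I : Type} [Fintype T] [DecidableEq T] [Fintype I] [DecidableEq I]

def FT (t : T) (ω : Cf T I) : Cf T I := (fl t ω.1, ω.2)

theorem flipT (lev : T → ℕ) (t : T) (Z0 : Cf T I → ℝ) (hZ : ∀ ω, Z0 (FT t ω) = Z0 ω) :
    Flip (ch lev) (rl lev) (lev t) (FT t) (fun ω => spin (ω.1 t)) (fun _ => 1) Z0 where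
  comm := by
    intro j hj g ω
    cases j with
    | zero => rfl
    | succ d =>
      have hd : lev t ≠ d := by omega
      simp only [ch, rsl, LinearMap.coe_mk, AddHom.coe_mk, FT]
      congr 1
      refine sum_congr rfl fun e _ => ?_
      congr 2
      funext s
      by_cases hs : s = t
      · subst hs; simp [fl, hd]
      · simp [fl, Function.update_of_ne hs]
  abso := by
    intro g ω
    simp only [ch, rsl, LinearMap.coe_mk, AddHom.coe_mk, FT]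
    congr 1
    rw [← Equiv.sum_comp (fl_inv t).toPerm
      (fun e => g (fun s => if lev s = lev t then e s else ω.1 s, ω.2))]
    refine sum_congr rfl fun e _ => ?_
    congr 2
    funext s
    by_cases hs : s = t
    · subst hs; simp [fl]
    · simp [fl, Function.update_of_ne hs]
  eF := by intro ω; simp [FT, fl, spin_not]
  sF := fun _ => rfl
  ZF := hZ
  e2 := fun ω => spin_sq _
  s2 := fun _ => one_pow 2
  dep := by
    intro ω ω' hr
    simp only [hr t le_rfl]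

theorem aR_le' {Ω : Type} (s : I → Ω → ℝ) (A : Finset I) (hA : A.Nonempty)
    (hs : ∀ x, ∑ i ∈ A, s i x ^ 2 ≤ 1) (x x' : Ω) :
    |aR (fun i x => √(A.card : ℝ) * s i x) A x x'| ≤ 1 := by
  have hc : (0 : ℝ) < A.card := by exact_mod_cast hA.card_pos
  have e2 : ∀ a b : ℝ, √(A.card : ℝ) * a * (√(A.card : ℝ) * b) = A.card * (a * b) := fun a b => by
    linear_combination a * b * mul_self_sqrt hc.le
  simp only [aR, e2, ← mul_sum]
  rw [mul_div_cancel_left₀ _ hc.ne', ← sq_le_one_iff_abs_le_one]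
  exact (sum_mul_sq_le_sq_mul_sq _ _ _).trans
    (mul_le_one₀ (hs x) (sum_nonneg fun _ _ => sq_nonneg _) (hs x'))

variable {D n : ℕ}

theorem hN_eq (A : Finset I) (f : Fin D × Fin n × I → T) (s : I → (I → Bool) → ℝ) (l : Fin n)
    (ω : Cf T I) : hN A f s l ω =
      ∑ q ∈ (univ : Finset (Fin D)) ×ˢ A, spin (ω.1 (f (q.1, l, q.2))) * s q.2 ω.2 / √(D : ℝ) := by
  rw [hN, sum_product, Fintype.sum_prod_type]
  refine sum_congr rfl fun t _ => ?_
  rw [Fintype.sum_prod_type, sum_eq_single l]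
  · simp
  · intro b _ hb
    have : ¬ (b : ℕ) = l := fun h => hb (Fin.ext h)
    simp [this]
  · simp

/-- one term of the fields -/
def tm (A : Finset I) (f : Fin D × Fin n × I → T) (s : I → (I → Bool) → ℝ) (y : ℕ → ℝ)
    (ω : Cf T I) (r : Fin D × Fin n × I) : ℝ :=
  if r.2.2 ∈ A then y r.2.1 * (spin (ω.1 (f r)) * s r.2.2 ω.2 / √(D : ℝ)) else 0

theorem sum_tm (A : Finset I) (f : Fin D × Fin n × I → T) (s : I → (I → Bool) → ℝ) (y : ℕ → ℝ)
    (ω : Cf T I) : ∑ l ∈ range n, y l * hN A f s l ω = ∑ r, tm A f s y ω r := by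
  simp only [hN, mul_sum]
  rw [sum_comm]
  refine sum_congr rfl fun r _ => ?_
  rw [sum_eq_single (r.2.1 : ℕ)]
  · simp [tm]
  · intro b _ hb
    simp [hb.symm]
  · simp

end

end Gg

open Gg Vale.Agent.P157.Gg in
theorem ggStmt (hA : AApi) (hF : FApi) (hR : RApi) : GgStmt := by
  obtain ⟨C, hL⟩ := hF.l3
  have hC : 0 ≤ CC C := by unfold CC; positivity
  intro n N Y ε hn hε
  obtain ⟨η, hη, hη1, hη2⟩ : ∃ η : ℝ, 0 < η ∧ η ≤ 1 ∧ N * (CC C * η) ≤ ε := by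
    refine ⟨min 1 (ε / (N * CC C + 1)), by positivity, min_le_left _ _, ?_⟩
    have h1 : min 1 (ε / (N * CC C + 1)) * (N * CC C + 1) ≤ ε :=
      (le_div_iff₀ (by positivity)).1 (min_le_right _ _)
    have h2 : 0 ≤ min 1 (ε / (N * CC C + 1)) := by positivity
    nlinarith
  refine ⟨⌈Y ^ 2 * N / η ^ 2⌉₊ + 1, fun D hD T I _ _ _ _ lev Z1 A f s y _ hf' hN' hAn hs hy hZ => ?_⟩
  obtain ⟨ho, hf⟩ := hR.ok (I := I) n lev hn
  have hD0 : 0 < D := by omega
  have hD1 : (0 : ℝ) < D := by exact_mod_cast hD0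
  have hAc : (0 : ℝ) < A.card := by exact_mod_cast hAn.card_pos
  have hAI : (A.card : ℝ) ≤ Fintype.card I := by exact_mod_cast card_le_univ A
  have hI : (0 : ℝ) < Fintype.card I := hAc.trans_le hAI
  have hIN : (Fintype.card I : ℝ) ≤ N := by exact_mod_cast hN'
  have sI := sqrt_pos.2 hI
  have sD := sqrt_pos.2 hD1
  set s' : I → Cf T I → ℝ := fun i ω => s i ω.2 / √(Fintype.card I : ℝ) with hs'
  have es : (fun i (ω : Cf T I) => √((A.card : ℝ) / Fintype.card I) * s i ω.2) =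
      fun i ω => √(A.card : ℝ) * s' i ω := by
    funext i ω
    rw [sqrt_div hAc.le, hs']; ring
  have hs1 : ∀ x, ∑ i ∈ A, s' i x ^ 2 ≤ 1 := fun x => by
    simp only [hs', div_pow, sq_sqrt hI.le, ← sum_div]
    exact (div_le_one hI).2 (hs _)
  have hs2 : ∀ i ∈ A, ∀ x, |s' i x| ≤ 1 := fun i hi x => (sq_le_one_iff_abs_le_one _).1
    ((single_le_sum (f := fun i => s' i x ^ 2) (fun _ _ => sq_nonneg _) hi).trans (hs1 x))
  have haR := aR_le' s' A hAn hs1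
  rw [es]
  set Z : Cf T I → ℝ := fun ω => Z1 ω + ∑ l ∈ range n, y l * hN A f s l ω with hZ'
  set y' : ℕ → ℝ := fun l => y l * √(Fintype.card I : ℝ) / √(D : ℝ) with hy'
  have y0 : ∀ l, l < n → 0 < y' l ∧ y' l ≤ η := by
    intro l hl
    obtain ⟨a, b⟩ := hy l hl
    refine ⟨by positivity, (pow_le_pow_iff_left₀ (by positivity) hη.le two_ne_zero).1 ?_⟩
    have h1 : Y ^ 2 * N / η ^ 2 ≤ D := (Nat.le_ceil _).trans (by exact_mod_cast (by omega))
    rw [div_le_iff₀ (by positivity)] at h1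
    simp only [hy', div_pow, mul_pow, sq_sqrt hI.le, sq_sqrt hD1.le]
    rw [div_le_iff₀ hD1]
    have := mul_le_mul (pow_le_pow_left₀ a.le b 2) hIN hI.le (sq_nonneg _)
    linarith
  have key : ∀ (κ : Fin n) (q : Fin D × I), q.2 ∈ A → ∃ Z0 : Cf T I → ℝ,
      Flip (ch lev) (rl lev) κ (FT (f (q.1, κ, q.2))) (fun ω => spin (ω.1 (f (q.1, κ, q.2))))
        (fun _ => 1) Z0 ∧
      (Z0 + fun x => y' κ * spin (x.1 (f (q.1, κ, q.2))) * s' q.2 x) = Z := by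
    intro κ q hq
    refine ⟨fun ω => Z1 ω + ∑ r ∈ univ.erase (q.1, κ, q.2), tm A f s y ω r, ?_, ?_⟩
    · have := flipT lev (f (q.1, κ, q.2))
        (fun ω => Z1 ω + ∑ r ∈ univ.erase (q.1, κ, q.2), tm A f s y ω r) (fun ω => by
          congr 1
          · refine hZ _ _ _ fun t ht => Function.update_of_ne (fun h => ht ?_) _ _
            rw [h]
            exact mem_image_of_mem _ (by simpa using hq)
          · refine sum_congr rfl fun r hr => ?_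
            have : f r ≠ f (q.1, κ, q.2) := fun h => ne_of_mem_erase hr (hf'.1 h)
            simp only [tm, FT, fl, Function.update_of_ne this])
      rwa [hf'.2] at this
    · funext ω
      simp only [hZ', sum_tm, Pi.add_apply]
      rw [← sum_erase_add _ _ (mem_univ (q.1, κ, q.2)), add_assoc]
      congr 2
      simp only [tm, hq, if_true, hy', hs']
      field_simp
  have fin0 : ∀ κ, κ < n → ((univ : Finset (Fin D)) ×ˢ A).card / (D : ℝ) * (CC C * y' κ) ≤ ε := by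
    intro κ hκ
    rw [card_product, card_univ, Fintype.card_fin, Nat.cast_mul, mul_div_cancel_left₀ _ hD1.ne']
    exact (mul_le_mul (hAI.trans hIN) (mul_le_mul_of_nonneg_left (y0 κ hκ).2 hC)
      (mul_nonneg hC (y0 κ hκ).1.le) (Nat.cast_nonneg _)).trans hη2
  have hG : ∀ (κ : Fin n) (c : ℝ) (x : Cf T I), c * (hN A f s κ x / (y κ * Fintype.card I)) =
      (∑ q ∈ (univ : Finset (Fin D)) ×ˢ A, c * (spin (x.1 (f (q.1, κ, q.2))) * s' q.2 x)) /
        (y' κ * D) := by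
    intro κ c x
    have := (hy κ κ.2).1
    rw [hN_eq, ← mul_sum, mul_div_assoc, sum_div, sum_div]
    congr 1
    refine sum_congr rfl fun q _ => ?_
    simp only [hs', hy']
    field_simp
    rw [sq_sqrt hI.le, sq_sqrt hD1.le]
    ring
  have hU : ∀ κ l, κ < l → l ≤ n → ∀ φ : Cf T I → Cf T I → ℝ, (∀ x x', |φ x x'| ≤ 1) →
      (∀ t x x', φ (FT t x) x' = φ x x') →
      |E2 (ch lev) (ex n) Z (l + 1) (n + 1)
          (fun ω1 ω2 => φ ω1 ω2 * (hN A f s κ ω1 / (y κ * Fintype.card I))) (w0 T I) -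
        E2 (ch lev) (ex n) Z (l + 1) (n + 1) (fun ω1 ω2 => φ ω1 ω2 *
          (aR (fun i ω => √(A.card : ℝ) * s' i ω) A ω1 ω1 - (1 / (n : ℝ)) * ∑ d ∈ Icc 1 κ,
            aρ (ch lev) n Z (fun i ω => √(A.card : ℝ) * s' i ω) A d ω1 ω1)) (w0 T I)| ≤ ε := by
    intro κ l hκ hl φ hφ hφF
    have hκn : κ < n := by omega
    refine (avg' hA _ _ _ _ (univ ×ˢ A) hD1 (y0 κ hκn).1
      (fun q x x' => φ x x' * (spin (x.1 (f (q.1, ⟨κ, hκn⟩, q.2))) * s' q.2 x))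
      (fun q x x' => φ x x' * pU n κ (s' q.2) (bb (ch lev) n Z (s' q.2)) x) _ _ _
      (fun x x' => hG ⟨κ, hκn⟩ _ x) (fun x x' => sumU' _ _ _ _ hD0 _ _ _ hAn _ _)
      (fun q hq => ?_)).trans (fin0 κ hκn)
    obtain ⟨Z0, h1, h2⟩ := key ⟨κ, hκn⟩ q (mem_product.1 hq).2
    have := mainU' hA hF hL ho hf h1 (s := s' q.2) (fun _ => rfl) (hs2 _ (mem_product.1 hq).2)
      (y0 κ hκn).1 ((y0 κ hκn).2.trans hη1) hκ hl φ hφ (hφF _) (w0 T I)
    rwa [h2] at this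
  refine ⟨?_, fun κ hκ => ?_, fun κ l hκ hl => hU κ l hκ hl.le _ haR (fun _ _ _ => rfl),
    fun l hl1 hl => ?_⟩
  · have := hU 0 n hn le_rfl (fun x _ => aR (fun i ω => √(A.card : ℝ) * s' i ω) A x x)
      (fun x _ => haR x x) (fun _ _ _ => rfl)
    rw [hA.e2one ho _ _ le_rfl, hA.e2one ho _ _ le_rfl] at this
    simpa only [show Icc 1 0 = (∅ : Finset ℕ) from rfl, sum_empty, mul_zero, sub_zero, ← pow_two]
      using this
  · have := hU κ n hκ le_rfl (fun _ _ => 1) (fun _ _ => by simp) (fun _ _ _ => rfl)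
    simp only [one_mul] at this
    rwa [hA.e2one ho _ _ le_rfl, hA.e2one ho _ _ le_rfl] at this
  · refine (avg' hA _ _ _ _ (univ ×ˢ A) hD1 (y0 l hl).1
      (fun q x x' => aR (fun i ω => √(A.card : ℝ) * s' i ω) A x x' *
        (spin (x.1 (f (q.1, ⟨l, hl⟩, q.2))) * s' q.2 x))
      (fun q x x' => aR (fun i ω => √(A.card : ℝ) * s' i ω) A x x' *
        pS n l (s' q.2) (bb (ch lev) n Z (s' q.2)) x x') _ _ _
      (fun x x' => hG ⟨l, hl⟩ _ x) (fun x x' => sumS' _ _ _ _ hD0 _ _ _ hAn _ _ _)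
      (fun q hq => ?_)).trans (fin0 l hl)
    obtain ⟨Z0, h1, h2⟩ := key ⟨l, hl⟩ q (mem_product.1 hq).2
    have := mainS' hA hF hL ho hf h1 (s := s' q.2) (fun _ => rfl) (hs2 _ (mem_product.1 hq).2)
      (y0 l hl).1 ((y0 l hl).2.trans hη1) hl1 hl _ haR (fun _ _ => rfl) (w0 T I)
    rwa [h2] at this

end

end Vale.Agent.P166
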