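import Vale.Agent.P166.H1

namespace Vale.Agent.P166

open MeasureTheory Finset Real Vale.Agent.P157

open H1 in
theorem grhStmt (hR : RApi) (hH : HApi) (h : GrpStmt) : GrhStmt := by
  obtain ⟨C, hC, hG⟩ := h
  refine ⟨C + 4 * C ^ 2 + (5 / 2 + C) * (4 * C ^ 2), by positivity,
    fun T I _ _ _ _ ν n lev A Z Z' u v b hν hn hl hb cZ cZ' cu cv hE => ?_⟩
  have := hν.prob
  have hN : (0 : ℝ) < n := by exact_mod_cast hn
  have b0 : 0 ≤ b := (abs_nonneg _).trans ((hE 1).bu (w0 T I))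
  have cx : Continuous fun U => Xv n lev (Z U) :=
    (hR.cont n lev Z Z (fun _ _ _ => 0) hn cZ).1 _ _ le_rfl
  have c1 : ∀ s, Continuous fun U => Ev n lev (Z U) (fun ω => v s s U ω + u s U ω ^ 2) := fun s =>
    (hR.cont n lev Z (fun U ω => v s s U ω + u s U ω ^ 2) (fun _ _ _ => 0) hn cZ).2.1
      (fun ω => (cv s s ω).add ((cu s ω).pow 2)) _ _ _ le_rfl
  have c2 : ∀ s, ∀ d ∈ Icc 1 (lev s),
      Continuous fun U => Ew n lev (Z U) d (fun ω ω' => u s U ω * u s U ω') := fun s d hd =>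
    (hR.cont n lev Z Z (fun U ω ω' => u s U ω * u s U ω') hn cZ).2.2
      (fun ω ω' => (cu s ω).mul (cu s ω')) d ((mem_Icc.1 hd).2.trans (hl s).le)
  have c3 : ∀ s, Continuous fun U => ∑ d ∈ Icc 1 (lev s),
      Ew n lev (Z U) d (fun ω ω' => u s U ω * u s U ω') := fun s => continuous_finsetSum _ (c2 s)
  set G : OG I → ℝ := fun U => Gm n lev (Z U) A (fun s => u s U) (fun s s' => v s s' U) with hGd
  have e0 : G = fun U => ∑ s ∈ A, (1 / 2 * Ev n lev (Z U) (fun ω => v s s U ω + u s U ω ^ 2) +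
      (-(1 / (n : ℝ)) / 2) * ∑ d ∈ Icc 1 (lev s),
        Ew n lev (Z U) d (fun ω ω' => u s U ω * u s U ω')) := by
    ext U
    exact sum_congr rfl fun s _ => by ring
  have c4 : ∀ s, Continuous fun U => 1 / 2 * Ev n lev (Z U) (fun ω => v s s U ω + u s U ω ^ 2) +
      (-(1 / (n : ℝ)) / 2) * ∑ d ∈ Icc 1 (lev s),
        Ew n lev (Z U) d (fun ω ω' => u s U ω * u s U ω') := fun s =>
    (continuous_const.mul (c1 s)).add (continuous_const.mul (c3 s))
  have cG : Continuous G := e0 ▸ continuous_finsetSum _ fun s _ => c4 s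
  have e1 : av ν n (fun U => Xv n lev (Z U)) G = GmH ν n lev Z A u v := by
    rw [e0, av_sum _ _ cx fun s _ => c4 s]
    refine sum_congr rfl fun s _ => ?_
    rw [av_lin cx (c1 s) (c3 s), av_sum _ _ cx (c2 s)]
    show 1 / 2 * EH ν n lev Z (fun U ω => v s s U ω + u s U ω ^ 2) + _ * ∑ d ∈ Icc 1 (lev s),
      EW ν n lev Z d (fun U ω ω' => u s U ω * u s U ω') = _
    ring
  have hg := fun U => hG T I n lev A _ _ _ _ b hn hl hb (hE U)
  have b2 : b ^ 2 ≤ b := by nlinarith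
  have b3 : b ^ 3 ≤ b ^ 2 := by nlinarith [sq_nonneg b]
  have b30 : 0 ≤ b ^ 3 := by positivity
  have k1 : C * b ^ 3 ≤ C * b ^ 2 := mul_le_mul_of_nonneg_left b3 hC
  have k2 : C * b ^ 2 ≤ C * b := mul_le_mul_of_nonneg_left b2 hC
  have k3 : 0 ≤ C * b ^ 3 := by positivity
  have k4 : 0 ≤ C ^ 2 * b ^ 3 := by positivity
  rw [← e1]
  by_cases hs : C * b ^ 2 + C * b ^ 3 ≤ 1
  · refine (hH.incr lev G _ _ hν hn cZ cZ' cG (fun U => (hg U).2) hs fun U => (hg U).1).trans ?_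
    have k5 : (C * b ^ 2 + C * b ^ 3) ^ 2 ≤ (2 * (C * b ^ 2)) * (2 * (C * b)) := by
      rw [sq]
      exact mul_le_mul (by linarith) (by linarith) (by positivity) (by positivity)
    have k6 : 0 ≤ C ^ 3 * b ^ 3 := by positivity
    nlinarith
  · have q0 : ∀ U ω, |Z' U ω - Z U ω| ≤ 5 / 2 := fun U ω => by
      rw [abs_le]
      constructor <;>
        linarith [abs_le.1 ((hE U).bu ω), abs_le.1 ((hE U).bv ω), abs_le.1 ((hE U).tay ω)]
    have q1 := hH.le lev (5 / 2) hν hn cZ cZ' fun U ω => by linarith [abs_le.1 (q0 U ω)]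
    have q2 := hH.le lev (5 / 2) hν hn cZ' cZ fun U ω => by linarith [abs_le.1 (q0 U ω)]
    have k7 : C * b ≤ C := mul_le_of_le_one_right hC hb
    have q3 := av_mono (ν := ν) (N := n) cx cG (G' := fun _ => C) continuous_const
      fun U => by linarith [abs_le.1 (hg U).2]
    have q4 := av_mono (ν := ν) (N := n) cx (G := fun _ => -C) continuous_const cG
      fun U => by linarith [abs_le.1 (hg U).2]
    rw [av_const hN cx] at q3 q4
    have k8 : 1 * 1 ≤ (2 * (C * b ^ 2)) * (2 * (C * b)) :=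
      mul_le_mul (by linarith) (by linarith) zero_le_one (by positivity)
    have k9 := mul_le_mul_of_nonneg_left k8 (show 0 ≤ 5 / 2 + C by positivity)
    rw [abs_le]
    constructor <;> nlinarith

end Vale.Agent.P166
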