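import Vale.Agent.P166.Stm

namespace Vale.Agent.P166

open Finset Real Vale.Agent.P157

set_option linter.unusedSectionVars false

namespace Grpm

variable {T I : Type} [Fintype T] [DecidableEq T] [Fintype I] [DecidableEq I] {n : ℕ}
  {lev : T → ℕ}

theorem ev_sum {J : Type} (Z : Cf T I → ℝ) (s : Finset J) (g : J → Cf T I → ℝ) :
    Ev n lev Z (fun ω => ∑ j ∈ s, g j ω) = ∑ j ∈ s, Ev n lev Z (g j) := by
  have : (fun ω => ∑ j ∈ s, g j ω) = ∑ j ∈ s, g j := by ext ω; simp [Finset.sum_apply]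
  rw [this, Ev, map_sum, Finset.sum_apply]
  rfl

theorem ev_lin (Z g h : Cf T I → ℝ) (a b : ℝ) :
    Ev n lev Z (fun ω => a * g ω + b * h ω) = a * Ev n lev Z g + b * Ev n lev Z h := by
  have : (fun ω => a * g ω + b * h ω) = a • g + b • h := rfl
  rw [this, Ev, map_add, map_smul, map_smul]
  rfl

theorem ev_close (hA : AApi) (hR : RApi) (hn : 1 ≤ n) (Z : Cf T I → ℝ) {g h : Cf T I → ℝ} {c : ℝ}
    (H : ∀ ω, |g ω - h ω| ≤ c) : |Ev n lev Z g - Ev n lev Z h| ≤ c := by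
  have h1 := ev_lin (n := n) (lev := lev) Z g h 1 (-1)
  simp only [one_mul, neg_mul, ← sub_eq_add_neg] at h1
  rw [← h1]
  exact hA.abs_le (hA.ce (hR.ok n lev hn).1 Z 0 (n + 1) le_rfl) H _

theorem ew_le (hA : AApi) (hR : RApi) (hn : 1 ≤ n) (Z : Cf T I → ℝ) {d : ℕ} (hd : d ≤ n)
    {φ ψ : Cf T I → Cf T I → ℝ} {c : ℝ} (H : ∀ ω ω', φ ω ω' ≤ ψ ω ω' + c) :
    Ew n lev Z d φ ≤ Ew n lev Z d ψ + c := by
  have ok := (hR.ok (I := I) n lev hn).1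
  have h1 := hA.e2add (ch lev) (ex n) Z (d + 1) (n + 1) ψ (fun _ _ => c) 1 1 (w0 T I)
  rw [hA.e2const ok Z (d + 1) (by omega)] at h1
  simp only [one_mul] at h1
  exact (hA.e2mono ok Z (d + 1) (by omega) H _).trans h1.le

theorem ew_close (hA : AApi) (hR : RApi) (hn : 1 ≤ n) (Z : Cf T I → ℝ) {d : ℕ} (hd : d ≤ n)
    {φ ψ : Cf T I → Cf T I → ℝ} {c : ℝ} (H : ∀ ω ω', |φ ω ω' - ψ ω ω'| ≤ c) :
    |Ew n lev Z d φ - Ew n lev Z d ψ| ≤ c := by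
  have h1 := ew_le (lev := lev) hA hR hn Z hd (φ := φ) (ψ := ψ) (c := c) fun ω ω' => by
    linarith [(abs_le.1 (H ω ω')).2]
  have h2 := ew_le (lev := lev) hA hR hn Z hd (φ := ψ) (ψ := φ) (c := c) fun ω ω' => by
    linarith [(abs_le.1 (H ω ω')).1]
  rw [abs_le]; constructor <;> linarith

theorem avg_close (hn : 1 ≤ n) {x y : ℕ → ℝ} {c : ℝ} (H : ∀ d, d ≤ n → |x d - y d| ≤ c) :
    |(1 / (n : ℝ)) * ∑ d ∈ Icc 1 n, x d - (1 / (n : ℝ)) * ∑ d ∈ Icc 1 n, y d| ≤ c := by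
  have hn' : (0 : ℝ) < n := by exact_mod_cast hn
  rw [← mul_sub, ← sum_sub_distrib, abs_mul, abs_of_pos (by positivity), one_div,
    inv_mul_le_iff₀ hn']
  refine (abs_sum_le_sum_abs _ _).trans ((sum_le_sum fun d hd => H d (mem_Icc.1 hd).2).trans ?_)
  simp

theorem lx (hA : AApi) (hR : RApi) {C : ℝ} (hL : ∀ (Ω : Type) (P : ℕ → Op Ω) (m : ℕ → ℝ) (t : ℕ),
      Ok P m t → ∀ (Z A : Ω → ℝ) (b : ℝ), (∀ ω, |A ω| ≤ b) → b ≤ 1 → ∀ j, j + 1 ≤ t → ∀ ω,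
      |XX P m (Z + A) (j + 1) ω - XX P m Z (j + 1) ω - Ce P m Z 0 (j + 1) A ω -
        (m 0 * Ce P m Z 0 (j + 1) (fun x => A x ^ 2) ω -
          ∑ i ∈ range j, (m i - m (i + 1)) *
            Ce P m Z (i + 1) (j + 1) (fun x => Ce P m Z 0 (i + 1) A x ^ 2) ω -
          m j * Ce P m Z 0 (j + 1) A ω ^ 2) / 2| ≤ C * b ^ 3)
    (hn : 1 ≤ n) (Z A : Cf T I → ℝ) (b : ℝ) (h : ∀ ω, |A ω| ≤ b) (hb : b ≤ 1) :
    |Xv n lev (Z + A) - Xv n lev Z - Ev n lev Z A - (Ev n lev Z (fun ω => A ω ^ 2) -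
      (1 / (n : ℝ)) * ∑ d ∈ Icc 1 n, Ew n lev Z d (fun ω ω' => A ω * A ω')) / 2| ≤ C * b ^ 3 := by
  have h1 := hL _ _ _ _ (hR.ok (I := I) n lev hn).1 Z A b h hb n le_rfl (w0 T I)
  obtain ⟨k, rfl⟩ : ∃ k, n = k + 1 := ⟨n - 1, by omega⟩
  have e : ∀ d, Ew (k + 1) lev Z d (fun ω ω' => A ω * A ω') =
      Ce (ch lev) (ex (k + 1)) Z (d + 1) (k + 1 + 1)
        (fun x => Ce (ch lev) (ex (k + 1)) Z 0 (d + 1) A x ^ 2) (w0 T I) := fun d => by
    simp only [Ew, hA.e2mul, sq]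
  have hk : ((k + 1 : ℕ) : ℝ) ≠ 0 := by positivity
  have e1 : ∀ i : ℕ, ex (k + 1) (i + 1) - ex (k + 1) (i + 1 + 1) = 1 / ((k + 1 : ℕ) : ℝ) :=
    fun i => by simp only [ex]; field_simp; push_cast; ring
  have e2 : ex (k + 1) (k + 1) = 1 / ((k + 1 : ℕ) : ℝ) := by
    simp only [ex]; field_simp; push_cast; ring
  have e3 : ex (k + 1) 0 - ex (k + 1) (0 + 1) = 0 := by simp [ex]
  have e4 : ∑ d ∈ Icc 1 (k + 1), Ew (k + 1) lev Z d (fun ω ω' => A ω * A ω') =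
      ∑ i ∈ range k, Ew (k + 1) lev Z (i + 1) (fun ω ω' => A ω * A ω') +
        Ce (ch lev) (ex (k + 1)) Z 0 (k + 1 + 1) A (w0 T I) ^ 2 := by
    rw [sum_Icc_succ_top (by omega), ← Finset.Ico_add_one_right_eq_Icc, sum_Ico_eq_sum_range,
      e (k + 1), hA.self _ _ _ le_rfl]
    simp only [add_tsub_cancel_right, add_comm 1]
  rw [sum_range_succ', e3, zero_mul, add_zero, e2] at h1
  simp only [e1, ← e, ← mul_sum] at h1
  rw [e4, mul_add, ← sub_sub]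
  rw [show ex (k + 1) 0 = 1 from rfl, one_mul] at h1
  exact h1

/-- reverse the sign `s` -/
def fp (s : T) (ω : Cf T I) : Cf T I := (Function.update ω.1 s (!ω.1 s), ω.2)

theorem idp_fp {A : Finset T} {u : Cf T I → ℝ} (h : Idp A u) {s : T} (hs : s ∈ A) (ω : Cf T I) :
    u (fp s ω) = u ω :=
  h _ _ _ fun t ht => Function.update_of_ne (by rintro rfl; exact ht hs) _ _

theorem idp_one {A : Finset T} {u : Cf T I → ℝ} (h : Idp A u) {s : T} (hs : s ∈ A) : Idp {s} u :=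
  fun e e' σ H => h e e' σ fun t ht => H t fun e => ht (mem_singleton.1 e ▸ hs)

theorem spin_fp (s : T) (ω : Cf T I) : spin ((fp s ω).1 s) = -spin (ω.1 s) := by
  simp only [fp, Function.update_self]
  cases ω.1 s <;> simp [spin]

theorem spin_ne {s t : T} (h : t ≠ s) (ω : Cf T I) : spin ((fp s ω).1 t) = spin (ω.1 t) := by
  simp only [fp, Function.update_of_ne h]

theorem spin_sq (b : Bool) : spin b * spin b = 1 := by cases b <;> simp [spin]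

theorem ev_odd (hR : RApi) (hl : LevOk n lev) {Z g : Cf T I → ℝ} {s : T} (hZ : Idp {s} Z)
    (h : ∀ ω, g (fp s ω) = -g ω) : Ev n lev Z g = 0 := by
  have h1 : Ev n lev Z (fun ω => g (fp s ω)) = _ := (hR.flip n lev s Z hl hZ).1 g
  have h2 := ev_lin (n := n) (lev := lev) Z g g (-1) 0
  simp only [neg_mul, one_mul, zero_mul, add_zero] at h2
  simp only [h, h2] at h1
  linarith

theorem ew_neg (hA : AApi) (Z : Cf T I → ℝ) (d : ℕ) (φ : Cf T I → Cf T I → ℝ) :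
    Ew n lev Z d (fun ω ω' => -φ ω ω') = -Ew n lev Z d φ := by
  have h2 := hA.e2add (ch lev) (ex n) Z (d + 1) (n + 1) φ φ (-1) 0 (w0 T I)
  simp only [neg_mul, one_mul, zero_mul, add_zero] at h2
  exact h2

theorem ev_pair (hR : RApi) (hl : LevOk n lev) {A : Finset T} {Z : Cf T I → ℝ} (hZ : Idp A Z)
    (w : T → T → Cf T I → ℝ) (hw : ∀ s ∈ A, ∀ s' ∈ A, Idp A (w s s')) :
    Ev n lev Z (fun ω => ∑ s ∈ A, ∑ s' ∈ A, spin (ω.1 s) * spin (ω.1 s') * w s s' ω) =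
      ∑ s ∈ A, Ev n lev Z (w s s) := by
  rw [ev_sum]
  refine sum_congr rfl fun s hs => ?_
  rw [ev_sum, sum_eq_single_of_mem s hs fun s' hs' hne => ?_]
  · simp only [spin_sq, one_mul]
  · refine ev_odd hR hl (idp_one hZ hs) fun ω => ?_
    rw [spin_fp, spin_ne hne, idp_fp (hw s hs s' hs') hs]; ring

theorem ew_pair (hA : AApi) (hF : FApi) (hR : RApi) (hn : 1 ≤ n) (hl : LevOk n lev) {A : Finset T}
    {Z : Cf T I → ℝ} (hZ : Idp A Z) (u : T → Cf T I → ℝ) (hu : ∀ s ∈ A, Idp A (u s)) {d : ℕ}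
    (hd : d ≤ n) :
    Ew n lev Z d (fun ω ω' => (∑ s ∈ A, spin (ω.1 s) * u s ω) * ∑ s ∈ A, spin (ω'.1 s) * u s ω') =
      ∑ s ∈ A, if d ≤ lev s then Ew n lev Z d (fun ω ω' => u s ω * u s ω') else 0 := by
  simp only [sum_mul_sum]
  rw [Ew, hA.e2sum]
  refine sum_congr rfl fun s hs => ?_
  have hf := (hR.flip n lev s Z hl (idp_one hZ hs)).2 d hd
  rw [hA.e2sum, sum_eq_single_of_mem s hs fun s' hs' hne => ?_]
  · split_ifs with h
    · refine hF.e2supp (hR.ok n lev hn).2 _ _ _ _ _ _ (fun ω ω' H => ?_) _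
      rw [← H s h]
      linear_combination u s ω * u s ω' * spin_sq (ω.1 s)
    · have h1 : Ew n lev Z d (fun ω ω' => spin ((fp s ω).1 s) * u s (fp s ω) *
          (spin (ω'.1 s) * u s ω')) = _ :=
        (hf fun ω ω' => spin (ω.1 s) * u s ω * (spin (ω'.1 s) * u s ω')).2 (by omega)
      simp only [spin_fp, idp_fp (hu s hs) hs, neg_mul, ew_neg hA] at h1
      show Ew n lev Z d _ = 0
      linarith
  · have h1 : Ew n lev Z d (fun ω ω' => spin ((fp s ω).1 s) * u s (fp s ω) *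
        (spin ((fp s ω').1 s') * u s' (fp s ω'))) = _ :=
      (hf fun ω ω' => spin (ω.1 s) * u s ω * (spin (ω'.1 s') * u s' ω')).1
    simp only [spin_fp, spin_ne hne, idp_fp (hu s hs) hs, idp_fp (hu s' hs') hs, neg_mul,
      ew_neg hA] at h1
    show Ew n lev Z d _ = 0
    linarith

theorem gm_eq (hA : AApi) (hF : FApi) (hR : RApi) (hn : 1 ≤ n) (hl : LevOk n lev) {A : Finset T}
    {Z : Cf T I → ℝ} (hZ : Idp A Z) (u : T → Cf T I → ℝ) (hu : ∀ s ∈ A, Idp A (u s))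
    (v : T → T → Cf T I → ℝ) (hv : ∀ s ∈ A, ∀ s' ∈ A, Idp A (v s s')) :
    Gm n lev Z A u v =
      (Ev n lev Z (fun ω => ∑ s ∈ A, ∑ s' ∈ A, spin (ω.1 s) * spin (ω.1 s') * v s s' ω) +
        Ev n lev Z (fun ω => (∑ s ∈ A, spin (ω.1 s) * u s ω) ^ 2) -
        (1 / (n : ℝ)) * ∑ d ∈ Icc 1 n, Ew n lev Z d (fun ω ω' =>
          (∑ s ∈ A, spin (ω.1 s) * u s ω) * ∑ s ∈ A, spin (ω'.1 s) * u s ω')) / 2 := by
  have e1 : (fun ω : Cf T I => (∑ s ∈ A, spin (ω.1 s) * u s ω) ^ 2) = fun ω =>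
      ∑ s ∈ A, ∑ s' ∈ A, spin (ω.1 s) * spin (ω.1 s') * (u s ω * u s' ω) := by
    ext ω
    rw [sq, sum_mul_sum]
    exact sum_congr rfl fun s _ => sum_congr rfl fun s' _ => by ring
  rw [e1, ev_pair hR hl hZ v hv, ev_pair hR hl hZ (fun s s' ω => u s ω * u s' ω)
    fun s hs s' hs' e e' σ H => by simp only [hu s hs e e' σ H, hu s' hs' e e' σ H],
    sum_congr rfl fun d hd => ew_pair hA hF hR hn hl hZ u hu (mem_Icc.1 hd).2, sum_comm, Gm,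
    mul_sum, ← sum_add_distrib, ← sum_sub_distrib, sum_div]
  refine sum_congr rfl fun s _ => ?_
  have e2 := ev_lin (n := n) (lev := lev) Z (v s s) (fun ω => u s ω * u s ω) 1 1
  simp only [one_mul] at e2
  have e3 : (Icc 1 n).filter (fun d => d ≤ lev s) = Icc 1 (lev s) := by
    ext d
    have := hl s
    simp only [mem_filter, mem_Icc]; omega
  rw [← sum_filter, e3, ← e2]
  simp only [sq]

theorem core (hA : AApi) (hR : RApi) {C : ℝ} (hn : 1 ≤ n) {Z Z' a1 a2 : Cf T I → ℝ} {b : ℝ}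
    (hL : ∀ (A : Cf T I → ℝ) (b : ℝ), (∀ ω, |A ω| ≤ b) → b ≤ 1 →
      |Xv n lev (Z + A) - Xv n lev Z - Ev n lev Z A - (Ev n lev Z (fun ω => A ω ^ 2) -
        (1 / (n : ℝ)) * ∑ d ∈ Icc 1 n, Ew n lev Z d (fun ω ω' => A ω * A ω')) / 2| ≤ C * b ^ 3)
    (hb : b ≤ 1) (h1 : ∀ ω, |a1 ω| ≤ b) (h2 : ∀ ω, |a2 ω| ≤ b ^ 2)
    (h3 : ∀ ω, |Z' ω - Z ω - a1 ω - a2 ω / 2| ≤ b ^ 3) (e0 : Ev n lev Z a1 = 0) {G : ℝ}
    (hG : G = (Ev n lev Z a2 + Ev n lev Z (fun ω => a1 ω ^ 2) -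
      (1 / (n : ℝ)) * ∑ d ∈ Icc 1 n, Ew n lev Z d (fun ω ω' => a1 ω * a1 ω')) / 2) :
    |Xv n lev Z' - Xv n lev Z - G| ≤ (4 * |C| + 14) * b ^ 3 ∧ |G| ≤ (4 * |C| + 14) * b ^ 2 := by
  have ok := (hR.ok (I := I) n lev hn).1
  have b0 : 0 ≤ b := (abs_nonneg _).trans (h1 (w0 T I))
  have hC := abs_nonneg C
  have mk := hA.ce ok Z 0 (n + 1) le_rfl
  have p1 : ∀ ω ω', |a1 ω * a1 ω'| ≤ b ^ 2 := fun ω ω' => by
    rw [abs_mul, sq]; exact mul_le_mul (h1 ω) (h1 ω') (abs_nonneg _) b0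
  have g1 : |Ev n lev Z a2| ≤ b ^ 2 := hA.abs_le mk h2 _
  have g2 : |Ev n lev Z (fun ω => a1 ω ^ 2)| ≤ b ^ 2 :=
    hA.abs_le mk (fun ω => by rw [sq]; exact p1 ω ω) _
  have g3 := avg_close (c := b ^ 2) hn (x := fun d => Ew n lev Z d (fun ω ω' => a1 ω * a1 ω'))
    (y := fun d => Ew n lev Z d (fun _ _ => 0)) fun d hd =>
      ew_close hA hR hn Z hd fun ω ω' => by rw [sub_zero]; exact p1 ω ω'
  rw [sum_congr rfl (g := fun _ => (0 : ℝ)) (f := fun d => Ew n lev Z d (fun _ _ => 0))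
    fun d hd => hA.e2const ok Z (d + 1) (by have := (mem_Icc.1 hd).2; omega) _ _,
    sum_const_zero, mul_zero, sub_zero] at g3
  have gG : |G| ≤ 3 / 2 * b ^ 2 := by
    rw [hG, abs_le]
    constructor <;> linarith [abs_le.1 g1, abs_le.1 g2, abs_le.1 g3]
  have b2 : b ^ 2 ≤ b := by nlinarith
  have b3 : b ^ 3 ≤ b ^ 2 := by nlinarith [sq_nonneg b]
  have b30 : 0 ≤ b ^ 3 := by positivity
  refine ⟨?_, by nlinarith [sq_nonneg b]⟩
  have xc : ∀ (W W' : Cf T I → ℝ) (c : ℝ), (∀ ω, |W' ω - W ω| ≤ c) →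
      |Xv n lev W' - Xv n lev W| ≤ c := fun W W' c H => by
    have x1 := hA.xle ok (Z := W') (Z' := W) (c := c) (fun ω => by linarith [abs_le.1 (H ω)])
      (n + 1) le_rfl (w0 T I)
    have x2 := hA.xle ok (Z := W) (Z' := W') (c := c) (fun ω => by linarith [abs_le.1 (H ω)])
      (n + 1) le_rfl (w0 T I)
    rw [abs_le, Xv, Xv]; constructor <;> linarith
  by_cases hs : b ≤ 2 / 3
  · have q1 : ∀ ω, |a1 ω + a2 ω / 2| ≤ 3 / 2 * b := fun ω => by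
      rw [abs_le]; constructor <;> linarith [abs_le.1 (h1 ω), abs_le.1 (h2 ω)]
    have q2 := hL (fun ω => a1 ω + a2 ω / 2) _ q1 (by linarith)
    have q3 := xc (Z + fun ω => a1 ω + a2 ω / 2) Z' (b ^ 3) fun ω => by
      rw [Pi.add_apply, ← sub_sub, ← sub_sub]; exact h3 ω
    have q4 := ev_lin (n := n) (lev := lev) Z a1 a2 1 (1 / 2)
    simp only [one_mul, e0, one_div_mul_eq_div] at q4
    have p2 : ∀ ω ω', |(a1 ω + a2 ω / 2) * (a1 ω' + a2 ω' / 2) - a1 ω * a1 ω'| ≤ 5 / 4 * b ^ 3 :=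
      fun ω ω' => by
        have r1 : |a1 ω * a2 ω'| ≤ b * b ^ 2 := by
          rw [abs_mul]; exact mul_le_mul (h1 ω) (h2 ω') (abs_nonneg _) b0
        have r2 : |a2 ω * (a1 ω' + a2 ω' / 2)| ≤ b ^ 2 * (3 / 2 * b) := by
          rw [abs_mul]; exact mul_le_mul (h2 ω) (q1 ω') (abs_nonneg _) (sq_nonneg b)
        rw [abs_le] at r1 r2 ⊢
        constructor <;> nlinarith
    have q5 := ev_close (lev := lev) hA hR hn Z (g := fun ω => (a1 ω + a2 ω / 2) ^ 2)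
      (h := fun ω => a1 ω ^ 2) fun ω => by rw [sq, sq]; exact p2 ω ω
    have q6 := avg_close hn (x := fun d => Ew n lev Z d
        (fun ω ω' => (a1 ω + a2 ω / 2) * (a1 ω' + a2 ω' / 2)))
      (y := fun d => Ew n lev Z d (fun ω ω' => a1 ω * a1 ω')) fun d hd => ew_close hA hR hn Z hd p2
    have q7 : C * (3 / 2 * b) ^ 3 ≤ 4 * |C| * b ^ 3 := by
      have := mul_le_mul_of_nonneg_right (le_abs_self C) b30
      nlinarith [mul_nonneg hC b30]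
    rw [q4] at q2
    rw [hG, abs_le]
    rw [abs_le] at q2 q3 q5 q6
    constructor <;> nlinarith
  · have q1 := xc Z Z' (5 / 2) fun ω => by
      rw [abs_le]
      constructor <;> linarith [abs_le.1 (h1 ω), abs_le.1 (h2 ω), abs_le.1 (h3 ω)]
    have q2 : (2 / 3 : ℝ) ^ 3 ≤ b ^ 3 := pow_le_pow_left₀ (by norm_num) (not_le.1 hs).le 3
    rw [abs_le] at q1 gG ⊢
    constructor <;> nlinarith [mul_nonneg hC b30]

end Grpm

open Grpm in
theorem grpStmt (hA : AApi) (hF : FApi) (hL1 : L1Stmt) (hR : RApi) : GrpStmt := by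
  obtain ⟨C, hL⟩ := hL1
  refine ⟨4 * |C| + 14, by positivity, fun T I _ _ _ _ n lev A Z Z' u v b hn hl hb hE => ?_⟩
  refine core hA hR hn (fun A b => lx hA hR hL hn Z A b) hb hE.bu hE.bv hE.tay ?_
    (gm_eq hA hF hR hn hl hE.iz u hE.iu v hE.iv)
  rw [ev_sum]
  refine sum_eq_zero fun s hs => ev_odd hR hl (idp_one hE.iz hs) fun ω => ?_
  rw [spin_fp, idp_fp (hE.iu s hs) hs]; ring

end Vale.Agent.P166
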