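import Vale.Agent.P166.Stm

/-! P166: the function `Gs` is Lipschitz. -/

namespace Vale.Agent.P166

open MeasureTheory Real

namespace Gsl

variable {μ : Measure ℝ} [IsProbabilityMeasure μ] {s L : ℝ}

lemma intg (h : ∀ᵐ t ∂μ, |t| ≤ L ∧ t ≤ s) {x b : ℝ} (hx : 0 ≤ x) (hb : x * s < b) :
    Integrable (fun t => log (b - x * t)) μ := by
  refine Integrable.of_bound (C := |log (b - x * s)| + |log (b + x * L)|) ?_ ?_
  · exact (Measurable.log (by fun_prop)).aestronglyMeasurable
  · filter_upwards [h] with t ht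
    have h1 : b - x * s ≤ b - x * t := by nlinarith [ht.2]
    have h2 : b - x * t ≤ b + x * L := by nlinarith [(abs_le.1 ht.1).1]
    have h0 : 0 < b - x * s := by linarith
    have l1 := log_le_log h0 h1
    have l2 := log_le_log (h0.trans_le h1) h2
    rw [Real.norm_eq_abs, abs_le]
    constructor
    · linarith [neg_abs_le (log (b - x * s)), abs_nonneg (log (b + x * L))]
    · linarith [le_abs_self (log (b + x * L)), abs_nonneg (log (b - x * s))]

lemma low (h : ∀ᵐ t ∂μ, |t| ≤ L ∧ t ≤ s) {x b : ℝ} (hx : 0 ≤ x) (hb : x * s < b) :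
    -(x * L) ≤ b - 1 - ∫ t, log (b - x * t) ∂μ := by
  have : ∫ t, log (b - x * t) ∂μ ≤ ∫ _t, (b + x * L - 1) ∂μ := by
    refine integral_mono_ae (intg h hx hb) (integrable_const _) ?_
    filter_upwards [h] with t ht
    have h1 : b - x * s ≤ b - x * t := by nlinarith [ht.2]
    have h2 : b - x * t ≤ b + x * L := by nlinarith [(abs_le.1 ht.1).1]
    have := log_le_sub_one_of_pos (show 0 < b - x * t by linarith)
    linarith
  simp only [integral_const, probReal_univ, one_smul] at this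
  linarith

lemma bdd (h : ∀ᵐ t ∂μ, |t| ≤ L ∧ t ≤ s) {x : ℝ} (hx : 0 ≤ x) :
    BddBelow ((fun b => b - 1 - ∫ t, log (b - x * t) ∂μ) '' Set.Ioi (x * s)) :=
  ⟨-(x * L), by rintro _ ⟨b, hb, rfl⟩; exact low h hx hb⟩

lemma one (h : ∀ᵐ t ∂μ, |t| ≤ L ∧ t ≤ s) (hs : |s| ≤ L) {x y : ℝ} (hx : 0 ≤ x) (hy : 0 ≤ y) :
    Gs μ s y ≤ Gs μ s x + L / 2 * |y - x| := by
  have key : ∀ t, |t| ≤ L → (y - x) * t ≤ L * |y - x| := fun t ht => by
    have h1 := le_abs_self ((y - x) * t)
    rw [abs_mul] at h1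
    nlinarith [abs_nonneg (y - x)]
  have : sInf ((fun b => b - 1 - ∫ t, log (b - y * t) ∂μ) '' Set.Ioi (y * s)) - L * |y - x| ≤
      sInf ((fun b => b - 1 - ∫ t, log (b - x * t) ∂μ) '' Set.Ioi (x * s)) := by
    refine le_csInf (Set.Nonempty.image _ Set.nonempty_Ioi) ?_
    rintro _ ⟨b, hb, rfl⟩
    have hb' : x * s < b := hb
    have hb2 : y * s < b + L * |y - x| := by nlinarith [key s hs]
    have h1 := csInf_le (bdd h hy) ⟨b + L * |y - x|, hb2, rfl⟩
    have h2 : ∫ t, log (b - x * t) ∂μ ≤ ∫ t, log (b + L * |y - x| - y * t) ∂μ := by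
      refine integral_mono_ae (intg h hx hb') (intg h hy hb2) ?_
      filter_upwards [h] with t ht
      refine log_le_log (by nlinarith [ht.2]) (by nlinarith [key t ht.1])
    simp only at h1 ⊢
    linarith
  unfold Gs
  linarith

end Gsl

theorem gslStmt : GslStmt := by
  intro μ s L hμ h hs x x' hx hxx
  have h1 := Gsl.one h hs hx (hx.trans hxx)
  have h2 := Gsl.one h hs (hx.trans hxx) hx
  rw [abs_of_nonneg (by linarith : 0 ≤ x' - x)] at h1
  rw [abs_sub_comm, abs_of_nonneg (by linarith : 0 ≤ x' - x)] at h2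
  rw [abs_le]
  constructor <;> linarith

end Vale.Agent.P166
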