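import Vale.Agent.P166.Stm

/-! P166: the Haar level, comparison of several systems. -/

namespace Vale.Agent.P166

open MeasureTheory Finset Real Vale.Agent.P157

namespace H

section
variable {E : Type} [TopologicalSpace E] [CompactSpace E] [MeasurableSpace E] [BorelSpace E]
  (ν : Measure E) [IsProbabilityMeasure ν]

theorem int {f : E → ℝ} (hf : Continuous f) : Integrable f ν :=
  hf.integrable_of_hasCompactSupport (HasCompactSupport.of_compactSpace _)

theorem pos {X : E → ℝ} (hX : Continuous X) : 0 < ∫ U, exp (X U) ∂ν :=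
  integral_exp_pos (int ν (continuous_exp.comp hX))

theorem le_of {X X' : E → ℝ} (hX : Continuous X) (hX' : Continuous X') {n c : ℝ} (hn : 0 < n)
    (h : ∀ U, X U ≤ X' U + c) :
    n * log (∫ U, exp (X U / n) ∂ν) ≤ n * log (∫ U, exp (X' U / n) ∂ν) + c := by
  have p1 := pos ν (hX.div_const n)
  have p2 := pos ν (hX'.div_const n)
  have h1 : ∫ U, exp (X U / n) ∂ν ≤ (∫ U, exp (X' U / n) ∂ν) * exp (c / n) := by
    rw [← integral_mul_const]
    refine integral_mono (int ν (continuous_exp.comp (hX.div_const n)))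
      (int ν ((continuous_exp.comp (hX'.div_const n)).mul continuous_const)) fun U => ?_
    simp only [← exp_add, ← add_div]
    exact exp_le_exp.2 (div_le_div_of_nonneg_right (h U) hn.le)
  have h2 := log_le_log p1 h1
  rw [log_mul p2.ne' (exp_pos _).ne', log_exp] at h2
  have h3 := mul_le_mul_of_nonneg_left h2 hn.le
  have h4 : n * (c / n) = c := by field_simp
  nlinarith

theorem eq_of {X : E → ℝ} (hX : Continuous X) {n c : ℝ} (hn : 0 < n) :
    n * log (∫ U, exp ((X U + c) / n) ∂ν) = n * log (∫ U, exp (X U / n) ∂ν) + c := by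
  have p1 := pos ν (hX.div_const n)
  simp only [add_div, exp_add]
  rw [integral_mul_const, log_mul p1.ne' (exp_pos _).ne', log_exp]
  field_simp

theorem incr_of {X X' G : E → ℝ} (hX : Continuous X) (hX' : Continuous X') (hG : Continuous G)
    {n δ γ : ℝ} (hn : 1 ≤ n) (hγ : ∀ U, |G U| ≤ γ) (hb : γ + δ ≤ 1)
    (h : ∀ U, |X' U - X U - G U| ≤ δ) :
    |n * log (∫ U, exp (X' U / n) ∂ν) - n * log (∫ U, exp (X U / n) ∂ν) -
      ∫ U, exp ((X U - n * log (∫ U, exp (X U / n) ∂ν)) / n) * G U ∂ν| ≤ δ + (γ + δ) ^ 2 := by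
  have hn0 : 0 < n := by linarith
  have p1 := pos ν (hX.div_const n)
  set T := n * log (∫ U, exp (X U / n) ∂ν) with hT
  set W : E → ℝ := fun U => exp ((X U - T) / n) with hW
  have cW : Continuous W := continuous_exp.comp ((hX.sub continuous_const).div_const n)
  have W0 : ∀ U, 0 < W U := fun U => exp_pos _
  have eT : exp (T / n) = ∫ U, exp (X U / n) ∂ν := by
    rw [hT, mul_div_cancel_left₀ _ hn0.ne', exp_log p1]
  have hW1 : ∫ U, W U ∂ν = 1 := by
    simp only [hW, sub_div, exp_sub]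
    rw [integral_div, eT, div_self p1.ne']
  set Δ : E → ℝ := fun U => X' U - X U with hΔ
  have cΔ : Continuous Δ := hX'.sub hX
  have bΔ : ∀ U, |Δ U| ≤ γ + δ := fun U => by
    have := abs_add_le (G U) (Δ U - G U)
    rw [add_sub_cancel] at this
    linarith [hγ U, h U]
  set m := ∫ U, W U * Δ U ∂ν with hm
  set S := ∫ U, W U * exp (Δ U / n) ∂ν with hS
  have cS : Continuous fun U => W U * exp (Δ U / n) :=
    cW.mul (continuous_exp.comp (cΔ.div_const n))
  have e1 : ∫ U, exp (X' U / n) ∂ν = S * exp (T / n) := by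
    rw [hS, ← integral_mul_const]
    refine integral_congr_ae (ae_of_all _ fun U => ?_)
    simp only [hW, hΔ, ← exp_add]
    congr 1; ring
  have lo : exp (m / n) ≤ S := by
    have : ∫ U, (exp (m / n) * (1 - m / n) * W U + exp (m / n) / n * (W U * Δ U)) ∂ν ≤ S := by
      refine integral_mono (int ν (by fun_prop)) (int ν cS) fun U => ?_
      have h1 := add_one_le_exp (Δ U / n - m / n)
      have h2 : exp (Δ U / n) = exp (m / n) * exp (Δ U / n - m / n) := by
        rw [← exp_add]; congr 1; ring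
      have h3 := mul_le_mul_of_nonneg_left h1 (mul_pos (W0 U) (exp_pos (m / n))).le
      simp only
      rw [h2]
      calc _ = W U * exp (m / n) * (Δ U / n - m / n + 1) := by ring
        _ ≤ _ := h3
        _ = _ := by ring
    rw [integral_add (int ν (by fun_prop)) (int ν (by fun_prop)), integral_const_mul,
      integral_const_mul, hW1, ← hm] at this
    calc exp (m / n) = exp (m / n) * (1 - m / n) * 1 + exp (m / n) / n * m := by ring
      _ ≤ S := this
  have hi : S ≤ 1 + m / n + (γ + δ) ^ 2 / n := by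
    have : S ≤ ∫ U, ((1 + (γ + δ) ^ 2 / n) * W U + 1 / n * (W U * Δ U)) ∂ν := by
      refine integral_mono (int ν cS) (int ν (by fun_prop)) fun U => ?_
      have b1 : |Δ U / n| ≤ |Δ U| := by
        rw [abs_div, abs_of_pos hn0]
        exact div_le_self (abs_nonneg _) hn
      have h1 := abs_exp_sub_one_sub_id_le (x := Δ U / n) (by linarith [bΔ U])
      have h2 : (Δ U / n) ^ 2 ≤ (γ + δ) ^ 2 / n := by
        have a1 : Δ U ^ 2 ≤ (γ + δ) ^ 2 := sq_le_sq' (abs_le.1 (bΔ U)).1 (abs_le.1 (bΔ U)).2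
        rw [div_pow]
        refine (div_le_div_of_nonneg_right a1 (by positivity)).trans ?_
        exact div_le_div_of_nonneg_left (sq_nonneg _) hn0 (by nlinarith)
      have h3 : exp (Δ U / n) ≤ 1 + Δ U / n + (γ + δ) ^ 2 / n := by
        linarith [(abs_le.1 h1).2]
      have h4 := mul_le_mul_of_nonneg_left h3 (W0 U).le
      simp only
      calc _ ≤ _ := h4
        _ = _ := by ring
    rw [integral_add (int ν (by fun_prop)) (int ν (by fun_prop)), integral_const_mul,
      integral_const_mul, hW1, ← hm] at this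
    calc S ≤ _ := this
      _ = _ := by ring
  have S0 : 0 < S := (exp_pos _).trans_le lo
  have e2 : n * log (∫ U, exp (X' U / n) ∂ν) - T = n * log S := by
    rw [e1, log_mul S0.ne' (exp_pos _).ne', log_exp]
    field_simp
    ring
  have l1 : m ≤ n * log S := by
    have := log_le_log (exp_pos _) lo
    rw [log_exp, div_le_iff₀ hn0] at this
    linarith
  have l2 : n * log S ≤ m + (γ + δ) ^ 2 := by
    have h1 := log_le_sub_one_of_pos S0
    have h2 : log S ≤ (m + (γ + δ) ^ 2) / n := by rw [add_div]; linarith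
    rw [le_div_iff₀ hn0] at h2
    linarith
  have l3 : |m - ∫ U, W U * G U ∂ν| ≤ δ := by
    rw [hm, ← integral_sub (int ν (by fun_prop)) (int ν (by fun_prop))]
    have : ∫ U, δ * W U ∂ν = δ := by rw [integral_const_mul, hW1, mul_one]
    rw [← this]
    refine (abs_integral_le_integral_abs).trans (integral_mono (int ν (by fun_prop))
      (int ν (by fun_prop)) fun U => ?_)
    simp only
    rw [← mul_sub, abs_mul, abs_of_pos (W0 U), mul_comm]
    exact mul_le_mul_of_nonneg_right (h U) (W0 U).le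
  rw [e2]
  have := abs_le.1 l3
  have s0 := sq_nonneg (γ + δ)
  exact abs_le.2 ⟨by linarith [this.1], by linarith [this.2]⟩

end

section
variable {T T' I : Type} [Fintype T] [DecidableEq T] [Fintype T'] [DecidableEq T'] [Fintype I]
  [DecidableEq I]

theorem cX (hR : RApi) {n : ℕ} (lev : T → ℕ) {Z : OG I → Cf T I → ℝ} (hn : 1 ≤ n) (hZ : Ct Z) :
    Continuous fun U => Xv n lev (Z U) :=
  (hR.cont n lev Z Z (fun _ _ _ => 0) hn hZ).1 (n + 1) (w0 T I) le_rfl

theorem ptw (hR : RApi) {ν : Measure (OG I)} {n : ℕ} (lev : T → ℕ) (lev' : T' → ℕ)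
    {Z : OG I → Cf T I → ℝ} {Z' : OG I → Cf T' I → ℝ} (c : ℝ) (hν : Haar ν) (hn : 1 ≤ n)
    (hZ : Ct Z) (hZ' : Ct Z') (h : ∀ U, Xv n lev (Z U) ≤ Xv n lev' (Z' U) + c) :
    TH ν n lev Z ≤ TH ν n lev' Z' + c := by
  have := hν.prob
  exact le_of ν (cX hR lev hn hZ) (cX hR lev' hn hZ') (by exact_mod_cast hn) h

theorem same (hR : RApi) {ν : Measure (OG I)} {n : ℕ} (lev : T → ℕ) (lev' : T' → ℕ)
    {Z : OG I → Cf T I → ℝ} {Z' : OG I → Cf T' I → ℝ} (c : ℝ) (hν : Haar ν) (hn : 1 ≤ n)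
    (hZ : Ct Z) (h : ∀ U, Xv n lev' (Z' U) = Xv n lev (Z U) + c) :
    TH ν n lev' Z' = TH ν n lev Z + c ∧
      (∀ g g', (∀ U, Ev n lev' (Z' U) (g' U) = Ev n lev (Z U) (g U)) →
        EH ν n lev' Z' g' = EH ν n lev Z g) ∧
      ∀ d φ φ', (∀ U, Ew n lev' (Z' U) d (φ' U) = Ew n lev (Z U) d (φ U)) →
        EW ν n lev' Z' d φ' = EW ν n lev Z d φ := by
  have := hν.prob
  have h1 : TH ν n lev' Z' = TH ν n lev Z + c := by
    unfold TH
    simp only [h]
    exact eq_of ν (cX hR lev hn hZ) (by exact_mod_cast hn)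
  refine ⟨h1, fun g g' hg => ?_, fun d φ φ' hφ => ?_⟩
  · unfold EH
    simp only [h, h1, hg, add_sub_add_right_eq_sub]
  · unfold EW
    simp only [h, h1, hφ, add_sub_add_right_eq_sub]

theorem inv (h1 : H1Stmt) (hR : RApi) {ν : Measure (OG I)} {n : ℕ} {lev : T → ℕ}
    {Z : OG I → Cf T I → ℝ} {F : Finset T} {𝓡 : Set (OG I)} {δ : ℝ} (hν : Haar ν) (hn : 1 ≤ n)
    (hZ : Ct Z) (hI : InvP n lev Z F 𝓡 δ) (R : OG I) (hRm : R ∈ 𝓡) (lev' : T' → ℕ) (f : T → T')
    (hf : Emb lev lev' f) (hl : LevOk n lev') (V : OG I → Cf T' I → ℝ) (hV : Ct V)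
    (hi : ∀ U, Idp (F.image f) (V U)) :
    |TH ν n lev' (fun U ω => Z U (pull f ω) + V U ω) -
      TH ν n lev' (fun U ω => Z U (pull f ω) + V (R * U) ω)| ≤ δ := by
  have cm : Continuous fun U : OG I => R * U := continuous_const.mul continuous_id
  have c1 : Ct (fun U ω => Z U (pull f ω) + V U ω) := fun ω => (hZ _).add (hV ω)
  have c2 : Ct (fun U ω => Z U (pull f ω) + V (R * U) ω) := fun ω => (hZ _).add ((hV ω).comp cm)
  have c3 : Ct (fun U ω => Z (R * U) (pull f ω) + V (R * U) ω) := fun ω =>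
    ((hZ _).comp cm).add ((hV ω).comp cm)
  have e := ((h1 T' I ν n lev' _ hν hn c1).invL R).1
  have hp := fun U => abs_le.1 (hI R hRm U T' lev' f hf hl (V (R * U)) (hi _))
  have a1 := ptw hR lev' lev' δ hν hn c3 c2 fun U => by linarith [(hp U).2]
  have a2 := ptw hR lev' lev' δ hν hn c2 c3 fun U => by linarith [(hp U).1]
  rw [← e]
  exact abs_le.2 ⟨by linarith, by linarith⟩

theorem inh {n : ℕ} {lev : T → ℕ} {Z : OG I → Cf T I → ℝ} {F : Finset T}
    {𝓡 𝓡' : Set (OG I)} {δ δ' : ℝ} (hI : InvP n lev Z F 𝓡 δ) (hs : 𝓡' ⊆ 𝓡) (hδ : δ ≤ δ')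
    (lev' : T' → ℕ) (f : T → T') (hf : Emb lev lev' f) (V : OG I → Cf T' I → ℝ)
    (hi : ∀ U, Idp (F.image f) (V U)) (hV : ∀ R ∈ 𝓡', ∀ U, V (R * U) = V U) :
    InvP n lev' (fun U ω => Z U (pull f ω) + V U ω) (F.image f) 𝓡' δ' := by
  intro R hR U T'' _ _ lev'' f' hf' hl V' hi'
  have hE : Emb lev lev'' (f' ∘ f) :=
    ⟨hf'.1.comp hf.1, fun s => (hf'.2 (f s)).trans (hf.2 s)⟩
  have hid : Idp (F.image (f' ∘ f)) (fun ω => V U (pull f' ω) + V' ω) := by
    intro e e' σ he
    have a1 : V U (e ∘ f', σ) = V U (e' ∘ f', σ) := by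
      refine hi U _ _ σ fun s hs' => he _ fun hm => hs' ?_
      obtain ⟨t, ht, e1⟩ := mem_image.1 hm
      exact mem_image.2 ⟨t, ht, hf'.1 e1⟩
    have a2 : V' (e, σ) = V' (e', σ) := by
      refine hi' e e' σ fun s hs' => he s ?_
      rwa [Finset.image_image] at hs'
    exact congrArg₂ (· + ·) a1 a2
  have := hI R (hs hR) U T'' lev'' (f' ∘ f) hE hl _ hid
  simp only [hV R hR U, add_assoc]
  exact this.trans hδ

end

theorem ctz (hO : OApi) {κ I Ts : Type} [Fintype I] [DecidableEq I] (S : Sys κ I Ts) (D n : ℕ)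
    (y : κ → ℕ → ℝ) : Ct (S.Z D n y) ∧ (LevOk n S.levs → LevOk n (S.lev D n)) := by
  refine ⟨fun ω => ?_, fun h s => ?_⟩
  · unfold Sys.Z
    refine (Continuous.add (continuous_finsetSum _ fun i _ => ?_)
      (continuous_finsetSum _ fun s _ => ?_)).add continuous_const
    · exact (continuous_const.mul ((hO.cont _ i).pow 2)).div_const _
    · exact continuous_const.mul (continuous_const.mul (hO.cont _ _))
  · rcases s with s | s
    · exact s.2.1.2
    · exact h s

end H

theorem hApi (h1 : H1Stmt) (hA : AApi) (hO : OApi) (hR : RApi) : HApi where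
  one := fun lev _ hν hn hZ => h1 _ _ _ _ lev _ hν hn hZ
  ptw := H.ptw hR
  le := fun lev _ _ c hν hn hZ hZ' h => H.ptw hR lev lev c hν hn hZ hZ' fun U =>
    hA.xle (hR.ok _ lev hn).1 (h U) _ le_rfl _
  incr := fun lev _ _ G δ γ hν hn hZ hZ' hG hγ hb h => by
    have := hν.prob
    exact H.incr_of _ (H.cX hR lev hn hZ) (H.cX hR lev hn hZ') hG (by exact_mod_cast hn) hγ hb h
  same := H.same hR
  inv := H.inv h1 hR
  inh := H.inh
  ctz := H.ctz hO

end Vale.Agent.P166
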