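import Vale.Agent.P166.Stm
import Vale.Agent.P157.A

namespace Vale.Agent.P166

open MeasureTheory Finset Real Vale.Agent.P157

namespace H1

section gen
variable {X : Type} [TopologicalSpace X] [CompactSpace X] [MeasurableSpace X] [BorelSpace X]
  (ν : Measure X) [IsProbabilityMeasure ν]

theorem integ {f : X → ℝ} (hf : Continuous f) : Integrable f ν :=
  hf.integrable_of_hasCompactSupport (HasCompactSupport.of_compactSpace f)

noncomputable def th (N : ℝ) (x : X → ℝ) : ℝ := N * log (∫ U, exp (x U / N) ∂ν)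

noncomputable def av (N : ℝ) (x G : X → ℝ) : ℝ := ∫ U, exp ((x U - th ν N x) / N) * G U ∂ν

variable {ν} {N : ℝ} {x x' G G' : X → ℝ}

theorem ipos (hx : Continuous x) : 0 < ∫ U, exp (x U) ∂ν :=
  integral_exp_pos (integ ν (by fun_prop))

theorem exp_th (hN : 0 < N) (hx : Continuous x) : exp (th ν N x / N) = ∫ U, exp (x U / N) ∂ν := by
  unfold th
  rw [mul_div_cancel_left₀ _ hN.ne', exp_log (ipos (x := fun U => x U / N) (by fun_prop))]

theorem av_exp (hN : 0 < N) (hx' : Continuous x') :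
    av ν N x (fun U => exp ((x' U - x U) / N)) = exp ((th ν N x' - th ν N x) / N) := by
  unfold av
  have : ∀ U, exp ((x U - th ν N x) / N) * exp ((x' U - x U) / N) =
      exp (-(th ν N x / N)) * exp (x' U / N) := by
    intro U; rw [← exp_add, ← exp_add]; congr 1; ring
  simp only [this]
  rw [integral_const_mul, ← exp_th hN hx', ← exp_add]; congr 1; ring

theorem av_lin (hx : Continuous x) (hG : Continuous G) (hG' : Continuous G') (a b : ℝ) :
    av ν N x (fun U => a * G U + b * G' U) = a * av ν N x G + b * av ν N x G' := by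
  unfold av
  rw [← integral_const_mul, ← integral_const_mul,
    ← integral_add (integ ν (by fun_prop)) (integ ν (by fun_prop))]
  congr 1; ext U; ring

theorem av_smul (c : ℝ) : av ν N x (fun U => c * G U) = c * av ν N x G := by
  unfold av
  rw [← integral_const_mul]
  congr 1; ext U; ring

theorem av_sum {J : Type} (s : Finset J) (g : J → X → ℝ) (hx : Continuous x)
    (hg : ∀ j ∈ s, Continuous (g j)) :
    av ν N x (fun U => ∑ j ∈ s, g j U) = ∑ j ∈ s, av ν N x (g j) := by
  unfold av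
  rw [← integral_finsetSum _ (fun j hj => integ ν (by have := hg j hj; fun_prop))]
  congr 1; ext U; rw [mul_sum]

theorem av_mono (hx : Continuous x) (hG : Continuous G) (hG' : Continuous G')
    (h : ∀ U, G U ≤ G' U) : av ν N x G ≤ av ν N x G' :=
  integral_mono (integ ν (by fun_prop)) (integ ν (by fun_prop))
    (fun U => mul_le_mul_of_nonneg_left (h U) (exp_pos _).le)

theorem av_const (hN : 0 < N) (hx : Continuous x) (c : ℝ) : av ν N x (fun _ => c) = c := by
  have h1 := av_exp (ν := ν) (x := x) hN hx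
  simp only [sub_self, zero_div, exp_zero] at h1
  have h2 := av_smul (ν := ν) (N := N) (x := x) (G := fun _ => 1) c
  simp only [mul_one, h1] at h2
  exact h2

theorem av_aff (hN : 0 < N) (hx : Continuous x) (hG : Continuous G) (a b : ℝ) :
    av ν N x (fun U => a + b * G U) = a + b * av ν N x G := by
  have := av_lin (ν := ν) (N := N) hx (continuous_const (y := (1 : ℝ))) hG a b
  simp only [mul_one, av_const hN hx] at this
  exact this

theorem av_pos (hx : Continuous x) (hG : Continuous G) (h : ∀ U, 0 < G U) : 0 < av ν N x G := by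
  unfold av
  have : ∀ U, exp ((x U - th ν N x) / N) * G U = exp ((x U - th ν N x) / N + log (G U)) := by
    intro U; rw [exp_add, exp_log (h U)]
  simp only [this]
  have hl : Continuous fun U => log (G U) := hG.log (fun U => (h U).ne')
  exact ipos (by fun_prop)

theorem av_sq (hN : 0 < N) (hx : Continuous x) (hG : Continuous G) :
    av ν N x G ^ 2 ≤ av ν N x (fun U => G U ^ 2) := by
  set c := av ν N x G with hc
  have h1 := av_mono (ν := ν) (N := N) hx (G := fun U => -c ^ 2 + 2 * c * G U)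
    (G' := fun U => G U ^ 2) (by fun_prop) (by fun_prop) (fun U => by nlinarith [sq_nonneg (G U - c)])
  rw [av_aff hN hx hG, ← hc] at h1
  linarith

theorem low (hN : 0 < N) (hx : Continuous x) (hx' : Continuous x') (hG : Continuous G)
    (h : ∀ U, x U + G U ≤ x' U) : th ν N x + av ν N x G ≤ th ν N x' := by
  set c := av ν N x G with hc
  have h1 := av_mono (ν := ν) (N := N) hx
    (G := fun U => exp (c / N) * (1 - c / N) + exp (c / N) / N * G U)
    (G' := fun U => exp ((x' U - x U) / N)) (by fun_prop) (by fun_prop) (fun U => by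
      have h2 := add_one_le_exp ((G U - c) / N)
      have h3 : exp (c / N) * exp ((G U - c) / N) ≤ exp ((x' U - x U) / N) := by
        rw [← exp_add, ← add_div]
        exact exp_le_exp.2 (div_le_div_of_nonneg_right (by linarith [h U]) hN.le)
      have h4 := mul_le_mul_of_nonneg_left h2 (exp_pos (c / N)).le
      calc _ = exp (c / N) * ((G U - c) / N + 1) := by ring
        _ ≤ _ := h4.trans h3)
  rw [av_aff hN hx hG, ← hc, av_exp hN hx'] at h1
  have h2 : exp (c / N) ≤ exp ((th ν N x' - th ν N x) / N) := by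
    calc _ = exp (c / N) * (1 - c / N) + exp (c / N) / N * c := by ring
      _ ≤ _ := h1
  have h3 := (div_le_div_iff_of_pos_right hN).1 (exp_le_exp.1 h2)
  linarith

theorem thle (hN : 0 < N) (hx : Continuous x) (hx' : Continuous x') (c : ℝ)
    (h : ∀ U, x U ≤ x' U + c) : th ν N x ≤ th ν N x' + c := by
  have := low (ν := ν) hN hx hx' (G := fun _ => -c) continuous_const (fun U => by linarith [h U])
  rw [av_const hN hx] at this
  linarith

theorem lowexp (hN : 0 < N) (hx : Continuous x) (hx' : Continuous x') (hG : Continuous G)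
    (h0 : ∀ U, 0 < G U) (h : ∀ U, x U + N * log (G U) ≤ x' U) :
    th ν N x + N * log (av ν N x G) ≤ th ν N x' := by
  have h1 := av_mono (ν := ν) (N := N) hx hG (G' := fun U => exp ((x' U - x U) / N)) (by fun_prop)
    (fun U => by
      rw [← exp_log (h0 U), exp_le_exp, le_div_iff₀ hN]; linarith [h U])
  rw [av_exp hN hx'] at h1
  have h2 := log_le_log (av_pos hx hG h0) h1
  rw [log_exp, le_div_iff₀ hN] at h2
  linarith

theorem xup (hN : 1 ≤ N) (hx : Continuous x) (hx' : Continuous x') (hG : Continuous G)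
    (h0 : ∀ U, 0 < G U) (h : ∀ U, x' U ≤ x U + log (G U)) :
    th ν N x' ≤ th ν N x + log (av ν N x G) := by
  have hN0 : 0 < N := by linarith
  have hu := av_pos (ν := ν) (N := N) hx hG h0
  set u := av ν N x G with hu'
  have h1 := av_mono (ν := ν) (N := N) hx (G := fun U => exp ((x' U - x U) / N))
    (G' := fun U => exp (log u / N) * (1 - 1 / N) + exp (log u / N) * (1 / N) / u * G U)
    (by fun_prop) (by fun_prop) (fun U => by
      have hc := convexOn_exp.2 (Set.mem_univ (log (G U) - log u)) (Set.mem_univ 0)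
        (show 0 ≤ 1 / N by positivity) (sub_nonneg.2 ((div_le_one hN0).2 hN)) (by ring)
      simp only [smul_eq_mul, mul_zero, add_zero, exp_zero, mul_one] at hc
      rw [exp_sub, exp_log hu, exp_log (h0 U)] at hc
      have h3 : exp ((x' U - x U) / N) ≤ exp (log u / N) * exp (1 / N * (log (G U) - log u)) := by
        rw [← exp_add]
        refine exp_le_exp.2 ?_
        have : log u / N + 1 / N * (log (G U) - log u) = log (G U) / N := by ring
        rw [this]
        exact div_le_div_of_nonneg_right (by linarith [h U]) hN0.le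
      calc _ ≤ _ := h3
        _ ≤ exp (log u / N) * (1 / N * (G U / u) + (1 - 1 / N)) :=
          mul_le_mul_of_nonneg_left hc (exp_pos _).le
        _ = _ := by ring)
  rw [av_aff hN0 hx hG, ← hu', av_exp hN0 hx'] at h1
  have h2 : exp ((th ν N x' - th ν N x) / N) ≤ exp (log u / N) := by
    calc _ ≤ _ := h1
      _ = _ := by field_simp; ring
  have h3 := (div_le_div_iff_of_pos_right hN0).1 (exp_le_exp.1 h2)
  linarith

theorem chg (hN : 1 ≤ N) (hx : Continuous x) (hx' : Continuous x') (hG : Continuous G)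
    (hG' : Continuous G') {B K : ℝ} (hB : ∀ U, |x' U - x U| ≤ B) (h0 : ∀ U, 0 ≤ G' U)
    (h : ∀ U, G' U ≤ K * G U) : av ν N x' G' ≤ exp (2 * B) * K * av ν N x G := by
  have hN0 : 0 < N := by linarith
  have h1 := thle (ν := ν) hN0 hx hx' B (fun U => by linarith [(abs_le.1 (hB U)).1])
  rw [← av_smul]
  refine integral_mono (integ ν (by fun_prop)) (integ ν (by fun_prop)) (fun U => ?_)
  have hB0 : 0 ≤ B := (abs_nonneg _).trans (hB U)
  have h2 : exp ((x' U - th ν N x') / N) ≤ exp ((x U - th ν N x) / N) * exp (2 * B) := by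
    rw [← exp_add]
    refine exp_le_exp.2 ?_
    have h3 : 2 * B / N ≤ 2 * B := div_le_self (by linarith) hN
    have h4 : (x' U - th ν N x') / N ≤ (x U - th ν N x + 2 * B) / N :=
      div_le_div_of_nonneg_right (by linarith [(abs_le.1 (hB U)).2]) hN0.le
    rw [add_div] at h4
    linarith
  calc exp ((x' U - th ν N x') / N) * G' U
      ≤ exp ((x U - th ν N x) / N) * exp (2 * B) * (K * G U) :=
        mul_le_mul h2 (h U) (h0 U) (by positivity)
    _ = _ := by ring

theorem lowb (hN : 0 < N) (hx : Continuous x) (hx' : Continuous x') (hG : Continuous G)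
    (hG' : Continuous G') (hle : ∀ U, x U ≤ x' U) (h0 : ∀ U, 0 ≤ G' U)
    (h : ∀ U, exp ((x' U - x U) / N) * G' U ≤ G U) : av ν N x' G' ≤ av ν N x G := by
  have h1 := thle (ν := ν) hN hx hx' 0 (fun U => by linarith [hle U])
  refine integral_mono (integ ν (by fun_prop)) (integ ν (by fun_prop)) (fun U => ?_)
  have h2 : exp ((x' U - th ν N x') / N) ≤ exp ((x U - th ν N x) / N) * exp ((x' U - x U) / N) := by
    rw [← exp_add, ← add_div]
    exact exp_le_exp.2 (div_le_div_of_nonneg_right (by linarith) hN.le)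
  calc exp ((x' U - th ν N x') / N) * G' U
      ≤ exp ((x U - th ν N x) / N) * exp ((x' U - x U) / N) * G' U :=
        mul_le_mul_of_nonneg_right h2 (h0 U)
    _ ≤ _ := by rw [mul_assoc]; exact mul_le_mul_of_nonneg_left (h U) (exp_pos _).le

theorem th_shift (hN : 0 < N) (hx : Continuous x) (c : ℝ) :
    th ν N (fun U => x U + c) = th ν N x + c := by
  have h1 := thle (ν := ν) hN (x := fun U => x U + c) (by fun_prop) hx c (fun _ => le_rfl)
  have h2 := thle (ν := ν) hN hx (x' := fun U => x U + c) (by fun_prop) (-c) (fun _ => by linarith)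
  linarith

theorem inv (τ : X → X) (hτ : ∀ f : X → ℝ, Continuous f → ∫ U, f (τ U) ∂ν = ∫ U, f U ∂ν)
    (hx : Continuous x) : th ν N (fun U => x (τ U)) = th ν N x ∧
      ∀ G, Continuous G → av ν N (fun U => x (τ U)) (fun U => G (τ U)) = av ν N x G := by
  have h1 : th ν N (fun U => x (τ U)) = th ν N x := by
    unfold th
    rw [hτ (fun U => exp (x U / N)) (by fun_prop)]
  refine ⟨h1, fun G hG => ?_⟩
  unfold av
  rw [h1]
  exact hτ (fun U => exp ((x U - th ν N x) / N) * G U) (by fun_prop)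

theorem top {J : Type} [Fintype J] [Nonempty J] (hN : 0 < N) (hx : Continuous x) (y : J → X → ℝ)
    (hy : ∀ e, Continuous (y e))
    (h : ∀ U, exp (x U / N) = (∑ e, exp (y e U / N)) / (Fintype.card J : ℝ)) {t δ : ℝ}
    (ht : ∀ e, |th ν N (y e) - t| ≤ δ) : |th ν N x - t| ≤ δ := by
  have hc : (0 : ℝ) < Fintype.card J := by exact_mod_cast Fintype.card_pos
  have h1 : exp (th ν N x / N) = (∑ e, exp (th ν N (y e) / N)) / (Fintype.card J : ℝ) := by
    rw [exp_th hN hx]
    simp only [h, exp_th hN (hy _)]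
    rw [integral_div, integral_finsetSum _ (fun e _ => integ ν (by have := hy e; fun_prop))]
  have h2 : exp (th ν N x / N) ≤ exp ((t + δ) / N) := by
    rw [h1, div_le_iff₀' hc]
    refine (sum_le_card_nsmul _ _ (exp ((t + δ) / N)) (fun e _ => exp_le_exp.2
      (div_le_div_of_nonneg_right (by linarith [(abs_le.1 (ht e)).2]) hN.le))).trans ?_
    simp
  have h3 : exp ((t - δ) / N) ≤ exp (th ν N x / N) := by
    rw [h1, le_div_iff₀' hc]
    refine le_trans ?_ (card_nsmul_le_sum _ _ (exp ((t - δ) / N)) (fun e _ => exp_le_exp.2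
      (div_le_div_of_nonneg_right (by linarith [(abs_le.1 (ht e)).1]) hN.le)))
    simp
  have h4 := (div_le_div_iff_of_pos_right hN).1 (exp_le_exp.1 h2)
  have h5 := (div_le_div_iff_of_pos_right hN).1 (exp_le_exp.1 h3)
  rw [abs_le]; constructor <;> linarith

end gen

section abst
variable {Ω : Type} {P : ℕ → Op Ω} {m : ℕ → ℝ} {t : ℕ}

theorem xshift (h : Ok P m t) (Z : Ω → ℝ) (c : ℝ) (j : ℕ) (hj : j ≤ t) (ω : Ω) :
    XX P m (fun x => Z x + c) j ω = XX P m Z j ω + c := by
  have h1 := Aa.xle h (Z := fun x => Z x + c) (Z' := Z) (c := c) (fun _ => le_rfl) j hj ω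
  have h2 := Aa.xle h (Z := Z) (Z' := fun x => Z x + c) (c := -c) (fun _ => by linarith) j hj ω
  linarith

theorem cshift (h : Ok P m t) (Z : Ω → ℝ) (c : ℝ) (g : Ω → ℝ) (j : ℕ) (hj : j ≤ t) :
    Ce P m (fun x => Z x + c) 0 j g = Ce P m Z 0 j g := by
  induction j with
  | zero => rfl
  | succ j ih =>
    ext ω
    rw [Aa.ce_succ _ (Nat.zero_le j), Aa.ce_succ _ (Nat.zero_le j), ih (by omega),
      Aa.qq_chg Z (fun x => Z x + c)]
    simp only [xshift h Z c j (by omega), xshift h Z c (j + 1) hj, add_sub_cancel_left]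
    rw [Aa.smul', ← mul_assoc, ← exp_add]; simp

theorem e2one' (h : Ok P m t) (Z : Ω → ℝ) (l : ℕ) (hl : l ≤ t) (u : Ω → ℝ) (ω : Ω) :
    E2 P m Z l t (fun _ x => u x) ω = Ce P m Z 0 t u ω := by
  unfold E2
  simp only [Aa.const (Aa.ce h Z 0 l hl)]
  exact congrFun (Aa.comp P m Z (Nat.zero_le l) hl u) ω

theorem sum' {κ : Type} (Pp : Op Ω) (s : Finset κ) (g : κ → Ω → ℝ) (ω : Ω) :
    Pp (fun x => ∑ k ∈ s, g k x) ω = ∑ k ∈ s, Pp (g k) ω := by
  have : (fun x => ∑ k ∈ s, g k x) = ∑ k ∈ s, g k := by ext x; simp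
  rw [this, map_sum]; simp

end abst

end H1

open H1 in
theorem h1Stmt (_hA : AApi) (_hF : FApi) (_hO : OApi) (hR : RApi) (hQ : QApi) : H1Stmt := by
  intro T I _ _ _ _ ν n lev Z hν hn hZ
  haveI := hν.prob
  have hN1 : (1 : ℝ) ≤ n := by exact_mod_cast hn
  have hN : (0 : ℝ) < n := by linarith
  have ok := (hR.ok (I := I) n lev hn).1
  have mk := fun Y : Cf T I → ℝ => Aa.ce ok Y 0 (n + 1) le_rfl
  have cX : ∀ Y : OG I → Cf T I → ℝ, Ct Y → Continuous fun U => Xv n lev (Y U) := fun Y hY =>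
    (hR.cont n lev Y Y (fun _ _ _ => 0) hn hY).1 (n + 1) _ le_rfl
  have cE : ∀ Y g : OG I → Cf T I → ℝ, Ct Y → Ct g → Continuous fun U => Ev n lev (Y U) (g U) :=
    fun Y g hY hg => (hR.cont n lev Y g (fun _ _ _ => 0) hn hY).2.1 hg 0 (n + 1) _ le_rfl
  have cW : ∀ (Y : OG I → Cf T I → ℝ) (φ : OG I → Cf T I → Cf T I → ℝ) (d : ℕ), d ≤ n → Ct Y →
      Ct2 φ → Continuous fun U => Ew n lev (Y U) d (φ U) :=
    fun Y φ d hd hY hφ => (hR.cont n lev Y Y φ hn hY).2.2 hφ d hd
  have cA : ∀ A : OG I → Cf T I → ℝ, Ct A → Ct fun U ω => Z U ω + A U ω :=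
    fun A hA ω => (hZ ω).add (hA ω)
  have hx := cX Z hZ
  have eT : ∀ Y : OG I → Cf T I → ℝ, TH ν n lev Y = th ν n (fun U => Xv n lev (Y U)) := fun _ => rfl
  have eH : ∀ Y g : OG I → Cf T I → ℝ, EH ν n lev Y g =
      av ν n (fun U => Xv n lev (Y U)) (fun U => Ev n lev (Y U) (g U)) := fun _ _ => rfl
  have eW : ∀ (Y : OG I → Cf T I → ℝ) d (φ : OG I → Cf T I → Cf T I → ℝ), EW ν n lev Y d φ =
      av ν n (fun U => Xv n lev (Y U)) (fun U => Ew n lev (Y U) d (φ U)) := fun _ _ _ => rfl
  have low' : ∀ A, Ct A → TH ν n lev Z + EH ν n lev Z A ≤ TH ν n lev (fun U ω => Z U ω + A U ω) :=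
    fun A hA => low hN hx (cX _ (cA A hA)) (cE Z A hZ hA)
      (fun U => Aa.xlow ok (Z U) (A U) (n + 1) le_rfl _)
  have xup' : ∀ A, Ct A → TH ν n lev (fun U ω => Z U ω + A U ω) ≤
      TH ν n lev Z + log (EH ν n lev Z (fun U ω => exp (A U ω))) :=
    fun A hA => xup hN1 hx (cX _ (cA A hA))
      (cE Z (fun U ω => exp (A U ω)) hZ (fun ω => by have := hA ω; fun_prop))
      (fun U => Aa.epos (mk _) _ _) (fun U => Aa.xup ok (Z U) (A U) (n + 1) le_rfl _)
  have lin' : ∀ (g h : OG I → Cf T I → ℝ) (a b : ℝ), Ct g → Ct h →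
      EH ν n lev Z (fun U ω => a * g U ω + b * h U ω) = a * EH ν n lev Z g + b * EH ν n lev Z h := by
    intro g h a b hg hh
    rw [eH, eH, eH, ← av_lin hx (cE Z g hZ hg) (cE Z h hZ hh)]
    congr 1; ext U
    unfold Ev
    rw [Aa.add', Aa.smul', Aa.smul']
  have mono' : ∀ (g h : OG I → Cf T I → ℝ), Ct g → Ct h → (∀ U ω, g U ω ≤ h U ω) →
      EH ν n lev Z g ≤ EH ν n lev Z h := fun g h hg hh H =>
    av_mono hx (cE Z g hZ hg) (cE Z h hZ hh) (fun U => Aa.mono' (mk _) (H U) _)
  have const' : ∀ c : ℝ, EH ν n lev Z (fun _ _ => c) = c := by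
    intro c
    rw [eH]
    have : (fun U => Ev n lev (Z U) (fun _ => c)) = fun _ => c := funext fun U => Aa.const (mk _) c _
    rw [this, av_const hN hx]
  have inv' : ∀ τ : OG I → OG I,
      (∀ f : OG I → ℝ, Continuous f → ∫ U, f (τ U) ∂ν = ∫ U, f U ∂ν) →
      TH ν n lev (fun U => Z (τ U)) = TH ν n lev Z ∧
      (∀ g, Ct g → EH ν n lev (fun U => Z (τ U)) (fun U => g (τ U)) = EH ν n lev Z g) ∧
      ∀ d, d ≤ n → ∀ φ, Ct2 φ →
        EW ν n lev (fun U => Z (τ U)) d (fun U => φ (τ U)) = EW ν n lev Z d φ := fun τ hτ =>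
    ⟨(inv τ hτ hx).1, fun g hg => (inv τ hτ hx).2 _ (cE Z g hZ hg),
      fun d hd φ hφ => (inv τ hτ hx).2 _ (cW Z φ d hd hZ hφ)⟩
  refine
    { low := low'
      lowexp := fun A hA => lowexp hN hx (cX _ (cA A hA))
        (cE Z (fun U ω => exp (A U ω / n)) hZ (fun ω => by have := hA ω; fun_prop))
        (fun U => Aa.epos (mk _) _ _) (fun U => hQ.lowexp n hn ok (Z U) (A U) _)
      xup := xup'
      first := ?_
      lin := lin'
      sum := ?_
      mono := mono'
      const := const'
      sq := ?_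
      lin2 := ?_
      sum2 := ?_
      mono2 := fun d hd φ ψ hφ hψ H => av_mono hx (cW Z φ d hd hZ hφ) (cW Z ψ d hd hZ hψ)
        (fun U => Aa.e2mono ok _ (d + 1) (by omega) (H U) _)
      const2 := ?_
      sq2 := ?_
      one := ?_
      anti := ?_
      chg := ?_
      lowb := ?_
      shift := ?_
      invL := fun R => inv' (fun U => R * U) (hν.left R)
      invR := fun R => inv' (fun U => U * R) (hν.right R)
      top := ?_ }
  · intro A b hA hb hb1
    have h1 := low' A hA
    have h2 := xup' A hA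
    have cexp : Ct fun U ω => exp (A U ω) := fun ω => by have := hA ω; fun_prop
    have h3 := mono' (fun U ω => exp (A U ω)) (fun U ω => (1 + b ^ 2) * 1 + 1 * A U ω) cexp
      (fun ω => by have := hA ω; fun_prop) (fun U ω => by
        have h4 := Real.abs_exp_sub_one_sub_id_le (x := A U ω) ((hb U ω).trans hb1)
        have h5 : A U ω ^ 2 ≤ b ^ 2 := by
          rw [← sq_abs]; exact pow_le_pow_left₀ (abs_nonneg _) (hb U ω) 2
        linarith [(abs_le.1 h4).2])
    rw [lin' (fun _ _ => 1) A _ _ (fun _ => continuous_const) hA, const'] at h3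
    have h4 : 0 < EH ν n lev Z (fun U ω => exp (A U ω)) :=
      av_pos hx (cE Z _ hZ cexp) (fun U => Aa.epos (mk _) _ _)
    have h5 := log_le_sub_one_of_pos h4
    rw [abs_le]
    constructor <;> nlinarith [sq_nonneg b]
  · intro J s g hg
    simp only [eH]
    rw [← av_sum s (fun j U => Ev n lev (Z U) (g j U)) hx (fun j hj => cE Z _ hZ (hg j hj))]
    congr 1; ext U
    exact sum' _ s (fun j => g j U) _
  · intro g hg
    refine (av_sq hN hx (cE Z g hZ hg)).trans ?_
    refine av_mono hx ((cE Z g hZ hg).pow 2)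
      (cE Z (fun U ω => g U ω ^ 2) hZ (fun ω => (hg ω).pow 2)) (fun U => ?_)
    simp only [sq]
    exact Aa.sq1 (mk _) _ _
  · intro d hd φ ψ a b hφ hψ
    rw [eW, eW, eW, ← av_lin hx (cW Z φ d hd hZ hφ) (cW Z ψ d hd hZ hψ)]
    congr 1; ext U
    exact Aa.e2add _ _ _ _ _ _ _ _ _ _
  · intro d hd J s φ hφ
    simp only [eW]
    rw [← av_sum s (fun j U => Ew n lev (Z U) d (φ j U)) hx (fun j hj => cW Z _ d hd hZ (hφ j hj))]
    congr 1; ext U
    exact Aa.e2sum _ _ _ _ _ s (fun j => φ j U) _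
  · intro d hd c
    rw [eW]
    have : (fun U => Ew n lev (Z U) d (fun _ _ => c)) = fun _ => c :=
      funext fun U => Aa.e2const ok _ (d + 1) (by omega) c _
    rw [this, av_const hN hx]
  · intro d hd φ hφ
    refine (av_sq hN hx (cW Z φ d hd hZ hφ)).trans ?_
    refine av_mono hx ((cW Z φ d hd hZ hφ).pow 2)
      (cW Z (fun U ω ω' => φ U ω ω' ^ 2) d hd hZ (fun ω ω' => (hφ ω ω').pow 2)) (fun U => ?_)
    exact Aa.e2sq ok _ (d + 1) (by omega) _ _
  · intro d hd g hg
    constructor
    · rw [eW, eH]; congr 1; ext U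
      exact Aa.e2one ok _ (d + 1) (by omega) _ _
    · rw [eW, eH]; congr 1; ext U
      exact e2one' ok _ (d + 1) (by omega) _ _
  · intro d d' hd hd' g hg
    have c2 : Ct2 fun U ω ω' => g U ω * g U ω' := fun ω ω' => (hg ω).mul (hg ω')
    refine ⟨?_, ?_, ?_⟩
    · have := av_mono (ν := ν) (N := n) hx (G := fun _ => 0) continuous_const (cW Z _ d' hd' hZ c2)
        (fun U => (Aa.e2anti ok (Z U) (g U) (d + 1) (d' + 1) (by omega) (by omega) _).1)
      rwa [av_const hN hx] at this
    · exact av_mono hx (cW Z _ d' hd' hZ c2) (cW Z _ d (by omega) hZ c2)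
        (fun U => (Aa.e2anti ok (Z U) (g U) (d + 1) (d' + 1) (by omega) (by omega) _).2)
    · refine av_mono hx (cW Z _ d (by omega) hZ c2)
        (cE Z (fun U ω => g U ω ^ 2) hZ (fun ω => (hg ω).pow 2)) (fun U => ?_)
      refine (Aa.e2anti ok (Z U) (g U) 0 (d + 1) (by omega) (by omega) _).2.trans (le_of_eq ?_)
      unfold E2 Ev
      simp only [Aa.self _ _ _ (le_refl 0), sq]
  · intro A B hA hB
    have hb : ∀ U, |Xv n lev (fun ω => Z U ω + A U ω) - Xv n lev (Z U)| ≤ B :=
      fun U => Aa.dbd ok (Z U) (A U) (hB U) (n + 1) le_rfl _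
    refine ⟨fun g hg h0 => ?_, fun d hd φ hφ h0 => ?_⟩
    · have := chg (ν := ν) hN1 hx (cX _ (cA A hA)) (cE Z g hZ hg) (cE _ g (cA A hA) hg) hb
        (fun U => (mk _).1 _ (h0 U) _)
        (fun U => Aa.chg ok (Z U) (A U) B (hB U) 0 (n + 1) le_rfl (g U) (h0 U) _)
      rw [← exp_add, show 2 * B + 2 * B = 4 * B by ring] at this
      exact this
    · have := chg (ν := ν) hN1 hx (cX _ (cA A hA)) (cW Z φ d hd hZ hφ) (cW _ φ d hd (cA A hA) hφ) hb
        (fun U => by
          have := Aa.e2mono ok (fun ω => Z U ω + A U ω) (d + 1) (by omega) (φ := fun _ _ => 0)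
            (h0 U) (w0 T I)
          rwa [Aa.e2const ok _ (d + 1) (by omega)] at this)
        (fun U => Aa.chg2 ok (Z U) (A U) B (hB U) (d + 1) (by omega) (φ U) (h0 U) _)
      rw [← exp_add, show 2 * B + 6 * B = 8 * B by ring] at this
      exact this
  · intro A g hA hg hA0 hg0
    exact lowb hN hx (cX _ (cA A hA))
      (cE Z (fun U ω => exp (A U ω) * g U ω) hZ (fun ω => by have := hA ω; have := hg ω; fun_prop))
      (cE _ g (cA A hA) hg)
      (fun U => by
        have := Aa.xle ok (Z := Z U) (Z' := fun ω => Z U ω + A U ω) (c := 0)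
          (fun ω => by linarith [hA0 U ω]) (n + 1) le_rfl (w0 T I)
        rwa [add_zero] at this)
      (fun U => (mk _).1 _ (hg0 U) _)
      (fun U => hQ.lowb n ok (Z U) (A U) (g U) (hA0 U) (hg0 U) _)
  · intro c
    have e1 : (fun U => Xv n lev (fun ω => Z U ω + c)) = fun U => Xv n lev (Z U) + c :=
      funext fun U => xshift ok (Z U) c (n + 1) le_rfl _
    have h1 : TH ν n lev (fun U ω => Z U ω + c) = TH ν n lev Z + c := by
      rw [eT, eT, e1, th_shift hN hx]
    refine ⟨h1, fun g => ?_⟩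
    unfold EH
    rw [h1]
    congr 1; ext U
    rw [congrFun e1 U]
    unfold Ev
    rw [cshift ok (Z U) c (g U) (n + 1) le_rfl]
    congr 3; ring
  · intro A t δ hA ht
    exact top hN hx (fun e U => Xv n lev (fun ω => Z U (frz A e ω)))
      (fun e => cX (fun U ω => Z U (frz A e ω)) (fun ω => hZ _))
      (fun U => hR.top n lev A (Z U) hn hA) ht

end Vale.Agent.P166
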