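import Vale.Agent.P166.Stm

/-! P166: a left invariant probability measure on the orthogonal group is right invariant. -/

namespace Vale.Agent.P166

open MeasureTheory Finset Real Vale.Agent.P157

namespace Hr

variable {I : Type} [Fintype I] [DecidableEq I]

theorem inv_eq (ν : Measure (OG I)) [IsProbabilityMeasure ν] [ν.IsMulLeftInvariant]
    (f : OG I → ℝ) (hf : Continuous f) : ∫ U, f U⁻¹ ∂ν = ∫ U, f U ∂ν := by
  have hc : Continuous (fun p : OG I × OG I => f (p.1⁻¹ * p.2)) :=
    hf.comp ((continuous_fst.inv).mul continuous_snd)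
  have hi : Integrable (Function.uncurry fun x y : OG I => f (x⁻¹ * y)) (ν.prod ν) :=
    hc.integrable_of_hasCompactSupport (HasCompactSupport.of_compactSpace _)
  have h := integral_integral_swap hi
  have h1 : ∀ x : OG I, ∫ y, f (x⁻¹ * y) ∂ν = ∫ U, f U ∂ν := fun x =>
    integral_mul_left_eq_self f x⁻¹
  have h2 : ∀ y : OG I, ∫ x, f (x⁻¹ * y) ∂ν = ∫ U, f U⁻¹ ∂ν := fun y => by
    have := integral_mul_left_eq_self (μ := ν) (fun U : OG I => f U⁻¹) y⁻¹
    simpa using this
  simp only [h1, h2, integral_const, probReal_univ, one_smul] at h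
  exact h.symm

end Hr

theorem hrStmt : HrStmt := by
  intro I _ _ ν hp hl
  refine ⟨hp, fun g f _ => integral_mul_left_eq_self f g, fun g f hf => ?_⟩
  have h1 := Hr.inv_eq ν (fun U => f (U * g)) (hf.comp (continuous_id.mul continuous_const))
  have h2 := integral_mul_left_eq_self (μ := ν) (fun U : OG I => f U⁻¹) g⁻¹
  have h3 := Hr.inv_eq ν f hf
  simp only [mul_inv_rev, inv_inv] at h2
  rw [← h1, h2, h3]

end Vale.Agent.P166
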