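import Vale.Agent.P166.Stm

namespace Vale.Agent.P166

open Finset Real Vale.Agent.P157

set_option linter.unusedSectionVars false

namespace Isom

variable {T I : Type} [Fintype T] [DecidableEq T] [Fintype I] [DecidableEq I]

theorem ev_sum {J : Type} (n : ℕ) (lev : T → ℕ) (Z : Cf T I → ℝ) (s : Finset J)
    (g : J → Cf T I → ℝ) : ∑ j ∈ s, Ev n lev Z (g j) = Ev n lev Z (fun ω => ∑ j ∈ s, g j ω) := by
  have : (fun ω => ∑ j ∈ s, g j ω) = ∑ j ∈ s, g j := by ext ω; simp [Finset.sum_apply]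
  rw [this, Ev, map_sum, Finset.sum_apply]
  rfl

/-- coefficient of the sign `t` -/
noncomputable def uu {n : ℕ} (g : Fin n × I → T) (a : Fin n × I → (I → Bool) → ℝ) (t : T)
    (ω : Cf T I) : ℝ := ∑ r, if g r = t then a r ω.2 else 0

theorem uu_g {n : ℕ} {g : Fin n × I → T} (hg : Function.Injective g)
    (a : Fin n × I → (I → Bool) → ℝ) (r : Fin n × I) : uu g a (g r) = fun ω => a r ω.2 := by
  ext ω; simp [uu, hg.eq_iff]

theorem gm_eq (hA : AApi) {n : ℕ} (lev : T → ℕ) (B : Cf T I → ℝ) {g : Fin n × I → T}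
    (hg : Function.Injective g) (hl : ∀ r, lev (g r) = r.1) (a : Fin n × I → (I → Bool) → ℝ) :
    Gm n lev B (univ.image g) (uu g a) (fun _ _ _ => 0) =
      ∑ l : Fin n, (Ev n lev B (fun ω => ∑ i, a (l, i) ω.2 * a (l, i) ω.2) -
        (1 / (n : ℝ)) * ∑ d ∈ Icc 1 (l : ℕ),
          Ew n lev B d (fun ω ω' => ∑ i, a (l, i) ω.2 * a (l, i) ω'.2)) / 2 := by
  rw [Gm, sum_image fun _ _ _ _ h => hg h, Fintype.sum_prod_type]
  refine sum_congr rfl fun l _ => ?_
  simp only [uu_g hg, hl, zero_add, sq]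
  rw [← sum_div, sum_sub_distrib, ← mul_sum, ev_sum, sum_comm]
  simp only [Ew, hA.e2sum]

theorem round (hA : AApi) {C : ℝ} (hC : ∀ (T I : Type) [Fintype T] [DecidableEq T] [Fintype I]
      [DecidableEq I] (n : ℕ) (lev : T → ℕ) (A : Finset T) (Z Z' : Cf T I → ℝ)
      (u : T → Cf T I → ℝ) (v : T → T → Cf T I → ℝ) (b : ℝ), 1 ≤ n → LevOk n lev → b ≤ 1 →
      Exq A Z Z' u v b → |Xv n lev Z' - Xv n lev Z - Gm n lev Z A u v| ≤ C * b ^ 3 ∧
        |Gm n lev Z A u v| ≤ C * b ^ 2)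
    {n : ℕ} (hn : 1 ≤ n) (lev : T → ℕ) (hlev : LevOk n lev) (B : Cf T I → ℝ) {g : Fin n × I → T}
    (hg : Function.Injective g) (hl : ∀ r, lev (g r) = r.1) (hB : Idp (univ.image g) B)
    (a a' : Fin n × I → (I → Bool) → ℝ) (b : ℝ) (hb : b ≤ 1) (ha : ∀ σ, ∑ r, |a r σ| ≤ b)
    (ha' : ∀ σ, ∑ r, |a' r σ| ≤ b)
    (he : ∀ l σ σ', ∑ i, a (l, i) σ * a (l, i) σ' = ∑ i, a' (l, i) σ * a' (l, i) σ') :
    |Xv n lev (fun ω => B ω + ∑ r, spin (ω.1 (g r)) * a r ω.2) -
      Xv n lev (fun ω => B ω + ∑ r, spin (ω.1 (g r)) * a' r ω.2)| ≤ 2 * C * b ^ 3 := by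
  have b0 : 0 ≤ b := (sum_nonneg fun _ _ => abs_nonneg _).trans (ha fun _ => true)
  have key : ∀ a : Fin n × I → (I → Bool) → ℝ, (∀ σ, ∑ r, |a r σ| ≤ b) →
      |Xv n lev (fun ω => B ω + ∑ r, spin (ω.1 (g r)) * a r ω.2) - Xv n lev B -
        Gm n lev B (univ.image g) (uu g a) (fun _ _ _ => 0)| ≤ C * b ^ 3 := fun a ha => by
    have hs : ∀ ω : Cf T I, ∑ s ∈ univ.image g, spin (ω.1 s) * uu g a s ω =
        ∑ r, spin (ω.1 (g r)) * a r ω.2 := fun ω => by
      rw [sum_image fun _ _ _ _ h => hg h]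
      simp only [uu_g hg]
    refine (hC T I n lev _ B _ (uu g a) (fun _ _ _ => 0) b hn hlev hb
      ⟨hB, fun _ _ _ _ _ _ => rfl, fun _ _ _ _ _ _ _ _ => rfl, fun ω => ?_, fun ω => ?_,
        fun ω => ?_⟩).1
    · rw [hs]
      refine (abs_sum_le_sum_abs _ _).trans (le_trans (le_of_eq ?_) (ha ω.2))
      refine sum_congr rfl fun r _ => ?_
      have : |spin (ω.1 (g r))| = 1 := by unfold spin; split_ifs <;> simp
      rw [abs_mul, this, one_mul]
    · simp only [mul_zero, sum_const_zero, abs_zero]; positivity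
    · rw [hs]
      simp only [mul_zero, sum_const_zero, zero_div, add_sub_cancel_left, sub_self,
        abs_zero]
      positivity
  have h1 := key a ha
  have h2 := key a' ha'
  rw [gm_eq hA lev B hg hl] at h1 h2
  simp only [he] at h1
  rw [abs_le] at h1 h2 ⊢
  constructor <;> linarith [h1.1, h1.2, h2.1, h2.2]

theorem tele (F : ℕ → ℝ) (c : ℝ) : ∀ D : ℕ, (∀ t < D, |F (t + 1) - F t| ≤ c) → |F D - F 0| ≤ D * c
  | 0, _ => by simp
  | D + 1, h => by
    have h1 := tele F c D fun t ht => h t (by omega)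
    have h2 := abs_sub_le (F (D + 1)) (F D) (F 0)
    have h3 := h D (by omega)
    push_cast; linarith

end Isom

theorem isoStmt (hA : AApi) (hO : OApi) (h : GrpStmt) : IsoStmt := by
  obtain ⟨C, hC0, hC⟩ := h
  intro n N Y δ hn hδ
  set β := (n : ℝ) * N * (|Y| * √(N : ℝ)) with hβ
  have β0 : 0 ≤ β := by positivity
  set M := 1 + β + 2 * C * β ^ 3 / δ with hM
  have e0 : 0 ≤ 2 * C * β ^ 3 / δ := by positivity
  refine ⟨⌈M ^ 2⌉₊, fun D hD κ I Ts _ _ _ _ S y hN hy R hR U T' _ _ lev' f hf hlev V hV => ?_⟩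
  have hMD : M ≤ √(D : ℝ) := Real.le_sqrt_of_sq_le ((Nat.le_ceil _).trans (by exact_mod_cast hD))
  have sD : 0 < √(D : ℝ) := by linarith
  set a : OG I → Fin n × I → (I → Bool) → ℝ :=
    fun W r σ => y (S.c r.2) r.1 / √(D : ℝ) * yy W σ r.2 with ha
  set Wt : Fin D → OG I → Cf T' I → ℝ :=
    fun t W ω => ∑ r, spin (ω.1 (f (Sum.inl (t, r)))) * a W r ω.2 with hWt
  set B0 : Cf T' I → ℝ := fun ω =>
    ∑ i, S.lam (S.c i) * yy U ω.2 i ^ 2 / 2 + S.SF (pull Sum.inr (pull f ω)) + V ω with hB0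
  set H : ℕ → Cf T' I → ℝ := fun t ω =>
    B0 ω + ∑ t' : Fin D, if (t' : ℕ) < t then Wt t' (R * U) ω else Wt t' U ω with hH
  have h0 : H 0 = fun ω => S.Z D n y U (pull f ω) + V ω := by
    ext ω
    simp only [hH, hB0, hWt, ha, Sys.Z, Nat.not_lt_zero, if_false]
    rw [Fintype.sum_prod_type]
    simp only [pull, Function.comp]
    ring
  have h1 : H D = fun ω => S.Z D n y (R * U) (pull f ω) + V ω := by
    ext ω
    have e := hO.blk S.c R U hR (fun k => S.lam k / 2) ω.2 ω.2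
    have e1 : ∀ W : OG I, ∑ i, S.lam (S.c i) * yy W ω.2 i ^ 2 / 2 =
        ∑ i, S.lam (S.c i) / 2 * (yy W ω.2 i * yy W ω.2 i) := fun W =>
      sum_congr rfl fun i _ => by ring
    simp only [hH, hB0, hWt, ha, Sys.Z, Fin.is_lt, if_true]
    rw [Fintype.sum_prod_type]
    simp only [pull, Function.comp]
    rw [e1, e1, e]
    ring
  have hab : ∀ W σ, ∑ r, |a W r σ| ≤ β / √(D : ℝ) := fun W σ => by
    have hN' : (Fintype.card I : ℝ) ≤ N := by exact_mod_cast hN
    refine (sum_le_sum (g := fun _ => |Y| * √(N : ℝ) / √(D : ℝ)) fun r _ => ?_).trans ?_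
    · simp only [ha]
      rw [abs_mul, abs_div, abs_of_pos sD, div_mul_eq_mul_div]
      refine div_le_div_of_nonneg_right (mul_le_mul ((hy _ _ r.1.2).trans (le_abs_self _))
        ((hO.bd W σ r.2).2.trans (sqrt_le_sqrt hN')) (abs_nonneg _) (abs_nonneg _)) sD.le
    · rw [sum_const, card_univ, Fintype.card_prod, Fintype.card_fin, nsmul_eq_mul, hβ,
        mul_div_assoc (n * N : ℝ)]
      push_cast
      gcongr
  have step : ∀ t < D, |Xv n lev' (H (t + 1)) - Xv n lev' (H t)| ≤ 2 * C * (β / √(D : ℝ)) ^ 3 := by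
    intro t ht
    set τ : Fin D := ⟨t, ht⟩ with hτ
    have hg : Function.Injective fun r : Fin n × I => f (Sum.inl (τ, r)) := fun r r' e => by
      simpa using hf.1 e
    set B : Cf T' I → ℝ := fun ω => B0 ω +
      ∑ t' ∈ univ.erase τ, if (t' : ℕ) < t then Wt t' (R * U) ω else Wt t' U ω with hB
    have e1 : H (t + 1) = fun ω => B ω + Wt τ (R * U) ω := by
      ext ω
      simp only [hH, hB]
      have : (∑ t' ∈ univ.erase τ, if (t' : ℕ) < t + 1 then Wt t' (R * U) ω else Wt t' U ω) =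
          ∑ t' ∈ univ.erase τ, if (t' : ℕ) < t then Wt t' (R * U) ω else Wt t' U ω :=
        sum_congr rfl fun t' h' => by
          have : (t' : ℕ) ≠ t := fun e => ne_of_mem_erase h' (Fin.ext e)
          exact if_congr (by omega) rfl rfl
      rw [← add_sum_erase _ _ (mem_univ τ), if_pos (by simp [hτ]), this]
      ring
    have e2 : H t = fun ω => B ω + Wt τ U ω := by
      ext ω
      simp only [hH, hB]
      rw [← add_sum_erase _ _ (mem_univ τ), if_neg (by simp [hτ])]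
      ring
    rw [e1, e2]
    refine Isom.round hA hC hn lev' hlev B hg (fun r => hf.2 _) ?_ (a (R * U)) (a U) _
      (by rw [div_le_one sD]; linarith) (hab _) (hab _) fun l σ σ' => ?_
    · intro e e' σ hee
      have n1 : ∀ s, e (f (Sum.inr s)) = e' (f (Sum.inr s)) := fun s => hee _ fun hm => by
        obtain ⟨r, -, hr⟩ := mem_image.1 hm
        simpa using hf.1 hr
      have n2 : ∀ t' ∈ univ.erase τ, ∀ W, Wt t' W (e, σ) = Wt t' W (e', σ) := fun t' h' W =>
        sum_congr rfl fun r _ => by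
          rw [show (e, σ).1 (f (Sum.inl (t', r))) = (e', σ).1 (f (Sum.inl (t', r))) from
            hee _ fun hm => by
              obtain ⟨r', -, hr⟩ := mem_image.1 hm
              have := hf.1 hr
              simp only [Sum.inl.injEq, Prod.mk.injEq] at this
              exact ne_of_mem_erase h' this.1.symm]
      have n3 : V (e, σ) = V (e', σ) := hV e e' σ fun s hs => hee s fun hm => hs (by
        obtain ⟨r, -, rfl⟩ := mem_image.1 hm
        exact mem_image_of_mem _ (mem_image_of_mem _ (mem_univ _)))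
      have n4 : pull Sum.inr (pull f (e, σ)) = pull Sum.inr (pull f (e', σ)) :=
        Prod.ext (funext n1) rfl
      simp only [hB, hB0, n3, n4]
      congr 1
      exact sum_congr rfl fun t' h' => by rw [n2 t' h', n2 t' h']
    · have e := hO.blk S.c R U hR (fun k => (y k l / √(D : ℝ)) ^ 2) σ σ'
      have e1 : ∀ W : OG I, ∑ i, a W (l, i) σ * a W (l, i) σ' =
          ∑ i, (y (S.c i) l / √(D : ℝ)) ^ 2 * (yy W σ i * yy W σ' i) := fun W =>
        sum_congr rfl fun i _ => by simp only [ha]; ring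
      rw [e1, e1, e]
  have fin := Isom.tele (fun t => Xv n lev' (H t)) _ D step
  simp only [h0, h1] at fin
  refine fin.trans ?_
  have e3 : (D : ℝ) * (2 * C * (β / √(D : ℝ)) ^ 3) = 2 * C * β ^ 3 / √(D : ℝ) := by
    have : (D : ℝ) = √(D : ℝ) ^ 2 := (Real.sq_sqrt (Nat.cast_nonneg _)).symm
    generalize √(D : ℝ) = q at this sD
    rw [this]; field_simp
  rw [e3, div_le_iff₀ sD]
  have e4 : 2 * C * β ^ 3 / δ ≤ √(D : ℝ) := by linarith
  rw [div_le_iff₀ hδ] at e4
  linarith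

end Vale.Agent.P166
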