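import Vale.Agent.P166.Stm

namespace Vale.Agent.P166

open MeasureTheory Finset Real Filter Vale.Agent.P157

noncomputable section

namespace Lb

lemma climb {Y : Type} (G : ℕ → Y → ℝ) (Q : Y → Prop) (m b N j0 : ℕ) (a : ℝ) (hm : m ≤ j0)
    (h : ∀ j, m ≤ j → j + b ≤ N → ∀ y', Q y' → ∃ y, Q y ∧ G j y' + b * a ≤ G (j + b) y)
    (y0 : Y) (h0 : Q y0) (r : ℕ) (hr : j0 + r * b ≤ N) :
    ∃ y, Q y ∧ G j0 y0 + (r * b : ℕ) * a ≤ G (j0 + r * b) y := by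
  induction r with
  | zero => exact ⟨y0, h0, by simp⟩
  | succ r ih =>
    have e : j0 + (r + 1) * b = j0 + r * b + b := by ring
    obtain ⟨y, hq, hy⟩ := ih (by omega)
    obtain ⟨y', hq', hy'⟩ := h (j0 + r * b) (by omega) (by omega) y hq
    refine ⟨y', hq', ?_⟩
    rw [e]
    push_cast at hy ⊢
    linarith

variable {κ : Type} [Fintype κ]

lemma pn_nn (n Nr : ℕ) (lp : ℝ) (y : κ → ℕ → ℝ) : 0 ≤ pn n Nr lp y := by
  unfold pn
  positivity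

lemma pn_mid (n Nr : ℕ) (lp : ℝ) : pn n Nr lp (fun (_ : κ) _ => 2 * lp) = 0 := by
  simp [pn]

omit [Fintype κ] in
lemma vb_box {n : ℕ} {lp : ℝ} {y : κ → ℕ → ℝ} (h : Box n 0 (4 * lp) y) :
    Vb n y (16 * n * lp ^ 2) := by
  intro k
  calc _ ≤ ∑ _l ∈ range n, (4 * lp) ^ 2 := sum_le_sum fun l hl => by
        obtain ⟨h1, h2⟩ := h k l (mem_range.1 hl)
        exact pow_le_pow_left₀ h1 h2 2
    _ = _ := by rw [sum_const, card_range, nsmul_eq_mul]; ring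

omit [Fintype κ] in
lemma box_mid (n : ℕ) {lp : ℝ} (h : 0 < lp) : Box n 0 (4 * lp) (fun (_ : κ) _ => 2 * lp) :=
  fun _ _ _ => ⟨by linarith, by linarith⟩

omit [Fintype κ] in
lemma box_sub {n : ℕ} {lp : ℝ} (h : 0 < lp) {y : κ → ℕ → ℝ} (hy : Box n lp (3 * lp) y) :
    Box n 0 (4 * lp) y :=
  fun k l hl => ⟨by linarith [(hy k l hl).1], by linarith [(hy k l hl).2]⟩

lemma exlp (n : ℕ) {v : ℝ} (hv : 0 < v) : ∃ lp : ℝ, 0 < lp ∧ lp ≤ 1 ∧ 16 * n * lp ^ 2 ≤ v := by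
  have h0 : 0 < min 1 (v / (16 * n + 1)) := by positivity
  have h1 := min_le_left 1 (v / (16 * n + 1))
  have h2 := min_le_right 1 (v / (16 * n + 1))
  generalize min 1 (v / (16 * n + 1)) = l at h0 h1 h2
  rw [le_div_iff₀ (by positivity)] at h2
  refine ⟨l, h0, h1, ?_⟩
  have : (0 : ℝ) ≤ n := by positivity
  nlinarith [mul_nonneg this (mul_nonneg h0.le (sub_nonneg.2 h1))]

lemma wt_pw [DecidableEq κ] {τ : κ} {lam : κ → ℝ} {b : ℕ} (hb : 0 < b) {pat : Fin b → κ}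
    {Γ g0 : ℝ} (hs : Function.Surjective pat) (hΓ : ∀ k, |lam k| ≤ Γ) (hg : 0 < g0)
    (hl : ∀ k, k ≠ τ → lam k + g0 ≤ lam τ) : Wt (pw pat) lam τ Γ (1 / b) := by
  have hb0 : (0 : ℝ) < b := by exact_mod_cast hb
  refine ⟨fun k => by unfold pw; positivity, ?_, ?_, hΓ, fun k _ => ?_⟩
  · unfold pw
    rw [← sum_div, div_eq_one_iff_eq hb0.ne', ← Nat.cast_sum,
      ← card_eq_sum_card_fiberwise (s := univ) (t := univ) (f := pat) (fun _ _ => mem_univ _)]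
    simp
  · unfold pw
    refine div_le_div_of_nonneg_right ?_ hb0.le
    obtain ⟨t, ht⟩ := hs τ
    exact_mod_cast card_pos.2 ⟨t, mem_filter.2 ⟨mem_univ _, ht⟩⟩
  · by_cases h : k = τ
    · rw [h]
    · linarith [hl k h]

end Lb

open Lb in
theorem lbStmt (hM : MxStmt) (hB : BlStmt) (hE : EndStmt) (hT : TApi) (hD : DApi) : LbStmt := by
  intro κ _ _ τ lam b hb pat g0 ε ν hs hg hl hε hν
  obtain ⟨Γ, hΓ0, hΓ⟩ : ∃ Γ : ℝ, 0 < Γ ∧ ∀ k, |lam k| ≤ Γ :=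
    ⟨∑ k, |lam k| + 1, by positivity, fun k =>
      (single_le_sum (f := fun k => |lam k|) (fun _ _ => abs_nonneg _) (mem_univ k)).trans
        (by linarith)⟩
  have hb0 : (0 : ℝ) < b := by exact_mod_cast hb
  have hW := wt_pw hb hs hΓ hg hl
  obtain ⟨ρ, hρ0, hρ1, hρ2⟩ : ∃ ρ : ℝ, 0 < ρ ∧ ρ ≤ 1 ∧ Γ * ρ ≤ ε / 4 := by
    refine ⟨min 1 (ε / (4 * Γ)), by positivity, min_le_left _ _, ?_⟩
    have := min_le_right 1 (ε / (4 * Γ))
    rw [le_div_iff₀ (by positivity)] at this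
    linarith
  obtain ⟨v0, hv0, n0, hB⟩ := hB κ τ lam b hb pat Γ g0 ρ (ε / 4) hs hΓ hg hl hρ0 (by positivity)
  filter_upwards [eventually_ge_atTop n0, eventually_ge_atTop 1] with n hn0 hn
  obtain ⟨lp, hl0, hl1, hl2⟩ := exlp n (show 0 < min v0 (ε / 2) by positivity)
  obtain ⟨N0, hB⟩ := hB n hn0 hn lp hl0 hl1 (hl2.trans (min_le_left _ _))
  filter_upwards [eventually_ge_atTop N0, eventually_ge_atTop 1,
    tendsto_natCast_atTop_atTop.eventually_ge_atTop (4 * (Γ * (1 + b)) / ε)] with N hN0 hN hN1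
  obtain ⟨D, hB⟩ := hB N hN0
  replace hB := hB D le_rfl ν
  have hNp : (0 : ℝ) < N := by exact_mod_cast hN
  have hV : VD n (pw pat) lam τ ≤ Γ / 2 :=
    (abs_le.1 (hT.vbdd hn fun x x' h1 h2 _ => hD.glip (by positivity) hW x x' h1 h2).2).2
  have hm1 : ρ * N ≤ (⌈ρ * N⌉₊ : ℕ) := Nat.le_ceil _
  have hm2 : ((⌈ρ * N⌉₊ : ℕ) : ℝ) < ρ * N + 1 := Nat.ceil_lt_add_one (by positivity)
  have hm3 : ⌈ρ * N⌉₊ ≤ N := Nat.ceil_le.2 (mul_le_of_le_one_left hNp.le hρ1)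
  generalize ⌈ρ * N⌉₊ = m at hm1 hm2 hm3
  have hr1 : (N - m) / b * b ≤ N - m := Nat.div_mul_le_self _ _
  have hr2 : N - m < (N - m) / b * b + b := Nat.lt_div_mul_add hb
  generalize (N - m) / b = r at hr1 hr2
  have hj0 : N - r * b + r * b = N := by omega
  obtain ⟨y, hq, hy⟩ := climb
    (fun j y => (s0 (per hb pat j) lam).T (ν j) D n y - pn n N lp y) (Box n 0 (4 * lp)) m b N
    (N - r * b) (VD n (pw pat) lam τ - ε / 4) (by omega) (fun j hj hjb y' hy' => by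
      obtain ⟨y, hy⟩ := hM κ (Fin j) Empty (ν j) (s0 (per hb pat j) lam) D n N lp (hν j) hn
        (fun s => s.elim) hl0 (by rw [Fintype.card_fin]; omega)
      have h1 := hB j y hν (hm1.trans (by exact_mod_cast hj)) hjb hy
      have h2 := hy.2 y' hy'
      exact ⟨y, box_sub hl0 hy.1, by linarith⟩) (fun _ _ => 2 * lp) (box_mid n hl0) r hj0.le
  rw [hj0] at hy
  have hj1 : N - r * b ≤ m + b := by omega
  generalize N - r * b = j0 at hj0 hy hj1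
  obtain ⟨a1, -, a2, -⟩ := hE κ (Fin j0) (ν j0) (per hb pat j0) lam D n _ _ (hν j0) hn
    (vb_box (box_mid n hl0))
  obtain ⟨-, a3, -⟩ := hE κ (Fin N) (ν N) (per hb pat N) lam D n y _ (hν N) hn (vb_box hq)
  have a4 := (abs_le.1 (a2 Γ hΓ)).1
  have a5 := pn_nn n N lp y
  rw [pn_mid] at hy
  rw [Fintype.card_fin] at a3 a4
  have b1 : ((r * b : ℕ) : ℝ) = N - j0 := by
    rw [eq_sub_iff_add_eq, add_comm]; exact_mod_cast hj0
  have b2 : (j0 : ℝ) ≤ m + b := by exact_mod_cast hj1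
  have b3 : (0 : ℝ) ≤ j0 := by positivity
  rw [b1] at hy
  rw [div_le_iff₀ hε] at hN1
  have b4 := mul_le_mul_of_nonneg_left (hl2.trans (min_le_right _ _)) hNp.le
  have b5 := mul_le_mul_of_nonneg_left hρ2 hNp.le
  have b6 := mul_le_mul_of_nonneg_left (show VD n (pw pat) lam τ - ε / 4 ≤ Γ / 2 by linarith) b3
  have b7 := mul_le_mul_of_nonneg_left (show (j0 : ℝ) ≤ ρ * N + 1 + b by linarith) hΓ0.le
  nlinarith

end

end Vale.Agent.P166
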