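import Vale.Agent.P166.Stm

/-! P166: assembly of the bounds. -/

namespace Vale.Agent.P166

open MeasureTheory ProbabilityTheory Finset Real Filter Topology Vale.Agent.P157

namespace Mn

theorem intg {I : Type} [Fintype I] [DecidableEq I] {ν : Measure (OG I)} (h : Haar ν)
    {f : OG I → ℝ} (hf : Continuous f) : Integrable f ν := by
  haveI := h.prob
  exact hf.integrable_of_hasCompactSupport (HasCompactSupport.of_compactSpace f)

theorem inc_scale {g g' : ℝ → ℝ} {δ β : ℝ} (hβ : 0 < β) (h : Inc g g' δ β) :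
    Inc (fun x => g (β * x)) (fun x => g' (β * x)) (δ * β) 1 := by
  intro x x' hx hxx hx1
  have h1 := h (β * x) (β * x') (by positivity) (by gcongr) (by nlinarith)
  have h2 : δ * (β * x' - β * x) = δ * β * (x' - x) := by ring
  simp only
  linarith

theorem gD_scale {κ : Type} [Fintype κ] (α lam : κ → ℝ) (τ : κ) (β : ℝ) :
    gD α (fun k => β * lam k) τ = fun x => gD α lam τ (β * x) := by
  funext x
  unfold gD
  have h1 : x * (β * lam τ) = β * x * lam τ := by ring
  have h2 : (fun b => b - 1 - ∑ k, α k * log (b - x * (β * lam k))) =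
      fun b => b - 1 - ∑ k, α k * log (b - β * x * lam k) := by
    funext b
    congr 1
    refine sum_congr rfl fun k _ => ?_
    congr 2
    ring
  rw [h1, h2]

theorem pw_wt {κ : Type} [Fintype κ] [DecidableEq κ] {b : ℕ} (hb : 0 < b) (pat : Fin b → κ)
    (t : κ → ℝ) (τ : κ) {Γ : ℝ} (hΓ : ∀ k, |t k| ≤ Γ) (hle : ∀ k, t k ≤ t τ) :
    Wt (pw pat) t τ Γ (pw pat τ) := by
  refine ⟨fun k => by unfold pw; positivity, ?_, le_rfl, hΓ, fun k _ => hle k⟩
  unfold pw
  rw [← sum_div, div_eq_one_iff_eq (by positivity)]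
  have := card_eq_sum_card_fiberwise (s := (univ : Finset (Fin b))) (t := (univ : Finset κ))
    (f := pat) (fun _ _ => mem_univ _)
  rw [card_univ, Fintype.card_fin] at this
  exact_mod_cast this.symm

theorem pw_pos {κ : Type} [DecidableEq κ] {b : ℕ} (hb : 0 < b) {pat : Fin b → κ}
    (hs : Function.Surjective pat) (τ : κ) : 0 < pw pat τ := by
  obtain ⟨t, ht⟩ := hs τ
  unfold pw
  have : 0 < (univ.filter (fun t => pat t = τ)).card := card_pos.2 ⟨t, by simp [ht]⟩
  positivity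

theorem al_wt {κ : Type} [Fintype κ] [DecidableEq κ] {N : ℕ} (hN : 0 < N) (c : Fin N → κ)
    (t : κ → ℝ) (τ : κ) {Γ η : ℝ} (hΓ : ∀ k, |t k| ≤ Γ) (hle : ∀ k, t k ≤ t τ)
    (hη : η * N ≤ ((s0 c t).cls τ).card) : Wt (s0 c t).al t τ Γ η := by
  have hN' : (0 : ℝ) < N := by exact_mod_cast hN
  refine ⟨fun k => by unfold Sys.al; positivity, ?_, ?_, hΓ, fun k _ => hle k⟩
  · unfold Sys.al Sys.cls
    rw [← sum_div, Fintype.card_fin, div_eq_one_iff_eq hN'.ne']
    have := card_eq_sum_card_fiberwise (s := (univ : Finset (Fin N))) (t := (univ : Finset κ))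
      (f := c) (fun _ _ => mem_univ _)
    rw [card_univ, Fintype.card_fin] at this
    exact_mod_cast this.symm
  · unfold Sys.al
    rw [Fintype.card_fin, le_div_iff₀ hN']
    exact hη

theorem per_count {κ : Type} [DecidableEq κ] {b : ℕ} (hb : 0 < b) {pat : Fin b → κ}
    (hs : Function.Surjective pat) (τ : κ) (N : ℕ) (hN : 2 * b ≤ N) :
    1 / (2 * (b : ℝ)) * N ≤ (univ.filter (fun i : Fin N => per hb pat N i = τ)).card := by
  obtain ⟨t, ht⟩ := hs τ
  have h1 : N / b ≤ (univ.filter (fun i : Fin N => per hb pat N i = τ)).card := by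
    have hlt : ∀ j : Fin (N / b), (j : ℕ) * b + t < N := by
      intro j
      have h2 : ((j : ℕ) + 1) * b ≤ N / b * b := Nat.mul_le_mul_right _ j.2
      have h3 := Nat.div_mul_le_self N b
      have h4 := t.2
      nlinarith
    have := card_le_card_of_injOn (s := (univ : Finset (Fin (N / b))))
      (t := univ.filter (fun i : Fin N => per hb pat N i = τ)) (fun j => ⟨j * b + t, hlt j⟩)
      (by
        intro j _
        have h6 : pat ⟨((j : ℕ) * b + t) % b, Nat.mod_lt _ hb⟩ = τ := by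
          rw [← ht]
          exact congrArg pat (Fin.ext (Nat.mul_add_mod_of_lt t.2))
        exact mem_coe.2 (mem_filter.2 ⟨mem_univ _, h6⟩))
      (by
        intro j _ j' _ h
        simp only [Fin.mk.injEq] at h
        have h5 : (j : ℕ) * b = j' * b := by omega
        exact Fin.ext (Nat.eq_of_mul_eq_mul_right hb h5))
    simpa using this
  have hb' : (0 : ℝ) < b := by exact_mod_cast hb
  have h2 : (N : ℝ) < (N / b : ℕ) * b + b := by
    have := Nat.lt_div_mul_add (a := N) hb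
    exact_mod_cast this
  have h3 : (2 : ℝ) * b ≤ N := by exact_mod_cast hN
  have h4 : ((N / b : ℕ) : ℝ) ≤ (univ.filter (fun i : Fin N => per hb pat N i = τ)).card := by
    exact_mod_cast h1
  refine le_trans ?_ h4
  rw [one_div, inv_mul_eq_div, div_le_iff₀ (by positivity)]
  nlinarith

theorem th0_exp {I : Type} [Fintype I] [DecidableEq I] (hO : OApi) {ν : Measure (OG I)}
    (h : Haar ν) {n : ℕ} (hn : 1 ≤ n) (Λ : I → ℝ) :
    ∫ U, exp (F0 Λ U / n) ∂ν = exp (TH0 ν n Λ / n) := by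
  haveI := h.prob
  have hn' : (0 : ℝ) < n := by exact_mod_cast hn
  have hc : Continuous fun U => exp (F0 Λ U / n) :=
    (((hO.f0 Λ Λ 0).1).div_const _).rexp
  have hp : 0 < ∫ U, exp (F0 Λ U / n) ∂ν := integral_exp_pos (intg h hc)
  unfold TH0
  rw [mul_div_cancel_left₀ _ hn'.ne', exp_log hp]

/-- from the two bounds to the `L¹` estimate -/
theorem l1 {N : ℕ} (hO : OApi) {ν : Measure (OG (Fin N))} (h : Haar ν) {n : ℕ} (hn : 1 ≤ n)
    (hN : 0 < N) (Λ Λ' : Fin N → ℝ) (V a c e : ℝ) (ha : 0 ≤ a) (hc : 0 ≤ c)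
    (hΛ : ∀ i, Λ i ≤ Λ' i + c) (hU : TH0 ν n Λ' ≤ N * (V + a))
    (hL : N * (V - e) ≤ ∫ U, F0 Λ U ∂ν) :
    ∫ U, |F0 Λ U / N - V| ∂ν ≤ 2 * a + c + 2 * n / N + e := by
  haveI := h.prob
  have hn' : (0 : ℝ) < n := by exact_mod_cast hn
  have hN' : (0 : ℝ) < N := by exact_mod_cast hN
  have hc0 := (hO.f0 Λ Λ' c).1
  have hc1 := (hO.f0 Λ' Λ' c).1
  have hm := (hO.f0 Λ Λ' c).2.1 hΛ
  simp only [Fintype.card_fin] at hm
  set T := TH0 ν n Λ' with hT
  have key : ∀ U, |F0 Λ U / N - V| ≤ (2 * a + c) + 2 * n / N * (exp (-(T / n)) * exp (F0 Λ' U / n))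
      - (F0 Λ U / N - V) := by
    intro U
    have h1 : (F0 Λ' U - T) / n + 1 ≤ exp ((F0 Λ' U - T) / n) := add_one_le_exp _
    have h2 : exp (-(T / n)) * exp (F0 Λ' U / n) = exp ((F0 Λ' U - T) / n) := by
      rw [← exp_add]; congr 1; ring
    rw [h2]
    have h3 : 0 < exp ((F0 Λ' U - T) / n) := exp_pos _
    have h4 : F0 Λ U / N - V ≤ a + c / 2 + n / N * exp ((F0 Λ' U - T) / n) := by
      have h5 : F0 Λ' U - T ≤ n * exp ((F0 Λ' U - T) / n) := by
        have : (F0 Λ' U - T) / n ≤ exp ((F0 Λ' U - T) / n) := by linarith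
        rwa [div_le_iff₀ hn', mul_comm] at this
      have h6 : F0 Λ U ≤ N * (V + a + c / 2) + n * exp ((F0 Λ' U - T) / n) := by
        have := hm U
        nlinarith
      have h7 : F0 Λ U / N ≤ (V + a + c / 2) + n / N * exp ((F0 Λ' U - T) / n) := by
        rw [div_le_iff₀ hN']
        have : (V + a + c / 2 + n / N * exp ((F0 Λ' U - T) / n)) * N =
            N * (V + a + c / 2) + n * exp ((F0 Λ' U - T) / n) := by
          field_simp
        linarith
      linarith
    have h8 : 0 ≤ n / N * exp ((F0 Λ' U - T) / n) := by positivity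
    have h9 : 2 * n / N * exp ((F0 Λ' U - T) / n) = 2 * (n / N * exp ((F0 Λ' U - T) / n)) := by
      ring
    rw [h9]
    rcases abs_cases (F0 Λ U / N - V) with h0 | h0 <;> linarith [h0.1]
  have i1 : Integrable (fun U => F0 Λ U / N - V) ν := intg h ((hc0.div_const _).sub continuous_const)
  have i2 : Integrable (fun U => exp (F0 Λ' U / n)) ν := intg h (hc1.div_const _).rexp
  have i3 : Integrable (fun U => 2 * n / N * (exp (-(T / n)) * exp (F0 Λ' U / n))) ν :=
    (i2.const_mul _).const_mul _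
  have i4 : Integrable (fun U => (2 * a + c) +
      2 * n / N * (exp (-(T / n)) * exp (F0 Λ' U / n))) ν := (integrable_const _).add i3
  have h1 : ∫ U, |F0 Λ U / N - V| ∂ν ≤ ∫ U, ((2 * a + c) +
      2 * n / N * (exp (-(T / n)) * exp (F0 Λ' U / n)) - (F0 Λ U / N - V)) ∂ν :=
    integral_mono i1.abs (i4.sub i1) key
  rw [integral_sub i4 i1, integral_add (integrable_const _) i3, integral_const_mul,
    integral_const_mul, th0_exp hO h hn, ← hT, ← exp_add, integral_sub (intg h (hc0.div_const _))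
      (integrable_const _), integral_div] at h1
  simp only [integral_const, probReal_univ, smul_eq_mul, one_mul, neg_add_cancel, exp_zero,
    mul_one] at h1
  have h2 : V - e ≤ (∫ U, F0 Λ U ∂ν) / N := by
    rw [le_div_iff₀ hN']; linarith
  linarith

theorem lim_of {a : ℕ → ℝ → ℝ} {v : ℕ → ℝ}
    (hl : ∀ N x y, |x - y| ≤ a N x + a N y ∧ a N x ≤ a N y + |x - y| ∧ 0 ≤ a N x)
    (h : ∀ ε : ℝ, 0 < ε → ∀ᶠ n : ℕ in atTop, ∀ᶠ N : ℕ in atTop, a N (v n) ≤ ε) :
    ∃ l, Tendsto v atTop (𝓝 l) ∧ Tendsto (fun N => a N l) atTop (𝓝 0) := by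
  have hc : CauchySeq v := by
    refine Metric.cauchySeq_iff.2 fun ε hε => ?_
    obtain ⟨n0, hn0⟩ := eventually_atTop.1 (h (ε / 3) (by positivity))
    refine ⟨n0, fun m hm k hk => ?_⟩
    obtain ⟨N, h1, h2⟩ := ((hn0 m hm).and (hn0 k hk)).exists
    have := (hl N (v m) (v k)).1
    rw [Real.dist_eq]
    linarith
  obtain ⟨l, hl'⟩ := cauchySeq_tendsto_of_complete hc
  refine ⟨l, hl', ?_⟩
  refine Metric.tendsto_nhds.2 fun ε hε => ?_
  obtain ⟨n, h1, h2⟩ := ((h (ε / 3) (by positivity)).and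
    (Metric.tendsto_nhds.1 hl' (ε / 3) (by positivity))).exists
  filter_upwards [h1] with N hN
  have h3 := hl N l (v n)
  rw [Real.dist_eq, abs_sub_comm] at h2
  rw [Real.dist_eq, sub_zero, abs_of_nonneg h3.2.2]
  linarith [h3.2.1]

theorem supp_ae (μ : Measure ℝ) (hc : IsCompact μ.support) :
    ∀ᵐ u ∂μ, u ∈ μ.support ∧ u ≤ sSup μ.support := by
  filter_upwards [Measure.support_mem_ae (μ := μ)] with u hu
  exact ⟨hu, le_csSup hc.bddAbove hu⟩

theorem sup_mem (μ : Measure ℝ) [IsProbabilityMeasure μ] (hc : IsCompact μ.support) :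
    sSup μ.support ∈ μ.support := by
  refine hc.sSup_mem ?_
  exact ((supp_ae μ hc).exists).imp fun _ h => h.1

theorem vo_bdd (hT : TApi) (hG : GslStmt) (μ : Measure ℝ) [IsProbabilityMeasure μ]
    (hc : IsCompact μ.support) {β : ℝ} (hβ : 0 < β) {n : ℕ} (hn : 1 ≤ n) :
    BddBelow (vals n (fun x => Gmu μ (β * x))) := by
  obtain ⟨L, hL⟩ := hc.isBounded.exists_norm_le
  have h1 := hG μ (sSup μ.support) L inferInstance
    (by filter_upwards [supp_ae μ hc] with u hu; exact ⟨hL u hu.1, hu.2⟩) (hL _ (sup_mem μ hc))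
  refine (hT.vbdd (L := L / 2 * β) hn fun x x' hx hxx _ => ?_).1
  have h2 := h1 (β * x) (β * x') (by positivity) (by gcongr)
  have h3 : L / 2 * (β * x' - β * x) = L / 2 * β * (x' - x) := by ring
  rw [← h3]
  exact h2

theorem gmu_bdd (μ : Measure ℝ) [IsProbabilityMeasure μ] (hc : IsCompact μ.support) {x : ℝ}
    (hx : 0 ≤ x) : BddBelow ((fun b => b - 1 - ∫ t, Real.log (b - x * t) ∂μ) ''
      Set.Ioi (x * sSup μ.support)) := by
  obtain ⟨L, hL⟩ := hc.isBounded.exists_norm_le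
  refine ⟨-(x * L) - 1, ?_⟩
  rintro _ ⟨b, hb, rfl⟩
  have hs := abs_le.1 (hL _ (sup_mem μ hc))
  have hb' : x * sSup μ.support < b := hb
  have h0 : -(x * L) ≤ b := by nlinarith [hs.1]
  by_cases hi : Integrable (fun t => Real.log (b - x * t)) μ
  · have h1 : ∫ t, Real.log (b - x * t) ∂μ ≤ ∫ _t, (b + x * L) ∂μ := by
      refine integral_mono_ae hi (integrable_const _) ?_
      filter_upwards [supp_ae μ hc] with u hu
      have h2 := abs_le.1 (hL u hu.1)
      have h3 : 0 < b - x * u := by nlinarith [hu.2]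
      have h4 := log_le_sub_one_of_pos h3
      nlinarith [h2.1]
    simp only [integral_const, probReal_univ, smul_eq_mul, one_mul] at h1
    simp only
    linarith
  · simp only [integral_undef hi]
    linarith

/-- the estimate for one tolerance -/
theorem main1 (hO : OApi) (hT : TApi) (hD : DApi) (hLb : LbStmt) (hUb : UbStmt) (hTi : TiltStmt)
    (hDs : Ds1Stmt) (hOr : OrdStmt) (hOd : OddStmt) (hGs : GslStmt) (hSy : SyStmt)
    {β : ℝ} (hβ : 0 < β) (μ : Measure ℝ) [IsProbabilityMeasure μ] (hc : IsCompact μ.support)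
    (lam : ∀ N : ℕ, Fin N → ℝ)
    (hw : ∀ f : BoundedContinuousFunction ℝ ℝ,
      Tendsto (fun N : ℕ => (∑ i, f (lam N i)) / (N : ℝ)) atTop (𝓝 (∫ t, f t ∂μ)))
    (hmin : Tendsto (fun N : ℕ => ⨅ i, lam N i) atTop (𝓝 (sInf μ.support)))
    (hmax : Tendsto (fun N : ℕ => ⨆ i, lam N i) atTop (𝓝 (sSup μ.support)))
    (ν : ∀ N : ℕ, Measure (OG (Fin N))) (hν : ∀ N, Haar (ν N)) {ε : ℝ} (hε : 0 < ε) :
    ∀ᶠ n : ℕ in atTop, ∀ᶠ N : ℕ in atTop,
      ∫ U, |PN β (lam N) U - Vo n β μ| ∂ν N ≤ (5 + 4 * β) * ε := by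
  obtain ⟨K, b, hb, τ, t, pat, g0, Γ, η, η1, hsurj, hg0, hgap, hΓ, hsup, hη, hη1, hη1', ht1, ht2,
    htl1, htl2, hperm, hcl⟩ := hDs μ lam ε inferInstance hc hw hmin hmax hε
  have hle : ∀ k, t k ≤ t τ := fun k => by
    by_cases hk : k = τ
    · rw [hk]
    · linarith [hgap k hk]
  have hWα := pw_wt hb pat t τ hΓ hle
  have hατ := pw_pos hb hsurj τ
  obtain ⟨μα, hp, hae, htail, hat, hgd⟩ := hOd.1 (Fin K) (pw pat) t τ Γ (pw pat τ) hWα
  have hτΓ := abs_le.1 (hΓ τ)
  -- comparison of the two functionals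
  have hI1 : Inc (Gs μα (t τ)) (Gs μ (sSup μ.support)) ((ε + ε) / 2) β := by
    refine hOr μα μ (-Γ) (t τ) (sSup μ.support) ε ε η1 (pw pat τ) β hp inferInstance hae ?_ ht2
      hε.le hε.le hη1 (fun u => by rw [htail]; exact htl2 u) hat ?_
    · filter_upwards [supp_ae μ hc] with u hu
      have h1 := hsup u hu.1
      have h2 := neg_abs_le u
      exact ⟨by linarith, hu.2⟩
    · have : η1 * (t τ - -Γ) ≤ η1 * (2 * Γ) := by gcongr; linarith [hτΓ.2]
      linarith
  have hI2 : Inc (Gs μ (sSup μ.support)) (Gs μα (t τ)) ((0 + 0) / 2) β := by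
    refine hOr μ μα (-Γ) (sSup μ.support) (t τ) 0 0 0 0 β inferInstance hp ?_ ?_ (by linarith)
      le_rfl le_rfl le_rfl (fun u => by rw [htail, sub_zero, add_zero]; exact htl1 u)
      measureReal_nonneg (by simp)
    · filter_upwards [supp_ae μ hc] with u hu
      have h1 := hsup u hu.1
      have h2 := neg_abs_le u
      exact ⟨by linarith, hu.2⟩
    · filter_upwards [hae] with u hu
      exact ⟨by linarith [hu.1], hu.2⟩
  have hgα : gD (pw pat) (fun k => β * t k) τ = fun x => Gs μα (t τ) (β * x) := funext (hgd β)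
  have hbd : ∀ {α : Fin K → ℝ} {η' : ℝ}, 0 < η' → Wt α t τ Γ η' → ∀ {n : ℕ}, 1 ≤ n →
      BddBelow (vals n (fun x => gD α t τ (β * x))) := by
    intro α η' h1 h2 n hn
    refine (hT.vbdd (L := Γ / 2 * β) hn fun x x' hx hxx _ => ?_).1
    have h3 := hD.glip h1 h2 (β * x) (β * x') (by positivity) (by gcongr)
    have h4 : Γ / 2 * (β * x' - β * x) = Γ / 2 * β * (x' - x) := by ring
    rw [← h4]
    exact h3
  have hV1 : ∀ n, 1 ≤ n → Vo n β μ ≤ VD n (pw pat) (fun k => β * t k) τ + ε * β := by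
    intro n hn
    have := hT.vinc hn (inc_scale hβ hI1) (vo_bdd hT hGs μ hc hβ hn)
    unfold VD
    rw [hgα]
    have h2 : (ε + ε) / 2 * β = ε * β := by ring
    rw [h2] at this
    exact this
  have hV2 : ∀ n, 1 ≤ n → VD n (pw pat) (fun k => β * t k) τ ≤ Vo n β μ := by
    intro n hn
    have h0 := hbd hατ hWα hn
    rw [← gD_scale, hgα] at h0
    have := hT.vinc hn (inc_scale hβ hI2) h0
    unfold VD
    rw [hgα]
    have h2 : (0 + 0 : ℝ) / 2 * β = 0 := by ring
    rw [h2, add_zero] at this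
    exact this
  have hgap' : ∀ k, k ≠ τ → β * t k + β * g0 ≤ β * t τ := fun k hk => by
    have := hgap k hk
    nlinarith
  have hb' : (0 : ℝ) < b := by exact_mod_cast hb
  obtain ⟨C, hC0, hC⟩ := hTi (β * Γ) (1 / (2 * b)) (by positivity)
  have e1 := hLb (Fin K) τ (fun k => β * t k) b hb pat (β * g0) ε ν hsurj (by positivity) hgap' hε hν
  have e2 := hUb (Fin K) τ (fun k => β * t k) (β * g0) η ε ν (by positivity) hgap' hη hε hν
  have e3 : ∀ᶠ n : ℕ in atTop, C / n ≤ ε :=
    (tendsto_const_div_atTop_nhds_zero_nat C).eventually (ge_mem_nhds hε)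
  filter_upwards [e1, e2, e3, eventually_ge_atTop 1] with n h1 h2 h3 hn
  have e4 : ∀ᶠ N : ℕ in atTop, (2 * n : ℝ) / N ≤ ε :=
    (tendsto_const_div_atTop_nhds_zero_nat (2 * n : ℝ)).eventually (ge_mem_nhds hε)
  filter_upwards [h1, h2, hperm, hcl, e4, eventually_ge_atTop (2 * b)] with N g1 g2 g3 g4 g5 g6
  obtain ⟨pm, hpm⟩ := g3
  obtain ⟨c, hc1, hc2, hc3⟩ := g4
  have hN : 0 < N := by omega
  have hN' : (0 : ℝ) < N := by exact_mod_cast hN
  have hn' : (0 : ℝ) < n := by exact_mod_cast hn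
  haveI := (hν N).prob
  -- upper bound
  have hWc := al_wt hN c t τ hΓ hle hc2
  have hI3 := hOd.2 (Fin K) (pw pat) (s0 c t).al t τ Γ (pw pat τ) η η1 ε β hWα hWc hη1 hε.le hc3 hη1'
  have hV3 : VD n (s0 c t).al (fun k => β * t k) τ ≤
      VD n (pw pat) (fun k => β * t k) τ + ε / 2 * β := by
    have := hT.vinc hn (inc_scale hβ hI3) (hbd hη hWc hn)
    unfold VD
    rw [gD_scale, gD_scale]
    exact this
  have hU : TH0 (ν N) n ((fun k => β * t k) ∘ c) ≤ N * (Vo n β μ + (ε + ε / 2 * β)) := by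
    have h4 : TH0 (ν N) n ((fun k => β * t k) ∘ c) ≤
      N * (VD n (s0 c t).al (fun k => β * t k) τ + ε) := g2 c hc2
    refine h4.trans ?_
    have := hV2 n hn
    gcongr ?_ * ?_
    linarith
  -- lower bound
  have hL : N * (Vo n β μ - (ε * β + ε + ε)) ≤ ∫ U, F0 (fun i => β * lam N i) U ∂ν N := by
    have h4 := ((hSy Unit (Fin N) Empty (ν N) (s0 (fun _ => ()) (fun _ => 0)) 0 n (fun _ _ => 0)
      (hν N) hn).2.2 pm (fun i => β * lam N i)).2
    have h5 : ∫ U, F0 ((fun k => β * t k) ∘ per hb pat N) U ∂ν N ≤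
        ∫ U, F0 ((fun i => β * lam N i) ∘ pm) U ∂ν N := by
      refine integral_mono (intg (hν N) (hO.f0 _ 0 0).1) (intg (hν N) (hO.f0 _ 0 0).1) fun U => ?_
      have := (hO.f0 ((fun k => β * t k) ∘ per hb pat N) ((fun i => β * lam N i) ∘ pm) 0).2.1
        (fun i => by
          simp only [Function.comp_apply, add_zero]
          exact mul_le_mul_of_nonneg_left (hpm i) hβ.le) U
      simpa using this
    have h6 := hC N n (ν N) ((fun k => β * t k) ∘ per hb pat N) (β * t τ) (hν N) hn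
      (fun i => ⟨by
        simp only [Function.comp_apply, abs_mul, abs_of_pos hβ]
        exact mul_le_mul_of_nonneg_left (hΓ _) hβ.le,
        mul_le_mul_of_nonneg_left (hle _) hβ.le⟩)
      ((per_count hb hsurj τ N g6).trans (by
        refine Nat.cast_le.2 (card_le_card fun i hi => ?_)
        simp only [mem_filter, mem_univ, true_and, Function.comp_apply] at hi ⊢
        rw [hi]))
    have h7 : C * N / n ≤ N * ε := by
      have : C * N / n = N * (C / n) := by ring
      rw [this]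
      gcongr
    have h8 := hV1 n hn
    have h9 : N * (Vo n β μ - (ε * β + ε + ε)) ≤
        N * (VD n (pw pat) (fun k => β * t k) τ - ε) - N * ε := by nlinarith
    linarith
  have h10 := l1 hO (hν N) hn hN (fun i => β * lam N i) ((fun k => β * t k) ∘ c) (Vo n β μ)
    (ε + ε / 2 * β) (β * ε) (ε * β + ε + ε) (by positivity) (by positivity)
    (fun i => by
      simp only [Function.comp_apply]
      have := hc1 i
      nlinarith) hU hL
  simp only [hO.form]
  nlinarith

end Mn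

theorem mainOf (hHr : HrStmt) (hO : OApi) (hT : TApi) (hD : DApi) (hLb : LbStmt) (hUb : UbStmt)
    (hTi : TiltStmt) (hDs : Ds1Stmt) (hOr : OrdStmt) (hOd : OddStmt) (hGs : GslStmt) (hSy : SyStmt)
    (hBdd : BddStmt) (β : ℝ) (hβ : 0 < β) (μ : Measure ℝ) [IsProbabilityMeasure μ]
    (hc : IsCompact μ.support) (lam : ∀ N : ℕ, Fin N → ℝ)
    (hw : ∀ f : BoundedContinuousFunction ℝ ℝ,
      Tendsto (fun N : ℕ => (∑ i, f (lam N i)) / (N : ℝ)) atTop (𝓝 (∫ t, f t ∂μ)))
    (hmin : Tendsto (fun N : ℕ => ⨅ i, lam N i) atTop (𝓝 (sInf μ.support)))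
    (hmax : Tendsto (fun N : ℕ => ⨆ i, lam N i) atTop (𝓝 (sSup μ.support)))
    (ν : ∀ N : ℕ, Measure (OG (Fin N))) (hp : ∀ N, IsProbabilityMeasure (ν N))
    (hl : ∀ N, (ν N).IsMulLeftInvariant) :
    (∀ x, 0 ≤ x → BddBelow ((fun b => b - 1 - ∫ t, Real.log (b - x * t) ∂μ) ''
      Set.Ioi (x * sSup μ.support))) ∧
    (∀ n, 1 ≤ n → (∀ p, Vale.Agent.P157.Path n p → p 0 = 1 → BddAbove (dualSet n p)) ∧
      BddBelow (vals n (fun x => Gmu μ (β * x)))) ∧
    (∀ N, Integrable (PN β (lam N)) (ν N)) ∧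
    ∃ l : ℝ, Tendsto (fun n => Vo n β μ) atTop (𝓝 l) ∧
      Tendsto (fun N : ℕ => ∫ U, |PN β (lam N) U - l| ∂ν N) atTop (𝓝 0) := by
  have hν : ∀ N, Haar (ν N) := fun N => hHr _ (ν N) (hp N) (hl N)
  have hi : ∀ N, Integrable (PN β (lam N)) (ν N) := fun N => by
    have : PN β (lam N) = fun U => F0 (fun i => β * lam N i) U / N := funext (hO.form β (lam N))
    rw [this]
    exact Mn.intg (hν N) ((hO.f0 _ 0 0).1.div_const _)
  refine ⟨fun x hx => Mn.gmu_bdd μ hc hx, fun n hn => ⟨fun p hp hp0 => (hBdd n p hn hp hp0).1,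
    Mn.vo_bdd hT hGs μ hc hβ hn⟩, hi, ?_⟩
  refine Mn.lim_of (a := fun N x => ∫ U, |PN β (lam N) U - x| ∂ν N) (fun N x y => ?_)
    fun ε hε => ?_
  · haveI := hp N
    have ix : Integrable (fun U => |PN β (lam N) U - x|) (ν N) :=
      ((hi N).sub (integrable_const x)).abs
    have iy : Integrable (fun U => |PN β (lam N) U - y|) (ν N) :=
      ((hi N).sub (integrable_const y)).abs
    refine ⟨?_, ?_, integral_nonneg fun U => abs_nonneg _⟩
    · have h1 : ∫ _U, |x - y| ∂ν N ≤ ∫ U, (|PN β (lam N) U - x| + |PN β (lam N) U - y|) ∂ν N := by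
        refine integral_mono (integrable_const _) (ix.add iy) fun U => ?_
        have := abs_sub (PN β (lam N) U - y) (PN β (lam N) U - x)
        simp only
        rw [show PN β (lam N) U - y - (PN β (lam N) U - x) = x - y by ring] at this
        linarith
      rw [integral_add ix iy] at h1
      simpa using h1
    · have h1 : ∫ U, |PN β (lam N) U - x| ∂ν N ≤ ∫ U, (|PN β (lam N) U - y| + |x - y|) ∂ν N := by
        refine integral_mono ix (iy.add (integrable_const _)) fun U => ?_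
        have := abs_sub (PN β (lam N) U - y) (x - y)
        simp only
        rw [show PN β (lam N) U - y - (x - y) = PN β (lam N) U - x by ring] at this
        exact this
      rw [integral_add iy (integrable_const _)] at h1
      simpa using h1
  · have h1 := Mn.main1 hO hT hD hLb hUb hTi hDs hOr hOd hGs hSy hβ μ hc lam hw hmin hmax ν hν
      (ε := ε / (5 + 4 * β)) (by positivity)
    have h2 : (5 + 4 * β) * (ε / (5 + 4 * β)) = ε := by field_simp
    rwa [h2] at h1

end Vale.Agent.P166
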