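import Vale.Agent.P166.Stm

namespace Vale.Agent.P166

open Finset Real Vale.Agent.P157

theorem micStmt (hB : BrgStmt) : MicStmt := by
  refine ⟨fun n p η hp hη => ?_, fun n R R' _ _ lv a lv' a' p p' η1 η2 h1 h2 m m' => ?_,
    fun n Q ε hn hε => ?_⟩
  · have h0 : ∀ l : Fin n, 0 ≤ p l - p (l + 1) := fun l => sub_nonneg.2 (hp.1 l l.2)
    obtain ⟨S, hS⟩ := exists_nat_gt ((∑ l : Fin n, (p l - p (l + 1))) / η ^ 2)
    have hS0 : (0 : ℝ) < S := (div_nonneg (sum_nonneg fun l _ => h0 l) (sq_nonneg _)).trans_lt hS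
    refine ⟨S, fun r => √((p r.2 - p (r.2 + 1)) / S), fun r => r.2.2, fun r => ?_, fun d hd => ?_⟩
    · rw [abs_of_nonneg (sqrt_nonneg _), sqrt_le_left hη.le, div_le_iff₀ hS0]
      rw [div_lt_iff₀ (pow_pos hη 2)] at hS
      linarith [single_le_sum (fun l _ => h0 l) (mem_univ r.2)]
    · rw [sum_filter, Fintype.sum_prod_type, sum_congr rfl fun s _ => sum_eq_single ⟨d, hd⟩
        (fun l _ hl => if_neg fun e => hl (Fin.ext e)) (by simp)]
      simp only [if_true, sq_sqrt (div_nonneg (h0 ⟨d, hd⟩) hS0.le), sum_const, card_univ,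
        Fintype.card_fin, nsmul_eq_mul, mul_div_cancel₀ _ hS0.ne', sub_self, abs_zero, hη.le]
  · refine ⟨fun r => ?_, fun r => ?_, fun d hd => ?_⟩
    · cases r
      exacts [m.1 _, m'.1 _]
    · cases r
      exacts [(m.2.1 _).trans (by linarith), (m'.2.1 _).trans (by linarith)]
    · have a1 := m.2.2 d hd
      have a2 := m'.2.2 d hd
      rw [sum_filter] at a1 a2 ⊢
      rw [Fintype.sum_sum_type]
      change |(∑ x, if lv x = d then a x ^ 2 else 0) + (∑ x, if lv' x = d then a' x ^ 2 else 0) -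
        _| ≤ _
      refine le_trans (le_of_eq ?_) ((abs_add_le _ _).trans (add_le_add a1 a2))
      congr 1; ring
  · obtain ⟨η, hη, h⟩ := hB n 1 Q (ε / 2) hn (half_pos hε)
    refine ⟨η, hη, fun T I R R' _ _ _ _ _ _ _ _ lev Z w p lv a lv' a' hw hp hQ m m' => ?_⟩
    have hL : ∀ ω t h, |Z ω + (t + h) * w ω - (Z ω + t * w ω)| ≤ 1 * |h| := fun ω t h => by
      rw [show Z ω + (t + h) * w ω - (Z ω + t * w ω) = h * w ω by ring, abs_mul,
        ← sqrt_sq_eq_abs (w ω), hw, sqrt_one, mul_comm]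
    have a1 := h T I R lev (fun ω x => Z ω + x * w ω) p lv a hL hp hQ m
    have a2 := h T I R' lev (fun ω x => Z ω + x * w ω) p lv' a' hL hp hQ m'
    rw [abs_le] at a1 a2 ⊢
    constructor <;> linarith [a1.1, a1.2, a2.1, a2.2]

end Vale.Agent.P166
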