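import Vale.Agent.P166.Stm

namespace Vale.Agent.P166

open MeasureTheory Finset Real Vale.Agent.P157

theorem mom_step (hO : OApi) (hH : HApi) {T I : Type} [Fintype T] [DecidableEq T] [Fintype I]
    [DecidableEq I] {ν : Measure (OG I)} {n : ℕ} {lev : T → ℕ} {Z : OG I → Cf T I → ℝ}
    {F : Finset T} {A : Finset I} {i : I} {δ : ℝ} (hν : Haar ν) (hn : 1 ≤ n) (hl : LevOk n lev)
    (cZ : Ct Z) (hi : i ∉ A) (hA : A.Nonempty) (hI : InvP n lev Z F {R | Sup (insert i A) R} δ)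
    (φ : ℝ → ℝ) (cφ : Continuous φ) (b K : ℝ) (hb : 1 ≤ b)
    (hφ : ∀ y, y ^ 2 ≤ (Fintype.card I : ℝ) → |φ y| ≤ b) (hδ : δ * b ^ 2 ≤ 1)
    (hK : ∀ a : I → ℝ, ∑ s ∈ A, a s ^ 2 ≤ (Fintype.card I : ℝ) / A.card →
      (∑ e : I → Bool, φ (∑ s ∈ A, spin (e s) * a s)) / (Fintype.card (I → Bool) : ℝ) ≤ K) :
    EH ν n lev Z (fun U ω => φ (yy U ω.2 i)) ≤ K + 3 := by
  have H := hH.one lev hν hn cZ
  have b0 : 0 < b := by linarith
  have cA : (0 : ℝ) < A.card := by exact_mod_cast hA.card_pos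
  have cB : (0 : ℝ) < Fintype.card (I → Bool) := by exact_mod_cast Fintype.card_pos
  have ct : ∀ R : OG I, Ct (T := T) fun U ω => φ (yy (R * U) ω.2 i) := fun R ω =>
    cφ.comp ((hO.cont ω.2 i).comp (continuous_const.mul continuous_id))
  have ct1 : Ct (T := T) fun U ω => φ (yy U ω.2 i) := fun ω => cφ.comp (hO.cont ω.2 i)
  have fst : ∀ g : OG I → Cf T I → ℝ, Ct g → (∀ U ω, |g U ω| ≤ b) →
      |TH ν n lev (fun U ω => Z U ω + 1 / b ^ 2 * g U ω) - TH ν n lev Z -
        1 / b ^ 2 * EH ν n lev Z g| ≤ 1 / b ^ 2 := fun g cg hg => by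
    have h1 := H.first (fun U ω => 1 / b ^ 2 * g U ω) (1 / b) (fun ω => continuous_const.mul (cg ω))
      (fun U ω => by
        rw [abs_mul, abs_of_pos (by positivity)]
        refine (mul_le_mul_of_nonneg_left (hg U ω) (by positivity)).trans (le_of_eq ?_)
        field_simp) ((div_le_one b0).2 hb)
    have h2 := H.lin g g (1 / b ^ 2) 0 cg cg
    simp only [zero_mul, add_zero] at h2
    rwa [h2, div_pow, one_pow] at h1
  choose R hR1 hR2 using fun e => hO.rot A i (π / 2) e hi hA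
  have key : ∀ e, EH ν n lev Z (fun U ω => φ (yy U ω.2 i)) ≤
      EH ν n lev Z (fun U ω => φ (yy (R e * U) ω.2 i)) + 3 := fun e => by
    have h1 := fst _ ct1 fun U ω => hφ _ (hO.bd U ω.2 i).1
    have h2 := fst _ (ct (R e)) fun U ω => hφ _ (hO.bd _ ω.2 i).1
    have h3 : |TH ν n lev (fun U ω => Z U ω + 1 / b ^ 2 * φ (yy U ω.2 i)) -
        TH ν n lev (fun U ω => Z U ω + 1 / b ^ 2 * φ (yy (R e * U) ω.2 i))| ≤ δ :=
      hH.inv hν hn cZ hI (R e) (hR1 e) lev id ⟨Function.injective_id, fun _ => rfl⟩ hl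
        (fun U ω => 1 / b ^ 2 * φ (yy U ω.2 i)) (fun ω => continuous_const.mul (ct1 ω))
        fun _ _ _ _ _ => rfl
    have h4 : δ ≤ 1 / b ^ 2 := (le_div_iff₀ (by positivity)).2 hδ
    refine le_of_mul_le_mul_left ?_ (show 0 < 1 / b ^ 2 by positivity)
    rw [abs_le] at h1 h2 h3
    linarith
  have h5 := sum_le_sum fun e (_ : e ∈ univ) => key e
  rw [sum_add_distrib, sum_const, sum_const, ← H.sum _ _ fun e _ => ct (R e), card_univ,
    nsmul_eq_mul, nsmul_eq_mul] at h5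
  have h6 := H.mono (fun U ω => ∑ e, φ (yy (R e * U) ω.2 i))
    (fun _ _ => K * Fintype.card (I → Bool)) (fun ω => continuous_finsetSum _ fun e _ => ct _ ω)
    (fun _ => continuous_const) fun U ω => by
      rw [← div_le_iff₀ cB]
      refine le_trans (le_of_eq ?_) (hK (fun s => yy U ω.2 s / √(A.card : ℝ)) ?_)
      · simp only [hR2, cos_pi_div_two, sin_pi_div_two, zero_mul, one_mul, zero_add, sum_div,
          mul_div_assoc]
      · simp only [div_pow, sq_sqrt cA.le, ← sum_div]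
        refine div_le_div_of_nonneg_right ?_ cA.le
        rw [← hO.sq U ω.2]
        exact sum_le_sum_of_subset_of_nonneg (subset_univ _) fun _ _ _ => sq_nonneg _
  rw [H.const] at h6
  refine le_of_mul_le_mul_left ?_ cB
  linarith

theorem momStmt (hO : OApi) (hQ : QApi) (hH : HApi) : MomStmt := by
  intro T I _ _ _ _ ν n lev Z F A i δ hν hn hl cZ hi hA hI
  have hN : (1 : ℝ) ≤ Fintype.card I := by exact_mod_cast Fintype.card_pos_iff.2 ⟨i⟩
  refine ⟨fun hδ => ?_, fun t ht h1 hδ => ?_⟩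
  · refine mom_step hO hH hν hn hl cZ hi hA hI (fun y => y ^ 4) (by fun_prop)
      ((Fintype.card I : ℝ) ^ 2) _ (one_le_pow₀ hN) (fun y hy => ?_) (by rwa [← pow_mul])
      fun a ha => (hQ.mom4 A a).trans ?_
    · rw [abs_of_nonneg (by positivity), show y ^ 4 = (y ^ 2) ^ 2 by ring]
      exact pow_le_pow_left₀ (sq_nonneg y) hy 2
    · have := pow_le_pow_left₀ (sum_nonneg fun s _ => sq_nonneg (a s)) ha 2
      linarith
  · rw [show (5 : ℝ) = 2 + 3 by norm_num]
    refine mom_step hO hH hν hn hl cZ hi hA hI (fun y => exp (t * y ^ 2)) (by fun_prop)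
      (exp (t * Fintype.card I)) _ (one_le_exp (by positivity)) (fun y hy => ?_) ?_
      fun a ha => hQ.mexp A a t ht ((mul_le_mul_of_nonneg_left ha ht).trans h1)
    · rw [abs_of_pos (exp_pos _)]
      exact exp_le_exp.2 (mul_le_mul_of_nonneg_left hy ht)
    · rwa [sq, ← exp_add, ← two_mul, ← mul_assoc]

end Vale.Agent.P166
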