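import Vale.Agent.P166.Swp

/-! P166 module Mx: existence of a penalised maximiser in the inner box. -/

namespace Vale.Agent.P166

open MeasureTheory Finset Real Vale.Agent.P157

namespace Mxm

variable {κ I Ts : Type} [Fintype κ] [DecidableEq κ] [Fintype I] [DecidableEq I] [Fintype Ts]
  [DecidableEq Ts]

/-- change one amplitude -/
def up1 (y : κ → ℕ → ℝ) (k : κ) (l : ℕ) (t : ℝ) : κ → ℕ → ℝ :=
  fun k' l' => if k' = k ∧ l' = l then t else y k' l'

/-- the field signs of the class `k` and level `l` -/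
def FF (S : Sys κ I Ts) (D n : ℕ) (k : κ) (l : ℕ) : Finset (Fin D × Fin n × I) :=
  univ.filter (fun r => S.c r.2.2 = k ∧ (r.2.1 : ℕ) = l)

omit [Fintype κ] [Fintype Ts] [DecidableEq Ts] in
lemma z_up (S : Sys κ I Ts) (D n : ℕ) (y : κ → ℕ → ℝ) (k : κ) (l : ℕ) (t t' : ℝ) (U : OG I)
    (ω : Cf (Sg D n I Ts) I) : S.Z D n (up1 y k l t') U ω = S.Z D n (up1 y k l t) U ω +
      ∑ r ∈ FF S D n k l, spin (ω.1 (Sum.inl r)) * ((t' - t) / √(D : ℝ) * yy U ω.2 r.2.2) := by
  simp only [Sys.Z, FF]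
  rw [sum_filter, add_right_comm _ (S.SF _), add_assoc (∑ i, _) (∑ s, _) (∑ s, _), ← sum_add_distrib]
  congr 2
  refine sum_congr rfl fun r _ => ?_
  simp only [up1]
  split_ifs <;> ring

omit [Fintype κ] in
lemma bounds (hA : AApi) (hO : OApi) (hR : RApi) (hQ : QApi) (hH : HApi) (ν : Measure (OG I))
    (S : Sys κ I Ts) (D n : ℕ) (hν : Haar ν) (hn : 1 ≤ n) (hl : LevOk n S.levs) (y : κ → ℕ → ℝ)
    (k : κ) (l : ℕ) (t : ℝ) : S.T ν D n (up1 y k l 0) ≤ S.T ν D n (up1 y k l t) ∧
      S.T ν D n (up1 y k l t) ≤ S.T ν D n (up1 y k l 0) + Fintype.card I * t ^ 2 / 2 := by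
  have hlev := (hH.ctz S D n y).2 hl
  have hI : ∀ U, Idp ((FF S D n k l).image Sum.inl) (S.Z D n (up1 y k l 0) U) := by
    intro U e e' σ h
    simp only [Sys.Z]
    congr 1
    · congr 1
      refine sum_congr rfl fun r _ => ?_
      by_cases hr : r ∈ FF S D n k l
      · have := (mem_filter.1 hr).2
        simp [up1, this]
      · rw [h]
        intro hm
        obtain ⟨r', hr', he⟩ := mem_image.1 hm
        exact hr (Sum.inl_injective he ▸ hr')
    · congr 1
      refine Prod.ext ?_ rfl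
      funext x
      refine h _ fun hm => ?_
      obtain ⟨r', _, he⟩ := mem_image.1 hm
      exact Sum.inl_ne_inr he
  have hw : ∀ U σ, ∑ r ∈ FF S D n k l, ((t - 0) / √(D : ℝ) * yy U σ r.2.2) ^ 2 ≤
      Fintype.card I * t ^ 2 := by
    intro U σ
    have h1 := Swpm.var_le (κ := Unit) D n (fun _ l' => if l' = l then t else 0) (t ^ 2)
      (fun _ => by
        simp only [ite_pow, ne_eq, OfNat.ofNat_ne_zero, not_false_eq_true, zero_pow, sum_ite_eq']
        split_ifs
        · exact le_rfl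
        · positivity) (sq_nonneg t) (fun _ => ()) univ (yy U σ)
    rw [← mul_sum, hO.sq, mul_comm] at h1
    refine le_trans ?_ h1
    simp only [mem_univ, filter_true, FF]
    rw [sum_filter]
    refine sum_le_sum fun r _ => ?_
    split_ifs with h1 h2
    · rw [sub_zero]
    · exact absurd h1.2 h2
    · positivity
    · positivity
  have hc := fun U => Swpm.core hA hR hQ n (S.lev D n) hn hlev Sum.inl Sum.inl_injective
    (FF S D n k l) _ (hI U) (fun r σ => (t - 0) / √(D : ℝ) * yy U σ r.2.2)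
    (fun _ => Fintype.card I * t ^ 2) (hw U)
  have he : ∀ U, (fun ω : Cf (Sg D n I Ts) I => S.Z D n (up1 y k l 0) U ω +
      ∑ r ∈ FF S D n k l, spin (ω.1 (Sum.inl r)) * ((t - 0) / √(D : ℝ) * yy U ω.2 r.2.2)) =
      S.Z D n (up1 y k l t) U := fun U => funext fun ω => (z_up S D n y k l 0 t U ω).symm
  simp only [he] at hc
  constructor
  · have := hH.ptw (S.lev D n) (S.lev D n) 0 hν hn (hH.ctz S D n (up1 y k l 0)).1
      (hH.ctz S D n (up1 y k l t)).1 fun U => by rw [add_zero]; exact (hc U).1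
    rwa [add_zero] at this
  · exact hH.ptw (S.lev D n) (S.lev D n) _ hν hn (hH.ctz S D n (up1 y k l t)).1
      (hH.ctz S D n (up1 y k l 0)).1 fun U => (hc U).2.trans
        (hA.xle (hR.ok (I := I) n (S.lev D n) hn).1 (fun ω => le_rfl) (n + 1) le_rfl (w0 _ _))

omit [Fintype κ] in
lemma support (hO : OApi) (hH : HApi) (ν : Measure (OG I))
    (S : Sys κ I Ts) (D n : ℕ) (hν : Haar ν) (hn : 1 ≤ n) (y : κ → ℕ → ℝ)
    (k : κ) (l : ℕ) (t : ℝ) : ∃ g : ℝ, ∀ t',
      S.T ν D n (up1 y k l t) + (t' - t) * g ≤ S.T ν D n (up1 y k l t') := by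
  have h1 := hH.one (S.lev D n) hν hn (hH.ctz S D n (up1 y k l t)).1
  set H : OG I → Cf (Sg D n I Ts) I → ℝ := fun U ω =>
    ∑ r ∈ FF S D n k l, spin (ω.1 (Sum.inl r)) * (1 / √(D : ℝ) * yy U ω.2 r.2.2) with hHd
  have hH' : Ct H := fun ω => continuous_finsetSum _ fun r _ =>
    continuous_const.mul (continuous_const.mul (hO.cont ω.2 _))
  refine ⟨EH ν n (S.lev D n) (S.Z D n (up1 y k l t)) H, fun t' => ?_⟩
  have a1 := h1.low (fun U ω => (t' - t) * H U ω + 0 * 0)
    (fun ω => (continuous_const.mul (hH' ω)).add continuous_const)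
  have a2 := h1.lin H (fun _ _ => 0) (t' - t) 0 hH' (fun _ => continuous_const)
  rw [a2] at a1
  have e : (fun U ω => S.Z D n (up1 y k l t) U ω + ((t' - t) * H U ω + 0 * 0)) =
      S.Z D n (up1 y k l t') := by
    funext U ω
    rw [z_up S D n y k l t t']
    simp only [hHd, mul_sum, mul_zero, add_zero]
    congr 1
    refine sum_congr rfl fun r _ => by ring
  rw [e] at a1
  unfold Sys.T
  linarith

/-- clamp to `[lam, 3 lam]` -/
def cl (lam t : ℝ) : ℝ := max lam (min (3 * lam) t)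

lemma real_step {φ : ℝ → ℝ} {N Nr lam t : ℝ} (hlam : 0 < lam) (hN : N ≤ Nr) (hN0 : 0 ≤ N)
    (hb : ∀ t, φ 0 ≤ φ t ∧ φ t ≤ φ 0 + N * t ^ 2 / 2)
    (hs : ∃ g : ℝ, ∀ t', φ t + (t' - t) * g ≤ φ t') (h0 : 0 ≤ t) (h4 : t ≤ 4 * lam) :
    φ t - 4 * Nr * (t - 2 * lam) ^ 2 ≤ φ (cl lam t) - 4 * Nr * (cl lam t - 2 * lam) ^ 2 := by
  obtain ⟨g, hg⟩ := hs
  have hNr : 0 ≤ Nr := hN0.trans hN
  rcases le_total t lam with h | h
  · have e : cl lam t = lam := by
      unfold cl
      rw [min_eq_right (by linarith), max_eq_left h]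
    rw [e]
    have h1 : φ t ≤ φ lam := by
      rcases h0.eq_or_lt with rfl | h0'
      · exact (hb lam).1
      · have h2 := hg 0
        have h3 := (hb t).1
        have hg0 : 0 ≤ g := by
          by_contra hneg
          have := mul_pos h0' (neg_pos.2 (not_le.1 hneg))
          nlinarith
        have := hg lam
        have := mul_nonneg (sub_nonneg.2 h) hg0
        linarith
    have h2 : (lam - 2 * lam) ^ 2 ≤ (t - 2 * lam) ^ 2 := by nlinarith
    have := mul_le_mul_of_nonneg_left h2 (by positivity : 0 ≤ 4 * Nr)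
    linarith
  rcases le_total t (3 * lam) with h' | h'
  · have e : cl lam t = t := by
      unfold cl
      rw [min_eq_right h', max_eq_right h]
    rw [e]
  · have e : cl lam t = 3 * lam := by
      unfold cl
      rw [min_eq_left h', max_eq_right (by linarith)]
    rw [e]
    have h1 := hg (8 * lam)
    have h2 := (hb (8 * lam)).2
    have h3 := (hb t).1
    have hg8 : g ≤ 8 * Nr * lam := by
      by_contra hneg
      have hlt := not_le.1 hneg
      have hg0 : 0 ≤ g := le_trans (by positivity) hlt.le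
      have h5 : 4 * lam * g ≤ (8 * lam - t) * g := mul_le_mul_of_nonneg_right (by linarith) hg0
      have h6 : 4 * lam * (8 * Nr * lam) < 4 * lam * g := mul_lt_mul_of_pos_left hlt (by positivity)
      have h7 : N * lam ^ 2 ≤ Nr * lam ^ 2 := mul_le_mul_of_nonneg_right hN (sq_nonneg _)
      nlinarith
    have h5 := hg (3 * lam)
    have h6 := mul_le_mul_of_nonneg_left hg8 (sub_nonneg.2 h')
    have h7 : 0 ≤ Nr * ((t - 3 * lam) * (t - 3 * lam)) :=
      mul_nonneg hNr (mul_self_nonneg _)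
    nlinarith

lemma pn_up (n Nr : ℕ) (lam : ℝ) (y : κ → ℕ → ℝ) (k : κ) (l : ℕ) (hl : l < n) (t t' : ℝ) :
    pn n Nr lam (up1 y k l t') - 4 * Nr * (t' - 2 * lam) ^ 2 =
      pn n Nr lam (up1 y k l t) - 4 * Nr * (t - 2 * lam) ^ 2 := by
  have key : ∀ s : ℝ, ∑ k', ∑ l' ∈ range n, (up1 y k l s k' l' - 2 * lam) ^ 2 =
      ∑ k', ∑ l' ∈ range n, (if k' = k ∧ l' = l then 0 else (y k' l' - 2 * lam) ^ 2) +
        (s - 2 * lam) ^ 2 := by
    intro s
    have e1 : (s - 2 * lam) ^ 2 =
        ∑ k', ∑ l' ∈ range n, (if k' = k ∧ l' = l then (s - 2 * lam) ^ 2 else 0) := by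
      rw [sum_eq_single k, sum_eq_single l]
      · simp
      · intro b _ hb; simp [hb]
      · intro h; exact absurd (mem_range.2 hl) h
      · intro b _ hb; simp [hb]
      · simp
    rw [e1, ← sum_add_distrib]
    refine sum_congr rfl fun k' _ => ?_
    rw [← sum_add_distrib]
    refine sum_congr rfl fun l' _ => ?_
    simp only [up1]
    split_ifs <;> simp
  unfold pn
  rw [key, key]
  ring

omit [Fintype κ] [DecidableEq κ] in
lemma t_lip (hO : OApi) (hH : HApi) (ν : Measure (OG I)) (S : Sys κ I Ts) (D n : ℕ) (hν : Haar ν)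
    (hn : 1 ≤ n) (y y' : κ → ℕ → ℝ) (δ : ℝ) (h : ∀ k l, l < n → |y k l - y' k l| ≤ δ) :
    S.T ν D n y ≤ S.T ν D n y' +
      Fintype.card (Fin D × Fin n × I) * (1 / √(D : ℝ) * √(Fintype.card I : ℝ)) * δ := by
  refine hH.le (S.lev D n) _ hν hn (hH.ctz S D n y).1 (hH.ctz S D n y').1 fun U ω => ?_
  simp only [Sys.Z]
  have : ∑ s : Fin D × Fin n × I, spin (ω.1 (Sum.inl s)) *
      (y (S.c s.2.2) s.2.1 / √(D : ℝ) * yy U ω.2 s.2.2) ≤ ∑ s : Fin D × Fin n × I,
      (spin (ω.1 (Sum.inl s)) * (y' (S.c s.2.2) s.2.1 / √(D : ℝ) * yy U ω.2 s.2.2) +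
        1 / √(D : ℝ) * √(Fintype.card I : ℝ) * δ) := by
    refine sum_le_sum fun s _ => ?_
    have h1 := h (S.c s.2.2) s.2.1 s.2.1.2
    have h2 := (hO.bd U ω.2 s.2.2).2
    have h3 : |spin (ω.1 (Sum.inl s))| = 1 := by unfold spin; split_ifs <;> simp
    have h4 : |spin (ω.1 (Sum.inl s)) * (1 / √(D : ℝ) * yy U ω.2 s.2.2 *
        (y (S.c s.2.2) s.2.1 - y' (S.c s.2.2) s.2.1))| ≤
        1 / √(D : ℝ) * √(Fintype.card I : ℝ) * δ := by
      rw [abs_mul, h3, one_mul, abs_mul, abs_mul, abs_of_nonneg (by positivity : 0 ≤ 1 / √(D : ℝ))]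
      gcongr
    have h5 := (abs_le.1 h4).2
    have e : spin (ω.1 (Sum.inl s)) * (y (S.c s.2.2) s.2.1 / √(D : ℝ) * yy U ω.2 s.2.2) =
        spin (ω.1 (Sum.inl s)) * (y' (S.c s.2.2) s.2.1 / √(D : ℝ) * yy U ω.2 s.2.2) +
        spin (ω.1 (Sum.inl s)) * (1 / √(D : ℝ) * yy U ω.2 s.2.2 *
        (y (S.c s.2.2) s.2.1 - y' (S.c s.2.2) s.2.1)) := by ring
    linarith
  rw [sum_add_distrib, sum_const, card_univ, nsmul_eq_mul] at this
  linarith

/-- extend by zero -/
def ex0 (n : ℕ) (z : κ → Fin n → ℝ) : κ → ℕ → ℝ := fun k l => if h : l < n then z k ⟨l, h⟩ else 0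

end Mxm

open Mxm

theorem mxStmt (hA : AApi) (hO : OApi) (hR : RApi) (hQ : QApi) (hH : HApi) : MxStmt := by
  intro κ I Ts _ _ _ _ _ _ ν S D n Nr lam hν hn hl hlam hN
  set G : (κ → ℕ → ℝ) → ℝ := fun y => S.T ν D n y - pn n Nr lam y with hG
  have hcongr : ∀ y y' : κ → ℕ → ℝ, (∀ k l, l < n → y k l = y' k l) → G y ≤ G y' := by
    intro y y' h
    have h1 := t_lip hO hH ν S D n hν hn y y' 0 (fun k l hl => by rw [h k l hl]; simp)
    have h2 : pn n Nr lam y = pn n Nr lam y' := by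
      unfold pn
      congr 1
      exact sum_congr rfl fun k _ => sum_congr rfl fun l hl => by rw [h k l (mem_range.1 hl)]
    simp only [hG]
    rw [mul_zero] at h1
    linarith
  have hc : Continuous fun z : κ → Fin n → ℝ => G (ex0 n z) := by
    refine Continuous.sub ?_ ?_
    · set K : ℝ := Fintype.card (Fin D × Fin n × I) * (1 / √(D : ℝ) * √(Fintype.card I : ℝ))
      have hK : 0 ≤ K := by positivity
      refine (LipschitzWith.of_le_add_mul' K fun z z' => ?_).continuous
      refine t_lip hO hH ν S D n hν hn _ _ _ fun k l hl => ?_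
      simp only [ex0, dif_pos hl]
      exact (dist_le_pi_dist (z k) (z' k) _).trans (dist_le_pi_dist z z' k)
    · unfold pn
      refine continuous_const.mul (continuous_finsetSum _ fun k _ =>
        continuous_finsetSum _ fun l hl => ?_)
      simp only [ex0, dif_pos (mem_range.1 hl)]
      fun_prop
  obtain ⟨z, hz, hmax⟩ := (isCompact_Icc (a := fun (_ : κ) (_ : Fin n) => lam)
    (b := fun _ _ => 3 * lam)).exists_isMaxOn
    ⟨fun _ _ => lam, le_rfl, fun _ _ => by show lam ≤ 3 * lam; linarith⟩ hc.continuousOn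
  refine ⟨ex0 n z, fun k l hl => ?_, fun y' hy' => ?_⟩
  · simp only [ex0, dif_pos hl]
    exact ⟨hz.1 k _, hz.2 k _⟩
  have hstep : ∀ A : Finset (κ × ℕ), (∀ a ∈ A, a.2 < n) →
      G y' ≤ G (fun k l => if (k, l) ∈ A then cl lam (y' k l) else y' k l) := by
    intro A
    induction A using Finset.induction_on with
    | empty => intro _; simp
    | insert a A ha ih =>
      intro hA'
      refine (ih fun b hb => hA' b (mem_insert_of_mem hb)).trans ?_
      obtain ⟨k, l⟩ := a
      have hln : l < n := hA' (k, l) (mem_insert_self _ _)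
      set y1 : κ → ℕ → ℝ := fun k l => if (k, l) ∈ A then cl lam (y' k l) else y' k l with hy1
      have e1 : y1 = up1 y1 k l (y' k l) := by
        funext k' l'
        simp only [up1]
        split_ifs with h
        · obtain ⟨rfl, rfl⟩ := h
          simp only [hy1, if_neg ha]
        · rfl
      have e2 : (fun k' l' => if (k', l') ∈ insert (k, l) A then cl lam (y' k' l') else y' k' l') =
          up1 y1 k l (cl lam (y' k l)) := by
        funext k' l'
        simp only [up1, mem_insert, Prod.mk.injEq, hy1]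
        by_cases h : k' = k ∧ l' = l
        · obtain ⟨rfl, rfl⟩ := h
          simp
        · simp [h]
      have h1 := real_step (φ := fun t => S.T ν D n (up1 y1 k l t)) (N := Fintype.card I) (Nr := Nr)
        hlam (by exact_mod_cast hN) (by positivity)
        (bounds hA hO hR hQ hH ν S D n hν hn hl y1 k l)
        (support hO hH ν S D n hν hn y1 k l (y' k l)) (hy' k l hln).1 (hy' k l hln).2
      have h2 := pn_up n Nr lam y1 k l hln (y' k l) (cl lam (y' k l))
      rw [e2]
      rw [← e1] at h1 h2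
      simp only [hG]
      linarith
  have h1 := hstep (univ ×ˢ range n) fun a ha => mem_range.1 (mem_product.1 ha).2
  have h2 := hcongr (fun k l => if (k, l) ∈ univ ×ˢ range n then cl lam (y' k l) else y' k l)
    (ex0 n fun k l => cl lam (y' k l)) fun k l hl => by simp [ex0, hl]
  have h3 : G (ex0 n fun k l => cl lam (y' k l)) ≤ G (ex0 n z) := hmax
    ⟨fun _ _ => le_max_left _ _, fun _ _ => max_le (by linarith) (min_le_left _ _)⟩
  simp only [hG] at h1 h2 h3
  linarith

end Vale.Agent.P166
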