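import Vale.Agent.P166.Stm

/-! P166 module Near: moving few directions to the top class changes the value little. -/

namespace Vale.Agent.P166

open MeasureTheory Finset Real Vale.Agent.P157

theorem nearStmt (hA : AApi) (hO : OApi) (hR : RApi) (hH : HApi) (hW : SwpStmt) (hS : SyStmt) :
    NearStmt := by
  intro κ I Ts _ _ _ _ _ _ ν S D n y B τ v Γ hν hn hl hv hΓ hgap
  have hv0 : 0 ≤ v := le_trans (sum_nonneg fun _ _ => sq_nonneg _) (hv τ)
  have hΓ0 : 0 ≤ Γ := (abs_nonneg _).trans (hΓ τ)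
  have hZ := (hH.ctz S D n y).1
  have hZ' := (hH.ctz (S.up B τ) D n y).1
  have hlev := (hH.ctz S D n y).2 hl
  have hsw := fun U => hW κ I Ts (Sg D n I Ts) S D n y B τ v (S.lev D n) id (fun _ => 0) U hn hv
    ⟨Function.injective_id, fun _ => rfl⟩ hlev (fun _ _ _ _ => rfl)
  have hp : ∀ ω : Cf (Sg D n I Ts) I, pull id ω = ω := fun ω => rfl
  simp only [hp, add_zero] at hsw
  set B' := B.filter (fun i => S.c i ≠ τ) with hB'
  constructor
  · have := hH.ptw (S.lev D n) (S.lev D n) 0 hν hn hZ hZ' fun U => (hsw U).2.trans (by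
      have := hA.xle (hR.ok (I := I) n (S.lev D n) hn).1 (c := 0)
        (Z := fun ω => (S.up B τ).Z D n y U ω +
          ∑ i ∈ B', (S.lam (S.c i) - S.lam τ + v) * yy U ω.2 i ^ 2 / 2)
        (Z' := (S.up B τ).Z D n y U) (fun ω => by
          have : ∑ i ∈ B', (S.lam (S.c i) - S.lam τ + v) * yy U ω.2 i ^ 2 / 2 ≤ 0 := by
            refine sum_nonpos fun i hi => ?_
            have h1 := hgap i (mem_filter.1 hi).1 (mem_filter.1 hi).2
            have h2 := sq_nonneg (yy U ω.2 i)
            nlinarith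
          linarith) (n + 1) le_rfl (w0 _ _)
      exact this)
    rw [add_zero] at this
    exact this
  · set A : OG I → Cf (Sg D n I Ts) I → ℝ :=
      fun U ω => ∑ i ∈ B', (S.lam (S.c i) - S.lam τ - v) * yy U ω.2 i ^ 2 / 2 with hAd
    have hct : ∀ j, Ct (T := Sg D n I Ts) (I := I) (fun U ω => yy U ω.2 j ^ 2) :=
      fun j ω => (hO.cont ω.2 j).pow 2
    have hct2 : ∀ j (a : ℝ), Ct (T := Sg D n I Ts) (I := I) (fun U ω => a * yy U ω.2 j ^ 2 / 2) :=
      fun j a ω => (continuous_const.mul (hct j ω)).div_const 2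
    have hAc : Ct A := fun ω => continuous_finsetSum _ fun j _ => hct2 j _ ω
    have h1 := hH.one (S.lev D n) hν hn hZ'
    have a1 := hH.ptw (S.lev D n) (S.lev D n) (Z := fun U ω => (S.up B τ).Z D n y U ω + A U ω) 0 hν hn
      (fun ω => (hZ' ω).add (hAc ω)) hZ fun U => by rw [add_zero]; exact (hsw U).1
    have a2 := h1.low A hAc
    have a3 := h1.sum B' (fun i U ω => (S.lam (S.c i) - S.lam τ - v) * yy U ω.2 i ^ 2 / 2)
      (fun j _ => hct2 j _)
    set q : ℝ := (2 * Γ + v) * Fintype.card I / (2 * ((S.up B τ).cls τ).card) with hq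
    have hq0 : 0 ≤ q := by positivity
    have a4 : ∀ i ∈ B', -q ≤ EH ν n (S.lev D n) ((S.up B τ).Z D n y)
        (fun U ω => (S.lam (S.c i) - S.lam τ - v) * yy U ω.2 i ^ 2 / 2) := by
      intro i hi
      have b1 := (hS κ I Ts ν (S.up B τ) D n y hν hn).1 i
      have hc : (S.up B τ).c i = τ := by
        simp only [Sys.up]
        rw [if_pos (mem_filter.1 hi).1]
      rw [hc] at b1
      have b2 := h1.lin (fun U ω => yy U ω.2 i ^ 2) (fun _ _ => 0) (-(2 * Γ + v) / 2) 0 (hct i)
        (fun _ => continuous_const)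
      have b3 := h1.mono (fun U ω => -(2 * Γ + v) / 2 * yy U ω.2 i ^ 2 + 0 * 0)
        (fun U ω => (S.lam (S.c i) - S.lam τ - v) * yy U ω.2 i ^ 2 / 2)
        (fun ω => (continuous_const.mul (hct i ω)).add continuous_const) (hct2 i _) (fun U ω => by
          have h2 := sq_nonneg (yy U ω.2 i)
          have h3 := abs_le.1 (hΓ (S.c i))
          have h4 := abs_le.1 (hΓ τ)
          nlinarith)
      rw [b2] at b3
      have b4 : q = (2 * Γ + v) / 2 * (Fintype.card I / ((S.up B τ).cls τ).card) := by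
        rw [hq, mul_div_assoc, div_mul_div_comm, mul_div_assoc]
      have b5 := mul_le_mul_of_nonneg_left b1 (by positivity : 0 ≤ (2 * Γ + v) / 2)
      have b6 : (S.up B τ).lev D n = S.lev D n := rfl
      rw [b6] at b5
      linarith
    have a5 := card_nsmul_le_sum B' _ _ a4
    rw [← a3, nsmul_eq_mul] at a5
    have a6 : (B'.card : ℝ) ≤ B.card := by exact_mod_cast card_filter_le _ _
    have a7 := mul_le_mul_of_nonneg_right a6 hq0
    have a8 : (B.card : ℝ) * (2 * Γ + v) * Fintype.card I / (2 * ((S.up B τ).cls τ).card) =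
        B.card * q := by rw [hq]; ring
    rw [a8]
    show TH ν n (S.lev D n) _ ≤ TH ν n (S.lev D n) _ + _
    linarith

end Vale.Agent.P166
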