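import Vale.Agent.P166.Stm

namespace Vale.Agent.P166

open MeasureTheory Finset Real Vale.Agent.P157

namespace Nrm

theorem sL_zero (hR : RApi) (hH : HApi) {κ : Type} {N : ℕ} (ν : Measure (OG (Fin (N + 1))))
    (c : Fin (N + 1) → κ) (lam : κ → ℝ) (D n : ℕ) (y : κ → ℕ → ℝ) (hν : Haar ν) (hn : 1 ≤ n) :
    (sL c lam 0 0).T ν D n y = (s0 c lam).T ν D n y := by
  have he : Emb ((s0 c lam).lev D n) ((sL c lam 0 0).lev D n) (Sum.map id Empty.elim) :=
    ⟨Function.injective_id.sumMap fun a => a.elim, fun s => by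
      rcases s with s | s
      · rfl
      · exact s.elim⟩
  have := (hH.same ((s0 c lam).lev D n) ((sL c lam 0 0).lev D n) (Z := (s0 c lam).Z D n y)
    (Z' := (sL c lam 0 0).Z D n y) 0 hν hn (hH.ctz _ D n y).1 fun U => by
      rw [add_zero, ← (hR.emb n _ _ _ he ((s0 c lam).Z D n y U)).1]
      congr 1
      ext ω
      simp [Sys.Z, sL, s0, pull]).1
  rwa [add_zero] at this

end Nrm

theorem nrStmt (hR : RApi) (hH : HApi) (hCav : CavStmt) (hNear : NearStmt) (hSch : SchStmt)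
    (hIso : IsoStmt) : NrStmt := by
  intro K Γ η g0 hη hg
  have hK0 : (0 : ℝ) ≤ K := Nat.cast_nonneg K
  set v := min 1 (min g0 (η / (8 * K + 8))) with hv
  have v0 : 0 < v := by positivity
  have v1 : v ≤ 1 := min_le_left _ _
  have v2 : v ≤ g0 := (min_le_right _ _).trans (min_le_left _ _)
  have v3 : 8 * K * v ≤ η := by
    have : v ≤ η / (8 * K + 8) := (min_le_right _ _).trans (min_le_right _ _)
    rw [le_div_iff₀ (by positivity)] at this
    nlinarith
  obtain ⟨δ1, hδ1, hC⟩ := hCav K Γ η v 1 hη v0 v1 v3 one_pos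
  refine ⟨v, δ1, v0, hδ1, fun n hn => ?_⟩
  obtain ⟨C, hC0, N0, hC⟩ := hC n hn
  choose! δ hδ hC using hC
  refine ⟨C + K * (2 * |Γ| + 1) / (2 * η), by positivity, ⌈N0 / η⌉₊, fun Nr hNr => ?_⟩
  have hI : ∀ N, ∃ D0 : ℕ, N0 ≤ N → ∀ D, D0 ≤ D → ∀ (κ I Ts : Type) [Fintype I] [DecidableEq I]
      [Fintype Ts] [DecidableEq Ts] (S : Sys κ I Ts) (y : κ → ℕ → ℝ), Fintype.card I ≤ Nr →
      (∀ k l, l < n → |y k l| ≤ 4) → S.Inv D n y (δ N) := fun N => by
    by_cases h : N0 ≤ N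
    · obtain ⟨D0, h0⟩ := hIso n Nr 4 (δ N) hn (hδ N h)
      exact ⟨D0, fun _ => h0⟩
    · exact ⟨0, fun h' => absurd h' h⟩
  choose D0 hD0 using hI
  refine ⟨(range (Nr + 1)).sup D0, fun D hD N κ _ _ ν ν' τ α lam c' y hν hν' hK hN hW hα hgap hcl
    hal hy hV => ?_⟩
  have hNr0 : (0 : ℝ) < Nr := by exact_mod_cast (by omega : 0 < Nr)
  have hNN : (N : ℝ) ≤ Nr := by exact_mod_cast (by omega : N ≤ Nr)
  have hN0 : N0 ≤ N := by
    have h1 : (N0 : ℝ) / η ≤ Nr := (Nat.le_ceil _).trans (by exact_mod_cast hNr)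
    rw [div_le_iff₀ hη] at h1
    have h2 : ((s0 (c' ∘ Fin.castSucc) lam).cls τ).card ≤ N := by
      simpa using card_le_univ ((s0 (c' ∘ Fin.castSucc) lam).cls τ)
    have h3 : (((s0 (c' ∘ Fin.castSucc) lam).cls τ).card : ℝ) ≤ N := by exact_mod_cast h2
    have h4 : (N0 : ℝ) ≤ N := by linarith [hcl τ]
    exact_mod_cast h4
  have hDN : D0 N ≤ D := (le_sup (f := D0) (mem_range.2 (by omega))).trans hD
  have hne : ∀ k, ∃ i : Fin N, c' i.castSucc = k := fun k => by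
    have h1 : (0 : ℝ) < ((s0 (c' ∘ Fin.castSucc) lam).cls k).card :=
      lt_of_lt_of_le (by positivity) (hcl k)
    obtain ⟨i, hi⟩ := card_pos.1 (Nat.cast_pos.1 h1)
    exact ⟨i, (mem_filter.1 hi).2⟩
  choose sp0 hsp using hne
  set k0 := c' (Fin.last N)
  set sp : {k // k ≠ k0} → Fin N := fun j => sp0 j with hspd
  have inj : Function.Injective sp := fun j j' e =>
    Subtype.ext (by rw [← hsp j, ← hsp j']; exact congrArg (fun i => c' (Fin.castSucc i)) e)
  obtain ⟨nu, γ, hDg, hb, -⟩ := hSch κ _ τ (Equiv.optionSubtypeNe k0) α lam Γ η g0 hη hg hα hW hgap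
  set S := s0 (c' ∘ Fin.castSucc) lam with hS
  have hsub : S.cls τ ⊆ (S.up (univ.image sp) τ).cls τ := fun i hi => by
    refine mem_filter.2 ⟨mem_univ _, ?_⟩
    have := (mem_filter.1 hi).2
    simp only [Sys.up]
    split_ifs
    · rfl
    · exact this
  have hup : η * N ≤ ((S.up (univ.image sp) τ).cls τ).card :=
    (mul_le_mul_of_nonneg_left hNN hη.le).trans ((hcl τ).trans (Nat.cast_le.2 (card_le_card hsub)))
  have hup0 : (0 : ℝ) < ((S.up (univ.image sp) τ).cls τ).card :=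
    lt_of_lt_of_le (by positivity) ((hcl τ).trans (Nat.cast_le.2 (card_le_card hsub)))
  have h3 := (hC N hN0 κ _ ν ν' D τ (Equiv.optionSubtypeNe k0) sp c' α lam nu γ y 0 0 hν hν' hK inj
    (fun j => hsp j) rfl hα hW hDg (fun j => (hb j).2) hal hn (by simp) hV hup
    (hD0 N hN0 D hDN _ _ _ _ y (by simpa using hN) hy)
    (hD0 N hN0 D hDN _ _ _ _ y (by simp; omega) hy)).2.2
  rw [Nrm.sL_zero hR hH ν' c' lam D n y hν' hn] at h3
  obtain ⟨h4, h5⟩ := hNear κ _ _ ν S D n y (univ.image sp) τ v Γ hν hn (fun s => s.elim) hV hW.bd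
    fun i _ hi => le_trans (add_le_add le_rfl v2) (hgap _ hi)
  have h6 : ((univ.image sp).card : ℝ) * (2 * Γ + v) * Fintype.card (Fin N) /
      (2 * ((S.up (univ.image sp) τ).cls τ).card) ≤ K * (2 * |Γ| + 1) / (2 * η) := by
    have a1 : (univ.image sp).card ≤ K := card_image_le.trans
      ((card_univ (α := {k // k ≠ k0})).le.trans ((Fintype.card_subtype_le _).trans hK))
    have a2 : ((univ.image sp).card : ℝ) ≤ K := by exact_mod_cast a1
    have a3 : 2 * Γ + v ≤ 2 * |Γ| + 1 := by linarith [le_abs_self Γ]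
    have a4 : 0 ≤ Γ := (abs_nonneg _).trans (hW.bd τ)
    rw [div_le_div_iff₀ (by positivity) (by positivity), Fintype.card_fin]
    calc _ = ((univ.image sp).card * (2 * Γ + v)) * (2 * (η * N)) := by ring
      _ ≤ _ := by gcongr
  rw [abs_le] at h3 ⊢
  have : 0 ≤ K * (2 * |Γ| + 1) / (2 * η) := by positivity
  constructor <;> linarith [h3.1, h3.2]

end Vale.Agent.P166
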