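import Vale.Agent.P166.Stm

/-! P166: elementary facts on the orthogonal group. -/

namespace Vale.Agent.P166

open MeasureTheory Finset Real Vale.Agent.P157 Matrix

namespace O

variable {I : Type} [Fintype I] [DecidableEq I]

theorem col (U : OG I) (j k : I) : ∑ i, U.1 i j * U.1 i k = if j = k then 1 else 0 := by
  have h := (Matrix.mem_orthogonalGroup_iff' I ℝ).1 U.2
  have := congrFun (congrFun h j) k
  simpa [Matrix.mul_apply, Matrix.one_apply] using this

theorem spin_sq (b : Bool) : spin b * spin b = 1 := by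
  cases b <;> simp [spin]

theorem mul (R U : OG I) (σ : I → Bool) (i : I) :
    yy (R * U) σ i = ∑ j, R.1 i j * yy U σ j := by
  simp only [yy, Submonoid.coe_mul, Matrix.mul_apply, sum_mul, mul_sum]
  rw [sum_comm]
  refine sum_congr rfl fun j _ => sum_congr rfl fun k _ => by ring

theorem bil (U : OG I) (a : I → ℝ) (x x' : I → ℝ) :
    ∑ i, a i * ((∑ j, U.1 i j * x j) * ∑ k, U.1 i k * x' k) =
      ∑ j, ∑ k, (∑ i, a i * (U.1 i j * U.1 i k)) * (x j * x' k) := by
  simp only [sum_mul, mul_sum]
  rw [sum_comm]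
  refine (sum_congr rfl fun k _ => sum_comm).trans ?_
  rw [sum_comm]
  refine sum_congr rfl fun j _ => sum_congr rfl fun k _ => sum_congr rfl fun i _ => by ring

theorem dot (U : OG I) (σ σ' : I → Bool) :
    ∑ i, yy U σ i * yy U σ' i = ∑ j, spin (σ j) * spin (σ' j) := by
  have := bil U (fun _ => 1) (fun j => spin (σ j)) (fun j => spin (σ' j))
  simp only [one_mul, col, ite_mul, zero_mul, sum_ite_eq, mem_univ, if_true] at this
  exact this

theorem sq (U : OG I) (σ : I → Bool) : ∑ i, yy U σ i ^ 2 = Fintype.card I := by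
  simp only [pow_two, dot, spin_sq]
  simp

theorem bd (U : OG I) (σ : I → Bool) (i : I) :
    yy U σ i ^ 2 ≤ Fintype.card I ∧ |yy U σ i| ≤ √(Fintype.card I : ℝ) := by
  have h : yy U σ i ^ 2 ≤ Fintype.card I := by
    rw [← sq U σ]
    exact single_le_sum (f := fun i => yy U σ i ^ 2) (fun _ _ => sq_nonneg _) (mem_univ i)
  exact ⟨h, abs_le_sqrt h⟩

theorem cont (σ : I → Bool) (i : I) : Continuous fun U : OG I => yy U σ i := by
  unfold yy
  refine continuous_finsetSum _ fun j _ => Continuous.mul ?_ continuous_const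
  exact (continuous_apply j).comp ((continuous_apply i).comp continuous_subtype_val)

theorem blk {κ : Type} (c : I → κ) (R U : OG I) (h : Blk c R) (a : κ → ℝ) (σ σ' : I → Bool) :
    ∑ i, a (c i) * (yy (R * U) σ i * yy (R * U) σ' i) =
      ∑ i, a (c i) * (yy U σ i * yy U σ' i) := by
  simp only [mul]
  rw [bil R (fun i => a (c i))]
  have h1 : ∀ j k, ∑ i, a (c i) * (R.1 i j * R.1 i k) = if j = k then a (c j) else 0 := by
    intro j k
    have : ∀ i, a (c i) * (R.1 i j * R.1 i k) = a (c j) * (R.1 i j * R.1 i k) := by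
      intro i
      by_cases hc : c i = c j
      · rw [hc]
      · rw [h i j hc]; ring
    simp only [this, ← mul_sum, col]
    split_ifs <;> simp
  simp only [h1, ite_mul, zero_mul, sum_ite_eq, mem_univ, if_true]

theorem sup (A : Finset I) (R U : OG I) (h : Sup A R) (σ : I → Bool) (j : I) (hj : j ∉ A) :
    yy (R * U) σ j = yy U σ j := by
  rw [mul]
  simp only [fun k => h j k (Or.inl hj), ite_mul, one_mul, zero_mul, sum_ite_eq, mem_univ, if_true]

theorem supblk {κ : Type} (A : Finset I) (R : OG I) (c : I → κ) (k : κ) (h : Sup A R)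
    (hc : ∀ i ∈ A, c i = k) : Blk c R := by
  intro i j hij
  have hne : i ≠ j := fun e => hij (by rw [e])
  have : i ∉ A ∨ j ∉ A := by
    by_contra hh
    push Not at hh
    exact hij ((hc i hh.1).trans (hc j hh.2).symm)
  rw [h i j this, if_neg hne]

theorem supmono (A A' : Finset I) (R : OG I) (hA : A ⊆ A') (h : Sup A R) : Sup A' R := by
  intro i j hij
  refine h i j ?_
  rcases hij with h1 | h1
  · exact Or.inl fun e => h1 (hA e)
  · exact Or.inr fun e => h1 (hA e)

/-- rotation in the plane of two orthonormal vectors -/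
def rm (e u : I → ℝ) (c s : ℝ) : Matrix I I ℝ := fun a b =>
  (if a = b then 1 else 0) + (c - 1) * (e a * e b + u a * u b) + s * (e a * u b - u a * e b)

theorem rm_mem (e u : I → ℝ) (c s : ℝ) (he : ∑ k, e k * e k = 1) (hu : ∑ k, u k * u k = 1)
    (heu : ∑ k, e k * u k = 0) (hcs : c ^ 2 + s ^ 2 = 1) :
    rm e u c s ∈ Matrix.orthogonalGroup I ℝ := by
  rw [Matrix.mem_orthogonalGroup_iff]
  ext a b
  simp only [Matrix.mul_apply, Matrix.transpose_apply, Matrix.one_apply, rm]
  have key : ∀ k, ((if a = k then 1 else 0) + (c - 1) * (e a * e k + u a * u k) +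
      s * (e a * u k - u a * e k)) * ((if b = k then 1 else 0) +
        (c - 1) * (e b * e k + u b * u k) + s * (e b * u k - u b * e k)) =
      (if a = k then (if b = k then 1 else 0) else 0) +
      (if a = k then ((c - 1) * e b - s * u b) * e k + ((c - 1) * u b + s * e b) * u k else 0) +
      (if b = k then ((c - 1) * e a - s * u a) * e k + ((c - 1) * u a + s * e a) * u k else 0) +
      ((c - 1) * e a - s * u a) * ((c - 1) * e b - s * u b) * (e k * e k) +
      ((c - 1) * u a + s * e a) * ((c - 1) * u b + s * e b) * (u k * u k) +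
      (((c - 1) * e a - s * u a) * ((c - 1) * u b + s * e b) +
        ((c - 1) * u a + s * e a) * ((c - 1) * e b - s * u b)) * (e k * u k) := by
    intro k
    split_ifs <;> ring
  simp only [key, sum_add_distrib, ← mul_sum, he, hu, heu, sum_ite_eq, mem_univ, if_true]
  have h2 : (if b = a then (1 : ℝ) else 0) = if a = b then 1 else 0 := by
    simp only [eq_comm]
  rw [h2]
  linear_combination (e a * e b + u a * u b) * hcs

theorem rot (A : Finset I) (i : I) (φ : ℝ) (e : I → Bool) (hi : i ∉ A) (hA : A.Nonempty) :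
    ∃ R : OG I, Sup (insert i A) R ∧ ∀ U σ, yy (R * U) σ i =
      cos φ * yy U σ i + sin φ * ((∑ j ∈ A, spin (e j) * yy U σ j) / √(A.card : ℝ)) := by
  have hc : (0 : ℝ) < A.card := by exact_mod_cast hA.card_pos
  have hs : 0 < √(A.card : ℝ) := sqrt_pos.2 hc
  set ev : I → ℝ := fun k => if k = i then 1 else 0 with hev
  set u : I → ℝ := fun k => if k ∈ A then spin (e k) / √(A.card : ℝ) else 0 with hu
  have hui : u i = 0 := by simp [hu, hi]
  have h1 : ∑ k, ev k * ev k = 1 := by simp [hev]
  have h2 : ∑ k, u k * u k = 1 := by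
    have : ∀ k, u k * u k = if k ∈ A then 1 / (A.card : ℝ) else 0 := by
      intro k
      simp only [hu]
      split_ifs
      · rw [div_mul_div_comm, spin_sq, mul_self_sqrt hc.le]
      · simp
    simp only [this]
    rw [sum_ite_mem, univ_inter, sum_const, nsmul_eq_mul]
    field_simp
  have h3 : ∑ k, ev k * u k = 0 := by simp [hev, hui]
  refine ⟨⟨rm ev u (cos φ) (sin φ), rm_mem ev u _ _ h1 h2 h3 (cos_sq_add_sin_sq φ)⟩, ?_, ?_⟩
  · intro a b hab
    simp only [rm]
    rcases hab with h | h
    · rw [mem_insert, not_or] at h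
      have e1 : ev a = 0 := by simp [hev, h.1]
      have e2 : u a = 0 := by simp [hu, h.2]
      rw [e1, e2]; ring
    · rw [mem_insert, not_or] at h
      have e1 : ev b = 0 := by simp [hev, h.1]
      have e2 : u b = 0 := by simp [hu, h.2]
      rw [e1, e2]; ring
  · intro U σ
    rw [mul]
    have : ∀ j, rm ev u (cos φ) (sin φ) i j * yy U σ j =
        (if i = j then cos φ * yy U σ j else 0) +
          sin φ * (if j ∈ A then spin (e j) * yy U σ j / √(A.card : ℝ) else 0) := by
      intro j
      have e1 : ev i = 1 := by simp [hev]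
      simp only [rm, hui, e1]
      by_cases hij : i = j
      · subst hij
        simp only [e1, hui, hi, if_true, if_false]
        ring
      · have e2 : ev j = 0 := by simp [hev, Ne.symm hij]
        simp only [e2, hij, if_false, hu]
        split_ifs <;> ring
    simp only [this, sum_add_distrib, sum_ite_eq, mem_univ, if_true, ← mul_sum]
    rw [sum_ite_mem, univ_inter, sum_div]

/-- permutation matrix -/
def pmA (pm : Equiv.Perm I) : Matrix I I ℝ := Matrix.of fun i j => if j = pm i then 1 else 0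

theorem pmA_mem (pm : Equiv.Perm I) : pmA pm ∈ Matrix.orthogonalGroup I ℝ := by
  rw [Matrix.mem_orthogonalGroup_iff]
  ext a b
  simp only [pmA, Matrix.of_apply, Matrix.mul_apply, Matrix.transpose_apply, Matrix.one_apply,
    ite_mul, one_mul, zero_mul, sum_ite_eq', mem_univ, if_true, EmbeddingLike.apply_eq_iff_eq]

theorem permL (pm : Equiv.Perm I) : ∃ R : OG I, ∀ U σ i, yy (R * U) σ i = yy U σ (pm i) := by
  refine ⟨⟨pmA pm, pmA_mem pm⟩, fun U σ i => ?_⟩
  rw [mul]
  simp [pmA]

theorem permR (pm : Equiv.Perm I) : ∃ R : OG I, ∀ U σ i, yy (U * R) σ i = yy U (σ ∘ pm) i := by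
  refine ⟨⟨pmA pm, pmA_mem pm⟩, fun U σ i => ?_⟩
  simp only [yy, Submonoid.coe_mul, Matrix.mul_apply, sum_mul, Function.comp]
  rw [sum_comm]
  refine sum_congr rfl fun k _ => ?_
  simp [pmA]

theorem form (β : ℝ) {N : ℕ} (lam : Fin N → ℝ) (U : OG (Fin N)) :
    PN β lam U = F0 (fun i => β * lam i) U / N := by
  unfold PN F0
  have : ∀ σ : Fin N → Bool, β / 2 * ((fun i => spin (σ i)) ⬝ᵥ
      ((U.1ᵀ * diagonal lam * U.1) *ᵥ fun i => spin (σ i))) =
      ∑ i, β * lam i * yy U σ i ^ 2 / 2 := by
    intro σ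
    rw [← Matrix.mulVec_mulVec, ← Matrix.mulVec_mulVec, Matrix.dotProduct_mulVec,
      Matrix.vecMul_transpose]
    simp only [dotProduct, Matrix.mulVec_diagonal, mul_sum]
    refine sum_congr rfl fun i _ => ?_
    have : (U.1 *ᵥ fun i => spin (σ i)) i = yy U σ i := rfl
    rw [this]; ring
  simp only [this, Fintype.card_fin]
  ring

theorem f0_le (Λ Λ' : I → ℝ) (c : ℝ) (h : ∀ i, Λ i ≤ Λ' i + c) (U : OG I) :
    F0 Λ U ≤ F0 Λ' U + c * Fintype.card I / 2 := by
  unfold F0
  have hp : ∀ L : I → ℝ, 0 < (∑ σ : I → Bool, exp (∑ i, L i * yy U σ i ^ 2 / 2)) /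
      2 ^ Fintype.card I := fun L =>
    div_pos (sum_pos (fun _ _ => exp_pos _) univ_nonempty) (by positivity)
  rw [← log_exp (c * Fintype.card I / 2), ← log_mul (hp Λ').ne' (exp_pos _).ne']
  refine log_le_log (hp Λ) ?_
  rw [div_mul_eq_mul_div, sum_mul]
  refine div_le_div_of_nonneg_right (sum_le_sum fun σ _ => ?_) (by positivity)
  rw [← exp_add]
  refine exp_le_exp.2 ?_
  rw [← sq U σ, mul_sum, sum_div, ← sum_add_distrib]
  refine sum_le_sum fun i _ => ?_
  have := mul_le_mul_of_nonneg_right (h i) (sq_nonneg (yy U σ i))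
  linarith

theorem f0_zero (U : OG I) : F0 (fun _ => 0) U = 0 := by
  unfold F0
  simp

theorem f0 (Λ Λ' : I → ℝ) (c : ℝ) :
    Continuous (F0 Λ) ∧ ((∀ i, Λ i ≤ Λ' i + c) → ∀ U, F0 Λ U ≤ F0 Λ' U + c * Fintype.card I / 2) ∧
      ((∀ i, |Λ i| ≤ c) → ∀ U, |F0 Λ U| ≤ c * Fintype.card I / 2) := by
  refine ⟨?_, f0_le Λ Λ' c, fun h U => abs_le.2 ⟨?_, ?_⟩⟩
  · unfold F0
    refine Continuous.log ?_ fun U => ?_
    · refine Continuous.div_const (continuous_finsetSum _ fun σ _ => continuous_exp.comp
        (continuous_finsetSum _ fun i _ => ?_)) _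
      exact (continuous_const.mul ((cont σ i).pow 2)).div_const _
    · exact (div_pos (sum_pos (fun _ _ => exp_pos _) univ_nonempty) (by positivity)).ne'
  · have := f0_le (fun _ => 0) Λ c (fun i => by have := (abs_le.1 (h i)).1; linarith) U
    rw [f0_zero] at this
    linarith
  · have := f0_le Λ (fun _ => 0) c (fun i => by have := (abs_le.1 (h i)).2; linarith) U
    rw [f0_zero] at this
    linarith

end O

theorem oApi : OApi where
  mul := O.mul
  dot := O.dot
  sq := O.sq
  bd := O.bd
  cont := O.cont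
  blk := O.blk
  sup := O.sup
  supblk := O.supblk
  supmono := O.supmono
  rot := O.rot
  permL := O.permL
  permR := O.permR
  form := O.form
  f0 := O.f0

end Vale.Agent.P166
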