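import Vale.Agent.P166.Stm

/-! P166: discrete laws as measures. -/

namespace Vale.Agent.P166

open MeasureTheory Real Finset

namespace Odd

variable {κ : Type} [Fintype κ]

noncomputable def mu (α lam : κ → ℝ) : Measure ℝ :=
  ∑ k, ENNReal.ofReal (α k) • Measure.dirac (lam k)

lemma mu_int {α : κ → ℝ} (lam : κ → ℝ) (h : ∀ k, 0 ≤ α k) (f : ℝ → ℝ) :
    ∫ t, f t ∂mu α lam = ∑ k, α k * f (lam k) := by
  unfold mu
  rw [integral_finset_sum_measure]
  · refine sum_congr rfl fun k _ => ?_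
    rw [integral_smul_measure, integral_dirac, ENNReal.toReal_ofReal (h k), smul_eq_mul]
  · intro k _
    exact (integrable_dirac (by simp)).smul_measure ENNReal.ofReal_ne_top

lemma mu_real {α : κ → ℝ} (lam : κ → ℝ) (h : ∀ k, 0 ≤ α k) {A : Set ℝ} (hA : MeasurableSet A) :
    (mu α lam).real A = ∑ k, α k * A.indicator 1 (lam k) := by
  rw [← integral_indicator_one hA, mu_int lam h]

lemma ex {α lam : κ → ℝ} {τ : κ} {Γ η : ℝ} (hW : Wt α lam τ Γ η) :
    ∃ μ : Measure ℝ, IsProbabilityMeasure μ ∧ (∀ᵐ t ∂μ, -Γ ≤ t ∧ t ≤ lam τ) ∧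
      (∀ u, μ.real (Set.Ici u) = tl α lam u) ∧ α τ ≤ μ.real {lam τ} ∧
      ∀ β x : ℝ, gD α (fun k => β * lam k) τ x = Gs μ (lam τ) (β * x) := by
  classical
  refine ⟨mu α lam, ⟨?_⟩, ?_, fun u => ?_, ?_, fun β x => ?_⟩
  · unfold mu
    rw [Measure.finset_sum_apply]
    simp only [Measure.smul_apply, measure_univ, smul_eq_mul, mul_one]
    rw [← ENNReal.ofReal_sum_of_nonneg fun k _ => hW.nn k, hW.sum, ENNReal.ofReal_one]
  · unfold mu
    rw [ae_iff, Measure.finset_sum_apply]
    refine sum_eq_zero fun k _ => ?_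
    rcases (hW.nn k).eq_or_lt with h0 | h0
    · simp [← h0]
    · have h1 := hW.le k h0
      have h2 := (abs_le.1 (hW.bd k)).1
      rw [Measure.smul_apply, Measure.dirac_apply, Set.indicator_of_notMem, smul_zero]
      simp only [Set.mem_setOf_eq, not_not]
      exact ⟨h2, h1⟩
  · rw [mu_real lam hW.nn measurableSet_Ici, tl]
    refine sum_congr rfl fun k _ => ?_
    by_cases h : u ≤ lam k <;> simp [Set.indicator, h]
  · rw [mu_real lam hW.nn (measurableSet_singleton _)]
    refine le_trans ?_ (single_le_sum (f := fun k => α k * Set.indicator {lam τ} 1 (lam k))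
      (fun k _ => mul_nonneg (hW.nn k) (Set.indicator_nonneg (fun _ _ => zero_le_one) _))
      (mem_univ τ))
    simp
  · unfold gD Gs
    congr 3
    · funext b
      rw [mu_int lam hW.nn]
      congr 1
      refine sum_congr rfl fun k _ => ?_
      congr 3
      ring
    · congr 1
      ring

end Odd

theorem oddStmt (h : OrdStmt) : OddStmt := by
  refine ⟨fun κ _ α lam τ Γ η hW => Odd.ex hW, ?_⟩
  intro κ _ α α' lam τ Γ η η' η1 δ X hW hW' h1 hδ ht hη
  obtain ⟨μ, p, a, t, e, g⟩ := Odd.ex hW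
  obtain ⟨μ', p', a', t', -, g'⟩ := Odd.ex hW'
  have e1 : gD α lam τ = Gs μ (lam τ) := funext fun x => by simpa using g 1 x
  have e2 : gD α' lam τ = Gs μ' (lam τ) := funext fun x => by simpa using g' 1 x
  have hb := (abs_le.1 (hW.bd τ)).2
  have := h μ μ' (-Γ) (lam τ) (lam τ) 0 δ η1 η X p p' a (by simpa using a') (by simp) le_rfl hδ h1
    (fun u => by rw [sub_zero, t, t']; exact ht u) (hW.top.trans e) (by nlinarith)
  rw [e1, e2]
  simpa using this

end Vale.Agent.P166
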