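import Vale.Agent.P166.Stm

/-! P166: stochastic order and increments of the rank one spherical integral. -/

namespace Vale.Agent.P166

open MeasureTheory Real Set Vale.Agent.P157

namespace Ordm

theorem intg {ν : Measure ℝ} [IsProbabilityMeasure ν] {A B : ℝ} (hs : ∀ᵐ t ∂ν, A ≤ t ∧ t ≤ B)
    {h : ℝ → ℝ} (hc : ContinuousOn h (Icc A B)) : Integrable h ν := by
  have := hc.integrableOn_Icc (μ := ν)
  rwa [IntegrableOn, Measure.restrict_eq_self_of_ae_mem (s := Icc A B) hs] at this

theorem cake {ν : Measure ℝ} [IsProbabilityMeasure ν] {g : ℝ → ℝ} (hg : Measurable g) {A B C c : ℝ}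
    (hb : ∀ u ∈ Ioc A B, |g u| ≤ C) (hs : ∀ᵐ t ∂ν, A ≤ t + c ∧ t + c ≤ B) :
    ∫ t, (∫ u in A..(t + c), g u) ∂ν = ∫ u in Ioc A B, g u * ν.real (Ici (u - c)) := by
  have hm : MeasurableSet {p : ℝ × ℝ | p.2 ≤ p.1 + c} :=
    measurableSet_le measurable_snd (measurable_fst.add_const c)
  have hi : Integrable (Function.uncurry fun t u => (Iic (t + c)).indicator g u)
      (ν.prod (volume.restrict (Ioc A B))) := by
    refine Integrable.of_bound (((hg.comp measurable_snd).indicator hm).aestronglyMeasurable) C ?_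
    refine (Measure.quasiMeasurePreserving_snd.ae (ae_restrict_mem measurableSet_Ioc)).mono
      fun p hp => (norm_indicator_le_norm_self _ _).trans (hb _ hp)
  calc _ = ∫ t, (∫ u in Ioc A B, (Iic (t + c)).indicator g u) ∂ν := by
        refine integral_congr_ae (hs.mono fun t ht => ?_)
        simp only
        rw [setIntegral_indicator measurableSet_Iic, intervalIntegral.integral_of_le ht.1,
          Ioc_inter_Iic, min_eq_right ht.2]
    _ = _ := by
        rw [integral_integral_swap hi]
        refine integral_congr_ae (ae_of_all _ fun u => ?_)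
        have : (fun t => (Iic (t + c)).indicator g u) = (Ici (u - c)).indicator fun _ => g u := by
          ext t
          simp only [indicator, mem_Iic, mem_Ici, sub_le_iff_le_add]
        simp only
        rw [this, integral_indicator_const _ measurableSet_Ici, smul_eq_mul, mul_comm]

theorem key {μ μ' : Measure ℝ} [IsProbabilityMeasure μ] [IsProbabilityMeasure μ']
    {lo s δ δ' η1 a : ℝ} (h1 : ∀ᵐ t ∂μ, lo ≤ t ∧ t ≤ s) (h2 : ∀ᵐ t ∂μ', lo + δ ≤ t ∧ t ≤ s + δ)
    (hδ' : 0 ≤ δ') (hη : 0 ≤ η1) (ht : ∀ u, μ'.real (Ici u) ≤ μ.real (Ici (u - δ)) + η1)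
    (ha : a ≤ μ.real {s}) (hb : η1 * (s - lo) ≤ δ' * a) {f g : ℝ → ℝ} (hg : Measurable g)
    (hd : ∀ u, u ≤ s + (δ + δ') → HasDerivAt f (g u) u) (g0 : ∀ u, u ≤ s + (δ + δ') → 0 ≤ g u)
    (gm : MonotoneOn g (Iic (s + (δ + δ')))) : ∫ t, f t ∂μ' ≤ ∫ t, f (t + (δ + δ')) ∂μ := by
  obtain ⟨t0, l0⟩ := h1.exists
  have hls : lo + δ ≤ s + δ := by linarith [l0.1, l0.2]
  have gi : ∀ y z, y ≤ z → z ≤ s + (δ + δ') → IntervalIntegrable g volume y z := fun y z h h' =>
    (gm.mono (by rw [uIcc_of_le h]; exact fun u hu => hu.2.trans h')).intervalIntegrable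
  have ftc : ∀ y z, y ≤ z → z ≤ s + (δ + δ') → ∫ u in y..z, g u = f z - f y := fun y z h h' =>
    intervalIntegral.integral_eq_sub_of_hasDerivAt
      (fun u hu => hd u ((uIcc_of_le h ▸ hu).2.trans h')) (gi y z h h')
  have fc : ∀ c, c ≤ δ + δ' → Integrable (fun t => f (t + c)) μ := fun c hc => intg h1 fun t ht =>
    (((hd _ (by linarith [ht.2])).continuousAt).comp (f := fun t => t + c)
      (by fun_prop)).continuousWithinAt
  have fc' : Integrable f μ' := intg h2 fun t ht =>
    (hd _ (by linarith [ht.2])).continuousAt.continuousWithinAt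
  have gb : ∀ u ∈ Ioc (lo + δ) (s + δ), |g u| ≤ g (s + δ) := fun u hu => by
    have : u ≤ s + (δ + δ') := by linarith [hu.2]
    rw [abs_of_nonneg (g0 u this)]
    exact gm this (show s + δ ≤ _ by linarith) hu.2
  have c1 := cake hg gb (c := 0) (by simpa only [add_zero] using h2)
  have c2 := cake hg gb (c := δ) (h1.mono fun t ht => ⟨by linarith [ht.1], by linarith [ht.2]⟩)
  rw [integral_congr_ae (h2.mono fun t ht => (show _ = f t - f (lo + δ) by
    simp only [add_zero]; exact ftc _ _ ht.1 (by linarith [ht.2]))),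
    integral_sub fc' (integrable_const _)] at c1
  rw [integral_congr_ae (h1.mono fun t ht => ftc _ _ (by linarith [ht.1]) (by linarith [ht.2])),
    integral_sub (fc δ (by linarith)) (integrable_const _)] at c2
  simp only [integral_const, probReal_univ, one_smul, sub_zero] at c1 c2
  have gI : IntegrableOn g (Ioc (lo + δ) (s + δ)) := (gi _ _ hls (by linarith)).1
  have mI : ∀ (ν : Measure ℝ) [IsProbabilityMeasure ν] (c : ℝ), IntegrableOn
      (fun u => g u * ν.real (Ici (u - c))) (Ioc (lo + δ) (s + δ)) := fun ν _ c => by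
    have : Antitone fun u => ν.real (Ici (u - c)) := fun u v h =>
      measureReal_mono (Ici_subset_Ici.2 (by linarith))
    exact gI.mul_bdd this.measurable.aestronglyMeasurable (c := 1) (ae_of_all _ fun u => by
      rw [norm_of_nonneg measureReal_nonneg]; exact measureReal_le_one)
  have m0 := mI μ' 0
  simp only [sub_zero] at m0
  have c3 := setIntegral_mono_on m0 ((mI μ δ).add (integrableOn_const (C := g (s + δ) * η1)
    measure_Ioc_lt_top.ne)) measurableSet_Ioc fun u hu => by
      have u0 := g0 u (by linarith [hu.2])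
      have := mul_le_mul_of_nonneg_left (ht u) u0
      have := mul_le_mul_of_nonneg_right ((le_abs_self _).trans (gb u hu)) hη
      simp only [Pi.add_apply]
      linarith
  simp only [Pi.add_apply] at c3
  rw [integral_add (mI μ δ) (integrableOn_const measure_Ioc_lt_top.ne), setIntegral_const,
    volume_real_Ioc_of_le hls, smul_eq_mul] at c3
  have gs := g0 (s + δ) (by linarith)
  have c4 : δ' * g (s + δ) ≤ f (s + (δ + δ')) - f (s + δ) := by
    rw [← ftc _ _ (by linarith) le_rfl]
    refine le_trans (le_of_eq ?_) (intervalIntegral.integral_mono_on (by linarith)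
      (intervalIntegrable_const (c := g (s + δ))) (gi _ _ (by linarith) le_rfl) fun u hu =>
        gm (show s + δ ≤ _ by linarith) hu.2 hu.1)
    simp
  have c5 : μ.real {s} * (f (s + (δ + δ')) - f (s + δ)) ≤
      ∫ t, f (t + (δ + δ')) ∂μ - ∫ t, f (t + δ) ∂μ := by
    rw [← integral_sub (fc _ le_rfl) (fc δ (by linarith)), ← smul_eq_mul,
      ← integral_indicator_const _ (measurableSet_singleton s)]
    refine integral_mono_ae ((integrable_const _).indicator (measurableSet_singleton s))
      ((fc _ le_rfl).sub (fc δ (by linarith))) (h1.mono fun t ht => ?_)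
    by_cases h : t = s
    · subst h; simp
    · simp only [indicator, mem_singleton_iff, h, if_false]
      rw [← ftc _ _ (by linarith) (by linarith [ht.2])]
      exact intervalIntegral.integral_nonneg (by linarith) fun u hu => g0 u (by linarith [hu.2, ht.2])
  have c6 := mul_le_mul_of_nonneg_left c4 (measureReal_nonneg (μ := μ) (s := {s}))
  have c7 := mul_le_mul_of_nonneg_right (hb.trans (mul_le_mul_of_nonneg_left ha hδ')) gs
  nlinarith

theorem lint {ν : Measure ℝ} [IsProbabilityMeasure ν] {A B x b : ℝ} (hs : ∀ᵐ t ∂ν, A ≤ t ∧ t ≤ B)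
    (hx : 0 ≤ x) (hb : x * B < b) : Integrable (fun t => log (b - x * t)) ν :=
  intg hs (ContinuousOn.log (by fun_prop) fun t ht => by
    have := mul_le_mul_of_nonneg_left ht.2 hx
    exact (show 0 < b - x * t by linarith).ne')

theorem inf_le {ν : Measure ℝ} [IsProbabilityMeasure ν] {A B x b : ℝ}
    (hs : ∀ᵐ t ∂ν, A ≤ t ∧ t ≤ B) (hx : 0 ≤ x) (hb : x * B < b) :
    2 * Gs ν B x ≤ b - 1 - ∫ t, log (b - x * t) ∂ν := by
  rw [Gs, ← mul_assoc, mul_one_div_cancel two_ne_zero, one_mul]
  refine csInf_le ⟨x * A, ?_⟩ ⟨b, hb, rfl⟩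
  rintro _ ⟨b, hb, rfl⟩
  have := integral_mono_ae (lint hs hx hb) (integrable_const (b - x * A - 1)) (hs.mono fun t ht => by
    have := mul_le_mul_of_nonneg_left ht.2 hx
    have := mul_le_mul_of_nonneg_left ht.1 hx
    have := log_le_sub_one_of_pos (show 0 < b - x * t by linarith [mem_Ioi.1 hb])
    simp only
    linarith)
  simp only [integral_const, probReal_univ, one_smul] at this ⊢
  linarith

theorem le_inf {ν : Measure ℝ} {B x K : ℝ}
    (h : ∀ b, x * B < b → K ≤ b - 1 - ∫ t, log (b - x * t) ∂ν) : K ≤ 2 * Gs ν B x := by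
  rw [Gs, ← mul_assoc, mul_one_div_cancel two_ne_zero, one_mul]
  refine le_csInf (nonempty_Ioi.image _) ?_
  rintro _ ⟨b, hb, rfl⟩
  exact h b hb

theorem scal {ν : Measure ℝ} [IsProbabilityMeasure ν] {A B x b c : ℝ}
    (hs : ∀ᵐ t ∂ν, A ≤ t ∧ t ≤ B) (hx : 0 ≤ x) (hb : x * B < b) (hc : 0 < c) :
    ∫ t, log (c * b - c * x * t) ∂ν = log c + ∫ t, log (b - x * t) ∂ν := by
  rw [integral_congr_ae (g := fun t => log c + log (b - x * t)) (hs.mono fun t ht => by
    have := mul_le_mul_of_nonneg_left ht.2 hx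
    simp only
    rw [← log_mul hc.ne' (show 0 < b - x * t by linarith).ne']
    ring_nf), integral_add (integrable_const _) (lint hs hx hb)]
  simp

end Ordm

open Ordm in
theorem ordStmt : OrdStmt := by
  intro μ μ' lo s s' δ δ' η1 a X _ _ h1 h2 hs hδ hδ' hη ht ha hb x x' x0 xx _
  rcases (x0.trans xx).eq_or_lt with h0 | x1
  · obtain rfl : x = x' := le_antisymm xx (h0 ▸ x0)
    simp
  suffices 2 * Gs μ' s' x' + 2 * Gs μ s x - (δ + δ') * (x' - x) - 2 * Gs μ' s' x ≤ 2 * Gs μ s x' by
    linarith
  refine le_inf fun b1 hb1 => ?_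
  rw [sub_le_comm]
  refine le_inf fun b2 hb2 => ?_
  rcases lt_or_ge (b2 * x') (x * (b1 + (δ + δ') * x')) with h | h
  · have xp : 0 < x := by
      refine x0.lt_of_ne ?_
      rintro rfl
      nlinarith
    have c0 : 0 < x' / x := by positivity
    have c1 : 0 < x / x' := by positivity
    have e1 : x' / x * x = x' := div_mul_cancel₀ _ xp.ne'
    have e2 : x / x' * x' = x := div_mul_cancel₀ _ x1.ne'
    have i1 := inf_le h2 x1.le (b := x' / x * b2) (by
      rw [← e1, mul_assoc, e1]; exact mul_lt_mul_of_pos_left hb2 c0)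
    have i2 := inf_le h1 x0 (b := x / x' * b1) (by
      rw [← e2, mul_assoc, e2]; exact mul_lt_mul_of_pos_left hb1 c1)
    have s1 := scal h2 x0 hb2 c0
    have s2 := scal h1 x1.le hb1 c1
    rw [e1] at s1
    rw [e2] at s2
    have e3 : log (x' / x) + log (x / x') = 0 := by
      rw [log_div x1.ne' xp.ne', log_div xp.ne' x1.ne']; ring
    have e4 : x' / x * b2 + x / x' * b1 ≤ b1 + b2 + (δ + δ') * (x' - x) := by
      have : (b1 + b2 + (δ + δ') * (x' - x)) - (x' / x * b2 + x / x' * b1) =
          (x' - x) * (x * (b1 + (δ + δ') * x') - b2 * x') / (x * x') := by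
        field_simp
        ring
      rw [← sub_nonneg, this]
      exact div_nonneg (mul_nonneg (by linarith) (by linarith)) (by positivity)
    linarith
  · set B := b1 + (δ + δ') * x' with hB
    have p1 : ∀ u, u ≤ s + (δ + δ') → 0 < B - x' * u := fun u hu => by
      nlinarith [mul_le_mul_of_nonneg_left hu x1.le]
    have p2 : ∀ u, u ≤ s + (δ + δ') → 0 < b2 - x * u := fun u hu => by
      rcases x0.eq_or_lt with rfl | xp
      · simpa using hb2
      · refine pos_of_mul_pos_left (b := x') ?_ x1.le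
        nlinarith [mul_pos xp (p1 u hu)]
    have k := key h1 (h2.mono fun t ht => ⟨ht.1, ht.2.trans hs⟩) hδ' hη ht ha hb
      (f := fun t => log (b2 - x * t) - log (B - x' * t))
      (g := fun t => (b2 * x' - x * B) / ((B - x' * t) * (b2 - x * t))) (by fun_prop)
      (fun u hu => by
        have a1 := (p1 u hu).ne'
        have a2 := (p2 u hu).ne'
        refine (((((hasDerivAt_id u).const_mul x).const_sub b2).log a2).sub
          ((((hasDerivAt_id u).const_mul x').const_sub B).log a1)).congr_deriv ?_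
        simp only [id]
        rw [div_sub_div _ _ a2 a1, mul_comm (b2 - x * u) (B - x' * u)]
        congr 1
        ring)
      (fun u hu => div_nonneg (by linarith) (mul_pos (p1 u hu) (p2 u hu)).le)
      (fun u _ v hv huv => div_le_div_of_nonneg_left (by linarith) (mul_pos (p1 v hv) (p2 v hv))
        (mul_le_mul (by nlinarith) (by nlinarith) (p2 v hv).le (by nlinarith [p1 v hv])))
    have q1 : x' * s' < B := by nlinarith [p1 s' (by linarith)]
    have q2 : x * s < b2 - (δ + δ') * x := by nlinarith [p2 _ le_rfl]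
    have i1 := inf_le h2 x1.le q1
    have i2 := inf_le h1 x0 q2
    have e : ∀ t, log (b2 - x * (t + (δ + δ'))) - log (B - x' * (t + (δ + δ'))) =
        log (b2 - (δ + δ') * x - x * t) - log (b1 - x' * t) := fun t => by
      rw [hB]; ring_nf
    simp only [e] at k
    rw [integral_sub (lint h2 x0 hb2) (lint h2 x1.le q1),
      integral_sub (lint h1 x0 q2) (lint h1 x1.le hb1)] at k
    linarith

end Vale.Agent.P166
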