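import Vale.Agent.P166.Stm

namespace Vale.Agent.P166

open Finset Real Vale.Agent.P157

namespace Pdm

lemma spin_sq (σ : Bool) : spin σ ^ 2 = 1 := by cases σ <;> simp [spin]

lemma lvar_univ {R : Type} [Fintype R] (lv : R → ℕ) (a : R → ℝ) (d : ℕ) :
    lvar (univ.val.map (fun r => (lv r, a r))) d =
      ∑ r ∈ univ.filter (fun r => lv r = d), a r ^ 2 := by
  rw [lvar, Multiset.filter_map, Multiset.map_map]
  rfl

lemma lvar_one (l d : ℕ) (s : ℝ) : lvar {(l, s)} d = if l = d then s ^ 2 else 0 := by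
  rw [lvar, Multiset.filter_singleton]
  split_ifs <;> simp

lemma sm_id : Sm 1 id (fun _ => 1) (fun _ => 0) := by
  refine ⟨?_, ?_, ?_, ?_, ?_, ?_⟩
  · refine fun t h => ⟨?_, ?_⟩
    · simp
    · simp only [id]
      rw [show t + h + (t - h) - 2 * t = 0 by ring, abs_zero]; positivity
  · refine fun t h => ⟨?_, ?_⟩
    · simp
    · rw [show (1 : ℝ) + 1 - 2 * 1 = 0 by ring, abs_zero]; positivity
  · refine fun t h => ⟨?_, ?_⟩
    · simp
    · rw [show (0 : ℝ) + 0 - 2 * 0 = 0 by ring, abs_zero]; positivity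
  · simp
  · simp
  · intro t h
    simp only [id]
    rw [show t + h - t - h * 1 - h ^ 2 * 0 / 2 = 0 by ring, abs_zero]; positivity

lemma extra (hR : RApi) (h : BrStmt) (n : ℕ) (R : Type) [Fintype R] [DecidableEq R] (lv : R → ℕ)
    (a : R → ℝ) (l : ℕ) (s : ℝ) (hn : 1 ≤ n) (hl : l < n) (hlv : LevOk n lv) :
    Xs n (Sum.elim (lB l) lv) (fun e => s * spin (e (Sum.inl true)) * spin (e (Sum.inl false)) +
      sg a (e ∘ Sum.inr) * spin (e (Sum.inl false))) =
      PD n (univ.val.map (fun r => (lv r, a r)) + {(l, s)}) := by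
  have h1 := (h n (Unit ⊕ R) (Sum.elim (fun _ => l) lv) (Sum.elim (fun _ => s) a) hn
    (fun r => by cases r; exacts [hl, hlv _])).1
  have e : univ.val.map (fun r : Unit ⊕ R =>
      (Sum.elim (fun _ => l) lv r, Sum.elim (fun _ => s) a r)) =
      univ.val.map (fun r => (lv r, a r)) + {(l, s)} := by
    rw [← univ_disjSum_univ, val_disjSum, Multiset.disjSum, Multiset.map_add, Multiset.map_map,
      Multiset.map_map, add_comm]
    rfl
  rw [e] at h1
  rw [← h1, Xs, Xs]
  let f : Unit ⊕ (Unit ⊕ R) → Bool ⊕ R :=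
    Sum.elim (fun _ => Sum.inl false) (Sum.elim (fun _ => Sum.inl true) Sum.inr)
  have hf : Emb (Sum.elim (fun _ : Unit => 0) (Sum.elim (fun _ : Unit => l) lv))
      (Sum.elim (lB l) lv) f := by
    constructor
    · rintro (x | x | x) (y | y | y) hxy <;> simp_all [f]
    · rintro (x | x | x) <;> simp [f, lB]
  rw [← (hR.emb n _ _ f hf _).1]
  congr 1
  funext ω
  simp only [sg, pull, Fintype.sum_sum_type, Function.comp, f, Sum.elim_inl, Sum.elim_inr,
    univ_unique, sum_singleton]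
  ring

end Pdm

open Pdm in
theorem pdStmt (hG : GApi) (hMs : MsStmt) (hG2 : G2Stmt) (hR : RApi) (h : BrStmt) : PdStmt := by
  obtain ⟨C, hC, hM⟩ := hMs 1 le_rfl
  refine ⟨2 * C, by positivity, fun n Q ε hn hε => ?_⟩
  obtain ⟨η, hη, h2⟩ := hG2 n 0 (Q + 1) ε hn hε
  refine ⟨η, hη, fun R _ _ lv a q l θ hq hQ hl hθ0 hθ1 hm => ?_⟩
  set L := univ.val.map (fun r => (lv r, a r)) with hL
  have hs : ∀ s ∈ L, |s.2| ≤ η := fun s hs => by
    obtain ⟨r, _, rfl⟩ := Multiset.mem_map.1 hs
    exact hm.2.1 r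
  have hv : ∀ d, d < n → |lvar L d - (q d - q (d + 1))| ≤ η := fun d hd => by
    rw [hL, lvar_univ]; exact hm.2.2 d hd
  constructor
  · have := (h2 q L hq (by linarith) hs hv).2
    rwa [sub_right_comm] at this
  rw [extra hR h n R lv a l _ hn hl hm.1, ← hL]
  have key : ∀ (k : ℕ), 1 ≤ k →
      |PD n (L + k • {(l, √(θ / k))}) - PD n L - θ * (E1 n (fun _ : Unit => id) (lift () spin L)
        (ob (fun _ => 0 + 1 ^ 2) () (fun _ => 1)) - (1 / (n : ℝ)) * ∑ d ∈ Icc 1 l,
          EE n (fun _ : Unit => id) (lift () spin L) d (fun ω ω' =>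
            ob (fun _ => 1) () spin ω * ob (fun _ => 1) () spin ω')) / 2| ≤ C * (θ * √θ) := by
    intro k hk
    have hk0 : (0 : ℝ) < k := by exact_mod_cast hk
    have hk1 : (1 : ℝ) ≤ k := by exact_mod_cast hk
    have hsq : √(θ / k) ^ 2 = θ / k := sq_sqrt (by positivity)
    have hvr : vr (lift () spin (k • {(l, √(θ / k))})) = θ := by
      rw [(hG.lift_vr () spin _ spin_sq).1, Multiset.map_nsmul, Multiset.sum_nsmul,
        Multiset.map_singleton, Multiset.sum_singleton, hsq, nsmul_eq_mul]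
      field_simp
    have h1 := (hM Unit Bool n (fun _ => id) (fun _ _ => 1) (fun _ _ => 0) (lift () spin L)
      (lift () spin (k • {(l, √(θ / k))})) hn (fun _ => sm_id)
      (hG.lift_small n 1 () spin _ spin_sq fun s hs => ?_)).2 (hvr.le.trans hθ1)
    · rw [hvr] at h1
      have e : lift () spin (k • {(l, √(θ / k))}) =
          k • ({(l, (), √(θ / k) • spin)} : Multiset (St Unit Bool)) := by
        rw [lift, Multiset.map_nsmul, Multiset.map_singleton]
      rw [e, Multiset.map_nsmul, Multiset.sum_nsmul, Multiset.map_singleton,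
        Multiset.sum_singleton, hG.gam_one n _ _ _ _ () spin l _ spin_sq, hsq, nsmul_eq_mul,
        ← e, ← mul_div_assoc, ← mul_assoc, mul_div_cancel₀ _ hk0.ne'] at h1
      simpa only [PD, lift, Multiset.map_add] using h1
    · obtain rfl := Multiset.mem_singleton.1 (Multiset.mem_of_mem_nsmul hs)
      refine ⟨hl, ?_⟩
      rw [one_mul, abs_of_nonneg (sqrt_nonneg _), sqrt_le_left zero_le_one, one_pow]
      exact (div_le_one hk0).2 (hθ1.trans hk1)
  obtain ⟨k, hk⟩ := exists_nat_ge (1 / η ^ 2)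
  have hk0 : (0 : ℝ) < (k + 1 : ℕ) := by positivity
  have k1 := key 1 le_rfl
  have k2 := key (k + 1) (by omega)
  rw [one_nsmul, Nat.cast_one, div_one] at k1
  have h3 := (h2 (fun d => q d + if d ≤ l then θ else 0) (L + (k + 1) • {(l, √(θ / (k + 1 : ℕ)))})
    ⟨fun d hd => ?_, ?_⟩ ?_ (fun s hs' => ?_) fun d hd => ?_).2
  · simp only [zero_le, if_true] at h3
    rw [abs_le] at k1 k2 h3 ⊢
    constructor <;> linarith [k1.1, k1.2, k2.1, k2.2, h3.1, h3.2]
  · have := hq.1 d hd
    simp only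
    split_ifs <;> linarith
  · simp only [hq.2, if_neg (not_le.2 hl), add_zero]
  · simp only [zero_le, if_true]; linarith
  · rcases Multiset.mem_add.1 hs' with h1 | h1
    · exact hs s h1
    · obtain rfl := Multiset.mem_singleton.1 (Multiset.mem_of_mem_nsmul h1)
      rw [abs_of_nonneg (sqrt_nonneg _), sqrt_le_left hη.le, div_le_iff₀ hk0]
      rw [div_le_iff₀ (by positivity)] at hk
      push_cast
      nlinarith [sq_nonneg η]
  · rw [(hG.lvar_add _ _ 0 d).1, (hG.lvar_add _ 0 _ d).2, lvar_one, sq_sqrt (by positivity)]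
    have e : (((k + 1 : ℕ) : ℝ) * if l = d then θ / (k + 1 : ℕ) else 0) =
        (if d ≤ l then θ else 0) - if d + 1 ≤ l then θ else 0 := by
      split_ifs <;> first | omega | (simp; done) | rw [sub_zero, mul_div_cancel₀ _ hk0.ne']
    rw [e]
    refine le_of_eq_of_le (congrArg _ ?_) (hv d hd)
    ring

end Vale.Agent.P166
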