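import Vale.Agent.P166.Stm

namespace Vale.Agent.P166

open MeasureTheory ProbabilityTheory Finset Real Vale.Agent.P157
open scoped RealInnerProductSpace

namespace Pj

section gen
variable {E : Type} [NormedAddCommGroup E] [InnerProductSpace ℝ E] [FiniteDimensional ℝ E]

theorem var_eq (K : Submodule ℝ E) (x : E) :
    2 * ⟪x, K.starProjection x⟫ - ‖K.starProjection x‖ ^ 2 = ‖K.starProjection x‖ ^ 2 := by
  have h := K.starProjection_inner_eq_zero x _ (K.starProjection_apply_mem x)
  rw [inner_sub_left, real_inner_self_eq_norm_sq] at h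
  linarith

theorem var_le (K : Submodule ℝ E) (x : E) {v : E} (hv : v ∈ K) :
    2 * ⟪x, v⟫ - ‖v‖ ^ 2 ≤ ‖K.starProjection x‖ ^ 2 := by
  have h := K.starProjection_inner_eq_zero x _ hv
  rw [inner_sub_left] at h
  have h2 := norm_sub_sq_real (K.starProjection x) v
  nlinarith [sq_nonneg ‖K.starProjection x - v‖]

theorem mono {K K' : Submodule ℝ E} (h : K ≤ K') (x : E) :
    ‖K.starProjection x‖ ^ 2 ≤ ‖K'.starProjection x‖ ^ 2 := by
  rw [← var_eq K x]
  exact var_le K' x (h (K.starProjection_apply_mem x))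

/-- normalised component -/
noncomputable def nc (W : Submodule ℝ E) (y g : E) : ℝ :=
  ⟪y, W.starProjection g⟫ / ‖W.starProjection g‖

theorem nc_bd (W : Submodule ℝ E) (y g : E) : |nc W y g| ≤ ‖y‖ := by
  unfold nc
  rw [abs_div, abs_norm]
  exact div_le_of_le_mul₀ (norm_nonneg _) (norm_nonneg _) (abs_real_inner_le_norm _ _)

theorem ins (V : Submodule ℝ E) (A : Set E) (hA : Submodule.span ℝ A = V) (g x : E) :
    ‖(Submodule.span ℝ (insert g A)).starProjection x‖ ^ 2 ≤
      ‖V.starProjection x‖ ^ 2 + nc Vᗮ x g ^ 2 := by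
  rw [← var_eq]
  obtain ⟨a, z, hz, e⟩ := Submodule.mem_span_insert.1
    ((Submodule.span ℝ (insert g A)).starProjection_apply_mem x)
  rw [hA] at hz
  set q := Vᗮ.starProjection g with hq
  have hq' : q = g - V.starProjection g := Submodule.starProjection_orthogonal_val g
  have hw : a • V.starProjection g + z ∈ V :=
    V.add_mem (V.smul_mem a (V.starProjection_apply_mem g)) hz
  have e2 : a • g + z = (a • V.starProjection g + z) + a • q := by
    rw [hq', smul_sub]; abel
  rw [e, e2]
  set w := a • V.starProjection g + z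
  have h0 : ⟪w, q⟫ = 0 := Submodule.inner_right_of_mem_orthogonal hw (Vᗮ.starProjection_apply_mem g)
  have h1 := var_le V x hw
  rw [inner_add_right, norm_add_sq_real, inner_smul_right, inner_smul_right, h0, norm_smul, mul_pow,
    Real.norm_eq_abs, sq_abs]
  have h2 : 2 * (a * ⟪x, q⟫) - a ^ 2 * ‖q‖ ^ 2 ≤ nc Vᗮ x g ^ 2 := by
    unfold nc
    rw [← hq]
    by_cases h : q = 0
    · simp [h]
    · have hn : ‖q‖ ≠ 0 := norm_ne_zero_iff.2 h
      have : ⟪x, q⟫ = ⟪x, q⟫ / ‖q‖ * ‖q‖ := by field_simp
      set c := ⟪x, q⟫ / ‖q‖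
      rw [this]
      nlinarith [sq_nonneg (c - a * ‖q‖)]
  linarith

theorem comm (W : Submodule ℝ E) {u : E} (hu : u ∈ W) (z : E) :
    W.starProjection ((ℝ ∙ u)ᗮ.reflection z) = (ℝ ∙ u)ᗮ.reflection (W.starProjection z) := by
  have h1 : W.starProjection u = u := Submodule.starProjection_eq_self_iff.2 hu
  have h2 : ⟪u, W.starProjection z⟫ = ⟪u, z⟫ := by
    rw [← Submodule.inner_starProjection_left_eq_right, h1]
  simp only [Submodule.reflection_orthogonal_apply, Submodule.reflection_singleton_apply, map_neg,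
    map_sub, map_nsmul, map_smul, h1, h2]

variable [MeasurableSpace E] [BorelSpace E]

theorem nc_meas (W : Submodule ℝ E) (y : E) : Measurable (nc W y) := by
  unfold nc
  exact (by fun_prop : Continuous fun g => ⟪y, W.starProjection g⟫).measurable.div
    (by fun_prop : Continuous fun g => ‖W.starProjection g‖).measurable

theorem integ (W : Submodule ℝ E) (y y' : E) :
    Integrable (fun g => nc W y g ^ 2 * nc W y' g ^ 2) (stdGaussian E) := by
  refine Integrable.of_bound (C := ‖y‖ ^ 2 * ‖y'‖ ^ 2)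
    (((nc_meas W y).pow_const 2).mul ((nc_meas W y').pow_const 2)).aestronglyMeasurable
    (ae_of_all _ fun g => ?_)
  rw [Real.norm_eq_abs, abs_mul, abs_pow, abs_pow]
  gcongr <;> exact nc_bd W _ g

theorem integ4 (W : Submodule ℝ E) (y : E) :
    Integrable (fun g => nc W y g ^ 4) (stdGaussian E) := by
  have := integ W y y
  simpa only [← pow_add] using this

noncomputable def FF (W : Submodule ℝ E) (y : E) : ℝ := ∫ g, nc W y g ^ 4 ∂stdGaussian E

theorem FF_inv (W : Submodule ℝ E) {y y' : E} (hy : y ∈ W) (hy' : y' ∈ W) (h : ‖y‖ = ‖y'‖) :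
    FF W y = FF W y' := by
  set R := (ℝ ∙ (y - y'))ᗮ.reflection with hR
  have h1 : R y = y' := Submodule.reflection_sub h
  have h2 : ∀ g, nc W y' (R g) = nc W y g := by
    intro g
    unfold nc
    rw [hR, comm W (W.sub_mem hy hy'), ← hR, ← h1, R.inner_map_map, R.norm_map]
  unfold FF
  conv_rhs => rw [← stdGaussian_map R]
  rw [integral_map R.continuous.measurable.aemeasurable
    ((nc_meas W y').pow_const 4).aestronglyMeasurable]
  simp only [h2]

theorem FF_smul (W : Submodule ℝ E) (c : ℝ) (y : E) : FF W (c • y) = c ^ 4 * FF W y := by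
  unfold FF
  rw [← integral_const_mul]
  congr 1; ext g
  unfold nc
  rw [real_inner_smul_left]; ring

theorem FF_le (W : Submodule ℝ E) (M : ℕ) (hM : 1 ≤ M) (hW : M ≤ Module.finrank ℝ W) (x : E) :
    FF W x ≤ 3 * ‖x‖ ^ 4 / (M : ℝ) ^ 2 := by
  set m := Module.finrank ℝ W with hm
  let b0 := stdOrthonormalBasis ℝ W
  let b : Fin m → E := fun i => (b0 i : E)
  have hb : Orthonormal ℝ b := W.subtypeₗᵢ.orthonormal_comp_iff.2 b0.orthonormal
  have hbW : ∀ i, b i ∈ W := fun i => (b0 i).2
  let i0 : Fin m := ⟨0, by omega⟩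
  set a := FF W (b i0) with ha
  have key : ∀ y ∈ W, FF W y = ‖y‖ ^ 4 * a := by
    intro y hy
    rw [ha, ← FF_smul]
    refine FF_inv W hy (W.smul_mem _ (hbW i0)) ?_
    rw [norm_smul, hb.1 i0]; simp
  have ha0 : 0 ≤ a := integral_nonneg fun g => by positivity
  have cross : ∀ i j, ∫ g, nc W (b i) g ^ 2 * nc W (b j) g ^ 2 ∂stdGaussian E =
      a / 3 + if i = j then 2 * a / 3 else 0 := by
    intro i j
    by_cases hij : i = j
    · subst hij
      have := key _ (hbW i)
      rw [hb.1 i] at this
      simp only [← pow_add, if_true]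
      unfold FF at this
      linarith
    · have h0 : ⟪b i, b j⟫ = 0 := hb.2 hij
      have n1 : ‖b i + b j‖ ^ 4 = 4 := by
        have := norm_add_sq_real (b i) (b j)
        rw [h0, hb.1 i, hb.1 j] at this
        rw [show 4 = 2 * 2 from rfl, pow_mul, this]; norm_num
      have n2 : ‖b i - b j‖ ^ 4 = 4 := by
        have := norm_sub_sq_real (b i) (b j)
        rw [h0, hb.1 i, hb.1 j] at this
        rw [show 4 = 2 * 2 from rfl, pow_mul, this]; norm_num
      have k1 := key _ (W.add_mem (hbW i) (hbW j))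
      have k2 := key _ (W.sub_mem (hbW i) (hbW j))
      have k3 := key _ (hbW i)
      have k4 := key _ (hbW j)
      rw [n1] at k1; rw [n2] at k2; rw [hb.1 i] at k3; rw [hb.1 j] at k4
      have e : FF W (b i + b j) + FF W (b i - b j) = 2 * FF W (b i) + 2 * FF W (b j) +
          12 * ∫ g, nc W (b i) g ^ 2 * nc W (b j) g ^ 2 ∂stdGaussian E := by
        unfold FF
        rw [← integral_add (integ4 W _) (integ4 W _), ← integral_const_mul, ← integral_const_mul,
          ← integral_const_mul, ← integral_add ((integ4 W _).const_mul _) ((integ4 W _).const_mul _),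
          ← integral_add (f := fun g => 2 * nc W (b i) g ^ 4 + 2 * nc W (b j) g ^ 4)
            (((integ4 W _).const_mul _).add ((integ4 W _).const_mul _))
            ((integ W _ _).const_mul _)]
        congr 1; ext g
        unfold nc
        rw [inner_add_left, inner_sub_left]; ring
      rw [if_neg hij]
      linarith
  have bes : ∀ g, ∑ i, nc W (b i) g ^ 2 ≤ 1 := by
    intro g
    have h1 := hb.sum_inner_products_le (W.starProjection g) (s := univ)
    unfold nc
    simp only [div_pow]
    rw [← sum_div]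
    refine div_le_one_of_le₀ ?_ (by positivity)
    simpa only [Real.norm_eq_abs, sq_abs] using h1
  have tot : ∑ i, ∑ j, ∫ g, nc W (b i) g ^ 2 * nc W (b j) g ^ 2 ∂stdGaussian E ≤ 1 := by
    have : ∑ i, ∑ j, ∫ g, nc W (b i) g ^ 2 * nc W (b j) g ^ 2 ∂stdGaussian E =
        ∫ g, ∑ i, ∑ j, nc W (b i) g ^ 2 * nc W (b j) g ^ 2 ∂stdGaussian E := by
      rw [integral_finsetSum _ (fun i _ => integrable_finsetSum _ (fun j _ => integ W _ _))]
      exact sum_congr rfl fun i _ => (integral_finsetSum _ (fun j _ => integ W _ _)).symm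
    rw [this]
    refine (integral_mono (integrable_finsetSum _ (fun i _ => integrable_finsetSum _
      (fun j _ => integ W _ _))) (integrable_const (1 : ℝ)) (fun g => ?_)).trans (by simp)
    show ∑ i, ∑ j, nc W (b i) g ^ 2 * nc W (b j) g ^ 2 ≤ 1
    rw [← sum_mul_sum]
    have h0 : 0 ≤ ∑ i, nc W (b i) g ^ 2 := sum_nonneg fun _ _ => sq_nonneg _
    nlinarith [bes g]
  simp only [cross, sum_add_distrib, sum_const, card_univ, Fintype.card_fin, sum_ite_eq,
    mem_univ, if_true, nsmul_eq_mul] at tot
  have hMm : (M : ℝ) ≤ m := by exact_mod_cast hW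
  have hM1 : (1 : ℝ) ≤ M := by exact_mod_cast hM
  have ha3 : a * (M : ℝ) ^ 2 ≤ 3 := by
    have : (M : ℝ) ^ 2 ≤ (m : ℝ) ^ 2 := by gcongr
    nlinarith [mul_le_mul_of_nonneg_left this ha0, mul_nonneg ha0 (by linarith : (0 : ℝ) ≤ m)]
  have e : FF W x = FF W (W.starProjection x) := by
    unfold FF nc
    congr 1; ext g
    rw [Submodule.inner_starProjection_left_eq_right,
      Submodule.starProjection_eq_self_iff.2 (W.starProjection_apply_mem g)]
  rw [e, key _ (W.starProjection_apply_mem x), le_div_iff₀ (by positivity)]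
  have h4 : ‖W.starProjection x‖ ^ 4 ≤ ‖x‖ ^ 4 := by
    gcongr; exact W.norm_starProjection_apply_le x
  nlinarith [mul_le_mul h4 ha3 (by positivity) (by positivity)]

end gen

end Pj

open Pj in
theorem pjStmt : PjStmt := by
  intro N L S x
  refine ⟨LowerSemicontinuous.measurable fun G0 y hy => ?_, fun G => ⟨by unfold pj; positivity, ?_,
    fun s => mono (Submodule.span_mono (Set.image_mono (by simp))) x⟩⟩
  · obtain ⟨c, hc⟩ := (Submodule.mem_span_image_finset_iff_exists_fun' ℝ).1
      ((Submodule.span ℝ (G0 '' (S : Set (Fin L)))).starProjection_apply_mem x)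
    have hcont : Continuous fun G : Fin L → EU N =>
        2 * ⟪x, ∑ i ∈ S, c i • G i⟫ - ‖∑ i ∈ S, c i • G i‖ ^ 2 := by fun_prop
    have h0 : y < 2 * ⟪x, ∑ i ∈ S, c i • G0 i⟫ - ‖∑ i ∈ S, c i • G0 i‖ ^ 2 := by
      rw [hc, var_eq]; exact hy
    filter_upwards [hcont.continuousAt.eventually (lt_mem_nhds h0)] with G hG
    exact hG.trans_le (var_le _ x ((Submodule.mem_span_image_finset_iff_exists_fun' ℝ).2 ⟨c, rfl⟩))
  · unfold pj
    gcongr
    exact Submodule.norm_starProjection_apply_le _ x

open Pj in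
theorem m4gStmt : M4gStmt := by
  intro N L M S s G x hM hL
  set V := Submodule.span ℝ (G '' ((S.erase s : Finset (Fin L)) : Set (Fin L))) with hV
  have hd : M ≤ Module.finrank ℝ Vᗮ := by
    have h1 := V.finrank_add_finrank_orthogonal
    have h2 : Module.finrank ℝ V ≤ ((S.erase s).image G).card := by
      have := finrank_span_finset_le_card (R := ℝ) ((S.erase s).image G)
      rw [coe_image] at this
      exact this
    have h3 : ((S.erase s).image G).card ≤ (univ.erase s).card :=
      card_image_le.trans (card_le_card (erase_subset_erase s (subset_univ S)))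
    rw [card_erase_of_mem (mem_univ s), card_univ, Fintype.card_fin] at h3
    rw [finrank_euclideanSpace, Fintype.card_fin] at h1
    have := s.pos
    omega
  refine le_trans ?_ (FF_le Vᗮ M hM hd x)
  refine integral_mono_of_nonneg (ae_of_all _ fun g => sq_nonneg _) (integ4 _ _)
    (ae_of_all _ fun g => ?_)
  have e1 : Function.update G s g '' ((S.erase s : Finset (Fin L)) : Set (Fin L)) =
      G '' ((S.erase s : Finset (Fin L)) : Set (Fin L)) :=
    Set.image_congr fun i hi => Function.update_of_ne (ne_of_mem_erase (mem_coe.1 hi)) _ _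
  have l1 : pj G (S.erase s) x ≤ pj (Function.update G s g) S x := by
    exact mono (Submodule.span_mono (e1.symm.le.trans (Set.image_mono (by simp)))) x
  have l2 : pj (Function.update G s g) S x ≤ pj G (S.erase s) x + nc Vᗮ x g ^ 2 := by
    refine le_trans (mono (Submodule.span_mono ?_) x) (ins V _ hV.symm g x)
    rintro _ ⟨i, hi, rfl⟩
    by_cases h : i = s
    · subst h; simp
    · rw [Function.update_of_ne h]
      exact Or.inr ⟨i, by simpa [h] using hi, rfl⟩
  show (pj (Function.update G s g) S x - pj G (S.erase s) x) ^ 2 ≤ nc Vᗮ x g ^ 4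
  rw [show 4 = 2 * 2 from rfl, pow_mul]
  exact pow_le_pow_left₀ (by linarith) (by linarith) 2

end Vale.Agent.P166
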