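import Vale.Agent.P166.Av
import Vale.Agent.P157.G2

/-! P166: the spin functional is Lipschitz in the increments. -/

namespace Vale.Agent.P166

open Finset Real Vale.Agent.P157

noncomputable section

namespace Pslx

open Avx

/-- switching on the steps of `R'` -/
theorem hole (hA : AApi) (hR : RApi) (hQ : QApi) (hB : BrStmt) {R R' : Type} [Fintype R]
    [DecidableEq R] [Fintype R'] [DecidableEq R'] {n : ℕ} (hn : 1 ≤ n) {lv : R ⊕ R' → ℕ}
    (hl : LevOk n lv) (a : R → ℝ) (b : R' → ℝ) :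
    PD n (univ.val.map (fun r => (lv r, Sum.elim a (fun _ => 0) r))) ≤
        PD n (univ.val.map (fun r => (lv r, Sum.elim a b r))) ∧
      PD n (univ.val.map (fun r => (lv r, Sum.elim a b r))) ≤
        PD n (univ.val.map (fun r => (lv r, Sum.elim a (fun _ => 0) r))) + (∑ r, b r ^ 2) / 2 := by
  rw [← (hB n _ lv _ hn hl).1, ← (hB n _ lv _ hn hl).1]
  have hL : LevOk n (Sum.elim (fun _ : Unit => 0) lv) := fun s => by
    cases s with
    | inl _ => exact hn
    | inr r => exact hl r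
  have hm : ∀ s : Unit ⊕ R ⊕ R', (∀ r, s ≠ Sum.inr (Sum.inr r)) → s ∉ (univ : Finset R').map
      (Function.Embedding.inr.trans Function.Embedding.inr) := fun s hs h => by
    obtain ⟨r, -, rfl⟩ := mem_map.1 h
    exact hs r rfl
  have h := hQ.hole (I := Empty) n _ (univ.map (Function.Embedding.inr.trans Function.Embedding.inr))
    (fun ω => sg (Sum.elim a (fun _ => 0)) (ω.1 ∘ Sum.inr) * spin (ω.1 (Sum.inl ())))
    (fun s ω => Sum.elim (fun _ => 0) (Sum.elim (fun _ => 0) b) s * spin (ω.1 (Sum.inl ()))) hn hL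
    (fun e e' σ he => by
      simp only [sg, Fintype.sum_sum_type, Sum.elim_inl, Sum.elim_inr, mul_zero, Function.comp]
      rw [he _ (hm _ (by simp))]
      congr 2
      exact sum_congr rfl fun r _ => by rw [he _ (hm _ (by simp))])
    (fun s _ e e' σ he => by simp only [he _ (hm (Sum.inl ()) (by simp))])
  simp only [sum_map, Function.Embedding.trans_apply, Function.Embedding.inr_apply, Sum.elim_inr,
    mul_pow, spin_sq, mul_one] at h
  have e1 : (fun ω : Cf (Unit ⊕ R ⊕ R') Empty =>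
      sg (Sum.elim a b) (ω.1 ∘ Sum.inr) * spin (ω.1 (Sum.inl ()))) = fun ω =>
      sg (Sum.elim a (fun _ => 0)) (ω.1 ∘ Sum.inr) * spin (ω.1 (Sum.inl ())) +
        ∑ r, spin (ω.1 (Sum.inr (Sum.inr r))) * (b r * spin (ω.1 (Sum.inl ()))) := by
    funext ω
    simp only [sg, Fintype.sum_sum_type, Sum.elim_inl, Sum.elim_inr, mul_zero, Function.comp,
      sum_const_zero, add_zero, add_mul, sum_mul, mul_assoc]
  unfold Xs
  rw [e1]
  refine ⟨h.1, h.2.trans ?_⟩
  exact hA.xle (hR.ok n _ hn).1 (fun ω => by rw [sum_div]) _ le_rfl _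

/-- `S` equal steps per level -/
def fam (n S : ℕ) (δ : ℕ → ℝ) (r : Fin S × Fin n) : ℝ := √(δ r.2 / S)

theorem fam_sq {n S : ℕ} (hS : 0 < S) {δ : ℕ → ℝ} (h : ∀ d, d < n → 0 ≤ δ d) (w : ℕ → ℝ) :
    ∑ r : Fin S × Fin n, w r.2 * fam n S δ r ^ 2 = ∑ d ∈ range n, w d * δ d := by
  have hS' : (0 : ℝ) < S := by exact_mod_cast hS
  have h1 : ∀ r : Fin S × Fin n, fam n S δ r ^ 2 = δ r.2 / S := fun r =>
    sq_sqrt (div_nonneg (h _ r.2.2) hS'.le)
  simp only [h1, Fintype.sum_prod_type, sum_const, card_univ, Fintype.card_fin, nsmul_eq_mul]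
  rw [mul_sum, ← Fin.sum_univ_eq_sum_range (fun d => w d * δ d)]
  exact sum_congr rfl fun d _ => by field_simp

theorem mic {n S : ℕ} (hS : 0 < S) {δ δ' q : ℕ → ℝ} {η Q : ℝ} (hη : 0 < η) (hQ : Q ≤ η ^ 2 * S)
    (h : ∀ d, d < n → 0 ≤ δ d ∧ δ d ≤ Q ∧ 0 ≤ δ' d ∧ δ' d ≤ Q ∧ δ d + δ' d = q d - q (d + 1)) :
    Mic n (Sum.elim (fun r : Fin S × Fin n => (r.2 : ℕ)) (fun r : Fin S × Fin n => (r.2 : ℕ)))
      (Sum.elim (fam n S δ) (fam n S δ')) q η := by
  have hS' : (0 : ℝ) < S := by exact_mod_cast hS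
  have hb : ∀ t, t ≤ Q → |√(t / S)| ≤ η := fun t ht => by
    rw [abs_of_nonneg (sqrt_nonneg _)]
    exact sqrt_le_iff.2 ⟨hη.le, (div_le_iff₀ hS').2 (ht.trans hQ)⟩
  refine ⟨fun r => ?_, fun r => ?_, fun d hd => ?_⟩
  · cases r <;> exact Fin.is_lt _
  · cases r with
    | inl r => exact hb _ (h _ r.2.2).2.1
    | inr r => exact hb _ (h _ r.2.2).2.2.2.1
  · have h1 := fam_sq hS (fun d hd => (h d hd).1) (fun j => if j = d then 1 else 0)
    have h2 := fam_sq hS (fun d hd => (h d hd).2.2.1) (fun j => if j = d then 1 else 0)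
    simp only [ite_mul, one_mul, zero_mul, sum_ite_eq', mem_range, hd, if_true] at h1 h2
    rw [sum_filter, Fintype.sum_sum_type]
    refine (congrArg (fun t => |t - (q d - q (d + 1))|)
      ((congrArg₂ (· + ·) h1 h2).trans (h d hd).2.2.2.2)).trans_le ?_
    simp only [sub_self, abs_zero, hη.le]

end Pslx

open Pslx in
theorem pslStmt (hA : AApi) (hR : RApi) (hQ : QApi) (hB : BrStmt) (hP : PdStmt) : PslStmt := by
  intro n q q' hn hq hq'
  obtain ⟨C, -, hP⟩ := hP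
  have bd : ∀ {q : ℕ → ℝ}, Path n q → 0 ≤ q 0 ∧ ∀ d, d < n → 0 ≤ q d - q (d + 1) ∧
      q d - q (d + 1) ≤ q 0 := fun {q} hq => by
    refine ⟨hq.2 ▸ G2.anti hq (Nat.zero_le n) le_rfl, fun d hd => ?_⟩
    have a1 := G2.anti hq (Nat.zero_le d) hd.le
    have a2 := G2.anti hq (show d + 1 ≤ n from hd) le_rfl
    rw [hq.2] at a2
    exact ⟨sub_nonneg.2 (hq.1 d hd), by linarith⟩
  obtain ⟨b0, b1⟩ := bd hq
  obtain ⟨c0, c1⟩ := bd hq'
  refine le_of_forall_pos_le_add fun ε hε => ?_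
  obtain ⟨η, hη, hP⟩ := hP n (q 0 + q' 0) (ε / 2) hn (by positivity)
  obtain ⟨S, hS⟩ := exists_nat_gt ((q 0 + q' 0) / η ^ 2)
  have hS0 : 0 < S := by exact_mod_cast (lt_of_le_of_lt (by positivity) hS : (0 : ℝ) < S)
  rw [div_lt_iff₀' (by positivity)] at hS
  obtain ⟨μ, hμ⟩ : ∃ μ : ℕ → ℝ, μ = fun d => min (q d - q (d + 1)) (q' d - q' (d + 1)) := ⟨_, rfl⟩
  have hl : LevOk n (Sum.elim (fun r : Fin S × Fin n => (r.2 : ℕ))
      (fun r : Fin S × Fin n => (r.2 : ℕ))) := fun r => by cases r <;> exact Fin.is_lt _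
  have key : ∀ p : ℕ → ℝ, Path n p → p 0 ≤ q 0 + q' 0 →
      (∀ d, d < n → 0 ≤ μ d ∧ μ d ≤ p d - p (d + 1) ∧ p d - p (d + 1) - μ d ≤
        |(q d - q (d + 1)) - (q' d - q' (d + 1))|) →
      ∀ X, X = PD n (univ.val.map (fun r => (Sum.elim (fun r : Fin S × Fin n => (r.2 : ℕ))
        (fun r : Fin S × Fin n => (r.2 : ℕ)) r, Sum.elim (fam n S μ) (fun _ => 0) r))) →
      X - ε / 2 ≤ psi n p + p 0 / 2 ∧ psi n p + p 0 / 2 ≤
        X + (∑ d ∈ range n, |(q d - q (d + 1)) - (q' d - q' (d + 1))|) / 2 + ε / 2 := by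
    intro p hp hp0 hd X hX
    have h1 := abs_le.1 (hP _ _ _ p 0 0 hp hp0 hn le_rfl zero_le_one
      (mic hS0 (δ := μ) (δ' := fun d => p d - p (d + 1) - μ d) hη hS.le fun d h => by
        obtain ⟨a1, a2, -⟩ := hd d h
        have := ((bd hp).2 d h).2
        exact ⟨a1, by linarith, by linarith, by linarith, by ring⟩)).1
    have h2 := hole hA hR hQ hB hn hl (fam n S μ) (fam n S fun d => p d - p (d + 1) - μ d)
    have h3 := fam_sq hS0 (δ := fun d => p d - p (d + 1) - μ d)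
      (fun d h => sub_nonneg.2 (hd d h).2.1) (fun _ => 1)
    simp only [one_mul] at h3
    have h4 := sum_le_sum fun d (h : d ∈ range n) => (hd d (mem_range.1 h)).2.2
    rw [← hX, h3] at h2
    exact ⟨by linarith [h1.2, h2.1], by linarith [h1.1, h2.2]⟩
  have k1 := key q hq (by linarith) (fun d h => by
    rw [hμ]
    refine ⟨le_min (b1 d h).1 (c1 d h).1, min_le_left _ _, ?_⟩
    rcases min_choice (q d - q (d + 1)) (q' d - q' (d + 1)) with e | e <;> simp only [e]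
    · simp
    · exact le_abs_self _) _ rfl
  have k2 := key q' hq' (by linarith) (fun d h => by
    rw [hμ]
    refine ⟨le_min (b1 d h).1 (c1 d h).1, min_le_right _ _, ?_⟩
    rcases min_choice (q d - q (d + 1)) (q' d - q' (d + 1)) with e | e <;> simp only [e]
    · rw [abs_sub_comm]; exact le_abs_self _
    · simp) _ rfl
  exact abs_le.2 ⟨by linarith [k1.1, k2.2], by linarith [k1.2, k2.1]⟩

end

end Vale.Agent.P166
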