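import Vale.Agent.P166.Stm
import Vale.Agent.P157.A

namespace Vale.Agent.P166

open Finset Real Vale.Agent.P157

namespace Q

section abst
variable {Ω : Type} {P : ℕ → Op Ω} {m : ℕ → ℝ} {t : ℕ}

/-- exponent of the level below -/
def mu (m : ℕ → ℝ) : ℕ → ℝ
  | 0 => 1
  | j + 1 => m j

theorem le_mu (h : Ok P m t) {j : ℕ} (hj : j < t) : m j ≤ mu m j := by
  cases j with
  | zero => exact h.le1 0 hj
  | succ j => exact h.anti j hj

theorem anti' (h : Ok P m t) {i j : ℕ} (hij : i ≤ j) (hj : j < t) : m j ≤ m i := by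
  induction j, hij using Nat.le_induction with
  | base => exact le_rfl
  | succ j _ ih => exact (h.anti j hj).trans (ih (by omega))

theorem lowb0 (h : Ok P m t) (Z A g : Ω → ℝ) (hA : ∀ ω, 0 ≤ A ω) (hg : ∀ ω, 0 ≤ g ω) (j : ℕ)
    (hj : j ≤ t) (ω : Ω) :
    exp (mu m j * (XX P m (Z + A) j ω - XX P m Z j ω)) * Ce P m (Z + A) 0 j g ω ≤
      Ce P m Z 0 j (fun x => exp (A x) * g x) ω := by
  induction j generalizing ω with
  | zero =>
    show exp (1 * (Z ω + A ω - Z ω)) * g ω ≤ exp (A ω) * g ω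
    rw [one_mul, add_sub_cancel_left]
  | succ j ih =>
    have hq := Aa.qq_mk h Z (j := j) (by omega)
    rw [Aa.ce_succ _ (Nat.zero_le j), Aa.ce_succ _ (Nat.zero_le j), Aa.qq_chg Z (Z + A), ← mul_assoc,
      ← exp_add]
    show exp (m j * _ + _) * _ ≤ _
    rw [add_neg_cancel, exp_zero, one_mul]
    refine Aa.mono' hq (fun x => le_trans ?_ (ih (by omega) x)) ω
    refine mul_le_mul_of_nonneg_right (exp_le_exp.2 ?_)
      ((Aa.ce h (Z + A) 0 j (by omega)).1 g hg x)
    refine mul_le_mul_of_nonneg_right (le_mu h (by omega)) ?_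
    have := Aa.xle h (Z := Z) (Z' := Z + A) (c := 0)
      (fun ω => by have := hA ω; simp only [Pi.add_apply]; linarith) j (by omega) x
    linarith

theorem lowexp0 (h : Ok P m t) (Z A : Ω → ℝ) {μ : ℝ} (h0 : 0 ≤ μ) (h1 : ∀ i, i < t → μ ≤ m i)
    (j : ℕ) (hj : j ≤ t) (ω : Ω) :
    Ce P m Z 0 j (fun x => exp (μ * A x)) ω ≤
      exp (μ * (XX P m (Z + A) j ω - XX P m Z j ω)) := by
  induction j generalizing ω with
  | zero =>
    show exp (μ * A ω) ≤ exp (μ * (Z ω + A ω - Z ω))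
    rw [add_sub_cancel_left]
  | succ j ih =>
    have hm := h.pos j (by omega)
    have hq := Aa.qq_mk h Z (j := j) (by omega)
    rw [Aa.ce_succ _ (Nat.zero_le j)]
    refine (Aa.mono' hq (ih (by omega)) ω).trans ?_
    have h2 := Aa.pw hq (μ := μ / m j) (div_nonneg h0 hm.le) ((div_le_one hm).2 (h1 j (by omega)))
      (fun x => m j * (XX P m (Z + A) j x - XX P m Z j x)) ω
    rw [← Aa.basic h Z (Z + A) (j := j) (by omega) ω, log_exp] at h2
    have e : ∀ y : ℝ, μ / m j * (m j * y) = μ * y := fun y => by field_simp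
    simp only [e] at h2
    exact h2

theorem pmean {a b c μ ν : ℝ} (h0 : 0 < ν) (h1 : ν ≤ μ)
    (h : exp (μ * a) + exp (μ * b) ≤ 2 * exp (μ * c)) :
    exp (ν * a) + exp (ν * b) ≤ 2 * exp (ν * c) := by
  have hμ : 0 < μ := h0.trans_le h1
  have key : ∀ y : ℝ, exp (ν * y) ≤
      exp (ν * c) * (ν / μ * (exp (μ * y) / exp (μ * c)) + (1 - ν / μ)) := by
    intro y
    have hc := convexOn_exp.2 (Set.mem_univ (μ * y - μ * c)) (Set.mem_univ 0)
      (div_nonneg h0.le hμ.le) (sub_nonneg.2 ((div_le_one hμ).2 h1)) (by ring)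
    simp only [smul_eq_mul, mul_zero, add_zero, exp_zero, mul_one] at hc
    have e1 : exp (ν * y) = exp (ν * c) * exp (ν / μ * (μ * y - μ * c)) := by
      rw [← exp_add]; congr 1; field_simp; ring
    rw [e1, ← exp_sub]
    exact mul_le_mul_of_nonneg_left hc (exp_pos _).le
  have h2 : exp (μ * a) / exp (μ * c) + exp (μ * b) / exp (μ * c) ≤ 2 := by
    rw [← add_div, div_le_iff₀ (exp_pos _)]; exact h
  have h3 := key a
  have h4 := key b
  have h5 : 0 ≤ exp (ν * c) * (ν / μ) := by positivity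
  nlinarith [mul_le_mul_of_nonneg_left h2 h5]

/-- a symmetry `φ` that commutes with the levels `≤ l` and is averaged by the level `l + 1` -/
theorem sym (h : Ok P m t) (W Y : Ω → ℝ) (φ : Ω → Ω) (l : ℕ) (hl : l + 2 ≤ t)
    (hc : ∀ j, j ≤ l → ∀ g ω, P j g (φ ω) = P j (fun x => g (φ x)) ω)
    (ha : ∀ g ω, P (l + 1) g ω = P (l + 1) (fun x => g (φ x)) ω)
    (h0 : ∀ ω, exp (W ω) + exp (W (φ ω)) ≤ 2 * exp (Y ω)) (ω : Ω) :
    XX P m W t ω ≤ XX P m Y t ω := by
  have step : ∀ j, j < t → (∀ ω, exp (mu m j * XX P m W j ω) + exp (mu m j * XX P m W j (φ ω)) ≤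
      2 * exp (mu m j * XX P m Y j ω)) → ∀ ω,
      P j (fun x => exp (m j * XX P m W j x)) ω +
        P j (fun x => exp (m j * XX P m W j (φ x))) ω ≤ 2 * exp (m j * XX P m Y (j + 1) ω) := by
    intro j hj H ω
    rw [← Aa.add', Aa.exp_xx h Y hj, ← Aa.smul']
    exact Aa.mono' (h.mk' j) (fun x => pmean (h.pos j hj) (le_mu h hj) (H x)) ω
  have A1 : ∀ j, j ≤ l + 1 → ∀ ω, exp (mu m j * XX P m W j ω) + exp (mu m j * XX P m W j (φ ω)) ≤
      2 * exp (mu m j * XX P m Y j ω) := by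
    intro j
    induction j with
    | zero => intro _ ω; simpa [mu, XX] using h0 ω
    | succ j ih =>
      intro hj ω
      have := step j (by omega) (ih (by omega)) ω
      show exp (m j * _) + exp (m j * _) ≤ 2 * exp (m j * _)
      rw [Aa.exp_xx h W (by omega), Aa.exp_xx h W (by omega), hc j (by omega)]
      exact this
  have A2 : ∀ j, l + 2 ≤ j → j ≤ t → ∀ ω, XX P m W j ω ≤ XX P m Y j ω := by
    intro j hj
    induction j, hj using Nat.le_induction with
    | base =>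
      intro _ ω
      have h1 := step (l + 1) (by omega) (A1 (l + 1) le_rfl) ω
      rw [← ha (fun x => exp (m (l + 1) * XX P m W (l + 1) x)), ← Aa.exp_xx h W (by omega)] at h1
      have h2 : exp (m (l + 1) * XX P m W (l + 1 + 1) ω) ≤
          exp (m (l + 1) * XX P m Y (l + 1 + 1) ω) := by linarith
      exact le_of_mul_le_mul_left (exp_le_exp.1 h2) (h.pos (l + 1) (by omega))
    | succ j _ ih =>
      intro hj ω
      have hm := h.pos j (by omega)
      have h2 : exp (m j * XX P m W (j + 1) ω) ≤ exp (m j * XX P m Y (j + 1) ω) := by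
        rw [Aa.exp_xx h W (by omega), Aa.exp_xx h Y (by omega)]
        exact Aa.mono' (h.mk' j)
          (fun x => exp_le_exp.2 (mul_le_mul_of_nonneg_left (ih (by omega) x) hm.le)) ω
      exact le_of_mul_le_mul_left (exp_le_exp.1 h2) hm
  exact A2 t hl le_rfl ω

theorem sum' {κ : Type} (Pp : Op Ω) (s : Finset κ) (g : κ → Ω → ℝ) (ω : Ω) :
    Pp (fun x => ∑ k ∈ s, g k x) ω = ∑ k ∈ s, Pp (g k) ω := by
  have : (fun x => ∑ k ∈ s, g k x) = ∑ k ∈ s, g k := by ext x; simp
  rw [this, map_sum]; simp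

end abst

theorem ex_top {n : ℕ} (hn : 1 ≤ n) : ex n n = 1 / n := by
  obtain ⟨k, rfl⟩ : ∃ k, n = k + 1 := ⟨n - 1, by omega⟩
  show 1 - (k : ℝ) / ((k + 1 : ℕ) : ℝ) = _
  push_cast; field_simp; ring

theorem spin_not (b : Bool) : spin (!b) = -spin b := by cases b <;> simp [spin]

theorem spin_sq (b : Bool) : spin b ^ 2 = 1 := by cases b <;> simp [spin]

section rcd
variable {T I : Type} [Fintype T] [DecidableEq T] [Fintype I] [DecidableEq I]

/-- flip of one sign -/
def fl1 (s : T) (e : T → Bool) : T → Bool := Function.update e s (!e s)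

theorem fl1_inv (s : T) : Function.Involutive (fl1 s) := by
  intro e; ext s'
  by_cases h : s' = s
  · subst h; simp [fl1]
  · simp [fl1, h]

theorem sum_fl1 (s : T) (G : (T → Bool) → ℝ) : ∑ e, G (fl1 s e) = ∑ e, G e :=
  Equiv.sum_comp (fl1_inv s).toPerm G

theorem idp_fl {A : Finset T} {u : Cf T I → ℝ} (h : Idp A u) {s : T} (hs : s ∈ A) (ω : Cf T I) :
    u (fl1 s ω.1, ω.2) = u ω :=
  h _ _ _ (fun s' hs' => by
    have : s' ≠ s := fun e => hs' (e ▸ hs)
    simp [fl1, this])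

theorem idp_sub {A B : Finset T} {u : Cf T I → ℝ} (h : Idp A u) (hB : B ⊆ A) : Idp B u :=
  fun e e' σ H => h e e' σ (fun s hs => H s (fun hb => hs (hB hb)))

theorem one (hR : RApi) (n : ℕ) (lev : T → ℕ) (s : T) (Z u : Cf T I → ℝ) (hn : 1 ≤ n)
    (hl : LevOk n lev) (hZ : Idp {s} Z) (hu : Idp {s} u) :
    Xv n lev (fun ω => Z ω + spin (ω.1 s) * u ω) ≤ Xv n lev (fun ω => Z ω + u ω ^ 2 / 2) := by
  have hs := hl s
  refine sym (hR.ok n lev hn).1 _ _ (fun ω => (fl1 s ω.1, ω.2)) (lev s) (by omega) ?_ ?_ ?_ _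
  · intro j hj g ω
    cases j with
    | zero => rfl
    | succ d =>
      simp only [ch, rsl, LinearMap.coe_mk, AddHom.coe_mk]
      congr 1
      refine sum_congr rfl fun e _ => ?_
      congr 2
      ext s'
      by_cases h : s' = s
      · subst h
        have : lev s' ≠ d := by omega
        simp [fl1, this]
      · simp [fl1, h]
  · intro g ω
    simp only [ch, rsl, LinearMap.coe_mk, AddHom.coe_mk]
    congr 1
    rw [← sum_fl1 s]
    refine sum_congr rfl fun e _ => ?_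
    congr 2
    ext s'
    by_cases h : s' = s
    · subst h; simp [fl1]
    · simp [fl1, h]
  · intro ω
    have e1 := idp_fl hZ (mem_singleton_self s) ω
    have e2 := idp_fl hu (mem_singleton_self s) ω
    have e3 : spin (fl1 s ω.1 s) = -spin (ω.1 s) := by simp [fl1, spin_not]
    simp only [e1, e2, e3]
    have h1 := cosh_le_exp_half_sq (spin (ω.1 s) * u ω)
    rw [mul_pow, spin_sq, one_mul, cosh_eq] at h1
    rw [exp_add, exp_add, exp_add, neg_mul]
    nlinarith [exp_pos (Z ω)]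

theorem holeU (hR : RApi) (n : ℕ) (lev : T → ℕ) (u : T → Cf T I → ℝ) (hn : 1 ≤ n)
    (hl : LevOk n lev) (A : Finset T) : ∀ (Z : Cf T I → ℝ), Idp A Z → (∀ s ∈ A, Idp A (u s)) →
    Xv n lev (fun ω => Z ω + ∑ s ∈ A, spin (ω.1 s) * u s ω) ≤
      Xv n lev (fun ω => Z ω + ∑ s ∈ A, u s ω ^ 2 / 2) := by
  induction A using Finset.induction_on with
  | empty => intro Z _ _; simp
  | insert s A hs ih =>
    intro Z hZ hu
    have hs1 : {s} ⊆ insert s A := by simp
    have hA1 : A ⊆ insert s A := subset_insert s A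
    have h1 := one hR n lev s (fun ω => Z ω + ∑ s ∈ A, spin (ω.1 s) * u s ω) (u s) hn hl ?_
      (idp_sub (hu s (mem_insert_self s A)) hs1)
    · have h2 := ih (fun ω => Z ω + u s ω ^ 2 / 2) ?_
        (fun s' hs' => idp_sub (hu s' (hA1 hs')) hA1)
      · simp only [sum_insert hs]
        have e1 : (fun ω : Cf T I => Z ω + (spin (ω.1 s) * u s ω + ∑ s ∈ A, spin (ω.1 s) * u s ω)) =
            fun ω => Z ω + ∑ s ∈ A, spin (ω.1 s) * u s ω + spin (ω.1 s) * u s ω := by
          ext ω; ring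
        have e2 : (fun ω : Cf T I => Z ω + ∑ s ∈ A, spin (ω.1 s) * u s ω + u s ω ^ 2 / 2) =
            fun ω => Z ω + u s ω ^ 2 / 2 + ∑ s ∈ A, spin (ω.1 s) * u s ω := by
          ext ω; ring
        have e3 : (fun ω : Cf T I => Z ω + (u s ω ^ 2 / 2 + ∑ s ∈ A, u s ω ^ 2 / 2)) =
            fun ω => Z ω + u s ω ^ 2 / 2 + ∑ s ∈ A, u s ω ^ 2 / 2 := by
          ext ω; ring
        rw [e1, e3]
        rw [e2] at h1
        exact h1.trans h2
      · intro e e' σ H
        show Z (e, σ) + u s (e, σ) ^ 2 / 2 = Z (e', σ) + u s (e', σ) ^ 2 / 2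
        rw [idp_sub hZ hA1 e e' σ H, idp_sub (hu s (mem_insert_self s A)) hA1 e e' σ H]
    · intro e e' σ H
      show Z (e, σ) + ∑ s ∈ A, spin (e s) * u s (e, σ) = Z (e', σ) + ∑ s ∈ A, spin (e' s) * u s (e', σ)
      rw [idp_sub hZ hs1 e e' σ H]
      congr 1
      refine sum_congr rfl fun s' hs' => ?_
      rw [idp_sub (hu s' (hA1 hs')) hs1 e e' σ H, H s' (by rintro h; exact hs (mem_singleton.1 h ▸ hs'))]

theorem holeL (hR : RApi) (n : ℕ) (lev : T → ℕ) (u : T → Cf T I → ℝ) (hn : 1 ≤ n)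
    (hl : LevOk n lev) (A : Finset T) (Z : Cf T I → ℝ) (hZ : Idp A Z) (hu : ∀ s ∈ A, Idp A (u s)) :
    Xv n lev Z ≤ Xv n lev (fun ω => Z ω + ∑ s ∈ A, spin (ω.1 s) * u s ω) := by
  have h1 := Aa.xlow (hR.ok (I := I) n lev hn).1 Z (fun ω => ∑ s ∈ A, spin (ω.1 s) * u s ω) (n + 1)
    le_rfl (w0 T I)
  rw [sum' _ A (fun s ω => spin (ω.1 s) * u s ω), sum_eq_zero, add_zero] at h1
  · exact h1
  · intro s hs
    have h2 := (hR.flip n lev s Z hl (idp_sub hZ (by simpa using hs))).1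
      (fun ω => spin (ω.1 s) * u s ω)
    have e : (fun ω : Cf T I => spin (Function.update ω.1 s (!ω.1 s) s) *
        u s (Function.update ω.1 s (!ω.1 s), ω.2)) = fun ω => (-1) * (spin (ω.1 s) * u s ω) := by
      ext ω
      have := idp_fl (hu s hs) hs ω
      simp only [fl1] at this
      rw [this]; simp [spin_not]
    simp only [e] at h2
    unfold Ev at h2
    rw [Aa.smul'] at h2
    linarith

theorem flips (hR : RApi) (n : ℕ) (lev : T → ℕ) (hl : LevOk n lev) (Z : Cf T I → ℝ) (B : Finset T) :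
    Idp B Z → ∀ g : Cf T I → ℝ,
      Ev n lev Z (fun ω => g (fun s => if s ∈ B then !ω.1 s else ω.1 s, ω.2)) = Ev n lev Z g := by
  induction B using Finset.induction_on with
  | empty => intro _ g; simp
  | insert s B hs ih =>
    intro hZ g
    rw [← ih (idp_sub hZ (subset_insert s B)) g]
    have h2 := (hR.flip n lev s Z hl (idp_sub hZ (by simp))).1
      (fun ω => g (fun s => if s ∈ B then !ω.1 s else ω.1 s, ω.2))
    rw [← h2]
    congr 1
    ext ω
    congr 2
    ext s'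
    by_cases h : s' = s
    · subst h; simp [hs]
    · simp [h]

theorem avg (hR : RApi) (n : ℕ) (lev : T → ℕ) (A : Finset T) (Z g : Cf T I → ℝ)
    (hl : LevOk n lev) (hZ : Idp A Z) :
    Ev n lev Z g = (∑ e : T → Bool, Ev n lev Z (fun ω => g (frz A e ω))) /
      (Fintype.card (T → Bool) : ℝ) := by
  have hc : (0 : ℝ) < Fintype.card (T → Bool) := by exact_mod_cast Fintype.card_pos
  rw [eq_div_iff hc.ne']
  have h1 : ∀ e : T → Bool, Ev n lev Z g = Ev n lev Z
      (fun ω => g (fun s => if s ∈ A.filter (fun s => e s = true) then !ω.1 s else ω.1 s, ω.2)) :=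
    fun e => (flips hR n lev hl Z _ (idp_sub hZ (filter_subset _ _)) g).symm
  have h2 : Ev n lev Z g * (Fintype.card (T → Bool) : ℝ) = ∑ e : T → Bool, Ev n lev Z
      (fun ω => g (fun s => if s ∈ A.filter (fun s => e s = true) then !ω.1 s else ω.1 s, ω.2)) := by
    rw [← sum_congr rfl (fun e _ => h1 e)]
    simp [mul_comm]
  rw [h2]
  unfold Ev
  rw [← sum', ← sum']
  refine congrArg (fun G => Ce (ch lev) (ex n) Z 0 (n + 1) G (w0 T I)) ?_
  ext ω
  have hi : Function.Involutive (fun (e : T → Bool) s => xor (e s) (ω.1 s)) := by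
    intro e; ext s; simp
  rw [← Equiv.sum_comp hi.toPerm (fun e => g (frz A e ω))]
  refine sum_congr rfl fun e _ => ?_
  congr 1
  unfold frz
  congr 1
  ext s
  by_cases h : s ∈ A
  · cases h' : e s <;> simp [h, h']
  · simp [h]

/-- one more sign -/
theorem ins (s : T) (A : Finset T) (hs : s ∉ A) (a : T → ℝ) (F : ℝ → ℝ) :
    ∑ e : T → Bool, F (∑ s ∈ insert s A, spin (e s) * a s) =
      (∑ e : T → Bool, F (a s + ∑ s ∈ A, spin (e s) * a s) +
        ∑ e : T → Bool, F (-a s + ∑ s ∈ A, spin (e s) * a s)) / 2 := by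
  have h1 := sum_fl1 s (fun e => F (∑ s ∈ insert s A, spin (e s) * a s))
  have h2 : ∀ e : T → Bool, F (∑ s ∈ insert s A, spin (e s) * a s) +
      F (∑ s' ∈ insert s A, spin (fl1 s e s') * a s') =
      F (a s + ∑ s ∈ A, spin (e s) * a s) + F (-a s + ∑ s ∈ A, spin (e s) * a s) := by
    intro e
    have e1 : ∑ s' ∈ A, spin (fl1 s e s') * a s' = ∑ s ∈ A, spin (e s) * a s := by
      refine sum_congr rfl fun s' hs' => ?_
      have : s' ≠ s := fun e => hs (e ▸ hs')
      simp [fl1, this]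
    rw [sum_insert hs, sum_insert hs, e1]
    cases h : e s <;> simp [fl1, h, spin, add_comm]
  rw [← sum_add_distrib, ← sum_congr rfl (fun e _ => h2 e), sum_add_distrib, h1]
  ring

theorem mom4x (a : T → ℝ) (A : Finset T) : ∀ x : ℝ,
    ∑ e : T → Bool, (x + ∑ s ∈ A, spin (e s) * a s) ^ 4 ≤ (Fintype.card (T → Bool) : ℝ) *
      (x ^ 4 + 6 * x ^ 2 * ∑ s ∈ A, a s ^ 2 + 3 * (∑ s ∈ A, a s ^ 2) ^ 2) := by
  induction A using Finset.induction_on with
  | empty => intro x; simp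
  | insert s A hs ih =>
    intro x
    rw [ins s A hs a (fun y => (x + y) ^ 4), sum_insert hs]
    have h1 := ih (x + a s)
    have h2 := ih (x + -a s)
    simp only [add_assoc] at h1 h2
    have hc : (0 : ℝ) ≤ Fintype.card (T → Bool) := Nat.cast_nonneg _
    set c : ℝ := (Fintype.card (T → Bool) : ℝ)
    set v := ∑ s ∈ A, a s ^ 2
    have : 0 ≤ c * a s ^ 4 := by positivity
    nlinarith

theorem mexpx (a : T → ℝ) {t : ℝ} (ht : 0 ≤ t) (A : Finset T) : ∀ x : ℝ,
    2 * t * ∑ s ∈ A, a s ^ 2 < 1 →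
    ∑ e : T → Bool, exp (t * (x + ∑ s ∈ A, spin (e s) * a s) ^ 2) ≤ (Fintype.card (T → Bool) : ℝ) *
      exp (-log (1 - 2 * t * ∑ s ∈ A, a s ^ 2) / 2 + t * x ^ 2 / (1 - 2 * t * ∑ s ∈ A, a s ^ 2)) := by
  induction A using Finset.induction_on with
  | empty => intro x _; simp
  | insert s A hs ih =>
    intro x hv
    rw [ins s A hs a (fun y => exp (t * (x + y) ^ 2))]
    rw [sum_insert hs] at hv ⊢
    set v := ∑ s ∈ A, a s ^ 2
    have ha : 0 ≤ t * a s ^ 2 := by positivity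
    have hv' : 2 * t * v < 1 := by nlinarith
    have h1 := ih (x + a s) hv'
    have h2 := ih (x + -a s) hv'
    simp only [add_assoc] at h1 h2
    have hc : (0 : ℝ) ≤ Fintype.card (T → Bool) := Nat.cast_nonneg _
    set c : ℝ := (Fintype.card (T → Bool) : ℝ)
    set D := 1 - 2 * t * v with hD
    have hD0 : 0 < D := by linarith
    set τ := t / D with hτ
    have hτ0 : 0 ≤ τ := by positivity
    set u := 2 * τ * a s ^ 2 with hu
    have hu0 : 0 ≤ u := by positivity
    have e1 : 1 - 2 * t * (a s ^ 2 + v) = D * (1 - u) := by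
      rw [hu, hτ]; field_simp; rw [hD]; ring
    have hu1 : 0 < 1 - u := by
      have : 0 < D * (1 - u) := by rw [← e1]; linarith
      exact (mul_pos_iff_of_pos_left hD0).1 this
    have k1 : exp (-log D / 2 + t * (x + a s) ^ 2 / D) + exp (-log D / 2 + t * (x + -a s) ^ 2 / D) ≤
        2 * exp (-log (D * (1 - u)) / 2 + t * x ^ 2 / (D * (1 - u))) := by
      have f1 : -log D / 2 + t * (x + a s) ^ 2 / D =
          (-log D / 2 + τ * (x ^ 2 + a s ^ 2)) + 2 * τ * x * a s := by rw [hτ]; ring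
      have f2 : -log D / 2 + t * (x + -a s) ^ 2 / D =
          (-log D / 2 + τ * (x ^ 2 + a s ^ 2)) + -(2 * τ * x * a s) := by rw [hτ]; ring
      have f3 := cosh_le_exp_half_sq (2 * τ * x * a s)
      rw [cosh_eq] at f3
      have f4 : (-log D / 2 + τ * (x ^ 2 + a s ^ 2)) + (2 * τ * x * a s) ^ 2 / 2 ≤
          -log (D * (1 - u)) / 2 + t * x ^ 2 / (D * (1 - u)) := by
        rw [log_mul hD0.ne' hu1.ne']
        have g1 := log_le_sub_one_of_pos hu1
        have g2 : τ * x ^ 2 * (1 + u) ≤ t * x ^ 2 / (D * (1 - u)) := by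
          have : t * x ^ 2 / (D * (1 - u)) = τ * x ^ 2 / (1 - u) := by rw [hτ]; field_simp
          rw [this, le_div_iff₀ hu1]
          have : 0 ≤ τ * x ^ 2 * u ^ 2 := by positivity
          nlinarith
        have g3 : (2 * τ * x * a s) ^ 2 / 2 = τ * x ^ 2 * u := by rw [hu]; ring
        have g4 : τ * a s ^ 2 = u / 2 := by rw [hu]; ring
        nlinarith
      have f5 := exp_le_exp.2 f4
      rw [f1, f2, exp_add _ (2 * τ * x * a s), exp_add _ (-(2 * τ * x * a s))]
      rw [exp_add _ ((2 * τ * x * a s) ^ 2 / 2)] at f5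
      nlinarith [exp_pos (-log D / 2 + τ * (x ^ 2 + a s ^ 2))]
    rw [e1]
    nlinarith [mul_le_mul_of_nonneg_left k1 hc]

theorem mexp2 (A : Finset T) (a : T → ℝ) (t : ℝ) (ht : 0 ≤ t) (hv : t * ∑ s ∈ A, a s ^ 2 ≤ 1 / 4) :
    (∑ e : T → Bool, exp (t * (∑ s ∈ A, spin (e s) * a s) ^ 2)) /
      (Fintype.card (T → Bool) : ℝ) ≤
      exp (t * ∑ s ∈ A, a s ^ 2 + 2 * (t * ∑ s ∈ A, a s ^ 2) ^ 2) := by
  have hc : (0 : ℝ) < Fintype.card (T → Bool) := by exact_mod_cast Fintype.card_pos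
  have h1 := mexpx a ht A 0 (by linarith)
  simp only [zero_add] at h1
  rw [div_le_iff₀' hc]
  refine h1.trans (mul_le_mul_of_nonneg_left (exp_le_exp.2 ?_) hc.le)
  have hw : 0 ≤ t * ∑ s ∈ A, a s ^ 2 := by positivity
  rw [mul_assoc]
  set w := t * ∑ s ∈ A, a s ^ 2
  have h2 : exp (-(2 * w + (2 * w) ^ 2)) ≤ 1 - 2 * w := by
    have h3 := quadratic_le_exp_of_nonneg (x := 2 * w + (2 * w) ^ 2) (by positivity)
    rw [exp_neg, inv_le_comm₀ (exp_pos _) (by linarith), inv_eq_one_div,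
      div_le_iff₀ (by linarith)]
    have h4 : 1 ≤ (1 + (2 * w + (2 * w) ^ 2) + (2 * w + (2 * w) ^ 2) ^ 2 / 2) * (1 - 2 * w) := by
      have h5 : 0 ≤ 1 - 2 * w - 4 * w ^ 2 - 8 * w ^ 3 := by nlinarith [mul_nonneg hw hw]
      nlinarith [mul_nonneg (mul_nonneg hw hw) h5]
    exact h4.trans (mul_le_mul_of_nonneg_right h3 (by linarith))
  have h6 := log_le_log (exp_pos _) h2
  rw [log_exp] at h6
  simp only [ne_eq, OfNat.ofNat_ne_zero, not_false_eq_true, zero_pow, mul_zero, zero_div, add_zero]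
  linarith

end rcd

end Q

theorem qApi (_hA : AApi) (_hF : FApi) (hR : RApi) : QApi where
  hole n lev A Z u hn hl hZ hu := ⟨Q.holeL hR n lev u hn hl A Z hZ hu, Q.holeU hR n lev u hn hl A Z hZ hu⟩
  lowb := by
    intro Ω P n h Z A g hA hg ω
    refine le_trans (mul_le_mul_of_nonneg_right (exp_le_exp.2 ?_)
      ((Aa.ce h (Z + A) 0 (n + 1) le_rfl).1 g hg ω)) (Q.lowb0 h Z A g hA hg (n + 1) le_rfl ω)
    have := Aa.xle h (Z := Z) (Z' := Z + A) (c := 0)
      (fun ω => by have := hA ω; simp only [Pi.add_apply]; linarith) (n + 1) le_rfl ω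
    show _ ≤ ex n n * _
    rcases Nat.eq_zero_or_pos n with rfl | hn
    · simp only [CharP.cast_eq_zero, div_zero, ex]; linarith
    · rw [Q.ex_top hn]; apply le_of_eq; ring
  lowexp := by
    intro Ω P n hn h Z A ω
    have hn' : (0 : ℝ) < n := by exact_mod_cast hn
    have h1 := Q.lowexp0 h Z A (μ := 1 / n) (by positivity)
      (fun i hi => by rw [← Q.ex_top hn]; exact Q.anti' h (by omega) (by omega)) (n + 1) le_rfl ω
    have e : (fun x => exp (1 / (n : ℝ) * A x)) = fun x => exp (A x / n) := by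
      ext x; congr 1; ring
    rw [e] at h1
    have h2 := log_le_log (Aa.epos (Aa.ce h Z 0 (n + 1) le_rfl) _ ω) h1
    rw [log_exp] at h2
    have h3 := mul_le_mul_of_nonneg_left h2 hn'.le
    rw [← mul_assoc, mul_one_div_cancel hn'.ne', one_mul] at h3
    linarith
  avg n lev A Z g _ hl hZ := Q.avg hR n lev A Z g hl hZ
  mom4 := by
    intro T _ _ A a
    have hc : (0 : ℝ) < Fintype.card (T → Bool) := by exact_mod_cast Fintype.card_pos
    have := Q.mom4x a A 0
    rw [div_le_iff₀' hc]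
    simpa using this
  mexp := by
    intro T _ _ A a t ht hv
    refine (Q.mexp2 A a t ht hv).trans ?_
    have hw : 0 ≤ t * ∑ s ∈ A, a s ^ 2 := by positivity
    set w := t * ∑ s ∈ A, a s ^ 2
    have h1 : exp (w + 2 * w ^ 2) ≤ exp (1 / 2) := exp_le_exp.2 (by nlinarith)
    have h2 := add_one_le_exp (-(1 / 2 : ℝ))
    have h3 : exp (1 / 2 : ℝ) * exp (-(1 / 2)) = 1 := by rw [← exp_add]; simp
    nlinarith [exp_pos (1 / 2 : ℝ)]
  mexp2 A a t ht hv := Q.mexp2 A a t ht hv

end Vale.Agent.P166
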