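import Vale.Agent.P166.Stm

/-! P166: a cut quadratic in independent signs is integrated out. -/

namespace Vale.Agent.P166

open MeasureTheory Finset Real Vale.Agent.P157

namespace Qo

theorem mic_mono {R : Type} [Fintype R] {n : ℕ} {lv : R → ℕ} {a : R → ℝ} {p : ℕ → ℝ} {η η' : ℝ}
    (h : Mic n lv a p η) (hη : η ≤ η') : Mic n lv a p η' :=
  ⟨h.1, fun r => (h.2.1 r).trans hη, fun d hd => (h.2.2 d hd).trans hη⟩

theorem mic_sum {R : Type} [Fintype R] {n : ℕ} {lv : R → ℕ} {a : R → ℝ} {p : ℕ → ℝ} {η : ℝ}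
    (h : Mic n lv a p η) (hp : Path n p) : ∑ r, a r ^ 2 ≤ p 0 + n * η := by
  have h1 : ∑ r, a r ^ 2 = ∑ d ∈ range n, ∑ r ∈ univ.filter (fun r => lv r = d), a r ^ 2 :=
    (sum_fiberwise_of_maps_to (fun r _ => mem_range.2 (h.1 r)) _).symm
  have h2 : ∑ d ∈ range n, (p d - p (d + 1)) = p 0 := by
    rw [sum_range_sub', hp.2, sub_zero]
  rw [h1, ← h2]
  have h3 : (n : ℝ) * η = ∑ _d ∈ range n, η := by simp
  rw [h3, ← sum_add_distrib]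
  refine sum_le_sum fun d hd => ?_
  linarith [(abs_le.1 (h.2.2 d (mem_range.1 hd))).2]

theorem lip1 {θ0 Γ L θ γ : ℝ} (h0 : 0 < θ0) (hL : 0 ≤ L) (h1 : θ0 ≤ θ) (h2 : θ ≤ Γ) (h3 : |γ| ≤ Γ)
    (s t : ℝ) : max (qd θ γ s) (-L) - max (qd θ γ t) (-L) ≤
      (Γ * (2 * (L + Γ) / θ0 + 3) + L) * |s - t| := by
  have hΓ : 0 < Γ := by linarith
  set T := 2 * (L + Γ) / θ0 + 1 with hT
  have hT1 : 1 ≤ T := by
    have : 0 ≤ 2 * (L + Γ) / θ0 := by positivity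
    linarith
  have eK : Γ * (2 * (L + Γ) / θ0 + 3) + L = Γ * (T + 2) + L := by rw [hT]; ring
  rw [eK]
  have hd := abs_nonneg (s - t)
  have hK : 0 ≤ (Γ * (T + 2) + L) * |s - t| := by positivity
  rcases le_total (qd θ γ s) (-L) with hs | hs
  · rw [max_eq_right hs]
    linarith [le_max_right (qd θ γ t) (-L)]
  rw [max_eq_left hs]
  have gs : γ * s ≤ Γ * |s| := by
    have := le_abs_self (γ * s)
    rw [abs_mul] at this
    nlinarith [abs_nonneg s]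
  have hsT : |s| ≤ T := by
    by_contra hc
    push Not at hc
    have a1 : θ0 * T = 2 * (L + Γ) + θ0 := by rw [hT]; field_simp
    have a2 : s ^ 2 = |s| * |s| := by rw [abs_mul_abs_self]; ring
    have a3 : θ0 * s ^ 2 ≤ θ * s ^ 2 := mul_le_mul_of_nonneg_right h1 (sq_nonneg s)
    have a4 : θ0 * T * |s| ≤ θ0 * |s| * |s| :=
      mul_le_mul_of_nonneg_right (mul_le_mul_of_nonneg_left hc.le h0.le) (abs_nonneg s)
    unfold qd at hs
    have a5 : L * 1 ≤ L * |s| := mul_le_mul_of_nonneg_left (by linarith) hL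
    have a6 : 0 < θ0 * |s| := mul_pos h0 (by linarith)
    nlinarith
  rcases le_total |s - t| 1 with hst | hst
  · have b1 : qd θ γ s - qd θ γ t = (s - t) * (γ - θ * (s + t) / 2) := by unfold qd; ring
    have b2 : |s + t| ≤ 2 * T + 1 := by
      have : s + t = 2 * s - (s - t) := by ring
      rw [this]
      refine (abs_sub _ _).trans ?_
      rw [abs_mul, abs_two]
      linarith
    have b3 : |γ - θ * (s + t) / 2| ≤ Γ * (T + 2) + L := by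
      refine (abs_sub _ _).trans ?_
      rw [abs_div, abs_mul, abs_two, abs_of_pos (by linarith : 0 < θ)]
      have := mul_le_mul h2 b2 (abs_nonneg _) hΓ.le
      nlinarith
    have b4 : (s - t) * (γ - θ * (s + t) / 2) ≤ |s - t| * (Γ * (T + 2) + L) := by
      refine (le_abs_self _).trans ?_
      rw [abs_mul]
      exact mul_le_mul_of_nonneg_left b3 hd
    linarith [le_max_left (qd θ γ t) (-L)]
  · have b1 : qd θ γ s ≤ Γ * T := by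
      unfold qd
      have : 0 ≤ θ * s ^ 2 := mul_nonneg (by linarith) (sq_nonneg s)
      nlinarith
    have b2 : (Γ * (T + 2) + L) * 1 ≤ (Γ * (T + 2) + L) * |s - t| :=
      mul_le_mul_of_nonneg_left hst (by positivity)
    nlinarith [le_max_right (qd θ γ t) (-L)]

theorem lip2 {θ0 Γ L θ γ : ℝ} (h0 : 0 < θ0) (hL : 0 ≤ L) (h1 : θ0 ≤ θ) (h2 : θ ≤ Γ) (h3 : |γ| ≤ Γ)
    (s t : ℝ) : |max (qd θ γ s) (-L) - max (qd θ γ t) (-L)| ≤
      (Γ * (2 * (L + Γ) / θ0 + 3) + L) * |s - t| := by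
  have a := lip1 h0 hL h1 h2 h3 s t
  have b := lip1 h0 hL h1 h2 h3 t s
  rw [abs_sub_comm t s] at b
  exact abs_le.2 ⟨by linarith, a⟩

theorem absw {w : ℝ} (h : w ^ 2 = 1) : |w| = 1 := by
  have := sq_abs w
  nlinarith [abs_nonneg w]

/-- pointwise bound on the weighted excess of the cut function -/
theorem excess {Λ Λ' θ γ Γ : ℝ} {g : ℝ → ℝ} (hc : Cut Λ θ γ g) (hΛ : 1 ≤ Λ) (h2 : |θ| ≤ Γ)
    (h3 : |γ| ≤ Γ) (t : ℝ) :
    exp (g t + Λ + 2) * (g t - max (qd θ γ t) (-Λ')) ≤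
      exp 2 * Γ ^ 2 / Λ * (3 / 2 * t ^ 4 + 1) := by
  have hq : qd θ γ t ^ 2 ≤ Γ ^ 2 * (3 / 2 * t ^ 4 + 1) := by
    have a1 : θ ^ 2 ≤ Γ ^ 2 := sq_le_sq' (abs_le.1 h2).1 (abs_le.1 h2).2
    have a2 : γ ^ 2 ≤ Γ ^ 2 := sq_le_sq' (abs_le.1 h3).1 (abs_le.1 h3).2
    have a3 : qd θ γ t ^ 2 ≤ θ ^ 2 * t ^ 4 / 2 + 2 * (γ ^ 2 * t ^ 2) := by
      unfold qd
      nlinarith [sq_nonneg (θ * t ^ 2 / 2 + γ * t)]
    have a4 := mul_le_mul_of_nonneg_right a1 (by positivity : 0 ≤ t ^ 4)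
    have a5 := mul_le_mul_of_nonneg_right a2 (sq_nonneg t)
    have a6 : 2 * t ^ 2 ≤ t ^ 4 + 1 := by nlinarith [sq_nonneg (t ^ 2 - 1)]
    have a7 := mul_le_mul_of_nonneg_left a6 (sq_nonneg Γ)
    nlinarith
  have hΛ0 : 0 < Λ := by linarith
  rcases le_or_gt (g t) (max (qd θ γ t) (-Λ')) with h | h
  · have : exp (g t + Λ + 2) * (g t - max (qd θ γ t) (-Λ')) ≤ 0 :=
      mul_nonpos_of_nonneg_of_nonpos (exp_pos _).le (by linarith)
    have : 0 ≤ exp 2 * Γ ^ 2 / Λ * (3 / 2 * t ^ 4 + 1) := by positivity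
    linarith
  · have m1 := le_max_left (qd θ γ t) (-Λ')
    have b1 := (hc t).2.2 (by linarith)
    have b2 : exp (g t + Λ + 2) ≤ exp 2 := exp_le_exp.2 (by linarith)
    have b3 : g t - max (qd θ γ t) (-Λ') ≤ qd θ γ t ^ 2 / Λ := by
      rw [le_div_iff₀ hΛ0]
      nlinarith
    calc _ ≤ exp 2 * (qd θ γ t ^ 2 / Λ) := mul_le_mul b2 b3 (by linarith) (exp_pos _).le
      _ ≤ exp 2 * (Γ ^ 2 * (3 / 2 * t ^ 4 + 1) / Λ) := by gcongr
      _ = _ := by ring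

section
variable {T I R : Type} [Fintype T] [DecidableEq T] [Fintype I] [DecidableEq I] [Fintype R]
  [DecidableEq R]

/-- fourth moment of the sum of the new signs -/
theorem mom (hA : AApi) (hR : RApi) (hQ : QApi) {n : ℕ} (hn : 1 ≤ n) (lev : T ⊕ R → ℕ)
    (hl : LevOk n lev) (Z : Cf T I → ℝ) (a : R → ℝ) (c : ℝ) (hc : 0 ≤ c) :
    Ev n lev (fun ω : Cf (T ⊕ R) I => Z (pull Sum.inl ω))
      (fun ω => c * (3 / 2 * sg a (ω.1 ∘ Sum.inr) ^ 4 + 1)) ≤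
      c * (9 / 2 * (∑ r, a r ^ 2) ^ 2 + 1) := by
  set A : Finset (T ⊕ R) := univ.map ⟨Sum.inr, Sum.inr_injective⟩ with hAd
  have hid : Idp A (fun ω : Cf (T ⊕ R) I => Z (pull Sum.inl ω)) := by
    intro e e' σ he
    have : e ∘ Sum.inl = e' ∘ Sum.inl := funext fun s => he _ (by simp [hAd])
    simp only [pull, this]
  rw [hQ.avg n lev A _ _ hn hl hid]
  have hk := hA.ce (hR.ok (I := I) n lev hn).1 (fun ω : Cf (T ⊕ R) I => Z (pull Sum.inl ω)) 0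
    (n + 1) le_rfl
  have h1 : ∀ e : T ⊕ R → Bool, Ev n lev (fun ω : Cf (T ⊕ R) I => Z (pull Sum.inl ω))
      (fun ω => c * (3 / 2 * sg a ((frz A e ω).1 ∘ Sum.inr) ^ 4 + 1)) =
      c * (3 / 2) * (∑ s ∈ A, spin (e s) * Sum.elim (fun _ => 0) a s) ^ 4 + c := by
    intro e
    have : ∀ ω : Cf (T ⊕ R) I, sg a ((frz A e ω).1 ∘ Sum.inr) =
        ∑ s ∈ A, spin (e s) * Sum.elim (fun _ => 0) a s := by
      intro ω
      simp [sg, frz, hAd]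
    simp only [this]
    unfold Ev
    rw [hA.const hk]
    ring
  simp only [h1]
  have h2 := hQ.mom4 A (Sum.elim (fun _ => 0) a)
  have h3 : ∑ s ∈ A, Sum.elim (fun _ => (0 : ℝ)) a s ^ 2 = ∑ r, a r ^ 2 := by simp [hAd]
  rw [h3] at h2
  have hN : (0 : ℝ) < Fintype.card (T ⊕ R → Bool) := by exact_mod_cast Fintype.card_pos
  rw [sum_add_distrib, ← mul_sum, sum_const, card_univ, nsmul_eq_mul, add_div, mul_div_assoc,
    mul_div_cancel_left₀ _ hN.ne']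
  nlinarith

/-- the cut function is replaced by a maximum -/
theorem cut (hA : AApi) (hR : RApi) (hQ : QApi) {n : ℕ} (hn : 1 ≤ n) (lev : T ⊕ R → ℕ)
    (hl : LevOk n lev) (Z w : Cf T I → ℝ) (hw : ∀ ω, w ω ^ 2 = 1) (a : R → ℝ)
    {Λ Λ' θ γ Γ : ℝ} {g : ℝ → ℝ} (hc : Cut Λ θ γ g) (hΛ : 1 ≤ Λ) (hΛ' : Λ + 2 ≤ Λ') (h2 : |θ| ≤ Γ)
    (h3 : |γ| ≤ Γ) :
    |Xv n lev (fun ω => Z (pull Sum.inl ω) + g (sg a (ω.1 ∘ Sum.inr) * w (pull Sum.inl ω))) -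
      Xv n lev (fun ω => Z (pull Sum.inl ω) +
        max (qd θ γ (sg a (ω.1 ∘ Sum.inr) * w (pull Sum.inl ω))) (-Λ'))| ≤
      exp 2 * Γ ^ 2 / Λ * (9 / 2 * (∑ r, a r ^ 2) ^ 2 + 1) := by
  have ok := (hR.ok (I := I) n lev hn).1
  set t : Cf (T ⊕ R) I → ℝ := fun ω => sg a (ω.1 ∘ Sum.inr) * w (pull Sum.inl ω) with ht
  set Z1 : Cf (T ⊕ R) I → ℝ := fun ω => Z (pull Sum.inl ω) + g (t ω) with hZ1
  set Z2 : Cf (T ⊕ R) I → ℝ := fun ω => Z (pull Sum.inl ω) + max (qd θ γ (t ω)) (-Λ') with hZ2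
  set Z0 : Cf (T ⊕ R) I → ℝ := fun ω => Z (pull Sum.inl ω) - (Λ + 2) with hZ0
  set h : Cf (T ⊕ R) I → ℝ := fun ω => g (t ω) - max (qd θ γ (t ω)) (-Λ') with hh
  set A : Cf (T ⊕ R) I → ℝ := fun ω => g (t ω) + Λ + 2 with hAd
  have h0 : ∀ ω, 0 ≤ h ω := fun ω =>
    sub_nonneg.2 (max_le (hc _).1 (by linarith [(hc (t ω)).2.1]))
  have A0 : ∀ ω, 0 ≤ A ω := fun ω => by
    simp only [hAd]; linarith [(hc (t ω)).2.1]
  have a1 : Xv n lev Z2 ≤ Xv n lev Z1 + 0 :=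
    hA.xle ok (fun ω => by have := h0 ω; simp only [hh, hZ1, hZ2] at *; linarith) _ le_rfl _
  have a2 := hA.xlow ok Z1 (-h) (n + 1) le_rfl (w0 _ _)
  have e1 : Z1 + -h = Z2 := by
    funext ω; simp only [hZ1, hZ2, hh, Pi.add_apply, Pi.neg_apply]; ring
  rw [e1, map_neg, Pi.neg_apply] at a2
  have a3 := hQ.lowb n ok Z0 A h A0 h0 (w0 _ _)
  have e2 : Z0 + A = Z1 := by
    funext ω; simp only [hZ1, hZ0, hAd, Pi.add_apply]; ring
  rw [e2] at a3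
  have a4 : XX (ch lev) (ex n) Z0 (n + 1) (w0 _ _) ≤ XX (ch lev) (ex n) Z1 (n + 1) (w0 _ _) + 0 :=
    hA.xle ok (fun ω => by rw [← e2, Pi.add_apply]; linarith [A0 ω]) _ le_rfl _
  have a5 : 1 ≤ exp ((XX (ch lev) (ex n) Z1 (n + 1) (w0 _ _) -
      XX (ch lev) (ex n) Z0 (n + 1) (w0 _ _)) / n) :=
    one_le_exp (div_nonneg (by linarith) (by positivity))
  have a6 : 0 ≤ Ce (ch lev) (ex n) Z1 0 (n + 1) h (w0 _ _) :=
    (hA.ce ok Z1 0 (n + 1) le_rfl).1 h h0 _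
  have hΛ0 : 0 < Λ := by linarith
  have a7 : Ce (ch lev) (ex n) Z0 0 (n + 1) (fun x => exp (A x) * h x) (w0 _ _) ≤
      Ce (ch lev) (ex n) Z0 0 (n + 1)
        (fun ω => exp 2 * Γ ^ 2 / Λ * (3 / 2 * sg a (ω.1 ∘ Sum.inr) ^ 4 + 1)) (w0 _ _) := by
    refine hA.mono' (hA.ce ok Z0 0 (n + 1) le_rfl) (fun ω => ?_) _
    have b1 := excess (Λ' := Λ') hc hΛ h2 h3 (t ω)
    have b2 : t ω ^ 4 = sg a (ω.1 ∘ Sum.inr) ^ 4 := by
      have : w (pull Sum.inl ω) ^ 4 = 1 := by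
        rw [show (4 : ℕ) = 2 * 2 from rfl, pow_mul, hw, one_pow]
      simp only [ht, mul_pow, this, mul_one]
    rw [b2] at b1
    exact b1
  have a8 := mom hA hR hQ hn lev hl (fun ω => Z ω - (Λ + 2)) a (exp 2 * Γ ^ 2 / Λ) (by positivity)
  unfold Ev at a8
  have a9 : Ce (ch lev) (ex n) Z1 0 (n + 1) h (w0 _ _) ≤
      exp 2 * Γ ^ 2 / Λ * (9 / 2 * (∑ r, a r ^ 2) ^ 2 + 1) := by
    have := le_mul_of_one_le_left a6 a5
    exact this.trans (a3.trans (a7.trans a8))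
  have a10 : 0 ≤ exp 2 * Γ ^ 2 / Λ * (9 / 2 * (∑ r, a r ^ 2) ^ 2 + 1) := by positivity
  unfold Xv at a1 ⊢
  exact abs_le.2 ⟨by linarith, by linarith⟩

end

theorem path' (hT : TApi) {n : ℕ} {p : ℕ → ℝ} {θ γ Γ : ℝ} (hp : Path n p) (hθ : 0 ≤ θ)
    (h3 : |γ| ≤ Γ) (h4 : p 0 ≤ Γ) :
    Path n (fun d => γ ^ 2 * fp n (ph θ) p d) ∧ γ ^ 2 * fp n (ph θ) p 0 ≤ Γ ^ 3 := by
  have hm : MonotoneOn (ph θ) (Set.Icc 0 (p 0)) := fun x hx x' _ hxx =>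
    sub_nonneg.1 (hT.phl θ θ x x' hθ hθ hx.1 hxx).1
  have h1 := hT.fp_path hp hm
  refine ⟨⟨fun d hd => mul_le_mul_of_nonneg_left (h1.1 d hd) (sq_nonneg _), ?_⟩, ?_⟩
  · simp only [h1.2, mul_zero]
  · have h2 := (hT.lip (f := ph θ) (L := 1) hp fun x x' hx hxx _ => by
      have := hT.phl θ θ x x' hθ hθ hx hxx
      rw [abs_of_nonneg this.1, one_mul]
      exact this.2.1).1
    rw [hT.fp_zero]
    have a1 : γ ^ 2 ≤ Γ ^ 2 := sq_le_sq' (abs_le.1 h3).1 (abs_le.1 h3).2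
    have a2 : tr n (ph θ) p ≤ Γ := by linarith [(abs_le.1 h2).2]
    have a3 : 0 ≤ Γ := (abs_nonneg _).trans h3
    calc _ ≤ γ ^ 2 * Γ := mul_le_mul_of_nonneg_left a2 (sq_nonneg _)
      _ ≤ Γ ^ 2 * Γ := mul_le_mul_of_nonneg_right a1 a3
      _ = _ := by ring

end Qo

theorem qoStmt (hA : AApi) (hR : RApi) (hQ : QApi) (hT : TApi) (hB : BrgStmt) (hI : GidStmt)
    (hG' : GtrStmt) : QoStmt := by
  intro θ0 Γ ε h0 hε
  set C := exp 2 * Γ ^ 2 * (9 / 2 * (Γ + 1) ^ 2 + 1) with hC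
  refine ⟨max 1 (4 * C / ε), le_max_left _ _, fun Λ hΛ n B hn => ?_⟩
  have hΛ1 : 1 ≤ Λ := (le_max_left _ _).trans hΛ
  have hΛ2 : 4 * C / ε ≤ Λ := (le_max_right _ _).trans hΛ
  have hε4 : 0 < ε / 4 := by linarith
  have hn0 : (0 : ℝ) < n := by exact_mod_cast hn
  obtain ⟨Λg, hΛg⟩ := hG' n θ0 Γ (ε / 4) hn h0 hε4
  set L := max (Λ + 2) Λg with hL
  have hL1 : Λ + 2 ≤ L := le_max_left _ _
  obtain ⟨η1, hη1, hB1⟩ := hB n (Γ * (2 * (L + Γ) / θ0 + 3) + L) Γ (ε / 4) hn hε4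
  obtain ⟨η2, hη2, hB2⟩ := hB n 1 (Γ ^ 3) (ε / 4) hn hε4
  refine ⟨min (min η1 η2) (1 / n), lt_min (lt_min hη1 hη2) (by positivity), ?_⟩
  intro T I R R' _ _ _ _ _ _ _ _ lev Z w θ γ p g g1 g2 lv a lv' a' hl hw hθ1 hθ2 hγ hp hp0 _ hc
    hm hm'
  have hθ : 0 ≤ θ := by linarith
  have ok := (hR.ok (I := I) n lev hn).1
  have hl1 : LevOk n (Sum.elim lev lv) := fun s => by
    rcases s with s | s
    · exact hl s
    · exact hm.1 s
  have s1 := Qo.cut hA hR hQ hn (Sum.elim lev lv) hl1 Z w hw a hc hΛ1 hL1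
    (by rw [abs_of_nonneg hθ]; exact hθ2) hγ
  have s1' : exp 2 * Γ ^ 2 / Λ * (9 / 2 * (∑ r, a r ^ 2) ^ 2 + 1) ≤ ε / 4 := by
    have b1 := Qo.mic_sum (Qo.mic_mono hm (min_le_right _ _)) hp
    rw [mul_one_div_cancel hn0.ne'] at b1
    have b2 : (∑ r, a r ^ 2) ^ 2 ≤ (Γ + 1) ^ 2 :=
      pow_le_pow_left₀ (sum_nonneg fun _ _ => sq_nonneg _) (by linarith) 2
    have hΛ0 : 0 < Λ := by linarith
    rw [div_le_iff₀ hε] at hΛ2
    calc _ ≤ exp 2 * Γ ^ 2 / Λ * (9 / 2 * (Γ + 1) ^ 2 + 1) := by gcongr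
      _ = C / Λ := by rw [hC]; ring
      _ ≤ ε / 4 := by rw [div_le_iff₀ hΛ0]; linarith
  have s2 := hB1 T I R lev (fun ω x => Z ω + max (qd θ γ (x * w ω)) (-L)) p lv a
    (fun ω t h => by
      have := Qo.lip2 (L := L) h0 (by linarith) hθ1 hθ2 hγ ((t + h) * w ω) (t * w ω)
      rw [← sub_mul, abs_mul, Qo.absw (hw ω), add_sub_cancel_left, mul_one] at this
      rw [add_sub_add_left_eq_sub]
      exact this) hp hp0 (Qo.mic_mono hm ((min_le_left _ _).trans (min_le_left _ _)))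
  have s3 := hΛg L (le_max_right _ _) _ (ch lev) Z w θ γ p (w0 T I) ok hw hθ1 hθ2 hγ hp hp0
  have s4 := hI _ (ch lev) n Z w θ γ p (w0 T I) hn ok hw hθ hp
  have s5p := Qo.path' hT hp hθ hγ hp0
  have s5 := hB2 T I R' lev (fun ω x => Z ω + x * w ω) _ lv' a'
    (fun ω t h => by
      rw [add_sub_add_left_eq_sub, ← sub_mul, abs_mul, Qo.absw (hw ω), add_sub_cancel_left,
        mul_one, one_mul]) s5p.1 s5p.2
    (Qo.mic_mono hm' ((min_le_left _ _).trans (min_le_right _ _)))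
  have t1 := abs_le.1 (s1.trans s1')
  have t2 := abs_le.1 s2
  have t3 := abs_le.1 s3
  have t5 := abs_le.1 s5
  exact abs_le.2 ⟨by linarith [t1.1, t2.1, t3.1, t5.2], by linarith [t1.2, t2.2, t3.2, t5.1]⟩

end Vale.Agent.P166
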