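import Vale.Agent.P166.Stm

/-! P166, module R: the recording model. -/

namespace Vale.Agent.P166

open Finset Real Vale.Agent.P157

namespace R

noncomputable def av {A : Type} [Fintype A] (G : A → ℝ) : ℝ := (∑ a, G a) / (Fintype.card A : ℝ)

lemma av_hom {A B : Type} [Fintype A] [Fintype B] [AddGroup A] [AddGroup B] (φ : A → B)
    (h : ∀ c, ∃ a0, ∀ a, φ (a + a0) = φ a + c) (G : B → ℝ) : av (fun a => G (φ a)) = av G := by
  have hA : (Fintype.card A : ℝ) ≠ 0 := by exact_mod_cast Fintype.card_ne_zero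
  have hB : (Fintype.card B : ℝ) ≠ 0 := by exact_mod_cast Fintype.card_ne_zero
  have h1 : ∀ c, ∑ a, G (φ a + c) = ∑ a, G (φ a) := fun c => by
    obtain ⟨a0, h0⟩ := h c
    simp only [← h0]
    exact Equiv.sum_comp (Equiv.addRight a0) fun a => G (φ a)
  have h2 : ∀ b, ∑ c, G (b + c) = ∑ c, G c := fun b => Equiv.sum_comp (Equiv.addLeft b) G
  have h3 : ∑ c : B, ∑ a, G (φ a + c) = ∑ a : A, ∑ c, G (φ a + c) := sum_comm
  simp only [h1, h2, sum_const, card_univ, nsmul_eq_mul] at h3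
  unfold av
  rw [div_eq_div_iff hA hB]
  linarith

lemma av_prod {A B : Type} [Fintype A] [Fintype B] (G : A → B → ℝ) :
    av (fun a => av (G a)) = av (fun p : A × B => G p.1 p.2) := by
  unfold av
  rw [Fintype.sum_prod_type', ← sum_div, Fintype.card_prod, Nat.cast_mul, div_div, mul_comm]

lemma av_mul {A B : Type} [Fintype A] [Fintype B] (G : A → ℝ) (G' : B → ℝ) :
    av (fun p : A × B => G p.1 * G' p.2) = av G * av G' := by
  unfold av
  rw [Fintype.sum_prod_type' fun a b => G a * G' b, ← sum_mul_sum, Fintype.card_prod, Nat.cast_mul,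
    div_mul_div_comm]

lemma av_emb {T T' : Type} [Fintype T] [DecidableEq T] [Fintype T'] [DecidableEq T'] {f : T → T'}
    (hf : Function.Injective f) (G : (T → Bool) → ℝ) :
    av (fun e : T' → Bool => G (e ∘ f)) = av G :=
  av_hom (fun e : T' → Bool => e ∘ f) (fun c => ⟨Function.extend f c 0, fun e => by
    funext s; simp [hf.extend_apply]⟩) G

variable {T I : Type} [Fintype T] [DecidableEq T] [Fintype I] [DecidableEq I]

def rs (lev : T → ℕ) (d : ℕ) (e w : T → Bool) : T → Bool := fun s => if lev s = d then e s else w s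

lemma ch_zero (lev : T → ℕ) (g : Cf T I → ℝ) (ω : Cf T I) :
    ch lev 0 g ω = av fun σ => g (ω.1, σ) := rfl

lemma ch_succ (lev : T → ℕ) (d : ℕ) (g : Cf T I → ℝ) (ω : Cf T I) :
    ch lev (d + 1) g ω = av fun e => g (rs lev d e ω.1, ω.2) := rfl

lemma av_mk {A : Type} [Fintype A] [Nonempty A] :
    (∀ G : A → ℝ, (∀ a, 0 ≤ G a) → 0 ≤ av G) ∧ av (fun _ : A => (1 : ℝ)) = 1 :=
  ⟨fun _ h => div_nonneg (sum_nonneg fun a _ => h a) (Nat.cast_nonneg _), by simp [av]⟩

lemma mk_ch (lev : T → ℕ) : ∀ j, Mk (ch (I := I) lev j)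
  | 0 => ⟨fun _ h _ => av_mk.1 _ fun _ => h _, fun _ => av_mk.2⟩
  | _ + 1 => ⟨fun _ h _ => av_mk.1 _ fun _ => h _, fun _ => av_mk.2⟩

lemma ok (n : ℕ) (lev : T → ℕ) (hn : 1 ≤ n) : Ok (ch (I := I) lev) (ex n) (n + 1) := by
  have h0 : (0 : ℝ) < n := by exact_mod_cast hn
  refine ⟨mk_ch lev, fun j hj => ?_, fun j _ => ?_, fun j _ => ?_⟩
  · rcases j with _ | d
    · exact one_pos
    · have : (d : ℝ) < n := by exact_mod_cast (by omega : d < n)
      exact sub_pos.2 ((div_lt_one h0).2 this)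
  · rcases j with _ | d
    · exact le_rfl
    · exact sub_le_self _ (by positivity)
  · rcases j with _ | d
    · simp [ex]
    · simp only [ex]
      gcongr
      omega

lemma fil (lev : T → ℕ) : Fil (ch (I := I) lev) (rl lev) where
  refl d ω := by
    rcases d with _ | d
    · exact rfl
    · exact fun _ _ => rfl
  symm d ω ω' h := by
    rcases d with _ | d
    · exact Eq.symm h
    · exact fun s hs => (h s hs).symm
  trans d ω ω' ω'' h h' := by
    rcases d with _ | d
    · exact Eq.trans h h'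
    · exact fun s hs => (h s hs).trans (h' s hs)
  zero _ _ h := h
  mono d ω ω' h := by
    rcases d with _ | d
    · exact fun s _ => by rw [show ω = ω' from h]
    · exact fun s hs => h s (by omega)
  supp d u u' ω h := by
    rcases d with _ | d
    · exact congrArg av (funext fun σ => h _ fun _ _ => rfl)
    · exact congrArg av (funext fun e => h _ fun s hs => (if_neg (by omega)).symm)
  dep d u hu ω ω' h := by
    rcases d with _ | d
    · rw [ch_zero, ch_zero, show ω.1 = ω'.1 from funext fun s => h s (Nat.zero_le _)]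
    · refine congrArg av (funext fun e => hu _ _ fun s hs => ?_)
      simp only [rs]
      split_ifs with h1
      · rfl
      · exact h s (by omega)

lemma ch_pos (hA : AApi) (lev : T → ℕ) (j : ℕ) (g : Cf T I → ℝ) (ω : Cf T I) :
    0 < ch lev j (fun x => exp (g x)) ω := (exp_pos _).trans_le (hA.jen (mk_ch lev j) g ω)

/-- a constant intertwining map fixing the base point -/
lemma tw0 (hA : AApi) {T' I' : Type} [Fintype T'] [DecidableEq T'] [Fintype I'] [DecidableEq I']
    (n : ℕ) (lev : T → ℕ) (lev' : T' → ℕ) (θ : Cf T' I' → Cf T I) (h0 : θ (w0 T' I') = w0 T I)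
    (h : ∀ j (g : Cf T I → ℝ) ω, ch lev' j (fun x => g (θ x)) ω = ch lev j g (θ ω))
    (Z : Cf T I → ℝ) : Xv n lev' (fun ω => Z (θ ω)) = Xv n lev Z ∧
      (∀ g, Ev n lev' (fun ω => Z (θ ω)) (fun ω => g (θ ω)) = Ev n lev Z g) ∧
      ∀ d, d ≤ n → ∀ φ, Ew n lev' (fun ω => Z (θ ω)) d (fun ω ω' => φ (θ ω) (θ ω')) =
        Ew n lev Z d φ := by
  obtain ⟨h1, h2, h3⟩ := hA.tw (ex n) (n + 1) (fun _ => θ) (fun j _ => h j) Z
  unfold Xv Ev Ew
  rw [← h0]
  exact ⟨h1 _ le_rfl _, fun g => h2 0 _ (Nat.zero_le _) le_rfl g _,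
    fun d hd φ => h3 _ (by omega) φ _⟩

lemma rsl_emb {T' : Type} [Fintype T'] [DecidableEq T'] {lev : T → ℕ} {lev' : T' → ℕ} {f : T → T'}
    (hf : Emb lev lev' f) (d : ℕ) (G : (T → Bool) → ℝ) (w : T' → Bool) :
    av (fun e => G (rs lev' d e w ∘ f)) = av fun e => G (rs lev d e (w ∘ f)) := by
  rw [← av_emb hf.1 fun e => G (rs lev d e (w ∘ f))]
  refine congrArg av (funext fun e => congrArg G (funext fun s => ?_))
  simp only [rs, Function.comp_apply, hf.2]

def fl (s : T) (ω : Cf T I) : Cf T I := (Function.update ω.1 s (!ω.1 s), ω.2)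

lemma tw_flip (hA : AApi) (n : ℕ) (lev : T → ℕ) (s : T) (Z : Cf T I → ℝ) (hZ : Idp {s} Z) :
    (∀ b, lev s + 1 < b → b ≤ n + 1 → ∀ (g : Cf T I → ℝ) ω,
      Ce (ch lev) (ex n) Z 0 b (fun x => g (fl s x)) ω = Ce (ch lev) (ex n) Z 0 b g ω) ∧
    (lev s < n → ∀ l, l ≤ n + 1 → ∀ (φ : Cf T I → Cf T I → ℝ) ω,
      E2 (ch lev) (ex n) Z l (n + 1) (fun x x' => φ (fl s x) (fl s x')) ω =
        E2 (ch lev) (ex n) Z l (n + 1) φ ω) := by
  obtain ⟨-, h2, h3⟩ := hA.tw (P := ch lev) (P' := ch lev) (ex n) (n + 1)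
    (fun j => if j ≤ lev s + 1 then fl s else id) (fun j _ g ω => by
      rcases lt_trichotomy j (lev s + 1) with h | h | h
      · rw [if_pos h.le, if_pos (by omega)]
        rcases j with _ | d
        · rfl
        · refine congrArg av (funext fun e => congrArg g (Prod.ext (funext fun s' => ?_) rfl))
          by_cases hs : s' = s
          · subst hs
            simp [fl, rs, show lev s' ≠ d by omega]
          · simp [fl, rs, hs]
      · subst h
        rw [if_pos le_rfl, if_neg (by omega), ch_succ, ch_succ, id,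
          ← av_hom (fun e => e + Pi.single s true) (fun c => ⟨c, fun e => add_right_comm _ _ _⟩)
            fun e => g (rs lev (lev s) e ω.1, ω.2)]
        refine congrArg av (funext fun e => congrArg g (Prod.ext (funext fun s' => ?_) rfl))
        by_cases hs : s' = s
        · subst hs
          simp only [fl, rs, if_true, Function.update_self, Pi.add_apply, Pi.single_eq_same]
          cases e s' <;> rfl
        · simp [fl, rs, hs]
      · rw [if_neg (by omega), if_neg (by omega)]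
        rfl) Z
  have e : (fun x => Z (fl s x)) = Z := funext fun x => hZ _ _ _ fun s' hs' =>
    Function.update_of_ne (by simpa using hs') _ _
  simp only [Nat.zero_le, if_true, e] at h2 h3
  refine ⟨fun b hb hb' g ω => ?_, fun hs l hl φ ω => ?_⟩
  · have := h2 0 b (Nat.zero_le _) hb' g ω
    simpa only [Nat.zero_le, if_true, if_neg (not_le.2 hb), id] using this
  · have := h3 l hl φ ω
    simpa only [if_neg (show ¬ n + 1 ≤ lev s + 1 by omega), id] using this

lemma xx_two (hA : AApi) (n : ℕ) (lev : T → ℕ) (Z : Cf T I → ℝ) (ω : Cf T I) :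
    XX (ch lev) (ex n) Z 2 ω =
      log (av fun p : (T → Bool) × (I → Bool) => exp (Z (rs lev 0 p.1 ω.1, p.2))) := by
  have h1 : ∀ x, exp (XX (ch lev) (ex n) Z 1 x) = av fun σ => exp (Z (x.1, σ)) := fun x => by
    simp only [XX, ex, inv_one, one_mul]
    rw [exp_log (ch_pos hA lev 0 Z x), ch_zero]
  have h2 : ex n 1 = 1 := by simp [ex]
  rw [XX, h2]
  simp only [inv_one, one_mul, h1]
  rw [ch_succ, av_prod fun e σ => exp (Z (rs lev 0 e ω.1, σ))]

lemma last (hA : AApi) (n N : ℕ) (lev : T → ℕ) (Z : Cf T (Fin (N + 1)) → ℝ) (hn : 1 ≤ n) :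
    Xv n lev Z = Xv n (Sum.elim lev (fun _ : Unit => 0))
      (fun ω : Cf (T ⊕ Unit) (Fin N) => Z (ω.1 ∘ Sum.inl, Fin.snoc ω.2 (ω.1 (Sum.inr ())))) := by
  obtain ⟨k, rfl⟩ : ∃ k, n = 1 + k := ⟨n - 1, by omega⟩
  have hE : Emb lev (Sum.elim lev fun _ : Unit => 0) Sum.inl := ⟨Sum.inl_injective, fun _ => rfl⟩
  let θ : Cf (T ⊕ Unit) (Fin N) → Cf T (Fin (N + 1)) := fun ω => (ω.1 ∘ Sum.inl, fun _ => true)
  have h1 : XX (ch (Sum.elim lev fun _ : Unit => 0)) (ex (1 + k))
      (fun ω : Cf (T ⊕ Unit) (Fin N) => Z (ω.1 ∘ Sum.inl, Fin.snoc ω.2 (ω.1 (Sum.inr ())))) 2 =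
      fun ω => XX (ch lev) (ex (1 + k)) Z 2 (θ ω) := by
    funext ω
    rw [xx_two hA, xx_two hA, ← av_hom
      (fun p : (T ⊕ Unit → Bool) × (Fin N → Bool) =>
        ((p.1 ∘ Sum.inl, Fin.snoc p.2 (p.1 (Sum.inr ()))) : (T → Bool) × (Fin (N + 1) → Bool)))
      (fun c => ⟨(Sum.elim c.1 fun _ => c.2 (Fin.last N), Fin.init c.2), fun p => ?_⟩)
      fun p => exp (Z (rs lev 0 p.1 (θ ω).1, p.2))]
    · rfl
    · refine Prod.ext rfl (funext fun i => ?_)
      refine Fin.lastCases ?_ (fun i => ?_) i <;> simp [Fin.init]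
  have h2 := (hA.tw (P := fun j => ch (I := Fin (N + 1)) lev (2 + j))
    (P' := fun j => ch (I := Fin N) (Sum.elim lev fun _ : Unit => 0) (2 + j))
    (fun j => ex (1 + k) (2 + j)) k (fun _ => θ) (fun j _ g ω => by
      rw [add_comm 2 j]
      exact rsl_emb hE (j + 1) (fun e => g (e, fun _ => true)) ω.1)
    (XX (ch lev) (ex (1 + k)) Z 2)).1 k le_rfl (w0 _ _)
  rw [← h1, (hA.shift _ _ _ 2).1, (hA.shift _ _ _ 2).1, show 2 + k = 1 + k + 1 by omega] at h2
  exact h2.symm

lemma exp_top (hA : AApi) (k : ℕ) (lev : T → ℕ) (Z : Cf T I → ℝ) :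
    exp (Xv (k + 1) lev Z / (k + 1 : ℕ)) = av fun e => exp (ex (k + 1) (k + 1) *
      XX (ch lev) (ex (k + 1)) Z (k + 1) (rs lev k e fun _ => true, fun _ => true)) := by
  have h0 : ((k + 1 : ℕ) : ℝ) ≠ 0 := by positivity
  have h1 : (ex (k + 1) (k + 1))⁻¹ = (k + 1 : ℕ) := by
    have : ex (k + 1) (k + 1) = ((k + 1 : ℕ) : ℝ)⁻¹ := by
      simp only [ex]; push_cast; field_simp; ring
    rw [this, inv_inv]
  rw [Xv, XX, h1, mul_div_cancel_left₀ _ h0, exp_log (ch_pos hA lev _ _ _)]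
  rfl

lemma top (hA : AApi) (n : ℕ) (lev : T → ℕ) (A : Finset T) (Z : Cf T I → ℝ) (hn : 1 ≤ n)
    (hl : ∀ s ∈ A, lev s = n - 1) : exp (Xv n lev Z / n) =
      av fun e : T → Bool => exp (Xv n lev (fun ω => Z (frz A e ω)) / n) := by
  obtain ⟨k, rfl⟩ : ∃ k, n = k + 1 := ⟨n - 1, by omega⟩
  have h1 : ∀ e ω, XX (ch lev) (ex (k + 1)) (fun ω => Z (frz A e ω)) (k + 1) ω =
      XX (ch lev) (ex (k + 1)) Z (k + 1) (frz A e ω) := fun e =>
    (hA.tw (P := ch lev) (P' := ch lev) (ex (k + 1)) (k + 1) (fun _ => frz A e) (fun j hj g ω => by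
      rcases j with _ | d
      · rfl
      · refine congrArg av (funext fun e' => congrArg g (Prod.ext (funext fun s => ?_) rfl))
        by_cases hs : s ∈ A
        · have := hl s hs
          simp [frz, rs, hs, show lev s ≠ d by omega]
        · simp [frz, rs, hs]) Z).1 _ le_rfl
  simp only [exp_top hA, h1]
  rw [av_prod fun e e' : T → Bool => exp (ex (k + 1) (k + 1) * XX (ch lev) (ex (k + 1)) Z (k + 1)
      (frz A e (rs lev k e' fun _ => true, fun _ => true))),
    ← av_hom (fun (p : (T → Bool) × (T → Bool)) s => if s ∈ A then p.1 s else p.2 s)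
      (fun c => ⟨(c, c), fun p => funext fun s => by
        by_cases hs : s ∈ A <;> simp [hs]⟩)]
  refine congrArg av (funext fun p => ?_)
  congr 3
  refine Prod.ext (funext fun s => ?_) rfl
  by_cases hs : s ∈ A
  · simp [frz, rs, hs, hl s hs]
  · simp [frz, rs, hs]

lemma ch_prod {T' : Type} [Fintype T'] [DecidableEq T'] (lev : T → ℕ) (lev' : T' → ℕ) (j : ℕ)
    (g1 : Cf T I → ℝ) (g2 : Cf T' Empty → ℝ) (ω : Cf (T ⊕ T') I) :
    ch (Sum.elim lev lev') j (fun x => g1 (pull Sum.inl x) * g2 (x.1 ∘ Sum.inr, fun _ => true)) ω =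
      ch lev j g1 (pull Sum.inl ω) * ch lev' j g2 (ω.1 ∘ Sum.inr, fun _ => true) := by
  rcases j with _ | d
  · have h : (av fun σ : Empty → Bool => g2 (ω.1 ∘ Sum.inr, σ)) =
        g2 (ω.1 ∘ Sum.inr, fun _ => true) := by
      unfold av
      rw [Fintype.sum_subsingleton _ fun _ => true]
      simp
    rw [ch_zero, ch_zero, ch_zero, h]
    unfold av
    rw [div_mul_eq_mul_div, sum_mul]
    rfl
  · rw [ch_succ, ch_succ, ch_succ, ← av_mul, ← av_hom
      (fun e : T ⊕ T' → Bool => ((e ∘ Sum.inl, e ∘ Sum.inr) : (T → Bool) × (T' → Bool)))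
      fun c => ⟨Sum.elim c.1 c.2, fun _ => rfl⟩]
    rfl

lemma empty (hA : AApi) (n : ℕ) (lev : T → ℕ) (H : (I → Bool) → ℝ) (hn : 1 ≤ n) :
    ∀ j, j ≤ n → ∀ ω, XX (ch lev) (ex n) (fun ω : Cf T I => H ω.2) (j + 1) ω =
      log ((∑ σ, exp (H σ)) / 2 ^ Fintype.card I)
  | 0, _, ω => by
      simp only [XX, ex, inv_one, one_mul]
      rw [ch_zero]
      simp [av]
  | j + 1, hj, ω => by
      have h := ((ok (I := I) n lev hn).pos (j + 1) (by omega)).ne'
      rw [XX]
      simp only [empty hA n lev H hn j (by omega)]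
      rw [hA.const (mk_ch lev _), log_exp, inv_mul_cancel_left₀ h]

section
variable {X : Type} [TopologicalSpace X]

lemma cont_ch (lev : T → ℕ) (j : ℕ) {F : X → Cf T I → ℝ} (hF : ∀ ω, Continuous fun x => F x ω)
    (ω : Cf T I) : Continuous fun x => ch lev j (F x) ω := by
  rcases j with _ | d
  · exact (continuous_finsetSum _ fun _ _ => hF _).div_const _
  · exact (continuous_finsetSum _ fun _ _ => hF _).div_const _

lemma cont_xx (hA : AApi) (n : ℕ) (lev : T → ℕ) {Z : X → Cf T I → ℝ}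
    (hZ : ∀ ω, Continuous fun x => Z x ω) :
    ∀ j ω, Continuous fun x => XX (ch lev) (ex n) (Z x) j ω
  | 0, ω => hZ ω
  | j + 1, ω => ((cont_ch lev j (F := fun x ω' => exp (ex n j * XX (ch lev) (ex n) (Z x) j ω'))
      (fun ω' => continuous_exp.comp ((cont_xx hA n lev hZ j ω').const_mul _)) ω).log
        fun _ => (ch_pos hA lev j _ ω).ne').const_mul _

lemma cont_ce (hA : AApi) (n : ℕ) (lev : T → ℕ) {Z g : X → Cf T I → ℝ}
    (hZ : ∀ ω, Continuous fun x => Z x ω) (hg : ∀ ω, Continuous fun x => g x ω) (a : ℕ) :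
    ∀ b ω, Continuous fun x => Ce (ch lev) (ex n) (Z x) a b (g x) ω
  | 0, ω => hg ω
  | b + 1, ω => by
      by_cases h : a ≤ b
      · simp only [Ce, if_pos h]
        exact (continuous_exp.comp ((cont_xx hA n lev hZ (b + 1) ω).const_mul _).neg).mul
          (cont_ch lev b (F := fun x ω' => exp (ex n b * XX (ch lev) (ex n) (Z x) b ω') *
            Ce (ch lev) (ex n) (Z x) a b (g x) ω') (fun ω' => (continuous_exp.comp
              ((cont_xx hA n lev hZ b ω').const_mul _)).mul (cont_ce hA n lev hZ hg a b ω')) ω)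
      · simp only [Ce, if_neg h]
        exact hg ω

end

end R

open R in
theorem rApi (hA : AApi) (hF : FApi) : RApi where
  ok n lev hn := ⟨ok n lev hn, fil lev⟩
  any n lev hl Z g ω :=
    ⟨hF.depX (fil lev) _ Z _ _ _ fun s hs => absurd (hl s) (not_lt.2 hs),
      hF.depC (fil lev) _ Z (Nat.zero_le _) (fun _ _ h => congrArg g h) _ _
        fun s hs => absurd (hl s) (not_lt.2 hs)⟩
  emb n lev lev' f hf Z := tw0 hA n lev lev' (pull f) rfl (fun j g ω => by
    rcases j with _ | d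
    · rfl
    · exact rsl_emb hf d (fun e => g (e, ω.2)) ω.1) Z
  site n lev pm Z := tw0 hA n lev lev (fun ω => (ω.1, ω.2 ∘ pm)) rfl (fun j g ω => by
    rcases j with _ | d
    · exact av_emb pm.injective fun σ => g (ω.1, σ)
    · rfl) Z
  flip n lev s Z hl hZ := by
    obtain ⟨h1, h2⟩ := tw_flip hA n lev s Z hZ
    refine ⟨fun g => h1 _ (by have := hl s; omega) le_rfl g _,
      fun d hd φ => ⟨h2 (hl s) _ (by omega) φ _, fun hs => ?_⟩⟩
    unfold Ew E2
    refine congrArg (fun G => Ce (ch lev) (ex n) Z (d + 1) (n + 1) G (w0 _ _)) (funext fun ω => ?_)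
    exact h1 (d + 1) (by omega) (by omega)
      (fun ω1 => Ce (ch lev) (ex n) Z 0 (d + 1) (fun ω2 => φ ω1 ω2) ω) ω
  last n N lev Z hn := last hA n N lev Z hn
  top n lev A Z hn hl := top hA n lev A Z hn hl
  prod := fun {T T' I} _ _ _ _ _ _ n lev lev' Z Z' hn => by
    obtain ⟨h1, h2, h3⟩ := hA.prod (P := ch (I := I) (Sum.elim lev lev')) (ok n lev hn)
      (ok (I := Empty) n lev' hn) (pull Sum.inl) (fun x => (x.1 ∘ Sum.inr, fun _ => true))
      (fun j _ => ch_prod lev lev' j) Z fun ω => Z' ω.1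
    refine ⟨h1 _ le_rfl _, fun g => ?_, fun d hd φ => ?_⟩
    · have := h2 0 _ le_rfl g (fun _ => 1) (w0 _ _)
      rw [(hA.ce (ok (I := Empty) n lev' hn) _ 0 _ le_rfl).2] at this
      simp only [mul_one] at this
      exact this
    · have := h3 (d + 1) (by omega) φ (fun _ _ => 1) (w0 _ _)
      rw [hA.e2const (ok (I := Empty) n lev' hn) _ _ (by omega)] at this
      simp only [mul_one] at this
      exact this
  empty n lev H hn := empty hA n lev H hn n le_rfl _
  cont n lev Z g φ _ hZ := ⟨fun j ω _ => cont_xx hA n lev hZ j ω,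
    fun hg a b ω _ => cont_ce hA n lev hZ hg a b ω, fun hφ d _ =>
      cont_ce hA n lev hZ (fun ω => cont_ce hA n lev hZ
        (fun ω1 => cont_ce hA n lev hZ (fun ω2 => hφ ω1 ω2) 0 (d + 1) ω) 0 (d + 1) ω) _ _ _⟩

end Vale.Agent.P166
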