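import Vale.Agent.P166.Stm

/-! P166: the overlap of a lower class. -/

namespace Vale.Agent.P166

open MeasureTheory ProbabilityTheory Finset Real Filter Topology Vale.Agent.P157

namespace Rel

theorem spin_sq (b : Bool) : spin b ^ 2 = 1 := by cases b <;> simp [spin]

theorem mic_mono {R : Type} [Fintype R] {n : ℕ} {lv : R → ℕ} {a : R → ℝ} {p : ℕ → ℝ} {η η' : ℝ}
    (h : Mic n lv a p η) (hη : η ≤ η') : Mic n lv a p η' :=
  ⟨h.1, fun r => (h.2.1 r).trans hη, fun d hd => (h.2.2 d hd).trans hη⟩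

theorem trd (hT : TApi) {n : ℕ} {p : ℕ → ℝ} (hp : Path n p) {a b : ℝ} (ha : 0 ≤ a) (hb : 0 ≤ b) :
    |tr n (lg a) p - tr n (lg b) p| ≤ |a - b| / 2 * p 0 := by
  have h1 := (hT.lip (f := fun x => 1 * lg a x + (-1) * lg b x + 0) (L := |a - b| / 2) hp
    (fun x x' hx hxx _ => by
      have := (hT.phl a b x x' ha hb hx hxx).2.2.2.2
      rwa [show 1 * lg a x' + -1 * lg b x' + 0 - (1 * lg a x + -1 * lg b x + 0) =
        lg a x' - lg b x' - (lg a x - lg b x) by ring])).1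
  rw [← hT.fp_zero, hT.fp_lin, hT.fp_zero, hT.fp_zero] at h1
  rwa [show 1 * tr n (lg a) p + -1 * tr n (lg b) p = tr n (lg a) p - tr n (lg b) p by ring] at h1

theorem eld (hT : TApi) {n : ℕ} {p : ℕ → ℝ} (hp : Path n p) {a b : ℝ} (ha : 0 ≤ a) (hb : 0 ≤ b)
    {l : ℕ} (hl : l < n) :
    |ell n (fp n (ph a) p) l - ell n (fp n (ph b) p) l| ≤ 2 * |a - b| * p 0 * p 0 := by
  have h1 := (hT.lip (f := fun x => 1 * ph a x + (-1) * ph b x + 0) (L := 2 * |a - b| * p 0) hp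
    (fun x x' hx hxx hx' => by
      have := (hT.phl a b x x' ha hb hx hxx).2.2.1
      rw [show 1 * ph a x' + -1 * ph b x' + 0 - (1 * ph a x + -1 * ph b x + 0) =
        ph a x' - ph b x' - (ph a x - ph b x) by ring]
      refine this.trans ?_
      have h2 : 0 ≤ x' - x := by linarith
      gcongr)).2.1 l hl
  have h2 : fp n (fun x => 1 * ph a x + (-1) * ph b x + 0) p =
      fun d => 1 * fp n (ph a) p d + (-1) * fp n (ph b) p d := funext fun d => hT.fp_lin ..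
  rw [h2, hT.ell_lin] at h1
  rwa [show 1 * ell n (fp n (ph a) p) l + -1 * ell n (fp n (ph b) p) l =
    ell n (fp n (ph a) p) l - ell n (fp n (ph b) p) l by ring] at h1

theorem el0 (hT : TApi) {n : ℕ} {p : ℕ → ℝ} (hp : Path n p) {l : ℕ} (hl : l < n) :
    ell n (fp n (ph 0) p) l = ell n p l := by
  have h0 : ph 0 = fun x => x := by funext x; simp [ph]
  unfold ell
  rw [h0, hT.fp_id hp 0 (Nat.zero_le _)]
  congr 2
  exact sum_congr rfl fun d hd => hT.fp_id hp d (by have := (mem_Icc.1 hd).2; omega)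

theorem ph_path (hT : TApi) {n : ℕ} {p : ℕ → ℝ} (hp : Path n p) {θ : ℝ} (hθ : 0 ≤ θ) (g : ℝ)
    (hg : 0 ≤ g) : Path n (fun d => g * fp n (ph θ) p d) ∧ 0 ≤ g * fp n (ph θ) p 0 ∧
      g * fp n (ph θ) p 0 ≤ g * p 0 := by
  have h1 : Path n (fp n (ph θ) p) := hT.fp_path hp fun x hx x' _ hxx => by
    have := (hT.phl θ θ x x' hθ hθ hx.1 hxx).1
    linarith
  have h2 := (hT.lip (f := ph θ) (L := 1) hp fun x x' hx hxx _ => by
    have := hT.phl θ θ x x' hθ hθ hx hxx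
    rw [abs_of_nonneg this.1, one_mul]
    exact this.2.1).1
  refine ⟨⟨fun d hd => mul_le_mul_of_nonneg_left (h1.1 d hd) hg, by simp only [h1.2, mul_zero]⟩,
    mul_nonneg hg (hT.nn h1 0 (Nat.zero_le _)).1, mul_le_mul_of_nonneg_left ?_ hg⟩
  rw [hT.fp_zero]
  linarith [le_abs_self (tr n (ph θ) p)]

/-- the test system -/
noncomputable def tz {T I : Type} [Fintype I] [DecidableEq I] (Z : OG I → Cf T I → ℝ) (i : I)
    (θ γ : ℝ) (U : OG I) (ω : Cf (T ⊕ Unit) I) : ℝ :=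
  Z U (pull Sum.inl ω) + qd θ γ (yy U ω.2 i * spin (ω.1 (Sum.inr ())))

theorem tz_ct (hO : OApi) {T I : Type} [Fintype T] [DecidableEq T] [Fintype I] [DecidableEq I]
    {Z : OG I → Cf T I → ℝ} (hZ : Ct Z) (i : I) (θ γ : ℝ) : Ct (tz Z i θ γ) := by
  intro ω
  have h1 := hO.cont ω.2 i
  have h2 := hZ (pull Sum.inl ω)
  unfold tz qd
  fun_prop

theorem one (hT : TApi) (hTs : TstStmt) (hM : MicStmt) {Cr : ℝ} (hCr : 0 ≤ Cr)
    (hR : ∀ (n l : ℕ) (ε : ℝ), l < n → 0 < ε → ∃ η1 : ℝ, 0 < η1 ∧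
      ∀ (R : Type) [Fintype R] [DecidableEq R] (lv : R → ℕ) (a : R → ℝ) (q : ℕ → ℝ), Path n q →
        q 0 ≤ 1 → Mic n lv a q η1 →
        |Xs n (Sum.elim (fun _ : Unit => l) lv)
          (fun e => sg a (e ∘ Sum.inr) * spin (e (Sum.inl ()))) - ell n q l / 2| ≤ Cr * q 0 ^ 2 + ε)
    (η θ0 G ε : ℝ) (hη : 0 < η) (hθ0 : 0 < θ0) (hε : 0 < ε) : ∃ e0 : ℝ, 0 < e0 ∧
    ∀ n : ℕ, 1 ≤ n → ∃ N0 : ℕ, ∀ N : ℕ, ∃ δ : ℝ, 0 < δ ∧
    ∀ (T I : Type) [Fintype T] [DecidableEq T] [Fintype I] [DecidableEq I] (ν : Measure (OG I))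
      (lev : T → ℕ) (Z : OG I → Cf T I → ℝ) (F : Finset T) (A : Finset I) (i : I) (θ γ P : ℝ)
      (p : ℕ → ℝ) (l : ℕ), Haar ν → LevOk n lev → Ct Z → N0 ≤ Fintype.card I →
      Fintype.card I ≤ N → η * Fintype.card I ≤ A.card → i ∈ A → θ0 ≤ θ → θ ≤ G → |γ| ≤ G →
      Path n p → p 0 ≤ P → P ≤ G → γ ^ 2 * P ≤ 1 → InvP n lev Z F {R | Sup A R} δ →
      ConcH ν n lev Z A p e0 → l < n →
      |TH ν n (Sum.elim lev (fun _ : Unit => l)) (tz Z i θ γ) - TH ν n lev Z - tr n (lg θ) p -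
        γ ^ 2 * ell n (fp n (ph θ) p) l / 2| ≤ Cr * (γ ^ 2 * P) ^ 2 + 2 * ε := by
  obtain ⟨e0, he0, h1⟩ := hTs 1 η θ0 G ε hη hθ0 hε
  refine ⟨e0, he0, fun n hn => ?_⟩
  obtain ⟨η1, hη1, N0, h2⟩ := h1 n hn
  refine ⟨N0, fun N => ?_⟩
  obtain ⟨δ, hδ, h3⟩ := h2 N
  refine ⟨δ, hδ, ?_⟩
  intro T I _ _ _ _ ν lev Z F A i θ γ P p l hν hlev hZ hN0 hN hA hi hθ1 hθ2 hγ hp hp0 hP hγP hI hC hl
  obtain ⟨η2, hη2, h4⟩ := hR n l ε hl hε
  obtain ⟨hq, hq0, hq1⟩ := ph_path hT hp (hθ0.le.trans hθ1) (γ ^ 2) (sq_nonneg _)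
  have hq2 : γ ^ 2 * fp n (ph θ) p 0 ≤ γ ^ 2 * P :=
    hq1.trans (mul_le_mul_of_nonneg_left hp0 (sq_nonneg _))
  obtain ⟨S, a, ha⟩ := hM.1 n _ (min η1 η2) hq (lt_min hη1 hη2)
  have h5 := h3 T I Unit Unit (Fin S × Fin n) ν lev Z F A (fun _ => i) (fun _ => θ) (fun _ => γ) p
    (fun _ => l) (fun _ => 0) (fun e => spin (e ())) (fun r => r.2) a hν hlev (fun _ => hl) hZ hN0 hN
    hA (by simp) (fun _ _ _ => rfl) (fun _ => hi) (fun _ => ⟨hθ1, hθ2, hγ⟩) hp (hp0.trans hP) hI hC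
    (fun _ => spin_sq _) (by simpa using mic_mono ha (min_le_left _ _))
  have h6 := h4 (Fin S × Fin n) (fun r => r.2) a _ hq (hq2.trans hγP) (mic_mono ha (min_le_right _ _))
  have h7 : ell n (fun d => γ ^ 2 * fp n (ph θ) p d) l = γ ^ 2 * ell n (fp n (ph θ) p) l := by
    have := hT.ell_lin n (fp n (ph θ) p) (fp n (ph θ) p) (γ ^ 2) 0 l
    simpa using this
  rw [h7] at h6
  simp only [univ_unique, sum_singleton, add_zero, zero_add, Function.comp_apply] at h5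
  have h8 : Cr * (γ ^ 2 * fp n (ph θ) p 0) ^ 2 ≤ Cr * (γ ^ 2 * P) ^ 2 := by gcongr
  have h9 : (fun (U : OG I) (ω : Cf (T ⊕ Unit) I) =>
      Z U (pull Sum.inl ω) + qd θ γ (yy U ω.2 i * spin (ω.1 (Sum.inr PUnit.unit)))) = tz Z i θ γ := rfl
  rw [h9] at h5
  rw [abs_le] at h5 h6 ⊢
  constructor <;> linarith [h5.1, h5.2, h6.1, h6.2]

theorem swp (hO : OApi) (hH : HApi) (hS : SwpStmt) {κ I Ts : Type} [Fintype κ] [DecidableEq κ]
    [Fintype I] [DecidableEq I] [Fintype Ts] [DecidableEq Ts] {ν : Measure (OG I)}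
    (S : Sys κ I Ts) (D : ℕ) {n : ℕ} (y : κ → ℕ → ℝ) (τ : κ) (i : I) {v : ℝ} (θ0 γ : ℝ) {l : ℕ}
    (hν : Haar ν) (hn : 1 ≤ n) (hlev : LevOk n S.levs) (hi : S.c i ≠ τ) (hv : Vb n y v) (hl : l < n) :
    TH ν n (Sum.elim (S.lev D n) (fun _ : Unit => l))
        (tz ((S.up {i} τ).Z D n y) i (θ0 + (S.lam τ - S.lam (S.c i)) + v) γ) ≤
      TH ν n (Sum.elim (S.lev D n) (fun _ : Unit => l)) (tz (S.Z D n y) i θ0 γ) ∧
    TH ν n (Sum.elim (S.lev D n) (fun _ : Unit => l)) (tz (S.Z D n y) i θ0 γ) ≤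
      TH ν n (Sum.elim (S.lev D n) (fun _ : Unit => l))
        (tz ((S.up {i} τ).Z D n y) i (θ0 + (S.lam τ - S.lam (S.c i)) - v) γ) := by
  have hc1 := (hH.ctz S D n y).1
  have hc2 := (hH.ctz (S.up {i} τ) D n y).1
  have hL : LevOk n (Sum.elim (S.lev D n) (fun _ : Unit => l)) := by
    rintro (s | s)
    · exact (hH.ctz S D n y).2 hlev s
    · exact hl
  have key := fun U => hS κ I Ts _ S D n y {i} τ v (Sum.elim (S.lev D n) (fun _ : Unit => l)) Sum.inl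
    (fun ω => qd θ0 γ (yy U ω.2 i * spin (ω.1 (Sum.inr ())))) U hn hv
    ⟨Sum.inl_injective, fun _ => rfl⟩ hL (by
      intro e e' σ h
      simp only
      rw [h (Sum.inr ()) (by simp)])
  have hf : ({i} : Finset I).filter (fun j => S.c j ≠ τ) = {i} := by
    rw [filter_singleton, if_pos hi]
  have e1 : ∀ (U : OG I) (c : ℝ), (fun ω : Cf (Sg D n I Ts ⊕ Unit) I =>
      (S.up {i} τ).Z D n y U (pull Sum.inl ω) + qd θ0 γ (yy U ω.2 i * spin (ω.1 (Sum.inr ()))) +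
        c * yy U ω.2 i ^ 2 / 2) = tz ((S.up {i} τ).Z D n y) i (θ0 - c) γ U := by
    intro U c
    funext ω
    unfold tz qd
    rw [mul_pow, spin_sq]
    ring
  simp only [hf, sum_singleton, e1] at key
  constructor
  · have := hH.ptw _ _ 0 hν hn (tz_ct hO hc2 i (θ0 + (S.lam τ - S.lam (S.c i)) + v) γ)
      (tz_ct hO hc1 i θ0 γ) (fun U => by
        have h1 := (key U).1
        rw [show θ0 - (S.lam (S.c i) - S.lam τ - v) = θ0 + (S.lam τ - S.lam (S.c i)) + v by ring] at h1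
        rw [add_zero]
        exact h1)
    rwa [add_zero] at this
  · have := hH.ptw _ _ 0 hν hn (tz_ct hO hc1 i θ0 γ)
      (tz_ct hO hc2 i (θ0 + (S.lam τ - S.lam (S.c i)) - v) γ) (fun U => by
        have h1 := (key U).2
        rw [show θ0 - (S.lam (S.c i) - S.lam τ + v) = θ0 + (S.lam τ - S.lam (S.c i)) - v by ring] at h1
        rw [add_zero]
        exact h1)
    rwa [add_zero] at this

theorem fin {ε g V1 V0 T t' E' c Up1 Up0 Um1 Um0 Tu tp tm Ep Em vP e' E a b P2 : ℝ} (hε : 0 < ε)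
    (hg : 0 < g)
    (a1 : -(c + 2 * (ε * g / 128)) ≤ V1 - T - t' - g * E' / 2 ∧
      V1 - T - t' - g * E' / 2 ≤ c + 2 * (ε * g / 128))
    (a0 : -(2 * (ε * g / 128)) ≤ V0 - T - t' ∧ V0 - T - t' ≤ 2 * (ε * g / 128))
    (bp1 : -(c + 2 * (ε * g / 128)) ≤ Up1 - Tu - tp - g * Ep / 2 ∧
      Up1 - Tu - tp - g * Ep / 2 ≤ c + 2 * (ε * g / 128))
    (bp0 : -(2 * (ε * g / 128)) ≤ Up0 - Tu - tp ∧ Up0 - Tu - tp ≤ 2 * (ε * g / 128))
    (bm1 : -(c + 2 * (ε * g / 128)) ≤ Um1 - Tu - tm - g * Em / 2 ∧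
      Um1 - Tu - tm - g * Em / 2 ≤ c + 2 * (ε * g / 128))
    (bm0 : -(2 * (ε * g / 128)) ≤ Um0 - Tu - tm ∧ Um0 - Tu - tm ≤ 2 * (ε * g / 128))
    (w1 : Up1 ≤ V1 ∧ V1 ≤ Um1) (w0 : Up0 ≤ V0 ∧ V0 ≤ Um0)
    (t2 : -vP ≤ tm - tp ∧ tm - tp ≤ vP)
    (e1 : -(2 * a * P2) ≤ E' - e' ∧ E' - e' ≤ 2 * a * P2)
    (e2 : -(2 * (a + b) * P2) ≤ Ep - E ∧ Ep - E ≤ 2 * (a + b) * P2)
    (e3 : -(2 * (a + b) * P2) ≤ Em - E ∧ Em - E ≤ 2 * (a + b) * P2)
    (hc1 : c ≤ ε * g / 32) (hv4 : vP ≤ ε * g / 16) (hθ2 : a * P2 ≤ ε / 32) (hv3 : b * P2 ≤ ε / 16) :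
    |e' - E| ≤ ε := by
  have u1 : g * (E' - Em) ≤ g * (ε * 3 / 8) := by
    linarith only [a1.1, a0.2, bm1.2, bp0.1, w1.2, w0.1, t2.2, hc1, hv4, mul_pos hε hg]
  have u2 : g * (Ep - E') ≤ g * (ε * 3 / 8) := by
    linarith only [a1.2, a0.1, bp1.1, bm0.2, w1.1, w0.2, t2.2, hc1, hv4, mul_pos hε hg]
  have u3 := le_of_mul_le_mul_left u1 hg
  have u4 := le_of_mul_le_mul_left u2 hg
  rw [abs_le]
  constructor <;> linarith only [e1.1, e1.2, e2.1, e2.2, e3.1, e3.2, u3, u4, hθ2, hv3, hε]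

end Rel

open Rel in
theorem relStmt (hO : OApi) (hH : HApi) (hT : TApi) (hTs : TstStmt) (hRe : RespStmt) (hM : MicStmt)
    (hS : SwpStmt) : RelStmt := by
  intro η g0 Γ ε hη hg0 hε
  obtain ⟨Cr, hCr, hR⟩ := hRe
  set P : ℝ := 1 / η with hP
  have hP0 : 0 < P := by positivity
  obtain ⟨g, hg, hg1, hg2, hg3⟩ : ∃ g : ℝ, 0 < g ∧ g ≤ 1 ∧ g * P ≤ 1 ∧ Cr * g * P ^ 2 ≤ ε / 32 := by
    refine ⟨min 1 (min η (ε / (32 * (Cr + 1) * P ^ 2))), by positivity, min_le_left _ _, ?_, ?_⟩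
    · have : min 1 (min η (ε / (32 * (Cr + 1) * P ^ 2))) ≤ η :=
        (min_le_right _ _).trans (min_le_left _ _)
      calc _ ≤ η * P := by gcongr
        _ = 1 := by rw [hP]; field_simp
    · have : min 1 (min η (ε / (32 * (Cr + 1) * P ^ 2))) ≤ ε / (32 * (Cr + 1) * P ^ 2) :=
        (min_le_right _ _).trans (min_le_right _ _)
      calc _ ≤ (Cr + 1) * (ε / (32 * (Cr + 1) * P ^ 2)) * P ^ 2 := by gcongr; linarith
        _ = ε / 32 := by field_simp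
  obtain ⟨θ0, hθ0, hθ1, hθ2⟩ : ∃ θ0 : ℝ, 0 < θ0 ∧ θ0 ≤ 1 ∧ θ0 * P ^ 2 ≤ ε / 32 := by
    refine ⟨min 1 (ε / (32 * P ^ 2)), by positivity, min_le_left _ _, ?_⟩
    calc _ ≤ ε / (32 * P ^ 2) * P ^ 2 := by gcongr; exact min_le_right _ _
      _ = ε / 32 := by field_simp
  obtain ⟨v, hv, hv1, hv2, hv3, hv4⟩ : ∃ v : ℝ, 0 < v ∧ v ≤ 1 ∧ v ≤ g0 ∧ v * P ^ 2 ≤ ε / 16 ∧
      v * P ≤ ε * g / 16 := by
    refine ⟨min (min 1 g0) (min (ε / (16 * P ^ 2)) (ε * g / (16 * P))), by positivity,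
      (min_le_left _ _).trans (min_le_left _ _), (min_le_left _ _).trans (min_le_right _ _), ?_, ?_⟩
    · calc _ ≤ ε / (16 * P ^ 2) * P ^ 2 := by
            gcongr; exact (min_le_right _ _).trans (min_le_left _ _)
        _ = ε / 16 := by field_simp
    · calc _ ≤ ε * g / (16 * P) * P := by
            gcongr; exact (min_le_right _ _).trans (min_le_right _ _)
        _ = ε * g / 16 := by field_simp
  set G : ℝ := max (2 * |Γ| + 2) P with hG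
  have hG1 : 2 * |Γ| + 2 ≤ G := le_max_left _ _
  have hG2 : P ≤ G := le_max_right _ _
  obtain ⟨e0, he0, h1⟩ := one hT hTs hM hCr hR η θ0 G (ε * g / 128) hη hθ0 (by positivity)
  refine ⟨e0, v, he0, hv, fun n hn => ?_⟩
  obtain ⟨N0, h2⟩ := h1 n hn
  refine ⟨N0, fun N => ?_⟩
  obtain ⟨δ, hδ, h3⟩ := h2 N
  refine ⟨δ, hδ, ?_⟩
  intro κ I Ts _ _ _ _ _ _ ν S D y τ i p p' hν hlev hN0 hN hi hk hτ hgap hΓ hVb hI hI' hp hp' hp0 hp0'
    hC hC' l hl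
  set θ := S.lam τ - S.lam (S.c i) with hθ
  have hθg : g0 ≤ θ := by linarith
  have hθΓ : θ ≤ 2 * |Γ| := by
    have a1 := abs_le.1 (hΓ τ)
    have a2 := abs_le.1 (hΓ (S.c i))
    have a3 := le_abs_self Γ
    linarith [a1.2, a2.1]
  have hΓ0 := abs_nonneg Γ
  have hsq : √g ^ 2 = g := sq_sqrt hg.le
  have hs1 : |√g| ≤ G := by
    rw [abs_of_nonneg (sqrt_nonneg _)]
    have : √g ≤ 1 := sqrt_le_one.2 hg1
    linarith
  have hlv := (hH.ctz S D n y).2 hlev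
  have A1 := fun γ (h1 : |γ| ≤ G) (h2 : γ ^ 2 * P ≤ 1) =>
    h3 _ I ν (S.lev D n) (S.Z D n y) (fs D n I Ts) (S.cls (S.c i)) i θ0 γ P p' l hν hlv
      (hH.ctz S D n y).1 hN0 hN hk (by simp [Sys.cls]) le_rfl (by linarith) h1 hp' hp0' hG2 h2
      (fun R hR => hI R (hO.supblk _ R S.c (S.c i) hR (fun j hj => by simpa [Sys.cls] using hj)))
      hC hl
  have hsub : S.cls τ ⊆ (S.up {i} τ).cls τ := by
    intro j hj
    have hj' : S.c j = τ := (mem_filter.1 hj).2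
    refine mem_filter.2 ⟨mem_univ _, ?_⟩
    show (if j ∈ ({i} : Finset I) then τ else S.c j) = τ
    rw [hj', ite_self]
  have A2 := fun θ' γ (h0 : θ0 ≤ θ') (h0' : θ' ≤ G) (h1 : |γ| ≤ G) (h2 : γ ^ 2 * P ≤ 1) =>
    h3 _ I ν (S.lev D n) ((S.up {i} τ).Z D n y) (fs D n I Ts) ((S.up {i} τ).cls τ) i θ' γ P p l hν hlv
      (hH.ctz (S.up {i} τ) D n y).1 hN0 hN (hτ.trans (Nat.cast_le.2 (card_le_card hsub)))
      (by simp [Sys.cls, Sys.up]) h0 h0' h1 hp hp0 hG2 h2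
      (fun R hR => hI' R (hO.supblk _ R (S.up {i} τ).c τ hR
        (fun j hj => by simpa [Sys.cls] using hj))) hC' hl
  have z1 : |(0 : ℝ)| ≤ G := by rw [abs_zero]; linarith
  have z2 : (0 : ℝ) ^ 2 * P ≤ 1 := by norm_num
  have s2 : √g ^ 2 * P ≤ 1 := by rwa [hsq]
  have a1 := abs_le.1 (A1 (√g) hs1 s2)
  have a0 := abs_le.1 (A1 0 z1 z2)
  have bp1 := abs_le.1 (A2 (θ0 + θ + v) (√g) (by linarith) (by linarith) hs1 s2)
  have bp0 := abs_le.1 (A2 (θ0 + θ + v) 0 (by linarith) (by linarith) z1 z2)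
  have bm1 := abs_le.1 (A2 (θ0 + θ - v) (√g) (by linarith) (by linarith) hs1 s2)
  have bm0 := abs_le.1 (A2 (θ0 + θ - v) 0 (by linarith) (by linarith) z1 z2)
  have w1 := swp hO hH hS S D y τ i θ0 (√g) hν hn hlev hi hVb hl
  have w0 := swp hO hH hS S D y τ i θ0 0 hν hn hlev hi hVb hl
  rw [← hθ] at w1 w0
  rw [hsq] at a1 bp1 bm1
  have hp00 := (hT.nn hp 0 (Nat.zero_le _)).1
  have hp00' := (hT.nn hp' 0 (Nat.zero_le _)).1
  have t1 : |tr n (lg (θ0 + θ - v)) p - tr n (lg (θ0 + θ + v)) p| ≤ v * P := by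
    refine (trd hT hp (by linarith) (by linarith)).trans ?_
    rw [show θ0 + θ - v - (θ0 + θ + v) = -(2 * v) by ring, abs_neg, abs_of_pos (by positivity)]
    have : 2 * v / 2 * p 0 = v * p 0 := by ring
    rw [this]
    gcongr
  have el : ∀ {q : ℕ → ℝ} {a b c : ℝ}, Path n q → q 0 ≤ P → 0 ≤ a → 0 ≤ b → |a - b| ≤ c →
      |ell n (fp n (ph a) q) l - ell n (fp n (ph b) q) l| ≤ 2 * c * P ^ 2 := by
    intro q a b c hq hq0 ha hb hc
    have h0 := (hT.nn hq 0 (Nat.zero_le _)).1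
    have hc0 : 0 ≤ c := (abs_nonneg _).trans hc
    refine (eld hT hq ha hb hl).trans ?_
    calc _ ≤ 2 * c * P * P := by gcongr
      _ = _ := by ring
  have e1 := abs_le.1 (el (a := θ0) (b := 0) (c := θ0) hp' hp0' hθ0.le le_rfl
    (by rw [sub_zero, abs_of_pos hθ0]))
  rw [el0 hT hp' hl] at e1
  have e2 := abs_le.1 (el (a := θ0 + θ + v) (b := θ) (c := θ0 + v) hp hp0 (by linarith) (by linarith)
    (by rw [abs_le]; constructor <;> linarith))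
  have e3 := abs_le.1 (el (a := θ0 + θ - v) (b := θ) (c := θ0 + v) hp hp0 (by linarith) (by linarith)
    (by rw [abs_le]; constructor <;> linarith))
  have t2 := abs_le.1 t1
  have hc1 : Cr * (g * P) ^ 2 ≤ ε * g / 32 := by
    have : Cr * (g * P) ^ 2 = (Cr * g * P ^ 2) * g := by ring
    rw [this]
    calc _ ≤ ε / 32 * g := mul_le_mul_of_nonneg_right hg3 hg.le
      _ = _ := by ring
  simp only [ne_eq, OfNat.ofNat_ne_zero, not_false_eq_true, zero_pow, zero_mul, mul_zero, zero_div,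
    sub_zero, zero_add] at a0 bp0 bm0
  exact fin hε hg a1 a0 bp1 bp0 bm1 bm0 w1 w0 t2 e1 e2 e3 hc1 hv4 hθ2 hv3

end Vale.Agent.P166
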