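import Vale.Agent.P166.Resp1

/-! P166: response of one spin of level `l` to small fields, conclusion. -/

namespace Vale.Agent.P166

open Finset Real Vale.Agent.P157

noncomputable section

namespace Respx

/-- weights of the levels -/
def mu (n l d : ℕ) : ℝ := 1 - ((min d l : ℕ) : ℝ) / n

theorem abel (n : ℕ) (q : ℕ → ℝ) (l : ℕ) : ∑ d ∈ range (l + 1), (1 - (d : ℝ) / n) * (q d - q (d + 1)) =
    ell n q l - (1 - (l : ℝ) / n) * q (l + 1) := by
  induction l with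
  | zero => simp [ell]
  | succ l ih =>
    rw [sum_range_succ, ih, ell, ell, sum_Icc_succ_top (by omega)]
    push_cast
    ring

theorem abel2 {n l : ℕ} (hl : l < n) {q : ℕ → ℝ} (hq : q n = 0) :
    ∑ d ∈ range n, mu n l d * (q d - q (d + 1)) = ell n q l := by
  rw [← sum_range_add_sum_Ico _ (show l + 1 ≤ n by omega)]
  have h1 : ∑ d ∈ range (l + 1), mu n l d * (q d - q (d + 1)) =
      ∑ d ∈ range (l + 1), (1 - (d : ℝ) / n) * (q d - q (d + 1)) :=
    sum_congr rfl fun d hd => by rw [mu, min_eq_left (by simpa [Nat.lt_succ_iff] using hd)]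
  have h2 : ∑ d ∈ Ico (l + 1) n, mu n l d * (q d - q (d + 1)) =
      (1 - (l : ℝ) / n) * ∑ d ∈ Ico (l + 1) n, (q d - q (d + 1)) := by
    rw [mul_sum]
    exact sum_congr rfl fun d hd => by rw [mu, min_eq_right (by have := (mem_Ico.1 hd).1; omega)]
  rw [h1, h2, abel, sum_Ico_eq_sub _ (show l + 1 ≤ n by omega), sum_range_sub', sum_range_sub', hq]
  ring

theorem wsum {R : Type} [Fintype R] {n : ℕ} {lv : R → ℕ} {a : R → ℝ} {q : ℕ → ℝ} {η : ℝ}
    (h : Mic n lv a q η) (w : ℕ → ℝ) (hw : ∀ d, d < n → |w d| ≤ 1) :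
    |∑ r, w (lv r) * a r ^ 2 - ∑ d ∈ range n, w d * (q d - q (d + 1))| ≤ n * η := by
  rw [← sum_fiberwise_of_maps_to (s := univ) (t := range n) (g := lv)
    (fun r _ => mem_range.2 (h.1 r)), ← sum_sub_distrib]
  refine (abs_sum_le_sum_abs _ _).trans ((sum_le_card_nsmul _ _ η fun d hd => ?_).trans (by simp))
  have h1 : ∑ r ∈ univ.filter (fun r => lv r = d), w (lv r) * a r ^ 2 =
      w d * ∑ r ∈ univ.filter (fun r => lv r = d), a r ^ 2 := by
    rw [mul_sum]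
    exact sum_congr rfl fun r hr => by rw [(mem_filter.1 hr).2]
  rw [h1, ← mul_sub, abs_mul]
  exact (mul_le_of_le_one_left (abs_nonneg _) (hw d (mem_range.1 hd))).trans
    (h.2.2 d (mem_range.1 hd))

end Respx

open Respx in
theorem respStmt (hA : AApi) (hR : RApi) (hQ : QApi) : RespStmt := by
  refine ⟨64, by norm_num, fun n l ε hl hε => ?_⟩
  have hn : (1 : ℝ) ≤ n := by exact_mod_cast (show 1 ≤ n by omega)
  obtain ⟨δ, d0, d1, d2⟩ : ∃ δ : ℝ, 0 < δ ∧ δ ≤ 1 / 8 ∧ δ ≤ ε / 8 :=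
    ⟨min (1 / 8) (ε / 8), lt_min (by norm_num) (by positivity), min_le_left _ _, min_le_right _ _⟩
  refine ⟨δ / n, by positivity, fun R _ _ lv a q hq hq1 hM => ?_⟩
  have e0 : (n : ℝ) * (δ / n) = δ := by field_simp
  have e1 : δ / n ≤ δ := div_le_self d0.le hn
  have q0 : 0 ≤ q 0 := hq.2 ▸ G2.anti hq (Nat.zero_le n) le_rfl
  obtain ⟨m0, m1⟩ := mb hl
  have hW := wsum hM (fun _ => 1) (by simp)
  simp only [one_mul, sum_range_sub', hq.2, sub_zero, e0] at hW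
  have hS := wsum hM (mu n l) (fun d _ => by
    obtain ⟨b0, b1⟩ := mb (show min d l < n by omega)
    exact abs_le.2 ⟨by unfold mu; linarith, b1⟩)
  rw [abel2 hl hq.2, e0, ← sum_filter_add_sum_filter_not univ (fun r => lv r < l + 1)] at hS
  rw [← sum_filter_add_sum_filter_not univ (fun r => lv r < l + 1)] at hW
  simp only [not_lt] at hS hW
  obtain ⟨v, hv⟩ : ∃ v, v = ∑ r ∈ univ.filter (fun r => l + 1 ≤ lv r), a r ^ 2 := ⟨_, rfl⟩
  have h1 : ∑ r ∈ univ.filter (fun r => l + 1 ≤ lv r), mu n l (lv r) * a r ^ 2 =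
      (1 - (l : ℝ) / n) * v := by
    rw [hv, mul_sum]
    exact sum_congr rfl fun r hr => by
      rw [mu, min_eq_right (by have := (mem_filter.1 hr).2; omega)]
  obtain ⟨u, hu⟩ : ∃ u, u = ∑ r ∈ univ.filter (fun r => lv r < l + 1), a r ^ 2 := ⟨_, rfl⟩
  obtain ⟨s, hs⟩ : ∃ s, s = ∑ r ∈ univ.filter (fun r => lv r < l + 1), mu n l (lv r) * a r ^ 2 :=
    ⟨_, rfl⟩
  have hb : ∀ r ∈ univ.filter (fun r => lv r < l + 1),
      mu n l (lv r) * a r ^ 2 / 2 - δ * a r ^ 2 ≤ LL (1 - (lv r : ℝ) / n) (a r) ∧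
        LL (1 - (lv r : ℝ) / n) (a r) ≤ mu n l (lv r) * a r ^ 2 / 2 := fun r hr => by
    obtain ⟨b0, b1⟩ := mb (hM.1 r)
    obtain ⟨c1, c2, -⟩ := LL_bd b0 b1 (a r)
    rw [mu, min_eq_left (by have := (mem_filter.1 hr).2; omega)]
    have c3 : a r ^ 2 ≤ δ ^ 2 := sq_le_sq.2 (((hM.2.1 r).trans e1).trans (le_abs_self _))
    have c4 := mul_le_mul_of_nonneg_right (c3.trans (show δ ^ 2 ≤ 4 * δ by nlinarith))
      (sq_nonneg (a r))
    exact ⟨by linarith, c2⟩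
  have h2 : s / 2 - δ * u ≤ cc n lv a (l + 1) := by
    rw [hs, hu, sum_div, mul_sum, ← sum_sub_distrib]
    exact sum_le_sum fun r hr => (hb r hr).1
  have h3 : cc n lv a (l + 1) ≤ s / 2 := by
    rw [hs, sum_div]
    exact sum_le_sum fun r hr => (hb r hr).2
  have u0 : 0 ≤ u := hu ▸ sum_nonneg fun _ _ => sq_nonneg _
  have v0 : 0 ≤ v := hv ▸ sum_nonneg fun _ _ => sq_nonneg _
  rw [h1, ← hs] at hS
  rw [← hu, ← hv] at hW
  obtain ⟨k1, k2⟩ := val hA hR hQ hl hM.1 a v hv _ rfl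
  change |Xv n (Sum.elim (fun _ : Unit => l) lv) (ZZ a) - _| ≤ _
  generalize Xv n (Sum.elim (fun _ : Unit => l) lv) (ZZ a) = X at k1 k2
  obtain ⟨w1, w2⟩ := abs_le.1 hW
  obtain ⟨s1, s2⟩ := abs_le.1 hS
  have v2 : v ^ 2 ≤ 2 * q 0 ^ 2 + 2 * δ ^ 2 := by
    have := pow_le_pow_left₀ v0 (show v ≤ q 0 + δ by linarith) 2
    nlinarith [sq_nonneg (q 0 - δ)]
  have d3 : δ ^ 2 ≤ δ := by nlinarith
  have d4 : δ * u ≤ δ * 2 := mul_le_mul_of_nonneg_left (by linarith) d0.le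
  have q2 := sq_nonneg (q 0)
  have mv : 0 ≤ (1 - (l : ℝ) / n) * v := mul_nonneg m0.le v0
  have mv1 : (1 - (l : ℝ) / n) * v ≤ v := mul_le_of_le_one_left v0 m1
  refine abs_le.2 ⟨by linarith, ?_⟩
  by_cases hc : v ≤ 1 / 2
  · have k3 := k2 ((1 - (l : ℝ) / n) / 2) 0 (by positivity) (by linarith)
      (fun x => by linarith [(LL_bd m0 m1 x).2.1])
    have k4 := pow_le_pow_left₀ mv mv1 2
    linarith
  · have k3 := k2 (1 / 8) 2 (by norm_num) (by linarith) (fun x => (LL_bd m0 m1 x).2.2)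
    have k4 := pow_le_pow_left₀ (by norm_num) (show 3 / 8 ≤ q 0 by linarith) 2
    linarith

end

end Vale.Agent.P166
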