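import Vale.Agent.P166.Stm

/-! Module Rpg: Gaussian flags represent the Haar average. -/

namespace Vale.Agent.P166

open MeasureTheory ProbabilityTheory Finset Real Vale.Agent.P157 Matrix
open scoped RealInnerProductSpace

noncomputable section

namespace Rpg

variable {N L : ℕ}

theorem inner_eu (x y : EU N) : ⟪x, y⟫ = x.ofLp ⬝ᵥ y.ofLp := by
  simp [PiLp.inner_apply, dotProduct, mul_comm]

/-- `x ↦ Rᵀ x` -/
def rac (R : OG (Fin N)) (x : EU N) : EU N := WithLp.toLp 2 (R.1ᵀ *ᵥ x.ofLp)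

def actL (R : OG (Fin N)) : EU N →ₗ[ℝ] EU N where
  toFun := rac R
  map_add' x y := by simp [rac, Matrix.mulVec_add]
  map_smul' c x := by simp [rac, Matrix.mulVec_smul]

theorem mul_tr (R : OG (Fin N)) : R.1 * R.1ᵀ = 1 := (Matrix.mem_orthogonalGroup_iff _ _).1 R.2

theorem tr_mul (R : OG (Fin N)) : R.1ᵀ * R.1 = 1 := (Matrix.mem_orthogonalGroup_iff' _ _).1 R.2

theorem inner_act (R : OG (Fin N)) (x y : EU N) : ⟪actL R x, actL R y⟫ = ⟪x, y⟫ := by
  rw [inner_eu, inner_eu]
  change (R.1ᵀ *ᵥ x.ofLp) ⬝ᵥ (R.1ᵀ *ᵥ y.ofLp) = _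
  rw [Matrix.dotProduct_mulVec, Matrix.vecMul_transpose, Matrix.mulVec_mulVec, mul_tr,
    Matrix.one_mulVec]

def iso (R : OG (Fin N)) : EU N ≃ₗᵢ[ℝ] EU N :=
  ((actL R).isometryOfInner (inner_act R)).toLinearIsometryEquiv rfl

theorem iso_apply (R : OG (Fin N)) (x : EU N) : iso R x = rac R x := rfl

theorem iso_symm (R : OG (Fin N)) (x : EU N) :
    (iso R).symm x = WithLp.toLp 2 (R.1 *ᵥ x.ofLp) := by
  rw [LinearIsometryEquiv.symm_apply_eq, iso_apply, rac]
  simp [Matrix.mulVec_mulVec, tr_mul]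

theorem pj_act (R : OG (Fin N)) (G : Fin L → EU N) (S : Finset (Fin L)) (x : EU N) :
    pj (fun t => rac R (G t)) S x = pj G S (WithLp.toLp 2 (R.1 *ᵥ x.ofLp)) := by
  have h : Submodule.span ℝ ((fun t => rac R (G t)) '' (S : Set (Fin L))) =
      (Submodule.span ℝ (G '' (S : Set (Fin L)))).map
        ((iso R).toLinearEquiv : EU N →ₗ[ℝ] EU N) := by
    rw [Submodule.map_span, Set.image_image]
    rfl
  unfold pj
  simp only [h]
  rw [Submodule.starProjection_map_apply, LinearIsometryEquiv.norm_map, iso_symm]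

theorem proj_orthonormal {ι : Type} [DecidableEq ι] {e : ι → EU N} (he : Orthonormal ℝ e)
    (S : Finset ι) (z : EU N) :
    ‖(Submodule.span ℝ (e '' (S : Set ι))).starProjection z‖ ^ 2 = ∑ i ∈ S, ⟪e i, z⟫ ^ 2 := by
  have h : (Submodule.span ℝ (e '' (S : Set ι))).starProjection z = ∑ i ∈ S, ⟪e i, z⟫ • e i := by
    refine Submodule.eq_starProjection_of_mem_of_inner_eq_zero ?_ ?_
    · exact Submodule.sum_mem _ (fun i hi =>
        Submodule.smul_mem _ _ (Submodule.subset_span ⟨i, hi, rfl⟩))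
    · intro w hw
      induction hw using Submodule.span_induction with
      | mem x hx =>
        obtain ⟨j, hj, rfl⟩ := hx
        rw [inner_sub_left, he.inner_left_sum _ hj, real_inner_comm]
        simp
      | zero => simp
      | add x y _ _ hx hy => rw [inner_add_right, hx, hy, add_zero]
      | smul c x _ hx => rw [inner_smul_right, hx, mul_zero]
  rw [h, ← real_inner_self_eq_norm_sq, he.inner_sum]
  exact Finset.sum_congr rfl (fun i _ => by simp [sq])

theorem exists_U (hL : L ≤ N) {G : Fin L → EU N} (hG : LinearIndependent ℝ G) :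
    ∃ U : OG (Fin N), ∀ (t : Fin L) (z : EU N),
      pj G (Iic t) z = ∑ i : Fin N, if (i : ℕ) ≤ t then (U.1 *ᵥ z.ofLp) i ^ 2 else 0 := by
  set e := InnerProductSpace.gramSchmidtNormed ℝ G with he
  have heo : Orthonormal ℝ e := InnerProductSpace.gramSchmidtNormed_orthonormal hG
  set v : Fin N → EU N := fun i => if h : (i : ℕ) < L then e ⟨i, h⟩ else 0 with hv
  have hvo : Orthonormal ℝ (({i : Fin N | (i : ℕ) < L}).domRestrict v) := by
    have : ({i : Fin N | (i : ℕ) < L}).domRestrict v =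
        e ∘ (fun i : {i : Fin N | (i : ℕ) < L} => (⟨i.1, i.2⟩ : Fin L)) := by
      funext i
      have hi : (i.1 : ℕ) < L := i.2
      simp [hv, hi]
    rw [this]
    refine heo.comp _ (fun i j hij => ?_)
    exact Subtype.ext (Fin.ext (by simpa using hij))
  obtain ⟨b, hb⟩ := hvo.exists_orthonormalBasis_extension_of_card_eq (by simp)
  have hU : (Matrix.of fun i j => (b i).ofLp j) ∈ Matrix.orthogonalGroup (Fin N) ℝ := by
    rw [Matrix.mem_orthogonalGroup_iff]
    ext i k
    have := orthonormal_iff_ite.1 b.orthonormal i k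
    rw [inner_eu] at this
    rw [Matrix.mul_apply, Matrix.one_apply, ← this]
    rfl
  refine ⟨⟨_, hU⟩, fun t z => ?_⟩
  have hsp : Submodule.span ℝ (G '' ((Iic t : Finset (Fin L)) : Set (Fin L))) =
      Submodule.span ℝ (e '' ((Iic t : Finset (Fin L)) : Set (Fin L))) := by
    rw [he, InnerProductSpace.span_gramSchmidtNormed, Finset.coe_Iic,
      InnerProductSpace.span_gramSchmidt_Iic]
  unfold pj
  simp only [hsp]
  rw [proj_orthonormal heo, ← Finset.sum_filter]
  refine Finset.sum_bij (fun i _ => Fin.castLE hL i) ?_ ?_ ?_ ?_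
  · intro i hi
    simpa using hi
  · intro i _ j _ hij
    exact Fin.castLE_injective hL hij
  · intro j hj
    have hj' : (j : ℕ) ≤ t := by simpa using hj
    exact ⟨⟨j, lt_of_le_of_lt hj' t.2⟩, Finset.mem_Iic.2 (Fin.le_def.2 hj'), rfl⟩
  · intro i _
    have h1 : b (Fin.castLE hL i) = e i := by
      rw [hb _ (by simp)]
      simp [hv]
    rw [← h1, inner_eu]
    rfl

theorem null_subspace (K : Submodule ℝ (EU N)) (hK : K ≠ ⊤) : stdGaussian (EU N) K = 0 := by
  have h1 : Kᗮ ≠ ⊥ := fun h => hK (Submodule.orthogonal_eq_bot_iff.1 h)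
  obtain ⟨v, hv, hv0⟩ := Submodule.exists_mem_ne_zero_of_ne_bot h1
  have h2 : (K : Set (EU N)) ⊆ (innerSL ℝ v) ⁻¹' {0} := fun x hx => by
    simpa using (Submodule.mem_orthogonal' _ _).1 hv x hx
  refine measure_mono_null h2 ?_
  rw [← Measure.map_apply (innerSL ℝ v).continuous.measurable (measurableSet_singleton 0),
    IsGaussian.map_eq_gaussianReal, variance_dual_stdGaussian]
  have h3 : (‖innerSL ℝ v‖ ^ 2).toNNReal ≠ 0 := by
    rw [innerSL_apply_norm]
    simpa using hv0
  have := nullSingletonClass_gaussianReal (μ := (stdGaussian (EU N))[innerSL ℝ v]) h3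
  exact measure_singleton 0

theorem ae_li (L : ℕ) (hL : L ≤ N) : ∀ᵐ G ∂gG N L, LinearIndependent ℝ G := by
  induction L with
  | zero => exact Filter.Eventually.of_forall (fun G => linearIndependent_empty_type)
  | succ L ih =>
    have ih' := ih (Nat.le_of_succ_le hL)
    have hmp := (measurePreserving_piFinSuccAbove
      (fun _ : Fin (L + 1) => stdGaussian (EU N)) 0).symm
    set e := (MeasurableEquiv.piFinSuccAbove (fun _ : Fin (L + 1) => EU N) 0).symm with he
    have hms : MeasurableSet {G : Fin (L + 1) → EU N | LinearIndependent ℝ G} :=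
      (isOpen_setOfPred_linearIndependent (𝕜 := ℝ)).measurableSet
    unfold gG
    rw [← hmp.map_eq, ae_map_iff e.measurable.aemeasurable hms]
    have hms2 : MeasurableSet {p : (Fin L → EU N) × EU N | LinearIndependent ℝ (e p.swap)} :=
      (e.measurable.comp measurable_swap) hms
    have hms3 : MeasurableSet {p : EU N × (Fin L → EU N) | LinearIndependent ℝ (e p)} :=
      e.measurable hms
    rw [← Measure.prod_swap, ae_map_iff measurable_swap.aemeasurable hms3,
      Measure.ae_prod_iff_ae_ae hms2]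
    filter_upwards [ih'] with G hG
    have hK : Submodule.span ℝ (Set.range G) ≠ ⊤ := by
      intro h
      have h1 := finrank_span_eq_card hG
      rw [h] at h1
      simp at h1
      omega
    have h0 := null_subspace _ hK
    have : ∀ᵐ x ∂stdGaussian (EU N), x ∉ (Submodule.span ℝ (Set.range G) : Set (EU N)) :=
      measure_eq_zero_iff_ae_notMem.1 h0
    filter_upwards [this] with x hx
    have h2 : e (x, G) = Fin.cons x G := by
      simp [he, MeasurableEquiv.piFinSuccAbove, Fin.insertNthEquiv, Fin.insertNth_zero']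
    change LinearIndependent ℝ (e (x, G))
    rw [h2]
    exact linearIndependent_finCons.2 ⟨hG, hx⟩

theorem norm_sv (σ : Fin N → Bool) : ‖sv σ‖ ^ 2 = N := by
  rw [EuclideanSpace.real_norm_sq_eq]
  have : ∀ i, (sv σ).ofLp i ^ 2 = 1 := fun i => by
    change spin (σ i) ^ 2 = 1
    unfold spin; split_ifs <;> norm_num
  simp [this]

theorem log_avg_bound (f : (Fin N → Bool) → ℝ) (B : ℝ) (h : ∀ σ, |f σ| ≤ B) :
    |log ((∑ σ, exp (f σ)) / 2 ^ N)| ≤ B := by
  have hc : (∑ _σ : Fin N → Bool, (1 : ℝ)) = 2 ^ N := by simp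
  have h2 : (0 : ℝ) < 2 ^ N := by positivity
  have hlo : exp (-B) ≤ (∑ σ, exp (f σ)) / 2 ^ N := by
    rw [le_div_iff₀ h2, ← hc, Finset.mul_sum]
    exact Finset.sum_le_sum (fun σ _ => by
      rw [mul_one]; exact exp_le_exp.2 (abs_le.1 (h σ)).1)
  have hhi : (∑ σ, exp (f σ)) / 2 ^ N ≤ exp B := by
    rw [div_le_iff₀ h2, ← hc, Finset.mul_sum]
    exact Finset.sum_le_sum (fun σ _ => by
      rw [mul_one]; exact exp_le_exp.2 (abs_le.1 (h σ)).2)
  have hpos := (exp_pos _).trans_le hlo
  rw [abs_le]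
  exact ⟨(le_log_iff_exp_le hpos).2 hlo, (log_le_iff_le_exp hpos).2 hhi⟩

theorem abs_FG (hP : PjStmt) (c : Fin L → ℝ) (G : Fin L → EU N) :
    |FG c G| ≤ (∑ t, |c t|) * N / 2 := by
  refine log_avg_bound _ _ (fun σ => ?_)
  rw [abs_div, abs_neg, abs_two, Finset.sum_mul]
  refine div_le_div_of_nonneg_right ((Finset.abs_sum_le_sum_abs _ _).trans
    (Finset.sum_le_sum (fun t _ => ?_))) (by norm_num)
  have h := (hP N L (Iic t) (sv σ)).2 G
  rw [abs_mul, abs_of_nonneg h.1, ← norm_sv σ]
  exact mul_le_mul_of_nonneg_left h.2.1 (abs_nonneg _)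

theorem measurable_FG (hP : PjStmt) (c : Fin L → ℝ) :
    Measurable (fun G : Fin L → EU N => FG c G) := by
  unfold FG
  refine (Measurable.div_const (Finset.measurable_sum _ (fun σ _ => ?_)) _).log
  refine (Measurable.div_const (Measurable.neg (Finset.measurable_sum _ (fun t _ => ?_))) _).exp
  exact ((hP N L (Iic t) (sv σ)).1).const_mul _

theorem FG_act (hO : OApi) (c : Fin L → ℝ) (Λ : Fin N → ℝ) (b : ℝ)
    (hΛ : ∀ i : Fin N, Λ i = b - ∑ t : Fin L, if (i : ℕ) ≤ t then c t else 0)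
    (G : Fin L → EU N) (U : OG (Fin N)) (hU : ∀ (t : Fin L) (z : EU N),
      pj G (Iic t) z = ∑ i : Fin N, if (i : ℕ) ≤ t then (U.1 *ᵥ z.ofLp) i ^ 2 else 0)
    (R : OG (Fin N)) : FG c (fun t => rac R (G t)) + b * N / 2 = F0 Λ (U * R) := by
  have h1 : ∀ σ : Fin N → Bool, ∑ i, Λ i * yy (U * R) σ i ^ 2 / 2 =
      -(∑ t, c t * pj (fun t => rac R (G t)) (Iic t) (sv σ)) / 2 + b * N / 2 := by
    intro σ
    have hy : ∀ i, (U.1 *ᵥ (R.1 *ᵥ (sv σ).ofLp)) i = yy (U * R) σ i := fun i => by
      rw [Matrix.mulVec_mulVec]; rfl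
    have hs := hO.sq (U * R) σ
    rw [Fintype.card_fin] at hs
    simp only [pj_act, hU, hy, hΛ]
    rw [← hs, ← Finset.sum_div, ← add_div]
    congr 1
    simp only [sub_mul, Finset.sum_sub_distrib, Finset.mul_sum, Finset.sum_mul]
    rw [Finset.sum_comm (s := (univ : Finset (Fin L)))]
    simp only [mul_ite, ite_mul, mul_zero, zero_mul]
    ring
  unfold F0 FG
  simp only [h1, exp_add, Fintype.card_fin]
  have hpos : 0 < (∑ σ : Fin N → Bool,
      exp (-(∑ t, c t * pj (fun t => rac R (G t)) (Iic t) (sv σ)) / 2)) / 2 ^ N :=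
    div_pos (Finset.sum_pos (fun σ _ => exp_pos _) Finset.univ_nonempty) (by positivity)
  rw [← Finset.sum_mul, mul_div_right_comm _ (exp _), log_mul hpos.ne' (exp_pos _).ne', log_exp]

theorem continuous_act :
    Continuous (fun p : OG (Fin N) × (Fin L → EU N) => fun t => rac p.1 (p.2 t)) := by
  refine continuous_pi (fun t => ?_)
  unfold rac
  refine (PiLp.continuous_toLp 2 _).comp ?_
  refine Continuous.matrix_mulVec (continuous_subtype_val.comp continuous_fst).matrix_transpose ?_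
  exact (PiLp.continuous_ofLp 2 _).comp ((continuous_apply t).comp continuous_snd)

theorem mp_act (R : OG (Fin N)) :
    MeasurePreserving (fun (G : Fin L → EU N) t => rac R (G t)) (gG N L) (gG N L) :=
  measurePreserving_pi _ _ (f := fun _ => rac R) (fun _ =>
    ⟨(iso R).continuous.measurable, stdGaussian_map (iso R)⟩)

end Rpg

open Rpg in
theorem rpgStmt (hO : OApi) (hP : PjStmt) : RpgStmt := by
  intro N L ν c Λ b φ hν hL hφ hΛ
  have := hν.prob
  have : IsProbabilityMeasure (gG N L) := by unfold gG; infer_instance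
  set ψ : (Fin L → EU N) → ℝ := fun G => φ (FG c G + b * N / 2) with hψ
  have hm : Measurable ψ := hφ.measurable.comp ((measurable_FG hP c).add_const _)
  set B : ℝ := (∑ t, |c t|) * N / 2 with hB
  obtain ⟨C, hC⟩ := (isCompact_Icc (a := -B + b * N / 2) (b := B + b * N / 2)).exists_bound_of_continuousOn
    hφ.continuousOn
  have hbd : ∀ G, ‖ψ G‖ ≤ C := fun G => by
    have h := abs_le.1 (abs_FG (N := N) hP c G)
    exact hC _ ⟨by linarith [h.1], by linarith [h.2]⟩
  have h1 : ∀ R : OG (Fin N), ∫ G, ψ G ∂gG N L = ∫ G, ψ (fun t => rac R (G t)) ∂gG N L := by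
    intro R
    have hmp := mp_act (L := L) R
    conv_lhs => rw [← hmp.map_eq]
    exact integral_map hmp.measurable.aemeasurable hm.aestronglyMeasurable
  have hint : Integrable (Function.uncurry fun (R : OG (Fin N)) (G : Fin L → EU N) =>
      ψ (fun t => rac R (G t))) (ν.prod (gG N L)) :=
    Integrable.of_bound (hm.comp continuous_act.measurable).aestronglyMeasurable C
      (Filter.Eventually.of_forall (fun p => hbd _))
  calc ∫ G, ψ G ∂gG N L = ∫ _R : OG (Fin N), (∫ G, ψ G ∂gG N L) ∂ν := by simp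
    _ = ∫ R : OG (Fin N), (∫ G, ψ (fun t => rac R (G t)) ∂gG N L) ∂ν := by simp only [← h1]
    _ = ∫ G, (∫ R : OG (Fin N), ψ (fun t => rac R (G t)) ∂ν) ∂gG N L := integral_integral_swap hint
    _ = ∫ _G, (∫ U, φ (F0 Λ U) ∂ν) ∂gG N L := by
        refine integral_congr_ae ?_
        filter_upwards [ae_li L hL] with G hG
        obtain ⟨U, hU⟩ := exists_U hL hG
        simp only [hψ, FG_act hO c Λ b hΛ G U hU]
        exact hν.left U (fun U => φ (F0 Λ U)) (hφ.comp (hO.f0 Λ Λ 0).1)
    _ = _ := by simp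

end

end Vale.Agent.P166
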