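import Vale.Agent.P166.Stm

/-! P166: Schur complement identities. -/

namespace Vale.Agent.P166

open Finset Real Matrix Vale.Agent.P157

namespace Schm

variable {J : Type} [Fintype J] [DecidableEq J]

theorem ent {I : Type} [Fintype I] [DecidableEq I] (O : Matrix I I ℝ) (d : I → ℝ) (b c : I) :
    (Oᵀ * diagonal d * O) b c = ∑ a, d a * (O a b * O a c) := by
  rw [mul_apply]
  exact sum_congr rfl fun a _ => by rw [mul_diagonal, transpose_apply]; ring

theorem hous (r : Option J → ℝ) (h0 : 0 ≤ r none) (h1 : ∑ a, r a ^ 2 = 1) :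
    ∃ H : Matrix (Option J) (Option J) ℝ, Hᵀ * H = 1 ∧ ∀ a, H a none = r a := by
  set u : Option J → ℝ := fun a => r a + if a = none then 1 else 0 with hu
  have c0 : 1 + r none ≠ 0 := by positivity
  have huu : u ⬝ᵥ u = 2 * (1 + r none) := by
    simp only [dotProduct, hu, Fintype.sum_option] at h1 ⊢
    simp only [if_true, reduceCtorEq, if_false, add_zero, ← sq]
    linarith
  refine ⟨(1 + r none)⁻¹ • vecMulVec u u - 1, ?_, fun a => ?_⟩
  · rw [transpose_sub, transpose_smul, transpose_vecMulVec, transpose_one, sub_mul, mul_sub, mul_sub,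
      Matrix.smul_mul, Matrix.mul_smul, vecMulVec_mul_vecMulVec, huu, Matrix.mul_one, Matrix.one_mul,
      Matrix.one_mul, vecMulVec_smul, smul_smul, smul_smul,
      show (1 + r none)⁻¹ * (1 + r none)⁻¹ * (2 * (1 + r none)) = (1 + r none)⁻¹ + (1 + r none)⁻¹ by
        field_simp; ring, add_smul]
    abel
  · simp only [Matrix.sub_apply, Matrix.smul_apply, vecMulVec_apply, hu, one_apply, if_true,
      smul_eq_mul]
    field_simp
    ring

theorem diag (r d : Option J → ℝ) (h0 : 0 ≤ r none) (h1 : ∑ a, r a ^ 2 = 1) :
    ∃ (O : Matrix (Option J) (Option J) ℝ) (nu : J → ℝ), Oᵀ * O = 1 ∧ (∀ a, O a none = r a) ∧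
      ∀ j j', (Oᵀ * diagonal d * O) (some j) (some j') = if j = j' then nu j else 0 := by
  obtain ⟨H, hH, hr⟩ := hous r h0 h1
  have hB : ((Hᵀ * diagonal d * H).submatrix some some).IsHermitian := by
    ext j j'
    simp only [conjTranspose_apply, submatrix_apply, ent, star_trivial, mul_comm (H _ (some j))]
  set Q : Matrix J J ℝ := hB.eigenvectorUnitary.1 with hQ
  have q1 : Qᵀ * Q = 1 := hB.eigenvectorUnitary.2.1
  have q2 : Qᵀ * (Hᵀ * diagonal d * H).submatrix some some * Q = diagonal hB.eigenvalues := by
    have := hB.conjStarAlgAut_star_eigenvectorUnitary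
    simp only [Unitary.conjStarAlgAut_apply, Unitary.coe_star, star_star] at this
    exact this
  set P : Matrix (Option J) (Option J) ℝ := of fun a b =>
    a.elim (b.elim 1 fun _ => 0) fun i => b.elim 0 fun j => Q i j with hP
  have p1 : Pᵀ * P = 1 := by
    ext a b
    rw [mul_apply, Fintype.sum_option]
    rcases a with _ | j <;> rcases b with _ | j'
    · simp [hP]
    · simp [hP]
    · simp [hP]
    · have := congrFun (congrFun q1 j) j'
      simpa [hP, mul_apply, one_apply] using this
  refine ⟨H * P, hB.eigenvalues, ?_, fun a => ?_, fun j j' => ?_⟩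
  · rw [transpose_mul, Matrix.mul_assoc, ← Matrix.mul_assoc Hᵀ, hH, Matrix.one_mul, p1]
  · simp [mul_apply, Fintype.sum_option, hP, hr]
  · have := congrFun (congrFun q2 j) j'
    rw [diagonal_apply] at this
    rw [← this, transpose_mul, show Pᵀ * Hᵀ * diagonal d * (H * P) =
      Pᵀ * (Hᵀ * diagonal d * H) * P by simp only [Matrix.mul_assoc]]
    generalize Hᵀ * diagonal d * H = M
    simp [mul_apply, Fintype.sum_option, hP]

theorem core {O : Matrix (Option J) (Option J) ℝ} (hO : Oᵀ * O = 1) {D : Option J → ℝ}
    (hD : ∀ a, D a ≠ 0) {E : J → ℝ}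
    (hE : ∀ j j', (Oᵀ * diagonal D * O) (some j) (some j') = if j = j' then E j else 0) :
    (Oᵀ * diagonal D * O) *ᵥ (Oᵀ *ᵥ fun a => O a none / D a) = Pi.single none 1 ∧
      (∏ a, D a) * ∑ a, O a none ^ 2 / D a = ∏ j, E j := by
  have hO' : O * Oᵀ = 1 := mul_eq_one_comm.1 hO
  have h1 : (Oᵀ * diagonal D * O) *ᵥ (Oᵀ *ᵥ fun a => O a none / D a) = Pi.single none 1 := by
    rw [mulVec_mulVec, Matrix.mul_assoc, hO', Matrix.mul_one, ← mulVec_mulVec]
    have : (diagonal D *ᵥ fun a => O a none / D a) = O *ᵥ Pi.single none 1 := by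
      ext a
      rw [mulVec_diagonal, mul_div_cancel₀ _ (hD a)]
      simp
    rw [this, mulVec_mulVec, hO, one_mulVec]
  refine ⟨h1, ?_⟩
  have d1 : (Oᵀ * diagonal D * O).det = ∏ a, D a := by
    have := congrArg det hO
    rw [det_mul, det_one] at this
    rw [det_mul, det_mul, det_diagonal, mul_right_comm, this, one_mul]
  have d2 : ∀ z : Option J → ℝ, ((1 : Matrix (Option J) (Option J) ℝ).updateCol none z).det =
      z none := fun z => by rw [← cramer_apply, cramer_one]; rfl
  have key : (Oᵀ * diagonal D * O) * (1 : Matrix (Option J) (Option J) ℝ).updateCol none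
      (Oᵀ *ᵥ fun a => O a none / D a) = diagonal (fun a => a.elim 1 E) *
      ((1 : Matrix (Option J) (Option J) ℝ).updateCol none
        fun b => b.elim 1 fun j => (Oᵀ * diagonal D * O) none (some j))ᵀ := by
    rw [mul_updateCol, h1, Matrix.mul_one]
    ext a b
    rw [diagonal_mul, transpose_apply]
    rcases a with _ | j <;> rcases b with _ | j'
    · simp
    · simp
    · simp
    · simp [hE, one_apply, eq_comm]
  have := congrArg det key
  rw [det_mul, d1, det_mul, d2, det_transpose, d2, det_diagonal, Fintype.prod_option] at this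
  simpa [mulVec, dotProduct, sq, mul_div_assoc] using this

end Schm

open Schm in
theorem schStmt : SchStmt := by
  intro κ J _ _ _ _ τ cl α lam Γ η g0 hη hg hα hW hgap
  have sc : ∀ f : κ → ℝ, ∑ a, f (cl a) = ∑ k, f k := fun f => cl.sum_comp f
  have rs : ∀ a, √(α (cl a)) ^ 2 = α (cl a) := fun a => sq_sqrt (hW.nn _)
  obtain ⟨O, nu, hO, hr, hn⟩ := diag (fun a => √(α (cl a))) (fun a => lam (cl a)) (sqrt_nonneg _)
    (by simp only [rs]; rw [sc α, hW.sum])
  have hO' : O * Oᵀ = 1 := mul_eq_one_comm.1 hO
  have o1 : ∀ b c, ∑ a, O a b * O a c = if b = c then 1 else 0 := fun b c => by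
    have := congrFun (congrFun hO b) c
    simpa [mul_apply, one_apply] using this
  have o2 : ∀ a, α (cl a) + ∑ j, O a (some j) * O a (some j) = 1 := fun a => by
    have := congrFun (congrFun hO' a) a
    rw [mul_apply, Fintype.sum_option, one_apply_eq] at this
    simpa only [transpose_apply, hr, mul_self_sqrt (hW.nn _)] using this
  simp only [ent] at hn
  have m0 : ∑ a, lam (cl a) * (O a none * O a none) = mn α lam := by
    simp only [hr, mul_self_sqrt (hW.nn _)]
    rw [sc fun k => lam k * α k, mn]
    exact sum_congr rfl fun _ _ => mul_comm _ _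
  set γ : J → ℝ := fun j => ∑ a, lam (cl a) * (O a none * O a (some j)) with hγ
  have th0 : ∀ k, 0 ≤ lam τ - lam k := fun k => sub_nonneg.2 (hW.le k (hη.trans_le (hα k)))
  have gap : ∀ j, g0 * η ≤ lam τ - nu j := fun j => by
    have e : lam τ - nu j = ∑ a, (lam τ - lam (cl a)) * (O a (some j) * O a (some j)) := by
      simp only [sub_mul, sum_sub_distrib, ← mul_sum, o1, hn, if_true, mul_one]
    have b := o2 (cl.symm τ)
    rw [cl.apply_symm_apply] at b
    have b2 := single_le_sum (f := fun j => O (cl.symm τ) (some j) * O (cl.symm τ) (some j))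
      (fun _ _ => mul_self_nonneg _) (mem_univ j)
    have b3 := o1 (some j) (some j)
    rw [if_pos rfl, ← add_sum_erase _ _ (mem_univ (cl.symm τ))] at b3
    have b4 : g0 * ∑ a ∈ univ.erase (cl.symm τ), O a (some j) * O a (some j) ≤ lam τ - nu j := by
      rw [e, mul_sum]
      refine (sum_le_sum fun a ha => mul_le_mul_of_nonneg_right (by
        linarith [hgap (cl a) fun h => (mem_erase.1 ha).1 (cl.eq_symm_apply.2 h)])
        (mul_self_nonneg _)).trans (sum_le_sum_of_subset_of_nonneg (erase_subset _ _)
          fun a _ _ => mul_nonneg (th0 _) (mul_self_nonneg _))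
    exact (mul_le_mul_of_nonneg_left (by linarith [hα τ]) hg.le).trans b4
  have bd : ∀ b c, |∑ a, lam (cl a) * (O a b * O a c)| ≤ Γ := fun b c => by
    calc _ ≤ ∑ a, Γ / 2 * (O a b * O a b + O a c * O a c) := by
          refine (abs_sum_le_sum_abs _ _).trans (sum_le_sum fun a _ => ?_)
          rw [abs_mul, div_mul_eq_mul_div, mul_div_assoc]
          refine mul_le_mul (hW.bd _) (abs_le.2 ⟨?_, ?_⟩) (abs_nonneg _)
            ((abs_nonneg _).trans (hW.bd τ))
          · nlinarith [sq_nonneg (O a b + O a c)]
          · nlinarith [sq_nonneg (O a b - O a c)]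
      _ = Γ := by
          rw [← mul_sum, sum_add_distrib, o1, o1]
          simp only [if_true]
          ring
  refine ⟨nu, γ, ⟨⟨O, (mem_orthogonalGroup_iff' _ _).2 hO⟩, hr, fun ε x => ?_⟩,
    fun j => ⟨gap j, by simpa only [hn, if_true] using bd (some j) (some j), bd _ _⟩, fun x hx => ?_⟩
  · have : ∀ a, lam (cl a) * (O a none * ε + ∑ j, O a (some j) * x j) ^ 2 =
        lam (cl a) * (O a none * O a none) * ε ^ 2 +
        2 * ε * ∑ j, lam (cl a) * (O a none * O a (some j)) * x j +
        ∑ j, ∑ j', lam (cl a) * (O a (some j) * O a (some j')) * (x j * x j') := fun a => by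
      rw [add_sq, sq (∑ j, _), sum_mul_sum, mul_add, mul_add]
      simp only [mul_sum]
      congr 1
      · congr 1
        · ring
        · exact sum_congr rfl fun _ _ => by ring
      · exact sum_congr rfl fun _ _ => sum_congr rfl fun _ _ => by ring
    simp only [this, sum_add_distrib]
    rw [← sum_mul, m0, ← mul_sum, sum_comm]
    simp only [← sum_mul]
    rw [sum_comm (s := (univ : Finset (Option J)))]
    congr 1
    refine sum_congr rfl fun j _ => ?_
    rw [sum_comm]
    simp only [← sum_mul, hn]
    simp [sq]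
  · have D0 : ∀ k, 0 < 1 + (lam τ - lam k) * x := fun k => by have := th0 k; positivity
    have E0 : ∀ j, 0 < 1 + (lam τ - nu j) * x := fun j => by
      have := (mul_pos hg hη).trans_le (gap j); positivity
    have eA : ∀ b c, (Oᵀ * diagonal (fun a => 1 + (lam τ - lam (cl a)) * x) * O) b c =
        (1 + lam τ * x) * (if b = c then 1 else 0) - x * ∑ a, lam (cl a) * (O a b * O a c) :=
      fun b c => by
        rw [ent, ← o1, mul_sum, mul_sum, ← sum_sub_distrib]
        exact sum_congr rfl fun _ _ => by ring
    obtain ⟨c1, c2⟩ := core hO (fun a => (D0 (cl a)).ne') (E := fun j => 1 + (lam τ - nu j) * x)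
      fun j j' => by
        rw [eA, hn]
        simp only [Option.some.injEq]
        split_ifs <;> ring
    have z0 : ∑ a, O a none ^ 2 / (1 + (lam τ - lam (cl a)) * x) = rho α lam τ x := by
      simp only [hr, rs]
      exact sc fun k => α k / (1 + (lam τ - lam k) * x)
    have r0 : 0 < rho α lam τ x := sum_pos (fun k _ => div_pos (hη.trans_le (hα k)) (D0 k)) ⟨τ, mem_univ τ⟩
    constructor
    · have := congrArg log c2
      rw [z0, log_mul (prod_ne_zero_iff.2 fun a _ => (D0 _).ne') r0.ne', log_prod
        (fun a _ => (D0 _).ne'), log_prod (fun j _ => (E0 j).ne'),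
        sc fun k => log (1 + (lam τ - lam k) * x)] at this
      simp only [lg, neg_div, sum_neg_distrib, ← sum_div]
      linarith
    · set z := Oᵀ *ᵥ fun a => O a none / (1 + (lam τ - lam (cl a)) * x) with hz
      have z1 : z none = rho α lam τ x := by
        rw [← z0]
        simp [hz, mulVec, dotProduct, sq, mul_div_assoc]
      have z2 : ∀ j, z (some j) = γ j * ph (lam τ - nu j) x * rho α lam τ x := fun j => by
        have := congrFun c1 (some j)
        have g : ∑ a, lam (cl a) * (O a (some j) * O a none) = γ j :=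
          sum_congr rfl fun _ _ => by ring
        rw [Pi.single_eq_of_ne (Option.some_ne_none j), mulVec, dotProduct, Fintype.sum_option, eA,
          g, z1, sum_eq_single j (fun i _ hi => by
            rw [eA, hn]; simp [hi.symm]) (by simp), eA, hn] at this
        simp only [if_true, reduceCtorEq, if_false] at this
        rw [ph, mul_right_comm, ← mul_div_assoc, eq_div_iff (E0 j).ne']
        linear_combination this
      have w : ∀ a, O a none / (1 + (lam τ - lam (cl a)) * x) = ∑ b, O a b * z b := fun a => by
        have := congrFun (mulVec_mulVec (fun a => O a none / (1 + (lam τ - lam (cl a)) * x)) O Oᵀ) a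
        rw [hO', one_mulVec] at this
        exact this.symm
      have e : ∑ k, α k * (lam τ - lam k) / (1 + (lam τ - lam k) * x) =
          (lam τ - mn α lam - ∑ j, γ j ^ 2 * ph (lam τ - nu j) x) * rho α lam τ x := by
        rw [← sc fun k => α k * (lam τ - lam k) / (1 + (lam τ - lam k) * x)]
        calc _ = ∑ a, ∑ b, (lam τ * (O a none * O a b) - lam (cl a) * (O a none * O a b)) * z b := by
              refine sum_congr rfl fun a _ => ?_
              rw [← mul_self_sqrt (hW.nn (cl a)), ← hr, mul_right_comm, mul_div_assoc, w, mul_sum]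
              exact sum_congr rfl fun _ _ => by ring
          _ = _ := by
              rw [sum_comm]
              simp only [← sum_mul, sum_sub_distrib, ← mul_sum, o1]
              rw [Fintype.sum_option, m0, z1, sub_mul _ (∑ j, _), sum_mul, sub_eq_add_neg _ (∑ j, _),
                ← sum_neg_distrib]
              simp only [if_true, mul_one, reduceCtorEq, if_false, z2]
              congr 1
              exact sum_congr rfl fun j _ => by ring
      rw [bt, e, mul_div_cancel_right₀ _ r0.ne']
      ring

end Vale.Agent.P166
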