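import Vale.Agent.P166.Stm

/-! P166 module Sec: secant path. -/

namespace Vale.Agent.P166

open Finset Real Vale.Agent.P157

namespace Secm

lemma xi_succ (n : ℕ) (p : ℕ → ℝ) (d : ℕ) :
    xi n p (d + 1) = xi n p d + (1 - (d : ℝ) / n) * (p d - p (d + 1)) := by
  simp [xi, sum_range_succ]

lemma ell_succ (n : ℕ) (p : ℕ → ℝ) (d : ℕ) :
    ell n p (d + 1) = ell n p d - (1 / (n : ℝ)) * p (d + 1) := by
  unfold ell
  rw [sum_Icc_succ_top (by omega)]
  ring

lemma xi_eq (n : ℕ) (p : ℕ → ℝ) (d : ℕ) :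
    xi n p d = ell n p d - (1 - (d : ℝ) / n) * p d := by
  induction d with
  | zero => simp [xi, ell]
  | succ d ih =>
    rw [xi_succ, ell_succ, ih]
    push_cast
    ring

lemma m_pos {n d : ℕ} (h : d < n) : 0 < 1 - (d : ℝ) / n := by
  have hn : (0 : ℝ) < n := by exact_mod_cast (by omega : 0 < n)
  have : (d : ℝ) < n := by exact_mod_cast h
  rw [sub_pos, div_lt_one hn]
  exact this

lemma tel (f : ℕ → ℝ) (n : ℕ) : ∑ d ∈ range n, (f d - f (d + 1)) = f 0 - f n := by
  induction n with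
  | zero => simp
  | succ n ih => rw [sum_range_succ, ih]; ring

lemma ico_step (s : ℕ → ℝ) {l n : ℕ} (h : l < n) :
    ∑ j ∈ Ico l n, s j - ∑ j ∈ Ico (l + 1) n, s j = s l := by
  rw [sum_eq_sum_Ico_succ_bot h]
  ring

end Secm

open Secm

theorem secStmt (hT : TApi) : SecStmt := by
  intro n h X L M p p' hn hL hS hp hp' hX hX'
  obtain ⟨σ, hσ⟩ := hS
  have hb : ∀ d, d ≤ n → 0 ≤ xi n p d ∧ xi n p d ≤ X := fun d hd =>
    ⟨(hT.xi_mono hp d d le_rfl hd).1, (hT.xi_mono hp d d le_rfl hd).2.2.trans hX⟩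
  have hb' : ∀ d, d ≤ n → 0 ≤ xi n p' d ∧ xi n p' d ≤ X := fun d hd =>
    ⟨(hT.xi_mono hp' d d le_rfl hd).1, (hT.xi_mono hp' d d le_rfl hd).2.2.trans hX'⟩
  set si : ℕ → ℝ := fun d => σ (xi n p d) (xi n p' d) with hsi
  have hS : ∀ d, d ≤ n → h (xi n p d) - h (xi n p' d) = si d * (xi n p d - xi n p' d) ∧
      0 ≤ si d ∧ si d ≤ M := fun d hd => by
    have := hσ _ _ (hb d hd).1 (hb d hd).2 (hb' d hd).1 (hb' d hd).2
    exact ⟨this.1, this.2.1, this.2.2.1⟩
  have hI : ∀ d, d < n → si d ≤ si (d + 1) ∧ si (d + 1) - si d ≤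
      L * ((xi n p (d + 1) - xi n p d) + (xi n p' (d + 1) - xi n p' d)) := fun d hd => by
    have := hσ _ _ (hb d hd.le).1 (hb d hd.le).2 (hb' d hd.le).1 (hb' d hd.le).2
    exact this.2.2.2 _ _ (hT.xi_mono hp d (d + 1) (by omega) hd).2.1 (hb (d + 1) hd).2
      (hT.xi_mono hp' d (d + 1) (by omega) hd).2.1 (hb' (d + 1) hd).2
  set s : ℕ → ℝ := fun l => 2 * ((si (l + 1) - si l) / (1 - (l : ℝ) / n)) +
    (if l = 0 then 2 * si 0 else 0) with hs
  have hs0 : ∀ l, l < n → 0 ≤ s l := fun l hl => by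
    have h1 := div_nonneg (sub_nonneg.2 (hI l hl).1) (m_pos hl).le
    have h2 := (hS 0 (by omega)).2.1
    simp only [hs]
    split_ifs <;> linarith
  have hif : ∀ g : ℕ → ℝ, ∑ l ∈ range n, (if l = 0 then 2 * si 0 else 0) * g l = 2 * si 0 * g 0 := by
    intro g
    rw [sum_eq_single 0]
    · simp
    · intro b _ hb0; simp [hb0]
    · intro h0; exact absurd (mem_range.2 (by omega)) h0
  refine ⟨fun d => ∑ j ∈ Ico d n, s j, ⟨fun d hd => ?_, by simp⟩, ?_, ?_⟩
  · have := ico_step s hd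
    have := hs0 d hd
    show ∑ j ∈ Ico (d + 1) n, s j ≤ ∑ j ∈ Ico d n, s j
    linarith
  · show ∑ j ∈ Ico 0 n, s j ≤ _
    rw [← range_eq_Ico]
    simp only [hs]
    rw [sum_add_distrib]
    have h1 := hif (fun _ => 1)
    simp only [mul_one] at h1
    rw [h1]
    have h2 : ∑ l ∈ range n, 2 * ((si (l + 1) - si l) / (1 - (l : ℝ) / n)) ≤
        ∑ l ∈ range n, 2 * L * ((p l - p (l + 1)) + (p' l - p' (l + 1))) := by
      refine sum_le_sum fun l hl => ?_
      have hl := mem_range.1 hl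
      have hm := m_pos hl
      have h3 := (hI l hl).2
      rw [xi_succ, xi_succ] at h3
      have : (si (l + 1) - si l) / (1 - (l : ℝ) / n) ≤
          L * ((p l - p (l + 1)) + (p' l - p' (l + 1))) := by
        rw [div_le_iff₀ hm]
        nlinarith
      linarith
    rw [← mul_sum (range n) _ (2 * L), sum_add_distrib, tel p, tel p', hp.2, hp'.2] at h2
    have := (hS 0 (by omega)).2.2
    linarith
  · have h1 : ∀ l ∈ range n, (∑ j ∈ Ico l n, s j - ∑ j ∈ Ico (l + 1) n, s j) *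
        (ell n p l - ell n p' l) / 2 =
        (si (l + 1) - si l) / (1 - (l : ℝ) / n) * (ell n p l - ell n p' l) +
          (if l = 0 then 2 * si 0 else 0) * ((ell n p l - ell n p' l) / 2) := by
      intro l hl
      rw [ico_step s (mem_range.1 hl)]
      simp only [hs]
      ring
    rw [sum_congr rfl h1, sum_add_distrib, hif (fun l => (ell n p l - ell n p' l) / 2)]
    unfold tr
    rw [← sum_sub_distrib]
    have h2 : ∀ l ∈ range n, (h (xi n p (l + 1)) - h (xi n p l)) / (1 - (l : ℝ) / n) -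
        (h (xi n p' (l + 1)) - h (xi n p' l)) / (1 - (l : ℝ) / n) =
        (si (l + 1) - si l) / (1 - (l : ℝ) / n) * (ell n p l - ell n p' l) +
          (si l * (p l - p' l) - si (l + 1) * (p (l + 1) - p' (l + 1))) := by
      intro l hl
      have hl := mem_range.1 hl
      have hm := (m_pos hl).ne'
      have a1 := (hS l hl.le).1
      have a2 := (hS (l + 1) hl).1
      have e1 : xi n p (l + 1) - xi n p' (l + 1) =
          (ell n p l - ell n p' l) - (1 - (l : ℝ) / n) * (p (l + 1) - p' (l + 1)) := by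
        rw [xi_succ, xi_succ, xi_eq, xi_eq]; ring
      have e2 : xi n p l - xi n p' l =
          (ell n p l - ell n p' l) - (1 - (l : ℝ) / n) * (p l - p' l) := by
        rw [xi_eq, xi_eq]; ring
      rw [e1] at a2
      rw [e2] at a1
      rw [← sub_div, show h (xi n p (l + 1)) - h (xi n p l) - (h (xi n p' (l + 1)) - h (xi n p' l)) =
        (h (xi n p (l + 1)) - h (xi n p' (l + 1))) - (h (xi n p l) - h (xi n p' l)) by ring, a1, a2]
      generalize (1 - (l : ℝ) / n) = m at hm ⊢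
      field_simp
      ring
    rw [sum_congr rfl h2, sum_add_distrib, tel (fun l => si l * (p l - p' l)), hp.2, hp'.2]
    simp [ell]
    ring

end Vale.Agent.P166
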