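import Vale.Agent.P166.Stm

/-! Secant slopes of a function given through the parametrisation `Xi`. -/

namespace Vale.Agent.P166

open Finset Real Filter Topology Vale.Agent.P157

noncomputable section

namespace Sepx

theorem xi_der {κ : Type} [Fintype κ] {α lam : κ → ℝ} {τ : κ} {Γ η : ℝ} (hW : Wt α lam τ Γ η)
    {x : ℝ} (hx : 0 ≤ x) :
    HasDerivAt (Xi α lam τ) (∑ k, α k / (1 + (lam τ - lam k) * x) ^ 2) x := by
  have : Xi α lam τ = fun x => ∑ k, α k * ph (lam τ - lam k) x := rfl
  rw [this]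
  refine HasDerivAt.fun_sum (fun k _ => ?_)
  rcases (hW.nn k).eq_or_lt with h | h
  · rw [← h]
    simp only [zero_mul, zero_div]
    exact hasDerivAt_const _ _
  · have hθ : 0 ≤ lam τ - lam k := sub_nonneg.2 (hW.le k h)
    have hne : 1 + (lam τ - lam k) * x ≠ 0 := by positivity
    have h1 := ((hasDerivAt_id x).div (((hasDerivAt_id x).const_mul (lam τ - lam k)).const_add 1)
      hne).const_mul (α k)
    refine h1.congr_deriv ?_
    simp only [id]
    field_simp
    ring

theorem mono_of_der {G G' : ℝ → ℝ} {a b : ℝ} (hab : a ≤ b)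
    (hd : ∀ x, a ≤ x → x ≤ b → HasDerivAt G (G' x) x) (h0 : ∀ x, a ≤ x → x ≤ b → 0 ≤ G' x) :
    G a ≤ G b := by
  have := monotoneOn_of_deriv_nonneg (convex_Icc a b) (f := G)
    (fun x hx => (hd x hx.1 hx.2).continuousAt.continuousWithinAt)
    (fun x hx => by
      have hx' := interior_subset hx
      exact (hd x hx'.1 hx'.2).differentiableAt.differentiableWithinAt)
    (fun x hx => by
      have hx' := interior_subset hx
      rw [(hd x hx'.1 hx'.2).deriv]; exact h0 x hx'.1 hx'.2)
  exact this ⟨le_rfl, hab⟩ ⟨hab, le_rfl⟩ hab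

/-- the secant slopes as averages of a monotone Lipschitz derivative -/
theorem sec_of {h r : ℝ → ℝ} {X L M : ℝ} (hL : 0 ≤ L)
    (hr : ∀ u v, u ≤ v → 0 ≤ r u ∧ r v ≤ M ∧ r u ≤ r v ∧ r v - r u ≤ L * (v - u))
    (hs : ∀ u v, 0 ≤ u → u ≤ v → v ≤ X → r u * (v - u) ≤ h v - h u ∧ h v - h u ≤ r v * (v - u)) :
    Sec h X L M := by
  have hlip : ∀ u v, |r u - r v| ≤ L * |u - v| := by
    intro u v
    rcases le_total u v with h1 | h1
    · rw [abs_sub_comm, abs_sub_comm u, abs_of_nonneg (sub_nonneg.2 (hr u v h1).2.2.1),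
        abs_of_nonneg (sub_nonneg.2 h1)]
      exact (hr u v h1).2.2.2
    · rw [abs_of_nonneg (sub_nonneg.2 (hr v u h1).2.2.1), abs_of_nonneg (sub_nonneg.2 h1)]
      exact (hr v u h1).2.2.2
  have hc : Continuous r := (LipschitzWith.of_dist_le' (K := L) (fun u v => hlip u v)).continuous
  have hq : ∀ u v, u ∈ Set.Icc 0 X → v ∈ Set.Icc 0 X →
      |h v - h u - (v - u) * r u| ≤ L * |v - u| ^ 2 := by
    intro u v hu hv
    rw [sq_abs, abs_le]
    rcases le_total u v with h1 | h1
    · obtain ⟨a1, a2⟩ := hs u v hu.1 h1 hv.2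
      have a3 := mul_le_mul_of_nonneg_right (hr u v h1).2.2.2 (sub_nonneg.2 h1)
      have a4 : 0 ≤ L * (v - u) ^ 2 := by positivity
      constructor <;> nlinarith
    · obtain ⟨a1, a2⟩ := hs v u hv.1 h1 hu.2
      have a3 := mul_le_mul_of_nonneg_right (hr v u h1).2.2.2 (sub_nonneg.2 h1)
      have a4 : 0 ≤ L * (v - u) ^ 2 := by positivity
      constructor <;> nlinarith
  have hd : ∀ u, u ∈ Set.Icc 0 X → HasDerivWithinAt h (r u) (Set.Icc 0 X) u := by
    intro u hu
    rw [hasDerivWithinAt_iff_isLittleO]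
    have h1 : (fun v => h v - h u - (v - u) • r u) =O[𝓝[Set.Icc 0 X] u] fun v => ‖v - u‖ ^ 2 := by
      refine Asymptotics.IsBigO.of_bound L ?_
      filter_upwards [self_mem_nhdsWithin] with v hv
      simpa using hq u v hu hv
    refine h1.trans_isLittleO ?_
    exact (Asymptotics.isLittleO_pow_sub_sub u (by norm_num : 1 < 2)).mono nhdsWithin_le_nhds
  have hcc : ∀ x y : ℝ, Continuous fun t : ℝ => r (y + t * (x - y)) := fun x y =>
    hc.comp (continuous_const.add (continuous_id.mul continuous_const))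
  refine ⟨fun x y => ∫ t in (0 : ℝ)..1, r (y + t * (x - y)), fun x y hx0 hxX hy0 hyX => ⟨?_, ?_, ?_,
    fun x' y' hx hx' hy hy' => ⟨?_, ?_⟩⟩⟩
  · have hm : Set.MapsTo (fun t : ℝ => y + t * (x - y)) (Set.Icc 0 1) (Set.Icc 0 X) := by
      intro t ht
      constructor
      · nlinarith [ht.1, ht.2]
      · nlinarith [ht.1, ht.2]
    have hφ : ∀ t ∈ Set.Icc (0 : ℝ) 1, HasDerivWithinAt (fun t : ℝ => h (y + t * (x - y)))
        (r (y + t * (x - y)) * (x - y)) (Set.Icc 0 1) t := by
      intro t ht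
      have h1 : HasDerivWithinAt (fun t : ℝ => y + t * (x - y)) (x - y) (Set.Icc 0 1) t := by
        have := (((hasDerivAt_id t).mul_const (x - y)).const_add y).hasDerivWithinAt
          (s := Set.Icc 0 1)
        rw [one_mul] at this
        exact this
      exact (hd _ (hm ht)).comp t h1 hm
    have := intervalIntegral.integral_eq_sub_of_hasDerivAt_of_le (zero_le_one' ℝ)
      (fun t ht => (hφ t ht).continuousWithinAt)
      (fun t ht => (hφ t (Set.Ioo_subset_Icc_self ht)).hasDerivAt (Icc_mem_nhds ht.1 ht.2))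
      (((hcc x y).mul continuous_const).intervalIntegrable _ _)
    rw [intervalIntegral.integral_mul_const] at this
    rw [this]; simp
  · exact intervalIntegral.integral_nonneg zero_le_one (fun t _ => (hr _ _ le_rfl).1)
  · have := intervalIntegral.integral_mono_on (μ := MeasureTheory.volume) zero_le_one
      ((hcc x y).intervalIntegrable _ _) (continuous_const.intervalIntegrable _ _)
      (g := fun _ => M) (fun t _ => (hr _ _ le_rfl).2.1)
    simpa using this
  · exact intervalIntegral.integral_mono_on zero_le_one ((hcc x y).intervalIntegrable _ _)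
      ((hcc x' y').intervalIntegrable _ _) (fun t ht => (hr _ _ (by nlinarith [ht.1, ht.2])).2.2.1)
  · beta_reduce
    rw [← intervalIntegral.integral_sub ((hcc x' y').intervalIntegrable _ _)
      ((hcc x y).intervalIntegrable _ _)]
    have := intervalIntegral.integral_mono_on (μ := MeasureTheory.volume) zero_le_one
      (((hcc x' y').sub (hcc x y)).intervalIntegrable _ _) (continuous_const.intervalIntegrable _ _)
      (g := fun _ => L * ((x' - x) + (y' - y))) (fun t ht => by
        have h1 : y + t * (x - y) ≤ y' + t * (x' - y') := by nlinarith [ht.1, ht.2]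
        refine (hr _ _ h1).2.2.2.trans (mul_le_mul_of_nonneg_left ?_ hL)
        nlinarith [ht.1, ht.2])
    simpa using this

end Sepx

open Sepx in
theorem sepStmt (hD : DApi) : SepStmt := by
  intro κ _ α lam τ Γ η X L M F ρ h hη hL hW hF hρ hh
  rcases lt_or_ge X 0 with hX | hX
  · exact ⟨fun _ _ => 0, fun x y h1 h2 => absurd (h1.trans h2) (not_le.2 hX)⟩
  choose! iv hiv using hD.surj hη hW
  have hivm : ∀ u v, 0 ≤ u → u ≤ v → iv u ≤ iv v ∧ η * (iv v - iv u) ≤ v - u := by
    intro u v hu huv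
    obtain ⟨a1, -, a3⟩ := hiv u hu
    obtain ⟨b1, -, b3⟩ := hiv v (hu.trans huv)
    have h1 : iv u ≤ iv v := by
      by_contra hc
      have hc := not_le.1 hc
      have := (hD.xlip hη hW _ _ b1 hc.le).1
      rw [a3, b3] at this
      nlinarith
    have := (hD.xlip hη hW _ _ a1 h1).1
    rw [a3, b3] at this
    exact ⟨h1, this⟩
  have hivX : ∀ v, 0 ≤ v → v ≤ X → iv v ≤ X / η := fun v h0 h1 =>
    (hiv v h0).2.1.trans (div_le_div_of_nonneg_right h1 hη.le)
  set cl : ℝ → ℝ := fun u => max 0 (min u X) with hcl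
  have cl0 : ∀ u, 0 ≤ cl u := fun u => le_max_left _ _
  have clX : ∀ u, cl u ≤ X := fun u => max_le hX (min_le_right _ _)
  have clm : ∀ u v, u ≤ v → cl u ≤ cl v ∧ cl v - cl u ≤ v - u := by
    intro u v huv
    simp only [hcl, max_def, min_def]
    split_ifs <;> constructor <;> linarith
  have cle : ∀ u, 0 ≤ u → u ≤ X → cl u = u := fun u h0 h1 => by
    simp only [hcl]; rw [min_eq_left h1, max_eq_right h0]
  have hD0 : ∀ x, 0 ≤ ∑ k, α k / (1 + (lam τ - lam k) * x) ^ 2 := fun x =>
    sum_nonneg (fun k _ => div_nonneg (hW.nn k) (sq_nonneg _))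
  refine sec_of (r := fun u => ρ (iv (cl u))) (by positivity) (fun u v huv => ?_)
    (fun u v hu huv hv => ?_)
  · obtain ⟨a1, a2⟩ := clm u v huv
    obtain ⟨b1, b2⟩ := hivm _ _ (cl0 u) a1
    obtain ⟨c1, c2, c3, c4⟩ := hρ _ _ (hiv _ (cl0 u)).1 b1 (hivX _ (cl0 v) (clX v))
    refine ⟨c1, c2, c3, c4.trans ?_⟩
    have : iv (cl v) - iv (cl u) ≤ (v - u) / η := by
      rw [le_div_iff₀ hη]; linarith
    refine (mul_le_mul_of_nonneg_left this hL).trans (le_of_eq ?_)
    ring
  · rw [cle u hu (huv.trans hv), cle v (hu.trans huv) hv]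
    obtain ⟨a1, -, a3⟩ := hiv u hu
    obtain ⟨b1, -, b3⟩ := hiv v (hu.trans huv)
    have hab := (hivm u v hu huv).1
    have hbX := hivX v (hu.trans huv) hv
    have e1 := hh _ a1
    have e2 := hh _ b1
    rw [a3] at e1
    rw [b3] at e2
    constructor
    · have := mono_of_der (G := fun x => F x - ρ (iv u) * Xi α lam τ x) hab
        (fun x hx _ => (hF x (a1.trans hx)).sub ((xi_der hW (a1.trans hx)).const_mul _))
        (fun x hx hx' => by
          have := (hρ _ _ a1 hx (hx'.trans hbX)).2.2.1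
          nlinarith [hD0 x])
      rw [a3, b3] at this
      linarith
    · have := mono_of_der (G := fun x => ρ (iv v) * Xi α lam τ x - F x) hab
        (fun x hx _ => ((xi_der hW (a1.trans hx)).const_mul _).sub (hF x (a1.trans hx)))
        (fun x hx hx' => by
          have := (hρ _ _ (a1.trans hx) hx' hbX).2.2.1
          nlinarith [hD0 x])
      rw [a3, b3] at this
      linarith

end

end Vale.Agent.P166
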