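import Vale.Agent.P166.Stm

/-! One cavity step of the lower bound. -/

namespace Vale.Agent.P166

open MeasureTheory Finset Real Filter Topology Vale.Agent.P157

noncomputable section

namespace Sfx

theorem spin_sq (b : Bool) : spin b ^ 2 = 1 := by cases b <;> simp [spin]

theorem spin_abs (b : Bool) : |spin b| = 1 := by cases b <;> simp [spin]

theorem arith {A0 A1 T m P0 P1 q0 s lt Sg n C C1 C3 ε1 t1 : ℝ} (hs : 0 < s)
    (a0 : |A0 - T - (m + P0 + q0 / 2)| ≤ ε1)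
    (a1 : |A1 - T - (m + P1 + (q0 + s ^ 2) / 2)| ≤ ε1 + C * (s ^ 2 * s))
    (a2 : |A1 - A0 - s ^ 2 * lt / 2| ≤ C1 * s ^ 3)
    (a3 : |P1 - P0 + s ^ 2 / (2 * n) * Sg| ≤ C3 * (s ^ 2 * s))
    (h1 : ε1 ≤ t1 * s ^ 2 / 4) (h2 : 2 * (C + C1 + |C3|) * s ≤ t1) :
    |lt - (1 - 1 / n * Sg)| ≤ 2 * t1 := by
  have b1 : s ^ 2 / 2 * (lt - (1 - 1 / n * Sg)) =
      s ^ 2 * lt / 2 - s ^ 2 / 2 + s ^ 2 / (2 * n) * Sg := by ring
  have b2 : C3 * (s ^ 2 * s) ≤ |C3| * s ^ 3 := by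
    rw [show s ^ 2 * s = s ^ 3 by ring]
    exact mul_le_mul_of_nonneg_right (le_abs_self _) (by positivity)
  have b3 : C * (s ^ 2 * s) = C * s ^ 3 := by ring
  have b7 : C * s ^ 3 + C1 * s ^ 3 + |C3| * s ^ 3 ≤ t1 * s ^ 2 / 2 := by
    have := mul_le_mul_of_nonneg_right h2 (sq_nonneg s)
    linarith
  have b4 : |s ^ 2 / 2 * (lt - (1 - 1 / n * Sg))| ≤ s ^ 2 / 2 * (2 * t1) := by
    rw [b1, abs_le]
    obtain ⟨x1, x2⟩ := abs_le.1 a0
    obtain ⟨x3, x4⟩ := abs_le.1 a1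
    obtain ⟨x5, x6⟩ := abs_le.1 a2
    obtain ⟨x7, x8⟩ := abs_le.1 a3
    constructor <;> linarith
  rw [abs_mul, abs_of_pos (by positivity : 0 < s ^ 2 / 2)] at b4
  exact le_of_mul_le_mul_left b4 (by positivity)

theorem arith2 {a b c d t : ℝ} (h1 : |a - b| ≤ 2 * t) (h2 : |a - c| ≤ t) (h3 : |c - d| ≤ t) :
    |b - d| ≤ 4 * t := by
  obtain ⟨x1, x2⟩ := abs_le.1 h1
  obtain ⟨x3, x4⟩ := abs_le.1 h2
  obtain ⟨x5, x6⟩ := abs_le.1 h3
  rw [abs_le]; constructor <;> linarith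

section
variable {κ : Type} [Fintype κ] [DecidableEq κ] {N : ℕ}

omit [Fintype κ] [DecidableEq κ] in
theorem t_zero (hR : RApi) (hH : HApi) {ν' : Measure (OG (Fin (N + 1)))} (hν : Haar ν') {n : ℕ}
    (hn : 1 ≤ n) (c' : Fin (N + 1) → κ) (lam : κ → ℝ) (l D : ℕ) (y : κ → ℕ → ℝ) :
    (sL c' lam l 0).T ν' D n y = (s0 c' lam).T ν' D n y := by
  have hE : Emb ((s0 c' lam).lev D n) ((sL c' lam l 0).lev D n)
      (Sum.map id (Empty.elim : Empty → Unit)) := by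
    refine ⟨?_, ?_⟩
    · exact Sum.map_injective.2 ⟨Function.injective_id, fun a => a.elim⟩
    · rintro (s | s)
      · rfl
      · exact s.elim
  have := (hH.same ((s0 c' lam).lev D n) ((sL c' lam l 0).lev D n) (Z := (s0 c' lam).Z D n y)
    (Z' := (sL c' lam l 0).Z D n y) 0 hν hn (hH.ctz _ D n y).1 (fun U => ?_)).1
  · rw [add_zero] at this; exact this
  · rw [add_zero, ← (hR.emb n _ _ _ hE ((s0 c' lam).Z D n y U)).1]
    congr 1
    funext ω
    simp [Sys.Z, sL, s0, pull]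

omit [Fintype κ] in
theorem cls_card (c' : Fin (N + 1) → κ) (lam : κ → ℝ) (l : ℕ) (s : ℝ) (k : κ) :
    (((s0 (c' ∘ Fin.castSucc) lam).cls k).card : ℝ) ≤ ((sL c' lam l s).cls k).card ∧
      (((sL c' lam l s).cls k).card : ℝ) ≤ ((s0 (c' ∘ Fin.castSucc) lam).cls k).card + 1 := by
  have h : ((sL c' lam l s).cls k).card = ((s0 (c' ∘ Fin.castSucc) lam).cls k).card +
      if c' (Fin.last N) = k then 1 else 0 := by
    unfold Sys.cls
    rw [card_filter, card_filter, Fin.sum_univ_castSucc]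
    rfl
  rw [h]
  split_ifs <;> push_cast <;> constructor <;> linarith

theorem resp (hH : HApi) (hSy : SyStmt) {C : ℝ}
    (hG : ∀ (T I : Type) [Fintype T] [DecidableEq T] [Fintype I]
      [DecidableEq I] (ν : Measure (OG I)) (n : ℕ) (lev : T → ℕ) (A : Finset T)
      (Z Z' : OG I → Cf T I → ℝ) (u : T → OG I → Cf T I → ℝ) (v : T → T → OG I → Cf T I → ℝ) (b : ℝ),
      Haar ν → 1 ≤ n → LevOk n lev → b ≤ 1 → Ct Z → Ct Z' → (∀ s, Ct (u s)) →
      (∀ s s', Ct (v s s')) →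
      (∀ U, Exq A (Z U) (Z' U) (fun s => u s U) (fun s s' => v s s' U) b) →
      |TH ν n lev Z' - TH ν n lev Z - GmH ν n lev Z A u v| ≤ C * b ^ 3)
    {ν' : Measure (OG (Fin (N + 1)))} (hν : Haar ν') {n : ℕ} (hn : 1 ≤ n) (c' : Fin (N + 1) → κ)
    (lam : κ → ℝ) {l : ℕ} (hl : l < n) (D : ℕ) (y : κ → ℕ → ℝ) {s : ℝ} (hs0 : 0 ≤ s) (hs1 : s ≤ 1) :
    |(sL c' lam l s).T ν' D n y - (sL c' lam l 0).T ν' D n y -
      s ^ 2 * (sL c' lam l 0).lt ν' D n y l / 2| ≤ C * s ^ 3 := by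
  have hlev : LevOk n ((sL c' lam l 0).lev D n) := (hH.ctz _ D n y).2 (fun _ => hl)
  have hct := (hH.ctz (sL c' lam l 0) D n y).1
  have h1 := hG (Sg D n (Fin (N + 1)) Unit) (Fin (N + 1)) ν' n ((sL c' lam l 0).lev D n)
    {Sum.inr ()} ((sL c' lam l 0).Z D n y) ((sL c' lam l s).Z D n y)
    (fun _ _ ω => s * spin (ω.2 (Fin.last N))) (fun _ _ _ _ => 0) s hν hn hlev hs1 hct
    (hH.ctz (sL c' lam l s) D n y).1 (fun _ _ => continuous_const) (fun _ _ _ => continuous_const)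
    (fun U => ?_)
  · have hone := hH.one ((sL c' lam l 0).lev D n) hν hn hct
    have e : GmH ν' n ((sL c' lam l 0).lev D n) ((sL c' lam l 0).Z D n y) {Sum.inr ()}
        (fun _ _ ω => s * spin (ω.2 (Fin.last N))) (fun _ _ _ _ => 0) =
        s ^ 2 * (sL c' lam l 0).lt ν' D n y l / 2 := by
      rw [(hSy κ _ Unit ν' (sL c' lam l 0) D n y hν hn).2.1 (fun ω => by simp [sL]) (Fin.last N) l
        hl.le]
      unfold GmH
      rw [sum_singleton]
      have e1 : (fun (_ : OG (Fin (N + 1))) (ω : Cf (Sg D n (Fin (N + 1)) Unit) (Fin (N + 1))) =>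
          0 + (s * spin (ω.2 (Fin.last N))) ^ 2) = fun _ _ => s ^ 2 := by
        funext U ω; rw [mul_pow, spin_sq]; ring
      have e2 : ∀ d ∈ Icc 1 l, EW ν' n ((sL c' lam l 0).lev D n) ((sL c' lam l 0).Z D n y) d
          (fun _ ω ω' => s * spin (ω.2 (Fin.last N)) * (s * spin (ω'.2 (Fin.last N)))) =
          s ^ 2 * EW ν' n ((sL c' lam l 0).lev D n) ((sL c' lam l 0).Z D n y) d
            (fun _ ω ω' => spin (ω.2 (Fin.last N)) * spin (ω'.2 (Fin.last N))) := by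
        intro d hd
        have := hone.lin2 d ((mem_Icc.1 hd).2.trans hl.le)
          (fun _ ω ω' => spin (ω.2 (Fin.last N)) * spin (ω'.2 (Fin.last N))) (fun _ _ _ => 0)
          (s ^ 2) 0 (fun _ _ => continuous_const) (fun _ _ => continuous_const)
        simp only [zero_mul, add_zero] at this
        rw [← this]
        congr 1
        funext U ω ω'; ring
      rw [e1, hone.const]
      have e3 : (sL c' lam l 0).lev D n (Sum.inr ()) = l := rfl
      rw [e3, sum_congr rfl e2, ← mul_sum]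
      ring
    rw [e] at h1
    exact h1
  · refine ⟨?_, fun _ _ _ _ _ _ => rfl, fun _ _ _ _ _ _ _ _ => rfl, fun ω => ?_, fun ω => ?_,
      fun ω => ?_⟩
    · intro e e' σ h
      have h' : ∀ r, e (Sum.inl r) = e' (Sum.inl r) := fun r => h _ (by simp)
      simp [Sys.Z, sL, h']
    · rw [sum_singleton, abs_mul, abs_mul, spin_abs, spin_abs, abs_of_nonneg hs0]; simp
    · simp only [mul_zero, sum_const_zero, abs_zero]; positivity
    · have : (sL c' lam l s).Z D n y U ω - (sL c' lam l 0).Z D n y U ω =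
          spin (ω.1 (Sum.inr ())) * (s * spin (ω.2 (Fin.last N))) := by
        simp only [Sys.Z, sL, pull, Function.comp]; ring
      rw [this, sum_singleton]
      simp only [mul_zero, sum_const_zero, sub_self, zero_div, abs_zero]; positivity

theorem bt_lip (hT : TApi) (hSch : SchStmt) {K : ℕ} {τ : κ} {α lam : κ → ℝ} {Γ η g0 : ℝ}
    (hη : 0 < η) (hg : 0 < g0) (hK : Fintype.card κ ≤ K) (hα : ∀ k, η ≤ α k) (hW : Wt α lam τ Γ η)
    (hgap : ∀ k, k ≠ τ → lam k + g0 ≤ lam τ) (x x' : ℝ) (hx : 0 ≤ x) (hxx : x ≤ x') :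
    0 ≤ bt α lam τ x' - bt α lam τ x ∧ bt α lam τ x' - bt α lam τ x ≤ K * Γ ^ 2 * (x' - x) := by
  obtain ⟨nu, γ, -, h1, h2⟩ := hSch κ {k // k ≠ τ} τ (Equiv.optionSubtypeNe τ) α lam Γ η g0 hη hg hα
    hW hgap
  rw [← (h2 x hx).2, ← (h2 x' (hx.trans hxx)).2, ← sum_sub_distrib]
  have h3 : ∀ j, 0 ≤ γ j ^ 2 * ph (lam τ - nu j) x' - γ j ^ 2 * ph (lam τ - nu j) x ∧
      γ j ^ 2 * ph (lam τ - nu j) x' - γ j ^ 2 * ph (lam τ - nu j) x ≤ Γ ^ 2 * (x' - x) := by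
    intro j
    have hθ : 0 ≤ lam τ - nu j := le_trans (by positivity) (h1 j).1
    obtain ⟨a1, a2, -⟩ := hT.phl _ _ x x' hθ hθ hx hxx
    have a3 : γ j ^ 2 ≤ Γ ^ 2 := sq_le_sq' (abs_le.1 (h1 j).2.2).1 (abs_le.1 (h1 j).2.2).2
    rw [← mul_sub]
    exact ⟨mul_nonneg (sq_nonneg _) a1, mul_le_mul a3 a2 a1 (sq_nonneg _)⟩
  refine ⟨sum_nonneg (fun j _ => (h3 j).1), (sum_le_card_nsmul _ _ _ (fun j _ => (h3 j).2)).trans ?_⟩
  rw [nsmul_eq_mul, card_univ, mul_assoc]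
  refine mul_le_mul_of_nonneg_right ?_ (mul_nonneg (sq_nonneg _) (sub_nonneg.2 hxx))
  exact_mod_cast (Fintype.card_subtype_le _).trans hK

theorem xi_near (hT : TApi) {K n : ℕ} {τ : κ} {α α' lam : κ → ℝ} {η g0 δ : ℝ} {p : ℕ → ℝ}
    (hg : 0 < g0) (hδ : 0 ≤ δ) (hK : Fintype.card κ ≤ K)
    (hgap : ∀ k, k ≠ τ → lam k + g0 ≤ lam τ) (hα : ∀ k, |α' k - α k| ≤ δ) (hp : P157.Path n p)
    (hp0 : p 0 ≤ 1 / η) {l : ℕ} (hl : l < n) :
    |ell n (fp n (Xi α' lam τ) p) l - ell n (fp n (Xi α lam τ) p) l| ≤ K * δ * (1 / η) := by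
  have h1 := (hT.lip (f := fun x => 1 * Xi α' lam τ x + (-1) * Xi α lam τ x + 0) (L := K * δ) hp
    (fun x x' hx hxx _ => ?_)).2.1 l hl
  · have e : fp n (fun x => 1 * Xi α' lam τ x + (-1) * Xi α lam τ x + 0) p =
        fun d => 1 * fp n (Xi α' lam τ) p d + (-1) * fp n (Xi α lam τ) p d :=
      funext (hT.fp_lin n _ _ 1 (-1) 0 p)
    rw [e, hT.ell_lin] at h1
    rw [show ell n (fp n (Xi α' lam τ) p) l - ell n (fp n (Xi α lam τ) p) l =
      1 * ell n (fp n (Xi α' lam τ) p) l + -1 * ell n (fp n (Xi α lam τ) p) l by ring]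
    exact h1.trans (mul_le_mul_of_nonneg_left hp0 (by positivity))
  · have e : 1 * Xi α' lam τ x' + (-1) * Xi α lam τ x' + 0 -
        (1 * Xi α' lam τ x + (-1) * Xi α lam τ x + 0) =
        ∑ k, (α' k - α k) * (ph (lam τ - lam k) x' - ph (lam τ - lam k) x) := by
      simp only [Xi, sub_mul, mul_sub, sum_sub_distrib]; ring
    rw [e]
    refine (abs_sum_le_sum_abs _ _).trans ((sum_le_card_nsmul _ _ (δ * (x' - x))
      (fun k _ => ?_)).trans ?_)
    · have hθ : 0 ≤ lam τ - lam k := by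
        by_cases h : k = τ
        · rw [h, sub_self]
        · linarith [hgap k h]
      obtain ⟨a1, a2, -⟩ := hT.phl _ _ x x' hθ hθ hx hxx
      rw [abs_mul, abs_of_nonneg a1]
      exact mul_le_mul (hα k) a2 a1 hδ
    · rw [nsmul_eq_mul, card_univ, mul_assoc]
      refine mul_le_mul_of_nonneg_right ?_ (mul_nonneg hδ (sub_nonneg.2 hxx))
      exact_mod_cast hK

end

end Sfx

open Sfx in
theorem sfStmt (hR : RApi) (hH : HApi) (hT : TApi) (hConc : ConcStmt) (hSpn : SpnStmt)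
    (hGrh : GrhStmt) (hSy : SyStmt) (hFam : FamStmt) (hAn2 : An2Stmt) (hSch : SchStmt) : SfStmt := by
  intro K Γ η g0 ε hη hg hε
  obtain ⟨C, hC, hSpn⟩ := hSpn
  obtain ⟨C1, hC1, hGrh⟩ := hGrh
  obtain ⟨C3, hConc⟩ := hConc
  obtain ⟨C2, hC2, hAn2⟩ := hAn2 Γ η (K * Γ ^ 2) hη (by positivity)
  set t1 : ℝ := ε / (8 * (C2 + 1)) with ht1
  have ht1p : 0 < t1 := by positivity
  set C4 : ℝ := C + C1 + |C3| with hC4
  have hC4p : 0 ≤ C4 := by positivity
  set s : ℝ := min 1 (t1 / (2 * C4 + 1)) with hs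
  have hs0 : 0 < s := lt_min one_pos (by positivity)
  have hs1 : s ≤ 1 := min_le_left _ _
  have hs2 : 2 * C4 * s ≤ t1 := by
    have h1 : s ≤ t1 / (2 * C4 + 1) := min_le_right _ _
    rw [le_div_iff₀ (by positivity)] at h1
    nlinarith
  set ε1 : ℝ := min (ε / 2) (t1 * s ^ 2 / 4) with hε1
  have hε1p : 0 < ε1 := lt_min (by positivity) (by positivity)
  obtain ⟨v1, δ1, hv1, hδ1, n1, hSpn⟩ := hSpn K Γ η g0 ε1 hη hg hε1p
  obtain ⟨v2, hv2, n2, hFam⟩ := hFam η g0 Γ t1 hη hg ht1p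
  refine ⟨min v1 v2, min δ1 (t1 * η / (K + 1)), lt_min hv1 hv2, lt_min hδ1 (by positivity),
    max n1 n2, fun n hn hn1 lp C0 hlp hlp1 hv hC0 => ?_⟩
  obtain ⟨N1, hSpn⟩ := hSpn n ((le_max_left _ _).trans hn) hn1 lp C0 hlp hlp1
    (hv.trans (min_le_left _ _)) hC0
  obtain ⟨N2, hFam⟩ := hFam n ((le_max_right _ _).trans hn) hn1 lp (C0 + 1) hlp hlp1
    (hv.trans (min_le_right _ _)) (by linarith)
  refine ⟨max N1 N2, fun Nr hNr => ?_⟩
  obtain ⟨D1, hSpn⟩ := hSpn Nr ((le_max_left _ _).trans hNr)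
  obtain ⟨D2, hFam⟩ := hFam Nr ((le_max_right _ _).trans hNr)
  refine ⟨max D1 D2, fun D hD => ?_⟩
  intro N κ _ _ ν ν' τ α lam c' y p M hν hν' hK hN hW hα hgap hcls hal hNM hNM' hp hp0 hM hPin
  have hS := fun (l : ℕ) (θ : ℝ) => hSpn D ((le_max_left _ _).trans hD) N κ ν ν' τ α lam c' y p M l θ
    hν hν' hK hN hW hα hgap hcls (fun k => (hal k).trans (min_le_left _ _)) hNM hp hp0 hM hPin
  have hbt := bt_lip hT hSch hη hg hK hα hW hgap
  set Q := fp n (bt α lam τ) p with hQ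
  have hQp : P157.Path n Q := hT.fp_path hp (fun x hx x' _ hxx => sub_nonneg.1 (hbt x x' hx.1 hxx).1)
  obtain ⟨pv, hpv, hpv0, hmax, hder⟩ := hConc n Q hn1 hQp
  have hS0 : ∀ l, l < n → |(s0 c' lam).T ν' D n y - (s0 (c' ∘ Fin.castSucc) lam).T ν D n y -
      (mn α lam / 2 + tr n (fun x => -log (rho α lam τ x) / 2) p +
        tr n (lg (lam τ - lam (c' (Fin.last N)))) p + psi n Q + Q 0 / 2)| ≤ ε1 := by
    intro l hl
    have := hS l 0 hl le_rfl zero_le_one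
    simp only [sqrt_zero, ite_self, add_zero, mul_zero] at this
    rw [t_zero hR hH hν' hn1] at this
    exact this
  have hell : ∀ l, l < n → |ell n pv l - ell n (fp n (Xi α lam τ) p) l| ≤ 4 * t1 := by
    intro l hl
    have a1 := hS l (s ^ 2) hl (by positivity) (by nlinarith)
    have a3 := hder l (s ^ 2) hl (by positivity) (by nlinarith)
    rw [sqrt_sq hs0.le] at a1 a3
    have a0 := hS0 l hl
    have a2 := resp hH hSy hGrh hν' hn1 c' lam hl D y hs0.le hs1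
    rw [t_zero hR hH hν' hn1] at a2
    have hfun : (sL c' lam l 0).T ν' D n = (s0 c' lam).T ν' D n :=
      funext (t_zero hR hH hν' hn1 c' lam l D)
    have a4 := hFam D ((le_max_right _ _).trans hD) κ (Fin (N + 1)) Unit ν' (sL c' lam l 0) y τ p M
      hν' (fun _ => hl) (by simpa using hN)
      ⟨hW.bd, (hcls τ).trans (cls_card c' lam l 0 τ).1,
        fun k _ => (hcls k).trans (cls_card c' lam l 0 k).1, fun k hk _ => hgap k hk⟩
      (by rw [hfun]; exact ⟨hNM'.1, fun y' hy' => by linarith [hNM'.2 y' hy']⟩) hp hp0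
      (by
        obtain ⟨b1, b2⟩ := cls_card c' lam l 0 τ
        obtain ⟨b3, b4⟩ := abs_le.1 hM
        rw [abs_le]; constructor <;> linarith) hPin l hl
    have a5 := xi_near hT (α := α) (α' := (sL c' lam l 0).al) (δ := t1 * η / (K + 1)) hg
      (by positivity) hK hgap (fun k => (hal k).trans (min_le_right _ _)) hp hp0 hl
    have a6 : (K : ℝ) * (t1 * η / (K + 1)) * (1 / η) ≤ t1 := by
      have e : (K : ℝ) * (t1 * η / (K + 1)) * (1 / η) = t1 * (K / (K + 1)) := by field_simp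
      rw [e]
      exact mul_le_of_le_one_right ht1p.le ((div_le_one (by positivity)).2 (by linarith))
    have a7 := arith hs0 a0 a1 a2 a3 (min_le_right _ _) hs2
    have e : ell n pv l = 1 - 1 / n * ∑ d ∈ Icc 1 l, pv d := by unfold ell; rw [hpv0]
    rw [← e] at a7
    exact arith2 a7 a4 (a5.trans a6)
  have h1 := hAn2 n κ α lam τ p pv (4 * t1) hn1 hW hbt hp hp0 hpv hpv0 hmax hell
  have h2 := (abs_le.1 (hS0 0 hn1)).1
  have h3 : C2 * (4 * t1) ≤ ε / 2 := by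
    have e : C2 * (4 * t1) = ε / 2 * (C2 / (C2 + 1)) := by rw [ht1]; field_simp; ring
    rw [e]
    exact mul_le_of_le_one_right (by positivity) ((div_le_one (by positivity)).2 (by linarith))
  have h4 : ε1 ≤ ε / 2 := min_le_left _ _
  linarith

end

end Vale.Agent.P166
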