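import Vale.Agent.P166.Stm

/-! Second moment of the mass of a column of a Haar matrix. -/

namespace Vale.Agent.P166

open MeasureTheory Finset Real Vale.Agent.P157

noncomputable section

namespace Sm

variable {I : Type} [Fintype I] [DecidableEq I]

theorem row (u : I → ℝ) (hu : ∑ k, u k ^ 2 = 1) (i : I) :
    ∃ R : OG I, ∀ k, R.1 i k = u k := by
  set v : I → ℝ := fun k => (if i = k then 1 else 0) - u k with hv
  set s : ℝ := ∑ k, v k * v k with hs
  have hs2 : s = 2 * v i := by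
    have : ∀ k, v k * v k = (if i = k then 1 - 2 * u k else 0) + u k ^ 2 := by
      intro k; simp only [hv]; split_ifs <;> ring
    rw [hs]; simp only [this]
    rw [sum_add_distrib, hu, sum_ite_eq]; simp [hv]; ring
  set c : ℝ := 2 / s with hc
  have hcs : c * c * s = 2 * c := by
    rcases eq_or_ne s 0 with h | h
    · simp [hc, h]
    · rw [hc]; field_simp
  refine ⟨⟨Matrix.of fun a b => (if a = b then 1 else 0) - c * v a * v b, ?_⟩, fun k => ?_⟩
  · rw [Matrix.mem_orthogonalGroup_iff]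
    ext a b
    simp only [Matrix.mul_apply, Matrix.transpose_apply, Matrix.of_apply, Matrix.one_apply]
    have : ∀ k, ((if a = k then 1 else 0) - c * v a * v k) * ((if b = k then 1 else 0) - c * v b * v k) =
        (if a = k then (if b = k then 1 else 0) - c * v b * v k else 0) -
          (if b = k then c * v a * v k else 0) + c * c * v a * v b * (v k * v k) := by
      intro k; split_ifs <;> ring
    simp only [this]
    rw [sum_add_distrib, sum_sub_distrib, sum_ite_eq, sum_ite_eq, ← mul_sum, ← hs]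
    simp only [mem_univ, if_true]
    have e : c * c * v a * v b * s = 2 * c * (v a * v b) := by rw [← hcs]; ring
    rw [e]
    by_cases h : a = b
    · subst h; simp; ring
    · rw [if_neg h, if_neg (Ne.symm h)]; ring
  · simp only [Matrix.of_apply]
    rcases eq_or_ne s 0 with h | h
    · have h0 : v k * v k = 0 :=
        (sum_eq_zero_iff_of_nonneg (fun k _ => mul_self_nonneg (v k))).1 h k (mem_univ k)
      have h1 : v k = 0 := mul_self_eq_zero.1 h0
      rw [h1]
      simp only [hv] at h1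
      linarith
    · have h1 : c * v i = 1 := by
        rw [hc, div_mul_eq_mul_div, ← hs2, div_self h]
      rw [h1]
      simp only [hv]; ring

theorem cont (i j : I) : Continuous fun U : OG I => U.1 i j :=
  (continuous_subtype_val (p := fun A => A ∈ Matrix.orthogonalGroup I ℝ)).matrix_elem i j

theorem intg {ν : Measure (OG I)} (hν : Haar ν) {f : OG I → ℝ} (hf : Continuous f) :
    Integrable f ν := by
  have := hν.prob
  exact hf.integrable_of_hasCompactSupport (HasCompactSupport.of_compactSpace f)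

theorem inv {ν : Measure (OG I)} (hν : Haar ν) (u : I → ℝ) (hu : ∑ k, u k ^ 2 = 1) (i j : I)
    (m : ℕ) : ∫ U, (∑ k, u k * U.1 k j) ^ m ∂ν = ∫ U, U.1 i j ^ m ∂ν := by
  obtain ⟨R, hR⟩ := row u hu i
  rw [← hν.left R (fun U => U.1 i j ^ m) ((cont i j).pow m)]
  congr 1
  funext U
  congr 1
  show _ = (R.1 * U.1) i j
  rw [Matrix.mul_apply]
  exact sum_congr rfl (fun k _ => by rw [hR])

theorem same {ν : Measure (OG I)} (hν : Haar ν) (i k j : I) (m : ℕ) :
    ∫ U, U.1 k j ^ m ∂ν = ∫ U, U.1 i j ^ m ∂ν := by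
  rw [← inv hν (fun a => if k = a then 1 else 0) (by simp) i j m]
  simp

theorem col (U : OG I) (j : I) : ∑ i, U.1 i j ^ 2 = 1 := by
  have h := (Matrix.mem_orthogonalGroup_iff' I ℝ).1 U.2
  have := congrFun (congrFun h j) j
  rw [Matrix.mul_apply, Matrix.one_apply_eq] at this
  rw [← this]
  exact sum_congr rfl (fun i _ => by rw [Matrix.transpose_apply]; ring)

theorem rot {ν : Measure (OG I)} (hν : Haar ν) {i k : I} (hik : i ≠ k) (j : I) (e : ℝ)
    (he : e ^ 2 = 1) : ∫ U, (U.1 i j + e * U.1 k j) ^ 4 ∂ν = 4 * ∫ U, U.1 i j ^ 4 ∂ν := by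
  have h2 : (√2 : ℝ) ^ 2 = 2 := Real.sq_sqrt (by norm_num)
  have h0 : (√2 : ℝ) ≠ 0 := by positivity
  set u : I → ℝ := fun a => (if i = a then (√2)⁻¹ else 0) + (if k = a then e * (√2)⁻¹ else 0) with hu
  have hu1 : ∑ a, u a ^ 2 = 1 := by
    have : ∀ a, u a ^ 2 = (if i = a then (1 / 2 : ℝ) else 0) + (if k = a then 1 / 2 else 0) := by
      intro a
      simp only [hu]
      by_cases h1 : i = a
      · have h3 : k ≠ a := fun h => hik (h1.trans h.symm)
        rw [if_pos h1, if_pos h1, if_neg h3, if_neg h3, add_zero, add_zero, inv_pow, h2]; norm_num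
      · by_cases h3 : k = a
        · rw [if_neg h1, if_neg h1, if_pos h3, if_pos h3, zero_add, zero_add, mul_pow, inv_pow, h2,
            he]; norm_num
        · rw [if_neg h1, if_neg h1, if_neg h3, if_neg h3]; norm_num
    simp only [this]
    rw [sum_add_distrib, sum_ite_eq, sum_ite_eq]; norm_num
  rw [← inv hν u hu1 i j 4, ← integral_const_mul]
  congr 1
  funext U
  have : ∑ a, u a * U.1 a j = (√2)⁻¹ * (U.1 i j + e * U.1 k j) := by
    simp only [hu, add_mul, ite_mul, zero_mul]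
    rw [sum_add_distrib, sum_ite_eq, sum_ite_eq]; simp; ring
  rw [this, mul_pow, inv_pow, show (√2 : ℝ) ^ 4 = 4 by
    rw [show (4 : ℕ) = 2 * 2 from rfl, pow_mul, h2]; norm_num]
  ring

theorem pair {ν : Measure (OG I)} (hν : Haar ν) (i k j : I) :
    ∫ U, U.1 i j ^ 2 * U.1 k j ^ 2 ∂ν = (∫ U, U.1 j j ^ 4 ∂ν) / 3 +
      if i = k then 2 * (∫ U, U.1 j j ^ 4 ∂ν) / 3 else 0 := by
  by_cases h : i = k
  · subst h
    rw [if_pos rfl, ← same hν j i j 4]
    have : ∀ U : OG I, U.1 i j ^ 2 * U.1 i j ^ 2 = U.1 i j ^ 4 := fun U => by ring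
    simp only [this]; ring
  · rw [if_neg h, add_zero]
    have h1 := rot hν h j 1 (by norm_num)
    have h2 := rot hν h j (-1) (by norm_num)
    have ci := cont i j
    have ck := cont k j
    have h3 : ∫ U, ((U.1 i j + 1 * U.1 k j) ^ 4 + (U.1 i j + -1 * U.1 k j) ^ 4) ∂ν =
        ∫ U, (2 * U.1 i j ^ 4 + 2 * U.1 k j ^ 4 + 12 * (U.1 i j ^ 2 * U.1 k j ^ 2)) ∂ν := by
      congr 1; funext U; ring
    have c1 : Continuous fun U : OG I => (U.1 i j + 1 * U.1 k j) ^ 4 :=
      (ci.add (continuous_const.mul ck)).pow 4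
    have c2 : Continuous fun U : OG I => (U.1 i j + -1 * U.1 k j) ^ 4 :=
      (ci.add (continuous_const.mul ck)).pow 4
    have c3 : Continuous fun U : OG I => 2 * U.1 i j ^ 4 := continuous_const.mul (ci.pow 4)
    have c4 : Continuous fun U : OG I => 2 * U.1 k j ^ 4 := continuous_const.mul (ck.pow 4)
    have c5 : Continuous fun U : OG I => 12 * (U.1 i j ^ 2 * U.1 k j ^ 2) :=
      continuous_const.mul ((ci.pow 2).mul (ck.pow 2))
    have c6 : Continuous fun U : OG I => 2 * U.1 i j ^ 4 + 2 * U.1 k j ^ 4 := c3.add c4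
    rw [integral_add (intg hν c1) (intg hν c2), h1, h2, integral_add (intg hν c6) (intg hν c5),
      integral_add (intg hν c3) (intg hν c4), integral_const_mul,
      integral_const_mul, integral_const_mul, same hν j i j 4, same hν j k j 4] at h3
    linarith

theorem sq_sum {ν : Measure (OG I)} (hν : Haar ν) (A : Finset I) (j : I) :
    ∫ U, (∑ i ∈ A, U.1 i j ^ 2) ^ 2 ∂ν =
      ((A.card : ℝ) ^ 2 + 2 * A.card) * (∫ U, U.1 j j ^ 4 ∂ν) / 3 := by
  have h1 : ∀ U : OG I, (∑ i ∈ A, U.1 i j ^ 2) ^ 2 = ∑ i ∈ A, ∑ k ∈ A, U.1 i j ^ 2 * U.1 k j ^ 2 := by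
    intro U; rw [sq, sum_mul_sum]
  simp only [h1]
  have hc : ∀ i k, Continuous fun U : OG I => U.1 i j ^ 2 * U.1 k j ^ 2 := fun i k =>
    ((cont i j).pow 2).mul ((cont k j).pow 2)
  rw [integral_finsetSum _ (fun i _ => intg hν (continuous_finsetSum _ (fun k _ => hc i k)))]
  rw [sum_congr rfl (fun i hi => by
    rw [integral_finsetSum _ (fun k _ => intg hν (hc i k)), sum_congr rfl (fun k _ => pair hν i k j),
      sum_add_distrib, sum_ite_eq, if_pos hi, sum_const])]
  rw [sum_const]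
  simp only [nsmul_eq_mul]
  ring

end Sm

open Sm in
theorem smStmt : SmStmt := by
  intro I _ _ ν A j hν
  have := hν.prob
  have hN : (0 : ℝ) < Fintype.card I := by
    exact_mod_cast Fintype.card_pos_iff.2 ⟨j⟩
  set N : ℝ := (Fintype.card I : ℝ) with hNdef
  set a : ℝ := ∫ U, U.1 j j ^ 4 ∂ν with ha
  have h1 := sq_sum hν univ j
  simp only [col, one_pow, integral_const, probReal_univ, smul_eq_mul, mul_one, card_univ] at h1
  rw [← hNdef, ← ha] at h1
  have hc2 : ∀ i, Continuous fun U : OG I => U.1 i j ^ 2 := fun i => (cont i j).pow 2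
  have h2 : ∫ U, U.1 j j ^ 2 ∂ν = 1 / N := by
    have h3 : ∫ U, ∑ i, U.1 i j ^ 2 ∂ν = 1 := by simp [col]
    rw [integral_finsetSum _ (fun i _ => intg hν (hc2 i)),
      sum_congr rfl (fun i _ => same hν j i j 2), sum_const, card_univ, nsmul_eq_mul] at h3
    rw [eq_div_iff hN.ne', mul_comm]; exact h3
  have hc : Continuous fun U : OG I => ∑ i ∈ A, U.1 i j ^ 2 :=
    continuous_finsetSum _ (fun i _ => (cont i j).pow 2)
  have h4 : ∫ U, ∑ i ∈ A, U.1 i j ^ 2 ∂ν = A.card / N := by
    rw [integral_finsetSum _ (fun i _ => intg hν (hc2 i)),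
      sum_congr rfl (fun i _ => same hν j i j 2), sum_const, nsmul_eq_mul, h2]; ring
  have h5 : ∀ U : OG I, (∑ i ∈ A, U.1 i j ^ 2 - A.card / N) ^ 2 =
      (∑ i ∈ A, U.1 i j ^ 2) ^ 2 - 2 * (A.card / N) * (∑ i ∈ A, U.1 i j ^ 2) + (A.card / N) ^ 2 :=
    fun U => by ring
  simp only [h5]
  have c1 : Continuous fun U : OG I => (∑ i ∈ A, U.1 i j ^ 2) ^ 2 := hc.pow 2
  have c2 : Continuous fun U : OG I => 2 * (A.card / N) * (∑ i ∈ A, U.1 i j ^ 2) :=
    continuous_const.mul hc
  have c3 : Continuous fun U : OG I =>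
    (∑ i ∈ A, U.1 i j ^ 2) ^ 2 - 2 * (A.card / N) * (∑ i ∈ A, U.1 i j ^ 2) := c1.sub c2
  rw [integral_add (intg hν c3) (integrable_const _),
    integral_sub (intg hν c1) (intg hν c2), integral_const_mul, h4,
    sq_sum hν A j, ← ha]
  simp only [integral_const, probReal_univ, smul_eq_mul, one_mul]
  set m : ℝ := (A.card : ℝ) with hm
  have hm0 : 0 ≤ m := Nat.cast_nonneg _
  have hmN : m ≤ N := by rw [hm, hNdef]; exact_mod_cast card_le_univ A
  have ha' : a / 3 = 1 / (N ^ 2 + 2 * N) := by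
    rw [eq_div_iff (by positivity)]; linarith
  have e : (m ^ 2 + 2 * m) * a / 3 = (m ^ 2 + 2 * m) / (N ^ 2 + 2 * N) := by
    rw [mul_div_assoc, ha']; ring
  rw [e]
  have h6 : (m ^ 2 + 2 * m) / (N ^ 2 + 2 * N) ≤ (m ^ 2 + 2 * m) / N ^ 2 :=
    div_le_div_of_nonneg_left (by positivity) (by positivity) (by linarith)
  have h7 : (m ^ 2 + 2 * m) / N ^ 2 - 2 * (m / N) * (m / N) + (m / N) ^ 2 = 2 * m / N ^ 2 := by
    field_simp; ring
  have h8 : 2 * m / N ^ 2 ≤ 3 / N := by
    rw [div_le_div_iff₀ (by positivity) hN]; nlinarith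
  linarith

end

end Vale.Agent.P166
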