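import Vale.Agent.P166.Stm

/-! Smooth cuts of concave quadratics. -/

namespace Vale.Agent.P166

open Finset Real Filter Topology Vale.Agent.P157
open scoped ContDiff

noncomputable section

namespace Smt

theorem mvt {f f' : ℝ → ℝ} {a C x : ℝ} (hf : ∀ u, HasDerivAt f (f' u) u)
    (hb : ∀ u, |u| ≤ a → |f' u| ≤ C) (hx : |x| ≤ a) : |f x - f 0| ≤ C * |x| := by
  have h := (convex_Icc (-a) a).norm_image_sub_le_of_norm_hasDerivWithin_le (f := f) (f' := f')
    (C := C) (x := 0) (y := x) (fun u _ => (hf u).hasDerivWithinAt) (fun u hu => hb u (abs_le.2 hu))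
    (abs_le.1 (by simpa using (abs_nonneg x).trans hx)) (abs_le.1 hx)
  simpa using h

theorem lip {g g1 : ℝ → ℝ} {B : ℝ} (h1 : ∀ t, HasDerivAt g (g1 t) t) (hb : ∀ t, |g1 t| ≤ B)
    (t h : ℝ) : |g (t + h) - g t| ≤ B * |h| := by
  have := mvt (f := fun u => g (t + u)) (f' := fun u => g1 (t + u)) (a := |h|) (C := B) (x := h)
    (fun u => (h1 (t + u)).comp_const_add t u) (fun u _ => hb _) le_rfl
  simpa using this

theorem tay {g g1 g2 g3 : ℝ → ℝ} {B : ℝ} (h1 : ∀ t, HasDerivAt g (g1 t) t)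
    (h2 : ∀ t, HasDerivAt g1 (g2 t) t) (h3 : ∀ t, HasDerivAt g2 (g3 t) t) (hb : ∀ t, |g3 t| ≤ B)
    (t h : ℝ) : |g (t + h) - g t - h * g1 t - h ^ 2 * g2 t / 2| ≤ B * |h| ^ 3 := by
  have hB : 0 ≤ B := (abs_nonneg _).trans (hb 0)
  have r1 : ∀ u, |u| ≤ |h| → |g1 (t + u) - g1 t - u * g2 t| ≤ B * |h| * |h| := by
    intro u hu
    have := mvt (f := fun u => g1 (t + u) - u * g2 t) (f' := fun u => g2 (t + u) - g2 t) (a := |h|)
      (C := B * |h|) (x := u)
      (fun u => by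
        have := ((h2 (t + u)).comp_const_add t u).sub ((hasDerivAt_id u).mul_const (g2 t))
        rw [one_mul] at this
        exact this)
      (fun v hv => (lip h3 hb t v).trans (mul_le_mul_of_nonneg_left hv hB)) hu
    simp only [add_zero, zero_mul, sub_zero] at this
    rw [show g1 (t + u) - g1 t - u * g2 t = g1 (t + u) - u * g2 t - g1 t by ring]
    exact this.trans (mul_le_mul_of_nonneg_left hu (by positivity))
  have := mvt (f := fun u => g (t + u) - u * g1 t - u ^ 2 * g2 t / 2)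
    (f' := fun u => g1 (t + u) - g1 t - u * g2 t) (a := |h|) (C := B * |h| * |h|) (x := h)
    (fun u => by
      have := (((h1 (t + u)).comp_const_add t u).sub ((hasDerivAt_id u).mul_const (g1 t))).sub
        (((hasDerivAt_pow 2 u).mul_const (g2 t)).div_const 2)
      refine this.congr_deriv ?_
      simp only [Nat.cast_ofNat, Nat.add_one_sub_one, pow_one]; ring)
    r1 le_rfl
  simp only [add_zero, zero_mul, sub_zero, ne_eq, OfNat.ofNat_ne_zero, not_false_eq_true, zero_pow,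
    zero_div] at this
  rw [show g (t + h) - g t - h * g1 t - h ^ 2 * g2 t / 2 =
    g (t + h) - h * g1 t - h ^ 2 * g2 t / 2 - g t by ring]
  exact this.trans (le_of_eq (by ring))

def chi (Λ t : ℝ) : ℝ := -Λ + smoothTransition (t + Λ + 1) * (t + Λ)

theorem chi_smooth (Λ : ℝ) : ContDiff ℝ ∞ (chi Λ) := by
  unfold chi
  exact contDiff_const.add ((smoothTransition.contDiff.comp
    ((contDiff_id.add contDiff_const).add contDiff_const)).mul (contDiff_id.add contDiff_const))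

theorem chi_low {Λ t : ℝ} (h : t ≤ -Λ - 1) : chi Λ t = -Λ := by
  unfold chi
  rw [smoothTransition.zero_of_nonpos (by linarith)]; ring

theorem chi_cut (Λ t : ℝ) : t ≤ chi Λ t ∧ -Λ - 2 ≤ chi Λ t ∧ (t < chi Λ t → chi Λ t ≤ -Λ) := by
  have h0 := smoothTransition.nonneg (t + Λ + 1)
  have h1 := smoothTransition.le_one (t + Λ + 1)
  rcases le_or_gt (-Λ) t with h | h
  · have e : chi Λ t = t := by
      unfold chi
      rw [smoothTransition.one_of_one_le (by linarith)]; ring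
    rw [e]
    exact ⟨le_rfl, by linarith, fun h2 => absurd h2 (lt_irrefl _)⟩
  · refine ⟨by unfold chi; nlinarith, ?_, fun _ => by unfold chi; nlinarith⟩
    rcases le_or_gt t (-Λ - 1) with h2 | h2
    · rw [chi_low h2]; linarith
    · unfold chi; nlinarith

theorem deriv_low {f : ℝ → ℝ} {a c : ℝ} (h : ∀ t, t < a → f t = c) (t : ℝ) (ht : t < a) :
    deriv f t = 0 := by
  have : f =ᶠ[𝓝 t] fun _ => c := by
    filter_upwards [Iio_mem_nhds ht] with s hs using h s hs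
  rw [this.deriv_eq, deriv_const]

theorem qd_der (θ γ t : ℝ) : HasDerivAt (qd θ γ) (-θ * t + γ) t := by
  have := (((hasDerivAt_pow 2 t).const_mul (-θ)).div_const 2).add ((hasDerivAt_id t).const_mul γ)
  refine this.congr_deriv ?_
  simp only [Nat.cast_ofNat, Nat.add_one_sub_one, pow_one]; ring

end Smt

open Smt in
theorem smtStmt : SmtStmt := by
  intro θ0 Γ Λ hθ0 hΛ
  set c0 := chi Λ with hc0
  set c1 := deriv c0 with hc1
  set c2 := deriv c1 with hc2
  set c3 := deriv c2 with hc3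
  have s0 : ContDiff ℝ ∞ c0 := chi_smooth Λ
  have s1 : ContDiff ℝ ∞ c1 := (contDiff_infty_iff_deriv.1 s0).2
  have s2 : ContDiff ℝ ∞ c2 := (contDiff_infty_iff_deriv.1 s1).2
  have s3 : ContDiff ℝ ∞ c3 := (contDiff_infty_iff_deriv.1 s2).2
  have d0 : ∀ t, HasDerivAt c0 (c1 t) t := fun t => ((contDiff_infty_iff_deriv.1 s0).1 t).hasDerivAt
  have d1 : ∀ t, HasDerivAt c1 (c2 t) t := fun t => ((contDiff_infty_iff_deriv.1 s1).1 t).hasDerivAt
  have d2 : ∀ t, HasDerivAt c2 (c3 t) t := fun t => ((contDiff_infty_iff_deriv.1 s2).1 t).hasDerivAt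
  have z0 : ∀ t, t < -Λ - 1 → c0 t = -Λ := fun t ht => chi_low ht.le
  have z1 : ∀ t, t < -Λ - 1 → c1 t = 0 := deriv_low z0
  have z2 : ∀ t, t < -Λ - 1 → c2 t = 0 := deriv_low z1
  have z3 : ∀ t, t < -Λ - 1 → c3 t = 0 := deriv_low z2
  set T0 : ℝ := 1 + 2 * (|Γ| + Λ + 1) / θ0 with hT0
  have hT1 : 1 ≤ T0 := by
    have : 0 ≤ 2 * (|Γ| + Λ + 1) / θ0 := by positivity
    linarith
  obtain ⟨M, hM⟩ := (isCompact_Icc (a := -Λ - 1) (b := |Γ| * T0)).exists_bound_of_continuousOn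
    (f := fun s => |c0 s| + |c1 s| + |c2 s| + |c3 s|)
    (((s0.continuous.abs.add s1.continuous.abs).add s2.continuous.abs).add
      s3.continuous.abs).continuousOn
  set M' : ℝ := |M| with hM'
  have hM0 : 0 ≤ M' := abs_nonneg M
  set P : ℝ := |Γ| * (T0 + 1) + 1 with hP
  have hP1 : 1 ≤ P := by
    have : 0 ≤ |Γ| * (T0 + 1) := by positivity
    linarith
  have hP2 : P ≤ P ^ 2 := by nlinarith
  have hP3 : P ^ 2 ≤ P ^ 3 := by nlinarith
  have hMP : 0 ≤ M' * P ^ 3 := by positivity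
  refine ⟨1 + Λ + 4 * (M' * P ^ 3), by linarith, fun θ γ h1 h2 h3 => ?_⟩
  have hθ : 0 < θ := hθ0.trans_le h1
  have hΓ : |Γ| = Γ := abs_of_pos (hθ.trans_le h2)
  have hθP : |θ| ≤ P := by
    rw [abs_of_pos hθ, hP, hΓ]; nlinarith
  have key : ∀ t, ¬ qd θ γ t < -Λ - 1 → |-θ * t + γ| ≤ P ∧ |c0 (qd θ γ t)| ≤ M' ∧
      |c1 (qd θ γ t)| ≤ M' ∧ |c2 (qd θ γ t)| ≤ M' ∧ |c3 (qd θ γ t)| ≤ M' := by
    intro t ht
    have hγt : γ * t ≤ Γ * |t| := by
      refine (le_abs_self _).trans ?_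
      rw [abs_mul]; exact mul_le_mul_of_nonneg_right h3 (abs_nonneg _)
    have ht2 : t ^ 2 = |t| ^ 2 := (sq_abs t).symm
    have hT : |t| ≤ T0 := by
      by_contra hc
      have hc := not_le.1 hc
      apply ht
      have a1 : 2 * (Γ + Λ + 1) / θ0 < |t| := by rw [hT0, hΓ] at hc; linarith
      have a2 : 2 * (Γ + Λ + 1) < |t| * θ0 := (div_lt_iff₀ hθ0).1 a1
      have a3 : 1 < |t| := hT1.trans_lt hc
      have a4 : |t| * θ0 * |t| ≤ θ * |t| ^ 2 := by nlinarith
      have a5 : 2 * (Γ + Λ + 1) * |t| < |t| * θ0 * |t| := by nlinarith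
      unfold qd
      rw [ht2]
      nlinarith
    have hq : qd θ γ t ≤ |Γ| * T0 := by
      have : Γ * |t| ≤ Γ * T0 := mul_le_mul_of_nonneg_left hT (hθ.le.trans h2)
      unfold qd
      rw [hΓ]
      nlinarith [sq_nonneg t]
    have hb := (le_abs_self _).trans ((hM _ ⟨not_lt.1 ht, hq⟩).trans (le_abs_self M))
    have b0 := abs_nonneg (c0 (qd θ γ t))
    have b1 := abs_nonneg (c1 (qd θ γ t))
    have b2 := abs_nonneg (c2 (qd θ γ t))
    have b3 := abs_nonneg (c3 (qd θ γ t))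
    refine ⟨?_, by linarith, by linarith, by linarith, by linarith⟩
    refine (abs_add_le _ _).trans ?_
    rw [abs_mul, abs_neg, abs_of_pos hθ, hP, hΓ]
    have : θ * |t| ≤ Γ * T0 := mul_le_mul h2 hT (abs_nonneg _) (hθ.le.trans h2)
    linarith
  set q1 : ℝ → ℝ := fun t => -θ * t + γ with hq1
  have dq1 : ∀ t, HasDerivAt q1 (-θ) t := fun t => by
    have := ((hasDerivAt_id t).const_mul (-θ)).add_const γ
    rw [mul_one] at this
    exact this
  set g : ℝ → ℝ := fun t => c0 (qd θ γ t) with hg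
  set g1 : ℝ → ℝ := fun t => c1 (qd θ γ t) * q1 t with hg1
  set g2 : ℝ → ℝ := fun t => c2 (qd θ γ t) * q1 t ^ 2 - θ * c1 (qd θ γ t) with hg2
  set g3 : ℝ → ℝ := fun t => c3 (qd θ γ t) * q1 t ^ 3 - 3 * (θ * c2 (qd θ γ t) * q1 t) with hg3
  have e0 : ∀ t, HasDerivAt g (g1 t) t := fun t => (d0 _).comp t (qd_der θ γ t)
  have e1 : ∀ t, HasDerivAt g1 (g2 t) t := fun t => by
    have := ((d1 _).comp t (qd_der θ γ t)).mul (dq1 t)
    refine this.congr_deriv ?_
    simp only [hg2, hq1, Function.comp]; ring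
  have e2 : ∀ t, HasDerivAt g2 (g3 t) t := fun t => by
    have := (((d2 _).comp t (qd_der θ γ t)).mul ((dq1 t).pow 2)).sub
      (((d1 _).comp t (qd_der θ γ t)).const_mul θ)
    refine this.congr_deriv ?_
    simp only [hg3, hq1, Function.comp, Pi.pow_apply, Nat.cast_ofNat, Nat.add_one_sub_one, pow_one]
    ring
  have hMP1 : M' * P ≤ M' * P ^ 3 := mul_le_mul_of_nonneg_left (hP2.trans hP3) hM0
  have hMP2 : M' * P ^ 2 ≤ M' * P ^ 3 := mul_le_mul_of_nonneg_left hP3 hM0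
  have hMP0 : M' ≤ M' * P := le_mul_of_one_le_right hM0 hP1
  have b0 : ∀ t, |g t| ≤ 1 + Λ + 4 * (M' * P ^ 3) := fun t => by
    by_cases ht : qd θ γ t < -Λ - 1
    · simp only [hg]; rw [z0 _ ht, abs_neg, abs_of_nonneg hΛ]; linarith
    · have := (key t ht).2.1
      simp only [hg]; linarith
  have b1 : ∀ t, |g1 t| ≤ 1 + Λ + 4 * (M' * P ^ 3) := fun t => by
    by_cases ht : qd θ γ t < -Λ - 1
    · simp only [hg1]; rw [z1 _ ht, zero_mul, abs_zero]; linarith
    · obtain ⟨k0, -, k1, -, -⟩ := key t ht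
      have : |g1 t| ≤ M' * P := by
        simp only [hg1]; rw [abs_mul]; exact mul_le_mul k1 k0 (abs_nonneg _) hM0
      linarith
  have b2 : ∀ t, |g2 t| ≤ 1 + Λ + 4 * (M' * P ^ 3) := fun t => by
    by_cases ht : qd θ γ t < -Λ - 1
    · simp only [hg2]; rw [z1 _ ht, z2 _ ht]; simp only [zero_mul, mul_zero, sub_zero, abs_zero]
      linarith
    · obtain ⟨k0, -, k1, k2, -⟩ := key t ht
      have a1 : |c2 (qd θ γ t) * q1 t ^ 2| ≤ M' * P ^ 2 := by
        rw [abs_mul, abs_pow]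
        exact mul_le_mul k2 (pow_le_pow_left₀ (abs_nonneg _) k0 2) (by positivity) hM0
      have a2 : |θ * c1 (qd θ γ t)| ≤ M' * P := by
        rw [abs_mul, mul_comm]; exact mul_le_mul k1 hθP (abs_nonneg _) hM0
      have := abs_sub (c2 (qd θ γ t) * q1 t ^ 2) (θ * c1 (qd θ γ t))
      simp only [hg2]; linarith
  have b3 : ∀ t, |g3 t| ≤ 1 + Λ + 4 * (M' * P ^ 3) := fun t => by
    by_cases ht : qd θ γ t < -Λ - 1
    · simp only [hg3]; rw [z2 _ ht, z3 _ ht]; simp only [zero_mul, mul_zero, sub_zero, abs_zero]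
      linarith
    · obtain ⟨k0, -, -, k2, k3⟩ := key t ht
      have a1 : |c3 (qd θ γ t) * q1 t ^ 3| ≤ M' * P ^ 3 := by
        rw [abs_mul, abs_pow]
        exact mul_le_mul k3 (pow_le_pow_left₀ (abs_nonneg _) k0 3) (by positivity) hM0
      have a2 : |3 * (θ * c2 (qd θ γ t) * q1 t)| ≤ 3 * (M' * P ^ 2) := by
        rw [abs_mul, abs_mul, abs_mul, abs_of_pos (by norm_num : (0 : ℝ) < 3)]
        refine mul_le_mul_of_nonneg_left ?_ (by norm_num)
        calc _ ≤ P * M' * P := mul_le_mul (mul_le_mul hθP k2 (abs_nonneg _) (by linarith)) k0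
              (abs_nonneg _) (by positivity)
          _ = M' * P ^ 2 := by ring
      have := abs_sub (c3 (qd θ γ t) * q1 t ^ 3) (3 * (θ * c2 (qd θ γ t) * q1 t))
      simp only [hg3]; linarith
  refine ⟨g, g1, g2, ⟨b0, b1, b2, lip e0 b1, tay e0 e1 e2 b3⟩, ?_, ?_, fun t => chi_cut Λ _⟩
  · exact continuous_iff_continuousAt.2 (fun t => (e1 t).continuousAt)
  · exact continuous_iff_continuousAt.2 (fun t => (e2 t).continuousAt)

end

end Vale.Agent.P166
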