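import Vale.Agent.P166.Spn2

/-! P166, module Spn: the value of the system with one more spin. -/

namespace Vale.Agent.P166

open MeasureTheory Finset Real Vale.Agent.P157

namespace Spn

theorem cav_val (hT : TApi) (hS : PslStmt) (hM : MicStmt) {J κ : Type} [Fintype J] [Fintype κ]
    {n l : ℕ} {p : ℕ → ℝ} (hn : 1 ≤ n) (hp : Path n p) {γ θ θ' : J → ℝ} {P Γ K u t : ℝ}
    (hP : p 0 ≤ P) (hK : (Fintype.card J : ℝ) ≤ K) (hγ : ∀ j, |γ j| ≤ Γ)
    (h : ∀ j, 0 ≤ θ j ∧ 0 ≤ θ' j ∧ |θ' j - θ j| ≤ u) (hu : 0 ≤ u) (hl : l < n) (ht : 0 ≤ t)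
    {a : κ → ℝ} {r b : ℝ → ℝ} (hs : ∀ x, 0 ≤ x →
      ∑ j, lg (θ j) x = ∑ k, lg (a k) x - log (r x) / 2 ∧ ∑ j, γ j ^ 2 * ph (θ j) x = b x)
    {X e e' η1 η2 : ℝ} (h1 : 0 < η1) (h2 : 0 < η2)
    (hX : ∀ (S : ℕ) (a : Fin S × Fin n → ℝ), Mic n (fun r => r.2) a
      (fun d => ∑ j, γ j ^ 2 * fp n (ph (θ' j)) p d) η1 → |X - ∑ j, tr n (lg (θ' j)) p -
      Xs n (Sum.elim (lB l) (fun r : Fin S × Fin n => r.2))
        (fun e => √t * spin (e (Sum.inl true)) * spin (e (Sum.inl false)) +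
          sg a (e ∘ Sum.inr) * spin (e (Sum.inl false)))| ≤ e)
    (hd : ∀ (S : ℕ) (a : Fin S × Fin n → ℝ) (q : ℕ → ℝ), Path n q → q 0 ≤ K * Γ ^ 2 * P →
      Mic n (fun r => r.2) a q η2 → |Xs n (Sum.elim (lB l) (fun r : Fin S × Fin n => r.2))
        (fun e => √t * spin (e (Sum.inl true)) * spin (e (Sum.inl false)) +
          sg a (e ∘ Sum.inr) * spin (e (Sum.inl false))) -
        psi n (fun d => q d + if d ≤ l then t else 0) - (q 0 + t) / 2| ≤ e') :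
    |X - (∑ k, tr n (lg (a k)) p + tr n (fun x => -log (r x) / 2) p +
        psi n (fun d => fp n b p d + if d ≤ l then t else 0) + (fp n b p 0 + t) / 2)| ≤
      e + e' + u * (K * P / 2 + K * Γ ^ 2 * P ^ 2) := by
  have hq := q_path hT hp hP hK hγ fun j => (h j).2.1
  obtain ⟨S, a', ha⟩ := hM.1 n _ (min η1 η2) hq.1 (lt_min h1 h2)
  have k1 := hX S a' (mic_mono ha (min_le_left _ _))
  have k2 := hd S a' _ hq.1 hq.2 (mic_mono ha (min_le_right _ _))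
  have k3 := val_close hT hS hn hp hP hK hγ h hu hl ht hs
  rw [abs_le] at k1 k2 k3 ⊢
  constructor <;> linarith [k1.1, k1.2, k2.1, k2.2, k3.1, k3.2]

theorem small {K c : ℝ} (hK : 0 ≤ K) (hc : 0 < c) : ∃ σ : ℝ, 0 < σ ∧ ∀ s, s ≤ σ → s * K ≤ c := by
  refine ⟨c / (K + 1), by positivity, fun s hs => (mul_le_mul_of_nonneg_right hs hK).trans ?_⟩
  rw [div_mul_eq_mul_div, div_le_iff₀ (by positivity)]
  nlinarith

theorem exists_v (K : ℕ) (Γ : ℝ) {η g0 ε : ℝ} (hη : 0 < η) (hg : 0 < g0) (hε : 0 < ε) :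
    ∃ v : ℝ, 0 < v ∧ v ≤ 1 ∧ 8 * K * v ≤ η ∧ 4 * v ≤ g0 * η ∧ 2 * v ≤ g0 ∧
      v + 2 * v * (K * (1 / η) / 2 + K * Γ ^ 2 * (1 / η) ^ 2) + K * (v / 2 * (1 / η)) ≤ ε := by
  obtain ⟨a1, p1, q1⟩ := small (K := 8 * K) (by positivity) hη
  obtain ⟨a2, p2, q2⟩ := small (K := 4) (by positivity) (mul_pos hg hη)
  obtain ⟨a3, p3, q3⟩ := small (K := 2) (by positivity) hg
  obtain ⟨a4, p4, q4⟩ := small (K := 1 + 2 * (K * (1 / η) / 2 + K * Γ ^ 2 * (1 / η) ^ 2) +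
    K * (1 / 2 * (1 / η))) (by positivity) hε
  refine ⟨min (min (min a1 a2) (min a3 a4)) 1, by positivity, min_le_right _ _, ?_, ?_, ?_, ?_⟩
  · linarith [q1 _ ((min_le_left (min (min a1 a2) (min a3 a4)) 1).trans
      ((min_le_left _ _).trans (min_le_left _ _)))]
  · linarith [q2 _ ((min_le_left (min (min a1 a2) (min a3 a4)) 1).trans
      ((min_le_left _ _).trans (min_le_right _ _)))]
  · linarith [q3 _ ((min_le_left (min (min a1 a2) (min a3 a4)) 1).trans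
      ((min_le_right _ _).trans (min_le_left _ _)))]
  · linarith [q4 _ ((min_le_left (min (min a1 a2) (min a3 a4)) 1).trans
      ((min_le_right _ _).trans (min_le_right _ _)))]

theorem conc_mono {T I : Type} [Fintype T] [DecidableEq T] [Fintype I] [DecidableEq I]
    {ν : Measure (OG I)} {n : ℕ} {lev : T → ℕ} {Z : OG I → Cf T I → ℝ} {A : Finset I} {p : ℕ → ℝ}
    {e e' : ℝ} (h : ConcH ν n lev Z A p e) (he : e ≤ e') : ConcH ν n lev Z A p e' :=
  ⟨h.1.trans he, h.2.trans he⟩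

theorem inv_sup (hO : OApi) {κ I Ts : Type} [DecidableEq κ] [Fintype I] [DecidableEq I]
    [Fintype Ts] [DecidableEq Ts] {S : Sys κ I Ts} {D n : ℕ} {y : κ → ℕ → ℝ} {δ : ℝ} (τ : κ)
    (h : S.Inv D n y δ) : InvP n (S.lev D n) (S.Z D n y) (fs D n I Ts) {R | Sup (S.cls τ) R} δ :=
  fun R hR => h R (hO.supblk _ R S.c τ hR fun _ hi => (mem_filter.1 hi).2)

end Spn

open Spn in
theorem spnStmt (hO : OApi) (hH : HApi) (hT : TApi) (hCav : CavStmt) (hSch : SchStmt)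
    (hIso : IsoStmt) (hNear : NearStmt) (hGd : GdStmt) (hTst : TstStmt) (hTs0 : Ts0Stmt)
    (hMic : MicStmt) (hPd : PdStmt) (hPsl : PslStmt) (hSwp : SwpStmt) : SpnStmt := by
  obtain ⟨C, hC, hPd⟩ := hPd
  refine ⟨C, hC, fun K Γ η g0 ε hη hg0 hε => ?_⟩
  have hε' : 0 < ε / 5 := by positivity
  obtain ⟨v, hv, v1, v2, v3, v4, v5⟩ := exists_v K Γ hη hg0 hε'
  obtain ⟨δ1, hδ1, hCav⟩ := hCav K Γ η v (ε / 5) hη hv v1 v2 hε'
  obtain ⟨e1, he1, hTst⟩ := hTst K η (g0 * η / 2) (2 * |Γ| + 2 + 1 / η) (ε / 5) hη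
    (by positivity) hε'
  obtain ⟨e2, he2, hTs0⟩ := hTs0 K η (g0 / 2) (2 * |Γ| + 2 + 1 / η) (ε / 5) hη (by positivity) hε'
  obtain ⟨n0, hGd⟩ := hGd η (min e1 e2) hη (lt_min he1 he2)
  refine ⟨v, δ1, hv, hδ1, n0, fun n hn0 hn lp C0 hlp hlp1 hlv hC0 => ?_⟩
  obtain ⟨Cc, -, N1, hCav⟩ := hCav n hn
  obtain ⟨η1, hη1, N2, hTst⟩ := hTst n hn
  obtain ⟨N3, hTs0⟩ := hTs0 n hn
  obtain ⟨η2, hη2, hPd⟩ := hPd n (K * Γ ^ 2 * (1 / η)) (ε / 5) hn hε'
  obtain ⟨N4, hGd⟩ := hGd n hn0 hn lp (C0 + K + K * (2 * |Γ| + 1) / (2 * η)) hlp hlp1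
    (by positivity)
  refine ⟨max N4 ⌈((N1 + N2 + N3 + 1 : ℕ) : ℝ) / η⌉₊, fun Nr hNr => ?_⟩
  obtain ⟨d2, hd2, hTst⟩ := hTst Nr
  obtain ⟨d3, hd3, hTs0⟩ := hTs0 Nr
  obtain ⟨D4, hGd⟩ := hGd Nr ((le_max_left _ _).trans hNr)
  obtain ⟨D2, hD2⟩ := hIso n Nr 4 d2 hn hd2
  obtain ⟨D3, hD3⟩ := hIso n Nr 4 d3 hn hd3
  choose! d1 hd1 hCav using hCav
  have hD1 : ∀ N, ∃ D1 : ℕ, N1 ≤ N → ∀ D, D1 ≤ D →
      ∀ (κ I Ts : Type) [Fintype I] [DecidableEq I] [Fintype Ts] [DecidableEq Ts] (S : Sys κ I Ts)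
      (y : κ → ℕ → ℝ), Fintype.card I ≤ Nr → (∀ k l, l < n → |y k l| ≤ 4) → S.Inv D n y (d1 N) := by
    intro N
    by_cases h : N1 ≤ N
    · obtain ⟨D1, h1⟩ := hIso n Nr 4 (d1 N) hn (hd1 N h)
      exact ⟨D1, fun _ => h1⟩
    · exact ⟨0, fun h' => absurd h' h⟩
  choose D1 hD1 using hD1
  refine ⟨max (max D2 D3) (max D4 ((range Nr).sup D1)), fun D hD => ?_⟩
  intro N κ _ _ ν ν' τ α lam c' y p M l θ hν hν' hK hN hW hα hgap hcl hal hNM hp hp0 hM hPin hl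
    hθ0 hθ1
  have hNN : N1 + N2 + N3 + 1 ≤ N := by
    have a1 : ((N1 + N2 + N3 + 1 : ℕ) : ℝ) / η ≤ Nr :=
      (Nat.le_ceil _).trans (by exact_mod_cast (le_max_right _ _).trans hNr)
    rw [div_le_iff₀ hη, mul_comm] at a1
    have a2 : ((s0 (c' ∘ Fin.castSucc) lam).cls τ).card ≤ N :=
      (card_le_univ _).trans (Fintype.card_fin N).le
    exact_mod_cast a1.trans ((hcl τ).trans (Nat.cast_le.2 a2))
  have hy : ∀ k l, l < n → |y k l| ≤ 4 := fun k l hl => by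
    have := hNM.1 k l hl
    rw [abs_le]
    constructor <;> linarith [this.1, this.2]
  have hVb : Vb n y v := vb_box hNM.1 hlp.le (by linarith) hlv
  have hNr0 : (0 : ℝ) < Nr := by exact_mod_cast (by omega : 0 < Nr)
  have hne : ∀ j : {k // k ≠ c' (Fin.last N)}, ∃ i : Fin N, c' i.castSucc = j.1 := by
    intro j
    have a1 : (0 : ℝ) < ((s0 (c' ∘ Fin.castSucc) lam).cls j.1).card :=
      lt_of_lt_of_le (by positivity) (hcl j.1)
    obtain ⟨i, hi⟩ := card_pos.1 (Nat.cast_pos.1 a1)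
    exact ⟨i, (mem_filter.1 hi).2⟩
  choose sp hsp using hne
  have hinj : Function.Injective sp := fun j j' h => Subtype.ext (by rw [← hsp, ← hsp, h])
  have hJ : Fintype.card {k // k ≠ c' (Fin.last N)} ≤ K := (Fintype.card_subtype_le _).trans hK
  have hJ' : (Fintype.card {k // k ≠ c' (Fin.last N)} : ℝ) ≤ K := by exact_mod_cast hJ
  have hB : (univ.image sp).card ≤ K := card_image_le.trans hJ
  have hB' : ((univ.image sp).card : ℝ) ≤ K := by exact_mod_cast hB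
  obtain ⟨nu, γ, hDg, hnu, hs⟩ := hSch κ _ τ (Equiv.optionSubtypeNe (c' (Fin.last N))) α lam Γ η g0
    hη hg0 hα hW hgap
  obtain ⟨S, hS⟩ : ∃ S : Sys κ (Fin N) Empty, S = s0 (c' ∘ Fin.castSucc) lam := ⟨_, rfl⟩
  have hcu := cls_up S (univ.image sp) τ
  have hcN : Fintype.card (Fin N) ≤ Nr := by rw [Fintype.card_fin]; omega
  have hc1 : η * Nr ≤ ((S.up (univ.image sp) τ).cls τ).card :=
    (hS ▸ hcl τ).trans (Nat.cast_le.2 (card_le_card hcu.1))
  have hc2 : η * Fintype.card (Fin N) ≤ ((S.up (univ.image sp) τ).cls τ).card :=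
    (mul_le_mul_of_nonneg_left (Nat.cast_le.2 hcN) hη.le).trans hc1
  have hlam : S.lam = lam := by rw [hS]; rfl
  have hlev : LevOk n S.levs := fun s => s.elim
  have hlev0 : LevOk n (S.up (univ.image sp) τ).levs := hlev
  have hΓ : ∀ k, |lam k| ≤ |Γ| := fun k => (hW.bd k).trans (le_abs_self Γ)
  have hη' : 0 < 1 / η := by positivity
  rw [← hS] at hNM hM ⊢
  have hNM0 := nm_up hNear S (univ.image sp) τ hν hn hlev hlp hlv v1 (hlam ▸ hW.bd)
    (fun i _ hi => by rw [hlam]; linarith [hgap _ hi]) hη hB' hc2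
    (by rw [Fintype.card_fin]; omega) hNM
  have hcn := (hGd D (((le_max_left _ _).trans (le_max_right _ _)).trans hD) κ _ _ ν
    (S.up (univ.image sp) τ) y τ hν hlev0 hcN hc1
    ⟨hNM0.1, fun y' hy' => (hNM0.2 y' hy').trans (by linarith [Nat.cast_nonneg (α := ℝ) K])⟩).2
    p M hp hp0 (by
      have a1 : ((S.cls τ).card : ℝ) ≤ ((S.up (univ.image sp) τ).cls τ).card :=
        Nat.cast_le.2 (card_le_card hcu.1)
      have a2 : (((S.up (univ.image sp) τ).cls τ).card : ℝ) ≤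
          (S.cls τ).card + (univ.image sp).card := by exact_mod_cast hcu.2.2
      have a3 : 0 ≤ K * (2 * |Γ| + 1) / (2 * η) := by positivity
      rw [abs_le] at hM ⊢
      constructor <;> linarith [hM.1, hM.2]) hPin
  have i2 := inv_sup hO τ (hD2 D (((le_max_left _ _).trans (le_max_left _ _)).trans hD) κ _ _
    (S.up (univ.image sp) τ) y hcN hy)
  have i3 := inv_sup hO τ (hD3 D (((le_max_right _ _).trans (le_max_left _ _)).trans hD) κ _ _
    (S.up (univ.image sp) τ) y hcN hy)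
  have hDN : D1 N ≤ D := (le_sup (f := D1) (mem_range.2 (by omega))).trans
    (((le_max_right _ _).trans (le_max_right _ _)).trans hD)
  have cz := hH.ctz (S.up (univ.image sp) τ) D n y
  have hup := up_val hO hH hT hSwp S (univ.image sp) τ (g := g0 / 2) (G := 2 * |Γ| + 2 + 1 / η)
    (e := ε / 5) hν hn hlev hVb hv.le hp hp0 hB' (by positivity)
    (fun i _ hi => by
      rw [hlam]
      have a1 := abs_le.1 (hΓ τ)
      have a2 := abs_le.1 (hΓ (S.c i))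
      constructor <;> linarith [hgap _ hi, a1.2, a2.1])
    (fun θ' hθ' => hTs0 _ _ ν _ _ _ _ _ θ' p hν (cz.2 hlev0) cz.1
      (by rw [Fintype.card_fin]; omega) hcN hc2 ((card_filter_le _ _).trans hB)
      ((filter_subset _ _).trans hcu.2.1) hθ' hp (by linarith [abs_nonneg Γ]) i3
      (conc_mono hcn (min_le_right _ _)))
  rw [hlam, sum_sp S.c (c' (Fin.last N)) τ sp (fun j => by rw [hS]; exact hsp j)
    (fun k => tr n (lg (lam τ - lam k)) p) (by rw [sub_self, tr_lg0])] at hup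
  have hlB : LevOk n (lB l) := fun b => by
    unfold lB
    split_ifs
    · exact hl
    · omega
  have hcv : ∀ θ' : {k // k ≠ c' (Fin.last N)} → ℝ, (∀ j, |θ' j - (lam τ - nu j)| ≤ 2 * v) →
      |TH ν n (Sum.elim ((S.up (univ.image sp) τ).lev D n) (lB l))
        (cavZ (S.up (univ.image sp) τ) D n y (√θ) sp θ' γ) - (S.up (univ.image sp) τ).T ν D n y -
        (∑ k, tr n (lg (lam τ - lam k)) p + tr n (fun x => -log (rho α lam τ x) / 2) p +
          psi n (fun d => fp n (bt α lam τ) p d + if d ≤ l then θ else 0) +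
          (fp n (bt α lam τ) p 0 + θ) / 2)| ≤ ε / 5 + (ε / 5 + C * (θ * √θ)) +
          2 * v * (K * (1 / η) / 2 + K * Γ ^ 2 * (1 / η) ^ 2) := by
    intro θ' hθ'
    have b1 : ∀ j, g0 * η / 2 ≤ θ' j ∧ θ' j ≤ 2 * |Γ| + 2 + 1 / η ∧
        |γ j| ≤ 2 * |Γ| + 2 + 1 / η := by
      intro j
      have a1 := abs_le.1 (hθ' j)
      have a2 := abs_le.1 (hΓ τ)
      have a3 := abs_le.1 (hnu j).2.1
      have a4 := le_abs_self Γ
      refine ⟨by linarith [a1.1, (hnu j).1], by linarith [a1.2, a2.2, a3.1], ?_⟩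
      linarith [(hnu j).2.2, abs_nonneg Γ]
    have b2 : 0 < g0 * η := mul_pos hg0 hη
    refine cav_val hT hPsl hMic hn hp hp0 hJ' (fun j => (hnu j).2.2)
      (fun j => ⟨by linarith [(hnu j).1], by linarith [(b1 j).1], hθ' j⟩) (by positivity) hl hθ0
      hs hη1 hη2 (fun S' a ha => ?_) (fun S' a q hq hq0 ha => (hPd _ _ a q l θ hq hq0 hl hθ0 hθ1 ha).2)
    exact hTst _ _ _ Bool _ ν _ _ _ _ sp θ' γ p (lB l)
      (fun e => √θ * spin (e true) * spin (e false)) (fun e => spin (e false)) _ a hν (cz.2 hlev0)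
      hlB cz.1 (by rw [Fintype.card_fin]; omega) hcN hc2 hJ hinj
      (fun j => hcu.2.1 (mem_image_of_mem _ (mem_univ j))) b1 hp (by linarith [abs_nonneg Γ]) i2
      (conc_mono hcn (min_le_left _ _)) (fun e => by cases e false <;> simp [spin]) ha
  have k1 := hcv (fun j => lam τ - nu j - 2 * v) fun j => by
    rw [sub_sub_cancel_left, abs_neg, abs_of_nonneg (by positivity)]
  have k2 := hcv (fun j => lam τ - nu j + 2 * v) fun j => by
    rw [add_sub_cancel_left, abs_of_nonneg (by positivity)]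
  have k3 := hCav N (by omega) κ _ ν ν' D τ (Equiv.optionSubtypeNe (c' (Fin.last N))) sp c' α lam
    nu γ y l (√θ) hν hν' hK hinj hsp rfl hα hW hDg (fun j => (hnu j).2) hal hl
    (by rw [abs_of_nonneg (Real.sqrt_nonneg _)]; exact Real.sqrt_le_one.2 hθ1) hVb
    (by rw [← hS]; simpa using hc2)
    (hD1 N (by omega) D hDN κ _ _ _ y (by rw [Fintype.card_fin]; exact hN) hy)
    (hD1 N (by omega) D hDN κ _ _ _ y hcN hy)
  rw [← hS] at k3
  rw [abs_le] at k1 k2 hup ⊢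
  constructor <;> linarith [k1.1, k1.2, k2.1, k2.2, hup.1, hup.2, k3.1, k3.2.1]

end Vale.Agent.P166
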