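import Vale.Agent.P166.Stm

/-! P166 module Swp: moving directions to the top class. -/

namespace Vale.Agent.P166

open Finset Real Vale.Agent.P157

namespace Swpm

lemma core (hA : AApi) (hR : RApi) (hQ : QApi) {T I R : Type} [Fintype T] [DecidableEq T]
    [Fintype I] [DecidableEq I] [Fintype R] [DecidableEq R] (n : ℕ) (lev : T → ℕ) (hn : 1 ≤ n)
    (hl : LevOk n lev) (g : R → T) (hg : Function.Injective g) (F : Finset R)
    (Z0 : Cf T I → ℝ) (hZ : Idp (F.image g) Z0) (a : R → (I → Bool) → ℝ) (w : (I → Bool) → ℝ)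
    (hw : ∀ σ, ∑ r ∈ F, a r σ ^ 2 ≤ w σ) :
    Xv n lev Z0 ≤ Xv n lev (fun ω => Z0 ω + ∑ r ∈ F, spin (ω.1 (g r)) * a r ω.2) ∧
      Xv n lev (fun ω => Z0 ω + ∑ r ∈ F, spin (ω.1 (g r)) * a r ω.2) ≤
        Xv n lev (fun ω => Z0 ω + w ω.2 / 2) := by
  set u : T → Cf T I → ℝ := fun s ω => ∑ r, if g r = s then a r ω.2 else 0 with hu
  have hug : ∀ r ω, u (g r) ω = a r ω.2 := by
    intro r ω
    simp only [hu, hg.eq_iff]
    simp
  have h := hQ.hole n lev (F.image g) Z0 u hn hl hZ (fun s _ e e' σ _ => rfl)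
  have e1 : (fun ω : Cf T I => Z0 ω + ∑ s ∈ F.image g, spin (ω.1 s) * u s ω) =
      fun ω => Z0 ω + ∑ r ∈ F, spin (ω.1 (g r)) * a r ω.2 := by
    funext ω
    rw [sum_image (fun x _ y _ h => hg h)]
    simp only [hug]
  rw [e1] at h
  refine ⟨h.1, h.2.trans ?_⟩
  have := hA.xle (hR.ok (I := I) n lev hn).1 (c := 0)
    (Z := fun ω => Z0 ω + ∑ s ∈ F.image g, u s ω ^ 2 / 2) (Z' := fun ω => Z0 ω + w ω.2 / 2)
    (fun ω => by
      rw [sum_image (fun x _ y _ h => hg h)]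
      simp only [hug]
      rw [← sum_div]
      have := hw ω.2
      linarith) (n + 1) le_rfl (w0 T I)
  simpa [Xv] using this

lemma var_le {κ I : Type} [Fintype I] [DecidableEq I] (D n : ℕ) (y : κ → ℕ → ℝ) (v : ℝ)
    (hv : Vb n y v) (hv0 : 0 ≤ v) (c : I → κ) (B : Finset I) (x : I → ℝ) :
    ∑ r ∈ univ.filter (fun r : Fin D × Fin n × I => r.2.2 ∈ B),
      (y (c r.2.2) r.2.1 / √(D : ℝ) * x r.2.2) ^ 2 ≤ ∑ i ∈ B, v * x i ^ 2 := by
  rcases Nat.eq_zero_or_pos D with rfl | hD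
  · simp only [univ_eq_empty, filter_empty, sum_empty]
    exact sum_nonneg fun i _ => by positivity
  have hD' : (0 : ℝ) < D := by exact_mod_cast hD
  rw [sum_filter, Fintype.sum_prod_type]
  simp only [Fintype.sum_prod_type]
  have e : ∀ (l : Fin n) (i : I), (y (c i) l / √(D : ℝ) * x i) ^ 2 = y (c i) l ^ 2 * x i ^ 2 / D := by
    intro l i
    rw [mul_pow, div_pow, sq_sqrt hD'.le]
    ring
  simp only [e, sum_const, card_univ, Fintype.card_fin, nsmul_eq_mul]
  rw [sum_comm, mul_sum]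
  have e2 : ∀ i : I, (D : ℝ) * ∑ l : Fin n, (if i ∈ B then y (c i) l ^ 2 * x i ^ 2 / D else 0) =
      if i ∈ B then (∑ l ∈ range n, y (c i) l ^ 2) * x i ^ 2 else 0 := by
    intro i
    split_ifs
    · rw [← Fin.sum_univ_eq_sum_range (fun l => y (c i) l ^ 2), mul_sum, sum_mul]
      refine sum_congr rfl fun l _ => ?_
      field_simp
    · simp
  simp only [e2]
  rw [← sum_filter, filter_mem_eq_inter, univ_inter]
  exact sum_le_sum fun i _ => mul_le_mul_of_nonneg_right (hv _) (sq_nonneg _)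

end Swpm

open Swpm

theorem swpStmt (hA : AApi) (hR : RApi) (hQ : QApi) : SwpStmt := by
  intro κ I Ts T' _ _ _ _ _ _ _ _ S D n y B τ v lev' f V U hn hv hf hl hV
  have hv0 : 0 ≤ v := le_trans (sum_nonneg fun _ _ => sq_nonneg _) (hv τ)
  set B' := B.filter (fun i => S.c i ≠ τ) with hB'
  set g : Fin D × Fin n × I → T' := fun r => f (Sum.inl r) with hg
  have hgi : Function.Injective g := fun r r' h => Sum.inl_injective (hf.1 h)
  set F := univ.filter (fun r : Fin D × Fin n × I => r.2.2 ∈ B') with hF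
  set a : (I → κ) → Fin D × Fin n × I → (I → Bool) → ℝ :=
    fun c r σ => y (c r.2.2) r.2.1 / √(D : ℝ) * yy U σ r.2.2 with ha
  set w : (I → Bool) → ℝ := fun σ => ∑ i ∈ B', v * yy U σ i ^ 2 with hw
  have haw : ∀ c σ, ∑ r ∈ F, a c r σ ^ 2 ≤ w σ := fun c σ => var_le D n y v hv hv0 c B' _
  set Z0 : Cf T' I → ℝ := fun ω => ∑ i, S.lam (S.c i) * yy U ω.2 i ^ 2 / 2 +
    ∑ r ∈ univ.filter (fun r : Fin D × Fin n × I => ¬ r.2.2 ∈ B'), spin (ω.1 (g r)) * a S.c r ω.2 +
    S.SF (pull Sum.inr (pull f ω)) + V ω with hZ0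
  have hI : ∀ k : (I → Bool) → ℝ, Idp (F.image g) (fun ω => Z0 ω + k ω.2) := by
    intro k e e' σ h
    have h1 : ∀ r ∈ univ.filter (fun r : Fin D × Fin n × I => ¬ r.2.2 ∈ B'), e (g r) = e' (g r) := by
      intro r hr
      refine h _ fun hm => ?_
      obtain ⟨r', hr', he⟩ := mem_image.1 hm
      rw [hgi he] at hr'
      exact (mem_filter.1 hr).2 (mem_filter.1 hr').2
    have h2 : pull (I := I) Sum.inr (pull f (e, σ)) = pull Sum.inr (pull f (e', σ)) := by
      refine Prod.ext ?_ rfl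
      funext x
      refine h _ fun hm => ?_
      obtain ⟨r', _, he⟩ := mem_image.1 hm
      exact Sum.inl_ne_inr (hf.1 he)
    have h3 : V (e, σ) = V (e', σ) := by
      refine hV e e' σ fun s hs => h s fun hm => hs ?_
      obtain ⟨r', _, he⟩ := mem_image.1 hm
      exact mem_image.2 ⟨Sum.inl r', mem_image.2 ⟨r', mem_univ _, rfl⟩, he⟩
    have h4 : ∑ r ∈ univ.filter (fun r : Fin D × Fin n × I => ¬ r.2.2 ∈ B'),
        spin (e (g r)) * a S.c r σ =
        ∑ r ∈ univ.filter (fun r : Fin D × Fin n × I => ¬ r.2.2 ∈ B'),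
          spin (e' (g r)) * a S.c r σ := sum_congr rfl (fun r hr => by rw [h1 r hr])
    simp only [hZ0]
    rw [h2, h3, h4]
  have e0 : (fun ω => S.Z D n y U (pull f ω) + V ω) =
      fun ω => (Z0 ω + 0) + ∑ r ∈ F, spin (ω.1 (g r)) * a S.c r ω.2 := by
    funext ω
    simp only [hZ0, Sys.Z]
    rw [← sum_filter_add_sum_filter_not univ (fun r : Fin D × Fin n × I => r.2.2 ∈ B')]
    simp only [pull, Function.comp, hg, ha, hF]
    ring
  have e1 : ∀ t : ℝ, (fun ω => (S.up B τ).Z D n y U (pull f ω) + V ω +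
      ∑ i ∈ B', (S.lam (S.c i) - S.lam τ + t * v) * yy U ω.2 i ^ 2 / 2) =
      fun ω => (Z0 ω + t * w ω.2 / 2) + ∑ r ∈ F, spin (ω.1 (g r)) * a (S.up B τ).c r ω.2 := by
    intro t
    funext ω
    have hc : ∀ i, i ∉ B' → (S.up B τ).c i = S.c i := by
      intro i hi
      simp only [Sys.up]
      split_ifs with h
      · by_contra hne
        exact hi (mem_filter.2 ⟨h, fun h' => hne h'.symm⟩)
      · rfl
    have hc' : ∀ i ∈ B', (S.up B τ).c i = τ := by
      intro i hi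
      simp only [Sys.up]
      rw [if_pos (mem_filter.1 hi).1]
    have q1 : ∑ i, S.lam ((S.up B τ).c i) * yy U ω.2 i ^ 2 / 2 +
        ∑ i ∈ B', (S.lam (S.c i) - S.lam τ + t * v) * yy U ω.2 i ^ 2 / 2 =
        ∑ i, S.lam (S.c i) * yy U ω.2 i ^ 2 / 2 + t * w ω.2 / 2 := by
      rw [← sum_add_sum_compl B', ← sum_add_sum_compl B' (fun i => S.lam (S.c i) * yy U ω.2 i ^ 2 / 2),
        sum_congr rfl (fun i hi => by rw [hc' i hi]),
        sum_congr (s₁ := B'ᶜ) rfl (fun i hi => by rw [hc i (mem_compl.1 hi)])]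
      simp only [hw]
      rw [mul_sum, sum_div, add_right_comm, add_right_comm _ _ (∑ i ∈ B', _), ← sum_add_distrib,
        ← sum_add_distrib]
      congr 1
      refine sum_congr rfl fun i _ => by ring
    have q2 : ∑ r ∈ univ.filter (fun r : Fin D × Fin n × I => ¬ r.2.2 ∈ B'),
        spin (ω.1 (g r)) * a (S.up B τ).c r ω.2 =
        ∑ r ∈ univ.filter (fun r : Fin D × Fin n × I => ¬ r.2.2 ∈ B'),
          spin (ω.1 (g r)) * a S.c r ω.2 := by
      refine sum_congr rfl fun r hr => ?_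
      simp only [ha]
      rw [hc _ (mem_filter.1 hr).2]
    have q3 : (S.up B τ).Z D n y U (pull f ω) = ∑ i, S.lam ((S.up B τ).c i) * yy U ω.2 i ^ 2 / 2 +
        (∑ r ∈ F, spin (ω.1 (g r)) * a (S.up B τ).c r ω.2 +
          ∑ r ∈ univ.filter (fun r : Fin D × Fin n × I => ¬ r.2.2 ∈ B'),
            spin (ω.1 (g r)) * a (S.up B τ).c r ω.2) + S.SF (pull Sum.inr (pull f ω)) := by
      rw [hF, sum_filter_add_sum_filter_not]
      rfl
    rw [q3, q2]
    simp only [hZ0]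
    linarith
  have c0 := core hA hR hQ n lev' hn hl g hgi F _ (hI fun _ => 0) (a S.c) w (haw _)
  have c1 := core hA hR hQ n lev' hn hl g hgi F _ (hI fun σ => (-1) * w σ / 2) (a (S.up B τ).c) w
    (haw _)
  have c2 := core hA hR hQ n lev' hn hl g hgi F _ (hI fun σ => 1 * w σ / 2) (a (S.up B τ).c) w
    (haw _)
  have f1 := e1 (-1)
  have f2 := e1 1
  simp only [neg_mul, one_mul, ← sub_eq_add_neg] at f1 f2 c1 c2
  rw [e0, f1, f2]
  constructor
  · refine c1.2.trans (le_trans (le_of_eq ?_) c0.1)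
    congr 1
    funext ω
    ring
  · refine c0.2.trans (le_trans (le_of_eq ?_) c2.1)
    congr 1
    funext ω
    ring

end Vale.Agent.P166
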