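import Vale.Agent.P166.Stm

/-! P166, module T: functional calculus on paths. -/

namespace Vale.Agent.P166

open Finset Real Vale.Agent.P157

namespace T

variable {n : ℕ} {p : ℕ → ℝ}

lemma m_pos {d : ℕ} (h : d < n) : 0 < 1 - (d : ℝ) / n := by
  have h0 : (0 : ℝ) < n := by exact_mod_cast (by omega : 0 < n)
  have : (d : ℝ) < n := by exact_mod_cast h
  exact sub_pos.2 ((div_lt_one h0).2 this)

lemma m_le (n d : ℕ) : 1 - (d : ℝ) / n ≤ 1 := sub_le_self _ (by positivity)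

lemma m_inv {d : ℕ} (h : d < n) : (1 - (d : ℝ) / n)⁻¹ ≤ n := by
  have h0 : (0 : ℝ) < n := by exact_mod_cast (by omega : 0 < n)
  have h1 : (d : ℝ) + 1 ≤ n := by exact_mod_cast h
  rw [inv_le_comm₀ (m_pos h) h0, le_sub_iff_add_le, inv_eq_one_div, ← add_div, div_le_one h0]
  linarith

lemma xi_zero (n : ℕ) (p : ℕ → ℝ) : xi n p 0 = 0 := by simp [xi]

lemma xi_succ (n : ℕ) (p : ℕ → ℝ) (d : ℕ) :
    xi n p (d + 1) = xi n p d + (1 - (d : ℝ) / n) * (p d - p (d + 1)) := sum_range_succ _ _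

lemma anti (hp : P157.Path n p) {d d' : ℕ} (h : d ≤ d') (h' : d' ≤ n) : p d' ≤ p d := by
  induction d', h using Nat.le_induction with
  | base => exact le_rfl
  | succ k _ ih => exact (hp.1 k h').trans (ih (by omega))

lemma nn (hp : P157.Path n p) (d : ℕ) (h : d ≤ n) : 0 ≤ p d ∧ p d ≤ p 0 :=
  ⟨hp.2 ▸ anti hp h le_rfl, anti hp (Nat.zero_le d) h⟩

lemma xi_step (hp : P157.Path n p) {d : ℕ} (h : d < n) : xi n p d ≤ xi n p (d + 1) := by
  rw [xi_succ]
  exact le_add_of_nonneg_right (mul_nonneg (m_pos h).le (sub_nonneg.2 (hp.1 d h)))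

lemma xi_le (hp : P157.Path n p) {d d' : ℕ} (h : d ≤ d') (h' : d' ≤ n) :
    xi n p d ≤ xi n p d' := by
  induction d', h using Nat.le_induction with
  | base => exact le_rfl
  | succ k _ ih => exact (ih (by omega)).trans (xi_step hp h')

lemma xi_up (hp : P157.Path n p) : ∀ d, d ≤ n → xi n p d ≤ p 0 - p d
  | 0, _ => by simp [xi_zero]
  | d + 1, h => by
      have h1 := xi_up hp d (by omega)
      have h2 := mul_le_mul_of_nonneg_right (m_le n d) (sub_nonneg.2 (hp.1 d h))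
      rw [xi_succ]; linarith

lemma xi_mem (hp : P157.Path n p) {d : ℕ} (h : d ≤ n) : 0 ≤ xi n p d ∧ xi n p d ≤ p 0 :=
  ⟨xi_zero n p ▸ xi_le hp (Nat.zero_le d) h, by linarith [xi_up hp d h, (nn hp d h).1]⟩

lemma fp_step (f : ℝ → ℝ) (p : ℕ → ℝ) {d : ℕ} (h : d < n) : fp n f p d =
    (f (xi n p (d + 1)) - f (xi n p d)) / (1 - (d : ℝ) / n) + fp n f p (d + 1) :=
  sum_eq_sum_Ico_succ_bot h _

lemma fp_top (n : ℕ) (f : ℝ → ℝ) (p : ℕ → ℝ) : fp n f p n = 0 := by simp [fp]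

lemma fp_zero (n : ℕ) (f : ℝ → ℝ) (p : ℕ → ℝ) : fp n f p 0 = tr n f p := by
  rw [fp, tr, range_eq_Ico]

lemma xi_fp (n : ℕ) (f : ℝ → ℝ) (p : ℕ → ℝ) :
    ∀ d, d ≤ n → xi n (fp n f p) d = f (xi n p d) - f 0
  | 0, _ => by simp [xi_zero]
  | d + 1, h => by
      rw [xi_succ, xi_fp n f p d (by omega), fp_step f p h, add_sub_cancel_right,
        mul_div_cancel₀ _ (m_pos h).ne']
      ring

lemma tele (q : ℕ → ℝ) {d : ℕ} (h : d ≤ n) : ∑ j ∈ Ico d n, (q j - q (j + 1)) = q d - q n := by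
  rw [sum_Ico_eq_sub _ h, sum_range_sub', sum_range_sub']; ring

lemma id_term (p : ℕ → ℝ) {d : ℕ} (h : d < n) :
    (xi n p (d + 1) - xi n p d) / (1 - (d : ℝ) / n) = p d - p (d + 1) := by
  rw [xi_succ, add_sub_cancel_left, mul_div_cancel_left₀ _ (m_pos h).ne']

lemma ell_zero (n : ℕ) (p : ℕ → ℝ) : ell n p 0 = p 0 := by simp [ell]

lemma ell_succ (n : ℕ) (p : ℕ → ℝ) (l : ℕ) :
    ell n p (l + 1) = ell n p l - 1 / (n : ℝ) * p (l + 1) := by
  rw [ell, ell, sum_Icc_succ_top (by omega)]; ring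

lemma ell_eq (n : ℕ) (p : ℕ → ℝ) : ∀ l, ell n p l = xi n p l + (1 - (l : ℝ) / n) * p l
  | 0 => by simp [ell_zero, xi_zero]
  | l + 1 => by rw [ell_succ, ell_eq n p l, xi_succ]; push_cast; ring

lemma ell_abs {q : ℕ → ℝ} (hq : q n = 0) {l : ℕ} (h : l < n) :
    |ell n q l| ≤ ∑ j ∈ range n, |q j - q (j + 1)| := by
  have h1 : |xi n q l| ≤ ∑ j ∈ range l, |q j - q (j + 1)| :=
    (abs_sum_le_sum_abs _ _).trans (sum_le_sum fun j hj => by
      rw [abs_mul, abs_of_pos (m_pos ((mem_range.1 hj).trans h))]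
      exact mul_le_of_le_one_left (abs_nonneg _) (m_le n j))
  have h2 : |(1 - (l : ℝ) / n) * q l| ≤ ∑ j ∈ Ico l n, |q j - q (j + 1)| := by
    rw [abs_mul, abs_of_pos (m_pos h)]
    refine (mul_le_of_le_one_left (abs_nonneg _) (m_le n l)).trans ?_
    have := tele q h.le
    rw [hq, sub_zero] at this
    rw [← this]
    exact abs_sum_le_sum_abs _ _
  rw [ell_eq, ← sum_range_add_sum_Ico _ h.le]
  exact (abs_add_le _ _).trans (add_le_add h1 h2)

lemma lip {f : ℝ → ℝ} {L : ℝ} (hp : P157.Path n p)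
    (hf : ∀ x x', 0 ≤ x → x ≤ x' → x' ≤ p 0 → |f x' - f x| ≤ L * (x' - x)) :
    |tr n f p| ≤ L * p 0 ∧ (∀ l, l < n → |ell n (fp n f p) l| ≤ L * p 0) ∧
      ∑ d ∈ range n, |fp n f p d - fp n f p (d + 1)| ≤ L * p 0 := by
  have h1 : ∑ d ∈ range n, |fp n f p d - fp n f p (d + 1)| ≤ L * p 0 := by
    have e : L * p 0 = ∑ d ∈ range n, L * (p d - p (d + 1)) := by
      rw [← mul_sum, sum_range_sub', hp.2, sub_zero]
    rw [e]
    refine sum_le_sum fun d hd => ?_
    have hd := mem_range.1 hd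
    rw [fp_step f p hd, add_sub_cancel_right, abs_div, abs_of_pos (m_pos hd), ← id_term p hd,
      ← mul_div_assoc]
    exact div_le_div_of_nonneg_right
      (hf _ _ (xi_mem hp hd.le).1 (xi_step hp hd) (xi_mem hp hd).2) (m_pos hd).le
  refine ⟨?_, fun l hl => (ell_abs (fp_top n f p) hl).trans h1, h1⟩
  refine le_trans ?_ h1
  have := sum_range_sub' (fp n f p) n
  rw [fp_top, sub_zero, fp_zero] at this
  rw [← this]
  exact abs_sum_le_sum_abs _ _

lemma sum_shift (a : ℕ → ℝ) (hn : 1 ≤ n) (ha : a n = 0) :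
    ∑ d ∈ range n, a (d + 1) = ∑ d ∈ Ico 1 n, a d := by
  rw [range_eq_Ico, sum_Ico_add' a 0 n 1, zero_add, sum_Ico_succ_top hn, ha, add_zero]

lemma bil (n : ℕ) (f g : ℝ → ℝ) (p : ℕ → ℝ) (hn : 1 ≤ n) (hf : f 0 = 0) (hg : g 0 = 0) :
    tr n (fun x => f x * g x) p = tr n f p * tr n g p - 2 * ip n (fp n f p) (fp n g p) := by
  let Ψ : ℕ → ℝ := fun d => f (xi n p d) * fp n g p d + fp n f p d * g (xi n p d) +
    (1 - (d : ℝ) / n) * (fp n f p d * fp n g p d)
  have h1 : ∀ d ∈ range n, (f (xi n p (d + 1)) * g (xi n p (d + 1)) -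
      f (xi n p d) * g (xi n p d)) / (1 - (d : ℝ) / n) =
      (Ψ d - Ψ (d + 1)) - 1 / (n : ℝ) * (fp n f p (d + 1) * fp n g p (d + 1)) := by
    intro d hd
    have hd := mem_range.1 hd
    have h0 := (m_pos hd).ne'
    have e : 1 - ((d + 1 : ℕ) : ℝ) / n = (1 - (d : ℝ) / n) - 1 / n := by push_cast; ring
    simp only [Ψ, fp_step f p hd, fp_step g p hd, e]
    generalize 1 - (d : ℝ) / n = m at h0
    generalize 1 / (n : ℝ) = c
    field_simp
    ring
  rw [tr, sum_congr rfl h1, sum_sub_distrib, sum_range_sub', ← mul_sum,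
    sum_shift (fun d => fp n f p d * fp n g p d) hn (by simp [fp_top]), ip]
  simp only [Ψ, fp_top, fp_zero, xi_zero, hf, hg]
  push_cast
  ring

lemma abel (n : ℕ) (W p : ℕ → ℝ) : ∀ k, ∑ l ∈ range k, (W l - W (l + 1)) * ell n p l / 2 =
    W 0 * p 0 / 2 - 1 / (2 * (n : ℝ)) * ∑ d ∈ range k, p (d + 1) * W (d + 1) - W k * ell n p k / 2
  | 0 => by simp [ell_zero]
  | k + 1 => by rw [sum_range_succ, sum_range_succ, abel n W p k, ell_succ]; ring

lemma tr_inc {g g' : ℝ → ℝ} {δ X : ℝ} (hp : P157.Path n p) (hX : p 0 ≤ X) (h : Inc g g' δ X) :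
    tr n g' p ≤ tr n g p + δ * p 0 := by
  have e : δ * p 0 = ∑ d ∈ range n, δ * (p d - p (d + 1)) := by
    rw [← mul_sum, sum_range_sub', hp.2, sub_zero]
  rw [e, tr, tr, ← sum_add_distrib]
  refine sum_le_sum fun d hd => ?_
  have hd := mem_range.1 hd
  rw [← id_term p hd, ← mul_div_assoc, ← add_div]
  exact div_le_div_of_nonneg_right
    (h _ _ (xi_mem hp hd.le).1 (xi_step hp hd) ((xi_mem hp hd).2.trans hX)) (m_pos hd).le

def p1 : ℕ → ℝ := fun d => if d = 0 then 1 else 0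

lemma p1_path (hn : 1 ≤ n) : P157.Path n p1 :=
  ⟨fun d _ => by
    rw [show p1 (d + 1) = 0 from rfl, p1]
    split_ifs <;> norm_num, if_neg (by omega)⟩

lemma p1_mem (hn : 1 ≤ n) (g : ℝ → ℝ) : tr n g p1 + sSup (dualSet n p1) ∈ vals n g :=
  ⟨p1, p1_path hn, rfl, rfl⟩

lemma log_lip {u v : ℝ} (hu : 1 ≤ u) (hv : 1 ≤ v) : |log u - log v| ≤ |u - v| := by
  have key : ∀ u v : ℝ, 1 ≤ u → 1 ≤ v → log u - log v ≤ |u - v| := fun u v hu hv => by
    rw [← log_div (by linarith) (by linarith)]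
    refine (log_le_sub_one_of_pos (by positivity)).trans ?_
    rw [div_sub_one (by linarith), div_le_iff₀ (by linarith)]
    nlinarith [le_abs_self (u - v), abs_nonneg (u - v)]
  exact abs_le.2 ⟨by linarith [key v u hv hu, abs_sub_comm u v], key u v hu hv⟩

lemma phl (θ θ' x x' : ℝ) (h1 : 0 ≤ θ) (h2 : 0 ≤ θ') (h3 : 0 ≤ x) (h4 : x ≤ x') :
    0 ≤ ph θ x' - ph θ x ∧ ph θ x' - ph θ x ≤ x' - x ∧
      |(ph θ x' - ph θ' x') - (ph θ x - ph θ' x)| ≤ 2 * |θ - θ'| * x' * (x' - x) ∧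
      |lg θ x' - lg θ x| ≤ θ / 2 * (x' - x) ∧
      |(lg θ x' - lg θ' x') - (lg θ x - lg θ' x)| ≤ |θ - θ'| / 2 * (x' - x) := by
  have h5 : 0 ≤ x' := h3.trans h4
  have h6 : 0 ≤ x' - x := sub_nonneg.2 h4
  have a1 : 1 ≤ 1 + θ * x := le_add_of_nonneg_right (by positivity)
  have a2 : 1 ≤ 1 + θ * x' := le_add_of_nonneg_right (by positivity)
  have a3 : 1 ≤ 1 + θ' * x := le_add_of_nonneg_right (by positivity)
  have a4 : 1 ≤ 1 + θ' * x' := le_add_of_nonneg_right (by positivity)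
  have e1 : ph θ x' - ph θ x = (x' - x) / ((1 + θ * x) * (1 + θ * x')) := by
    unfold ph; field_simp; ring
  refine ⟨by rw [e1]; positivity, by
    rw [e1]; exact div_le_self h6 (one_le_mul_of_one_le_of_one_le a1 a2), ?_, ?_, ?_⟩
  · have e2 : (ph θ x' - ph θ' x') - (ph θ x - ph θ' x) = (θ' - θ) * ((x' - x) *
        ((x + x' + (θ + θ') * (x * x')) /
          ((1 + θ * x) * (1 + θ' * x) * ((1 + θ * x') * (1 + θ' * x'))))) := by
      unfold ph; field_simp; ring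
    have b1 : (x + x' + (θ + θ') * (x * x')) /
        ((1 + θ * x) * (1 + θ' * x) * ((1 + θ * x') * (1 + θ' * x'))) ≤ 2 * x' := by
      rw [div_le_iff₀ (by positivity)]
      have c1 : x + x' + (θ + θ') * (x * x') ≤ 2 * x' * ((1 + θ * x) * (1 + θ' * x)) := by
        nlinarith [mul_nonneg h5 (mul_nonneg h1 h3), mul_nonneg h5 (mul_nonneg h2 h3),
          mul_nonneg h5 (mul_nonneg (mul_nonneg h1 h3) (mul_nonneg h2 h3))]
      refine c1.trans (mul_le_mul_of_nonneg_left ?_ (by positivity))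
      exact le_mul_of_one_le_right (by positivity) (one_le_mul_of_one_le_of_one_le a2 a4)
    rw [e2, abs_mul, abs_sub_comm θ' θ, abs_of_nonneg (a := (x' - x) * _) (by positivity)]
    calc _ ≤ |θ - θ'| * ((x' - x) * (2 * x')) := by gcongr
      _ = _ := by ring
  · have b1 := log_lip a2 a1
    rw [show 1 + θ * x' - (1 + θ * x) = θ * (x' - x) by ring,
      abs_of_nonneg (mul_nonneg h1 h6)] at b1
    have e2 : lg θ x' - lg θ x = -(log (1 + θ * x') - log (1 + θ * x)) / 2 := by unfold lg; ring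
    rw [e2, abs_div, abs_neg, abs_two]
    linarith
  · have b1 := log_lip (one_le_mul_of_one_le_of_one_le a2 a3) (one_le_mul_of_one_le_of_one_le a1 a4)
    rw [show (1 + θ * x') * (1 + θ' * x) - (1 + θ * x) * (1 + θ' * x') = (θ - θ') * (x' - x) by ring,
      abs_mul, abs_of_nonneg h6, log_mul (by linarith) (by linarith),
      log_mul (by linarith) (by linarith)] at b1
    have e2 : (lg θ x' - lg θ' x') - (lg θ x - lg θ' x) = -(log (1 + θ * x') + log (1 + θ' * x) -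
        (log (1 + θ * x) + log (1 + θ' * x'))) / 2 := by unfold lg; ring
    rw [e2, abs_div, abs_neg, abs_two]
    linarith

end T

open T in
theorem tApi (hBdd : BddStmt) : TApi where
  xi_mono hp d d' h h' := ⟨(xi_mem hp (h.trans h')).1, xi_le hp h h', (xi_mem hp h').2⟩
  nn hp := nn hp
  fp_path := fun {n p f} hp hf => ⟨fun d hd => by
    rw [fp_step f p hd]
    exact le_add_of_nonneg_left (div_nonneg (sub_nonneg.2
      (hf (xi_mem hp hd.le) (xi_mem hp hd) (xi_step hp hd))) (m_pos hd).le), fp_top _ _ _⟩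
  fp_zero := fp_zero
  xi_fp := xi_fp
  fp_id := fun {n p} hp d hd => by
    rw [fp, sum_congr rfl fun j hj => id_term p (mem_Ico.1 hj).2, tele p hd, hp.2, sub_zero]
  fp_lin n f g a b c p d := by
    simp only [fp, mul_sum, ← sum_add_distrib]
    exact sum_congr rfl fun j _ => by ring
  fp_sum s n f a p d := by
    simp only [fp, mul_sum, ← sum_sub_distrib, sum_div]
    rw [sum_comm]
    exact sum_congr rfl fun j _ => sum_congr rfl fun k _ => by ring
  fp_comp n f g p d hf := sum_congr rfl fun j hj => by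
    have hj := (mem_Ico.1 hj).2
    rw [xi_fp n f p _ hj, xi_fp n f p _ hj.le, hf, sub_zero, sub_zero]
  fp_congr hp h d := sum_congr rfl fun j hj => by
    have hj := (mem_Ico.1 hj).2
    rw [h _ (xi_mem hp hj).1 (xi_mem hp hj).2, h _ (xi_mem hp hj.le).1 (xi_mem hp hj.le).2]
  lip hp hf := lip hp hf
  bil := bil
  pair n W p hn hW := by
    rw [abel, hW, sum_shift (fun d => p d * W d) hn (by simp [hW]), ip]; ring
  sup := fun {n p f g δ} hp h => by
    have h1 : ∀ d ∈ range n, |(f (xi n p (d + 1)) - f (xi n p d)) / (1 - (d : ℝ) / n) -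
        (g (xi n p (d + 1)) - g (xi n p d)) / (1 - (d : ℝ) / n)| ≤ 2 * δ * n := by
      intro d hd
      have hd := mem_range.1 hd
      have a1 := h _ (xi_mem hp hd).1 (xi_mem hp hd).2
      have a2 := h _ (xi_mem hp hd.le).1 (xi_mem hp hd.le).2
      rw [← sub_div, abs_div, abs_of_pos (m_pos hd), div_eq_mul_inv]
      refine mul_le_mul ?_ (m_inv hd) (inv_pos.2 (m_pos hd)).le
        (by linarith [abs_nonneg (f (xi n p d) - g (xi n p d))])
      exact abs_le.2 ⟨by linarith [abs_le.1 a1, abs_le.1 a2], by linarith [abs_le.1 a1, abs_le.1 a2]⟩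
    rw [tr, tr, ← sum_sub_distrib]
    refine (abs_sum_le_sum_abs _ _).trans ((sum_le_card_nsmul _ _ _ h1).trans (le_of_eq ?_))
    rw [card_range, nsmul_eq_mul]; ring
  inc hp hX h := tr_inc hp hX h
  vbdd := fun {n g L} hn hg => by
    have h1 : ∀ t ∈ vals n g, -L ≤ t := by
      rintro _ ⟨p, hp, h0, rfl⟩
      have a1 := (lip hp (by rwa [h0])).1
      rw [h0, mul_one] at a1
      linarith [(abs_le.1 a1).1, (hBdd n p hn hp h0).2.1]
    have h2 : sSup (dualSet n p1) ≤ 0 := by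
      refine csSup_le ⟨_, fun _ => 0, ⟨fun _ _ => le_rfl, rfl⟩, rfl⟩ ?_
      rintro _ ⟨q, hq, rfl⟩
      have : ip n p1 q = 0 := by
        rw [ip, sum_eq_zero, mul_zero]
        intro d hd
        rw [show p1 d = 0 from if_neg (by have := (mem_Ico.1 hd).1; omega), zero_mul]
      rw [this, add_zero]
      exact (hBdd n p1 hn (p1_path hn) rfl).2.2.1 q hq
    have h3 := (lip (L := L) (f := g) (p1_path hn) hg).1
    rw [show p1 0 = 1 from rfl, mul_one] at h3
    refine ⟨⟨_, h1⟩, abs_le.2 ⟨le_csInf ⟨_, p1_mem hn g⟩ h1, ?_⟩⟩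
    linarith [csInf_le ⟨_, h1⟩ (p1_mem hn g), (abs_le.1 h3).2]
  vinc := fun {n g g' δ} hn h hb => by
    rw [← sub_le_iff_le_add]
    refine le_csInf ⟨_, p1_mem hn g⟩ ?_
    rintro _ ⟨p, hp, h0, rfl⟩
    have a1 := tr_inc hp h0.le h
    rw [h0, mul_one] at a1
    linarith [csInf_le hb ⟨p, hp, h0, rfl⟩]
  ell_lin n p p' a b l := by
    simp only [ell, sum_add_distrib, ← mul_sum]; ring
  ell_sum s n p a l := by
    simp only [ell, mul_sub, sum_sub_distrib, mul_sum]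
    rw [sum_comm]
    congr 1
    exact sum_congr rfl fun j _ => sum_congr rfl fun k _ => by ring
  ell_bd := fun {n p} hp l hl => ⟨by
    rw [ell_eq]
    exact add_nonneg (xi_mem hp hl.le).1 (mul_nonneg (m_pos hl).le (nn hp l hl.le).1),
    sub_le_self _ (mul_nonneg (by positivity) (sum_nonneg fun d hd =>
      (nn hp d ((mem_Icc.1 hd).2.trans hl.le)).1))⟩
  ell_inv := fun {n p p' τ} h d hd => by
    have h0 : (1 : ℝ) ≤ n := by exact_mod_cast (by omega : 1 ≤ n)
    rcases d with _ | k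
    · have a1 := h 0 hd
      rw [ell_zero, ell_zero] at a1
      nlinarith [abs_nonneg (p 0 - p' 0)]
    · have a1 := abs_le.1 (h k (by omega))
      have a2 := abs_le.1 (h (k + 1) hd)
      have e : p (k + 1) - p' (k + 1) = n * ((ell n p k - ell n p' k) -
          (ell n p (k + 1) - ell n p' (k + 1))) := by
        rw [ell_succ, ell_succ]; field_simp; ring
      rw [e]
      exact abs_le.2 ⟨by nlinarith, by nlinarith⟩
  phl := phl

end Vale.Agent.P166
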