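import Vale.Agent.P166.Stm

/-! P166 module Tilt: the tilted Haar average is close to the plain one. -/

namespace Vale.Agent.P166

open MeasureTheory Finset Real Vale.Agent.P157

namespace Tiltm

lemma top_eq {N : ℕ} (Λ : Fin N → ℝ) (b : ℝ) (hm : Monotone Λ) (hb : ∀ i, Λ i ≤ b) (i : Fin N)
    (hi : N - (univ.filter (fun i => Λ i = b)).card ≤ i) : Λ i = b := by
  by_contra hne
  have hs : univ.filter (fun i => Λ i = b) ⊆ Ioi i := by
    intro j hj
    rw [mem_Ioi]
    by_contra hle
    have h1 := hm (not_lt.1 hle)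
    rw [(mem_filter.1 hj).2] at h1
    exact hne (le_antisymm (hb i) h1)
  have h2 := card_le_card hs
  rw [Fin.card_Ioi] at h2
  have := i.2
  omega

lemma tel (e : ℕ → ℝ) (i L : ℕ) (h : i ≤ L) :
    ∑ t ∈ range L, (if i ≤ t then e (t + 1) - e t else 0) = e L - e i := by
  induction L, h using Nat.le_induction with
  | base =>
    rw [sum_eq_zero, sub_self]
    intro t ht
    rw [if_neg (by have := mem_range.1 ht; omega)]
  | succ L h ih => rw [sum_range_succ, ih, if_pos h]; ring

lemma sorted (hO : OApi) (hR : RpgStmt) {Γ η C : ℝ} (hη : 0 < η) (hC : 0 ≤ C)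
    (hT : ∀ (N L n : ℕ) (c : Fin L → ℝ), 1 ≤ n → L ≤ N → η * N + L ≤ N → (∀ t, 0 ≤ c t) →
      ∑ t, c t ≤ 2 * |Γ| → n * log (∫ G, exp (FG (N := N) c G / n) ∂gG N L) ≤
        ∫ G, FG (N := N) c G ∂gG N L + C * L / n)
    (N n : ℕ) (ν : Measure (OG (Fin N))) (Λ : Fin N → ℝ) (b : ℝ) (hν : Haar ν) (hn : 1 ≤ n)
    (hm : Monotone Λ) (hΛ : ∀ i, |Λ i| ≤ Γ ∧ Λ i ≤ b)
    (hK : η * N ≤ (univ.filter (fun i => Λ i = b)).card) :
    TH0 ν n Λ ≤ ∫ U, F0 Λ U ∂ν + C * N / n := by
  have := hν.prob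
  set K := (univ.filter (fun i => Λ i = b)).card with hKd
  have hKN : K ≤ N := by simpa using card_le_univ (univ.filter (fun i => Λ i = b))
  have htop := top_eq Λ b hm (fun i => (hΛ i).2)
  set e : ℕ → ℝ := fun k => if h : k < N then Λ ⟨k, h⟩ else b with he
  have heb : ∀ k, N - K ≤ k → e k = b := by
    intro k hk
    simp only [he]
    split_ifs with h
    · exact htop ⟨k, h⟩ hk
    · rfl
  have hei : ∀ i : Fin N, e i = Λ i := fun i => by simp [he]
  have hem : ∀ k, e k ≤ e (k + 1) := by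
    intro k
    simp only [he]
    split_ifs with h1 h2 h2
    · exact hm (by simp [Fin.le_def])
    · exact (hΛ _).2
    · omega
    · exact le_rfl
  set c : Fin (N - K) → ℝ := fun t => e (t + 1) - e t with hc
  have hsum : ∀ i : ℕ, ∑ t : Fin (N - K), (if i ≤ (t : ℕ) then c t else 0) =
      ∑ t ∈ range (N - K), (if i ≤ t then e (t + 1) - e t else 0) := fun i =>
    Fin.sum_univ_eq_sum_range (fun t => if i ≤ t then e (t + 1) - e t else 0) (N - K)
  have hrep : ∀ i : Fin N, Λ i = b - ∑ t : Fin (N - K), if (i : ℕ) ≤ t then c t else 0 := by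
    intro i
    rw [hsum]
    rcases le_total (i : ℕ) (N - K) with h | h
    · rw [tel e i _ h, heb _ le_rfl, hei]; ring
    · rw [sum_eq_zero, htop i h, sub_zero]
      intro t ht
      rw [if_neg (by have := mem_range.1 ht; omega)]
  have hcs : ∑ t, c t ≤ 2 * |Γ| := by
    have h0 := hsum 0
    simp only [Nat.zero_le, if_true] at h0
    have h1 := tel e 0 (N - K) (Nat.zero_le _)
    simp only [Nat.zero_le, if_true] at h1
    rw [h0, h1, heb _ le_rfl]
    rcases Nat.eq_zero_or_pos N with hN | hN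
    · rw [heb 0 (by omega), sub_self]; positivity
    · have hK0 : 0 < K := by
        have : (0 : ℝ) < K := lt_of_lt_of_le (mul_pos hη (by exact_mod_cast hN)) hK
        exact_mod_cast this
      obtain ⟨j, hj⟩ := card_pos.1 hK0
      have h2 := abs_le.1 (hΛ j).1
      rw [(mem_filter.1 hj).2] at h2
      have h3 := abs_le.1 (hΛ ⟨0, hN⟩).1
      have h4 := hei ⟨0, hN⟩
      simp only at h4
      have := le_abs_self Γ
      rw [h4]
      linarith
  have hn' : (0 : ℝ) < n := by exact_mod_cast hn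
  have hcast : ((N - K : ℕ) : ℝ) = N - K := Nat.cast_sub hKN
  have h1 := hT N (N - K) n c hn (Nat.sub_le _ _) (by rw [hcast]; linarith)
    (fun t => sub_nonneg.2 (hem _)) hcs
  have hF : Continuous (F0 Λ) := (hO.f0 Λ Λ 0).1
  have r1 := hR N (N - K) ν c Λ b (fun x => x - b * N / 2) hν (Nat.sub_le _ _) (by fun_prop) hrep
  have r2 := hR N (N - K) ν c Λ b (fun x => exp ((x - b * N / 2) / n)) hν (Nat.sub_le _ _)
    (by fun_prop) hrep
  simp only [add_sub_cancel_right] at r1 r2
  have i1 : Integrable (F0 Λ) ν := hF.integrable_of_hasCompactSupport (HasCompactSupport.of_compactSpace _)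
  have i2 : Integrable (fun U => exp (F0 Λ U / n)) ν :=
    (by fun_prop : Continuous fun U => exp (F0 Λ U / n)).integrable_of_hasCompactSupport
      (HasCompactSupport.of_compactSpace _)
  rw [integral_sub i1 (integrable_const _), integral_const] at r1
  have e2 : ∀ U, exp ((F0 Λ U - b * N / 2) / n) = exp (-(b * N / 2) / n) * exp (F0 Λ U / n) := by
    intro U
    rw [← exp_add]
    congr 1
    ring
  simp only [e2] at r2
  rw [integral_const_mul] at r2
  have hp : 0 < ∫ U, exp (F0 Λ U / n) ∂ν := integral_exp_pos i2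
  rw [r1, r2, log_mul (exp_pos _).ne' hp.ne', log_exp, mul_add, hcast] at h1
  simp only [probReal_univ, smul_eq_mul, one_mul] at h1
  have e3 : (n : ℝ) * (-(b * N / 2) / n) = -(b * N / 2) := by field_simp
  have e4 : C * ((N : ℝ) - K) / n ≤ C * N / n := by
    have : (0 : ℝ) ≤ K := Nat.cast_nonneg _
    gcongr
    linarith
  unfold TH0
  linarith

end Tiltm

open Tiltm

theorem tiltStmt (hO : OApi) (hTl : TlgStmt) (hR : RpgStmt) (hS : SyStmt) : TiltStmt := by
  intro Γ η hη
  obtain ⟨C, hC, hT⟩ := hTl (2 * |Γ|) η hη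
  refine ⟨C, hC, fun N n ν Λ b hν hn hΛ hK => ?_⟩
  have h := (hS Unit (Fin N) Empty ν (s0 (fun _ => ()) (fun _ => 0)) 0 n (fun _ _ => 0) hν hn).2.2
    (Tuple.sort Λ) Λ
  rw [← h.1, ← h.2]
  refine sorted hO hR hη hC hT N n ν _ b hν hn (Tuple.monotone_sort Λ) (fun i => hΛ _) ?_
  refine hK.trans (le_of_eq ?_)
  congr 1
  refine (card_bij (fun i _ => Tuple.sort Λ i) ?_ ?_ ?_).symm
  · intro i hi
    simpa using hi
  · intro i _ j _ hij
    exact (Tuple.sort Λ).injective hij
  · intro j hj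
    exact ⟨(Tuple.sort Λ).symm j, by simpa using hj, by simp⟩

end Vale.Agent.P166
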