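import Mathlib

/-! One sided bounded differences: upper exponential moment on a product space. -/

namespace Vale.Agent.P166

open MeasureTheory ProbabilityTheory Finset Real

noncomputable section

namespace Tlg

theorem exp_neg_le_quad {t : ℝ} (ht : 0 ≤ t) : exp (-t) ≤ 1 - t + t ^ 2 / 2 := by
  have h1 := quadratic_le_exp_of_nonneg ht
  have h2 : 0 < 1 + t + t ^ 2 / 2 := by positivity
  have h3 : exp (-t) * exp t = 1 := by rw [← exp_add]; simp
  have h4 : exp (-t) * (1 + t + t ^ 2 / 2) ≤ 1 := by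
    exact (mul_le_mul_of_nonneg_left h1 (exp_pos _).le).trans h3.le
  have h5 : 1 ≤ (1 - t + t ^ 2 / 2) * (1 + t + t ^ 2 / 2) := by nlinarith [sq_nonneg (t ^ 2)]
  exact le_of_mul_le_mul_right (h4.trans h5) h2

theorem int_bdd {α : Type*} [MeasurableSpace α] (μ : Measure α) [IsFiniteMeasure μ] {f : α → ℝ}
    (hf : Measurable f) {B : ℝ} (hB : ∀ x, |f x| ≤ B) : Integrable f μ :=
  Integrable.of_bound hf.aestronglyMeasurable B (Filter.Eventually.of_forall hB)

theorem abs_int_le {α : Type*} [MeasurableSpace α] (μ : Measure α) [IsProbabilityMeasure μ]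
    {f : α → ℝ} {B : ℝ} (hB : ∀ x, |f x| ≤ B) : |∫ x, f x ∂μ| ≤ B := by
  have := norm_integral_le_of_norm_le_const (μ := μ) (f := f) (C := B)
    (Filter.Eventually.of_forall hB)
  simpa using this

theorem sq_int_le {α : Type*} [MeasurableSpace α] (μ : Measure α) [IsProbabilityMeasure μ]
    {f : α → ℝ} (hf : Measurable f) {B : ℝ} (hB : ∀ x, |f x| ≤ B) :
    (∫ x, f x ∂μ) ^ 2 ≤ ∫ x, f x ^ 2 ∂μ := by
  have h : MemLp f 2 μ := MemLp.of_bound hf.aestronglyMeasurable B (Filter.Eventually.of_forall hB)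
  have h1 := variance_eq_sub h
  have h2 := variance_nonneg f μ
  have h3 : μ[f ^ 2] = ∫ x, f x ^ 2 ∂μ := rfl
  linarith

theorem abs_sq_le {a B : ℝ} (h : |a| ≤ B) : |a ^ 2| ≤ B ^ 2 := by
  rw [abs_pow]; exact pow_le_pow_left₀ (abs_nonneg _) h 2

theorem abs_sub_le_two {a b B : ℝ} (h : |a| ≤ B) (h' : |b| ≤ B) : |a - b| ≤ 2 * B := by
  have := abs_sub a b
  linarith

theorem abs_exp_le {a B n : ℝ} (hn : 0 < n) (h : |a| ≤ B) : |exp (a / n)| ≤ exp (B / n) := by
  rw [abs_of_pos (exp_pos _)]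
  exact exp_le_exp.2 (div_le_div_of_nonneg_right ((le_abs_self a).trans h) hn.le)

/-- one coordinate -/
theorem step {E : Type*} [MeasurableSpace E] (γ : Measure E) [IsProbabilityMeasure γ]
    {f : E → ℝ} (hf : Measurable f) {B : ℝ} (hB : ∀ x, |f x| ≤ B) {a K n : ℝ} (hn : 0 < n)
    (ha : |a| ≤ B) (hle : ∀ x, f x ≤ a) (hK : ∫ x, (a - f x) ^ 2 ∂γ ≤ K) :
    ∫ x, exp (f x / n) ∂γ ≤ exp ((∫ x, f x ∂γ) / n + K / (2 * n ^ 2)) := by
  have hi : Integrable f γ := int_bdd γ hf hB
  have hi2 : Integrable (fun x => (a - f x) ^ 2) γ :=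
    int_bdd γ ((hf.const_sub a).pow_const 2) (fun x => abs_sq_le (abs_sub_le_two ha (hB x)))
  have h1 : ∀ x, exp (f x / n) ≤
      exp (a / n) * (1 - a / n + f x / n + (a - f x) ^ 2 / (2 * n ^ 2)) := by
    intro x
    have ht : 0 ≤ (a - f x) / n := div_nonneg (sub_nonneg.2 (hle x)) hn.le
    have h2 := exp_neg_le_quad ht
    have h3 : exp (f x / n) = exp (a / n) * exp (-((a - f x) / n)) := by
      rw [← exp_add]; congr 1; ring
    rw [h3]
    refine mul_le_mul_of_nonneg_left (h2.trans (le_of_eq ?_)) (exp_pos _).le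
    field_simp; ring
  have hi3 : Integrable (fun x => 1 - a / n + f x / n) γ :=
    (integrable_const _).add (hi.div_const n)
  calc ∫ x, exp (f x / n) ∂γ
      ≤ ∫ x, exp (a / n) * (1 - a / n + f x / n + (a - f x) ^ 2 / (2 * n ^ 2)) ∂γ :=
        integral_mono (int_bdd γ (hf.div_const n).exp (fun x => abs_exp_le hn (hB x)))
          ((hi3.add (hi2.div_const _)).const_mul _) h1
    _ = exp (a / n) * (1 - a / n + (∫ x, f x ∂γ) / n +
          (∫ x, (a - f x) ^ 2 ∂γ) / (2 * n ^ 2)) := by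
        rw [integral_const_mul, integral_add hi3 (hi2.div_const _),
          integral_add (integrable_const _) (hi.div_const n), integral_div, integral_div]
        simp
    _ ≤ exp (a / n) * exp (-(a / n) + (∫ x, f x ∂γ) / n + K / (2 * n ^ 2)) := by
        refine mul_le_mul_of_nonneg_left ?_ (exp_pos _).le
        have h4 : (∫ x, (a - f x) ^ 2 ∂γ) / (2 * n ^ 2) ≤ K / (2 * n ^ 2) :=
          div_le_div_of_nonneg_right hK (by positivity)
        have h5 := add_one_le_exp (-(a / n) + (∫ x, f x ∂γ) / n + K / (2 * n ^ 2))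
        linarith
    _ = _ := by rw [← exp_add]; congr 1; ring

/-- The one sided property. -/
def OS {E : Type*} [MeasurableSpace E] (γ : Measure E) (B K : ℝ) {L : ℕ}
    (Φ : (Fin L → E) → ℝ) : Prop :=
  Measurable Φ ∧ (∀ G, |Φ G| ≤ B) ∧ ∀ s : Fin L, ∃ Φ0 : (Fin L → E) → ℝ, Measurable Φ0 ∧
    (∀ G, |Φ0 G| ≤ B) ∧ (∀ G g, Φ (Function.update G s g) ≤ Φ0 G) ∧
      ∀ G, ∫ g, (Φ0 G - Φ (Function.update G s g)) ^ 2 ∂γ ≤ K

theorem measurable_cons {E : Type*} [MeasurableSpace E] {L : ℕ} :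
    Measurable (fun p : E × (Fin L → E) => (Fin.cons p.1 p.2 : Fin (L + 1) → E)) := by
  refine measurable_pi_iff.2 (fun i => ?_)
  refine Fin.cases ?_ (fun j => ?_) i
  · simpa using measurable_fst
  · simp only [Fin.cons_succ]
    exact (measurable_pi_apply j).comp measurable_snd

theorem OS.avg {E : Type*} [MeasurableSpace E] (γ : Measure E) [IsProbabilityMeasure γ]
    {B K : ℝ} {L : ℕ} {Φ : (Fin (L + 1) → E) → ℝ} (h : OS γ B K Φ) :
    OS γ B K (fun G : Fin L → E => ∫ x, Φ (Fin.cons x G) ∂γ) := by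
  obtain ⟨hm, hb, hs⟩ := h
  have hmx : ∀ {Ψ : (Fin (L + 1) → E) → ℝ}, Measurable Ψ → ∀ G : Fin L → E,
      Measurable (fun x => Ψ (Fin.cons x G)) := fun hΨ G =>
    hΨ.comp (measurable_cons.comp measurable_prodMk_right)
  have hmi : ∀ {Ψ : (Fin (L + 1) → E) → ℝ}, Measurable Ψ →
      Measurable (fun G : Fin L → E => ∫ x, Ψ (Fin.cons x G) ∂γ) := fun hΨ =>
    ((hΨ.comp measurable_cons).stronglyMeasurable.integral_prod_left' (μ := γ)).measurable
  refine ⟨hmi hm, fun G => abs_int_le γ (fun x => hb _), fun s => ?_⟩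
  obtain ⟨Φ0, hm0, hb0, hle, hK⟩ := hs s.succ
  refine ⟨fun G => ∫ x, Φ0 (Fin.cons x G) ∂γ, hmi hm0, fun G => abs_int_le γ (fun x => hb0 _),
    fun G g => ?_, fun G => ?_⟩
  · refine integral_mono (int_bdd γ (hmx hm _) (fun x => hb _))
      (int_bdd γ (hmx hm0 _) (fun x => hb0 _)) (fun x => ?_)
    simp only [Fin.cons_update]
    exact hle _ _
  · set F : E → E → ℝ := fun g x =>
      Φ0 (Fin.cons x G) - Φ (Fin.cons x (Function.update G s g)) with hF
    have hFm : Measurable (Function.uncurry F) := by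
      refine (hm0.comp (measurable_cons.comp (measurable_snd.prodMk measurable_const))).sub
        (hm.comp (measurable_cons.comp (measurable_snd.prodMk ?_)))
      exact (measurable_update G).comp measurable_fst
    have hFb : ∀ g x, |F g x| ≤ 2 * B := fun g x => abs_sub_le_two (hb0 _) (hb _)
    have hF2 : Integrable (Function.uncurry fun g x => F g x ^ 2) (γ.prod γ) :=
      int_bdd _ (hFm.pow_const 2) (fun p => abs_sq_le (hFb p.1 p.2))
    have h1 : ∀ g, (∫ x, Φ0 (Fin.cons x G) ∂γ -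
        ∫ x, Φ (Fin.cons x (Function.update G s g)) ∂γ) ^ 2 ≤ ∫ x, F g x ^ 2 ∂γ := by
      intro g
      rw [← integral_sub (int_bdd γ (hmx hm0 _) (fun x => hb0 _))
        (int_bdd γ (hmx hm _) (fun x => hb _))]
      exact sq_int_le γ (hFm.comp measurable_prodMk_left) (hFb g)
    calc _ ≤ ∫ g, ∫ x, F g x ^ 2 ∂γ ∂γ :=
          integral_mono_of_nonneg (Filter.Eventually.of_forall (fun g => sq_nonneg _))
            hF2.integral_prod_left (Filter.Eventually.of_forall h1)
      _ = ∫ x, ∫ g, F g x ^ 2 ∂γ ∂γ := integral_integral_swap hF2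
      _ ≤ ∫ _x, K ∂γ := by
          refine integral_mono hF2.integral_prod_right (integrable_const _) (fun x => ?_)
          simp only [hF, Fin.cons_update]
          exact hK _
      _ = K := by simp

theorem int_cons {E : Type*} [MeasurableSpace E] (γ : Measure E) [IsProbabilityMeasure γ] {L : ℕ}
    {Ψ : (Fin (L + 1) → E) → ℝ} (hm : Measurable Ψ) {B : ℝ} (hb : ∀ G, |Ψ G| ≤ B) :
    ∫ G, Ψ G ∂(Measure.pi fun _ : Fin (L + 1) => γ) =
      ∫ G, ∫ x, Ψ (Fin.cons x G) ∂γ ∂(Measure.pi fun _ : Fin L => γ) := by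
  have hmp := (measurePreserving_piFinSuccAbove (fun _ : Fin (L + 1) => γ) 0).symm
  rw [← hmp.integral_comp']
  have h2 : ∀ p : E × (Fin L → E),
      (MeasurableEquiv.piFinSuccAbove (fun _ : Fin (L + 1) => E) 0).symm p = Fin.cons p.1 p.2 := by
    intro p
    simp [MeasurableEquiv.piFinSuccAbove, Fin.insertNthEquiv, Fin.insertNth_zero']
  simp only [h2]
  exact integral_prod_symm _ (int_bdd _ (hm.comp measurable_cons) (fun p => hb _))

theorem main {E : Type*} [MeasurableSpace E] (γ : Measure E) [IsProbabilityMeasure γ] (x0 : E)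
    {B K n : ℝ} (hn : 0 < n) (L : ℕ) (Φ : (Fin L → E) → ℝ) (h : OS γ B K Φ) :
    ∫ G, exp (Φ G / n) ∂(Measure.pi fun _ : Fin L => γ) ≤
      exp ((∫ G, Φ G ∂(Measure.pi fun _ : Fin L => γ)) / n + L * (K / (2 * n ^ 2))) := by
  induction L with
  | zero =>
    have h1 : ∀ G : Fin 0 → E, G = Fin.elim0 := fun G => Subsingleton.elim _ _
    have h2 : (fun G : Fin 0 → E => exp (Φ G / n)) = fun _ => exp (Φ Fin.elim0 / n) :=
      funext (fun G => by rw [h1 G])
    have h3 : (fun G : Fin 0 → E => Φ G) = fun _ => Φ Fin.elim0 := funext (fun G => by rw [h1 G])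
    rw [h2, h3]
    simp
  | succ L ih =>
    have hΨ := h.avg γ
    have ih' := ih _ hΨ
    obtain ⟨hm, hb, hs⟩ := h
    obtain ⟨Φ0, -, hb0, hle, hK⟩ := hs 0
    rw [int_cons γ (hm.div_const n).exp (fun G => abs_exp_le hn (hb G)), int_cons γ hm hb]
    have h1 : ∀ G : Fin L → E, ∫ x, exp (Φ (Fin.cons x G) / n) ∂γ ≤
        exp (K / (2 * n ^ 2)) * exp ((∫ x, Φ (Fin.cons x G) ∂γ) / n) := by
      intro G
      rw [← exp_add, add_comm (K / _)]
      refine step γ (f := fun x => Φ (Fin.cons x G)) (hm.comp (measurable_cons.comp measurable_prodMk_right)) (fun x => hb _) hn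
        (hb0 (Fin.cons x0 G)) (fun x => ?_) ?_
      · have := hle (Fin.cons x0 G) x
        rwa [Fin.update_cons_zero] at this
      · have := hK (Fin.cons x0 G)
        simpa only [Fin.update_cons_zero] using this
    calc _ ≤ ∫ G, exp (K / (2 * n ^ 2)) * exp ((∫ x, Φ (Fin.cons x G) ∂γ) / n)
          ∂(Measure.pi fun _ : Fin L => γ) :=
          integral_mono_of_nonneg (Filter.Eventually.of_forall
            (fun G => integral_nonneg (fun x => (exp_pos _).le)))
            ((int_bdd _ (hΨ.1.div_const n).exp (fun G => abs_exp_le hn (hΨ.2.1 G))).const_mul _)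
            (Filter.Eventually.of_forall h1)
      _ ≤ _ := by
          rw [integral_const_mul]
          refine (mul_le_mul_of_nonneg_left ih' (exp_pos _).le).trans (le_of_eq ?_)
          rw [← exp_add]; congr 1; push_cast; ring

end Tlg

end

end Vale.Agent.P166
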