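import Vale.Agent.P166.Rpg
import Vale.Agent.P166.Tlg1

/-! Module Tlg: quenched versus annealed for Gaussian flags. -/

namespace Vale.Agent.P166

open MeasureTheory ProbabilityTheory Finset Real Vale.Agent.P157

noncomputable section

namespace Tlg

theorem wcs {ι : Type*} (S : Finset ι) (w D : ι → ℝ) (hw : ∀ i, 0 ≤ w i) :
    (∑ i ∈ S, w i * D i) ^ 2 ≤ (∑ i ∈ S, w i) * ∑ i ∈ S, w i * D i ^ 2 :=
  Finset.sum_sq_le_sum_mul_sum_of_sq_le_mul S (fun i _ => hw i)
    (fun i _ => mul_nonneg (hw i) (sq_nonneg _)) (fun i _ => le_of_eq (by ring))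

/-- Gibbs bound -/
theorem gibbs {ι : Type*} [Fintype ι] [Nonempty ι] (a D : ι → ℝ) (hD : ∀ i, 0 ≤ D i) {q : ℝ}
    (hq : 0 < q) :
    log ((∑ i, exp (a i - D i)) / q) ≤ log ((∑ i, exp (a i)) / q) ∧
    (log ((∑ i, exp (a i)) / q) - log ((∑ i, exp (a i - D i)) / q)) ^ 2 ≤
      ∑ i, exp (a i) / (∑ j, exp (a j)) * D i ^ 2 := by
  set Z := ∑ j, exp (a j) with hZ
  have hZp : 0 < Z := Finset.sum_pos (fun i _ => exp_pos _) univ_nonempty
  have hZ' : 0 < ∑ i, exp (a i - D i) := Finset.sum_pos (fun i _ => exp_pos _) univ_nonempty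
  have h1 : log ((∑ i, exp (a i - D i)) / q) ≤ log (Z / q) :=
    log_le_log (div_pos hZ' hq) (div_le_div_of_nonneg_right
      (Finset.sum_le_sum (fun i _ => exp_le_exp.2 (by linarith [hD i]))) hq.le)
  refine ⟨h1, ?_⟩
  set m := ∑ i, exp (a i) / Z * D i with hm
  have hw : ∑ i, exp (a i) / Z = 1 := by rw [← Finset.sum_div, div_self hZp.ne']
  have h2 : Z * exp (-m) ≤ ∑ i, exp (a i - D i) := by
    have h3 : ∀ i, exp (a i) * (exp (-m) * (1 + m - D i)) ≤ exp (a i - D i) := by
      intro i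
      have h4 := add_one_le_exp (m - D i)
      have h5 : exp (a i - D i) = exp (a i) * (exp (-m) * exp (m - D i)) := by
        rw [← exp_add, ← exp_add]; congr 1; ring
      rw [h5]
      refine mul_le_mul_of_nonneg_left (mul_le_mul_of_nonneg_left (by linarith) (exp_pos _).le)
        (exp_pos _).le
    refine le_trans (le_of_eq ?_) (Finset.sum_le_sum (fun i _ => h3 i))
    have h6 : ∑ i, exp (a i) * D i = Z * m := by
      rw [hm, Finset.mul_sum]
      exact Finset.sum_congr rfl (fun i _ => by field_simp)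
    have h7 : ∀ i, exp (a i) * (exp (-m) * (1 + m - D i)) =
        exp (-m) * (1 + m) * exp (a i) - exp (-m) * (exp (a i) * D i) := fun i => by ring
    simp only [h7, Finset.sum_sub_distrib, ← Finset.mul_sum]
    rw [h6, ← hZ]; ring
  have h8 : log (Z / q) - log ((∑ i, exp (a i - D i)) / q) ≤ m := by
    have h9 := log_le_log (mul_pos hZp (exp_pos _)) h2
    rw [log_mul hZp.ne' (exp_pos _).ne', log_exp] at h9
    rw [log_div hZp.ne' hq.ne', log_div hZ'.ne' hq.ne']
    linarith
  have h10 := wcs univ (fun i => exp (a i) / Z) D (fun i => (div_pos (exp_pos _) hZp).le)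
  rw [hw, one_mul] at h10
  exact (pow_le_pow_left₀ (sub_nonneg.2 h1) h8 2).trans h10

variable {N L : ℕ}

theorem pj_update_erase (G : Fin L → EU N) (S : Finset (Fin L)) (s : Fin L) (g x : EU N) :
    pj (Function.update G s g) (S.erase s) x = pj G (S.erase s) x := by
  have : Function.update G s g '' ((S.erase s : Finset (Fin L)) : Set (Fin L)) =
      G '' ((S.erase s : Finset (Fin L)) : Set (Fin L)) :=
    Set.image_congr (fun i hi => Function.update_of_ne (Finset.ne_of_mem_erase hi) _ _)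
  unfold pj
  simp only [this]

/-- the value with the vector `s` erased -/
def F0e (c : Fin L → ℝ) (s : Fin L) (G : Fin L → EU N) : ℝ :=
  log ((∑ σ : Fin N → Bool, exp (-(∑ t, c t * pj G ((Iic t).erase s) (sv σ)) / 2)) / 2 ^ N)

theorem os_FG (hP : PjStmt) (hM : M4gStmt) {Γ η : ℝ} (hη : 0 < η) (c : Fin L → ℝ)
    (hL : L ≤ N) (hN : η * N + L ≤ N) (hc : ∀ t, 0 ≤ c t) (hΓ : ∑ t, c t ≤ Γ) :
    OS (stdGaussian (EU N)) ((∑ t, |c t|) * N / 2) (3 * Γ ^ 2 / (4 * η ^ 2))
      (fun G : Fin L → EU N => FG c G) := by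
  refine ⟨Rpg.measurable_FG hP c, Rpg.abs_FG hP c, fun s => ?_⟩
  have hd : ∀ (G : Fin L → EU N) (g : EU N) (σ : Fin N → Bool) (t : Fin L),
      0 ≤ pj (Function.update G s g) (Iic t) (sv σ) - pj G ((Iic t).erase s) (sv σ) ∧
      pj (Function.update G s g) (Iic t) (sv σ) - pj G ((Iic t).erase s) (sv σ) ≤ N := by
    intro G g σ t
    have h1 := (hP N L (Iic t) (sv σ)).2 (Function.update G s g)
    have h2 := (hP N L ((Iic t).erase s) (sv σ)).2 G
    have h3 := h1.2.2 s
    rw [pj_update_erase] at h3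
    rw [Rpg.norm_sv] at h1
    exact ⟨by linarith, by linarith [h1.2.1, h2.1]⟩
  have hG : ∀ (G : Fin L → EU N) (g : EU N), FG c (Function.update G s g) =
      log ((∑ σ : Fin N → Bool, exp (-(∑ t, c t * pj G ((Iic t).erase s) (sv σ)) / 2 -
        ∑ t, c t * (pj (Function.update G s g) (Iic t) (sv σ) -
          pj G ((Iic t).erase s) (sv σ)) / 2)) / 2 ^ N) := by
    intro G g
    unfold FG
    congr 2
    refine Finset.sum_congr rfl (fun σ _ => ?_)
    congr 1
    simp only [mul_sub, ← Finset.sum_div, Finset.sum_sub_distrib]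
    ring
  have hgb := fun (G : Fin L → EU N) (g : EU N) => gibbs
    (fun σ : Fin N → Bool => -(∑ t, c t * pj G ((Iic t).erase s) (sv σ)) / 2)
    (fun σ => ∑ t, c t * (pj (Function.update G s g) (Iic t) (sv σ) -
          pj G ((Iic t).erase s) (sv σ)) / 2)
    (fun σ => Finset.sum_nonneg (fun t _ => div_nonneg (mul_nonneg (hc t) (hd G g σ t).1)
      (by norm_num))) (q := 2 ^ N) (by positivity)
  refine ⟨F0e c s, ?_, fun G => ?_, fun G g => ?_, fun G => ?_⟩
  · unfold F0e
    refine (Measurable.div_const (Finset.measurable_sum _ (fun σ _ => ?_)) _).log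
    refine (Measurable.div_const (Measurable.neg (Finset.measurable_sum _ (fun t _ => ?_))) _).exp
    exact ((hP N L _ (sv σ)).1).const_mul _
  · refine Rpg.log_avg_bound _ _ (fun σ => ?_)
    rw [abs_div, abs_neg, abs_two, Finset.sum_mul]
    refine div_le_div_of_nonneg_right ((Finset.abs_sum_le_sum_abs _ _).trans
      (Finset.sum_le_sum (fun t _ => ?_))) (by norm_num)
    have h := (hP N L ((Iic t).erase s) (sv σ)).2 G
    rw [abs_mul, abs_of_nonneg h.1, ← Rpg.norm_sv σ]
    exact mul_le_mul_of_nonneg_left h.2.1 (abs_nonneg _)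
  · exact (hG G g).trans_le (hgb G g).1
  · set d : (Fin N → Bool) → Fin L → EU N → ℝ := fun σ t g =>
      pj (Function.update G s g) (Iic t) (sv σ) - pj G ((Iic t).erase s) (sv σ) with hdd
    set w : (Fin N → Bool) → ℝ := fun σ => exp (-(∑ t, c t * pj G ((Iic t).erase s) (sv σ)) / 2) /
      ∑ σ' : Fin N → Bool, exp (-(∑ t, c t * pj G ((Iic t).erase s) (sv σ')) / 2) with hw
    have hZ : 0 < ∑ σ' : Fin N → Bool, exp (-(∑ t, c t * pj G ((Iic t).erase s) (sv σ')) / 2) :=
      Finset.sum_pos (fun i _ => exp_pos _) univ_nonempty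
    have hw0 : ∀ σ, 0 ≤ w σ := fun σ => (div_pos (exp_pos _) hZ).le
    have hw1 : ∑ σ, w σ = 1 := by rw [hw, ← Finset.sum_div, div_self hZ.ne']
    have hΓ0 : 0 ≤ Γ := (Finset.sum_nonneg (fun t _ => hc t)).trans hΓ
    have hdi : ∀ σ t, Integrable (fun g => d σ t g ^ 2) (stdGaussian (EU N)) := fun σ t =>
      int_bdd _ ((((hP N L (Iic t) (sv σ)).1.comp (measurable_update G)).sub_const _).pow_const 2)
        (fun g => abs_sq_le (B := N) (by
          rw [abs_of_nonneg (hd G g σ t).1]; exact (hd G g σ t).2))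
    have hdK : ∀ σ t, ∫ g, d σ t g ^ 2 ∂stdGaussian (EU N) ≤ 3 / η ^ 2 := by
      intro σ t
      have h1 := hM N L (N - L + 1) (Iic t) s G (sv σ) (by omega) (by omega)
      refine h1.trans ?_
      have h2 : ‖sv σ‖ ^ 4 = (N : ℝ) ^ 2 := by
        rw [← Rpg.norm_sv σ]; ring
      have h3 : η * N ≤ ((N - L + 1 : ℕ) : ℝ) := by
        push_cast [Nat.cast_sub hL]; linarith
      have h4 : (0 : ℝ) < ((N - L + 1 : ℕ) : ℝ) := by positivity
      rw [h2, div_le_div_iff₀ (by positivity) (by positivity)]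
      have h5 := pow_le_pow_left₀ (by positivity) h3 2
      nlinarith
    have hpt : ∀ g, (F0e c s G - FG c (Function.update G s g)) ^ 2 ≤
        ∑ σ, w σ * (Γ / 4 * ∑ t, c t * d σ t g ^ 2) := by
      intro g
      rw [hG]
      refine (hgb G g).2.trans (Finset.sum_le_sum (fun σ _ => ?_))
      refine mul_le_mul_of_nonneg_left ?_ (hw0 σ)
      have h1 := wcs univ c (fun t => d σ t g) hc
      have h2 : 0 ≤ ∑ t, c t * d σ t g ^ 2 :=
        Finset.sum_nonneg (fun t _ => mul_nonneg (hc t) (sq_nonneg _))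
      have h3 := mul_le_mul_of_nonneg_right hΓ h2
      rw [← Finset.sum_div, div_pow]
      change (∑ t, c t * d σ t g) ^ 2 / 2 ^ 2 ≤ _
      linarith
    have hi1 : ∀ σ, Integrable (fun g => ∑ t, c t * d σ t g ^ 2) (stdGaussian (EU N)) := fun σ =>
      integrable_finsetSum _ (fun t _ => (hdi σ t).const_mul _)
    calc _ ≤ ∫ g, ∑ σ, w σ * (Γ / 4 * ∑ t, c t * d σ t g ^ 2) ∂stdGaussian (EU N) :=
          integral_mono_of_nonneg (Filter.Eventually.of_forall (fun g => sq_nonneg _))
            (integrable_finsetSum _ (fun σ _ => ((hi1 σ).const_mul _).const_mul _))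
            (Filter.Eventually.of_forall hpt)
      _ = ∑ σ, w σ * (Γ / 4 * ∑ t, c t * ∫ g, d σ t g ^ 2 ∂stdGaussian (EU N)) := by
          rw [integral_finsetSum _ (fun σ _ => ((hi1 σ).const_mul _).const_mul _)]
          refine Finset.sum_congr rfl (fun σ _ => ?_)
          rw [integral_const_mul, integral_const_mul,
            integral_finsetSum _ (fun t _ => (hdi σ t).const_mul _)]
          simp only [integral_const_mul]
      _ ≤ ∑ σ, w σ * (3 * Γ ^ 2 / (4 * η ^ 2)) := by
          refine Finset.sum_le_sum (fun σ _ => mul_le_mul_of_nonneg_left ?_ (hw0 σ))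
          have h1 : ∑ t, c t * ∫ g, d σ t g ^ 2 ∂stdGaussian (EU N) ≤ Γ * (3 / η ^ 2) := by
            refine (Finset.sum_le_sum (fun t _ =>
              mul_le_mul_of_nonneg_left (hdK σ t) (hc t))).trans ?_
            rw [← Finset.sum_mul]
            exact mul_le_mul_of_nonneg_right hΓ (by positivity)
          refine (mul_le_mul_of_nonneg_left h1 (by positivity)).trans (le_of_eq ?_)
          field_simp
      _ = _ := by rw [← Finset.sum_mul, hw1, one_mul]

end Tlg

theorem tlgStmt (hP : PjStmt) (hM : M4gStmt) : TlgStmt := by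
  intro Γ η hη
  refine ⟨3 * Γ ^ 2 / (4 * η ^ 2) / 2, by positivity, fun N L n c hn hL hN hc hΓ => ?_⟩
  have hn' : (0 : ℝ) < n := by exact_mod_cast hn
  have hos := Tlg.os_FG (N := N) hP hM hη c hL hN hc hΓ
  have h := Tlg.main (stdGaussian (EU N)) 0 hn' L _ hos
  have : IsProbabilityMeasure (gG N L) := by unfold gG; infer_instance
  have hpos : 0 < ∫ G, exp (FG (N := N) c G / n) ∂gG N L :=
    integral_exp_pos (Tlg.int_bdd _ (hos.1.div_const (n : ℝ)).exp
      (fun G => Tlg.abs_exp_le hn' (hos.2.1 G)))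
  have h2 := (log_le_iff_le_exp hpos).2 h
  have h3 := mul_le_mul_of_nonneg_left h2 hn'.le
  refine h3.trans (le_of_eq ?_)
  unfold gG
  field_simp

end

end Vale.Agent.P166
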