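import Vale.Agent.P166.Stm

namespace Vale.Agent.P166

open Finset Real Vale.Agent.P157

namespace Trn

lemma cut_le {Λ θ γ Γ t y : ℝ} {g : ℝ → ℝ} (h : Cut Λ θ γ g) (hΛ : 1 ≤ Λ) (hθ : |θ| ≤ Γ)
    (hγ : |γ| ≤ Γ) (ht : t ^ 2 = y ^ 2) :
    exp (g t + (Λ + 2)) * (g t - qd θ γ t) ≤
      exp 2 * (2 * Γ ^ 2) / Λ * y ^ 4 + exp 2 * (2 * Γ ^ 2) / Λ * 1 := by
  obtain ⟨h1, h2, h3⟩ := h t
  rcases h1.eq_or_lt with e | e
  · rw [e, sub_self, mul_zero]; positivity
  have h4 := h3 e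
  have hΓ : 0 ≤ Γ := (abs_nonneg _).trans hθ
  have a1 : |qd θ γ t| ≤ Γ * (t ^ 2 + 1 / 2) := by
    refine (abs_add_le _ _).trans ?_
    rw [abs_div, abs_mul, abs_mul, abs_neg, abs_pow, sq_abs, abs_two]
    have b1 := mul_le_mul_of_nonneg_right hθ (sq_nonneg t)
    have b2 := mul_le_mul_of_nonneg_right hγ (abs_nonneg t)
    have b3 : |t| ≤ (1 + t ^ 2) / 2 := by nlinarith [sq_nonneg (|t| - 1), sq_abs t]
    nlinarith [mul_le_mul_of_nonneg_left b3 hΓ]
  have a2 : qd θ γ t ^ 2 ≤ 2 * Γ ^ 2 * (y ^ 4 + 1) := by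
    rw [← sq_abs]
    refine (pow_le_pow_left₀ (abs_nonneg _) a1 2).trans ?_
    rw [ht]
    nlinarith [mul_nonneg (sq_nonneg Γ) (sq_nonneg (y ^ 2 - 1 / 2)), sq_nonneg Γ]
  have a3 : g t - qd θ γ t ≤ 2 * Γ ^ 2 * (y ^ 4 + 1) / Λ := by
    rw [le_div_iff₀ (by linarith)]
    nlinarith
  calc _ ≤ exp 2 * (2 * Γ ^ 2 * (y ^ 4 + 1) / Λ) :=
        mul_le_mul (exp_le_exp.2 (by linarith)) a3 (by linarith) (exp_pos _).le
    _ = _ := by ring

end Trn

open Trn in
theorem trnStmt (hO : OApi) (hH : HApi) (hM : MomStmt) : TrnStmt := by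
  intro η Γ hη
  refine ⟨exp 2 * (2 * Γ ^ 2) * (3 / η ^ 2 + 4), by positivity, ?_⟩
  intro T I J _ _ _ _ _ _ ν n lev Z F A sp w θ γ g δ Λ hν hn hl hZ hsp hA hne hη' hw hF hb hg hΛ hI hδ
  have cy : ∀ j, Ct fun U (ω : Cf T I) => yy U ω.2 (sp j) * w ω := fun j ω =>
    (hO.cont _ _).mul continuous_const
  have cg : ∀ j, Ct fun U (ω : Cf T I) => g j (yy U ω.2 (sp j) * w ω) := fun j ω =>
    (hg j).1.comp (cy j ω)
  have cq : ∀ j, Ct fun U (ω : Cf T I) => qd (θ j) (γ j) (yy U ω.2 (sp j) * w ω) := fun j ω => by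
    have := cy j ω
    unfold qd; fun_prop
  have cs : ∀ S : Finset J, Ct fun U (ω : Cf T I) => Z U ω + ∑ j ∈ S, g j (yy U ω.2 (sp j) * w ω) :=
    fun S ω => (hZ ω).add (continuous_finsetSum _ fun j _ => cg j ω)
  have cd : ∀ j, Ct fun U (ω : Cf T I) => g j (yy U ω.2 (sp j) * w ω) -
      qd (θ j) (γ j) (yy U ω.2 (sp j) * w ω) := fun j ω => (cg j ω).sub (cq j ω)
  have h1 := hH.le lev 0 hν hn (Z := fun U ω => Z U ω + ∑ j, qd (θ j) (γ j) (yy U ω.2 (sp j) * w ω))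
    (fun ω => (hZ ω).add (continuous_finsetSum _ fun j _ => cq j ω)) (cs univ) fun U ω => by
      rw [add_zero]; exact add_le_add le_rfl (sum_le_sum fun j _ => ((hg j).2 _).1)
  have H := hH.one lev hν hn (cs univ)
  have h2 := H.low (fun U ω => -1 * (∑ j, (g j (yy U ω.2 (sp j) * w ω) -
    qd (θ j) (γ j) (yy U ω.2 (sp j) * w ω))) + 0 * 0)
      fun ω => ((continuous_finsetSum _ fun j _ => cd j ω).const_mul _).add continuous_const
  rw [H.lin _ (fun _ _ => 0) _ _ (fun ω => continuous_finsetSum _ fun j _ => cd j ω)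
    (fun _ => continuous_const), H.sum _ _ fun j _ => cd j] at h2
  simp only [sum_sub_distrib, neg_mul, one_mul, zero_mul, add_zero, neg_sub, add_add_sub_cancel]
    at h2
  have h3 : ∀ j, EH ν n lev (fun U ω => Z U ω + ∑ j, g j (yy U ω.2 (sp j) * w ω))
      (fun U ω => g j (yy U ω.2 (sp j) * w ω) - qd (θ j) (γ j) (yy U ω.2 (sp j) * w ω)) ≤
      exp 2 * (2 * Γ ^ 2) * (3 / η ^ 2 + 4) / Λ := fun j => by
    have cA : Ct fun U (ω : Cf T I) => g j (yy U ω.2 (sp j) * w ω) + (Λ + 2) := fun ω =>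
      (cg j ω).add continuous_const
    have Hj := hH.one lev hν hn (cs (univ.erase j))
    have c4 : Ct fun U (ω : Cf T I) => yy U ω.2 (sp j) ^ 4 := fun ω => (hO.cont _ _).pow 4
    have a1 := Hj.lowb _ _ cA (cd j) (fun U ω => by linarith [((hg j).2 (yy U ω.2 (sp j) * w ω)).2.1])
      fun U ω => sub_nonneg.2 ((hg j).2 _).1
    have a2 := Hj.mono _ (fun U ω => exp 2 * (2 * Γ ^ 2) / Λ * yy U ω.2 (sp j) ^ 4 +
      exp 2 * (2 * Γ ^ 2) / Λ * 1) (fun ω => (continuous_exp.comp (cA ω)).mul (cd j ω))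
      (fun ω => ((c4 ω).const_mul _).add continuous_const) fun U ω =>
        cut_le (hg j).2 hΛ (hb j).1 (hb j).2 (by rw [mul_pow, hw, mul_one])
    rw [Hj.lin _ (fun _ _ => 1) _ _ c4 (fun _ => continuous_const), Hj.const] at a2
    have a3 := (hM T I ν n lev _ _ A (sp j) δ hν hn hl (cs (univ.erase j)) (hA j) hne
      (hH.inh (𝓡' := {R | Sup (insert (sp j) A) R}) hI (fun R hR => hO.supmono _ _ R (by
        rw [insert_eq, union_comm]
        exact union_subset_union le_rfl (by simp)) hR) le_rfl lev id ⟨Function.injective_id,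
          fun _ => rfl⟩ (fun U ω => ∑ j ∈ univ.erase j, g j (yy U ω.2 (sp j) * w ω))
        (fun U e e' σ he => by simp only [hF e e' σ (by simpa using he)])
        fun R hR U => funext fun ω => sum_congr rfl fun k hk => by
          rw [hO.sup _ R U hR _ _ (by simp [hA k, hsp.eq_iff, (mem_erase.1 hk).1])])).1 hδ
    have a4 : (Fintype.card I : ℝ) / A.card ≤ 1 / η := by
      rw [div_le_div_iff₀ (by exact_mod_cast hne.card_pos) hη]; linarith
    have a5 := pow_le_pow_left₀ (by positivity) a4 2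
    rw [← ((hH.one lev hν hn (cs univ)).shift (Λ + 2)).2]
    refine le_trans (le_of_eq ?_) (a1.trans (a2.trans ?_))
    · congr 1
      funext U ω
      rw [← add_sum_erase _ _ (mem_univ j)]; ring
    · rw [← mul_add, div_mul_eq_mul_div]
      rw [div_pow 1, one_pow] at a5
      refine div_le_div_of_nonneg_right (mul_le_mul_of_nonneg_left ?_ (by positivity)) (by linarith)
      rw [div_eq_mul_one_div 3]
      linarith
  have h4 := (sum_le_sum fun j (_ : j ∈ univ) => h3 j)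
  rw [sum_const, card_univ, nsmul_eq_mul] at h4
  rw [abs_of_nonneg (by linarith), mul_comm, mul_div_assoc]
  linarith

end Vale.Agent.P166
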