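import Vale.Agent.P166.Stm

namespace Vale.Agent.P166

open MeasureTheory Finset Real Vale.Agent.P157

noncomputable section

theorem ts0Stmt (h : TstStmt) (hO : OApi) (hR : RApi) (hH : HApi) : Ts0Stmt := by
  intro K η θ0 Γ ε hη hθ hε
  obtain ⟨e0, he0, h⟩ := h K η θ0 Γ ε hη hθ hε
  refine ⟨e0, he0, fun n hn => ?_⟩
  obtain ⟨η1, hη1, N0, h⟩ := h n hn
  refine ⟨N0, fun N => ?_⟩
  obtain ⟨δ, hδ, h⟩ := h N
  refine ⟨δ, hδ, ?_⟩
  intro T I _ _ _ _ ν lev Z F A B θ p hν hlev hZ h1 h2 h3 h4 h5 h6 hp hp0 hI hC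
  have key := h T I B Empty Empty ν lev Z F A Subtype.val (fun j => θ j) (fun _ => 0) p
    (fun _ => 0) (fun _ => 0) (fun _ => 1) (fun _ => 0) (fun _ => 0) hν hlev (fun s => s.elim) hZ
    h1 h2 h3 (by rw [Fintype.card_coe]; exact h4) Subtype.val_injective (fun j => h5 j.2)
    (fun j => ⟨(h6 j j.2).1, (h6 j j.2).2, by
      rw [abs_zero]; linarith [(h6 j j.2).1, (h6 j j.2).2]⟩) hp hp0 hI hC (fun _ => one_pow 2)
    ⟨fun s => s.elim, fun s => s.elim, fun d _ => by simpa using hη1.le⟩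
  have e1 : Xs n (Sum.elim (fun _ : Empty => 0) (fun _ : Empty => 0))
      (fun e => 0 + sg (fun _ : Empty => (0 : ℝ)) (e ∘ Sum.inr) * 1) = 0 := by
    have := hR.empty (I := Empty) n (Sum.elim (fun _ : Empty => 0) (fun _ : Empty => 0))
      (fun _ => 0) hn
    unfold Xs
    simp only [sg, mul_zero, sum_const_zero, zero_mul, add_zero]
    simpa using this
  have hZ' : Ct fun U ω => Z U ω + ∑ i ∈ B, -θ i * yy U ω.2 i ^ 2 / 2 := fun ω =>
    (hZ ω).add (continuous_finsetSum _ fun i _ =>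
      (continuous_const.mul ((hO.cont ω.2 i).pow 2)).div_const 2)
  have e2 := (hH.same lev (Sum.elim lev (fun _ : Empty => 0))
    (Z' := fun U ω => Z U (pull Sum.inl ω) + 0 + ∑ j : B, qd (θ j) 0 (yy U ω.2 j * 1)) 0 hν hn hZ'
    (fun U => by
      rw [add_zero, ← (hR.emb n lev (Sum.elim lev (fun _ : Empty => 0)) Sum.inl
        ⟨Sum.inl_injective, fun _ => rfl⟩ _).1]
      congr 1
      ext ω
      rw [add_zero, ← sum_coe_sort B]
      simp [qd, pull])).1
  rw [e1, e2, add_zero, sub_zero, sum_coe_sort B (fun i => tr n (lg (θ i)) p)] at key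
  exact key

end

end Vale.Agent.P166
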