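import Vale.Agent.P166.Stm

namespace Vale.Agent.P166

open MeasureTheory Finset Real Vale.Agent.P157

noncomputable section

namespace Tsa

/-- fresh signs may be stored in unused slots -/
theorem trans (hR : RApi) {T R I : Type} [Fintype T] [DecidableEq T] [Fintype R] [DecidableEq R]
    [Fintype I] [DecidableEq I] (n : ℕ) {lev : T → ℕ} {lv : R → ℕ} {ι : R → T} (hι : Emb lv lev ι)
    (G : Cf T I → (R → Bool) → ℝ)
    (hG : ∀ x e e' σ, (∀ s, s ∉ Set.range ι → e s = e' s) → G (e, σ) x = G (e', σ) x) :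
    Xv n (Sum.elim lev lv) (fun ω => G (pull Sum.inl ω) (ω.1 ∘ Sum.inr)) =
      Xv n lev (fun ω => G ω (ω.1 ∘ ι)) := by
  set f : T → T ⊕ R := Function.extend ι Sum.inr Sum.inl with hf
  have f1 : ∀ r, f (ι r) = Sum.inr r := fun r => hι.1.extend_apply _ _ r
  have f2 : ∀ s, s ∉ Set.range ι → f s = Sum.inl s := fun s hs => Function.extend_apply' _ _ s hs
  have E : Emb lev (Sum.elim lev lv) f := by
    refine ⟨fun s s' h => ?_, fun s => ?_⟩
    · by_cases hs : s ∈ Set.range ι <;> by_cases hs' : s' ∈ Set.range ι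
      · obtain ⟨r, rfl⟩ := hs
        obtain ⟨r', rfl⟩ := hs'
        rw [f1, f1] at h
        rw [Sum.inr_injective h]
      · obtain ⟨r, rfl⟩ := hs
        rw [f1, f2 _ hs'] at h
        exact absurd h Sum.inr_ne_inl
      · obtain ⟨r, rfl⟩ := hs'
        rw [f1, f2 _ hs] at h
        exact absurd h Sum.inl_ne_inr
      · rw [f2 _ hs, f2 _ hs'] at h
        exact Sum.inl_injective h
    · by_cases hs : s ∈ Set.range ι
      · obtain ⟨r, rfl⟩ := hs
        rw [f1, hι.2]; rfl
      · rw [f2 _ hs]; rfl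
  rw [← (hR.emb n lev _ f E _).1]
  congr 1
  funext ω
  have e1 : (pull f ω).1 ∘ ι = ω.1 ∘ Sum.inr := funext fun r => congrArg ω.1 (f1 r)
  rw [e1]
  exact hG _ _ _ _ fun s hs => (congrArg ω.1 (f2 s hs)).symm

theorem sm_cont {B : ℝ} {g g1 g2 : ℝ → ℝ} (h : Sm3 B g g1 g2) : Continuous g := by
  have hB : 0 ≤ B := (abs_nonneg _).trans (h.b0 0)
  refine (LipschitzWith.of_dist_le_mul (K := ⟨B, hB⟩) fun x y => ?_).continuous
  have := h.lip y (x - y)
  rw [add_sub_cancel] at this
  exact this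

theorem conc_ext (hR : RApi) (hO : OApi) (hH : HApi) {T T2 I : Type} [Fintype T] [DecidableEq T]
    [Fintype T2] [DecidableEq T2] [Fintype I] [DecidableEq I] {ν : Measure (OG I)} {n : ℕ}
    {lev : T → ℕ} (lev2 : T2 → ℕ) {Z : OG I → Cf T I → ℝ} (Z' : (T2 → Bool) → ℝ)
    {W : OG I → Cf (T ⊕ T2) I → ℝ} {A : Finset I} {p : ℕ → ℝ} {e M : ℝ} (hν : Haar ν) (hn : 1 ≤ n)
    (hZ : Ct Z) (hW : Ct W) (hM : ∀ U ω, |W U ω| ≤ M) (he : 0 ≤ e) (h : ConcH ν n lev Z A p e) :
    ConcH ν n (Sum.elim lev lev2) (fun U ω => Z U (pull Sum.inl ω) + Z' (ω.1 ∘ Sum.inr) + W U ω)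
      A p (exp (8 * M) * e) := by
  have c1 : Ct fun U (ω : Cf (T ⊕ T2) I) => Z U (pull Sum.inl ω) + Z' (ω.1 ∘ Sum.inr) :=
    fun ω => (hZ _).add continuous_const
  have cr : ∀ σ σ', Continuous fun U : OG I => rA A U σ σ' := fun σ σ' =>
    (continuous_finsetSum _ fun i _ => (hO.cont σ i).mul (hO.cont σ' i)).div_const _
  have hc := (hH.one (Sum.elim lev lev2) hν hn c1).chg W M hW hM
  have hs := hH.same lev (Sum.elim lev lev2) (Xs n lev2 Z') hν hn hZ
    fun U => (hR.prod n lev lev2 (Z U) Z' hn).1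
  have M0 : 0 ≤ M := (abs_nonneg _).trans (hM 1 (w0 _ _))
  refine ⟨(hc.1 (fun U ω => (rA A U ω.2 ω.2 - p 0) ^ 2)
    (fun ω => ((cr _ _).sub continuous_const).pow 2) fun _ _ => sq_nonneg _).trans ?_, ?_⟩
  · rw [hs.2.1 (fun U ω => (rA A U ω.2 ω.2 - p 0) ^ 2) (fun U ω => (rA A U ω.2 ω.2 - p 0) ^ 2)
      fun U => (hR.prod n lev lev2 (Z U) Z' hn).2.1 fun ω => (rA A U ω.2 ω.2 - p 0) ^ 2]
    exact (mul_le_mul_of_nonneg_left h.1 (exp_pos _).le).trans
      (mul_le_mul_of_nonneg_right (exp_le_exp.2 (by linarith)) he)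
  · refine le_trans ?_ (mul_le_mul_of_nonneg_left h.2 (exp_pos _).le)
    rw [mul_left_comm, mul_sum _ _ (exp _)]
    refine mul_le_mul_of_nonneg_left (sum_le_sum fun d hd => ?_) (by positivity)
    have hd' : d ≤ n := (mem_Ico.1 hd).2.le
    refine (hc.2 d hd' (fun U ω ω' => (rA A U ω.2 ω'.2 - p d) ^ 2)
      (fun ω ω' => ((cr _ _).sub continuous_const).pow 2) fun _ _ _ => sq_nonneg _).trans
      (le_of_eq ?_)
    rw [hs.2.2 d (fun U ω ω' => (rA A U ω.2 ω'.2 - p d) ^ 2)
      (fun U ω ω' => (rA A U ω.2 ω'.2 - p d) ^ 2) fun U =>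
      (hR.prod n lev lev2 (Z U) Z' hn).2.2 d hd' fun ω ω' => (rA A U ω.2 ω'.2 - p d) ^ 2]

variable {T I J T' R : Type} [Fintype I] [DecidableEq I] [DecidableEq J] [Fintype R]

/-- the coordinate of the test `j` after the tests of `B` have been replaced -/
def vl (sp : J → I) (B : Finset J) (a : J → R → ℝ) (U : OG I) (ω : Cf (T ⊕ (T' ⊕ J × R)) I)
    (j : J) : ℝ :=
  if j ∈ B then sg (a j) (fun r => ω.1 (Sum.inr (Sum.inr (j, r)))) else yy U ω.2 (sp j)

theorem vl_ct (hO : OApi) (sp : J → I) (B : Finset J) (a : J → R → ℝ)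
    (ω : Cf (T ⊕ (T' ⊕ J × R)) I) (j : J) : Continuous fun U => vl sp B a U ω j := by
  unfold vl
  split_ifs
  · exact continuous_const
  · exact hO.cont _ _

end Tsa

open Tsa in
theorem tsaStmt (hR : RApi) (hO : OApi) (hH : HApi) (h : OuStmt) : TsaStmt := by
  intro K B η ε hB hη hε
  obtain ⟨e0, he0, h⟩ := h B η (ε / (K + 1)) hB hη (by positivity)
  refine ⟨exp (-(8 * (K * B))) * e0, by positivity, fun n N η1 hn hη1 => ?_⟩
  obtain ⟨δ, hδ, S, h⟩ := h n N η1 hn hη1
  refine ⟨δ, hδ, ?_⟩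
  intro T I J T' _ _ _ _ _ _ _ _ ν lev Z F A sp g g1 g2 p lev' Zs w hν hl hl' hZ hN hK hsp hA hA0
    hw hg hp hp0 hinv hcon
  set lv2 : T' ⊕ J × (Fin S × Fin n) → ℕ := Sum.elim lev' (fun r => (r.2.2 : ℕ)) with hlv2
  set lb : T ⊕ (T' ⊕ J × (Fin S × Fin n)) → ℕ := Sum.elim lev lv2 with hlb
  have hlo : LevOk n lb := by
    rintro (s | s | s)
    · exact hl s
    · exact hl' s
    · exact s.2.2.2
  set w' : Cf (T ⊕ (T' ⊕ J × (Fin S × Fin n))) I → ℝ := fun ω => w ((ω.1 ∘ Sum.inr) ∘ Sum.inl)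
    with hw'
  set T0 := TH ν n (Sum.elim lev lev') (fun U ω => Z U (pull Sum.inl ω) + Zs (ω.1 ∘ Sum.inr) +
    ∑ j, g j (yy U ω.2 (sp j) * w (ω.1 ∘ Sum.inr))) with hT0
  have key : ∀ C : Finset J, ∃ a : J → Fin S × Fin n → ℝ,
      (∀ j ∈ C, Mic n (fun r => r.2) (a j) p η1) ∧
      |T0 - TH ν n lb (fun U ω => Z U (pull Sum.inl ω) + Zs ((ω.1 ∘ Sum.inr) ∘ Sum.inl) +
        ∑ j, g j (vl sp C a U ω j * w' ω))| ≤ C.card * (ε / (K + 1)) := by
    intro C
    induction C using Finset.induction_on with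
    | empty =>
      refine ⟨0, by simp, le_of_eq ?_⟩
      have E : Emb (Sum.elim lev lev') lb (Sum.map id Sum.inl) :=
        ⟨Function.injective_id.sumMap Sum.inl_injective, by rintro (s | s) <;> rfl⟩
      rw [card_empty, Nat.cast_zero, zero_mul, abs_eq_zero, sub_eq_zero, hT0]
      unfold TH
      simp only [← (hR.emb n _ lb _ E _).1]
      rfl
    | insert j0 C hj ih =>
      obtain ⟨a, ha, ih⟩ := ih
      set W : OG I → Cf (T ⊕ (T' ⊕ J × (Fin S × Fin n))) I → ℝ :=
        fun U ω => ∑ j ∈ univ.erase j0, g j (vl sp C a U ω j * w' ω) with hW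
      have cW : Ct W := fun ω => continuous_finsetSum _ fun j _ =>
        (sm_cont (hg j).1).comp ((vl_ct hO sp C a ω j).mul continuous_const)
      have bW : ∀ U ω, |W U ω| ≤ K * B := fun U ω => by
        refine (abs_sum_le_sum_abs _ _).trans ((sum_le_card_nsmul _ _ B fun j _ =>
          (hg j).1.b0 _).trans ?_)
        rw [nsmul_eq_mul]
        exact mul_le_mul_of_nonneg_right (by exact_mod_cast (card_le_univ _).trans hK)
          (by linarith)
      have hc := conc_ext hR hO hH lv2 (fun e => Zs (e ∘ Sum.inl)) hν hn hZ cW bW (by positivity)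
        hcon
      rw [← mul_assoc, ← exp_add, add_neg_cancel, exp_zero, one_mul] at hc
      have iF : ∀ (e e' : T ⊕ (T' ⊕ J × (Fin S × Fin n)) → Bool),
          (∀ s, s ∉ F.image Sum.inl → e s = e' s) → e ∘ Sum.inr = e' ∘ Sum.inr :=
        fun e e' he => funext fun s => he _ (by simp)
      have hi := hH.inh (𝓡' := {R | Sup (insert (sp j0) A) R}) hinv
        (fun R hR' => hO.supmono _ _ R (insert_subset (mem_union_right _ (mem_image_of_mem _
          (mem_univ _))) subset_union_left) hR') le_rfl lb Sum.inl ⟨Sum.inl_injective, fun _ => rfl⟩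
        (fun U ω => Zs ((ω.1 ∘ Sum.inr) ∘ Sum.inl) + W U ω)
        (fun U e e' σ he => by
          have h1 := iF e e' he
          have h2 : ∀ s, e (Sum.inr s) = e' (Sum.inr s) := congrFun h1
          simp only [hW, hw', vl, h1, h2])
        (fun R hR' U => by
          funext ω
          congr 1
          refine sum_congr rfl fun j hj' => ?_
          unfold vl
          rw [hO.sup _ R U hR' _ _ (by
            rw [mem_insert, not_or]; exact ⟨fun e => (mem_erase.1 hj').1 (hsp e), hA j⟩)])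
      simp only [← add_assoc] at hi
      obtain ⟨a0, hm, hd⟩ := h _ I ν lb
        (fun U ω => Z U (pull Sum.inl ω) + Zs ((ω.1 ∘ Sum.inr) ∘ Sum.inl) + W U ω) _ A (sp j0) w' (g j0) (g1 j0) (g2 j0) p hν hlo
        (fun ω => ((hZ _).add continuous_const).add (cW ω)) hN (hA j0) hA0 (fun ω => hw _)
        (fun e e' σ he => by simp only [hw', iF e e' he]) (hg j0).1 (hg j0).2.1 (hg j0).2.2 hp hp0
        hi hc
      refine ⟨Function.update a j0 a0, fun j hj' => ?_, ?_⟩
      · rcases eq_or_ne j j0 with rfl | hne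
        · rw [Function.update_self]; exact hm
        · rw [Function.update_of_ne hne]; exact ha j ((mem_insert.1 hj').resolve_left hne)
      have e1 : ∀ U ω, ∑ j, g j (vl sp C a U ω j * w' ω) =
          W U ω + g j0 (yy U ω.2 (sp j0) * w' ω) := fun U ω => by
        rw [← sum_erase_add _ _ (mem_univ j0), vl, if_neg hj]
      have e2 : ∀ U ω, ∑ j, g j (vl sp (insert j0 C) (Function.update a j0 a0) U ω j * w' ω) =
          W U ω + g j0 (sg a0 (ω.1 ∘ fun r => Sum.inr (Sum.inr (j0, r))) * w' ω) := fun U ω => by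
        rw [← sum_erase_add _ _ (mem_univ j0), vl, if_pos (mem_insert_self _ _),
          Function.update_self]
        congr 1
        refine sum_congr rfl fun j hj' => ?_
        have hne := (mem_erase.1 hj').1
        simp only [vl, mem_insert, hne, false_or, Function.update_of_ne hne]
      have E : Emb (fun r : Fin S × Fin n => (r.2 : ℕ)) lb fun r => Sum.inr (Sum.inr (j0, r)) :=
        ⟨fun r r' e => by simpa using e, fun _ => rfl⟩
      have e3 := fun U => trans hR n E (fun ω x => Z U (pull Sum.inl ω) +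
        Zs ((ω.1 ∘ Sum.inr) ∘ Sum.inl) + W U ω + g j0 (sg a0 x * w' ω)) fun x e e' σ he => by
          have h1 : e ∘ Sum.inl = e' ∘ Sum.inl := funext fun s => he _ (by simp)
          have h2 : (e ∘ Sum.inr) ∘ Sum.inl = (e' ∘ Sum.inr) ∘ Sum.inl :=
            funext fun s => he _ (by simp)
          simp only [pull, hW, hw', h1, h2]
          congr 2
          refine sum_congr rfl fun j hj' => ?_
          have h3 : ∀ r, e (Sum.inr (Sum.inr (j, r))) = e' (Sum.inr (Sum.inr (j, r))) := fun r =>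
            he _ (by simp [(mem_erase.1 hj').1.symm])
          simp only [vl, h3]
      simp only [e1, ← add_assoc] at ih
      simp only [e2, ← add_assoc]
      unfold TH at hd ih ⊢
      simp only [e3] at hd
      rw [card_insert_of_notMem hj, Nat.cast_succ, add_one_mul]
      exact (abs_sub_le _ _ _).trans (add_le_add ih hd)
  obtain ⟨a, ha, hd⟩ := key univ
  refine ⟨S, a, fun j => ha j (mem_univ _), ?_⟩
  rw [sub_sub, ← (hH.same lev lb _ hν hn hZ fun U => (hR.prod n lev lv2 (Z U) _ hn).1).1]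
  simp only [vl, if_pos (mem_univ _), add_assoc] at hd
  refine le_trans hd ?_
  rw [mul_div_assoc', div_le_iff₀ (by positivity), mul_comm]
  have : ((univ : Finset J).card : ℝ) ≤ K := by exact_mod_cast hK
  nlinarith

end

end Vale.Agent.P166
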