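import Vale.Agent.P166.Tsa

namespace Vale.Agent.P166

open Finset Real Vale.Agent.P157

noncomputable section

namespace Tsb

theorem mic_mono {R : Type} [Fintype R] {n : ℕ} {lv : R → ℕ} {a : R → ℝ} {p : ℕ → ℝ} {η η' : ℝ}
    (h : Mic n lv a p η) (hη : η ≤ η') : Mic n lv a p η' :=
  ⟨h.1, fun r => (h.2.1 r).trans hη, fun d hd => (h.2.2 d hd).trans hη⟩

theorem mic_sigma {J : Type} [Fintype J] {R : J → Type} [∀ j, Fintype (R j)] {n : ℕ}
    {lv : ∀ j, R j → ℕ} {a : ∀ j, R j → ℝ} {p : J → ℕ → ℝ} {η η' : ℝ}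
    (h : ∀ j, Mic n (lv j) (a j) (p j) η) (h1 : η ≤ η') (h2 : Fintype.card J * η ≤ η') :
    Mic n (fun r : Σ j, R j => lv r.1 r.2) (fun r => a r.1 r.2) (fun d => ∑ j, p j d) η' := by
  refine ⟨fun r => (h r.1).1 r.2, fun r => ((h r.1).2.1 r.2).trans h1, fun d hd => ?_⟩
  rw [sum_filter, Fintype.sum_sigma, ← sum_sub_distrib, ← sum_sub_distrib]
  refine (abs_sum_le_sum_abs _ _).trans ((sum_le_card_nsmul _ _ η fun j _ => ?_).trans ?_)
  · rw [← sum_filter]; exact (h j).2.2 d hd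
  · rw [nsmul_eq_mul]; exact h2

theorem prof (hT : TApi) {n : ℕ} {p : ℕ → ℝ} {θ γ Γ : ℝ} (hp : Path n p) (hθ : 0 ≤ θ)
    (hγ : |γ| ≤ Γ) (h0 : p 0 ≤ Γ) : Path n (fun d => γ ^ 2 * fp n (ph θ) p d) ∧
      γ ^ 2 * fp n (ph θ) p 0 ≤ Γ ^ 3 := by
  have h1 := hT.fp_path (f := ph θ) hp fun x hx x' _ hxx =>
    sub_nonneg.1 (hT.phl θ θ x x' hθ hθ hx.1 hxx).1
  refine ⟨⟨fun d hd => mul_le_mul_of_nonneg_left (h1.1 d hd) (sq_nonneg _), by
    simp only [h1.2, mul_zero]⟩, ?_⟩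
  have h2 := (hT.lip (f := ph θ) (L := 1) hp fun x x' hx hxx _ => by
    have := hT.phl θ θ x x' hθ hθ hx hxx
    rw [abs_of_nonneg this.1, one_mul]; exact this.2.1).1
  rw [hT.fp_zero, pow_succ Γ 2]
  refine mul_le_mul (sq_le_sq' (abs_le.1 hγ).1 (abs_le.1 hγ).2) ?_ ?_ (sq_nonneg _)
  · linarith [le_abs_self (tr n (ph θ) p)]
  · rw [← hT.fp_zero]; exact (hT.nn h1 0 (Nat.zero_le _)).1

variable {J T' R : Type} {R2 : J → Type} [DecidableEq J] [Fintype R] [∀ j, Fintype (R2 j)]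

/-- the test `j` after the tests of `C` have been integrated out -/
def tm (g : J → ℝ → ℝ) (a : J → R → ℝ) (b : ∀ j, R2 j → ℝ) (w : (T' → Bool) → ℝ) (C : Finset J)
    (e : T' ⊕ (J × R ⊕ Σ j, R2 j) → Bool) (j : J) : ℝ :=
  if j ∈ C then sg (b j) (fun r => e (Sum.inr (Sum.inr ⟨j, r⟩))) * w (e ∘ Sum.inl)
  else g j (sg (a j) (fun r => e (Sum.inr (Sum.inl (j, r)))) * w (e ∘ Sum.inl))

end Tsb

open Tsb in
theorem tsbStmt (hR : RApi) (hT : TApi) (hQo : QoStmt) (hM : MicStmt) : TsbStmt := by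
  intro K θ0 Γ ε hθ0 hε
  obtain ⟨Λ0, hΛ0, h⟩ := hQo θ0 Γ (ε / 2 / (K + 1)) hθ0 (by positivity)
  refine ⟨Λ0, hΛ0, fun Λ hΛ n B hn => ?_⟩
  obtain ⟨ηQ, hηQ, h⟩ := h Λ hΛ n B hn
  obtain ⟨ηM, hηM, h3⟩ := hM.2.2 n (K * Γ ^ 3) (ε / 2) hn (by positivity)
  refine ⟨min ηQ ηM, lt_min hηQ hηM, ?_⟩
  intro J T' R _ _ _ _ _ _ S lev' Zs w θ γ p g g1 g2 a lv a' hl' hK hw hθ hp hp0 hg ha ha'
  have hK' : (Fintype.card J : ℝ) ≤ K := by exact_mod_cast hK
  have hP := fun j => prof hT hp (hθ0.le.trans (hθ j).1) (hθ j).2.2 hp0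
  choose S' b hb using fun j => hM.1 n _ (min ηQ (ηM / (K + 1))) (hP j).1 (by positivity)
  have hS := mic_sigma hb (η' := ηM) ((min_le_right _ _).trans (div_le_self hηM.le (by
    linarith [Nat.cast_nonneg (α := ℝ) K]))) (by
      refine (mul_le_mul_of_nonneg_left (min_le_right _ _) (Nat.cast_nonneg _)).trans ?_
      rw [mul_div_assoc', div_le_iff₀ (by positivity)]
      nlinarith)
  set lb : T' ⊕ (J × (Fin S × Fin n) ⊕ Σ j, Fin (S' j) × Fin n) → ℕ :=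
    Sum.elim lev' (Sum.elim (fun r => (r.2.2 : ℕ)) (fun r => (r.2.2 : ℕ))) with hlb
  have hlo : LevOk n lb := by
    rintro (s | s | s)
    · exact hl' s
    · exact s.2.2.2
    · exact s.2.2.2
  set X0 := Xs n (Sum.elim lev' (fun r : J × (Fin S × Fin n) => (r.2.2 : ℕ)))
    (fun e => Zs (e ∘ Sum.inl) + ∑ j, g j (sg (a j) (fun r => e (Sum.inr (j, r))) *
      w (e ∘ Sum.inl))) with hX0
  have key : ∀ C : Finset J, |X0 - ∑ j ∈ C, tr n (lg (θ j)) p -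
      Xv n lb (fun ω : Cf _ Empty => Zs (ω.1 ∘ Sum.inl) + ∑ j, tm g a b w C ω.1 j)| ≤
      C.card * (ε / 2 / (K + 1)) := by
    intro C
    induction C using Finset.induction_on with
    | empty =>
      have E : Emb (Sum.elim lev' (fun r : J × (Fin S × Fin n) => (r.2.2 : ℕ))) lb
          (Sum.map id Sum.inl) :=
        ⟨Function.injective_id.sumMap Sum.inl_injective, by rintro (s | s) <;> rfl⟩
      rw [card_empty, Nat.cast_zero, zero_mul, sum_empty, sub_zero, hX0, Xs,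
        ← (hR.emb n _ lb _ E _).1]
      exact le_of_eq (abs_eq_zero.2 (sub_eq_zero.2 rfl))
    | insert j0 C hj ih =>
      set Z0 : Cf (T' ⊕ (J × (Fin S × Fin n) ⊕ Σ j, Fin (S' j) × Fin n)) Empty → ℝ :=
        fun ω => Zs (ω.1 ∘ Sum.inl) + ∑ j ∈ univ.erase j0, tm g a b w C ω.1 j with hZ0
      have hd := h _ Empty _ _ lb Z0 (fun ω => w (ω.1 ∘ Sum.inl)) (θ j0) (γ j0) p (g j0) (g1 j0)
        (g2 j0) _ (a j0) _ (b j0) hlo (fun ω => hw _) (hθ j0).1 (hθ j0).2.1 (hθ j0).2.2 hp hp0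
        (hg j0).1 (hg j0).2 (mic_mono (ha j0) (min_le_left _ _))
        (mic_mono (hb j0) (min_le_left _ _))
      have iz : ∀ e e' : T' ⊕ (J × (Fin S × Fin n) ⊕ Σ j, Fin (S' j) × Fin n) → Bool,
          (∀ s, e (Sum.inl s) = e' (Sum.inl s)) →
          (∀ j r, j ≠ j0 → e (Sum.inr (Sum.inl (j, r))) = e' (Sum.inr (Sum.inl (j, r)))) →
          (∀ j r, j ≠ j0 → e (Sum.inr (Sum.inr ⟨j, r⟩)) = e' (Sum.inr (Sum.inr ⟨j, r⟩))) →
          e ∘ Sum.inl = e' ∘ Sum.inl ∧ ∀ σ, Z0 (e, σ) = Z0 (e', σ) := fun e e' h1 h2 h3 => by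
        have h4 : e ∘ Sum.inl = e' ∘ Sum.inl := funext h1
        refine ⟨h4, fun σ => ?_⟩
        simp only [hZ0, h4]
        congr 1
        refine sum_congr rfl fun j hj' => ?_
        simp only [tm, h4, fun r => h2 j r (mem_erase.1 hj').1, fun r => h3 j r (mem_erase.1 hj').1]
      have E1 : Emb (fun r : Fin S × Fin n => (r.2 : ℕ)) lb fun r => Sum.inr (Sum.inl (j0, r)) :=
        ⟨fun r r' e => by simpa using e, fun _ => rfl⟩
      have E2 : Emb (fun r : Fin (S' j0) × Fin n => (r.2 : ℕ)) lb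
          fun r => Sum.inr (Sum.inr ⟨j0, r⟩) := ⟨fun r r' e => by simpa using e, fun _ => rfl⟩
      have t1 := Tsa.trans hR n E1 (fun ω x => Z0 ω + g j0 (sg (a j0) x * w (ω.1 ∘ Sum.inl)))
        fun x e e' σ he => by
          obtain ⟨h1, h2⟩ := iz e e' (fun s => he _ (by simp))
            (fun j r hne => he _ (by simp [hne.symm])) fun j r _ => he _ (by simp)
          simp only [h1, h2]
      have t2 := Tsa.trans hR n E2 (fun ω x => Z0 ω + sg (b j0) x * w (ω.1 ∘ Sum.inl))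
        fun x e e' σ he => by
          obtain ⟨h1, h2⟩ := iz e e' (fun s => he _ (by simp)) (fun j r _ => he _ (by simp))
            fun j r hne => he _ (by simp [hne.symm])
          simp only [h1, h2]
      rw [t1, t2] at hd
      have e1 : ∀ ω : Cf (T' ⊕ (J × (Fin S × Fin n) ⊕ Σ j, Fin (S' j) × Fin n)) Empty,
          Zs (ω.1 ∘ Sum.inl) + ∑ j, tm g a b w C ω.1 j = Z0 ω +
            g j0 (sg (a j0) (ω.1 ∘ fun r => Sum.inr (Sum.inl (j0, r))) * w (ω.1 ∘ Sum.inl)) :=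
        fun ω => by rw [← sum_erase_add _ _ (mem_univ j0), tm, if_neg hj, ← add_assoc]; rfl
      have e2 : ∀ ω : Cf (T' ⊕ (J × (Fin S × Fin n) ⊕ Σ j, Fin (S' j) × Fin n)) Empty,
          Zs (ω.1 ∘ Sum.inl) + ∑ j, tm g a b w (insert j0 C) ω.1 j = Z0 ω +
            sg (b j0) (ω.1 ∘ fun r => Sum.inr (Sum.inr ⟨j0, r⟩)) * w (ω.1 ∘ Sum.inl) := fun ω => by
        rw [← sum_erase_add _ _ (mem_univ j0), tm, if_pos (mem_insert_self _ _), ← add_assoc]
        congr 2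
        refine sum_congr rfl fun j hj' => ?_
        simp only [tm, mem_insert, (mem_erase.1 hj').1, false_or]
      simp only [e1] at ih
      simp only [e2]
      rw [card_insert_of_notMem hj, Nat.cast_succ, add_one_mul, sum_insert hj]
      rw [abs_le] at ih hd ⊢
      constructor <;> linarith [ih.1, ih.2, hd.1, hd.2]
  have hd := key univ
  have E : Emb (Sum.elim lev' (fun r : Σ j, Fin (S' j) × Fin n => (r.2.2 : ℕ))) lb
      (Sum.map id Sum.inr) :=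
    ⟨Function.injective_id.sumMap Sum.inr_injective, by rintro (s | s) <;> rfl⟩
  have h4 := h3 T' Empty _ R lev' (fun ω => Zs ω.1) (fun ω => w ω.1) _ _ _ lv a' (fun ω => hw _)
    ⟨fun d hd => sum_le_sum fun j _ => (hP j).1.1 d hd, sum_eq_zero fun j _ => (hP j).1.2⟩
    ((sum_le_card_nsmul _ _ _ fun j _ => (hP j).2).trans (by
      rw [nsmul_eq_mul]
      exact mul_le_mul_of_nonneg_right hK' (pow_nonneg ((hT.nn hp 0 (Nat.zero_le _)).1.trans hp0) 3)))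
    hS (mic_mono ha' (min_le_right _ _))
  rw [← (hR.emb n _ lb _ E _).1] at h4
  have e3 : ∀ ω : Cf (T' ⊕ (J × (Fin S × Fin n) ⊕ Σ j, Fin (S' j) × Fin n)) Empty,
      ∑ j, tm g a b w univ ω.1 j = sg (fun r : Σ j, Fin (S' j) × Fin n => b r.1 r.2)
        ((pull (Sum.map id Sum.inr) ω).1 ∘ Sum.inr) * w (ω.1 ∘ Sum.inl) := fun ω => by
    simp only [tm, if_pos (mem_univ _), ← sum_mul, sg, Fintype.sum_sigma]
    rfl
  simp only [e3] at hd
  have h5 : (univ : Finset J).card * (ε / 2 / (K + 1)) ≤ ε / 2 := by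
    rw [mul_div_assoc', div_le_iff₀ (by positivity), card_univ]
    nlinarith
  have h6 := abs_add_le _ _ |>.trans (add_le_add (hd.trans h5) h4)
  rw [add_halves] at h6
  refine le_trans (le_of_eq ?_) h6
  congr 1
  exact (sub_add_sub_cancel _ _ _).symm

end

end Vale.Agent.P166
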