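import Vale.Agent.P166.Stm

namespace Vale.Agent.P166

open Finset Real Vale.Agent.P157

theorem tstStmt (hO : OApi) (hH : HApi) (hS : SmtStmt) (hT : TrnStmt) (hM : MomStmt)
    (hC : CrsStmt) (hA : TsaStmt) (hB : TsbStmt) : TstStmt := by
  intro K η θ0 Γ ε hη hθ0 hε
  obtain ⟨C, hC0, hT⟩ := hT (η / 2) Γ (half_pos hη)
  obtain ⟨Λ0, hΛ0, hB⟩ := hB K θ0 Γ (ε / 3) hθ0 (by positivity)
  have hΛ : 1 ≤ max Λ0 (3 * C * K / ε) := hΛ0.trans (le_max_left _ _)
  obtain ⟨B, hB1, hS⟩ := hS θ0 Γ _ hθ0 (zero_le_one.trans hΛ)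
  obtain ⟨e0, he0, hA⟩ := hA K B (1 / max Γ 1) (ε / 3) hB1 (by positivity) (by positivity)
  refine ⟨e0 / 24, by positivity, fun n hn => ?_⟩
  obtain ⟨η1, hη1, hB⟩ := hB _ (le_max_left _ (3 * C * K / ε)) n B hn
  set M := 3 * (2 / η) ^ 2 + 3 with hMd
  obtain ⟨N0, hN0⟩ := exists_nat_gt ((2 * K + 1 + 24 * K ^ 2 * (Γ ^ 2 + M) / e0) / η)
  refine ⟨η1, hη1, N0, fun N => ?_⟩
  obtain ⟨δ, hδ, hA⟩ := hA n N η1 hn hη1
  refine ⟨min δ (1 / (N + 1) ^ 4), by positivity, ?_⟩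
  intro T I J T' R _ _ _ _ _ _ _ _ _ _ ν lev Z F A sp θ γ p lev' Zs w lv a hν hl hl' hZ h0 h1 hc hK
    hsp hsA hb hp hp0 hI hcn hw hm
  choose g g1 g2 hg using fun j => hS (θ j) (γ j) (hb j).1 (hb j).2.1 (hb j).2.2
  have hsub : univ.image sp ⊆ A := image_subset_iff.2 fun j _ => hsA j
  have hU : A \ univ.image sp ∪ univ.image sp = A := sdiff_union_of_subset hsub
  have hKr : (Fintype.card J : ℝ) ≤ K := by exact_mod_cast hK
  have c0 : (N0 : ℝ) ≤ Fintype.card I := by exact_mod_cast h0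
  have c1 : (Fintype.card I : ℝ) ≤ N := by exact_mod_cast h1
  have c2 : 0 ≤ 24 * K ^ 2 * (Γ ^ 2 + M) / e0 := by positivity
  have c3 : 2 * K + 1 + 24 * K ^ 2 * (Γ ^ 2 + M) / e0 ≤ η * Fintype.card I := by
    rw [div_lt_iff₀ hη] at hN0; nlinarith
  have cK : (0 : ℝ) ≤ K := Nat.cast_nonneg K
  have c4 : ((univ.image sp).card : ℝ) ≤ K := by
    exact_mod_cast card_image_le.trans (card_univ.trans_le hK)
  have c5 : η / 2 * Fintype.card I ≤ (A \ univ.image sp).card := by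
    rw [card_sdiff_of_subset hsub, Nat.cast_sub (card_le_card hsub)]; linarith
  have c6 : (0 : ℝ) < (A \ univ.image sp).card := by linarith
  have hne : (A \ univ.image sp).Nonempty := card_pos.1 (by exact_mod_cast c6)
  have hd : min δ (1 / (N + 1) ^ 4) * (Fintype.card I : ℝ) ^ 4 ≤ 1 := by
    refine (mul_le_mul (min_le_right _ _) (pow_le_pow_left₀ (by positivity)
      (c1.trans (le_add_of_nonneg_right zero_le_one)) 4) (by positivity) (by positivity)).trans ?_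
    rw [one_div_mul_cancel (by positivity)]
  have hn0 : ∀ j, sp j ∉ A \ univ.image sp := fun j => by simp
  have hcn' := hC T I ν n lev Z A (A \ univ.image sp) p _ K M Γ hν hn hZ sdiff_subset hne
    (by rw [Finset.sdiff_sdiff_eq_self hsub]; exact c4) (by linarith) (by positivity) (fun i hi => by
      refine ((hM T I ν n lev Z F _ i _ hν hn hl hZ (mem_sdiff.1 hi).2 hne fun R hR =>
        hI R (hO.supmono _ _ R (insert_subset (mem_sdiff.1 hi).1 sdiff_subset) hR)).1 hd).trans ?_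
      have : (Fintype.card I : ℝ) / (A \ univ.image sp).card ≤ 2 / η := by
        rw [div_le_div_iff₀ c6 hη]; linarith
      rw [hMd]
      gcongr) hp hp0 hcn
  have c7 : 12 * (e0 / 24) + 12 * K ^ 2 * (Γ ^ 2 + M) / (A.card : ℝ) ^ 2 ≤ e0 := by
    have a1 : 24 * K ^ 2 * (Γ ^ 2 + M) / e0 ≤ (A.card : ℝ) ^ 2 := by nlinarith
    rw [div_le_iff₀ he0] at a1
    have : 12 * K ^ 2 * (Γ ^ 2 + M) / (A.card : ℝ) ^ 2 ≤ e0 / 2 := by
      rw [div_le_iff₀ (pow_pos (by linarith) 2)]; linarith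
    linarith
  obtain ⟨S, a', ha', r1⟩ := hA T I J T' ν lev Z F _ sp g g1 g2 p lev' Zs w hν hl hl' hZ h1 hK hsp hn0
    hne hw (fun j => ⟨(hg j).1, (hg j).2.1, (hg j).2.2.1⟩) hp
    (by rw [one_div_one_div]; exact hp0.trans (le_max_left _ _))
    (by rw [hU]; exact fun R hR U T'' _ _ l f b1 b2 V b3 =>
      (hI R hR U T'' l f b1 b2 V b3).trans (min_le_left _ _))
    ⟨hcn'.1.trans c7, hcn'.2.trans c7⟩
  have r2 := hB J T' R S lev' Zs w θ γ p g g1 g2 a' lv a hl' hK hw hb hp hp0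
    (fun j => ⟨(hg j).1, (hg j).2.2.2⟩) ha' hm
  have hid : ∀ u : (T' → Bool) → ℝ, Idp (F.image Sum.inl) fun ω : Cf (T ⊕ T') I =>
      u (ω.1 ∘ Sum.inr) := fun u e e' σ he => congrArg u (funext fun s => he _ (by simp))
  have r3 := hT (T ⊕ T') I J ν n (Sum.elim lev lev')
    (fun U ω => Z U (pull Sum.inl ω) + Zs (ω.1 ∘ Sum.inr)) (F.image Sum.inl) _ sp
    (fun ω => w (ω.1 ∘ Sum.inr)) θ γ g _ _ hν hn (fun s => by cases s; exacts [hl _, hl' _])
    (fun ω => (hZ _).add continuous_const) hsp hn0 hne c5 (fun _ => hw _) (hid w)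
    (fun j => ⟨abs_le.2 ⟨by linarith [(hb j).1, (hb j).2.1], (hb j).2.1⟩, (hb j).2.2⟩)
    (fun j => ⟨(LipschitzWith.of_dist_le' (K := B) fun x y => by
      simpa [Real.dist_eq] using (hg j).1.lip y (x - y)).continuous, (hg j).2.2.2⟩) hΛ
    (by
      rw [hU]
      exact hH.inh hI subset_rfl le_rfl _ Sum.inl ⟨Sum.inl_injective, fun _ => rfl⟩
        (fun _ ω => Zs (ω.1 ∘ Sum.inr)) (fun _ => hid Zs) fun _ _ _ => rfl) hd
  have r4 : C * Fintype.card J / max Λ0 (3 * C * K / ε) ≤ ε / 3 := by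
    have := le_max_right Λ0 (3 * C * K / ε)
    rw [div_le_iff₀ hε] at this
    rw [div_le_iff₀ (by linarith)]
    nlinarith [mul_le_mul_of_nonneg_left hKr hC0]
  rw [abs_le] at r1 r2 r3 ⊢
  constructor <;> linarith [r1.1, r1.2, r2.1, r2.2, r3.1, r3.2]

end Vale.Agent.P166
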