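import Vale.Agent.P166.Lb

namespace Vale.Agent.P166

open MeasureTheory Finset Real Filter Vale.Agent.P157

noncomputable section

namespace Ub

open Lb (pn_nn pn_mid vb_box box_mid box_sub exlp)

variable {κ : Type} [DecidableEq κ] {N Ds n : ℕ}

abbrev RR (N Ds n : ℕ) : Type := Fin N × (Fin Ds × Fin n)

def lvR (N Ds n : ℕ) (r : RR N Ds n) : ℕ := r.2.2

def cl (c : Fin N → κ) (k : κ) : Finset (Fin N) := univ.filter (fun i => c i = k)

def mm (c : Fin N → κ) (τ : κ) : ℕ := (univ.filter (fun i => c i ≠ τ)).card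

def cnt (c : Fin N → κ) (τ : κ) : ℕ := ((univ.image c).erase τ).card

lemma levok : LevOk n (lvR N Ds n) := fun r => r.2.2.2

lemma cl_le (c : Fin N → κ) (k : κ) : ((cl c k).card : ℝ) ≤ N := by
  have := card_le_univ (cl c k)
  rw [Fintype.card_fin] at this
  exact_mod_cast this

/-- labels and eigenvalues -/
structure Sc (τ : κ) (Γ g0 η : ℝ) (c : Fin N → κ) (lam : κ → ℝ) : Prop where
  bd : ∀ k, |lam k| ≤ Γ
  top : η * N ≤ (cl c τ).card
  gap : ∀ i, c i ≠ τ → η * N * g0 ≤ (cl c τ).card * (lam τ - lam (c i))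

/-- site fields -/
structure Sa (Wb η1 : ℝ) (a : RR N Ds n → ℝ) (q : ℕ → ℝ) (t : ℕ) : Prop where
  z : ∀ r, t ≤ r.1 → a r = 0
  sm : ∀ r, |a r| ≤ η1
  var : ∀ d, d < n → ∑ r ∈ univ.filter (fun r => lvR N Ds n r = d), a r ^ 2 = q d - q (d + 1)
  pa : Path n q
  q0 : N * q 0 ≤ t * Wb

variable {τ : κ} {Γ g0 η η' Wb η1 : ℝ} {c : Fin N → κ} {lam : κ → ℝ}

lemma Sc.gap' (h : Sc τ Γ g0 η c lam) (hN : 1 ≤ N) (hη : 0 < η) (hg : 0 < g0) (i : Fin N)
    (hi : c i ≠ τ) : lam (c i) + g0 * η ≤ lam τ := by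
  have hN0 : (0 : ℝ) < N := by exact_mod_cast hN
  have h1 := h.gap i hi
  have h2 := cl_le c τ
  have h3 : 0 < η * N * g0 := by positivity
  have h4 : 0 ≤ lam τ - lam (c i) := by
    by_contra h5
    have := mul_nonpos_of_nonneg_of_nonpos (Nat.cast_nonneg (α := ℝ) (cl c τ).card)
      (not_le.1 h5).le
    linarith
  have h5 := mul_le_mul_of_nonneg_right h2 h4
  by_contra h6
  have := mul_lt_mul_of_pos_left (show lam τ - lam (c i) < g0 * η by linarith) hN0
  linarith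

lemma al_eq (c : Fin N → κ) (lam : κ → ℝ) (k : κ) : (s0 c lam).al k = (cl c k).card / N := by
  unfold Sys.al
  rw [Fintype.card_fin]
  rfl

lemma Sc.wt [Fintype κ] (h : Sc τ Γ g0 η c lam) (hN : 1 ≤ N) (hη : 0 < η) (hg : 0 < g0) :
    Wt (s0 c lam).al lam τ Γ η := by
  have hN0 : (0 : ℝ) < N := by exact_mod_cast hN
  refine ⟨fun k => by rw [al_eq]; positivity, ?_, ?_, h.bd, fun k hk => ?_⟩
  · simp only [al_eq]
    unfold cl
    rw [← sum_div, div_eq_one_iff_eq hN0.ne', ← Nat.cast_sum,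
      ← card_eq_sum_card_fiberwise (s := univ) (t := univ) (f := c) (fun _ _ => mem_univ _)]
    simp
  · rw [al_eq, le_div_iff₀ hN0]
    exact h.top
  · rw [al_eq] at hk
    obtain ⟨i, hi⟩ : (cl c k).Nonempty := by
      rw [← card_pos]
      exact_mod_cast (div_pos_iff_of_pos_right hN0).1 hk
    obtain rfl := (mem_filter.1 hi).2
    by_cases h1 : c i = τ
    · rw [h1]
    · have := h.gap' hN hη hg i h1
      have : 0 < g0 * η := by positivity
      linarith

lemma Sc.reg (h : Sc τ Γ g0 η c lam) (hN : 1 ≤ N) (hη : 0 < η) (hg : 0 < g0) (h1 : η' ≤ η)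
    (h2 : ∀ i, c i ≠ τ → η' * N ≤ (cl c (c i)).card) : (s0 c lam).Reg τ Γ (g0 * η) (η' * N) := by
  have h3 : η' * N ≤ (cl c τ).card :=
    (mul_le_mul_of_nonneg_right h1 (Nat.cast_nonneg _)).trans h.top
  refine ⟨h.bd, h3, ?_, ?_⟩
  · rintro k ⟨i, hi⟩
    obtain rfl : c i = k := (mem_filter.1 hi).2
    by_cases h4 : c i = τ
    · rw [h4]; exact h3
    · exact h2 i h4
  · rintro k hk ⟨i, hi⟩
    obtain rfl : c i = k := (mem_filter.1 hi).2
    exact h.gap' hN hη hg i hk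

section
variable {c' : Fin N → κ}

lemma cl_sub (h : ∀ i, c' i = τ ∨ c' i = c i) {k : κ} (hk : k ≠ τ) : cl c' k ⊆ cl c k := by
  intro i hi
  have h1 := (mem_filter.1 hi).2
  refine mem_filter.2 ⟨mem_univ _, ?_⟩
  rcases h i with h2 | h2
  · exact absurd (h1.symm.trans h2) hk
  · exact h2.symm.trans h1

lemma cl_top (h : ∀ i, c' i = τ ∨ c' i = c i) : cl c τ ⊆ cl c' τ := by
  intro i hi
  have h1 := (mem_filter.1 hi).2
  refine mem_filter.2 ⟨mem_univ _, ?_⟩
  rcases h i with h2 | h2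
  · exact h2
  · exact h2.trans h1

lemma nz_sub (h : ∀ i, c' i = τ ∨ c' i = c i) :
    (univ.image c').erase τ ⊆ (univ.image c).erase τ := by
  intro k hk
  obtain ⟨h1, h2⟩ := mem_erase.1 hk
  obtain ⟨i, -, rfl⟩ := mem_image.1 h2
  exact mem_erase.2 ⟨h1, mem_image.2 ⟨i, mem_univ _, ((h i).resolve_left h1).symm⟩⟩

lemma mm_lt (h : ∀ i, c' i = τ ∨ c' i = c i) {i : Fin N} (h1 : c i ≠ τ) (h2 : c' i = τ) :
    mm c' τ < mm c τ := by
  refine card_lt_card ⟨fun j hj => ?_, fun h3 => ?_⟩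
  · have h4 := (mem_filter.1 hj).2
    exact mem_filter.2 ⟨mem_univ _, (h j).resolve_left h4 ▸ h4⟩
  · exact (mem_filter.1 (h3 (mem_filter.2 ⟨mem_univ i, h1⟩))).2 h2

end

omit [DecidableEq κ] in
lemma upd_or (c : Fin N → κ) (i : Fin N) (τ : κ) (j : Fin N) :
    Function.update c i τ j = τ ∨ Function.update c i τ j = c j := by
  by_cases h : j = i
  · left; rw [h, Function.update_self]
  · right; rw [Function.update_of_ne h]

lemma cl_upd {i : Fin N} (hi : c i ≠ τ) :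
    ((cl (Function.update c i τ) τ).card : ℝ) = (cl c τ).card + 1 := by
  have : cl (Function.update c i τ) τ = insert i (cl c τ) := by
    ext j
    by_cases h : j = i
    · simp [cl, h]
    · simp [cl, h]
  rw [this, card_insert_of_notMem (by simp [cl, hi])]
  push_cast
  rfl

lemma cl_upd' (c : Fin N → κ) (i : Fin N) (τ k : κ) :
    ((cl c k).card : ℝ) ≤ (cl (Function.update c i τ) k).card + 1 := by
  have : cl c k ⊆ insert i (cl (Function.update c i τ) k) := by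
    intro j hj
    by_cases h : j = i
    · simp [h]
    · simpa [cl, h] using hj
  exact_mod_cast (card_le_card this).trans (card_insert_le _ _)

lemma Sc.upd (h : Sc τ Γ g0 η c lam) {i : Fin N} (hi : c i ≠ τ)
    (hmax : ∀ j, c j ≠ τ → lam (c j) ≤ lam (c i)) :
    Sc τ Γ g0 η (Function.update c i τ) (Function.update lam τ
      (((cl c τ).card * lam τ + lam (c i)) / ((cl c τ).card + 1))) := by
  have h0 : (0 : ℝ) ≤ (cl c τ).card := Nat.cast_nonneg _
  refine ⟨fun k => ?_, by rw [cl_upd hi]; linarith [h.top], fun j hj => ?_⟩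
  · by_cases hk : k = τ
    · rw [hk, Function.update_self, abs_div, abs_of_pos (by positivity : (0 : ℝ) < _ + 1),
        div_le_iff₀ (by positivity)]
      refine (abs_add_le _ _).trans ?_
      rw [abs_mul, abs_of_nonneg h0]
      have := mul_le_mul_of_nonneg_left (h.bd τ) h0
      linarith [h.bd (c i)]
    · rw [Function.update_of_ne hk]; exact h.bd k
  · have h1 := (upd_or c i τ j).resolve_left hj
    rw [h1] at hj ⊢
    rw [cl_upd hi, Function.update_self, Function.update_of_ne hj, mul_sub,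
      mul_div_cancel₀ _ (by positivity)]
    linarith [h.gap j hj, hmax j hj]

lemma Sc.up {c' : Fin N → κ} (h : Sc τ Γ g0 η c lam) (hN : 1 ≤ N) (hη : 0 < η) (hg : 0 < g0)
    (h1 : ∀ i, c' i = τ ∨ c' i = c i) : Sc τ Γ g0 η c' lam := by
  have h2 : ((cl c τ).card : ℝ) ≤ (cl c' τ).card := by exact_mod_cast card_le_card (cl_top h1)
  refine ⟨h.bd, h.top.trans h2, fun j hj => ?_⟩
  have h3 := (h1 j).resolve_left hj
  rw [h3] at hj ⊢
  have h4 := h.gap' hN hη hg j hj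
  have h5 : 0 < g0 * η := by positivity
  exact (h.gap j hj).trans (mul_le_mul_of_nonneg_right h2 (by linarith))

lemma act_eq {a : RR N Ds n → ℝ} (t : Fin N) (hz : ∀ s, a (t, s) = 0) (W : ℕ → ℝ)
    (r : RR N Ds n) : act a (fun s => (t, s)) W N Ds r =
      if r.1 = t then √((W r.2.2 - W (r.2.2 + 1)) / (N * Ds : ℝ)) else a r := by
  obtain ⟨t', s'⟩ := r
  unfold act
  by_cases h : t' = t
  · subst h
    rw [if_pos rfl, hz, zero_add, sum_eq_single s' (fun s _ hs => if_neg (by simp [hs]))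
      (fun h => absurd (mem_univ _) h), if_pos ⟨rfl, s'.1.2⟩]
  · rw [if_neg h, sum_eq_zero (fun s _ => if_neg (by simp [Ne.symm h])), add_zero]

lemma Sa.act (hT : TApi) {a : RR N Ds n → ℝ} {q W : ℕ → ℝ} {t : ℕ} (h : Sa Wb η1 a q t)
    (ht : t < N) (hD : 1 ≤ Ds) (hW : Path n W) (hW0 : W 0 ≤ Wb) (h1 : 0 ≤ η1)
    (h2 : Wb ≤ η1 ^ 2 * Ds) :
    Sa Wb η1 (act a (fun s => (⟨t, ht⟩, s)) W N Ds) (fun d => q d + W d / N) (t + 1) := by
  have hN0 : (1 : ℝ) ≤ N := by exact_mod_cast (by omega : 1 ≤ N)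
  have hD0 : (0 : ℝ) < Ds := by exact_mod_cast hD
  have hz : ∀ s, a (⟨t, ht⟩, s) = 0 := fun s => h.z _ le_rfl
  have hnn : ∀ l : Fin n, 0 ≤ (W l - W (l + 1)) / (N * Ds : ℝ) := fun l =>
    div_nonneg (sub_nonneg.2 (hW.1 l l.2)) (by positivity)
  refine ⟨fun r hr => ?_, fun r => ?_, fun d hd => ?_, ⟨fun d hd => ?_, ?_⟩, ?_⟩
  · rw [act_eq _ hz, if_neg (fun h3 => by rw [h3] at hr; simp at hr)]
    exact h.z r (by omega)
  · rw [act_eq _ hz]
    split_ifs
    · rw [abs_of_nonneg (sqrt_nonneg _), sqrt_le_left h1, div_le_iff₀ (by positivity)]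
      have a1 := (hT.nn hW r.2.2 r.2.2.2.le).2
      have a2 := (hT.nn hW (r.2.2 + 1) r.2.2.2).1
      have a3 := mul_le_mul_of_nonneg_left hN0 (show 0 ≤ η1 ^ 2 * Ds by positivity)
      linarith
    · exact h.sm r
  · have e1 : ∀ r : RR N Ds n, P166.act a (fun s => (⟨t, ht⟩, s)) W N Ds r ^ 2 = a r ^ 2 +
        if r.1 = ⟨t, ht⟩ then (W r.2.2 - W (r.2.2 + 1)) / (N * Ds : ℝ) else 0 := by
      intro r
      rw [act_eq _ hz]
      split_ifs with h3
      · rw [sq_sqrt (hnn _), h.z r (by rw [h3]), zero_pow two_ne_zero, zero_add]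
      · rw [add_zero]
    simp only [e1]
    rw [sum_add_distrib, h.var d hd, sum_filter, Fintype.sum_prod_type,
      sum_eq_single ⟨t, ht⟩ (fun t' _ h3 => sum_eq_zero fun s _ => by simp [h3])
        (fun h => absurd (mem_univ _) h), Fintype.sum_prod_type]
    have e2 : ∀ x : Fin Ds, ∑ l : Fin n, (if (l : ℕ) = d then
        (W l - W (l + 1)) / (N * Ds : ℝ) else 0) = (W d - W (d + 1)) / (N * Ds : ℝ) := fun x => by
      rw [sum_eq_single (⟨d, hd⟩ : Fin n) _ (fun h => absurd (mem_univ _) h), if_pos rfl]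
      exact fun l _ h3 => if_neg (fun h4 => h3 (Fin.ext h4))
    simp only [lvR, if_true]
    rw [sum_congr rfl (fun x _ => e2 x)]
    rw [sum_const, card_univ, Fintype.card_fin, nsmul_eq_mul]
    field_simp
    ring
  · have := div_le_div_of_nonneg_right (hW.1 d hd) (show (0 : ℝ) ≤ N by positivity)
    linarith [h.pa.1 d hd]
  · simp only [h.pa.2, hW.2, zero_div, add_zero]
  · rw [mul_add, mul_div_cancel₀ _ (by positivity)]
    push_cast
    linarith [h.q0]

variable [Fintype κ]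

/-- the bound propagated along the interpolation -/
def val (n : ℕ) (τ : κ) (p : ℕ → ℝ) (S e1 e2 : ℝ) (c : Fin N → κ) (lam : κ → ℝ) (q : ℕ → ℝ) : ℝ :=
  N * (tr n (gD (s0 c lam).al lam τ) p + q 0 / 2 - ip n p q + S) + mm c τ * e1 + cnt c τ * (N * e2)

lemma tr_pure (hT : TApi) (hD : DApi) (h : Sc τ Γ g0 η c lam) (hN : 1 ≤ N) (hη : 0 < η)
    (hg : 0 < g0) (hc : ∀ i, c i = τ) {p : ℕ → ℝ} (hp : Path n p) (hp0 : p 0 = 1) :
    tr n (gD (s0 c lam).al lam τ) p = lam τ / 2 := by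
  have hN0 : (0 : ℝ) < N := by exact_mod_cast hN
  have h1 := h.wt hN hη hg
  have h2 : Wt (s0 c lam).al lam τ Γ 1 := ⟨h1.nn, h1.sum, by
    rw [al_eq, cl, filter_true_of_mem (fun i _ => hc i), card_univ, Fintype.card_fin,
      div_self hN0.ne'], h1.bd, h1.le⟩
  rw [← hT.fp_zero, hT.fp_congr (g := fun x => lam τ / 2 * x + 0 * x + 0) hp
    (fun x hx _ => by rw [hD.pure h2 x hx]; ring), hT.fp_lin n (fun x => x) (fun x => x),
    hT.fp_id hp 0 (Nat.zero_le _), hp0]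
  ring

lemma tr_up (hT : TApi) (hO : OddStmt) {c' : Fin N → κ} (h : Sc τ Γ g0 η c lam) (hN : 1 ≤ N)
    (hη : 0 < η) (hg : 0 < g0) (B : Finset (Fin N)) (h1 : ∀ i, c' i = τ ∨ c' i = c i)
    (h2 : ∀ i, i ∉ B → c' i = c i) {e e2 : ℝ} (he : 0 ≤ e) (he2 : 0 ≤ e2) (hB : B.card ≤ e * N)
    (h3 : e * Γ ≤ e2 * η) {p : ℕ → ℝ} (hp : Path n p) (hp0 : p 0 = 1) :
    tr n (gD (s0 c' lam).al lam τ) p ≤ tr n (gD (s0 c lam).al lam τ) p + e2 := by
  have hN0 : (0 : ℝ) < N := by exact_mod_cast hN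
  have key := hT.inc hp hp0.le (hO.2 κ _ _ lam τ Γ η η e (2 * e2) 1 (h.wt hN hη hg)
    ((h.up hN hη hg h1).wt hN hη hg) he (by positivity) (fun s => ?_) (by linarith))
  · rw [hp0] at key
    linarith
  · have e1 : e = ∑ k, if k = τ then e else 0 := by simp
    unfold tl
    rw [e1, ← sum_add_distrib]
    refine sum_le_sum fun k _ => ?_
    by_cases hk : k = τ
    · rw [if_pos hk, hk]
      split_ifs
      · rw [al_eq, al_eq, div_add' _ _ _ hN0.ne']
        refine div_le_div_of_nonneg_right ?_ hN0.le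
        have h4 : cl c' τ ⊆ cl c τ ∪ B := fun i hi => by
          by_cases h5 : i ∈ B
          · exact mem_union_right _ h5
          · exact mem_union_left _ (mem_filter.2 ⟨mem_univ _, h2 i h5 ▸ (mem_filter.1 hi).2⟩)
        have h5 : ((cl c' τ).card : ℝ) ≤ (cl c τ).card + B.card := by
          exact_mod_cast (card_le_card h4).trans (card_union_le _ _)
        linarith
      · linarith
    · rw [if_neg hk, add_zero]
      split_ifs
      · rw [al_eq, al_eq]
        exact div_le_div_of_nonneg_right (by exact_mod_cast card_le_card (cl_sub h1 hk)) hN0.le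
      · exact le_rfl

lemma ip_add (n : ℕ) (p q W : ℕ → ℝ) (x : ℝ) :
    ip n p (fun d => q d + W d / x) = ip n p q + ip n p W / x := by
  unfold ip
  rw [mul_div_assoc, ← mul_add, sum_div, ← sum_add_distrib]
  congr 1
  exact sum_congr rfl fun d _ => by ring

lemma ind (hT : TApi) (hD : DApi) (hO : OddStmt) (hM : MxStmt) (hNe : NearStmt)
    {ν : Measure (OG (Fin N))} {D : ℕ} {lp S e1 e2 : ℝ} {p : ℕ → ℝ} (hν : Haar ν) (hn : 1 ≤ n)
    (hN : 1 ≤ N) (hDs : 1 ≤ Ds) (hη : 0 < η) (hg : 0 < g0) (hl : 0 < lp) (hη' : 0 ≤ η')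
    (hη'1 : η' ≤ η) (hη'2 : 1 ≤ η' * N) (hη'3 : 2 * η' * Γ ≤ e2 * η) (he1 : 0 ≤ e1) (he2 : 0 ≤ e2)
    (hv : 16 * n * lp ^ 2 ≤ g0 * η) (h1 : 0 ≤ η1) (h2 : Wb ≤ η1 ^ 2 * Ds) (hp : Path n p)
    (hp0 : p 0 = 1)
    (hbase : ∀ (c : Fin N → κ) lam (a : RR N Ds n → ℝ) q t y, (∀ i, c i = τ) → t ≤ N →
      Sa Wb η1 a q t → Box n 0 (4 * lp) y → (sF c lam (lvR N Ds n) a).T ν D n y ≤
        N * (lam τ / 2 + q 0 / 2 - ip n p q + S))
    (hst : ∀ (c : Fin N → κ) (lam lam' : κ → ℝ) (i : Fin N) (a : RR N Ds n → ℝ)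
      (f : Fin Ds × Fin n → RR N Ds n) (y : κ → ℕ → ℝ), c i ≠ τ →
      lam' = Function.update lam τ (((cl c τ).card * lam τ + lam (c i)) / ((cl c τ).card + 1)) →
      (s0 c lam).Reg τ Γ (g0 * η) (η' * N) →
      (s0 (Function.update c i τ) lam').Reg τ Γ (g0 * η) (η' * N) →
      Emb (fun s : Fin Ds × Fin n => (s.2 : ℕ)) (lvR N Ds n) f → (∀ s, a (f s) = 0) →
      NM n N lp ((sF c lam (lvR N Ds n) a).T ν D n) y 0 →
      ∃ W : ℕ → ℝ, Path n W ∧ W 0 ≤ Wb ∧ (sF c lam (lvR N Ds n) a).T ν D n y ≤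
        (sF (Function.update c i τ) lam' (lvR N Ds n) (act a f W N Ds)).T ν D n y +
          N * (tr n (gD (s0 c lam).al lam τ) p -
            tr n (gD (s0 (Function.update c i τ) lam').al lam' τ) p) - W 0 / 2 + ip n p W + e1)
    (m : ℕ) : ∀ (c : Fin N → κ) lam (a : RR N Ds n → ℝ) q t y, mm c τ = m → t + m ≤ N →
      Sc τ Γ g0 η c lam → Sa Wb η1 a q t → Box n 0 (4 * lp) y →
      (sF c lam (lvR N Ds n) a).T ν D n y - pn n N lp y ≤ val n τ p S e1 e2 c lam q := by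
  have hN0 : (0 : ℝ) < N := by exact_mod_cast hN
  induction m using Nat.strong_induction_on with
  | _ m ih =>
  intro c lam a q t y hm ht hc ha hy
  by_cases h0 : ∀ i, c i = τ
  · have a1 := hbase c lam a q t y h0 (by omega) ha hy
    have a2 := pn_nn n N lp y
    have a3 : (0 : ℝ) ≤ mm c τ * e1 := by positivity
    have a4 : (0 : ℝ) ≤ cnt c τ * (N * e2) := by positivity
    unfold val
    rw [tr_pure hT hD hc hN hη hg h0 hp hp0]
    linarith
  have hlev : ∀ c lam a, LevOk n (sF (I := Fin N) (κ := κ) c lam (lvR N Ds n) a).levs :=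
    fun _ _ _ s => levok s.2
  by_cases hs : ∃ i, c i ≠ τ ∧ ((cl c (c i)).card : ℝ) < η' * N + 1
  · obtain ⟨i, hi, hi2⟩ := hs
    have a1 := (hNe κ (Fin N) _ ν (sF c lam (lvR N Ds n) a) D n y (cl c (c i)) τ _ Γ hν hn
      (hlev c lam a) (vb_box hy) hc.bd (fun j _ hj => by
        have := hc.gap' hN hη hg j hj
        exact le_trans (add_le_add le_rfl hv) this)).1
    have b1 : ∀ j, (if j ∈ cl c (c i) then τ else c j) = τ ∨
        (if j ∈ cl c (c i) then τ else c j) = c j := fun j => by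
      split_ifs
      · exact Or.inl rfl
      · exact Or.inr rfl
    have b2 := mm_lt b1 hi (if_pos (show i ∈ cl c (c i) from mem_filter.2 ⟨mem_univ _, rfl⟩))
    have a2 := ih _ (hm ▸ b2) _ lam a q t y rfl (by omega) (hc.up hN hη hg b1) ha hy
    have a3 := tr_up hT hO hc hN hη hg (cl c (c i)) b1 (fun j hj => if_neg hj) (e := 2 * η')
      (by positivity) he2 (by linarith) hη'3 hp hp0
    have b3 : cnt (fun j => if j ∈ cl c (c i) then τ else c j) τ < cnt c τ := by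
      refine card_lt_card ⟨nz_sub b1, fun h3 => ?_⟩
      obtain ⟨j, -, hj⟩ := mem_image.1 (mem_of_mem_erase (h3 (mem_erase.2
        ⟨hi, mem_image.2 ⟨i, mem_univ _, rfl⟩⟩)))
      split_ifs at hj with h4
      · exact hi hj.symm
      · exact h4 (mem_filter.2 ⟨mem_univ _, hj⟩)
    have b4 : ((cnt (fun j => if j ∈ cl c (c i) then τ else c j) τ : ℝ) + 1) * (N * e2) ≤
        cnt c τ * (N * e2) := mul_le_mul_of_nonneg_right (by exact_mod_cast b3) (by positivity)
    have b5 : (mm (fun j => if j ∈ cl c (c i) then τ else c j) τ : ℝ) * e1 ≤ mm c τ * e1 :=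
      mul_le_mul_of_nonneg_right (by exact_mod_cast b2.le) he1
    have b6 := mul_le_mul_of_nonneg_left a3 hN0.le
    have a4 : ((sF c lam (lvR N Ds n) a).up (cl c (c i)) τ).T ν D n y =
      (sF (fun j => if j ∈ cl c (c i) then τ else c j) lam (lvR N Ds n) a).T ν D n y := rfl
    unfold val at a2 ⊢
    linarith
  · obtain ⟨i, hi, hmax⟩ := exists_max_image (univ.filter (fun i => c i ≠ τ)) (fun i => lam (c i))
      (by
        obtain ⟨i, hi⟩ := not_forall.1 h0
        exact ⟨i, mem_filter.2 ⟨mem_univ _, hi⟩⟩)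
    replace hi := (mem_filter.1 hi).2
    have hc' := hc.upd hi fun j hj => hmax j (mem_filter.2 ⟨mem_univ _, hj⟩)
    have hbig : ∀ j, c j ≠ τ → η' * N + 1 ≤ (cl c (c j)).card := fun j hj =>
      not_lt.1 fun h3 => hs ⟨j, hj, h3⟩
    have b2 := mm_lt (upd_or c i τ) hi (Function.update_self ..)
    have htN : t < N := by omega
    obtain ⟨y1, hy1⟩ := hM κ (Fin N) _ ν (sF c lam (lvR N Ds n) a) D n N lp hν hn (hlev c lam a) hl
      (Fintype.card_fin N).le
    obtain ⟨W, w1, w2, w3⟩ := hst c lam _ i a (fun s => (⟨t, htN⟩, s)) y1 hi rfl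
      (hc.reg hN hη hg hη'1 fun j hj => by linarith [hbig j hj])
      (hc'.reg hN hη hg hη'1 fun j hj => by
        have h3 := (upd_or c i τ j).resolve_left hj
        rw [h3] at hj ⊢
        linarith [hbig j hj, cl_upd' c i τ (c j)])
      ⟨fun s s' h3 => (Prod.ext_iff.1 h3).2, fun s => rfl⟩ (fun s => ha.z _ le_rfl) hy1
    have a2 := ih _ (hm ▸ b2) _ _ _ _ (t + 1) y1 rfl (by omega) hc'
      (ha.act hT htN hDs w1 w2 h1 h2) (box_sub hl hy1.1)
    have a3 := hy1.2 y hy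
    have b4 : (cnt (Function.update c i τ) τ : ℝ) * (N * e2) ≤ cnt c τ * (N * e2) :=
      mul_le_mul_of_nonneg_right (by exact_mod_cast card_le_card (nz_sub (upd_or c i τ)))
        (by positivity)
    have b5 : ((mm (Function.update c i τ) τ : ℝ) + 1) * e1 ≤ mm c τ * e1 :=
      mul_le_mul_of_nonneg_right (by exact_mod_cast b2) he1
    have b6 : N * (W 0 / N) = W 0 := mul_div_cancel₀ _ hN0.ne'
    have b7 : N * (ip n p W / N) = ip n p W := mul_div_cancel₀ _ hN0.ne'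
    unfold val at a2 ⊢
    rw [ip_add] at a2
    linarith

end Ub

open Ub in
open Lb (pn_mid vb_box box_mid exlp) in
theorem ubStmt (hM : MxStmt) (hU : UstStmt) (hNe : NearStmt) (hO : OddStmt) (hE : EndStmt)
    (hP : PdStmt) (hT : TApi) (hD : DApi) (hBdd : BddStmt) : UbStmt := by
  intro κ _ _ τ lam g0 η ε ν hg hl hη hε hν
  obtain ⟨Γ, hΓ0, hΓ⟩ : ∃ Γ : ℝ, 0 < Γ ∧ ∀ k, |lam k| ≤ Γ :=
    ⟨∑ k, |lam k| + 1, by positivity, fun k =>
      (single_le_sum (f := fun k => |lam k|) (fun _ _ => abs_nonneg _) (mem_univ k)).trans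
        (by linarith)⟩
  obtain ⟨e2, he2, he3⟩ : ∃ e2 : ℝ, 0 < e2 ∧ Fintype.card κ * e2 ≤ ε / 4 := by
    refine ⟨ε / (4 * (Fintype.card κ + 1)), by positivity, ?_⟩
    rw [← mul_div_assoc, div_le_div_iff₀ (by positivity) (by positivity)]
    linarith
  obtain ⟨η', h1, h2, h3⟩ : ∃ η' : ℝ, 0 < η' ∧ η' ≤ η ∧ 2 * η' * Γ ≤ e2 * η := by
    refine ⟨min η (e2 * η / (2 * Γ)), by positivity, min_le_left _ _, ?_⟩
    have := min_le_right η (e2 * η / (2 * Γ))
    rw [le_div_iff₀ (by positivity)] at this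
    linarith
  obtain ⟨Wb, hWb, hU⟩ := hU Γ (g0 * η) η' (by positivity) h1
  obtain ⟨v0, hv0, n0, hU⟩ := hU (ε / 4) (by positivity)
  obtain ⟨C, -, hP⟩ := hP
  filter_upwards [eventually_ge_atTop n0, eventually_ge_atTop 1] with n hn0 hn
  obtain ⟨η1, hη1, hP⟩ := hP n Wb (ε / 8) hn (by positivity)
  obtain ⟨lp, hl0, hl1, hl2⟩ := exlp n (show 0 < min v0 (min (g0 * η) (ε / 4)) by positivity)
  obtain ⟨hl2, hl3⟩ := le_min_iff.1 hl2
  obtain ⟨hl3, hl4⟩ := le_min_iff.1 hl3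
  obtain ⟨N0, hU⟩ := hU n hn0 hn lp hl0 hl1 hl2
  filter_upwards [eventually_ge_atTop N0, eventually_ge_atTop 1,
    tendsto_natCast_atTop_atTop.eventually_ge_atTop (1 / η')] with N hN0 hN hN1
  obtain ⟨D, hU⟩ := hU N hN0
  intro c hc
  have hNp : (0 : ℝ) < N := by exact_mod_cast hN
  rw [div_le_iff₀' h1] at hN1
  obtain ⟨Ds, hD1, hD2, hD3⟩ : ∃ Ds : ℕ, D ≤ Ds ∧ 1 ≤ Ds ∧ Wb ≤ η1 ^ 2 * Ds := by
    refine ⟨D + 1 + ⌈Wb / η1 ^ 2⌉₊, by omega, by omega, ?_⟩
    rw [← div_le_iff₀' (by positivity)]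
    exact (Nat.le_ceil _).trans (by exact_mod_cast by omega)
  obtain ⟨t, ⟨p, hp, hp0, rfl⟩, ht⟩ := exists_lt_of_csInf_lt
    (s := vals n (gD (s0 c lam).al lam τ))
    ⟨_, fun d => if d = 0 then 1 else 0,
      ⟨fun d _ => by by_cases h : d = 0 <;> simp [h], if_neg (by omega)⟩, if_pos rfl, rfl⟩
    (show sInf _ < VD n (s0 c lam).al lam τ + ε / 8 from by unfold VD; linarith)
  have key := ind (Ds := Ds) (D := D) (S := sSup (dualSet n p) + ε / 4) (e1 := ε / 4) hT hD hO hM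
    hNe (hν N) hn hN hD2 hη hg hl0 h1.le h2 hN1 h3 (by positivity) he2.le hl3 hη1.le hD3 hp hp0
    (fun c lam a q t y h0 ht ha hy => by
      have a1 := ((hE κ (Fin N) (ν N) c lam D n y _ (hν N) hn (vb_box hy)).2.2.2 _ _ levok).2
        a τ h0
      have a2 := (abs_le.1 (hP _ (lvR N Ds n) a q 0 0 ha.pa (by
        have b1 := ha.q0.trans (mul_le_mul_of_nonneg_right
          (show (t : ℝ) ≤ N by exact_mod_cast ht) hWb)
        exact le_of_mul_le_mul_left b1 hNp) hn le_rfl zero_le_one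
        ⟨levok, ha.sm, fun d hd => by rw [ha.var d hd, sub_self, abs_zero]; exact hη1.le⟩).1).2
      have a3 := le_csSup (hBdd n p hn hp hp0).1 ⟨q, ha.pa, rfl⟩
      rw [Fintype.card_fin] at a1
      exact a1.trans (mul_le_mul_of_nonneg_left (by linarith) hNp.le))
    (fun c lam lam' i a f y b1 b2 b3 b4 b5 b6 b7 =>
      hU D Ds le_rfl hD1 κ _ (ν N) c lam lam' τ i _ a f p y (hν N) b1 b2 b3 b4 levok b5 b6 hp hp0 b7)
    _ c lam (fun _ => 0) (fun _ => 0) 0 _ rfl
    (by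
      have := card_le_univ (univ.filter (fun i => c i ≠ τ))
      rw [Fintype.card_fin] at this
      rw [zero_add]; exact this)
    ⟨hΓ, hc, fun i hi => mul_le_mul hc (by linarith [hl _ hi]) hg.le (Nat.cast_nonneg _)⟩
    ⟨fun _ _ => rfl, fun _ => by rw [abs_zero]; exact hη1.le, fun d _ => by simp,
      ⟨fun _ _ => le_rfl, rfl⟩, by simp⟩ (box_mid n hl0)
  have a1 := ((hE κ (Fin N) (ν N) c lam D n _ _ (hν N) hn (vb_box (box_mid n hl0))).2.2.2 _ _
    (levok (N := N) (Ds := Ds))).1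
  have a2 : (mm c τ : ℝ) ≤ N := by
    have := card_le_univ (univ.filter (fun i => c i ≠ τ))
    rw [Fintype.card_fin] at this
    exact_mod_cast this
  have a3 : (cnt c τ : ℝ) ≤ Fintype.card κ := by exact_mod_cast card_le_univ _
  have a4 : ip n p (fun _ => 0) = 0 := by simp [ip]
  have a5 := mul_le_mul_of_nonneg_right a2 (show 0 ≤ ε / 4 by positivity)
  have a6 := mul_le_mul_of_nonneg_right a3 (show 0 ≤ N * e2 by positivity)
  have a7 := mul_le_mul_of_nonneg_left he3 hNp.le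
  have a8 := mul_le_mul_of_nonneg_left ht.le hNp.le
  have a9 : 0 ≤ N * ε := by positivity
  unfold Ub.val at key
  rw [pn_mid, a4] at key
  linarith

end

end Vale.Agent.P166
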