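import Vale.Agent.P166.Ust1

/-! P166: one step of the upper bound. -/

namespace Vale.Agent.P166

open MeasureTheory Finset Real Vale.Agent.P157

noncomputable section

open Ust in
theorem ustStmt (hO : OApi) (hH : HApi) (hT : TApi) (hSwp : SwpStmt) (hNear : NearStmt)
    (hIso : IsoStmt) (hGd : GdStmt) (hTs : Ts0Stmt) (hAn : An3Stmt) (hFln : FlnStmt)
    (hFld : FldStmt) (hFam : FamStmt) : UstStmt := by
  intro Γ g0 η hg0 hη
  obtain ⟨Wb, hWb, hAn⟩ := hAn Γ η hη
  refine ⟨Wb, hWb, fun ε hε => ?_⟩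
  set G : ℝ := |Γ| + 1 with hG
  have hG0 : 0 < G := by positivity
  have hΓG : Γ ≤ G := by linarith [le_abs_self Γ]
  set μ : ℝ := ε / (6 * G) with hμ
  have hμ0 : 0 < μ := by positivity
  set e2 : ℝ := ε / (3 * (Wb + 1)) with he2
  have he20 : 0 < e2 := by positivity
  set B : ℝ := G / η with hB
  have hB0 : 0 ≤ B := by positivity
  set C1 : ℝ := 3 * B + Wb / 2 with hC1
  have hC10 : 0 ≤ C1 := by positivity
  obtain ⟨eT, heT, hTs⟩ := hTs 1 η (g0 / 2) (max (2 * G) (1 / η)) (ε / 6) hη (by positivity)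
    (by positivity)
  set e1 : ℝ := min eT (μ ^ 2) with he1
  have he10 : 0 < e1 := lt_min heT (by positivity)
  obtain ⟨nG, hGd⟩ := hGd η (exp (-(8 * B)) * e1) hη (by positivity)
  obtain ⟨vF, hvF, nF, hFam⟩ := hFam η g0 Γ e2 hη hg0 he20
  set v : ℝ := min (min vF (g0 / 2)) (min 1 (ε * η / 3)) with hv
  have hv0 : 0 < v := lt_min (lt_min hvF (by positivity)) (lt_min one_pos (by positivity))
  have hv1 : v ≤ vF := (min_le_left _ _).trans (min_le_left _ _)
  have hv2 : v ≤ g0 / 2 := (min_le_left _ _).trans (min_le_right _ _)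
  have hv3 : v ≤ 1 := (min_le_right _ _).trans (min_le_left _ _)
  have hv4 : v ≤ ε * η / 3 := (min_le_right _ _).trans (min_le_right _ _)
  refine ⟨v, hv0, max nG nF, fun n hn0 hn lp hlp hlp1 hlpv => ?_⟩
  obtain ⟨NT, hTs⟩ := hTs n hn
  obtain ⟨NG, hGd⟩ := hGd n (le_trans (le_max_left _ _) hn0) hn lp C1 hlp hlp1 hC10
  obtain ⟨NF, hFam⟩ := hFam n (le_trans (le_max_right _ _) hn0) hn lp C1 hlp hlp1
    (hlpv.trans hv1) hC10
  obtain ⟨NA, hAn⟩ := hAn n (ε / 6) hn (by positivity)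
  refine ⟨max (max NT NG) (max NF NA), fun N hN0 => ?_⟩
  have hNT : NT ≤ N := le_trans ((le_max_left _ _).trans (le_max_left _ _)) hN0
  have hNG : NG ≤ N := le_trans ((le_max_right _ _).trans (le_max_left _ _)) hN0
  have hNF : NF ≤ N := le_trans ((le_max_left _ _).trans (le_max_right _ _)) hN0
  have hNA : NA ≤ N := le_trans ((le_max_right _ _).trans (le_max_right _ _)) hN0
  obtain ⟨δ, hδ, hTs⟩ := hTs N
  obtain ⟨DI, hIso⟩ := hIso n N 3 δ hn hδ
  obtain ⟨DG, hGd⟩ := hGd N hNG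
  obtain ⟨DF, hFam⟩ := hFam N hNF
  obtain ⟨DL, hFld⟩ := hFld n N Wb (ε / 6) hn (by positivity)
  refine ⟨max (max DI DG) (max DF DL), fun D Ds hD hDs => ?_⟩
  have hDI : DI ≤ D := le_trans ((le_max_left _ _).trans (le_max_left _ _)) hD
  have hDG : DG ≤ D := le_trans ((le_max_right _ _).trans (le_max_left _ _)) hD
  have hDF : DF ≤ D := le_trans ((le_max_left _ _).trans (le_max_right _ _)) hD
  have hDL : DL ≤ Ds := le_trans ((le_max_right _ _).trans (le_max_right _ _)) hDs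
  intro κ R _ _ _ _ ν c lam lam' τ i lv a f p y hν hi hlam' hReg hReg' hlv hf ha hp hp0 hNM
  have hN : 0 < N := i.pos
  have hN' : (0 : ℝ) < N := by exact_mod_cast hN
  have hcard : Fintype.card (Fin N) = N := Fintype.card_fin N
  have hz := z_mid c lam lv a hi hlam' D n
  have hAη : η * N ≤ ((s0 (Function.update c i τ) lam).cls τ).card := hReg'.top
  have hiA : i ∈ (s0 (Function.update c i τ) lam).cls τ := by rw [mem_cls]; simp
  have hbd : ∀ k, |lam k| ≤ Γ := hReg.bd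
  have hgap : lam (c i) + g0 ≤ lam τ := hReg.gap (c i) hi ⟨i, (mem_cls c lam i _).2 rfl⟩
  have hy4 : Box n 0 (4 * lp) y := fun k l hl =>
    ⟨hlp.le.trans (hNM.1 k l hl).1, (hNM.1 k l hl).2.trans (by linarith only [hlp])⟩
  have hnear := fun y0 (hy0 : Box n 0 (4 * lp) y0) => near2 hNear hν hn c lam hlv a (i := i)
    (τ := τ) D (G := G) (vb hy0 hlpv) hη hbd (by linarith only [hgap, hv2, hg0])
    (by linarith only [hG, hv3, abs_nonneg Γ, le_abs_self Γ]) hG0.le hAη
  have s1 := swp_le hO hH hSwp hν hn c lam hlv a hi D (vb hy4 hlpv)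
  have hal1 : (s0 (Function.update c i τ) lam').al τ = (s0 c lam).al τ + 1 / N := by
    rw [al_eq, al_eq, card_top c lam lam' hi, add_div]
  have hal2 : (s0 (Function.update c i τ) lam').al (c i) = (s0 c lam).al (c i) - 1 / N := by
    rw [al_eq, al_eq, card_low c lam lam' hi, sub_div]
  have hal3 : ∀ k, k ≠ τ → k ≠ c i → (s0 (Function.update c i τ) lam').al k = (s0 c lam).al k :=
    fun k hk hk' => by rw [al_eq, al_eq, cls_oth c lam lam' hk hk']
  have hal4 : lam' τ = ((s0 c lam).al τ * lam τ + lam (c i) / N) / ((s0 c lam).al τ + 1 / N) := by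
    have : (0 : ℝ) ≤ ((s0 c lam).cls τ).card := Nat.cast_nonneg _
    rw [hlam', Function.update_self, al_eq]
    field_simp
  have hal5 : ∀ k, k ≠ τ → lam' k = lam k := fun k hk => by rw [hlam', Function.update_of_ne hk]
  have hAn' := fun q => hAn N hNA κ _ _ lam lam' τ (c i) p q hi (wt c lam hN hg0 hReg)
    (wt _ lam' hN hg0 hReg') hal1 hal2 hal3 hal4 hal5 hp hp0
  clear hal1 hal2 hal3 hal4 hal5 hlam' hAn
  have hth1 : g0 ≤ lam τ - lam (c i) := by linarith only [hgap]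
  have hth2 : lam τ - lam (c i) ≤ 2 * G := by
    linarith only [(abs_le.1 (hbd τ)).2, (abs_le.1 (hbd (c i))).1, hΓG]
  generalize lam τ - lam (c i) = th at hz s1 hAn' hth1 hth2
  have hsup : ∀ R0, Sup ((s0 (Function.update c i τ) lam).cls τ) R0 →
      Blk (Function.update c i τ) R0 :=
    fun R0 hR0 => hO.supblk _ R0 _ τ hR0 (fun j hj => (mem_cls _ lam j τ).1 hj)
  generalize Function.update c i τ = c' at *
  have hV : ∀ U σ, 0 ≤ th / 2 * rA ((s0 c' lam).cls τ) U σ σ ∧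
      th / 2 * rA ((s0 c' lam).cls τ) U σ σ ≤ B := by
    intro U σ
    have h1 := rA_bd hO _ hη hN hAη U σ
    refine ⟨mul_nonneg (by linarith only [hth1, hg0]) h1.1, ?_⟩
    calc _ ≤ G * (1 / η) := mul_le_mul (by linarith only [hth2]) h1.2 h1.1 hG0.le
      _ = B := by rw [hB]; ring
  have hmid := fun y0 => mid_bd hH hν hn c' lam lam' lv a D y0 hV (hz y0)
  have hNM0 : NM n N lp ((sF c' lam' lv a).T ν D n) y (3 * B) := ⟨hNM.1, fun y0 hy0 => by
    linarith only [hNM.2 y0 hy0, (hmid y0).1, (hnear y0 hy0).2, (hnear y hy4).1, (hmid y).2, hB]⟩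
  have hNM' : NM n N lp ((sF c' lam' lv a).T ν D n) y C1 :=
    ⟨hNM.1, fun y0 hy0 => by linarith only [hNM0.2 y0 hy0, hC1, hWb]⟩
  have habs : ∀ x : ℝ, |x - x| ≤ C1 := fun x => by rw [sub_self, abs_zero]; exact hC10
  -- the path of the top class
  obtain ⟨⟨q, hq, hq0, hpin⟩, hcn⟩ := hGd D hDG κ (Fin N) (Fin N × R) ν (sF c' lam' lv a) y τ hν
    (levs_ok hlv c' lam' a) hcard.le hReg'.top hNM'
  have hcn1 := hcn q _ hq hq0 (habs _) hpin
  have hct := (hH.ctz (sF c' lam lv a) D n y).1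
  have hcn2 : ConcH ν n ((sF c lam lv a).lev D n) ((sF c' lam lv a).Z D n y)
      ((s0 c' lam).cls τ) q e1 := by
    have h1 := conc_chg hO hH ((sF c lam lv a).lev D n) hν hn (hH.ctz (sF c' lam' lv a) D n y).1
      (V := fun U ω => th / 2 * rA ((s0 c' lam).cls τ) U ω.2 ω.2)
      (fun ω => continuous_const.mul (ct_rA hO _ ω ω)) hB0
      (fun U ω => by rw [abs_of_nonneg (hV U ω.2).1]; exact (hV U ω.2).2)
      (A := (s0 c' lam).cls τ) (p := q) (mul_pos (exp_pos _) he10).le hcn1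
    rw [← mul_assoc, ← exp_add, add_neg_cancel, exp_zero, one_mul] at h1
    have h2 : (sF c' lam lv a).Z D n y = fun U ω =>
        (sF c' lam' lv a).Z D n y U ω + th / 2 * rA ((s0 c' lam).cls τ) U ω.2 ω.2 := by
      funext U ω; exact hz y U ω
    rw [h2]; exact h1
  have hq00 : 0 ≤ q 0 := (hT.nn hq 0 (Nat.zero_le n)).1
  have hinv : InvP n ((sF c lam lv a).lev D n) ((sF c' lam lv a).Z D n y)
      (fs D n (Fin N) (Fin N × R)) {R0 | Sup ((s0 c' lam).cls τ) R0} δ := by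
    have h1 := hIso D hDI κ (Fin N) (Fin N × R) (sF c' lam lv a) y hcard.le (fun k l hl => by
      rw [abs_le]
      constructor <;> linarith only [(hNM.1 k l hl).1, (hNM.1 k l hl).2, hlp, hlp1])
    exact fun R0 hR0 => h1 R0 (hsup R0 hR0)
  have s2 := hTs _ (Fin N) ν ((sF c lam lv a).lev D n) ((sF c' lam lv a).Z D n y) _ _ {i}
    (fun _ => th - v) q hν ((hH.ctz (sF c lam lv a) D n y).2 (levs_ok hlv c lam a))
    hct (by rw [hcard]; exact hNT) hcard.le (by rw [hcard]; exact hAη)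
    (card_singleton i).le (singleton_subset_iff.2 hiA)
    (fun _ _ => ⟨by linarith only [hth1, hv2],
      le_trans (by linarith only [hth2, hv0]) (le_max_left _ _)⟩) hq
    (hq0.trans (le_max_right _ _)) hinv
    ⟨hcn2.1.trans (min_le_left _ _), hcn2.2.trans (min_le_left _ _)⟩
  rw [sum_singleton (fun _ => tr n (lg (th - v)) q) i] at s2
  have s3 : tr n (lg (th - v)) q ≤ tr n (lg th) q + v / 2 * q 0 :=
    hT.inc hq le_rfl (fun x x' hx hxx _ => by
      have h1 := (hT.phl (th - v) th x x' (by linarith only [hth1, hv2, hg0])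
        (by linarith only [hth1, hg0]) hx hxx).2.2.2.2
      rw [show th - v - th = -v by ring, abs_neg, abs_of_pos hv0] at h1
      linarith only [(abs_le.1 h1).2])
  have s4 := add_r0 hO hH ((sF c lam lv a).lev D n) hν hn hct (by linarith only [hth1, hg0])
    (hz y) hμ0.le ⟨hcn2.1.trans (min_le_right _ _), hcn2.2.trans (min_le_right _ _)⟩
  obtain ⟨W, hW, hW0, s5⟩ := hAn' q hq hq0
  refine ⟨W, hW, hW0, ?_⟩
  have s6 := hFld Ds hDL κ (Fin N) R ν D c' lam' lv a f W
    (fun l => ell n (fp n (Xi (s0 c' lam').al lam' τ) q) l - e2) y hν hcard hN hlv hf ha hW hW0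
    (fun t0 _ l hl => by
      have h3 := hFam D hDF κ (Fin N) (Fin N × R) ν (sF c' lam' lv (act a f W N t0)) y τ q _ hν
        (levs_ok hlv c' lam' _) hcard.le ⟨hReg'.bd, hReg'.top, hReg'.big, hReg'.gap⟩
        (nm_act hFln hν hn c' lam' hlv D hf ha hW hW0 hNM0 t0) hq hq0 (habs _) hpin l hl
      have h4 := (abs_le.1 h3).1
      change _ ≤ _ - ell n (fp n (Xi (s0 c' lam').al lam' τ) q) l at h4
      linarith only [h4])
  rw [tele hW] at s6
  exact fin_ineq hη hε hG0 hWb s1 s2 s3 s4 s5 s6 hth2 hμ hv4 hq00 hq0 hW0 he2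

end

end Vale.Agent.P166
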