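import Vale.Agent.P157.A
import Vale.Agent.P157.Bdd
import Vale.Agent.P157.C
import Vale.Agent.P157.Cm
import Vale.Agent.P157.Conc
import Vale.Agent.P157.Dom
import Vale.Agent.P157.F
import Vale.Agent.P157.G
import Vale.Agent.P157.G2
import Vale.Agent.P157.Gr0
import Vale.Agent.P157.Gr1
import Vale.Agent.P157.L1
import Vale.Agent.P157.Lin
import Vale.Agent.P157.Link
import Vale.Agent.P157.Mono
import Vale.Agent.P157.Ms
import Vale.Agent.P157.St1
import Vale.Agent.P166.Ag
import Vale.Agent.P166.Ah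
import Vale.Agent.P166.An2
import Vale.Agent.P166.An3
import Vale.Agent.P166.Bl
import Vale.Agent.P166.Br
import Vale.Agent.P166.Brg
import Vale.Agent.P166.Cav
import Vale.Agent.P166.Crs
import Vale.Agent.P166.Cub
import Vale.Agent.P166.Cv1
import Vale.Agent.P166.Cv2
import Vale.Agent.P166.D
import Vale.Agent.P166.Ds1
import Vale.Agent.P166.End
import Vale.Agent.P166.Fam
import Vale.Agent.P166.Fln
import Vale.Agent.P166.Gd
import Vale.Agent.P166.Gg
import Vale.Agent.P166.Gid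
import Vale.Agent.P166.Grh
import Vale.Agent.P166.Grp
import Vale.Agent.P166.Gsl
import Vale.Agent.P166.H
import Vale.Agent.P166.H1
import Vale.Agent.P166.Hr
import Vale.Agent.P166.Iso
import Vale.Agent.P166.Lb
import Vale.Agent.P166.Main
import Vale.Agent.P166.Mic
import Vale.Agent.P166.Mom
import Vale.Agent.P166.Mx
import Vale.Agent.P166.Near
import Vale.Agent.P166.Nr
import Vale.Agent.P166.O
import Vale.Agent.P166.Odd
import Vale.Agent.P166.Ord
import Vale.Agent.P166.Ou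
import Vale.Agent.P166.Pd
import Vale.Agent.P166.Pj
import Vale.Agent.P166.Psl
import Vale.Agent.P166.Q
import Vale.Agent.P166.Qo
import Vale.Agent.P166.R
import Vale.Agent.P166.Rel
import Vale.Agent.P166.Resp
import Vale.Agent.P166.Rpg
import Vale.Agent.P166.Sch
import Vale.Agent.P166.Sec
import Vale.Agent.P166.Sep
import Vale.Agent.P166.Sf
import Vale.Agent.P166.Sm
import Vale.Agent.P166.Smt
import Vale.Agent.P166.Spn
import Vale.Agent.P166.Swp
import Vale.Agent.P166.Sy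
import Vale.Agent.P166.T
import Vale.Agent.P166.Tilt
import Vale.Agent.P166.Tlg
import Vale.Agent.P166.Trn
import Vale.Agent.P166.Ts0
import Vale.Agent.P166.Tsa
import Vale.Agent.P166.Tsb
import Vale.Agent.P166.Tst
import Vale.Agent.P166.Ub
import Vale.Agent.P166.Ust

/-! P166: all modules together. -/

namespace Vale.Agent.P166

open Vale.Agent.P157

namespace Al

theorem h57L1 : L1Stmt := l1Stmt aApi
theorem h57F : FApi := fApi aApi
theorem h57G : GApi := gApi aApi cApi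
theorem h57Gr0 : Gr0Stmt := gr0Stmt aApi cApi (domStmt aApi)
theorem h57Grb : GrbStmt := grbStmt aApi cApi h57Gr0
theorem h57Ms : MsStmt := msStmt aApi cApi (st1Stmt aApi cApi h57L1) h57Grb
theorem h57Lin : LinStmt := linStmt aApi cApi
theorem h57Link : LinkStmt := linkStmt aApi cApi
theorem h57G2 : G2Stmt := g2Stmt aApi cApi h57Lin h57Link
theorem h57Conc : ConcStmt := concStmt aApi cApi h57G h57Ms h57G2
  (cmStmt aApi cApi h57G h57Ms h57Grb (monoStmt aApi cApi h57Link))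
theorem hHr : HrStmt := hrStmt
theorem hO : OApi := oApi
theorem hR : RApi := rApi aApi h57F
theorem hQ : QApi := qApi aApi h57F hR
theorem hH1 : H1Stmt := h1Stmt aApi h57F hO hR hQ
theorem hH : HApi := hApi hH1 aApi hO hR
theorem hT : TApi := tApi bddStmt
theorem hD : DApi := dApi
theorem hSm : SmStmt := smStmt
theorem hGrp : GrpStmt := grpStmt aApi h57F h57L1 hR
theorem hGrh : GrhStmt := grhStmt hR hH hGrp
theorem hIso : IsoStmt := isoStmt aApi hO hGrp
theorem hMom : MomStmt := momStmt hO hQ hH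
theorem hSmt : SmtStmt := smtStmt
theorem hOu : OuStmt := ouStmt hO hR hH hGrh
theorem hBrg : BrgStmt := brgStmt aApi cApi h57Lin hR
theorem hGid : GidStmt := gidStmt aApi hT
theorem hGtr : GtrStmt := gtrStmt aApi hT
theorem hQo : QoStmt := qoStmt aApi hR hQ hT hBrg hGid hGtr
theorem hMic : MicStmt := micStmt hBrg
theorem hTrn : TrnStmt := trnStmt hO hH hMom
theorem hCrs : CrsStmt := crsStmt hO hH hT
theorem hTsa : TsaStmt := tsaStmt hR hO hH hOu
theorem hTsb : TsbStmt := tsbStmt hR hT hQo hMic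
theorem hTst : TstStmt := tstStmt hO hH hSmt hTrn hMom hCrs hTsa hTsb
theorem hTs0 : Ts0Stmt := ts0Stmt hTst hO hR hH
theorem hResp : RespStmt := respStmt aApi hR hQ
theorem hBr : BrStmt := brStmt cApi h57Link
theorem hPd : PdStmt := pdStmt h57G h57Ms h57G2 hR hBr
theorem hPsl : PslStmt := pslStmt aApi hR hQ hBr hPd
theorem hSwp : SwpStmt := swpStmt aApi hR hQ
theorem hSy : SyStmt := syStmt hO hR hH
theorem hNear : NearStmt := nearStmt aApi hO hR hH hSwp hSy
theorem hMx : MxStmt := mxStmt aApi hO hR hQ hH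
theorem hGg : GgStmt := ggStmt aApi h57F hR
theorem hAg : AgStmt := agStmt aApi h57F
theorem hCub : CubStmt := cubStmt
theorem hAh : AhStmt := ahStmt aApi hR hH hAg hCub
theorem hGd : GdStmt := gdStmt aApi h57F hO hR hH hT hGg hAh
theorem hRel : RelStmt := relStmt hO hH hT hTst hResp hMic hSwp
theorem hFam : FamStmt := famStmt hO hH hT hGd hNear hIso hRel
theorem hCv1 : Cv1Stmt := cv1Stmt
theorem hCv2 : Cv2Stmt := cv2Stmt aApi hR hQ
theorem hCav : CavStmt := cavStmt hCv1 hCv2 hSm hMom hSy aApi hO hR hH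
theorem hSch : SchStmt := schStmt
theorem hSec : SecStmt := secStmt hT
theorem hSep : SepStmt := sepStmt hD
theorem hAn2 : An2Stmt := an2Stmt hT hD hSep hSec
theorem hAn3 : An3Stmt := an3Stmt hT hD hSep hSec
theorem hGsl : GslStmt := gslStmt
theorem hOrd : OrdStmt := ordStmt
theorem hOdd : OddStmt := oddStmt hOrd
theorem hNr : NrStmt := nrStmt hR hH hCav hNear hSch hIso
theorem hSpn : SpnStmt := spnStmt hO hH hT hCav hSch hIso hNear hGd hTst hTs0 hMic hPd hPsl hSwp
theorem hSf : SfStmt := sfStmt hR hH hT h57Conc hSpn hGrh hSy hFam hAn2 hSch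
theorem hBl : BlStmt := blStmt hNr hGd hSf
theorem hEnd : EndStmt := endStmt aApi hO hR hQ hH hBr
theorem hLb : LbStmt := lbStmt hMx hBl hEnd hT hD
theorem hFln : FlnStmt := flnStmt aApi hR hQ hH hT
theorem hFld : FldStmt := fldStmt hGrh hH hT
theorem hUst : UstStmt := ustStmt hO hH hT hSwp hNear hIso hGd hTs0 hAn3 hFln hFld hFam
theorem hUb : UbStmt := ubStmt hMx hUst hNear hOdd hEnd hPd hT hD bddStmt
theorem hPj : PjStmt := pjStmt
theorem hM4g : M4gStmt := m4gStmt
theorem hTlg : TlgStmt := tlgStmt hPj hM4g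
theorem hRpg : RpgStmt := rpgStmt hO hPj
theorem hTilt : TiltStmt := tiltStmt hO hTlg hRpg hSy
theorem hDs1 : Ds1Stmt := ds1Stmt

end Al

end Vale.Agent.P166

open MeasureTheory Filter Topology in
theorem Vale.Agent.P166.oim (β : ℝ) (hβ : 0 < β) (μ : Measure ℝ) [IsProbabilityMeasure μ]
    (hc : IsCompact μ.support) (lam : ∀ N : ℕ, Fin N → ℝ)
    (hw : ∀ f : BoundedContinuousFunction ℝ ℝ,
      Tendsto (fun N : ℕ => (∑ i, f (lam N i)) / (N : ℝ)) atTop (𝓝 (∫ t, f t ∂μ)))
    (hmin : Tendsto (fun N : ℕ => ⨅ i, lam N i) atTop (𝓝 (sInf μ.support)))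
    (hmax : Tendsto (fun N : ℕ => ⨆ i, lam N i) atTop (𝓝 (sSup μ.support)))
    [m : ∀ N : ℕ, MeasurableSpace (Matrix.orthogonalGroup (Fin N) ℝ)]
    [hm : ∀ N : ℕ, BorelSpace (Matrix.orthogonalGroup (Fin N) ℝ)]
    (ν : ∀ N : ℕ, Measure (Matrix.orthogonalGroup (Fin N) ℝ))
    (hp : ∀ N, IsProbabilityMeasure (ν N)) (hl : ∀ N, (ν N).IsMulLeftInvariant) :
    (∀ x, 0 ≤ x → BddBelow ((fun b => b - 1 - ∫ t, Real.log (b - x * t) ∂μ) ''
      Set.Ioi (x * sSup μ.support))) ∧
    (∀ n, 1 ≤ n → (∀ p, Vale.Agent.P157.Path n p → p 0 = 1 →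
      BddAbove (Vale.Agent.P157.dualSet n p)) ∧
      BddBelow (Vale.Agent.P166.vals n (fun x => Vale.Agent.P166.Gmu μ (β * x)))) ∧
    (∀ N, Integrable (Vale.Agent.P166.PN β (lam N)) (ν N)) ∧
    ∃ l : ℝ, Tendsto (fun n => Vale.Agent.P166.Vo n β μ) atTop (𝓝 l) ∧
      Tendsto (fun N : ℕ => ∫ U, |Vale.Agent.P166.PN β (lam N) U - l| ∂ν N) atTop (𝓝 0) := by
  have h : m = fun N => borel _ := funext fun N => (hm N).measurable_eq
  subst h
  exact Vale.Agent.P166.mainOf Al.hHr Al.hO Al.hT Al.hD Al.hLb Al.hUb Al.hTilt Al.hDs1 Al.hOrd Al.hOdd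
    Al.hGsl Al.hSy Vale.Agent.P157.bddStmt β hβ μ hc lam hw hmin hmax ν hp hl
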