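import Vale.Agent.P166.Stm

/-! P166: averages over recorded signs (used by Br, Brg, Resp). -/

namespace Vale.Agent.P166

open Finset Real Vale.Agent.P157

noncomputable section

namespace Avx

theorem spin_not (b : Bool) : spin (!b) = -spin b := by cases b <;> simp [spin]

theorem spin_sq (b : Bool) : spin b ^ 2 = 1 := by cases b <;> simp [spin]

theorem spin_cases (b : Bool) : spin b = 1 ∨ spin b = -1 := by cases b <;> simp [spin]

theorem cosh_spin (b : Bool) (x : ℝ) : cosh (x * spin b) = cosh x := by
  rcases spin_cases b with h | h <;> simp [h]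

variable {T : Type} [Fintype T] [DecidableEq T]

theorem card_pos : (0 : ℝ) < Fintype.card (T → Bool) := by
  exact_mod_cast Fintype.card_pos

/-- flipping one sign -/
theorem sum_flip (s : T) (g : (T → Bool) → ℝ) :
    ∑ e, g e = ∑ e, g (Function.update e s (!e s)) := by
  have h : Function.Involutive (fun e : T → Bool => Function.update e s (!e s)) := fun e => by
    simp
  exact (Equiv.sum_comp h.toPerm g).symm

/-- one sign is averaged out -/
theorem sum_one (s : T) (G : ℝ → (T → Bool) → ℝ)
    (hG : ∀ c e, G c (Function.update e s (!e s)) = G c e) :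
    ∑ e, G (spin (e s)) e = ∑ e, (G 1 e + G (-1) e) / 2 := by
  have h := sum_flip s (fun e => G (spin (e s)) e)
  simp only [Function.update_self, hG, spin_not] at h
  have h2 : ∑ e, G (spin (e s)) e = ∑ e, (G (spin (e s)) e + G (-spin (e s)) e) / 2 := by
    rw [← sum_div, sum_add_distrib, ← h]; ring
  rw [h2]
  refine sum_congr rfl fun e _ => ?_
  rcases spin_cases (e s) with h | h <;> rw [h]
  rw [neg_neg, add_comm]

/-- the average over signs is the operator `lv` -/
theorem avg_lv (hC : CApi) {R : Type} [DecidableEq R] (f : R → T) (hf : Function.Injective f)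
    (a : R → ℝ) (F : ℝ → ℝ) (B : Finset R) : ∀ x : ℝ,
    (∑ e : T → Bool, F (x + ∑ r ∈ B, spin (e (f r)) * a r)) / (Fintype.card (T → Bool) : ℝ) =
      (lv (B.val.map a) : Op (ℝ × Unit)) (fun ω => F ω.1) (x, ()) := by
  induction B using Finset.induction_on with
  | empty =>
    intro x
    have := card_pos (T := T)
    simp only [sum_empty, add_zero, sum_const, card_univ, nsmul_eq_mul, empty_val,
      Multiset.map_zero, hC.lv_zero, LinearMap.id_apply]
    field_simp
  | insert s B hs ih =>
    intro x
    have h1 := sum_one (f s) (fun c e => F (x + c * a s + ∑ r ∈ B, spin (e (f r)) * a r))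
      (fun c e => by
        congr 2
        refine sum_congr rfl fun r hr => ?_
        rw [Function.update_of_ne (hf.ne (ne_of_mem_of_not_mem hr hs))])
    simp only [sum_insert hs, ← add_assoc]
    rw [h1, insert_val_of_notMem hs, Multiset.map_cons, hC.lv_cons]
    simp only [sgo, LinearMap.coe_comp, Function.comp_apply, LinearMap.coe_mk, AddHom.coe_mk]
    rw [← ih, ← ih, ← sum_div, sum_add_distrib]
    simp only [one_mul, neg_mul, ← sub_eq_add_neg]
    ring

/-- average of an exponential of a signed sum -/
theorem avg_cosh {R : Type} [DecidableEq R] (f : R → T) (hf : Function.Injective f)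
    (a : R → ℝ) (B : Finset R) : ∀ x : ℝ,
    (∑ e : T → Bool, exp (x + ∑ r ∈ B, spin (e (f r)) * a r)) / (Fintype.card (T → Bool) : ℝ) =
      exp x * ∏ r ∈ B, cosh (a r) := by
  induction B using Finset.induction_on with
  | empty =>
    intro x
    have := card_pos (T := T)
    simp only [sum_empty, add_zero, sum_const, card_univ, nsmul_eq_mul, prod_empty]
    field_simp
  | insert s B hs ih =>
    intro x
    have h1 := sum_one (f s) (fun c e => exp (x + c * a s + ∑ r ∈ B, spin (e (f r)) * a r))
      (fun c e => by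
        congr 2
        refine sum_congr rfl fun r hr => ?_
        rw [Function.update_of_ne (hf.ne (ne_of_mem_of_not_mem hr hs))])
    simp only [sum_insert hs, ← add_assoc]
    rw [h1, ← sum_div, sum_add_distrib, div_right_comm, add_div, ih, ih, prod_insert hs, cosh_eq,
      exp_add, exp_add, one_mul, neg_one_mul]
    ring

/-- the part of the signed sum carried by the levels `≥ d` -/
def xs {R : Type} [Fintype R] (lv : R → ℕ) (a : R → ℝ) (d : ℕ) (e : R → Bool) : ℝ :=
  ∑ r ∈ univ.filter (fun r => d ≤ lv r), spin (e r) * a r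

section
variable {R : Type} [Fintype R]

theorem xs_zero (lv : R → ℕ) (a : R → ℝ) (e : R → Bool) : xs lv a 0 e = sg a e := by
  simp [xs, sg]

theorem xs_top {n : ℕ} {lv : R → ℕ} (h : LevOk n lv) (a : R → ℝ) (e : R → Bool) :
    xs lv a n e = 0 := by
  refine sum_eq_zero fun r hr => ?_
  have := h r
  simp only [mem_filter, mem_univ, true_and] at hr
  omega

theorem xs_mix (lv : R → ℕ) (a : R → ℝ) (d : ℕ) (e e' : R → Bool) :
    xs lv a d (fun r => if lv r = d then e r else e' r) =
      xs lv a (d + 1) e' + ∑ r ∈ univ.filter (fun r => lv r = d), spin (e r) * a r := by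
  simp only [xs, sum_filter, ← sum_add_distrib]
  refine sum_congr rfl fun r _ => ?_
  rcases lt_trichotomy (lv r) d with h | h | h
  · simp [h.ne, not_le.2 h, show ¬ d + 1 ≤ lv r by omega]
  · simp [h]
  · simp [h.ne', h.le, show d + 1 ≤ lv r by omega]

theorem xs_high (lv : R → ℕ) (a : R → ℝ) {d k : ℕ} (h : d < k) (e e' : R → Bool) :
    xs lv a k (fun r => if lv r = d then e r else e' r) = xs lv a k e' := by
  refine sum_congr rfl fun r hr => ?_
  simp only [mem_filter, mem_univ, true_and] at hr
  simp only [if_neg (show ¬ lv r = d by omega)]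

theorem lst (lv : R → ℕ) (a : R → ℝ) (d : ℕ) :
    ((univ.val.map (fun r => (lv r, a r))).filter (fun s => s.1 = d)).map Prod.snd =
      (univ.filter (fun r => lv r = d)).val.map a := by
  rw [Multiset.filter_map, Multiset.map_map]
  rfl

end

theorem xx_congr {Ω : Type} (P : ℕ → Op Ω) (m : ℕ → ℝ) {Z Z' : Ω → ℝ} {j k : ℕ}
    (h : XX P m Z j = XX P m Z' j) (hk : j ≤ k) : XX P m Z k = XX P m Z' k := by
  induction k, hk using Nat.le_induction with
  | base => exact h
  | succ k _ ih => simp only [XX, ih]

omit [Fintype T] [DecidableEq T] in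
theorem rs0_empty (g : Cf T Empty → ℝ) (ω : Cf T Empty) : rs0 g ω = g ω := by
  obtain ⟨e, σ⟩ := ω
  simp only [rs0, LinearMap.coe_mk, AddHom.coe_mk, Fintype.card_unique, Nat.cast_one, div_one,
    univ_unique, sum_singleton]
  congr 2
  exact Subsingleton.elim _ _

theorem xx_one_empty (n : ℕ) (lev : T → ℕ) (Z : Cf T Empty → ℝ) :
    XX (ch lev) (ex n) Z 1 = Z := by
  funext ω
  simp only [XX, ch, ex, rs0_empty, inv_one, one_mul, log_exp]

theorem rsl_apply {I : Type} [Fintype I] [DecidableEq I] (lev : T → ℕ) (d : ℕ) (g : Cf T I → ℝ)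
    (ω : Cf T I) : rsl lev d g ω =
      (∑ e : T → Bool, g (fun s => if lev s = d then e s else ω.1 s, ω.2)) /
        (Fintype.card (T → Bool) : ℝ) := rfl

theorem xx_succ {I : Type} [Fintype I] [DecidableEq I] (n : ℕ) (lev : T → ℕ) (Z : Cf T I → ℝ)
    (d : ℕ) (ω : Cf T I) : XX (ch lev) (ex n) Z (d + 2) ω = (1 - (d : ℝ) / n)⁻¹ *
      log ((∑ e : T → Bool, exp ((1 - (d : ℝ) / n) *
        XX (ch lev) (ex n) Z (d + 1) (fun s => if lev s = d then e s else ω.1 s, ω.2))) /
        (Fintype.card (T → Bool) : ℝ)) := rfl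

end Avx

end

end Vale.Agent.P166
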