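import Vale.Agent.P157.Defs

/-! Orthogonally invariant Ising model: the pressure and the variational formula. -/

namespace Vale.Agent.P166

open MeasureTheory Matrix Vale.Agent.P157

noncomputable section

/-- The pressure `P_N(β)` for `J = Uᵀ diag(lam) U` with the uniform prior on the Ising cube. -/
def PN (β : ℝ) {N : ℕ} (lam : Fin N → ℝ) (U : orthogonalGroup (Fin N) ℝ) : ℝ :=
  (1 / (N : ℝ)) * Real.log ((∑ σ : Fin N → Bool, Real.exp (β / 2 *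
    ((fun i => spin (σ i)) ⬝ᵥ ((U.1ᵀ * diagonal lam * U.1) *ᵥ fun i => spin (σ i))))) / 2 ^ N)

/-- The rank one spherical integral
`G_μ(x) = (1/2) inf_{b > x max supp μ} (b - 1 - ∫ log (b - x t) dμ(t))`. -/
def Gmu (μ : Measure ℝ) (x : ℝ) : ℝ :=
  (1 / 2) * sInf ((fun b => b - 1 - ∫ t, Real.log (b - x * t) ∂μ) '' Set.Ioi (x * sSup μ.support))

/-- `ξ_d = ∑_{j < d} m_j (p_j - p_{j+1})` with `m_j = 1 - j / n`. -/
def xi (n : ℕ) (p : ℕ → ℝ) (d : ℕ) : ℝ :=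
  ∑ j ∈ Finset.range d, (1 - (j : ℝ) / n) * (p j - p (j + 1))

/-- The hierarchical trace `∑_{d < n} (f(ξ_{d+1}) - f(ξ_d)) / m_d`. -/
def tr (n : ℕ) (f : ℝ → ℝ) (p : ℕ → ℝ) : ℝ :=
  ∑ d ∈ Finset.range n, (f (xi n p (d + 1)) - f (xi n p d)) / (1 - (d : ℝ) / n)

/-- The values `tr g(p) + sup_q (ψ_n(q) + ⟨p, q⟩)` over paths `p` with `p_0 = 1`. -/
def vals (n : ℕ) (g : ℝ → ℝ) : Set ℝ :=
  {t | ∃ p, Path n p ∧ p 0 = 1 ∧ t = tr n g p + sSup (dualSet n p)}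

/-- The `n`-level value `inf_p (tr G_μ(β p) + sup_q (ψ_n(q) + ⟨p, q⟩))`. -/
def Vo (n : ℕ) (β : ℝ) (μ : Measure ℝ) : ℝ := sInf (vals n (fun x => Gmu μ (β * x)))

end

end Vale.Agent.P166
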