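import Vale.Agent.P166.Stm

/-! P166: Gaussian integration of a quadratic term. -/

namespace Vale.Agent.P166

open MeasureTheory ProbabilityTheory Finset Real Filter Vale.Agent.P157

noncomputable section

namespace Gid

theorem tilt {a : ℝ} (ha : 0 ≤ a) (s x : ℝ) (F : ℝ → ℝ) :
    ∫ z, exp (-(a * (x + s * z) ^ 2 / 2)) * F (x + s * z) ∂gaussianReal 0 1 =
      (√(1 + a * s ^ 2))⁻¹ * exp (-(a / (1 + a * s ^ 2) * x ^ 2 / 2)) *
        ∫ z, F (x / (1 + a * s ^ 2) + s / √(1 + a * s ^ 2) * z) ∂gaussianReal 0 1 := by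
  obtain ⟨r, hr, hb⟩ : ∃ r : ℝ, 0 < r ∧ 1 + a * s ^ 2 = r ^ 2 :=
    ⟨√(1 + a * s ^ 2), by positivity, (sq_sqrt (by positivity)).symm⟩
  rw [hb, sqrt_sq hr.le, integral_gaussianReal_eq_integral_smul one_ne_zero,
    integral_gaussianReal_eq_integral_smul one_ne_zero]
  have h1 := Measure.integral_comp_mul_left
    (fun u => gaussianPDFReal 0 1 u • F (x / r ^ 2 + s / r * u)) r
  rw [← integral_add_right_eq_self _ (a * s * x / r ^ 2), abs_of_pos (inv_pos.2 hr),
    smul_eq_mul] at h1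
  rw [mul_right_comm, ← h1, ← integral_mul_const]
  congr 1
  funext z
  have e1 : x / r ^ 2 + s / r * (r * (z + a * s * x / r ^ 2)) = x + s * z := by
    field_simp
    linear_combination x * hb
  have e2 : -(z - 0) ^ 2 / (2 * 1) + -(a * (x + s * z) ^ 2 / 2) =
      -(r * (z + a * s * x / r ^ 2) - 0) ^ 2 / (2 * 1) + -(a / r ^ 2 * x ^ 2 / 2) := by
    field_simp
    linear_combination (a * x ^ 2 - r ^ 2 * z ^ 2) * hb
  simp only [e1, gaussianPDFReal_def, smul_eq_mul, NNReal.coe_one]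
  rw [mul_right_comm _ (F _), mul_assoc _ (exp _) (exp _), ← exp_add, ← e2, exp_add]
  ring

theorem sgn (c y : ℝ) (F : ℝ → ℝ) :
    ∫ z, F (y + c * z) ∂gaussianReal 0 1 = ∫ z, F (y + |c| * z) ∂gaussianReal 0 1 := by
  rcases le_total 0 c with h | h
  · rw [abs_of_nonneg h]
  · rw [abs_of_nonpos h, integral_gaussianReal_eq_integral_smul one_ne_zero,
      integral_gaussianReal_eq_integral_smul one_ne_zero, ← integral_neg_eq_self]
    congr 1
    funext z
    simp [gaussianPDFReal_def]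

variable {Ω : Type}

/-- one level of the recursion -/
def stp (P : Op Ω) (m s : ℝ) (Y : Ω → ℝ → ℝ) (ω : Ω) (x : ℝ) : ℝ :=
  m⁻¹ * log (P (fun ω' => ∫ z, exp (m * Y ω' (x + s * z)) ∂gaussianReal 0 1) ω)

def Good (Y : Ω → ℝ → ℝ) : Prop :=
  ∀ ω, Continuous (Y ω) ∧ ∃ c K : ℝ, 0 ≤ K ∧ ∀ x, Y ω x ≤ c + K * |x|

def Lp (K : ℝ) (Y : Ω → ℝ → ℝ) : Prop := ∀ ω x x', Y ω x ≤ Y ω x' + K * |x - x'|

theorem Good.int {Y : Ω → ℝ → ℝ} (h : Good Y) {m : ℝ} (hm : 0 ≤ m) (s x : ℝ) (ω : Ω) :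
    Integrable (fun z => exp (m * Y ω (x + s * z))) (gaussianReal 0 1) := by
  obtain ⟨hc, c, K, hK, hb⟩ := h ω
  refine (((integrable_exp_mul_gaussianReal (m * K * s)).add
    (integrable_exp_mul_gaussianReal (-(m * K * s)))).const_mul (exp (m * (c + K * |x|)))).mono'
    (by fun_prop) (Eventually.of_forall fun z => ?_)
  rw [Real.norm_eq_abs, abs_of_pos (exp_pos _), Pi.add_apply]
  have h1 : m * Y ω (x + s * z) ≤ m * (c + K * |x|) + |m * K * s * z| := by
    rw [mul_assoc (m * K), abs_mul (m * K), abs_of_nonneg (mul_nonneg hm hK)]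
    have := mul_le_mul_of_nonneg_left ((hb _).trans (add_le_add le_rfl
      (mul_le_mul_of_nonneg_left (abs_add_le x (s * z)) hK))) hm
    linarith
  refine (exp_le_exp.2 h1).trans ?_
  rw [exp_add]
  refine mul_le_mul_of_nonneg_left ?_ (exp_pos _).le
  rcases le_total 0 (m * K * s * z) with h | h
  · rw [abs_of_nonneg h]; exact le_add_of_nonneg_right (exp_pos _).le
  · rw [abs_of_nonpos h, neg_mul]; exact le_add_of_nonneg_left (exp_pos _).le

theorem Lp.good {Y : Ω → ℝ → ℝ} {K : ℝ} (h : Lp K Y) (hK : 0 ≤ K) : Good Y := by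
  refine fun ω => ⟨?_, Y ω 0, K, hK, fun x => by simpa using h ω x 0⟩
  refine (LipschitzWith.of_le_add_mul ⟨K, hK⟩ fun x x' => ?_).continuous
  exact h ω x x'

theorem P_pos (hA : AApi) {P : Op Ω} (hP : Mk P) {g : Ω → ℝ} (hg : ∀ ω, 0 < g ω) (ω : Ω) :
    0 < P g ω := by
  have := hA.jen hP (fun x => log (g x)) ω
  simp only [exp_log (hg _)] at this
  exact (exp_pos _).trans_le this

theorem exp_lg (hA : AApi) {P : Op Ω} (hP : Mk P) {g : Ω → ℝ} (hg : ∀ ω, 0 < g ω) {m : ℝ}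
    (hm : 0 < m) (ω : Ω) : exp (m * (m⁻¹ * log (P g ω))) = P g ω := by
  rw [mul_inv_cancel_left₀ hm.ne', exp_log (P_pos hA hP hg ω)]

theorem exp_stp (hA : AApi) {P : Op Ω} (hP : Mk P) {m : ℝ} (hm : 0 < m) {Y : Ω → ℝ → ℝ}
    (hY : Good Y) (s : ℝ) (ω : Ω) (x : ℝ) : exp (m * stp P m s Y ω x) =
      P (fun ω' => ∫ z, exp (m * Y ω' (x + s * z)) ∂gaussianReal 0 1) ω :=
  exp_lg hA hP (fun ω' => integral_exp_pos (hY.int hm.le s x ω')) hm ω

theorem P_mul (P : Op Ω) (c : ℝ) (g : Ω → ℝ) (ω : Ω) : P (fun x => c * g x) ω = c * P g ω :=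
  congrFun (map_smul P c g) ω

theorem cmp (hA : AApi) {P : Op Ω} (hP : Mk P) {m : ℝ} (hm : 0 < m) {Y Y' : Ω → ℝ → ℝ}
    (hY : Good Y) (hY' : Good Y') (s : ℝ) {x x' c : ℝ}
    (h : ∀ ω z, Y ω (x + s * z) ≤ Y' ω (x' + s * z) + c) (ω : Ω) :
    stp P m s Y ω x ≤ stp P m s Y' ω x' + c := by
  refine le_of_mul_le_mul_left (exp_le_exp.1 ?_) hm
  rw [mul_add, exp_add, exp_stp hA hP hm hY, exp_stp hA hP hm hY', mul_comm, ← P_mul]
  refine hA.mono' hP (fun ω' => ?_) ω
  rw [← integral_const_mul]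
  refine integral_mono (hY.int hm.le _ _ _) ((hY'.int hm.le _ _ _).const_mul _) fun z => ?_
  simp only [← exp_add]
  exact exp_le_exp.2 (by nlinarith [h ω' z])

theorem lip (hA : AApi) {P : ℕ → Op Ω} {m : ℕ → ℝ} {t : ℕ} (ho : Ok P m t) {G : Ω → ℝ → ℝ}
    {K : ℝ} (hK : 0 ≤ K) (hG : Lp K G) (δ : ℕ → ℝ) (j : ℕ) (hj : j ≤ t) : Lp K (YG P m G δ j) := by
  induction j with
  | zero => exact hG
  | succ j ih =>
    have h := ih (by omega)
    intro ω x x'
    refine cmp hA (ho.mk' j) (ho.pos j hj) (h.good hK) (h.good hK) _ (fun ω' z => ?_) ω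
    simpa using h ω' (x + √(δ j) * z) (x' + √(δ j) * z)

theorem key_step (hA : AApi) {P : Op Ω} (hP : Mk P) {m δ δ' θ γ u u' c : ℝ} (hm : 0 < m)
    (hδ : 0 ≤ δ) (hθ : 0 ≤ θ) (hu : 0 < u) (hu' : u' = u + θ * m * δ)
    (hδ' : δ' = γ ^ 2 * δ / (u * u')) {Y L : Ω → ℝ → ℝ} (hL : Good L)
    (hY : ∀ ω x, Y ω x = c - θ / u * x ^ 2 / 2 + L ω (γ / u * x)) (ω : Ω) (x : ℝ) :
    stp P m √δ Y ω x = c + (-log u' / 2 - -log u / 2) / m - θ / u' * x ^ 2 / 2 +
      stp P m √δ' L ω (γ / u' * x) := by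
  have hu0 : 0 < u' := by rw [hu']; positivity
  have eb : 1 + m * (θ / u) * √δ ^ 2 = u' / u := by
    rw [sq_sqrt hδ, hu']; field_simp
  have e1 : ∀ ω', ∫ z, exp (m * Y ω' (x + √δ * z)) ∂gaussianReal 0 1 =
      exp (m * (c + (-log u' / 2 - -log u / 2) / m - θ / u' * x ^ 2 / 2)) *
        ∫ z, exp (m * L ω' (γ / u' * x + √δ' * z)) ∂gaussianReal 0 1 := by
    intro ω'
    have h1 := tilt (a := m * (θ / u)) (by positivity) √δ x fun y => exp (m * L ω' (γ / u * y))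
    have h2 := sgn (γ / u * (√δ / √(u' / u))) (γ / u' * x) fun y => exp (m * L ω' y)
    have e2 : |γ / u * (√δ / √(u' / u))| = √δ' := by
      rw [← sqrt_sq_eq_abs, mul_pow, div_pow, div_pow, sq_sqrt hδ, sq_sqrt (by positivity), hδ']
      congr 1
      field_simp
    have e3 : ∀ z, γ / u * (x / (u' / u) + √δ / √(u' / u) * z) =
        γ / u' * x + γ / u * (√δ / √(u' / u)) * z := fun z => by field_simp
    have e4 : (√(u' / u))⁻¹ = exp (-log u' / 2 - -log u / 2) := by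
      rw [← exp_log (show 0 < (√(u' / u))⁻¹ by positivity), log_inv, log_sqrt (by positivity),
        log_div hu0.ne' hu.ne']
      congr 1; ring
    rw [e2] at h2
    simp only [eb, e3] at h1
    rw [h2, e4, ← exp_add] at h1
    have e5 : ∀ z, exp (m * Y ω' (x + √δ * z)) = exp (m * c) *
        (exp (-(m * (θ / u) * (x + √δ * z) ^ 2 / 2)) * exp (m * L ω' (γ / u * (x + √δ * z)))) := by
      intro z
      rw [hY, ← exp_add, ← exp_add]
      congr 1; ring
    simp only [e5]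
    rw [integral_const_mul, h1, ← mul_assoc, ← exp_add]
    congr 2
    field_simp
    ring
  rw [stp]
  simp only [e1]
  rw [P_mul, ← exp_stp hA hP hm hL, ← exp_add, log_exp, ← mul_add, inv_mul_cancel_left₀ hm.ne']

theorem lp_lin {Z w : Ω → ℝ} (hw : ∀ ω, w ω ^ 2 = 1) : Lp 1 fun ω x => Z ω + x * w ω := by
  intro ω x x'
  have h1 : |w ω| = 1 := by
    rw [← sq_eq_sq₀ (abs_nonneg _) zero_le_one, sq_abs, hw, one_pow]
  have := le_abs_self ((x - x') * w ω)
  rw [abs_mul, h1] at this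
  dsimp only
  linarith

theorem key (hA : AApi) (hT : TApi) {P : ℕ → Op Ω} {n : ℕ} (ho : Ok P (ex n) (n + 1))
    (Z : Ω → ℝ) {w : Ω → ℝ} (hw : ∀ ω, w ω ^ 2 = 1) {θ : ℝ} (hθ : 0 ≤ θ) (γ : ℝ) {p : ℕ → ℝ}
    (hp : Path n p) (d : ℕ) (hd : d ≤ n) : ∀ ω x,
    YG P (ex n) (fun ω x => Z ω + qd θ γ (x * w ω)) (inc p) (d + 1) ω x =
      ∑ j ∈ range d, (lg θ (xi n p (j + 1)) - lg θ (xi n p j)) / (1 - (j : ℝ) / n) -
        θ / (1 + θ * xi n p d) * x ^ 2 / 2 +
      YG P (ex n) (fun ω x => Z ω + x * w ω) (inc (fun d => γ ^ 2 * fp n (ph θ) p d)) (d + 1) ω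
        (γ / (1 + θ * xi n p d) * x) := by
  induction d with
  | zero =>
    intro ω x
    have := key_step hA (ho.mk' 0) (m := ex n 0) (δ := 0) (δ' := 0) (γ := γ) (u := 1) (u' := 1)
      (c := 0) one_pos le_rfl hθ one_pos (by ring) (by ring)
      (Y := fun ω x => Z ω + qd θ γ (x * w ω)) ((lp_lin (Z := Z) hw).good zero_le_one)
      (fun ω x => by rw [qd, mul_pow, hw]; ring) ω x
    simp only [xi, range_zero, sum_empty, mul_zero, add_zero]
    simp only [sub_self, zero_div, add_zero] at this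
    exact this
  | succ d ih =>
    intro ω x
    have h0 := (hT.xi_mono hp d d le_rfl (by omega)).1
    have h1 := (hT.xi_mono hp (d + 1) (d + 1) le_rfl hd).1
    have hm : 0 < 1 - (d : ℝ) / n := ho.pos (d + 1) (by omega)
    have e1 : xi n p (d + 1) = xi n p d + (1 - (d : ℝ) / n) * (p d - p (d + 1)) :=
      sum_range_succ _ _
    have := key_step hA (ho.mk' (d + 1)) (δ := p d - p (d + 1))
      (δ' := γ ^ 2 * fp n (ph θ) p d - γ ^ 2 * fp n (ph θ) p (d + 1)) (γ := γ)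
      (u := 1 + θ * xi n p d) (u' := 1 + θ * xi n p (d + 1)) hm (sub_nonneg.2 (hp.1 d hd)) hθ
      (by positivity) (by rw [e1]; ring) (by
        rw [fp, sum_eq_sum_Ico_succ_bot hd, fp, ph, ph]
        have a : 0 < 1 + θ * xi n p d := by positivity
        have b : 0 < 1 + θ * xi n p (d + 1) := by positivity
        generalize 1 - (d : ℝ) / n = m at hm e1
        field_simp
        rw [e1]; ring)
      ((lip hA ho zero_le_one (lp_lin (Z := Z) hw) _ (d + 1) (by omega)).good zero_le_one)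
      (ih (by omega)) ω x
    rw [sum_range_succ]
    exact this

theorem good_q (hA : AApi) (hT : TApi) {P : ℕ → Op Ω} {n : ℕ} (ho : Ok P (ex n) (n + 1))
    (Z : Ω → ℝ) {w : Ω → ℝ} (hw : ∀ ω, w ω ^ 2 = 1) {θ : ℝ} (hθ : 0 ≤ θ) (γ : ℝ) {p : ℕ → ℝ}
    (hp : Path n p) (j : ℕ) (hj : j ≤ n + 1) :
    Good (YG P (ex n) (fun ω x => Z ω + qd θ γ (x * w ω)) (inc p) j) := by
  have gen : ∀ (Y L : Ω → ℝ → ℝ) (c a k : ℝ), Lp 1 L → 0 ≤ a →
      (∀ ω x, Y ω x = c - a * x ^ 2 / 2 + L ω (k * x)) → Good Y := by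
    intro Y L c a k hL ha h ω
    have hc := (hL.good zero_le_one ω).1
    rw [show Y ω = fun x => c - a * x ^ 2 / 2 + L ω (k * x) from funext (h ω)]
    refine ⟨by fun_prop, c + L ω 0, |k|, abs_nonneg _, fun x => ?_⟩
    have := hL ω (k * x) 0
    rw [sub_zero, abs_mul] at this
    have : 0 ≤ a * x ^ 2 := by positivity
    linarith
  cases j with
  | zero =>
    exact gen _ _ 0 θ γ (lp_lin (Z := Z) hw) hθ fun ω x => by
      simp only [YG, qd, mul_pow, hw]; ring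
  | succ d =>
    have h0 := (hT.xi_mono hp d d le_rfl (by omega)).1
    exact gen _ _ _ _ _ (lip hA ho zero_le_one (lp_lin (Z := Z) hw) _ (d + 1) hj)
      (by positivity) (key hA hT ho Z hw hθ γ hp d (by omega))

theorem lp_max {θ γ Λ : ℝ} (hθ : 0 < θ) (hΛ : 0 ≤ Λ) : ∃ K, 0 ≤ K ∧ ∀ t t',
    max (qd θ γ t) (-Λ) ≤ max (qd θ γ t') (-Λ) + K * |t - t'| := by
  obtain ⟨K, hK, hK2⟩ : ∃ K : ℝ, 0 ≤ K ∧ K ^ 2 = γ ^ 2 + 2 * θ * Λ :=
    ⟨√(γ ^ 2 + 2 * θ * Λ), sqrt_nonneg _, sq_sqrt (by positivity)⟩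
  refine ⟨K, hK, fun t t' => ?_⟩
  have e : ∀ t, 2 * θ * max (qd θ γ t) (-Λ) = γ ^ 2 - min |γ - θ * t| K ^ 2 := by
    intro t
    have e1 : 2 * θ * qd θ γ t = γ ^ 2 - |γ - θ * t| ^ 2 := by rw [sq_abs, qd]; ring
    rcases le_total |γ - θ * t| K with h | h
    · have := pow_le_pow_left₀ (abs_nonneg _) h 2
      rw [min_eq_left h, max_eq_left (by nlinarith), e1]
    · have := pow_le_pow_left₀ hK h 2
      rw [min_eq_right h, max_eq_right (by nlinarith)]; linarith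
  have h1 : min |γ - θ * t'| K - min |γ - θ * t| K ≤ θ * |t - t'| := by
    have := abs_sub_abs_le_abs_sub (γ - θ * t') (γ - θ * t)
    rw [show γ - θ * t' - (γ - θ * t) = θ * (t - t') by ring, abs_mul, abs_of_pos hθ] at this
    have h0 : 0 ≤ θ * |t - t'| := by positivity
    rcases le_total |γ - θ * t| K with h | h
    · rw [min_eq_left h]; linarith [min_le_left |γ - θ * t'| K]
    · rw [min_eq_right h]; linarith [min_le_right |γ - θ * t'| K]
  have a0 : 0 ≤ min |γ - θ * t| K := le_min (abs_nonneg _) hK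
  have a1 : 0 ≤ min |γ - θ * t'| K := le_min (abs_nonneg _) hK
  have a2 := min_le_right |γ - θ * t| K
  have a3 := min_le_right |γ - θ * t'| K
  refine le_of_mul_le_mul_left ?_ (show 0 < 2 * θ by positivity)
  rw [mul_add, e, e]
  generalize min |γ - θ * t| K = a at *
  generalize min |γ - θ * t'| K = a' at *
  have h0 : 0 ≤ θ * |t - t'| := by positivity
  nlinarith [mul_le_mul_of_nonneg_right h1 (add_nonneg a0 a1)]

theorem lower {a b c μ μ' : ℝ} (h0 : 0 ≤ μ') (h1 : μ' ≤ μ)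
    (h : exp (μ * a) ≤ exp (μ * b) + exp (μ * c)) :
    exp (μ' * a) ≤ exp (μ' * b) + exp (μ' * c) := by
  rcases le_total a b with hb | hb
  · exact le_add_of_le_of_nonneg (exp_le_exp.2 (mul_le_mul_of_nonneg_left hb h0)) (exp_pos _).le
  rcases le_total a c with hc | hc
  · exact le_add_of_nonneg_of_le (exp_pos _).le (exp_le_exp.2 (mul_le_mul_of_nonneg_left hc h0))
  have e : ∀ t, t ≤ a → exp (μ * t) * exp ((μ' - μ) * a) ≤ exp (μ' * t) := fun t ht => by
    rw [← exp_add]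
    exact exp_le_exp.2 (by nlinarith)
  have e0 : exp (μ' * a) = exp (μ * a) * exp ((μ' - μ) * a) := by
    rw [← exp_add]; congr 1; ring
  rw [e0]
  nlinarith [e b hb, e c hc, mul_le_mul_of_nonneg_right h (exp_pos ((μ' - μ) * a)).le]

theorem up_step (hA : AApi) {P : Op Ω} (hP : Mk P) {m : ℝ} (hm : 0 < m) {Y Y' : Ω → ℝ → ℝ}
    (hY : Good Y) (hY' : Good Y') (s Λ : ℝ) {X : Ω → ℝ}
    (h : ∀ ω x, exp (m * Y ω x) ≤ exp (m * Y' ω x) + exp (m * (X ω - Λ))) (ω : Ω) (x : ℝ) :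
    exp (m * stp P m s Y ω x) ≤ exp (m * stp P m s Y' ω x) +
      exp (m * (m⁻¹ * log (P (fun ω' => exp (m * X ω')) ω) - Λ)) := by
  rw [mul_sub, sub_eq_neg_add, exp_add, exp_lg hA hP (fun _ => exp_pos _) hm, exp_stp hA hP hm hY,
    exp_stp hA hP hm hY', ← P_mul, ← Pi.add_apply (P _), ← map_add]
  refine hA.mono' hP (fun ω' => ?_) ω
  refine (integral_mono (hY.int hm.le _ _ _) ((hY'.int hm.le s x ω').add (integrable_const _))
    fun z => h ω' _).trans (le_of_eq ?_)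
  simp only [Pi.add_apply]
  rw [integral_add (hY'.int hm.le s x ω') (integrable_const _), integral_const, ← exp_add]
  simp only [probReal_univ, smul_eq_mul, one_mul]
  congr 2; ring

theorem low_step (hA : AApi) {P : Op Ω} (hP : Mk P) {m : ℝ} (hm : 0 < m) {Y : Ω → ℝ → ℝ}
    (hY : Good Y) (s : ℝ) {Γ B : ℝ} (hΓ : 0 ≤ Γ) {X : Ω → ℝ}
    (h : ∀ ω x, X ω - Γ * x ^ 2 - B ≤ Y ω x) (ω : Ω) (x : ℝ) :
    m⁻¹ * log (P (fun ω' => exp (m * X ω')) ω) - Γ * x ^ 2 - (B + Γ * s ^ 2) ≤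
      stp P m s Y ω x := by
  refine le_of_mul_le_mul_left (exp_le_exp.1 ?_) hm
  rw [sub_sub, mul_sub, sub_eq_neg_add, exp_add, exp_lg hA hP (fun _ => exp_pos _) hm,
    exp_stp hA hP hm hY, ← P_mul]
  refine hA.mono' hP (fun ω' => ?_) ω
  have h1 := tilt (a := 2 * m * Γ) (by positivity) s x fun _ => exp (m * (X ω' - B))
  rw [integral_const, probReal_univ, one_smul] at h1
  refine le_trans ?_ (h1.symm.trans_le (integral_mono_of_nonneg
    (Eventually.of_forall fun z => by positivity) (hY.int hm.le s x ω')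
    (Eventually.of_forall fun z => ?_)))
  · have b0 : 0 ≤ 2 * m * Γ * s ^ 2 := by positivity
    have h2 : exp (-(m * Γ * s ^ 2)) ≤ (√(1 + 2 * m * Γ * s ^ 2))⁻¹ := by
      rw [exp_neg]
      refine inv_anti₀ (by positivity) (sqrt_le_iff.2 ⟨(exp_pos _).le, ?_⟩)
      rw [← exp_nat_mul]
      have := add_one_le_exp (2 * m * Γ * s ^ 2)
      refine le_trans (by linarith) (this.trans (le_of_eq ?_))
      congr 1; push_cast; ring
    have h3 : 2 * m * Γ / (1 + 2 * m * Γ * s ^ 2) ≤ 2 * m * Γ :=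
      div_le_self (by positivity) (by linarith)
    refine le_trans ?_ (mul_le_mul_of_nonneg_right
      (mul_le_mul_of_nonneg_right h2 (exp_pos _).le) (exp_pos _).le)
    simp only [← exp_add]
    exact exp_le_exp.2 (by nlinarith [mul_le_mul_of_nonneg_right h3 (sq_nonneg x)])
  · simp only [← exp_add]
    exact exp_le_exp.2 (by nlinarith [h ω' (x + s * z)])

end Gid

open Gid in
theorem gidStmt (hA : AApi) (hT : TApi) : GidStmt := by
  intro Ω P n Z w θ γ p ω _ ho hw hθ hp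
  have := key hA hT ho Z hw hθ γ hp n le_rfl ω 0
  simpa only [tr, mul_zero, ne_eq, OfNat.ofNat_ne_zero, not_false_eq_true, zero_pow, zero_div,
    sub_zero] using this

open Gid in
theorem gtrStmt (hA : AApi) (hT : TApi) : GtrStmt := by
  intro n θ0 Γ ε hn hθ0 hε
  have hn' : (0 : ℝ) < n := by exact_mod_cast hn
  refine ⟨max 0 (Γ / 2 + Γ * Γ - n * log (ε / n)),
    fun Λ hΛ Ω P Z w θ γ p ω ho hw h1 h2 hγ hp hp0 => ?_⟩
  have hθ : 0 < θ := hθ0.trans_le h1
  have hΓ : 0 ≤ Γ := hθ.le.trans h2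
  obtain ⟨K, hK, hl⟩ := lp_max (γ := γ) hθ ((le_max_left _ _).trans hΛ)
  have hw1 : ∀ ω, |w ω| = 1 := fun ω => by
    rw [← sq_eq_sq₀ (abs_nonneg _) zero_le_one, sq_abs, hw, one_pow]
  have gq := good_q hA hT ho Z hw hθ.le γ hp
  have gm : ∀ j, j ≤ n + 1 →
      Good (YG P (ex n) (fun ω x => Z ω + max (qd θ γ (x * w ω)) (-Λ)) (inc p) j) := fun j hj =>
    (lip hA ho hK (fun ω x x' => by
      have := hl (x * w ω) (x' * w ω)
      rw [← sub_mul, abs_mul, hw1, mul_one] at this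
      linarith) _ j hj).good hK
  have i1 : ∀ j, j ≤ n + 1 → ∀ ω x,
      YG P (ex n) (fun ω x => Z ω + qd θ γ (x * w ω)) (inc p) j ω x ≤
        YG P (ex n) (fun ω x => Z ω + max (qd θ γ (x * w ω)) (-Λ)) (inc p) j ω x + 0 := by
    intro j hj
    induction j with
    | zero => intro ω x; simp [YG]
    | succ j ih =>
      intro ω x
      exact cmp hA (ho.mk' j) (ho.pos j hj) (gq j (by omega)) (gm j (by omega)) _
        (fun ω' z => ih (by omega) _ _) ω
  have i2 : ∀ j, j < n + 1 → ∀ ω x,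
      exp (ex n j * YG P (ex n) (fun ω x => Z ω + max (qd θ γ (x * w ω)) (-Λ)) (inc p) (j + 1) ω x) ≤
        exp (ex n j * YG P (ex n) (fun ω x => Z ω + qd θ γ (x * w ω)) (inc p) (j + 1) ω x) +
          exp (ex n j * (XX P (ex n) Z (j + 1) ω - Λ)) := by
    intro j hj
    induction j with
    | zero =>
      refine up_step hA (ho.mk' 0) (ho.pos 0 hj) (gm 0 (by omega)) (gq 0 (by omega)) _ Λ
        fun ω x => ?_
      simp only [YG, XX]
      rcases le_total (qd θ γ (x * w ω)) (-Λ) with h | h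
      · rw [max_eq_right h]; exact le_add_of_nonneg_left (exp_pos _).le
      · rw [max_eq_left h]; exact le_add_of_nonneg_right (exp_pos _).le
    | succ j ih =>
      exact up_step hA (ho.mk' _) (ho.pos _ hj) (gm _ (by omega)) (gq _ (by omega)) _ Λ
        fun ω x => lower (ho.pos _ hj).le (ho.anti j hj) (ih (by omega) ω x)
  have i3 : ∀ j, j ≤ n + 1 → ∀ ω x, XX P (ex n) Z j ω - Γ * x ^ 2 -
      (Γ / 2 + Γ * ∑ i ∈ range j, inc p i) ≤
        YG P (ex n) (fun ω x => Z ω + qd θ γ (x * w ω)) (inc p) j ω x := by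
    intro j hj
    induction j with
    | zero =>
      intro ω x
      have a1 := neg_abs_le (γ * (x * w ω))
      rw [abs_mul, abs_mul, hw1, mul_one] at a1
      have a2 := mul_le_mul_of_nonneg_right hγ (abs_nonneg x)
      have a3 := mul_le_mul_of_nonneg_right h2 (sq_nonneg x)
      simp only [YG, XX, qd, mul_pow, hw, range_zero, sum_empty]
      nlinarith [mul_nonneg hΓ (sq_nonneg (|x| - 1)), sq_abs x]
    | succ j ih =>
      intro ω x
      have h0 : 0 ≤ inc p j := by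
        cases j with
        | zero => exact le_rfl
        | succ d => exact sub_nonneg.2 (hp.1 d (by omega))
      have := low_step hA (ho.mk' j) (ho.pos j hj) (gq j (by omega)) √(inc p j) hΓ
        (ih (by omega)) ω x
      rw [sq_sqrt h0, add_assoc, ← mul_add, ← sum_range_succ] at this
      exact this
  have j1 := i1 _ le_rfl ω 0
  have j2 := i2 n (by omega) ω 0
  have j3 := i3 _ le_rfl ω 0
  have e1 : ∑ i ∈ range (n + 1), inc p i = p 0 := by
    rw [sum_range_succ']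
    simp only [inc, sum_range_sub', hp.2, sub_zero, add_zero]
  have e2 : ex n n = 1 / n := by
    obtain ⟨k, rfl⟩ : ∃ k, n = k + 1 := ⟨n - 1, by omega⟩
    simp only [ex]; push_cast; field_simp; ring
  rw [e1] at j3
  rw [e2] at j2
  generalize YG P (ex n) (fun ω x => Z ω + max (qd θ γ (x * w ω)) (-Λ)) (inc p) (n + 1) ω 0 = a
    at j1 j2 ⊢
  generalize YG P (ex n) (fun ω x => Z ω + qd θ γ (x * w ω)) (inc p) (n + 1) ω 0 = b at j1 j2 j3 ⊢
  have h3 : XX P (ex n) Z (n + 1) ω - Λ ≤ b + n * log (ε / n) := by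
    have := (le_max_right _ _).trans hΛ
    nlinarith [mul_le_mul_of_nonneg_left hp0 hΓ]
  have h4 : exp (1 / n * (XX P (ex n) Z (n + 1) ω - Λ)) ≤ exp (1 / n * b) * (ε / n) := by
    rw [← exp_log (show 0 < ε / n by positivity), ← exp_add]
    refine exp_le_exp.2 ((mul_le_mul_of_nonneg_left h3 (by positivity)).trans (le_of_eq ?_))
    field_simp
  have h5 : exp (1 / n * a) ≤ exp (1 / n * (b + ε)) := by
    rw [mul_add, exp_add, show 1 / (n : ℝ) * ε = ε / n by ring]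
    nlinarith [add_one_le_exp (ε / n), exp_pos (1 / n * b)]
  have h6 := le_of_mul_le_mul_left (exp_le_exp.1 h5) (by positivity)
  rw [abs_le]; constructor <;> linarith

end

end Vale.Agent.P166
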