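import Vale.Agent.P166.Ou3

/-! P166, module Ou: a real direction is replaced by independent signs. -/

namespace Vale.Agent.P166

open MeasureTheory Finset Real Vale.Agent.P157

namespace Ou

section
variable {T T' I : Type} [Fintype T] [DecidableEq T] [Fintype T'] [DecidableEq T'] [Fintype I]
  [DecidableEq I]

theorem emb_all (hR : RApi) (hH : HApi) {ν : Measure (OG I)} {n : ℕ} {lev : T → ℕ} {lev' : T' → ℕ}
    {f : T → T'} (hν : Haar ν) (hn : 1 ≤ n) (hf : Emb lev lev' f) {Z : OG I → Cf T I → ℝ}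
    (hZ : Ct Z) :
    TH ν n lev' (fun U ω => Z U (pull f ω)) = TH ν n lev Z ∧
      ∀ A p e, ConcH ν n lev Z A p e → ConcH ν n lev' (fun U ω => Z U (pull f ω)) A p e := by
  have h := hH.same lev lev' (Z := Z) (Z' := fun U ω => Z U (pull f ω)) 0 hν hn hZ
    fun U => by rw [add_zero]; exact (hR.emb n lev lev' f hf (Z U)).1
  refine ⟨by simpa using h.1, fun A p e hc => ⟨?_, ?_⟩⟩
  · rw [h.2.1 (fun U ω => (rA A U ω.2 ω.2 - p 0) ^ 2)]
    · exact hc.1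
    · exact fun U => (hR.emb n lev lev' f hf (Z U)).2.1 fun ω => (rA A U ω.2 ω.2 - p 0) ^ 2
  · refine le_trans (le_of_eq ?_) hc.2
    congr 1
    refine sum_congr rfl fun d hd => h.2.2 d _ _ fun U => ?_
    exact (hR.emb n lev lev' f hf (Z U)).2.2 d (mem_Ico.1 hd).2.le
      fun ω ω' => (rA A U ω.2 ω'.2 - p d) ^ 2

omit [Fintype T] [DecidableEq T] [Fintype T'] [DecidableEq T'] [Fintype I] [DecidableEq I] in
theorem idp_pull {X : Finset T'} {f : T → T'} (h : ∀ s, f s ∉ X) (u : Cf T I → ℝ) :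
    Idp X (fun ω => u (pull f ω)) := by
  intro e e' σ he
  have : e ∘ f = e' ∘ f := funext fun s => he _ (h s)
  simp only [pull, this]

omit [Fintype T] [DecidableEq T] [Fintype T'] [Fintype I] [DecidableEq I] in
theorem idp_pull' {F : Finset T} {f : T → T'} (hf : Function.Injective f) {u : Cf T I → ℝ}
    (hu : Idp F u) : Idp (F.image f) (fun ω => u (pull f ω)) := by
  intro e e' σ he
  refine hu _ _ σ fun s hs => he _ fun h => hs ?_
  obtain ⟨s', hs', h'⟩ := mem_image.1 h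
  rwa [← hf h']

end

/-- the signed steps of the rounds `< k` -/
noncomputable def mk {T I : Type} {S n : ℕ} (a : Fin S × Fin n → ℝ) (k : ℕ)
    (ω : Cf ((T ⊕ (Fin S × Fin n)) ⊕ I) I) : ℝ :=
  ∑ r : Fin S × Fin n, if (r.1 : ℕ) < k then spin (ω.1 (Sum.inl (Sum.inr r))) * a r else 0

theorem mk_idp {T I : Type} {S n : ℕ} (a : Fin S × Fin n → ℝ) (k : ℕ)
    {X : Finset ((T ⊕ (Fin S × Fin n)) ⊕ I)}
    (h : ∀ r : Fin S × Fin n, (r.1 : ℕ) < k → Sum.inl (Sum.inr r) ∉ X) : Idp X (mk a k) := by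
  intro e e' σ he
  refine sum_congr rfl fun r _ => ?_
  split_ifs with hr
  · simp only [he _ (h r hr)]
  · rfl

theorem mk_succ {T I : Type} {S n : ℕ} (a : Fin S × Fin n → ℝ) (k : Fin S)
    (ω : Cf ((T ⊕ (Fin S × Fin n)) ⊕ I) I) :
    mk a (k + 1) ω = mk a k ω + ∑ l, spin (ω.1 (Sum.inl (Sum.inr (k, l)))) * a (k, l) := by
  have e : ∑ l, spin (ω.1 (Sum.inl (Sum.inr (k, l)))) * a (k, l) =
      ∑ r : Fin S × Fin n, if r.1 = k then spin (ω.1 (Sum.inl (Sum.inr r))) * a r else 0 := by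
    rw [Fintype.sum_prod_type, sum_comm]
    refine sum_congr rfl fun l _ => ?_
    simp only [sum_ite_eq', mem_univ, if_true]
  rw [e, mk, mk, ← sum_add_distrib]
  refine sum_congr rfl fun r _ => ?_
  by_cases h1 : r.1 = k
  · simp [h1]
  · have h2 : (r.1 : ℕ) ≠ k := fun h => h1 (Fin.ext h)
    have h3 : (r.1 : ℕ) < k + 1 ↔ (r.1 : ℕ) < k := by omega
    simp only [h1, h3, if_false, add_zero]

theorem mic {n S : ℕ} {p : ℕ → ℝ} (hp : Path n p) {c s Q η1 : ℝ} (hcs : c ^ 2 + s ^ 2 = 1)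
    (hc : |c| ≤ 1) (hs : 0 ≤ s) (hQ : ∀ l, l < n → p l - p (l + 1) ≤ Q) (h1 : s * √Q ≤ η1)
    (h2 : (c ^ S) ^ 2 * Q ≤ η1) :
    Mic n (fun r : Fin S × Fin n => r.2)
      (fun r => c ^ (r.1 : ℕ) * s * √(p r.2 - p (r.2 + 1))) p η1 := by
  refine ⟨fun r => r.2.2, fun r => ?_, fun d hd => ?_⟩
  · rw [abs_mul, abs_mul, abs_pow, abs_of_nonneg hs, abs_of_nonneg (Real.sqrt_nonneg _)]
    refine le_trans (mul_le_mul ?_ (Real.sqrt_le_sqrt (hQ _ r.2.2)) (Real.sqrt_nonneg _) hs) h1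
    exact mul_le_of_le_one_left hs (pow_le_one₀ (abs_nonneg _) hc)
  · have hd0 : 0 ≤ p d - p (d + 1) := sub_nonneg.2 (hp.1 d hd)
    have e1 : ∑ r ∈ univ.filter (fun r : Fin S × Fin n => (r.2 : ℕ) = d),
        (c ^ (r.1 : ℕ) * s * √(p r.2 - p (r.2 + 1))) ^ 2 =
        ∑ k ∈ range S, (c ^ k * s) ^ 2 * (p d - p (d + 1)) := by
      rw [sum_filter, Fintype.sum_prod_type, ← Fin.sum_univ_eq_sum_range
        (fun k => (c ^ k * s) ^ 2 * (p d - p (d + 1))) S]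
      refine sum_congr rfl fun k _ => ?_
      rw [sum_eq_single ⟨d, hd⟩]
      · simp only [if_true]
        rw [mul_pow, Real.sq_sqrt hd0]
      · intro l _ hl
        exact if_neg fun h => hl (Fin.ext h)
      · simp
    have e2 : ∀ K : ℕ, ∑ k ∈ range K, (c ^ k * s) ^ 2 = 1 - (c ^ K) ^ 2 := by
      intro K
      induction K with
      | zero => simp
      | succ K ih =>
        rw [sum_range_succ, ih, mul_pow, show s ^ 2 = 1 - c ^ 2 by linarith]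
        ring
    rw [e1, ← sum_mul, e2, show (1 - (c ^ S) ^ 2) * (p d - p (d + 1)) - (p d - p (d + 1)) =
      -((c ^ S) ^ 2 * (p d - p (d + 1))) by ring, abs_neg, abs_of_nonneg (by positivity)]
    exact (mul_le_mul_of_nonneg_left (hQ d hd) (by positivity)).trans h2

/-- the whole interpolation -/
theorem chain (hO : OApi) (hR : RApi) (hH : HApi) {C B : ℝ} (hG : GrhC C) {T I : Type} [Fintype T]
    [DecidableEq T] [Fintype I] [DecidableEq I] {ν : Measure (OG I)} {n : ℕ}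
    {lev : T → ℕ} (hν : Haar ν) (hn : 1 ≤ n) (hl : LevOk n lev) (hB : 1 ≤ B) {g g1 g2 : ℝ → ℝ}
    (hg : Sm3 B g g1 g2) (h1 : Continuous g1) (h2 : Continuous g2) {A : Finset I} {i : I}
    (hi : i ∉ A) (hA : A.Nonempty) {Z : OG I → Cf T I → ℝ} (hZ : Ct Z) {F : Finset T} {δ : ℝ}
    (hinv : InvP n lev Z F {R | Sup (insert i A) R} δ) {w : Cf T I → ℝ} (hw : ∀ ω, w ω ^ 2 = 1)
    (fw : Idp F w) {p : ℕ → ℝ} (hp : Path n p) {lam : ℝ} (hlam : 0 < lam)
    (hc : ConcH ν n lev Z A p (lam ^ 2 * exp (-(8 * B)))) {φ M : ℝ}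
    (hs : 0 ≤ sin φ) (hM1 : √(Fintype.card I : ℝ) ≤ M)
    (hM2 : ∑ l : Fin n, √(p l - p (l + 1)) ≤ M) (hb : B * (sin φ * M) ≤ 1) (S : ℕ) :
    |TH ν n lev (fun U ω => Z U ω + g (yy U ω.2 i * w ω)) -
      TH ν n (Sum.elim lev (fun r : Fin S × Fin n => r.2))
        (fun U ω => Z U (pull Sum.inl ω) + g (sg (fun r : Fin S × Fin n =>
          cos φ ^ (r.1 : ℕ) * sin φ * √(p r.2 - p (r.2 + 1))) (ω.1 ∘ Sum.inr) *
            w (pull Sum.inl ω)))| ≤
      S * (δ + 2 * C * (B * (sin φ * M)) ^ 3) + 3 * B ^ 2 * lam / 2 + B * (|cos φ ^ S| * M) := by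
  have h0 := sm_cont hg
  obtain ⟨a, ha⟩ : ∃ a : Fin S × Fin n → ℝ, a = fun r =>
    cos φ ^ (r.1 : ℕ) * sin φ * √(p r.2 - p (r.2 + 1)) := ⟨_, rfl⟩
  rw [← ha]
  obtain ⟨lev1, hl1⟩ : ∃ lev1 : T ⊕ (Fin S × Fin n) → ℕ,
    lev1 = Sum.elim lev (fun r : Fin S × Fin n => r.2) := ⟨_, rfl⟩
  rw [← hl1]
  obtain ⟨lev2, hl2⟩ : ∃ lev2 : (T ⊕ (Fin S × Fin n)) ⊕ I → ℕ,
    lev2 = Sum.elim lev1 (fun _ => n - 1) := ⟨_, rfl⟩
  have ok2 : LevOk n lev2 := by
    rw [hl2, hl1]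
    rintro ((s | r) | j)
    · exact hl s
    · exact r.2.2
    · exact Nat.sub_lt hn one_pos
  have hf : Emb lev lev2 (fun s => Sum.inl (Sum.inl s)) :=
    ⟨fun s s' h => by simpa using h, fun s => by rw [hl2, hl1]; rfl⟩
  have hf1 : Emb lev1 lev2 Sum.inl := ⟨Sum.inl_injective, fun s => by rw [hl2]; rfl⟩
  obtain ⟨f, hf'⟩ : ∃ f : T → (T ⊕ (Fin S × Fin n)) ⊕ I, f = fun s => Sum.inl (Sum.inl s) :=
    ⟨_, rfl⟩
  rw [← hf'] at hf
  obtain ⟨St, hSt⟩ : ∃ St : ℕ → ℝ, ∀ k, St k = TH ν n lev2 (fun U ω => Z U (pull f ω) +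
    g ((cos φ ^ k * yy U ω.2 i + mk a k ω) * w (pull f ω))) := ⟨_, fun _ => rfl⟩
  have hZ2 : Ct fun U ω => Z U (pull f ω) := fun ω => hZ _
  have hst : ∀ k : Fin S, |St k - St (k + 1)| ≤ δ + 2 * C * (B * (sin φ * M)) ^ 3 +
      (cos φ ^ (k : ℕ) * sin φ) ^ 2 * (3 * B ^ 2 * lam / 2) := by
    intro k
    have key := step hO hH hG hν hn ok2 hB hg h1 h2 hi hA hZ2 (F := F.image f) (δ := δ)
      (fun R hR V hV iV => hH.inv hν hn hZ hinv R hR lev2 f hf ok2 V hV iV)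
      Sum.inr Sum.inr_injective (fun j => by rw [hl2]; rfl)
      (fun l => Sum.inl (Sum.inr (k, l))) (fun l l' h => by simpa using h)
      (fun l => by rw [hl2, hl1]; rfl) (m := mk a k) (w := fun ω => w (pull f ω))
      (fun ω => hw _) (mk_idp a k fun r _ => by simp [hf']) (idp_pull' hf.1 fw)
      (fun U => idp_pull (fun s => by simp [hf']) _) (mk_idp a k fun r _ => by simp)
      (idp_pull (fun s => by simp [hf']) _)
      (fun U => idp_pull (fun s => by simp [hf']) _)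
      (mk_idp a k fun r hr h => by
        obtain ⟨l, -, h⟩ := mem_image.1 h
        simp only [Sum.inl.injEq, Sum.inr.injEq] at h
        rw [← h] at hr
        exact lt_irrefl _ hr)
      (idp_pull (fun s => by simp [hf']) _) hp hlam
      ((emb_all hR hH hν hn hf hZ).2 A p _ hc) (ρ := cos φ ^ (k : ℕ)) (φ := φ) (M := M)
      (by rw [abs_pow]; exact pow_le_one₀ (abs_nonneg _) (abs_cos_le_one φ)) hs hM1 hM2 hb
    rw [hSt, hSt]
    refine le_trans (le_of_eq ?_) key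
    congr 3
    funext U ω
    rw [mk_succ, pow_succ, ha]
  have hind : ∀ k, k ≤ S → |St 0 - St k| ≤ k * (δ + 2 * C * (B * (sin φ * M)) ^ 3) +
      (1 - (cos φ ^ k) ^ 2) * (3 * B ^ 2 * lam / 2) := by
    intro k
    induction k with
    | zero => intro _; simp
    | succ k ih =>
      intro hk
      have a1 := ih (by omega)
      have a2 := hst ⟨k, hk⟩
      have a3 : (cos φ ^ k * sin φ) ^ 2 = (cos φ ^ k) ^ 2 - (cos φ ^ (k + 1)) ^ 2 := by
        rw [mul_pow, sin_sq]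
        ring
      simp only [a3] at a2
      have a4 := abs_sub_le (St 0) (St k) (St (k + 1))
      push_cast
      linarith
  have c0 : Ct fun U ω => Z U ω + g (yy U ω.2 i * w ω) := fun ω =>
    (hZ ω).add (h0.comp ((hO.cont _ _).mul_const _))
  have e0 : St 0 = TH ν n lev (fun U ω => Z U ω + g (yy U ω.2 i * w ω)) := by
    rw [hSt, ← (emb_all hR hH hν hn hf c0).1]
    congr 1
    funext U ω
    simp [mk, pull]
  have c1 : Ct fun U (ω : Cf (T ⊕ (Fin S × Fin n)) I) => Z U (pull Sum.inl ω) +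
      g (sg a (ω.1 ∘ Sum.inr) * w (pull Sum.inl ω)) := fun ω => (hZ _).add continuous_const
  have e1 := (emb_all hR hH hν hn hf1 c1).1
  have c2 : Ct fun U ω => Z U (pull f ω) +
      g ((cos φ ^ S * yy U ω.2 i + mk a S ω) * w (pull f ω)) := fun ω =>
    (hZ _).add (h0.comp ((((hO.cont _ _).const_mul _).add continuous_const).mul_const _))
  have hpt : ∀ U (ω : Cf ((T ⊕ (Fin S × Fin n)) ⊕ I) I), |Z U (pull f ω) +
      g ((cos φ ^ S * yy U ω.2 i + mk a S ω) * w (pull f ω)) -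
      (Z U (pull Sum.inl (pull Sum.inl ω)) + g (sg a ((pull Sum.inl ω).1 ∘ Sum.inr) *
        w (pull Sum.inl (pull Sum.inl ω))))| ≤ B * (|cos φ ^ S| * M) := by
    intro U ω
    have b1 : pull Sum.inl (pull Sum.inl ω) = pull f ω := by rw [hf']; rfl
    have b2 : sg a ((pull Sum.inl ω).1 ∘ Sum.inr) = mk a S ω :=
      sum_congr rfl fun r _ => (if_pos r.1.2).symm
    rw [b1, b2, add_sub_add_left_eq_sub]
    have b3 := hg.lip (mk a S ω * w (pull f ω)) (cos φ ^ S * yy U ω.2 i * w (pull f ω))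
    rw [← add_mul, add_comm, abs_mul, abs_one_of_sq (hw _), mul_one, abs_mul] at b3
    refine b3.trans (mul_le_mul_of_nonneg_left ?_ (by linarith))
    exact mul_le_mul_of_nonneg_left ((hO.bd U _ i).2.trans hM1) (abs_nonneg _)
  have l1 := hH.le lev2 (B * (|cos φ ^ S| * M)) hν hn c2 (fun ω => c1 (pull Sum.inl ω))
    fun U ω => by linarith [(abs_le.1 (hpt U ω)).2]
  have l2 := hH.le lev2 (B * (|cos φ ^ S| * M)) hν hn (fun ω => c1 (pull Sum.inl ω)) c2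
    fun U ω => by linarith [(abs_le.1 (hpt U ω)).1]
  rw [← hSt, e1] at l1 l2
  have a5 := hind S le_rfl
  have a6 : (1 - (cos φ ^ S) ^ 2) * (3 * B ^ 2 * lam / 2) ≤ 3 * B ^ 2 * lam / 2 :=
    mul_le_of_le_one_left (by positivity) (by linarith [sq_nonneg (cos φ ^ S)])
  rw [← e0]
  rw [abs_le] at a5 ⊢
  constructor <;> linarith [a5.1, a5.2]

theorem small {K c : ℝ} (hK : 0 ≤ K) (hc : 0 < c) : ∃ σ : ℝ, 0 < σ ∧ ∀ s, s ≤ σ → s * K ≤ c := by
  refine ⟨c / (K + 1), by positivity, fun s hs => (mul_le_mul_of_nonneg_right hs hK).trans ?_⟩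
  rw [div_mul_eq_mul_div, div_le_iff₀ (by positivity)]
  nlinarith

theorem angle {τ σ : ℝ} (hτ : 0 < τ) (hσ : 0 < σ) (hσ1 : σ ≤ 1) : ∃ (S : ℕ) (φ : ℝ), 0 < S ∧
    0 ≤ sin φ ∧ sin φ ≤ σ ∧ S * sin φ ^ 2 = 1 / τ ^ 2 ∧ |cos φ ^ S| ≤ τ := by
  have hS : 0 < ⌈1 / τ ^ 2 / σ ^ 2⌉₊ := Nat.ceil_pos.2 (by positivity)
  have hS' := Nat.le_ceil (1 / τ ^ 2 / σ ^ 2)
  generalize ⌈1 / τ ^ 2 / σ ^ 2⌉₊ = S at hS hS'
  have hS0 : (0 : ℝ) < S := by exact_mod_cast hS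
  have h1 : √(1 / τ ^ 2 / S) ≤ σ := by
    rw [Real.sqrt_le_left hσ.le, div_le_iff₀ hS0]
    rw [div_le_iff₀ (by positivity)] at hS'
    linarith
  have h2 : sin (arcsin √(1 / τ ^ 2 / S)) = √(1 / τ ^ 2 / S) :=
    sin_arcsin (by linarith [Real.sqrt_nonneg (1 / τ ^ 2 / S)]) (h1.trans hσ1)
  have h3 : S * sin (arcsin √(1 / τ ^ 2 / S)) ^ 2 = 1 / τ ^ 2 := by
    rw [h2, Real.sq_sqrt (by positivity)]
    field_simp
  refine ⟨S, arcsin √(1 / τ ^ 2 / S), hS, by rw [h2]; positivity, by rw [h2]; exact h1, h3, ?_⟩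
  generalize arcsin √(1 / τ ^ 2 / S) = φ at h3
  have a1 := one_add_mul_le_pow (a := sin φ ^ 2) (by linarith [sq_nonneg (sin φ)]) S
  have a2 : (cos φ ^ S) ^ 2 * (1 + sin φ ^ 2) ^ S ≤ 1 := by
    rw [← pow_mul, mul_comm S 2, pow_mul, ← mul_pow, cos_sq']
    refine pow_le_one₀ (mul_nonneg (by linarith [sin_sq_le_one φ]) (by positivity)) ?_
    nlinarith [sq_nonneg (sin φ ^ 2)]
  have a3 : (cos φ ^ S) ^ 2 * (1 / τ ^ 2) ≤ 1 :=
    (mul_le_mul_of_nonneg_left (by linarith) (sq_nonneg _)).trans a2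
  rw [mul_one_div, div_le_one (by positivity)] at a3
  exact abs_le_of_sq_le_sq' a3 hτ.le |> abs_le.2

end Ou

open Ou in
theorem ouStmt (hO : OApi) (hR : RApi) (hH : HApi) (h : GrhStmt) : OuStmt := by
  obtain ⟨C, hC, hG⟩ := h
  intro B η ε hB hη hε
  have hlam : 0 < ε / (6 * B ^ 2) := by positivity
  refine ⟨(ε / (6 * B ^ 2)) ^ 2 * exp (-(8 * B)), by positivity, fun n N η1 hn hη1 => ?_⟩
  obtain ⟨M, hM⟩ : ∃ M : ℝ, M = √(N : ℝ) + n * √(1 / η) + 1 := ⟨_, rfl⟩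
  have hM0 : 0 ≤ n * √(1 / η) := by positivity
  have hM1 : 1 ≤ M := by linarith [Real.sqrt_nonneg (N : ℝ)]
  have hBM : 1 ≤ B * M := one_le_mul_of_one_le_of_one_le hB hM1
  obtain ⟨τ1, t1, t1'⟩ := small (K := B * M) (c := ε / 4) (by positivity) (by positivity)
  obtain ⟨τ2, t2, t2'⟩ := small (K := 1 / η) (c := η1) (by positivity) hη1
  have hτ : 0 < min τ1 (min τ2 1) := by positivity
  have u1 : min τ1 (min τ2 1) ≤ τ1 := min_le_left _ _
  have u2 : min τ1 (min τ2 1) ≤ τ2 := (min_le_right _ _).trans (min_le_left _ _)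
  have u3 : min τ1 (min τ2 1) ≤ 1 := (min_le_right _ _).trans (min_le_right _ _)
  generalize min τ1 (min τ2 1) = τ at hτ u1 u2 u3
  obtain ⟨σ1, s1, s1'⟩ := small (K := B * M) (c := 1) (by positivity) one_pos
  obtain ⟨σ2, s2, s2'⟩ := small (K := √(1 / η)) (c := η1) (by positivity) hη1
  obtain ⟨σ3, s3, s3'⟩ := small (K := 2 * C * (B * M) ^ 3 * (1 / τ ^ 2)) (c := ε / 4)
    (by positivity) (by positivity)
  obtain ⟨S, φ, hS, p1, p2, p3, p4⟩ := angle hτ (σ := min (min σ1 σ2) (min σ3 1)) (by positivity)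
    ((min_le_right _ _).trans (min_le_right _ _))
  have hS0 : (0 : ℝ) < S := by exact_mod_cast hS
  have v1 := s1' _ (p2.trans ((min_le_left _ _).trans (min_le_left _ _)))
  have v2 := s2' _ (p2.trans ((min_le_left _ _).trans (min_le_right _ _)))
  have v3 := s3' _ (p2.trans ((min_le_right _ _).trans (min_le_left _ _)))
  refine ⟨ε / 4 / S, by positivity, S, ?_⟩
  intro T I _ _ _ _ ν lev Z F A i w g g1 g2 p hν hl hZ hN hi hA hw fw hg h1 h2 hp hp0 hinv hc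
  have hQ : ∀ l, l < n → p l - p (l + 1) ≤ 1 / η := by
    intro l hl
    refine le_trans ?_ hp0
    rw [← tele n p hp.2]
    exact single_le_sum (f := fun l : Fin n => p l - p (l + 1))
      (fun l _ => sub_nonneg.2 (hp.1 l l.2)) (mem_univ ⟨l, hl⟩)
  refine ⟨_, mic hp (cos_sq_add_sin_sq φ) (abs_cos_le_one φ) p1 hQ v2 ?_, ?_⟩
  · refine le_trans (mul_le_mul_of_nonneg_right ?_ (by positivity)) (t2' τ u2)
    rw [← sq_abs]
    nlinarith [abs_nonneg (cos φ ^ S)]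
  have hM2 : √(Fintype.card I : ℝ) ≤ M := by
    have : √(Fintype.card I : ℝ) ≤ √(N : ℝ) := Real.sqrt_le_sqrt (by exact_mod_cast hN)
    linarith
  have hM3 : ∑ l : Fin n, √(p l - p (l + 1)) ≤ M := by
    refine (sum_le_card_nsmul _ _ (√(1 / η)) fun (l : Fin n) _ =>
      Real.sqrt_le_sqrt (hQ l l.2)).trans ?_
    rw [card_univ, Fintype.card_fin, nsmul_eq_mul]
    linarith [Real.sqrt_nonneg (N : ℝ)]
  refine (chain hO hR hH hG hν hn hl hB hg h1 h2 hi hA hZ hinv hw fw hp hlam hc p1 hM2 hM3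
    (by linarith [mul_left_comm B (sin φ) M]) S).trans ?_
  have w1 : S * (ε / 4 / S + 2 * C * (B * (sin φ * M)) ^ 3) =
      ε / 4 + sin φ * (2 * C * (B * M) ^ 3 * (1 / τ ^ 2)) := by
    rw [← p3]
    field_simp
  have w2 : 3 * B ^ 2 * (ε / (6 * B ^ 2)) / 2 = ε / 4 := by
    field_simp
    ring
  have w3 := t1' _ (p4.trans u1)
  rw [w1, w2, mul_left_comm B]
  linarith

end Vale.Agent.P166
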