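import Vale.Agent.P166.Stm

/-! P166, module Ou, part 1: the second order expansion of a smooth test. -/

namespace Vale.Agent.P166

open MeasureTheory Finset Real Vale.Agent.P157

namespace Ou

theorem sm_cont {B : ℝ} {g g1 g2 : ℝ → ℝ} (h : Sm3 B g g1 g2) : Continuous g := by
  have hB : 0 ≤ B := (abs_nonneg _).trans (h.b0 0)
  refine (LipschitzWith.of_dist_le_mul (K := ⟨B, hB⟩) fun x y => ?_).continuous
  have := h.lip y (x - y)
  rw [show y + (x - y) = x by ring] at this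
  rw [Real.dist_eq, Real.dist_eq]
  exact this

/-- the content of `GrhStmt` with a given constant -/
def GrhC (C : ℝ) : Prop := ∀ (T I : Type) [Fintype T] [DecidableEq T] [Fintype I]
  [DecidableEq I] (ν : Measure (OG I)) (n : ℕ) (lev : T → ℕ) (A : Finset T)
  (Z Z' : OG I → Cf T I → ℝ) (u : T → OG I → Cf T I → ℝ) (v : T → T → OG I → Cf T I → ℝ) (b : ℝ),
    Haar ν → 1 ≤ n → LevOk n lev → b ≤ 1 → Ct Z → Ct Z' → (∀ s, Ct (u s)) → (∀ s s', Ct (v s s')) →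
    (∀ U, Exq A (Z U) (Z' U) (fun s => u s U) (fun s s' => v s s' U) b) →
    |TH ν n lev Z' - TH ν n lev Z - GmH ν n lev Z A u v| ≤ C * b ^ 3

variable {T I : Type} [Fintype T] [DecidableEq T] [Fintype I] [DecidableEq I]

theorem grh_set {C B β : ℝ} (hG : GrhC C) {ν : Measure (OG I)} {n : ℕ} {lev : T → ℕ}
    (hν : Haar ν) (hn : 1 ≤ n) (hl : LevOk n lev) (hB : 1 ≤ B) {g g1 g2 : ℝ → ℝ}
    (hg : Sm3 B g g1 g2) (h1 : Continuous g1) (h2 : Continuous g2) (A : Finset T)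
    (Z t : OG I → Cf T I → ℝ) (al : T → OG I → Cf T I → ℝ) (hZ : Ct Z) (ht : Ct t)
    (ha : ∀ s, Ct (al s)) (iZ : ∀ U, Idp A (Z U)) (it : ∀ U, Idp A (t U))
    (ia : ∀ s ∈ A, ∀ U, Idp A (al s U))
    (hb : ∀ U ω, |∑ s ∈ A, spin (ω.1 s) * al s U ω| ≤ β) (hβ : B * β ≤ 1) :
    |TH ν n lev (fun U ω => Z U ω + g (t U ω + ∑ s ∈ A, spin (ω.1 s) * al s U ω)) -
      TH ν n lev (fun U ω => Z U ω + g (t U ω)) -
      GmH ν n lev (fun U ω => Z U ω + g (t U ω)) A (fun s U ω => g1 (t U ω) * al s U ω)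
        (fun s s' U ω => g2 (t U ω) * (al s U ω * al s' U ω))| ≤ C * (B * β) ^ 3 := by
  have h0 := sm_cont hg
  refine hG T I ν n lev A _ _ _ _ (B * β) hν hn hl hβ ?_ ?_ ?_ ?_ ?_
  · intro ω
    exact (hZ ω).add (h0.comp (ht ω))
  · intro ω
    exact (hZ ω).add (h0.comp ((ht ω).add (continuous_finsetSum _ fun s _ =>
      continuous_const.mul (ha s ω))))
  · intro s ω
    exact (h1.comp (ht ω)).mul (ha s ω)
  · intro s s' ω
    exact (h2.comp (ht ω)).mul ((ha s ω).mul (ha s' ω))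
  intro U
  have e1 : ∀ ω : Cf T I, ∑ s ∈ A, spin (ω.1 s) * (g1 (t U ω) * al s U ω) =
      (∑ s ∈ A, spin (ω.1 s) * al s U ω) * g1 (t U ω) := by
    intro ω
    rw [sum_mul]
    exact sum_congr rfl fun s _ => by ring
  have e2 : ∀ ω : Cf T I, ∑ s ∈ A, ∑ s' ∈ A, spin (ω.1 s) * spin (ω.1 s') *
      (g2 (t U ω) * (al s U ω * al s' U ω)) =
      (∑ s ∈ A, spin (ω.1 s) * al s U ω) ^ 2 * g2 (t U ω) := by
    intro ω
    rw [sq, sum_mul_sum, sum_mul]
    refine sum_congr rfl fun s _ => ?_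
    rw [sum_mul]
    exact sum_congr rfl fun s' _ => by ring
  have hβ0 : 0 ≤ β := (abs_nonneg _).trans (hb U (w0 T I))
  refine ⟨?_, ?_, ?_, ?_, ?_, ?_⟩
  · intro e e' σ h
    simp only [iZ U e e' σ h, it U e e' σ h]
  · intro s hs e e' σ h
    simp only [it U e e' σ h, ia s hs U e e' σ h]
  · intro s hs s' hs' e e' σ h
    simp only [it U e e' σ h, ia s hs U e e' σ h, ia s' hs' U e e' σ h]
  · intro ω
    rw [e1, abs_mul, mul_comm B]
    exact mul_le_mul (hb U ω) (hg.b1 _) (abs_nonneg _) hβ0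
  · intro ω
    rw [e2, abs_mul, abs_pow]
    have a1 : |∑ s ∈ A, spin (ω.1 s) * al s U ω| ^ 2 ≤ β ^ 2 :=
      pow_le_pow_left₀ (abs_nonneg _) (hb U ω) 2
    have a2 := hg.b2 (t U ω)
    have a3 : β ^ 2 * B ≤ (B * β) ^ 2 := by
      have : 0 ≤ β ^ 2 * B * (B - 1) := mul_nonneg (by positivity) (by linarith)
      nlinarith
    exact (mul_le_mul a1 a2 (abs_nonneg _) (by positivity)).trans a3
  · intro ω
    rw [e1, e2]
    have a1 := hg.tay (t U ω) (∑ s ∈ A, spin (ω.1 s) * al s U ω)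
    have a2 : |∑ s ∈ A, spin (ω.1 s) * al s U ω| ^ 3 ≤ β ^ 3 :=
      pow_le_pow_left₀ (abs_nonneg _) (hb U ω) 3
    have a3 : B * β ^ 3 ≤ (B * β) ^ 3 := by
      have b1 : 1 ≤ B ^ 2 := one_le_pow₀ hB
      have b2 : 0 ≤ B * β ^ 3 := by positivity
      nlinarith
    have a4 := mul_le_mul_of_nonneg_left a2 (by linarith : (0 : ℝ) ≤ B)
    refine le_trans (le_of_eq ?_) (a1.trans (a4.trans a3))
    congr 1
    ring

/-- the same for an indexed family of signs -/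
theorem grh_idx {J : Type} {C B β : ℝ} (hG : GrhC C) {ν : Measure (OG I)} {n : ℕ} {lev : T → ℕ}
    (hν : Haar ν) (hn : 1 ≤ n) (hl : LevOk n lev) (hB : 1 ≤ B) {g g1 g2 : ℝ → ℝ}
    (hg : Sm3 B g g1 g2) (h1 : Continuous g1) (h2 : Continuous g2) (A : Finset J) (ι : J → T)
    (hι : Function.Injective ι) (Z t : OG I → Cf T I → ℝ) (c : J → OG I → Cf T I → ℝ) (hZ : Ct Z)
    (ht : Ct t) (ha : ∀ j, Ct (c j)) (iZ : ∀ U, Idp (A.image ι) (Z U))
    (it : ∀ U, Idp (A.image ι) (t U)) (ia : ∀ j, ∀ U, Idp (A.image ι) (c j U))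
    (hb : ∀ U ω, |∑ j ∈ A, spin (ω.1 (ι j)) * c j U ω| ≤ β) (hβ : B * β ≤ 1) :
    |TH ν n lev (fun U ω => Z U ω + g (t U ω + ∑ j ∈ A, spin (ω.1 (ι j)) * c j U ω)) -
      TH ν n lev (fun U ω => Z U ω + g (t U ω)) -
      ∑ j ∈ A, (EH ν n lev (fun U ω => Z U ω + g (t U ω))
          (fun U ω => (g2 (t U ω) + g1 (t U ω) ^ 2) * c j U ω ^ 2) -
        (1 / (n : ℝ)) * ∑ d ∈ Icc 1 (lev (ι j)), EW ν n lev (fun U ω => Z U ω + g (t U ω)) d
          (fun U ω ω' => g1 (t U ω) * c j U ω * (g1 (t U ω') * c j U ω'))) / 2| ≤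
      C * (B * β) ^ 3 := by
  obtain ⟨al, hal⟩ : ∃ al : T → OG I → Cf T I → ℝ, (∀ j, al (ι j) = c j) ∧ ∀ s, Ct (al s) := by
    refine ⟨Function.extend ι c 0, fun j => hι.extend_apply _ _ _, fun s => ?_⟩
    by_cases h : ∃ j, ι j = s
    · obtain ⟨j, rfl⟩ := h
      rw [hι.extend_apply]
      exact ha j
    · rw [Function.extend_apply' _ _ _ h]
      intro ω
      exact continuous_const
  have hs : ∀ F : T → ℝ, ∑ s ∈ A.image ι, F s = ∑ j ∈ A, F (ι j) := fun F =>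
    sum_image fun a _ b _ h => hι h
  have key := grh_set (β := β) hG hν hn hl hB hg h1 h2 (A.image ι) Z t al hZ ht hal.2 iZ it
    (by
      intro s hs U
      obtain ⟨j, _, rfl⟩ := mem_image.1 hs
      rw [hal.1]
      exact ia j U)
    (by
      intro U ω
      rw [hs]
      simp only [hal.1]
      exact hb U ω) hβ
  unfold GmH at key
  simp only [hs, hal.1] at key
  have e : ∀ j, (fun U ω => g2 (t U ω) * (c j U ω * c j U ω) + (g1 (t U ω) * c j U ω) ^ 2) =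
      fun U ω => (g2 (t U ω) + g1 (t U ω) ^ 2) * c j U ω ^ 2 := by
    intro j
    funext U ω
    ring
  simp only [e] at key
  exact key

end Ou

end Vale.Agent.P166
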