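import Vale.Agent.P166.Ou1

/-! P166, module Ou, part 2: the two second order terms agree up to the concentration error. -/

namespace Vale.Agent.P166

open MeasureTheory Finset Real Vale.Agent.P157

namespace Ou

theorem amgm {G x M lam : ℝ} (hG : |G| ≤ M) (hl : 0 < lam) :
    |G * x| ≤ M / (2 * lam) * x ^ 2 + M * lam / 2 := by
  have hM : 0 ≤ M := (abs_nonneg _).trans hG
  have h1 : |x| ≤ x ^ 2 / (2 * lam) + lam / 2 := by
    rw [← sq_abs x, div_add_div _ _ (by positivity) (by norm_num), le_div_iff₀ (by positivity)]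
    nlinarith [sq_nonneg (|x| - lam)]
  rw [abs_mul]
  calc |G| * |x| ≤ M * (x ^ 2 / (2 * lam) + lam / 2) := mul_le_mul hG h1 (abs_nonneg _) hM
    _ = _ := by ring

theorem abel (n : ℕ) (p E : ℕ → ℝ) (hp : p n = 0) :
    ∑ l : Fin n, (p l - p (l + 1)) * ∑ d ∈ Icc 1 (l : ℕ), E d = ∑ d ∈ Ico 1 n, p d * E d := by
  rw [Fin.sum_univ_eq_sum_range (fun l => (p l - p (l + 1)) * ∑ d ∈ Icc 1 l, E d) n]
  simp only [mul_sum]
  rw [sum_comm' (t' := Ico 1 n) (s' := fun d => Ico d n)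
    (by intro l d; simp only [mem_range, mem_Icc, mem_Ico]; omega)]
  refine sum_congr rfl fun d hd => ?_
  rw [← sum_mul]
  congr 1
  have := sum_Ico_sub (fun l => -p l) (mem_Ico.1 hd).2.le
  rw [hp] at this
  rw [show p d = -0 - -p d by ring, ← this]
  exact sum_congr rfl fun l _ => by ring

theorem tele (n : ℕ) (p : ℕ → ℝ) (hp : p n = 0) : ∑ l : Fin n, (p l - p (l + 1)) = p 0 := by
  rw [Fin.sum_univ_eq_sum_range (fun l => p l - p (l + 1)) n, sum_range_sub', hp, sub_zero]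

variable {T I : Type} [Fintype T] [DecidableEq T] [Fintype I] [DecidableEq I]
  {ν : Measure (OG I)} {n : ℕ} {lev : T → ℕ} {Z : OG I → Cf T I → ℝ}

theorem smul1 (H : HOne ν n lev Z) (a : ℝ) {g : OG I → Cf T I → ℝ} (hg : Ct g) :
    EH ν n lev Z (fun U ω => a * g U ω) = a * EH ν n lev Z g := by
  have := H.lin g g a 0 hg hg
  simpa only [zero_mul, add_zero] using this

theorem smul2 (H : HOne ν n lev Z) {d : ℕ} (hd : d ≤ n) (a : ℝ)
    {g : OG I → Cf T I → Cf T I → ℝ} (hg : Ct2 g) :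
    EW ν n lev Z d (fun U ω ω' => a * g U ω ω') = a * EW ν n lev Z d g := by
  have := H.lin2 d hd g g a 0 hg hg
  simpa only [zero_mul, add_zero] using this

theorem bd1 (H : HOne ν n lev Z) {G X : OG I → Cf T I → ℝ} (hG : Ct G) (hX : Ct X) {M lam : ℝ}
    (q : ℝ) (hM : ∀ U ω, |G U ω| ≤ M) (hl : 0 < lam) :
    |EH ν n lev Z (fun U ω => G U ω * X U ω) - q * EH ν n lev Z G| ≤
      M / (2 * lam) * EH ν n lev Z (fun U ω => (X U ω - q) ^ 2) + M * lam / 2 := by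
  have c1 : Ct fun U ω => G U ω * X U ω := fun ω => (hG ω).mul (hX ω)
  have c2 : Ct fun U ω => (X U ω - q) ^ 2 := fun ω => ((hX ω).sub continuous_const).pow 2
  have c3 : Ct fun (_ : OG I) (_ : Cf T I) => (1 : ℝ) := fun ω => continuous_const
  have e := H.lin _ _ (M / (2 * lam)) (M * lam / 2) c2 c3
  rw [H.const, mul_one] at e
  have key : ∀ a : ℝ, |a| = 1 → a * EH ν n lev Z (fun U ω => G U ω * X U ω) +
      (-a * q) * EH ν n lev Z G ≤
      M / (2 * lam) * EH ν n lev Z (fun U ω => (X U ω - q) ^ 2) + M * lam / 2 := by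
    intro a ha
    rw [← e, ← H.lin _ _ a (-a * q) c1 hG]
    refine H.mono _ _ (fun ω => ((c1 ω).const_mul _).add ((hG ω).const_mul _))
      (fun ω => ((c2 ω).const_mul _).add continuous_const) fun U ω => ?_
    have := amgm (G := a * G U ω) (x := X U ω - q) (M := M)
      (by rw [abs_mul, ha, one_mul]; exact hM U ω) hl
    refine le_trans (le_of_eq ?_) ((le_abs_self _).trans this)
    ring
  have k1 := key 1 abs_one
  have k2 := key (-1) (by simp)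
  rw [abs_le]
  constructor <;> linarith

theorem bd2 (H : HOne ν n lev Z) {d : ℕ} (hd : d ≤ n) {G X : OG I → Cf T I → Cf T I → ℝ}
    (hG : Ct2 G) (hX : Ct2 X) {M lam : ℝ} (q : ℝ) (hM : ∀ U ω ω', |G U ω ω'| ≤ M) (hl : 0 < lam) :
    |EW ν n lev Z d (fun U ω ω' => G U ω ω' * X U ω ω') - q * EW ν n lev Z d G| ≤
      M / (2 * lam) * EW ν n lev Z d (fun U ω ω' => (X U ω ω' - q) ^ 2) + M * lam / 2 := by
  have c1 : Ct2 fun U ω ω' => G U ω ω' * X U ω ω' := fun ω ω' => (hG ω ω').mul (hX ω ω')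
  have c2 : Ct2 fun U ω ω' => (X U ω ω' - q) ^ 2 := fun ω ω' =>
    ((hX ω ω').sub continuous_const).pow 2
  have c3 : Ct2 fun (_ : OG I) (_ _ : Cf T I) => (1 : ℝ) := fun ω ω' => continuous_const
  have e := H.lin2 d hd _ _ (M / (2 * lam)) (M * lam / 2) c2 c3
  rw [H.const2 d hd, mul_one] at e
  have key : ∀ a : ℝ, |a| = 1 → a * EW ν n lev Z d (fun U ω ω' => G U ω ω' * X U ω ω') +
      (-a * q) * EW ν n lev Z d G ≤
      M / (2 * lam) * EW ν n lev Z d (fun U ω ω' => (X U ω ω' - q) ^ 2) + M * lam / 2 := by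
    intro a ha
    rw [← e, ← H.lin2 d hd _ _ a (-a * q) c1 hG]
    refine H.mono2 d hd _ _ (fun ω ω' => ((c1 ω ω').const_mul _).add ((hG ω ω').const_mul _))
      (fun ω ω' => ((c2 ω ω').const_mul _).add continuous_const) fun U ω ω' => ?_
    have := amgm (G := a * G U ω ω') (x := X U ω ω' - q) (M := M)
      (by rw [abs_mul, ha, one_mul]; exact hM U ω ω') hl
    refine le_trans (le_of_eq ?_) ((le_abs_self _).trans this)
    ring
  have k1 := key 1 abs_one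
  have k2 := key (-1) (by simp)
  rw [abs_le]
  constructor <;> linarith

theorem ct_rA (hO : OApi) (A : Finset I) (σ σ' : I → Bool) :
    Continuous fun U : OG I => rA A U σ σ' :=
  (continuous_finsetSum _ fun j _ => (hO.cont σ j).mul (hO.cont σ' j)).div_const _

/-- the second order term of a real step -/
theorem real_eq (hO : OApi) (H : HOne ν n lev Z) (hn : 1 ≤ n) {A : Finset I} (hA : A.Nonempty)
    {G1 G2 : OG I → Cf T I → ℝ} (h1 : Ct G1) (h2 : Ct G2) {w : Cf T I → ℝ} (hw : ∀ ω, w ω ^ 2 = 1)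
    (ρ : ℝ) :
    ∑ j ∈ A, (EH ν n lev Z (fun U ω => G2 U ω * (ρ * (yy U ω.2 j / √(A.card : ℝ)) * w ω) ^ 2) -
      (1 / (n : ℝ)) * ∑ d ∈ Icc 1 (n - 1), EW ν n lev Z d (fun U ω ω' =>
        G1 U ω * (ρ * (yy U ω.2 j / √(A.card : ℝ)) * w ω) *
          (G1 U ω' * (ρ * (yy U ω'.2 j / √(A.card : ℝ)) * w ω')))) / 2 =
    ρ ^ 2 / 2 * (EH ν n lev Z (fun U ω => G2 U ω * rA A U ω.2 ω.2) -
      (1 / (n : ℝ)) * ∑ d ∈ Ico 1 n, EW ν n lev Z d (fun U ω ω' =>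
        G1 U ω * w ω * (G1 U ω' * w ω') * rA A U ω.2 ω'.2)) := by
  have hc : (0 : ℝ) < A.card := by exact_mod_cast hA.card_pos
  have hs : √(A.card : ℝ) * √(A.card : ℝ) = A.card := Real.mul_self_sqrt hc.le
  have hs0 : √(A.card : ℝ) ≠ 0 := (Real.sqrt_pos.2 hc).ne'
  have cc : ∀ (j : I) (ω : Cf T I), Continuous fun U : OG I =>
      ρ * (yy U ω.2 j / √(A.card : ℝ)) * w ω := fun j ω =>
    (((hO.cont ω.2 j).div_const _).const_mul _).mul_const _
  have eI : Icc 1 (n - 1) = Ico 1 n := by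
    ext d
    simp only [mem_Icc, mem_Ico]
    omega
  have a1 : ∑ j ∈ A, EH ν n lev Z
      (fun U ω => G2 U ω * (ρ * (yy U ω.2 j / √(A.card : ℝ)) * w ω) ^ 2) =
      ρ ^ 2 * EH ν n lev Z (fun U ω => G2 U ω * rA A U ω.2 ω.2) := by
    have k1 : ∀ j ∈ A, Ct fun U ω => G2 U ω * (ρ * (yy U ω.2 j / √(A.card : ℝ)) * w ω) ^ 2 :=
      fun j _ ω => (h2 ω).mul ((cc j ω).pow 2)
    have k2 : Ct fun U ω => G2 U ω * rA A U ω.2 ω.2 := fun ω => (h2 ω).mul (ct_rA hO A _ _)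
    rw [← H.sum A _ k1, ← smul1 H _ k2]
    congr 1
    funext U ω
    unfold rA
    rw [sum_div, mul_sum, mul_sum]
    refine sum_congr rfl fun j _ => ?_
    rw [mul_pow, hw, mul_pow, div_pow, Real.sq_sqrt hc.le]
    ring
  have a2 : ∀ d ∈ Ico 1 n, ∑ j ∈ A, EW ν n lev Z d (fun U ω ω' =>
        G1 U ω * (ρ * (yy U ω.2 j / √(A.card : ℝ)) * w ω) *
          (G1 U ω' * (ρ * (yy U ω'.2 j / √(A.card : ℝ)) * w ω'))) =
      ρ ^ 2 * EW ν n lev Z d (fun U ω ω' =>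
        G1 U ω * w ω * (G1 U ω' * w ω') * rA A U ω.2 ω'.2) := by
    intro d hd
    have hd' := (mem_Ico.1 hd).2.le
    have k1 : ∀ j ∈ A, Ct2 fun U ω ω' => G1 U ω * (ρ * (yy U ω.2 j / √(A.card : ℝ)) * w ω) *
        (G1 U ω' * (ρ * (yy U ω'.2 j / √(A.card : ℝ)) * w ω')) :=
      fun j _ ω ω' => ((h1 ω).mul (cc j ω)).mul ((h1 ω').mul (cc j ω'))
    have k2 : Ct2 fun U ω ω' => G1 U ω * w ω * (G1 U ω' * w ω') * rA A U ω.2 ω'.2 := fun ω ω' =>
      (((h1 ω).mul_const _).mul ((h1 ω').mul_const _)).mul (ct_rA hO A _ _)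
    rw [← H.sum2 d hd' A _ k1, ← smul2 H hd' _ k2]
    congr 1
    funext U ω ω'
    unfold rA
    rw [sum_div, mul_sum, mul_sum]
    refine sum_congr rfl fun j _ => ?_
    generalize √(A.card : ℝ) = r at hs hs0 ⊢
    rw [← hs]
    field_simp
  rw [← sum_div, sum_sub_distrib, ← mul_sum, a1, eI, sum_comm, sum_congr rfl a2, ← mul_sum]
  ring

/-- the second order term of a step with independent signs -/
theorem fake_eq (H : HOne ν n lev Z) {p : ℕ → ℝ} (hp : Path n p)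
    {G1 G2 : OG I → Cf T I → ℝ} (h1 : Ct G1) (h2 : Ct G2) {w : Cf T I → ℝ} (hw : ∀ ω, w ω ^ 2 = 1)
    (ρ : ℝ) :
    ∑ l : Fin n, (EH ν n lev Z (fun U ω => G2 U ω * (ρ * √(p l - p (l + 1)) * w ω) ^ 2) -
      (1 / (n : ℝ)) * ∑ d ∈ Icc 1 (l : ℕ), EW ν n lev Z d (fun U ω ω' =>
        G1 U ω * (ρ * √(p l - p (l + 1)) * w ω) *
          (G1 U ω' * (ρ * √(p l - p (l + 1)) * w ω')))) / 2 =
    ρ ^ 2 / 2 * (p 0 * EH ν n lev Z G2 -
      (1 / (n : ℝ)) * ∑ d ∈ Ico 1 n, p d * EW ν n lev Z d (fun U ω ω' =>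
        G1 U ω * w ω * (G1 U ω' * w ω'))) := by
  have hq : ∀ l : Fin n, √(p l - p (l + 1)) ^ 2 = p l - p (l + 1) := fun l =>
    Real.sq_sqrt (sub_nonneg.2 (hp.1 l l.2))
  have a1 : ∀ l : Fin n, EH ν n lev Z (fun U ω => G2 U ω * (ρ * √(p l - p (l + 1)) * w ω) ^ 2) =
      ρ ^ 2 * (p l - p (l + 1)) * EH ν n lev Z G2 := by
    intro l
    rw [← smul1 H _ h2]
    congr 1
    funext U ω
    rw [mul_pow, hw, mul_pow, hq]
    ring
  have a2 : ∀ l : Fin n, ∑ d ∈ Icc 1 (l : ℕ), EW ν n lev Z d (fun U ω ω' =>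
        G1 U ω * (ρ * √(p l - p (l + 1)) * w ω) * (G1 U ω' * (ρ * √(p l - p (l + 1)) * w ω'))) =
      ρ ^ 2 * ((p l - p (l + 1)) * ∑ d ∈ Icc 1 (l : ℕ), EW ν n lev Z d (fun U ω ω' =>
        G1 U ω * w ω * (G1 U ω' * w ω'))) := by
    intro l
    rw [← mul_assoc, mul_sum]
    refine sum_congr rfl fun d hd => ?_
    have hd' : d ≤ n := (mem_Icc.1 hd).2.trans l.2.le
    have k2 : Ct2 fun U ω ω' => G1 U ω * w ω * (G1 U ω' * w ω') := fun ω ω' =>
      ((h1 ω).mul_const _).mul ((h1 ω').mul_const _)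
    rw [← smul2 H hd' _ k2]
    congr 1
    funext U ω ω'
    have := hq l
    generalize √(p l - p (l + 1)) = r at this ⊢
    rw [← this]
    ring
  simp only [a1, a2]
  rw [← sum_div, sum_sub_distrib, ← mul_sum, ← mul_sum, abel n p _ hp.2, ← sum_mul, ← mul_sum,
    tele n p hp.2]
  ring

/-- the two second order terms are close -/
theorem cmp (hO : OApi) (hn : 1 ≤ n) {G0 G1 G2 : OG I → Cf T I → ℝ} (H0 : HOne ν n lev Z)
    (H : HOne ν n lev (fun U ω => Z U ω + G0 U ω)) (h0 : Ct G0) (h1 : Ct G1) (h2 : Ct G2)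
    {B lam : ℝ} (hB : 1 ≤ B) (hl : 0 < lam) (b0 : ∀ U ω, |G0 U ω| ≤ B) (b1 : ∀ U ω, |G1 U ω| ≤ B)
    (b2 : ∀ U ω, |G2 U ω| ≤ 2 * B ^ 2) {A : Finset I} {p : ℕ → ℝ}
    (hc : ConcH ν n lev Z A p (lam ^ 2 * exp (-(8 * B)))) :
    |(EH ν n lev (fun U ω => Z U ω + G0 U ω) (fun U ω => G2 U ω * rA A U ω.2 ω.2) -
      (1 / (n : ℝ)) * ∑ d ∈ Ico 1 n, EW ν n lev (fun U ω => Z U ω + G0 U ω) d (fun U ω ω' =>
        G1 U ω * G1 U ω' * rA A U ω.2 ω'.2)) -
     (p 0 * EH ν n lev (fun U ω => Z U ω + G0 U ω) G2 -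
      (1 / (n : ℝ)) * ∑ d ∈ Ico 1 n, p d * EW ν n lev (fun U ω => Z U ω + G0 U ω) d
        (fun U ω ω' => G1 U ω * G1 U ω'))| ≤ 3 * B ^ 2 * lam := by
  have hch := H0.chg G0 B h0 b0
  have hn0 : (0 : ℝ) < n := by exact_mod_cast hn
  have ee : exp (8 * B) * (lam ^ 2 * exp (-(8 * B))) = lam ^ 2 := by
    rw [mul_left_comm, ← exp_add, add_neg_cancel, exp_zero, mul_one]
  have c1 : Ct fun U (ω : Cf T I) => (rA A U ω.2 ω.2 - p 0) ^ 2 := fun ω =>
    ((ct_rA hO A _ _).sub continuous_const).pow 2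
  have c2 : ∀ d, Ct2 fun U (ω ω' : Cf T I) => (rA A U ω.2 ω'.2 - p d) ^ 2 := fun d ω ω' =>
    ((ct_rA hO A _ _).sub continuous_const).pow 2
  have a1 : EH ν n lev (fun U ω => Z U ω + G0 U ω) (fun U ω => (rA A U ω.2 ω.2 - p 0) ^ 2) ≤
      lam ^ 2 := by
    refine (hch.1 _ c1 fun U ω => sq_nonneg _).trans ?_
    rw [← ee]
    refine (mul_le_mul_of_nonneg_left hc.1 (exp_pos _).le).trans ?_
    exact mul_le_mul_of_nonneg_right (exp_le_exp.2 (by linarith)) (by positivity)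
  have a2 : (1 / (n : ℝ)) * ∑ d ∈ Ico 1 n, EW ν n lev (fun U ω => Z U ω + G0 U ω) d
      (fun U ω ω' => (rA A U ω.2 ω'.2 - p d) ^ 2) ≤ lam ^ 2 := by
    rw [← ee]
    refine le_trans ?_ (mul_le_mul_of_nonneg_left hc.2 (exp_pos _).le)
    rw [mul_left_comm, mul_sum (a := exp (8 * B))]
    refine mul_le_mul_of_nonneg_left (sum_le_sum fun d hd => ?_) (by positivity)
    exact hch.2 d (mem_Ico.1 hd).2.le _ (c2 d) fun U ω ω' => sq_nonneg _
  have k1 := bd1 H h2 (X := fun U ω => rA A U ω.2 ω.2) (fun ω => ct_rA hO A _ _) (p 0) b2 hl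
  have k1' : 2 * B ^ 2 / (2 * lam) * EH ν n lev (fun U ω => Z U ω + G0 U ω)
      (fun U ω => (rA A U ω.2 ω.2 - p 0) ^ 2) ≤ B ^ 2 * lam := by
    refine (mul_le_mul_of_nonneg_left a1 (by positivity)).trans (le_of_eq ?_)
    field_simp
  have k2 : ∀ d ∈ Ico 1 n, |EW ν n lev (fun U ω => Z U ω + G0 U ω) d (fun U ω ω' =>
        G1 U ω * G1 U ω' * rA A U ω.2 ω'.2) - p d * EW ν n lev (fun U ω => Z U ω + G0 U ω) d
        (fun U ω ω' => G1 U ω * G1 U ω')| ≤ B ^ 2 / (2 * lam) *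
        EW ν n lev (fun U ω => Z U ω + G0 U ω) d (fun U ω ω' => (rA A U ω.2 ω'.2 - p d) ^ 2) +
        B ^ 2 * lam / 2 := by
    intro d hd
    refine bd2 H (mem_Ico.1 hd).2.le (G := fun U ω ω' => G1 U ω * G1 U ω')
      (X := fun U ω ω' => rA A U ω.2 ω'.2) (fun ω ω' => (h1 ω).mul (h1 ω'))
      (fun ω ω' => ct_rA hO A _ _) (p d) (fun U ω ω' => ?_) hl
    rw [abs_mul, sq]
    exact mul_le_mul (b1 U ω) (b1 U ω') (abs_nonneg _) (by linarith)
  have k3 := (abs_sum_le_sum_abs _ _).trans (sum_le_sum k2)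
  rw [sum_add_distrib, ← mul_sum, sum_const, Nat.card_Ico, nsmul_eq_mul, sum_sub_distrib] at k3
  have k4 := mul_le_mul_of_nonneg_left k3 (by positivity : (0 : ℝ) ≤ 1 / (n : ℝ))
  rw [mul_add, mul_left_comm, ← abs_of_pos (by positivity : (0 : ℝ) < 1 / (n : ℝ)), ← abs_mul,
    abs_of_pos (by positivity : (0 : ℝ) < 1 / (n : ℝ)), mul_sub] at k4
  have k5 : B ^ 2 / (2 * lam) * ((1 / (n : ℝ)) * ∑ d ∈ Ico 1 n,
      EW ν n lev (fun U ω => Z U ω + G0 U ω) d (fun U ω ω' => (rA A U ω.2 ω'.2 - p d) ^ 2)) ≤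
      B ^ 2 * lam / 2 := by
    refine (mul_le_mul_of_nonneg_left a2 (by positivity)).trans (le_of_eq ?_)
    field_simp
  have k6 : 1 / (n : ℝ) * (((n - 1 : ℕ) : ℝ) * (B ^ 2 * lam / 2)) ≤ B ^ 2 * lam / 2 := by
    have : ((n - 1 : ℕ) : ℝ) ≤ n := by exact_mod_cast Nat.sub_le n 1
    rw [← mul_assoc]
    refine mul_le_of_le_one_left (by positivity) ?_
    rw [one_div, inv_mul_le_iff₀ hn0, mul_one]
    exact this
  rw [abs_le] at k1 k4 ⊢
  constructor <;> linarith [k1.1, k1.2, k4.1, k4.2]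

end Ou

end Vale.Agent.P166
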