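import Vale.Agent.P166.Ou2

/-! P166, module Ou, part 3: one step of the interpolation. -/

namespace Vale.Agent.P166

open MeasureTheory Finset Real Vale.Agent.P157

namespace Ou

theorem abs_one_of_sq {x : ℝ} (h : x ^ 2 = 1) : |x| = 1 := by
  have : |x| ^ 2 = 1 := by rw [sq_abs, h]
  nlinarith [abs_nonneg x]

theorem abs_spin (b : Bool) : |spin b| = 1 := by
  cases b <;> simp [spin]

variable {T I : Type} [Fintype T] [DecidableEq T] [Fintype I] [DecidableEq I]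

omit [Fintype T] [Fintype I] [DecidableEq I] in
theorem idp_frz {X : Finset T} {u : Cf T I → ℝ} (h : Idp X u) (e : T → Bool) (ω : Cf T I) :
    u (frz X e ω) = u ω :=
  h _ ω.1 ω.2 fun _ hs => if_neg hs

theorem se_bd (hO : OApi) {A : Finset I} {i : I} (hi : i ∉ A) (hA : A.Nonempty) (e : I → Bool)
    (U : OG I) (σ : I → Bool) :
    |(∑ j ∈ A, spin (e j) * yy U σ j) / √(A.card : ℝ)| ≤ √(Fintype.card I : ℝ) := by
  obtain ⟨R, -, hR⟩ := hO.rot A i (π / 2) e hi hA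
  have := (hO.bd (R * U) σ i).2
  rwa [hR, cos_pi_div_two, sin_pi_div_two, zero_mul, zero_add, one_mul] at this

/-- the real half step -/
theorem real_half (hO : OApi) (hH : HApi) {ν : Measure (OG I)} {n : ℕ} {lev : T → ℕ}
    (hν : Haar ν) (hn : 1 ≤ n) {g : ℝ → ℝ} (hg : Continuous g) {A : Finset I} {i : I} (hi : i ∉ A)
    (hA : A.Nonempty) {Z : OG I → Cf T I → ℝ} (hZ : Ct Z) {F : Finset T} {δ : ℝ}
    (hinv : ∀ R : OG I, Sup (insert i A) R → ∀ V : OG I → Cf T I → ℝ, Ct V → (∀ U, Idp F (V U)) →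
      |TH ν n lev (fun U ω => Z U ω + V U ω) - TH ν n lev (fun U ω => Z U ω + V (R * U) ω)| ≤ δ)
    (ι : I → T) (hl : ∀ j, lev (ι j) = n - 1) {m w : Cf T I → ℝ} (fm : Idp F m) (fw : Idp F w)
    (iZ : ∀ U, Idp (A.image ι) (Z U)) (im : Idp (A.image ι) m) (iw : Idp (A.image ι) w)
    (ρ φ : ℝ) :
    |TH ν n lev (fun U ω => Z U ω + g ((ρ * cos φ * yy U ω.2 i + m ω) * w ω +
        ∑ j ∈ A, spin (ω.1 (ι j)) * (ρ * sin φ * (yy U ω.2 j / √(A.card : ℝ)) * w ω))) -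
      TH ν n lev (fun U ω => Z U ω + g ((ρ * yy U ω.2 i + m ω) * w ω))| ≤ δ := by
  have c1 : Ct fun U ω => Z U ω + g ((ρ * cos φ * yy U ω.2 i + m ω) * w ω +
      ∑ j ∈ A, spin (ω.1 (ι j)) * (ρ * sin φ * (yy U ω.2 j / √(A.card : ℝ)) * w ω)) := by
    intro ω
    refine (hZ ω).add (hg.comp (Continuous.add ?_ ?_))
    · exact (((hO.cont _ _).const_mul _).add continuous_const).mul_const _
    · exact continuous_finsetSum _ fun j _ =>
        ((((hO.cont _ _).div_const _).const_mul _).mul_const _).const_mul _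
  refine (hH.one lev hν hn c1).top (A.image ι) _ δ ?_ fun e => ?_
  · intro s hs
    obtain ⟨j, -, rfl⟩ := mem_image.1 hs
    exact hl j
  obtain ⟨R, hR, hR'⟩ := hO.rot A i φ (fun j => e (ι j)) hi hA
  have key := hinv R hR (fun U ω => g ((ρ * yy U ω.2 i + m ω) * w ω))
    (fun ω => hg.comp ((((hO.cont _ _).const_mul _).add continuous_const).mul_const _))
    (fun U e1 e2 σ h => by simp only [fm e1 e2 σ h, fw e1 e2 σ h])
  rw [abs_sub_comm] at key
  refine le_trans (le_of_eq ?_) key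
  congr 3
  funext U ω
  rw [idp_frz (iZ U), idp_frz im, idp_frz iw, hR']
  congr 2
  have e1 : ∀ j ∈ A, spin ((frz (A.image ι) e ω).1 (ι j)) *
      (ρ * sin φ * (yy U (frz (A.image ι) e ω).2 j / √(A.card : ℝ)) * w ω) =
      ρ * sin φ * w ω * (spin (e (ι j)) * yy U ω.2 j / √(A.card : ℝ)) := by
    intro j hj
    have : (frz (A.image ι) e ω).1 (ι j) = e (ι j) := if_pos (mem_image_of_mem _ hj)
    rw [this]
    change _ * (_ * (yy U ω.2 j / _) * _) = _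
    ring
  rw [sum_congr rfl e1, ← mul_sum, ← sum_div]
  change (_ * yy U ω.2 i + _) * _ + _ = _
  ring

/-- one step -/
theorem step (hO : OApi) (hH : HApi) {C B : ℝ} (hG : GrhC C) {ν : Measure (OG I)} {n : ℕ}
    {lev : T → ℕ} (hν : Haar ν) (hn : 1 ≤ n) (hl : LevOk n lev) (hB : 1 ≤ B) {g g1 g2 : ℝ → ℝ}
    (hg : Sm3 B g g1 g2) (h1 : Continuous g1) (h2 : Continuous g2) {A : Finset I} {i : I}
    (hi : i ∉ A) (hA : A.Nonempty) {Z : OG I → Cf T I → ℝ} (hZ : Ct Z) {F : Finset T} {δ : ℝ}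
    (hinv : ∀ R : OG I, Sup (insert i A) R → ∀ V : OG I → Cf T I → ℝ, Ct V → (∀ U, Idp F (V U)) →
      |TH ν n lev (fun U ω => Z U ω + V U ω) - TH ν n lev (fun U ω => Z U ω + V (R * U) ω)| ≤ δ)
    (ι : I → T) (hι : Function.Injective ι) (lι : ∀ j, lev (ι j) = n - 1)
    (κ : Fin n → T) (hκ : Function.Injective κ) (lκ : ∀ l, lev (κ l) = l)
    {m w : Cf T I → ℝ} (hw : ∀ ω, w ω ^ 2 = 1) (fm : Idp F m) (fw : Idp F w)
    (iZ : ∀ U, Idp (A.image ι) (Z U)) (im : Idp (A.image ι) m) (iw : Idp (A.image ι) w)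
    (jZ : ∀ U, Idp (univ.image κ) (Z U)) (jm : Idp (univ.image κ) m) (jw : Idp (univ.image κ) w)
    {p : ℕ → ℝ} (hp : Path n p) {lam : ℝ} (hlam : 0 < lam)
    (hc : ConcH ν n lev Z A p (lam ^ 2 * exp (-(8 * B)))) {ρ φ M : ℝ} (hρ : |ρ| ≤ 1)
    (hs : 0 ≤ sin φ) (hM1 : √(Fintype.card I : ℝ) ≤ M)
    (hM2 : ∑ l : Fin n, √(p l - p (l + 1)) ≤ M) (hb : B * (sin φ * M) ≤ 1) :
    |TH ν n lev (fun U ω => Z U ω + g ((ρ * yy U ω.2 i + m ω) * w ω)) -
      TH ν n lev (fun U ω => Z U ω + g ((ρ * cos φ * yy U ω.2 i +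
        (m ω + ∑ l, spin (ω.1 (κ l)) * (ρ * sin φ * √(p l - p (l + 1))))) * w ω))| ≤
      δ + 2 * C * (B * (sin φ * M)) ^ 3 + (ρ * sin φ) ^ 2 * (3 * B ^ 2 * lam / 2) := by
  have h0 := sm_cont hg
  obtain ⟨t, ht⟩ : ∃ t : OG I → Cf T I → ℝ, t = fun U ω => (ρ * cos φ * yy U ω.2 i + m ω) * w ω :=
    ⟨_, rfl⟩
  have ct : Ct t := by
    rw [ht]
    exact fun ω => (((hO.cont _ _).const_mul _).add continuous_const).mul_const _
  have hρs : |ρ * sin φ| ≤ sin φ := by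
    rw [abs_mul, abs_of_nonneg hs]
    exact mul_le_of_le_one_left hs hρ
  have r1 := real_half hO hH hν hn h0 hi hA hZ hinv ι lι fm fw iZ im iw ρ φ
  have r2 := grh_idx (β := sin φ * M) hG hν hn hl hB hg h1 h2 A ι hι Z t
    (fun j U ω => ρ * sin φ * (yy U ω.2 j / √(A.card : ℝ)) * w ω) hZ ct
    (fun j ω => (((hO.cont _ _).div_const _).const_mul _).mul_const _) iZ
    (fun U e1 e2 σ h => by simp only [ht, im e1 e2 σ h, iw e1 e2 σ h])
    (fun j U e1 e2 σ h => by simp only [iw e1 e2 σ h])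
    (by
      intro U ω
      have e1 : ∑ j ∈ A, spin (ω.1 (ι j)) * (ρ * sin φ * (yy U ω.2 j / √(A.card : ℝ)) * w ω) =
          ρ * sin φ * ((∑ j ∈ A, spin (ω.1 (ι j)) * yy U ω.2 j) / √(A.card : ℝ)) * w ω := by
        rw [sum_div, mul_sum, sum_mul]
        exact sum_congr rfl fun j _ => by ring
      rw [e1, abs_mul, abs_mul, abs_one_of_sq (hw ω), mul_one]
      exact mul_le_mul hρs ((se_bd hO hi hA _ U _).trans hM1) (abs_nonneg _) hs) hb
  have r3 := grh_idx (β := sin φ * M) hG hν hn hl hB hg h1 h2 univ κ hκ Z t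
    (fun l _ ω => ρ * sin φ * √(p l - p (l + 1)) * w ω) hZ ct
    (fun j ω => continuous_const) jZ
    (fun U e1 e2 σ h => by simp only [ht, jm e1 e2 σ h, jw e1 e2 σ h])
    (fun j U e1 e2 σ h => by simp only [jw e1 e2 σ h])
    (by
      intro U ω
      refine (abs_sum_le_sum_abs _ _).trans (le_trans (sum_le_sum fun l _ => ?_)
        (le_trans (le_of_eq (mul_sum _ _ _).symm) (mul_le_mul_of_nonneg_left hM2 hs)))
      rw [abs_mul, abs_spin, one_mul, abs_mul, abs_one_of_sq (hw ω), mul_one, abs_mul,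
        abs_of_nonneg (Real.sqrt_nonneg _)]
      exact mul_le_mul_of_nonneg_right hρs (Real.sqrt_nonneg _)) hb
  have cb : Ct fun U ω => Z U ω + g (t U ω) := fun ω => (hZ ω).add (h0.comp (ct ω))
  have H := hH.one lev hν hn cb
  have c1 : Ct fun U ω => g1 (t U ω) := fun ω => h1.comp (ct ω)
  have c2 : Ct fun U ω => g2 (t U ω) + g1 (t U ω) ^ 2 := fun ω => (h2.comp (ct ω)).add ((c1 ω).pow 2)
  simp only [lι] at r2
  simp only [lκ] at r3
  rw [real_eq hO H hn hA c1 c2 hw] at r2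
  rw [fake_eq H hp c1 c2 hw] at r3
  have r4 := cmp hO hn (G0 := fun U ω => g (t U ω)) (G1 := fun U ω => g1 (t U ω) * w ω)
    (G2 := fun U ω => g2 (t U ω) + g1 (t U ω) ^ 2) (hH.one lev hν hn hZ) H
    (fun ω => h0.comp (ct ω)) (fun ω => (c1 ω).mul_const _) c2 hB hlam (fun U ω => hg.b0 _)
    (fun U ω => by rw [abs_mul, abs_one_of_sq (hw ω), mul_one]; exact hg.b1 _)
    (fun U ω => by
      have a1 := hg.b2 (t U ω)
      have a2 : g1 (t U ω) ^ 2 ≤ B ^ 2 := by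
        rw [← sq_abs]
        exact pow_le_pow_left₀ (abs_nonneg _) (hg.b1 _) 2
      refine (abs_add_le _ _).trans ?_
      rw [abs_of_nonneg (sq_nonneg (g1 _))]
      nlinarith) hc
  have r5 := mul_le_mul_of_nonneg_left r4 (by positivity : (0 : ℝ) ≤ (ρ * sin φ) ^ 2 / 2)
  rw [← abs_of_nonneg (by positivity : (0 : ℝ) ≤ (ρ * sin φ) ^ 2 / 2), ← abs_mul,
    abs_of_nonneg (by positivity : (0 : ℝ) ≤ (ρ * sin φ) ^ 2 / 2), mul_sub] at r5
  have e2 : (fun U ω => Z U ω + g ((ρ * cos φ * yy U ω.2 i +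
        (m ω + ∑ l, spin (ω.1 (κ l)) * (ρ * sin φ * √(p l - p (l + 1))))) * w ω)) =
      fun U ω => Z U ω + g (t U ω +
        ∑ l, spin (ω.1 (κ l)) * (ρ * sin φ * √(p l - p (l + 1)) * w ω)) := by
    funext U ω
    rw [ht, ← add_assoc, add_mul, sum_mul]
    congr 3
    exact sum_congr rfl fun l _ => by ring
  have e3 : (fun U ω => Z U ω + g ((ρ * cos φ * yy U ω.2 i + m ω) * w ω +
        ∑ j ∈ A, spin (ω.1 (ι j)) * (ρ * sin φ * (yy U ω.2 j / √(A.card : ℝ)) * w ω))) =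
      fun U ω => Z U ω + g (t U ω +
        ∑ j ∈ A, spin (ω.1 (ι j)) * (ρ * sin φ * (yy U ω.2 j / √(A.card : ℝ)) * w ω)) := by
    rw [ht]
  rw [e2]
  rw [e3] at r1
  rw [abs_le] at r1 r2 r3 r5 ⊢
  constructor <;> linarith [r1.1, r1.2, r2.1, r2.2, r3.1, r3.2, r5.1, r5.2]

end Ou

end Vale.Agent.P166
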