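import Vale.Agent.P166.Av
import Vale.Agent.P157.G2

/-! P166: response of one spin of level `l` to small fields. -/

namespace Vale.Agent.P166

open Finset Real Vale.Agent.P157

noncomputable section

namespace Respx

open Avx

theorem lc_le (y : ℝ) : log (cosh y) ≤ y ^ 2 / 2 := by
  rw [log_le_iff_le_exp (cosh_pos y)]; exact cosh_le_exp_half_sq y

theorem le_lc (y : ℝ) : y ^ 2 / 2 - y ^ 4 / 4 ≤ log (cosh y) := by
  have h1 : 1 + y ^ 2 / 2 ≤ cosh y := by
    have a1 : cosh y = 1 + 2 * sinh (y / 2) ^ 2 := by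
      conv_lhs => rw [show y = 2 * (y / 2) by ring, cosh_two_mul, cosh_sq]
      ring
    have a2 : |y / 2| ≤ |sinh (y / 2)| := by
      rw [abs_sinh]; exact self_le_sinh_iff.2 (abs_nonneg _)
    have a3 := sq_le_sq.2 a2
    linarith
  have h2 : 0 < 1 + y ^ 2 / 2 := by positivity
  refine le_trans ?_ (log_le_log h2 h1)
  refine le_trans ?_ (one_sub_inv_le_log_of_pos h2)
  rw [le_sub_comm, inv_eq_one_div, div_le_iff₀ h2]
  nlinarith [sq_nonneg (y ^ 3), sq_nonneg (y ^ 2)]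

/-- the one sign free energy -/
def LL (m x : ℝ) : ℝ := m⁻¹ * log (cosh (m * x))

theorem LL_bd {m : ℝ} (h0 : 0 < m) (h1 : m ≤ 1) (x : ℝ) :
    m * x ^ 2 / 2 - x ^ 4 / 4 ≤ LL m x ∧ LL m x ≤ m * x ^ 2 / 2 ∧ LL m x ≤ 1 / 8 * x ^ 2 + 2 := by
  have a1 := mul_le_mul_of_nonneg_left (le_lc (m * x)) (inv_pos.2 h0).le
  have a2 := mul_le_mul_of_nonneg_left (lc_le (m * x)) (inv_pos.2 h0).le
  have a3 := G2.lc1 0 (m * x)
  rw [zero_add, cosh_zero, log_one, zero_add, abs_mul, abs_of_pos h0] at a3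
  have a4 := mul_le_mul_of_nonneg_left a3 (inv_pos.2 h0).le
  rw [inv_mul_cancel_left₀ h0.ne'] at a4
  rw [show m⁻¹ * ((m * x) ^ 2 / 2 - (m * x) ^ 4 / 4) = m * x ^ 2 / 2 - m ^ 3 * x ^ 4 / 4 by
    field_simp] at a1
  rw [show m⁻¹ * ((m * x) ^ 2 / 2) = m * x ^ 2 / 2 by field_simp] at a2
  have a5 : m ^ 3 * x ^ 4 ≤ x ^ 4 :=
    mul_le_of_le_one_left (by positivity) (pow_le_one₀ h0.le h1)
  refine ⟨by unfold LL; linarith, a2, a4.trans ?_⟩
  nlinarith [sq_nonneg (|x| - 4), sq_abs x]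

theorem mb {n d : ℕ} (h : d < n) : 0 < 1 - (d : ℝ) / n ∧ 1 - (d : ℝ) / n ≤ 1 := by
  have hn : (0 : ℝ) < n := by exact_mod_cast (show 0 < n by omega)
  exact ⟨lt_of_lt_of_le (by positivity) (G2.mpos h).1, (G2.mpos h).2⟩

variable {R : Type} [Fintype R] [DecidableEq R]

/-- contribution of the levels `< j` -/
def cc (n : ℕ) (lv : R → ℕ) (a : R → ℝ) (j : ℕ) : ℝ :=
  ∑ r ∈ univ.filter (fun r => lv r < j), LL (1 - (lv r : ℝ) / n) (a r)

omit [DecidableEq R] in
theorem cc_succ (n : ℕ) (lv : R → ℕ) (a : R → ℝ) (j : ℕ) : cc n lv a (j + 1) =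
    cc n lv a j + ∑ r ∈ univ.filter (fun r => lv r = j), LL (1 - (j : ℝ) / n) (a r) := by
  simp only [cc, sum_filter, ← sum_add_distrib]
  refine sum_congr rfl fun r _ => ?_
  rcases lt_trichotomy (lv r) j with h | h | h
  · simp [h, h.ne, show lv r < j + 1 by omega]
  · simp [h]
  · simp [h.ne', show ¬ lv r < j + 1 by omega, show ¬ lv r < j by omega]

theorem av (m c x s : ℝ) (hs : ∀ y, cosh (y * s) = cosh y) (a : R → ℝ) (B : Finset R) :
    (∑ e : Unit ⊕ R → Bool, exp (m * (c + (x + ∑ r ∈ B, spin (e (Sum.inr r)) * a r) * s))) /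
      (Fintype.card (Unit ⊕ R → Bool) : ℝ) = exp (m * (c + x * s)) * ∏ r ∈ B, cosh (m * a r) := by
  have h := avg_cosh (T := Unit ⊕ R) Sum.inr Sum.inr_injective (fun r => m * a r * s) B
    (m * (c + x * s))
  simp only [hs] at h
  rw [← h]
  congr 1
  refine sum_congr rfl fun e _ => ?_
  congr 1
  rw [add_mul, sum_mul, ← add_assoc, mul_add _ (c + x * s), mul_sum]
  congr 1
  exact sum_congr rfl fun r _ => by ring

omit [Fintype R] [DecidableEq R] in
theorem lg_av (m : ℝ) (u : ℝ) (hu : 0 < u) (a : R → ℝ) (B : Finset R) :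
    m⁻¹ * log (u * ∏ r ∈ B, cosh (m * a r)) = m⁻¹ * log u + ∑ r ∈ B, LL m (a r) := by
  rw [log_mul hu.ne' (prod_pos fun _ _ => cosh_pos _).ne', log_prod (fun _ _ => (cosh_pos _).ne'),
    mul_add, mul_sum]
  rfl

/-- the energy of the system -/
abbrev ZZ (a : R → ℝ) (ω : Cf (Unit ⊕ R) Empty) : ℝ :=
  sg a (ω.1 ∘ Sum.inr) * spin (ω.1 (Sum.inl ()))

theorem low {n l : ℕ} (hl : l < n) (lv : R → ℕ) (a : R → ℝ) (j : ℕ) (hj : j ≤ l)
    (ω : Cf (Unit ⊕ R) Empty) : XX (ch (Sum.elim (fun _ : Unit => l) lv)) (ex n) (ZZ a) (j + 1) ω =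
      cc n lv a j + xs lv a j (ω.1 ∘ Sum.inr) * spin (ω.1 (Sum.inl ())) := by
  induction j generalizing ω with
  | zero => rw [zero_add, xx_one_empty, xs_zero]; simp [cc]
  | succ j ih =>
    have hm := (mb (show j < n by omega)).1
    rw [xx_succ]
    have hne : ¬ l = j := by omega
    simp only [ih (by omega), Sum.elim_inl, hne, if_false]
    have h := av (1 - (j : ℝ) / n) (cc n lv a j) (xs lv a (j + 1) (ω.1 ∘ Sum.inr))
      (spin (ω.1 (Sum.inl ()))) (fun y => cosh_spin _ y) a (univ.filter (fun r => lv r = j))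
    simp only [← xs_mix lv a j _ (ω.1 ∘ Sum.inr)] at h
    refine (congrArg (fun t => (1 - (j : ℝ) / n)⁻¹ * log t) h).trans ?_
    rw [lg_av _ _ (exp_pos _), log_exp, inv_mul_cancel_left₀ hm.ne', cc_succ]
    ring

/-- the energy after the level `l` -/
def AA (n l : ℕ) (lv : R → ℕ) (a : R → ℝ) (ω : Cf (Unit ⊕ R) Empty) : ℝ :=
  cc n lv a (l + 1) + LL (1 - (l : ℝ) / n) (xs lv a (l + 1) (ω.1 ∘ Sum.inr))

theorem mid {n l : ℕ} (hl : l < n) (lv : R → ℕ) (a : R → ℝ) (ω : Cf (Unit ⊕ R) Empty) :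
    XX (ch (Sum.elim (fun _ : Unit => l) lv)) (ex n) (ZZ a) (l + 2) ω = AA n l lv a ω := by
  have hm := (mb hl).1
  rw [xx_succ]
  simp only [low hl lv a l le_rfl, Sum.elim_inl, if_true]
  have h := fun s hs => av (1 - (l : ℝ) / n) (cc n lv a l) (xs lv a (l + 1) (ω.1 ∘ Sum.inr))
    s hs a (univ.filter (fun r => lv r = l))
  simp only [← xs_mix lv a l _ (ω.1 ∘ Sum.inr)] at h
  have h1 := sum_one (Sum.inl ()) (fun c (e : Unit ⊕ R → Bool) => exp ((1 - (l : ℝ) / n) *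
    (cc n lv a l + xs lv a l (fun r => if lv r = l then e (Sum.inr r) else (ω.1 ∘ Sum.inr) r) * c)))
    (fun c e => by simp only [Function.update_of_ne (Sum.inr_ne_inl)])
  have h2 := congrArg (fun t => t / (Fintype.card (Unit ⊕ R → Bool) : ℝ)) h1
  simp only [← sum_div, sum_add_distrib] at h2
  rw [div_right_comm, add_div, h 1 (by simp), h (-1) (by simp), ← add_mul, mul_div_right_comm] at h2
  refine (congrArg (fun t => (1 - (l : ℝ) / n)⁻¹ * log t) h2).trans ?_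
  have h3 : ∀ c x m : ℝ, (exp (m * (c + x * 1)) + exp (m * (c + x * -1))) / 2 =
      exp (m * c) * cosh (m * x) := fun c x m => by
    rw [cosh_eq, mul_add, mul_add, exp_add, exp_add, mul_one, mul_neg_one, mul_neg]; ring
  rw [h3, lg_av _ _ (mul_pos (exp_pos _) (cosh_pos _)), log_mul (exp_pos _).ne' (cosh_pos _).ne',
    log_exp, mul_add, inv_mul_cancel_left₀ hm.ne', AA, cc_succ, LL]
  ring

theorem fix {n l : ℕ} (hl : l < n) (lv : R → ℕ) (a : R → ℝ) (j : ℕ) (hj : j ≤ l + 1) :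
    XX (ch (Sum.elim (fun _ : Unit => l) lv)) (ex n) (AA n l lv a) (j + 1) = AA n l lv a := by
  induction j with
  | zero => exact xx_one_empty _ _ _
  | succ j ih =>
    funext ω
    have hm := (mb (show j < n by omega)).1
    have h1 : ∀ e : Unit ⊕ R → Bool, AA n l lv a (fun s =>
        if Sum.elim (fun _ : Unit => l) lv s = j then e s else ω.1 s, ω.2) = AA n l lv a ω :=
      fun e => congrArg (fun t => cc n lv a (l + 1) + LL (1 - (l : ℝ) / n) t)
        (xs_high lv a (show j < l + 1 by omega) (e ∘ Sum.inr) (ω.1 ∘ Sum.inr))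
    rw [xx_succ, ih (by omega)]
    simp only [h1, sum_const, card_univ, nsmul_eq_mul]
    rw [mul_div_cancel_left₀ _ card_pos.ne', log_exp, inv_mul_cancel_left₀ hm.ne']

theorem xx_zero {Ω : Type} {P : ℕ → Op Ω} {m : ℕ → ℝ} {t : ℕ} (h : Ok P m t) (j : ℕ) :
    XX P m 0 j = 0 := by
  induction j with
  | zero => rfl
  | succ j ih =>
    funext ω
    simp only [XX, ih, Pi.zero_apply, mul_zero, exp_zero, (h.mk' j).2, log_one]

theorem ev0 (hA : AApi) (hR : RApi) (hQ : QApi) {T : Type} [Fintype T] [DecidableEq T] {n : ℕ}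
    (hn : 1 ≤ n) {lev : T → ℕ} (hl : LevOk n lev) (g : (T → Bool) → ℝ) :
    Ce (ch lev) (ex n) 0 0 (n + 1) (fun ω : Cf T Empty => g ω.1) (w0 T Empty) =
      (∑ e, g e) / (Fintype.card (T → Bool) : ℝ) := by
  refine (hQ.avg n lev univ 0 (fun ω : Cf T Empty => g ω.1) hn hl (fun _ _ _ _ => rfl)).trans ?_
  congr 1
  refine sum_congr rfl fun e _ => ?_
  simp only [frz, mem_univ, if_true]
  exact hA.const (hA.ce (hR.ok n lev hn).1 _ _ _ le_rfl) _ _

omit [DecidableEq R] in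
theorem xs_map (lv : R → ℕ) (a : R → ℝ) (k : ℕ) (e : Unit ⊕ R → Bool) :
    xs lv a k (e ∘ Sum.inr) = ∑ s ∈ (univ.filter (fun r => k ≤ lv r)).map Function.Embedding.inr,
      spin (e s) * Sum.elim (fun _ => 0) a s := by
  rw [sum_map]; rfl

/-- two sided bound on the value -/
theorem val (hA : AApi) (hR : RApi) (hQ : QApi) {n l : ℕ} (hl : l < n) {lv : R → ℕ}
    (hlv : LevOk n lv) (a : R → ℝ) (v : ℝ)
    (hv : v = ∑ r ∈ univ.filter (fun r => l + 1 ≤ lv r), a r ^ 2) (X : ℝ)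
    (hX : X = Xv n (Sum.elim (fun _ : Unit => l) lv) (ZZ a) - cc n lv a (l + 1)) :
    (1 - (l : ℝ) / n) * v / 2 - 3 / 4 * v ^ 2 ≤ X ∧ ∀ t b, 0 ≤ t → t * v ≤ 1 / 4 →
      (∀ x, LL (1 - (l : ℝ) / n) x ≤ t * x ^ 2 + b) → X ≤ b + (t * v + 2 * (t * v) ^ 2) := by
  have hn : 1 ≤ n := by omega
  have hL : LevOk n (Sum.elim (fun _ : Unit => l) lv) := fun s => by
    cases s with
    | inl _ => exact hl
    | inr r => exact hlv r
  have ok := (hR.ok (I := Empty) n (Sum.elim (fun _ : Unit => l) lv) hn).1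
  have hp := card_pos (T := Unit ⊕ R)
  have h1 : X = XX (ch (Sum.elim (fun _ : Unit => l) lv)) (ex n) (0 + AA n l lv a) (n + 1)
      (w0 _ _) - cc n lv a (l + 1) := by
    rw [hX, zero_add, Xv, xx_congr _ _ ((funext (mid hl lv a)).trans (fix hl lv a _ le_rfl).symm)
      (show l + 1 + 1 ≤ n + 1 by omega)]
  have hv' : v = ∑ s ∈ (univ.filter (fun r => l + 1 ≤ lv r)).map Function.Embedding.inr,
      Sum.elim (fun _ : Unit => (0 : ℝ)) a s ^ 2 := by rw [hv, sum_map]; rfl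
  obtain ⟨m0, m1⟩ := mb hl
  refine ⟨?_, fun t b ht htv hb => ?_⟩
  · have h2 := hA.xlow ok 0 (AA n l lv a) (n + 1) le_rfl (w0 _ _)
    have h3 := ev0 hA hR hQ hn hL (fun e => cc n lv a (l + 1) +
      LL (1 - (l : ℝ) / n) (xs lv a (l + 1) (e ∘ Sum.inr)))
    have h4 := hQ.mom4 ((univ.filter (fun r => l + 1 ≤ lv r)).map Function.Embedding.inr)
      (Sum.elim (fun _ : Unit => (0 : ℝ)) a)
    simp only [← xs_map, ← hv'] at h4
    have h5 : ∀ (B : Finset R), ∑ e : Unit ⊕ R → Bool, (∑ r ∈ B, spin (e (Sum.inr r)) * a r) ^ 2 =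
        Fintype.card (Unit ⊕ R → Bool) * ∑ r ∈ B, a r ^ 2 := fun B => by
      induction B using Finset.induction_on with
      | empty => simp
      | insert s B hs ih =>
        have := sum_one (Sum.inr s) (fun c (e : Unit ⊕ R → Bool) =>
          (c * a s + ∑ r ∈ B, spin (e (Sum.inr r)) * a r) ^ 2) (fun c e => by
            congr 2
            refine sum_congr rfl fun r hr => ?_
            rw [Function.update_of_ne (Sum.inr_injective.ne (ne_of_mem_of_not_mem hr hs))])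
        simp only [sum_insert hs]
        rw [this, mul_add, ← ih, ← nsmul_eq_mul, ← card_univ, ← sum_const, ← sum_add_distrib]
        exact sum_congr rfl fun e _ => by ring
    have h6 : ∑ e : Unit ⊕ R → Bool, xs lv a (l + 1) (e ∘ Sum.inr) ^ 2 =
        Fintype.card (Unit ⊕ R → Bool) * v := hv ▸ h5 _
    have h7 := sum_le_sum (s := univ) fun (e : Unit ⊕ R → Bool) _ => add_le_add_right
      (LL_bd m0 m1 (xs lv a (l + 1) (e ∘ Sum.inr))).1 (cc n lv a (l + 1))
    rw [sum_add_distrib, sum_sub_distrib, ← sum_div, ← sum_div, ← mul_sum, h6, sum_const, card_univ,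
      nsmul_eq_mul] at h7
    have h8 := div_le_div_of_nonneg_right h7 hp.le
    rw [← h3, add_div, sub_div, mul_div_cancel_left₀ _ hp.ne', div_right_comm _ 4,
      show (1 - (l : ℝ) / n) * (Fintype.card (Unit ⊕ R → Bool) * v) / 2 /
        (Fintype.card (Unit ⊕ R → Bool) : ℝ) = (1 - (l : ℝ) / n) * v / 2 by field_simp] at h8
    rw [xx_zero ok, Pi.zero_apply] at h2
    have h9 : Ce (ch (Sum.elim (fun _ : Unit => l) lv)) (ex n) 0 0 (n + 1) (AA n l lv a) (w0 _ _) =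
      _ := h3
    rw [h3] at h8
    linarith
  · have h2 := hA.xup ok 0 (AA n l lv a) (n + 1) le_rfl (w0 _ _)
    have h3 := ev0 hA hR hQ hn hL (fun e => exp (cc n lv a (l + 1) +
      LL (1 - (l : ℝ) / n) (xs lv a (l + 1) (e ∘ Sum.inr))))
    have h4 := hQ.mexp2 ((univ.filter (fun r => l + 1 ≤ lv r)).map Function.Embedding.inr)
      (Sum.elim (fun _ : Unit => (0 : ℝ)) a) t ht (hv' ▸ htv)
    simp only [← xs_map, ← hv'] at h4
    have h7 : ∑ e : Unit ⊕ R → Bool, exp (cc n lv a (l + 1) +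
        LL (1 - (l : ℝ) / n) (xs lv a (l + 1) (e ∘ Sum.inr))) ≤ exp (cc n lv a (l + 1) + b) *
        ∑ e : Unit ⊕ R → Bool, exp (t * xs lv a (l + 1) (e ∘ Sum.inr) ^ 2) := by
      rw [mul_sum]
      refine sum_le_sum fun e _ => ?_
      rw [← exp_add]
      exact exp_le_exp.2 (by linarith [hb (xs lv a (l + 1) (e ∘ Sum.inr))])
    have h8 := div_le_div_of_nonneg_right h7 hp.le
    rw [mul_div_assoc] at h8
    have h9 := log_le_log (div_pos (sum_pos (fun _ _ => exp_pos _) univ_nonempty) hp)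
      (h8.trans (mul_le_mul_of_nonneg_left h4 (exp_pos _).le))
    rw [← exp_add, log_exp, ← h3] at h9
    rw [xx_zero ok, Pi.zero_apply] at h2
    have h10 := h2.trans (add_le_add_right h9 0)
    linarith

end Respx

end

end Vale.Agent.P166
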