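import Vale.Agent.P157.Stm
import Vale.Agent.P166.Defs

/-! P166: internal definitions (proofs in notes/P166.md). -/

namespace Vale.Agent.P166

open MeasureTheory ProbabilityTheory Finset Real Vale.Agent.P157

noncomputable section

/-! ### The orthogonal group -/

abbrev OG (I : Type) [Fintype I] [DecidableEq I] : Type := Matrix.orthogonalGroup I ℝ

section
variable {I : Type} [Fintype I] [DecidableEq I]

scoped instance ogMS : MeasurableSpace (OG I) := borel _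

scoped instance ogBS : BorelSpace (OG I) := ⟨rfl⟩

scoped instance ogSC : SecondCountableTopology (OG I) :=
  inferInstanceAs (SecondCountableTopology {A : I → I → ℝ // A ∈ Matrix.orthogonalGroup I ℝ})

theorem og_entry (U : OG I) (i j : I) : |U.1 i j| ≤ 1 := by
  have := entry_norm_bound_of_unitary (𝕜 := ℝ) U.2 i j
  simpa using this

scoped instance ogCS : CompactSpace (OG I) := by
  refine isCompact_iff_compactSpace.1 ?_
  have h1 : IsCompact (Set.pi Set.univ fun _ : I => Set.pi Set.univ fun _ : I => Set.Icc (-1 : ℝ) 1) :=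
    isCompact_univ_pi fun _ => isCompact_univ_pi fun _ => isCompact_Icc
  refine h1.of_isClosed_subset (s := _) ?_ ?_
  · exact (isClosed_unitary (R := Matrix I I ℝ))
  · intro A hA i _ j _
    exact abs_le.1 (og_entry ⟨A, hA⟩ i j)

/-- Haar probability measure, tested on continuous functions -/
structure Haar (ν : Measure (OG I)) : Prop where
  prob : IsProbabilityMeasure ν
  left : ∀ (g : OG I) (f : OG I → ℝ), Continuous f → ∫ U, f (g * U) ∂ν = ∫ U, f U ∂ν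
  right : ∀ (g : OG I) (f : OG I → ℝ), Continuous f → ∫ U, f (U * g) ∂ν = ∫ U, f U ∂ν

/-- `y = U σ` -/
def yy (U : OG I) (σ : I → Bool) (i : I) : ℝ := ∑ j, U.1 i j * spin (σ j)

/-- `R` is block diagonal for the labels `c` -/
def Blk {κ : Type} (c : I → κ) (R : OG I) : Prop := ∀ i j, c i ≠ c j → R.1 i j = 0

/-- `R` is the identity outside `A` -/
def Sup (A : Finset I) (R : OG I) : Prop :=
  ∀ i j, (i ∉ A ∨ j ∉ A) → R.1 i j = if i = j then 1 else 0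

/-- overlap per direction of `A` -/
def rA (A : Finset I) (U : OG I) (σ σ' : I → Bool) : ℝ :=
  (∑ i ∈ A, yy U σ i * yy U σ' i) / (A.card : ℝ)

/-- `log Z` without perturbation -/
def F0 (Λ : I → ℝ) (U : OG I) : ℝ :=
  log ((∑ σ : I → Bool, exp (∑ i, Λ i * yy U σ i ^ 2 / 2)) / 2 ^ Fintype.card I)

def TH0 (ν : Measure (OG I)) (n : ℕ) (Λ : I → ℝ) : ℝ := n * log (∫ U, exp (F0 Λ U / n) ∂ν)

end

/-! ### Recorded signs -/

abbrev Cf (T I : Type) : Type := (T → Bool) × (I → Bool)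

section
variable {T I : Type} [Fintype T] [DecidableEq T] [Fintype I] [DecidableEq I]

def rs0 : Op (Cf T I) where
  toFun g := fun ω => (∑ σ, g (ω.1, σ)) / (Fintype.card (I → Bool) : ℝ)
  map_add' g h := by ext ω; simp only [Pi.add_apply, sum_add_distrib]; ring
  map_smul' c g := by
    ext ω; simp only [Pi.smul_apply, smul_eq_mul, RingHom.id_apply, ← mul_sum]; ring

/-- resample the signs of level `d` -/
def rsl (lev : T → ℕ) (d : ℕ) : Op (Cf T I) where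
  toFun g := fun ω => (∑ e : T → Bool, g (fun s => if lev s = d then e s else ω.1 s, ω.2)) /
    (Fintype.card (T → Bool) : ℝ)
  map_add' g h := by ext ω; simp only [Pi.add_apply, sum_add_distrib]; ring
  map_smul' c g := by
    ext ω; simp only [Pi.smul_apply, smul_eq_mul, RingHom.id_apply, ← mul_sum]; ring

def ch (lev : T → ℕ) : ℕ → Op (Cf T I)
  | 0 => rs0
  | d + 1 => rsl lev d

def rl (lev : T → ℕ) : ℕ → Cf T I → Cf T I → Prop
  | 0 => fun ω ω' => ω = ω'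
  | d + 1 => fun ω ω' => ∀ s, d ≤ lev s → ω.1 s = ω'.1 s

def w0 (T I : Type) : Cf T I := (fun _ => true, fun _ => true)

def Xv (n : ℕ) (lev : T → ℕ) (Z : Cf T I → ℝ) : ℝ := XX (ch lev) (ex n) Z (n + 1) (w0 T I)

def Ev (n : ℕ) (lev : T → ℕ) (Z g : Cf T I → ℝ) : ℝ := Ce (ch lev) (ex n) Z 0 (n + 1) g (w0 T I)

/-- two replicas sharing the signs of the levels `≥ d` -/
def Ew (n : ℕ) (lev : T → ℕ) (Z : Cf T I → ℝ) (d : ℕ) (φ : Cf T I → Cf T I → ℝ) : ℝ :=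
  E2 (ch lev) (ex n) Z (d + 1) (n + 1) φ (w0 T I)

/-- `u` does not depend on the signs in `A` -/
def Idp (A : Finset T) (u : Cf T I → ℝ) : Prop :=
  ∀ e e' σ, (∀ s, s ∉ A → e s = e' s) → u (e, σ) = u (e', σ)

/-- freeze the signs in `A` -/
def frz (A : Finset T) (e : T → Bool) (ω : Cf T I) : Cf T I :=
  (fun s => if s ∈ A then e s else ω.1 s, ω.2)

def TH (ν : Measure (OG I)) (n : ℕ) (lev : T → ℕ) (Z : OG I → Cf T I → ℝ) : ℝ :=
  n * log (∫ U, exp (Xv n lev (Z U) / n) ∂ν)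

def EH (ν : Measure (OG I)) (n : ℕ) (lev : T → ℕ) (Z g : OG I → Cf T I → ℝ) : ℝ :=
  ∫ U, exp ((Xv n lev (Z U) - TH ν n lev Z) / n) * Ev n lev (Z U) (g U) ∂ν

def EW (ν : Measure (OG I)) (n : ℕ) (lev : T → ℕ) (Z : OG I → Cf T I → ℝ) (d : ℕ)
    (φ : OG I → Cf T I → Cf T I → ℝ) : ℝ :=
  ∫ U, exp ((Xv n lev (Z U) - TH ν n lev Z) / n) * Ew n lev (Z U) d (φ U) ∂ν

def Ct (Z : OG I → Cf T I → ℝ) : Prop := ∀ ω, Continuous fun U => Z U ω

def Ct2 (φ : OG I → Cf T I → Cf T I → ℝ) : Prop := ∀ ω ω', Continuous fun U => φ U ω ω'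

/-- concentration of the overlap of the directions `A` around the path `p` -/
def ConcH (ν : Measure (OG I)) (n : ℕ) (lev : T → ℕ) (Z : OG I → Cf T I → ℝ) (A : Finset I)
    (p : ℕ → ℝ) (e : ℝ) : Prop :=
  EH ν n lev Z (fun U ω => (rA A U ω.2 ω.2 - p 0) ^ 2) ≤ e ∧
    (1 / (n : ℝ)) * ∑ d ∈ Ico 1 n, EW ν n lev Z d (fun U ω ω' => (rA A U ω.2 ω'.2 - p d) ^ 2) ≤ e

/-- response of the system to a field on all sites at level `κ` -/
def ltot (ν : Measure (OG I)) (n : ℕ) (lev : T → ℕ) (Z : OG I → Cf T I → ℝ) (κ : ℕ) : ℝ :=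
  1 - (1 / (n : ℝ)) * ∑ d ∈ Icc 1 κ,
    EW ν n lev Z d (fun _ ω ω' => (∑ i, spin (ω.2 i) * spin (ω'.2 i)) / (Fintype.card I : ℝ))

end

def LevOk {T : Type} (n : ℕ) (lev : T → ℕ) : Prop := ∀ s, lev s < n

def pull {T T' I : Type} (f : T → T') (ω : Cf T' I) : Cf T I := (ω.1 ∘ f, ω.2)

/-- `f` embeds the signs of `T` into those of `T'` -/
def Emb {T T' : Type} (lev : T → ℕ) (lev' : T' → ℕ) (f : T → T') : Prop :=
  Function.Injective f ∧ ∀ s, lev' (f s) = lev s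

/-- approximate invariance under the rotations `R ∈ 𝓡`; `F` are the signs of the fields -/
def InvP {T I : Type} [Fintype T] [DecidableEq T] [Fintype I] [DecidableEq I]
    (n : ℕ) (lev : T → ℕ) (Z : OG I → Cf T I → ℝ) (F : Finset T) (𝓡 : Set (OG I)) (δ : ℝ) : Prop :=
  ∀ R ∈ 𝓡, ∀ (U : OG I) (T' : Type) [Fintype T'] [DecidableEq T'] (lev' : T' → ℕ) (f : T → T'),
    Emb lev lev' f → LevOk n lev' → ∀ V : Cf T' I → ℝ, Idp (F.image f) V →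
      |Xv n lev' (fun ω => Z (R * U) (pull f ω) + V ω) -
        Xv n lev' (fun ω => Z U (pull f ω) + V ω)| ≤ δ

section
variable {T I : Type} [Fintype T] [DecidableEq T] [Fintype I] [DecidableEq I]

/-- second order expansion of `Z'` around `Z` in the signs of `A` -/
structure Exq (A : Finset T) (Z Z' : Cf T I → ℝ) (u : T → Cf T I → ℝ) (v : T → T → Cf T I → ℝ)
    (b : ℝ) : Prop where
  iz : Idp A Z
  iu : ∀ s ∈ A, Idp A (u s)
  iv : ∀ s ∈ A, ∀ s' ∈ A, Idp A (v s s')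
  bu : ∀ ω, |∑ s ∈ A, spin (ω.1 s) * u s ω| ≤ b
  bv : ∀ ω, |∑ s ∈ A, ∑ s' ∈ A, spin (ω.1 s) * spin (ω.1 s') * v s s' ω| ≤ b ^ 2
  tay : ∀ ω, |Z' ω - Z ω - ∑ s ∈ A, spin (ω.1 s) * u s ω -
    (∑ s ∈ A, ∑ s' ∈ A, spin (ω.1 s) * spin (ω.1 s') * v s s' ω) / 2| ≤ b ^ 3

def Gm (n : ℕ) (lev : T → ℕ) (Z : Cf T I → ℝ) (A : Finset T) (u : T → Cf T I → ℝ)
    (v : T → T → Cf T I → ℝ) : ℝ :=
  ∑ s ∈ A, (Ev n lev Z (fun ω => v s s ω + u s ω ^ 2) -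
    (1 / (n : ℝ)) * ∑ d ∈ Icc 1 (lev s), Ew n lev Z d (fun ω ω' => u s ω * u s ω')) / 2

def GmH (ν : Measure (OG I)) (n : ℕ) (lev : T → ℕ) (Z : OG I → Cf T I → ℝ) (A : Finset T)
    (u : T → OG I → Cf T I → ℝ) (v : T → T → OG I → Cf T I → ℝ) : ℝ :=
  ∑ s ∈ A, (EH ν n lev Z (fun U ω => v s s U ω + u s U ω ^ 2) -
    (1 / (n : ℝ)) * ∑ d ∈ Icc 1 (lev s), EW ν n lev Z d (fun U ω ω' => u s U ω * u s U ω')) / 2

/-- the field of level `l` on the directions `A`, per unit amplitude -/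
def hN {D n : ℕ} (A : Finset I) (f : Fin D × Fin n × I → T) (s : I → (I → Bool) → ℝ) (l : ℕ)
    (ω : Cf T I) : ℝ :=
  ∑ r : Fin D × Fin n × I,
    if (r.2.1 : ℕ) = l ∧ r.2.2 ∈ A then spin (ω.1 (f r)) * s r.2.2 ω.2 / √(D : ℝ) else 0

end

/-- the sum of the signed steps `a` -/
def sg {R : Type} [Fintype R] (a : R → ℝ) (e : R → Bool) : ℝ := ∑ r, spin (e r) * a r

/-- small steps whose variances approximate the increments of `p` -/
def Mic {R : Type} [Fintype R] (n : ℕ) (lv : R → ℕ) (a : R → ℝ) (p : ℕ → ℝ) (η : ℝ) : Prop :=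
  LevOk n lv ∧ (∀ r, |a r| ≤ η) ∧
    ∀ d, d < n → |∑ r ∈ univ.filter (fun r => lv r = d), a r ^ 2 - (p d - p (d + 1))| ≤ η

/-- value of a system without sites -/
def Xs {T : Type} [Fintype T] [DecidableEq T] (n : ℕ) (lev : T → ℕ) (Z : (T → Bool) → ℝ) : ℝ :=
  Xv n lev (fun ω : Cf T Empty => Z ω.1)

structure Sm3 (B : ℝ) (g g1 g2 : ℝ → ℝ) : Prop where
  b0 : ∀ t, |g t| ≤ B
  b1 : ∀ t, |g1 t| ≤ B
  b2 : ∀ t, |g2 t| ≤ B
  lip : ∀ t h, |g (t + h) - g t| ≤ B * |h|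
  tay : ∀ t h, |g (t + h) - g t - h * g1 t - h ^ 2 * g2 t / 2| ≤ B * |h| ^ 3

def qd (θ γ t : ℝ) : ℝ := -θ * t ^ 2 / 2 + γ * t

/-- `g` is `qd θ γ` cut from below near `-Λ` -/
def Cut (Λ θ γ : ℝ) (g : ℝ → ℝ) : Prop :=
  ∀ t, qd θ γ t ≤ g t ∧ -Λ - 2 ≤ g t ∧ (qd θ γ t < g t → g t ≤ -Λ)

/-- recursion with one Gaussian coordinate of variance `δ j` at the internal level `j` -/
def YG {Ω : Type} (P : ℕ → Op Ω) (m : ℕ → ℝ) (G : Ω → ℝ → ℝ) (δ : ℕ → ℝ) : ℕ → Ω → ℝ → ℝ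
  | 0 => G
  | j + 1 => fun ω x => (m j)⁻¹ * log (P j (fun ω' =>
      ∫ z, exp (m j * YG P m G δ j ω' (x + √(δ j) * z)) ∂gaussianReal 0 1) ω)

/-- increments of a path on the internal levels -/
def inc (p : ℕ → ℝ) : ℕ → ℝ
  | 0 => 0
  | d + 1 => p d - p (d + 1)

/-- identities for the normalised fields `h κ`; the self overlap is not constant -/
structure GG1 {Ω I : Type} (P : ℕ → Op Ω) (n : ℕ) (Z : Ω → ℝ) (s : I → Ω → ℝ) (A : Finset I)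
    (h : ℕ → Ω → ℝ) (ω0 : Ω) (ε : ℝ) : Prop where
  u0 : |Ce P (ex n) Z 0 (n + 1) (fun ω => aR s A ω ω * h 0 ω) ω0 -
    Ce P (ex n) Z 0 (n + 1) (fun ω => aR s A ω ω ^ 2) ω0| ≤ ε
  u1 : ∀ κ, κ < n → |Ce P (ex n) Z 0 (n + 1) (h κ) ω0 - Ce P (ex n) Z 0 (n + 1)
    (fun ω => aR s A ω ω - (1 / (n : ℝ)) * ∑ d ∈ Icc 1 κ, aρ P n Z s A d ω ω) ω0| ≤ ε
  u2 : ∀ κ l, κ < l → l < n →
    |E2 P (ex n) Z (l + 1) (n + 1) (fun ω1 ω2 => aR s A ω1 ω2 * h κ ω1) ω0 -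
      E2 P (ex n) Z (l + 1) (n + 1) (fun ω1 ω2 => aR s A ω1 ω2 *
        (aR s A ω1 ω1 - (1 / (n : ℝ)) * ∑ d ∈ Icc 1 κ, aρ P n Z s A d ω1 ω1)) ω0| ≤ ε
  sh : ∀ l, 1 ≤ l → l < n →
    |E2 P (ex n) Z (l + 1) (n + 1) (fun ω1 ω2 => aR s A ω1 ω2 * h l ω1) ω0 -
      E2 P (ex n) Z (l + 1) (n + 1) (fun ω1 ω2 => aR s A ω1 ω2 *
        (aR s A ω1 ω1 + aR s A ω1 ω2 -
          (1 / (n : ℝ)) * ∑ d ∈ Ico 1 l, (aρ P n Z s A d ω1 ω1 + aρ P n Z s A d ω1 ω2)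
          - (ex n l + 1 / (n : ℝ)) * aρ P n Z s A l ω1 ω1)) ω0| ≤ ε

/-! ### Systems with classes -/

/-- labels of the directions, eigenvalues, levels of the extra signs, extra energy -/
structure Sys (κ I Ts : Type) where
  c : I → κ
  lam : κ → ℝ
  levs : Ts → ℕ
  SF : Cf Ts I → ℝ

abbrev Sg (D n : ℕ) (I Ts : Type) : Type := (Fin D × Fin n × I) ⊕ Ts

section
variable {κ I Ts : Type} [Fintype κ] [DecidableEq κ] [Fintype I] [DecidableEq I] [Fintype Ts]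
  [DecidableEq Ts]

def Sys.lev (S : Sys κ I Ts) (D n : ℕ) : Sg D n I Ts → ℕ := Sum.elim (fun s => s.2.1) S.levs

/-- energy: eigenvalues, `D` rounds of fields of amplitude `y (c i)` on each direction, extra term -/
def Sys.Z (S : Sys κ I Ts) (D n : ℕ) (y : κ → ℕ → ℝ) (U : OG I) (ω : Cf (Sg D n I Ts) I) : ℝ :=
  ∑ i, S.lam (S.c i) * yy U ω.2 i ^ 2 / 2 +
    ∑ s : Fin D × Fin n × I, spin (ω.1 (Sum.inl s)) * (y (S.c s.2.2) s.2.1 / √(D : ℝ) * yy U ω.2 s.2.2) +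
    S.SF (pull Sum.inr ω)

def Sys.T (S : Sys κ I Ts) (ν : Measure (OG I)) (D n : ℕ) (y : κ → ℕ → ℝ) : ℝ :=
  TH ν n (S.lev D n) (S.Z D n y)

def Sys.cls (S : Sys κ I Ts) (k : κ) : Finset I := univ.filter (fun i => S.c i = k)

def Sys.Cn (S : Sys κ I Ts) (ν : Measure (OG I)) (D n : ℕ) (y : κ → ℕ → ℝ) (k : κ) (p : ℕ → ℝ)
    (e : ℝ) : Prop := ConcH ν n (S.lev D n) (S.Z D n y) (S.cls k) p e

/-- the signs of the fields -/
def fs (D n : ℕ) (I Ts : Type) [Fintype I] [DecidableEq I] [DecidableEq Ts] : Finset (Sg D n I Ts) :=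
  univ.image Sum.inl

def Sys.Inv (S : Sys κ I Ts) (D n : ℕ) (y : κ → ℕ → ℝ) (δ : ℝ) : Prop :=
  InvP n (S.lev D n) (S.Z D n y) (fs D n I Ts) {R | Blk S.c R} δ

def Sys.lt (S : Sys κ I Ts) (ν : Measure (OG I)) (D n : ℕ) (y : κ → ℕ → ℝ) (l : ℕ) : ℝ :=
  ltot ν n (S.lev D n) (S.Z D n y) l

/-- move the directions of `B` to the class `τ` -/
def Sys.up (S : Sys κ I Ts) (B : Finset I) (τ : κ) : Sys κ I Ts :=
  ⟨fun i => if i ∈ B then τ else S.c i, S.lam, S.levs, S.SF⟩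

/-- proportions of the classes -/
def Sys.al (S : Sys κ I Ts) (k : κ) : ℝ := (S.cls k).card / (Fintype.card I : ℝ)

/-- every class other than `τ` is empty or large and lies below `τ` -/
structure Sys.Reg (S : Sys κ I Ts) (τ : κ) (Γ g0 M : ℝ) : Prop where
  bd : ∀ k, |S.lam k| ≤ Γ
  top : M ≤ (S.cls τ).card
  big : ∀ k, (S.cls k).Nonempty → M ≤ (S.cls k).card
  gap : ∀ k, k ≠ τ → (S.cls k).Nonempty → S.lam k + g0 ≤ S.lam τ

def pn (n Nr : ℕ) (lam : ℝ) (y : κ → ℕ → ℝ) : ℝ :=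
  4 * Nr * ∑ k, ∑ l ∈ range n, (y k l - 2 * lam) ^ 2

def Box (n : ℕ) (a b : ℝ) (y : κ → ℕ → ℝ) : Prop := ∀ k l, l < n → a ≤ y k l ∧ y k l ≤ b

/-- `y` maximises `F - pn` up to `C` -/
def NM (n Nr : ℕ) (lam : ℝ) (F : (κ → ℕ → ℝ) → ℝ) (y : κ → ℕ → ℝ) (C : ℝ) : Prop :=
  Box n lam (3 * lam) y ∧
    ∀ y', Box n 0 (4 * lam) y' → F y' - pn n Nr lam y' ≤ F y - pn n Nr lam y + C

/-- total variance of the fields is at most `v` -/
def Vb (n : ℕ) (y : κ → ℕ → ℝ) (v : ℝ) : Prop := ∀ k, ∑ l ∈ range n, y k l ^ 2 ≤ v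

end

/-- fields `a` on every site -/
def siteF {I R : Type} [Fintype I] [Fintype R] (a : R → ℝ) (ω : Cf (I × R) I) : ℝ :=
  ∑ i, sg a (fun r => ω.1 (i, r)) * spin (ω.2 i)

/-- the system with labels `c` and site fields `a` -/
def sF {κ I R : Type} [Fintype I] [Fintype R] (c : I → κ) (lam : κ → ℝ) (lv : R → ℕ) (a : R → ℝ) :
    Sys κ I (I × R) := ⟨c, lam, fun s => lv s.2, siteF a⟩

/-- the system with labels `c` and no extra term -/
def s0 {κ I : Type} (c : I → κ) (lam : κ → ℝ) : Sys κ I Empty := ⟨c, lam, fun _ => 0, fun _ => 0⟩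

/-- the system with one extra sign of level `l` and size `s` on the last site -/
def sL {κ : Type} {N : ℕ} (c : Fin (N + 1) → κ) (lam : κ → ℝ) (l : ℕ) (s : ℝ) :
    Sys κ (Fin (N + 1)) Unit :=
  ⟨c, lam, fun _ => l, fun ω => s * spin (ω.1 ()) * spin (ω.2 (Fin.last N))⟩

/-- levels of the new spin (`false`) and of the extra sign (`true`) -/
def lB (l : ℕ) (b : Bool) : ℕ := if b then l else 0

/-- the system `S` with a new spin coupled to the directions `sp j` -/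
def cavZ {κ I J : Type} [Fintype I] [DecidableEq I] [Fintype J] (S : Sys κ I Empty) (D n : ℕ)
    (y : κ → ℕ → ℝ) (s : ℝ) (sp : J → I) (θ γ : J → ℝ) (U : OG I)
    (ω : Cf (Sg D n I Empty ⊕ Bool) I) : ℝ :=
  S.Z D n y U (pull Sum.inl ω) + s * spin (ω.1 (Sum.inr true)) * spin (ω.1 (Sum.inr false)) +
    ∑ j, qd (θ j) (γ j) (yy U ω.2 (sp j) * spin (ω.1 (Sum.inr false)))

/-- activate the rounds `t < t0` of the slots `f` with the profile `W / (N Ds)` -/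
def act {R : Type} [DecidableEq R] {Ds n : ℕ} (a : R → ℝ) (f : Fin Ds × Fin n → R) (W : ℕ → ℝ)
    (N t0 : ℕ) (r : R) : ℝ :=
  a r + ∑ s : Fin Ds × Fin n, if f s = r ∧ (s.1 : ℕ) < t0 then
    √((W s.2 - W (s.2 + 1)) / (N * Ds : ℝ)) else 0

/-- periodic labels -/
def per {κ : Type} {b : ℕ} (hb : 0 < b) (pat : Fin b → κ) (N : ℕ) (i : Fin N) : κ :=
  pat ⟨i % b, Nat.mod_lt _ hb⟩

def pw {κ : Type} [DecidableEq κ] {b : ℕ} (pat : Fin b → κ) (k : κ) : ℝ :=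
  ((univ.filter (fun t => pat t = k)).card : ℝ) / b

/-! ### Paths -/

def ell (n : ℕ) (p : ℕ → ℝ) (κ : ℕ) : ℝ := p 0 - (1 / (n : ℝ)) * ∑ d ∈ Icc 1 κ, p d

/-- functional calculus on paths -/
def fp (n : ℕ) (f : ℝ → ℝ) (p : ℕ → ℝ) (d : ℕ) : ℝ :=
  ∑ j ∈ Ico d n, (f (xi n p (j + 1)) - f (xi n p j)) / (1 - (j : ℝ) / n)

def ph (θ x : ℝ) : ℝ := x / (1 + θ * x)

def lg (θ x : ℝ) : ℝ := -log (1 + θ * x) / 2

def Pin (n Nr : ℕ) (lam : ℝ) (y : ℕ → ℝ) (p : ℕ → ℝ) (M : ℝ) : Prop :=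
  ∀ l, l < n → |M * y l * ell n p l - 8 * Nr * (y l - 2 * lam)| ≤ √(Nr : ℝ) * √(√(Nr : ℝ))

/-- secant slopes of `h` on `[0, X]` -/
def Sec (h : ℝ → ℝ) (X L M : ℝ) : Prop :=
  ∃ σ : ℝ → ℝ → ℝ, ∀ x y, 0 ≤ x → x ≤ X → 0 ≤ y → y ≤ X →
    h x - h y = σ x y * (x - y) ∧ 0 ≤ σ x y ∧ σ x y ≤ M ∧
      ∀ x' y', x ≤ x' → x' ≤ X → y ≤ y' → y' ≤ X →
        σ x y ≤ σ x' y' ∧ σ x' y' - σ x y ≤ L * ((x' - x) + (y' - y))

/-- increments of `g'` are at most those of `g` plus `δ` -/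
def Inc (g g' : ℝ → ℝ) (δ X : ℝ) : Prop :=
  ∀ x x', 0 ≤ x → x ≤ x' → x' ≤ X → g' x' - g' x ≤ g x' - g x + δ * (x' - x)

section
variable {κ : Type} [Fintype κ]

def rho (α lam : κ → ℝ) (τ : κ) (x : ℝ) : ℝ := ∑ k, α k / (1 + (lam τ - lam k) * x)

def Xi (α lam : κ → ℝ) (τ : κ) (x : ℝ) : ℝ := ∑ k, α k * ph (lam τ - lam k) x

def mn (α lam : κ → ℝ) : ℝ := ∑ k, α k * lam k

def bt (α lam : κ → ℝ) (τ : κ) (x : ℝ) : ℝ :=
  lam τ - mn α lam - (∑ k, α k * (lam τ - lam k) / (1 + (lam τ - lam k) * x)) / rho α lam τ x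

def gD (α lam : κ → ℝ) (τ : κ) (x : ℝ) : ℝ :=
  (1 / 2) * sInf ((fun b => b - 1 - ∑ k, α k * log (b - x * lam k)) '' Set.Ioi (x * lam τ))

def VD (n : ℕ) (α lam : κ → ℝ) (τ : κ) : ℝ := sInf (vals n (gD α lam τ))

/-- weights of a discrete law with top atom `τ` -/
structure Wt (α lam : κ → ℝ) (τ : κ) (Γ η : ℝ) : Prop where
  nn : ∀ k, 0 ≤ α k
  sum : ∑ k, α k = 1
  top : η ≤ α τ
  bd : ∀ k, |lam k| ≤ Γ
  le : ∀ k, 0 < α k → lam k ≤ lam τ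

/-- upper tail of a discrete law -/
def tl (α lam : κ → ℝ) (s : ℝ) : ℝ := ∑ k, if s ≤ lam k then α k else 0

/-- diagonalisation of `diag lam` compressed to the complement of `√α` -/
def Dg {J : Type} [Fintype J] [DecidableEq J] (α lam : κ → ℝ) (cl : Option J ≃ κ) (nu γ : J → ℝ) :
    Prop :=
  ∃ O : OG (Option J), (∀ a, O.1 a none = √(α (cl a))) ∧ ∀ (ε : ℝ) (x : J → ℝ),
    ∑ a, lam (cl a) * (O.1 a none * ε + ∑ j, O.1 a (some j) * x j) ^ 2 =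
      mn α lam * ε ^ 2 + 2 * ε * ∑ j, γ j * x j + ∑ j, nu j * x j ^ 2

end

/-- `G` with an explicit right end point -/
def Gs (μ : Measure ℝ) (s x : ℝ) : ℝ :=
  (1 / 2) * sInf ((fun b => b - 1 - ∫ t, log (b - x * t) ∂μ) '' Set.Ioi (x * s))

/-! ### Gaussian flags -/

abbrev EU (N : ℕ) : Type := EuclideanSpace ℝ (Fin N)

def sv {N : ℕ} (σ : Fin N → Bool) : EU N := WithLp.toLp 2 (fun i => spin (σ i))

def pj {N L : ℕ} (G : Fin L → EU N) (S : Finset (Fin L)) (x : EU N) : ℝ :=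
  ‖(Submodule.span ℝ (G '' (S : Set (Fin L)))).starProjection x‖ ^ 2

def FG {N L : ℕ} (c : Fin L → ℝ) (G : Fin L → EU N) : ℝ :=
  log ((∑ σ : Fin N → Bool, exp (-(∑ t, c t * pj G (Iic t) (sv σ)) / 2)) / 2 ^ N)

def gG (N L : ℕ) : Measure (Fin L → EU N) := Measure.pi fun _ => stdGaussian (EU N)

end

end Vale.Agent.P166
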