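import Vale.Agent.P166.Stm

/-! P166, module Spn, part 1: path estimates. -/

namespace Vale.Agent.P166

open MeasureTheory Finset Real Vale.Agent.P157

namespace Spn

theorem tr_sub (hT : TApi) (n : ℕ) (f g : ℝ → ℝ) (p : ℕ → ℝ) :
    tr n (fun x => f x - g x) p = tr n f p - tr n g p := by
  have := hT.fp_lin n f g 1 (-1) 0 p 0
  simp only [hT.fp_zero] at this
  rw [show (fun x => f x - g x) = fun x => 1 * f x + -1 * g x + 0 from funext fun x => by ring, this]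
  ring

theorem tr_sum (hT : TApi) {J : Type} (s : Finset J) (n : ℕ) (f : J → ℝ → ℝ) (p : ℕ → ℝ) :
    tr n (fun x => ∑ j ∈ s, f j x) p = ∑ j ∈ s, tr n (f j) p := by
  have := hT.fp_sum s n f (fun _ => 1) p 0
  simpa only [hT.fp_zero, one_mul] using this

theorem p0_nn (hT : TApi) {n : ℕ} {p : ℕ → ℝ} (hp : Path n p) : 0 ≤ p 0 :=
  (hT.nn hp 0 (Nat.zero_le n)).1

theorem lg_close (hT : TApi) {n : ℕ} {p : ℕ → ℝ} (hp : Path n p) {P θ θ' u : ℝ} (hP : p 0 ≤ P)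
    (h0 : 0 ≤ θ) (h0' : 0 ≤ θ') (hu : |θ' - θ| ≤ u) :
    |tr n (lg θ') p - tr n (lg θ) p| ≤ u / 2 * P := by
  rw [← tr_sub hT]
  have := (hT.lip (f := fun x => lg θ' x - lg θ x) (L := |θ' - θ| / 2) hp
    fun x x' hx hx' _ => (hT.phl θ' θ x x' h0' h0 hx hx').2.2.2.2).1
  refine this.trans (mul_le_mul (by linarith) hP (p0_nn hT hp) ?_)
  linarith [abs_nonneg (θ' - θ)]

theorem lg_sum (hT : TApi) {J : Type} (s : Finset J) {n : ℕ} {p : ℕ → ℝ} (hp : Path n p)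
    {P u K : ℝ} {θ θ' : J → ℝ} (hP : p 0 ≤ P) (hK : (s.card : ℝ) ≤ K) (hu0 : 0 ≤ u)
    (h : ∀ j ∈ s, 0 ≤ θ j ∧ 0 ≤ θ' j ∧ |θ' j - θ j| ≤ u) :
    |∑ j ∈ s, tr n (lg (θ' j)) p - ∑ j ∈ s, tr n (lg (θ j)) p| ≤ K * (u / 2 * P) := by
  rw [← sum_sub_distrib]
  refine (abs_sum_le_sum_abs _ _).trans ((sum_le_card_nsmul _ _ (u / 2 * P) fun j hj =>
    lg_close hT hp hP (h j hj).1 (h j hj).2.1 (h j hj).2.2).trans ?_)
  rw [nsmul_eq_mul]
  exact mul_le_mul_of_nonneg_right hK (mul_nonneg (by linarith) ((p0_nn hT hp).trans hP))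

variable {J : Type} [Fintype J]

theorem sq_sum {γ : J → ℝ} {Γ K : ℝ} (hK : (Fintype.card J : ℝ) ≤ K) (hγ : ∀ j, |γ j| ≤ Γ) :
    ∑ j, γ j ^ 2 ≤ K * Γ ^ 2 := by
  refine (sum_le_card_nsmul _ _ (Γ ^ 2) fun j _ => ?_).trans ?_
  · rw [← sq_abs]
    exact pow_le_pow_left₀ (abs_nonneg _) (hγ j) 2
  · rw [nsmul_eq_mul, card_univ]
    exact mul_le_mul_of_nonneg_right hK (sq_nonneg _)

theorem q_eq (hT : TApi) (n : ℕ) (p : ℕ → ℝ) (γ θ : J → ℝ) :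
    (fun d => ∑ j, γ j ^ 2 * fp n (ph (θ j)) p d) =
      fp n (fun x => ∑ j, γ j ^ 2 * ph (θ j) x) p :=
  funext fun d => (hT.fp_sum univ n (fun j => ph (θ j)) (fun j => γ j ^ 2) p d).symm

theorem q_path (hT : TApi) {n : ℕ} {p : ℕ → ℝ} (hp : Path n p) {γ θ : J → ℝ} {P Γ K : ℝ}
    (hP : p 0 ≤ P) (hK : (Fintype.card J : ℝ) ≤ K) (hγ : ∀ j, |γ j| ≤ Γ) (hθ : ∀ j, 0 ≤ θ j) :
    Path n (fun d => ∑ j, γ j ^ 2 * fp n (ph (θ j)) p d) ∧
      ∑ j, γ j ^ 2 * fp n (ph (θ j)) p 0 ≤ K * Γ ^ 2 * P := by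
  constructor
  · rw [q_eq hT]
    refine hT.fp_path hp fun x hx x' _ h => sum_le_sum fun j _ => ?_
    exact mul_le_mul_of_nonneg_left
      (sub_nonneg.1 (hT.phl (θ j) (θ j) x x' (hθ j) (hθ j) hx.1 h).1) (sq_nonneg _)
  · rw [congrFun (q_eq hT n p γ θ) 0, hT.fp_zero]
    have := (hT.lip (f := fun x => ∑ j, γ j ^ 2 * ph (θ j) x) (L := ∑ j, γ j ^ 2) hp
      fun x x' hx hx' _ => by
        rw [← sum_sub_distrib, sum_mul]
        refine (abs_sum_le_sum_abs _ _).trans (sum_le_sum fun j _ => ?_)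
        have := hT.phl (θ j) (θ j) x x' (hθ j) (hθ j) hx hx'
        rw [← mul_sub, abs_mul, abs_of_nonneg (sq_nonneg _), abs_of_nonneg this.1]
        exact mul_le_mul_of_nonneg_left this.2.1 (sq_nonneg _)).1
    refine (le_abs_self _).trans (this.trans (mul_le_mul (sq_sum hK hγ) hP (p0_nn hT hp) ?_))
    exact (sum_nonneg fun j _ => sq_nonneg _).trans (sq_sum hK hγ)

theorem path_add {n l : ℕ} {q : ℕ → ℝ} (hq : Path n q) (hl : l < n) {t : ℝ} (ht : 0 ≤ t) :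
    Path n (fun d => q d + if d ≤ l then t else 0) := by
  refine ⟨fun d hd => add_le_add (hq.1 d hd) ?_, ?_⟩
  · split_ifs with h1 h2
    · exact le_rfl
    · omega
    · exact ht
    · exact le_rfl
  · simp only [hq.2, if_neg (not_le.2 hl), add_zero]

theorem psi_close (hT : TApi) (hS : PslStmt) {n l : ℕ} {p : ℕ → ℝ} (hn : 1 ≤ n) (hp : Path n p)
    {γ θ θ' : J → ℝ} {P Γ K u t : ℝ} (hP : p 0 ≤ P) (hK : (Fintype.card J : ℝ) ≤ K)
    (hγ : ∀ j, |γ j| ≤ Γ) (h : ∀ j, 0 ≤ θ j ∧ 0 ≤ θ' j ∧ |θ' j - θ j| ≤ u) (hu : 0 ≤ u)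
    (hl : l < n) (ht : 0 ≤ t) :
    |psi n (fun d => ∑ j, γ j ^ 2 * fp n (ph (θ' j)) p d + if d ≤ l then t else 0) +
        (∑ j, γ j ^ 2 * fp n (ph (θ' j)) p 0 + t) / 2 -
      (psi n (fun d => ∑ j, γ j ^ 2 * fp n (ph (θ j)) p d + if d ≤ l then t else 0) +
        (∑ j, γ j ^ 2 * fp n (ph (θ j)) p 0 + t) / 2)| ≤ K * Γ ^ 2 * u * P ^ 2 := by
  have h1 := hS n _ _ hn (path_add (q_path hT hp hP hK hγ fun j => (h j).2.1).1 hl ht)
    (path_add (q_path hT hp hP hK hγ fun j => (h j).1).1 hl ht)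
  simp only [Nat.zero_le, if_true] at h1
  have hP0 := (p0_nn hT hp).trans hP
  have h2 := (hT.lip (f := fun x => 1 * (∑ j, γ j ^ 2 * ph (θ' j) x) +
      -1 * (∑ j, γ j ^ 2 * ph (θ j) x) + 0) (L := K * Γ ^ 2 * (2 * u * P)) hp
    fun x x' hx hx' hx'' => by
      have e : 1 * (∑ j, γ j ^ 2 * ph (θ' j) x') + -1 * (∑ j, γ j ^ 2 * ph (θ j) x') + 0 -
          (1 * (∑ j, γ j ^ 2 * ph (θ' j) x) + -1 * (∑ j, γ j ^ 2 * ph (θ j) x) + 0) =
          ∑ j, γ j ^ 2 * ((ph (θ' j) x' - ph (θ j) x') - (ph (θ' j) x - ph (θ j) x)) := by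
        simp only [mul_sub, sum_sub_distrib]
        ring
      rw [e]
      have a0 : 0 ≤ 2 * u * P * (x' - x) := mul_nonneg (by positivity) (sub_nonneg.2 hx')
      refine (abs_sum_le_sum_abs _ _).trans (le_trans (sum_le_sum
        (g := fun j => γ j ^ 2 * (2 * u * P * (x' - x))) fun j _ => ?_) ?_)
      · rw [abs_mul, abs_of_nonneg (sq_nonneg _)]
        refine mul_le_mul_of_nonneg_left ((hT.phl (θ' j) (θ j) x x' (h j).2.1 (h j).1 hx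
          hx').2.2.1.trans ?_) (sq_nonneg _)
        refine mul_le_mul_of_nonneg_right ?_ (sub_nonneg.2 hx')
        exact mul_le_mul (by linarith [(h j).2.2]) (hx''.trans hP) (hx.trans hx') (by positivity)
      · rw [← sum_mul, mul_assoc (K * Γ ^ 2)]
        exact mul_le_mul_of_nonneg_right (sq_sum hK hγ) a0).2.2
  simp only [hT.fp_lin, ← q_eq hT] at h2
  have hK0 : 0 ≤ K * Γ ^ 2 := (sum_nonneg fun j _ => sq_nonneg _).trans (sq_sum hK hγ)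
  have h3 : K * Γ ^ 2 * (2 * u * P) * p 0 ≤ K * Γ ^ 2 * (2 * u * P) * P :=
    mul_le_mul_of_nonneg_left hP (by positivity)
  refine le_trans (le_of_eq ?_) (h1.trans ?_)
  · congr 1
    ring
  · rw [div_le_iff₀ two_pos]
    refine le_trans (le_of_eq ?_) (h2.trans (h3.trans (le_of_eq (by ring))))
    refine sum_congr rfl fun d _ => ?_
    congr 1
    ring

/-- the value predicted by the tests, in terms of the Schur data -/
theorem val_close (hT : TApi) (hS : PslStmt) {κ : Type} [Fintype κ] {n l : ℕ} {p : ℕ → ℝ}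
    (hn : 1 ≤ n) (hp : Path n p) {γ θ θ' : J → ℝ} {P Γ K u t : ℝ} (hP : p 0 ≤ P)
    (hK : (Fintype.card J : ℝ) ≤ K) (hγ : ∀ j, |γ j| ≤ Γ)
    (h : ∀ j, 0 ≤ θ j ∧ 0 ≤ θ' j ∧ |θ' j - θ j| ≤ u) (hu : 0 ≤ u) (hl : l < n) (ht : 0 ≤ t)
    {a : κ → ℝ} {r b : ℝ → ℝ} (hs : ∀ x, 0 ≤ x →
      ∑ j, lg (θ j) x = ∑ k, lg (a k) x - log (r x) / 2 ∧ ∑ j, γ j ^ 2 * ph (θ j) x = b x) :
    |∑ j, tr n (lg (θ' j)) p +
        psi n (fun d => ∑ j, γ j ^ 2 * fp n (ph (θ' j)) p d + if d ≤ l then t else 0) +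
        (∑ j, γ j ^ 2 * fp n (ph (θ' j)) p 0 + t) / 2 -
      (∑ k, tr n (lg (a k)) p + tr n (fun x => -log (r x) / 2) p +
        psi n (fun d => fp n b p d + if d ≤ l then t else 0) + (fp n b p 0 + t) / 2)| ≤
      u * (K * P / 2 + K * Γ ^ 2 * P ^ 2) := by
  have h1 := psi_close hT hS hn hp hP hK hγ h hu hl ht
  have h2 := lg_sum hT univ hp hP (by simpa using hK) hu fun j _ => h j
  have e1 : ∀ d, ∑ j, γ j ^ 2 * fp n (ph (θ j)) p d = fp n b p d := fun d => by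
    rw [congrFun (q_eq hT n p γ θ) d]
    exact hT.fp_congr hp (fun x hx _ => (hs x hx).2) d
  have e2 : ∑ j, tr n (lg (θ j)) p = ∑ k, tr n (lg (a k)) p + tr n (fun x => -log (r x) / 2) p := by
    have e3 := hT.fp_congr (f := fun x => ∑ j, lg (θ j) x - ∑ k, lg (a k) x)
      (g := fun x => -log (r x) / 2) hp (fun x hx _ => by rw [(hs x hx).1]; ring) 0
    rw [hT.fp_zero, hT.fp_zero, tr_sub hT, tr_sum hT, tr_sum hT] at e3
    linarith
  simp only [e1] at h1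
  rw [e2] at h2
  rw [abs_le] at h1 h2 ⊢
  constructor <;> nlinarith [h1.1, h1.2, h2.1, h2.2]

end Spn

end Vale.Agent.P166
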