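import Vale.Agent.P166.Spn1

/-! P166, module Spn, part 2: the system with the special directions moved to the top class. -/

namespace Vale.Agent.P166

open MeasureTheory Finset Real Vale.Agent.P157

namespace Spn

theorem vb_box {κ : Type} {n : ℕ} {a b lp v : ℝ} {y : κ → ℕ → ℝ} (h : Box n a b y) (ha : 0 ≤ a)
    (hb : b ≤ 4 * lp) (hv : 16 * n * lp ^ 2 ≤ v) : Vb n y v := by
  intro k
  refine (sum_le_card_nsmul _ _ ((4 * lp) ^ 2) fun l hl => ?_).trans ?_
  · have := h k l (mem_range.1 hl)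
    exact pow_le_pow_left₀ (ha.trans this.1) (this.2.trans hb) 2
  · rw [card_range, nsmul_eq_mul]
    linarith

theorem mic_mono {R : Type} [Fintype R] {n : ℕ} {lv : R → ℕ} {a : R → ℝ} {p : ℕ → ℝ} {e e' : ℝ}
    (h : Mic n lv a p e) (he : e ≤ e') : Mic n lv a p e' :=
  ⟨h.1, fun r => (h.2.1 r).trans he, fun d hd => (h.2.2 d hd).trans he⟩

theorem tr_lg0 (n : ℕ) (p : ℕ → ℝ) : tr n (lg 0) p = 0 := by
  simp [tr, lg]

section
variable {κ I Ts : Type} [Fintype κ] [DecidableEq κ] [Fintype I] [DecidableEq I] [Fintype Ts]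
  [DecidableEq Ts]

omit [Fintype κ] [Fintype Ts] [DecidableEq Ts] in
theorem cls_up (S : Sys κ I Ts) (B : Finset I) (τ : κ) :
    S.cls τ ⊆ (S.up B τ).cls τ ∧ B ⊆ (S.up B τ).cls τ ∧
      ((S.up B τ).cls τ).card ≤ (S.cls τ).card + B.card := by
  have m1 : ∀ i, i ∈ S.cls τ ↔ S.c i = τ := fun i => by simp [Sys.cls]
  have m2 : ∀ i, i ∈ (S.up B τ).cls τ ↔ (if i ∈ B then τ else S.c i) = τ := fun i =>
    mem_filter.trans (and_iff_right (mem_univ _))
  refine ⟨fun i hi => ?_, fun i hi => ?_, (card_le_card fun i hi => ?_).trans (card_union_le _ _)⟩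
  · rw [m2]
    split_ifs
    · rfl
    · exact (m1 i).1 hi
  · rw [m2, if_pos hi]
  · rw [m2] at hi
    rw [mem_union, m1]
    split_ifs at hi with h
    · exact Or.inr h
    · exact Or.inl hi

theorem nm_up (hN : NearStmt) {ν : Measure (OG I)} (S : Sys κ I Ts) {D n Nr : ℕ} {y : κ → ℕ → ℝ}
    (B : Finset I) (τ : κ) {lp v Γ η K C0 : ℝ} (hν : Haar ν) (hn : 1 ≤ n) (hl : LevOk n S.levs)
    (hlp : 0 < lp) (hv : 16 * n * lp ^ 2 ≤ v) (hv1 : v ≤ 1) (hΓ : ∀ k, |S.lam k| ≤ Γ)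
    (hg : ∀ i ∈ B, S.c i ≠ τ → S.lam (S.c i) + v ≤ S.lam τ) (hη : 0 < η) (hK : (B.card : ℝ) ≤ K)
    (hc : η * Fintype.card I ≤ ((S.up B τ).cls τ).card) (hI : 0 < Fintype.card I)
    (h : NM n Nr lp (S.T ν D n) y C0) :
    NM n Nr lp ((S.up B τ).T ν D n) y (C0 + K * (2 * |Γ| + 1) / (2 * η)) := by
  refine ⟨h.1, fun y' hy' => ?_⟩
  have a1 := h.2 y' hy'
  have a2 := (hN κ I Ts ν S D n y B τ v Γ hν hn hl (vb_box h.1 hlp.le (by linarith) hv) hΓ hg).1
  have a3 := (hN κ I Ts ν S D n y' B τ v Γ hν hn hl (vb_box hy' le_rfl le_rfl hv) hΓ hg).2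
  have hI' : (0 : ℝ) < Fintype.card I := by exact_mod_cast hI
  have hc0 : (0 : ℝ) < ((S.up B τ).cls τ).card := lt_of_lt_of_le (by positivity) hc
  have a4 : B.card * (2 * Γ + v) * Fintype.card I / (2 * ((S.up B τ).cls τ).card) ≤
      K * (2 * |Γ| + 1) / (2 * η) := by
    have b1 : B.card * (2 * Γ + v) ≤ K * (2 * |Γ| + 1) :=
      (mul_le_mul_of_nonneg_left (by linarith [le_abs_self Γ]) (Nat.cast_nonneg _)).trans
        (mul_le_mul_of_nonneg_right hK (by positivity))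
    have b2 : 0 ≤ K * (2 * |Γ| + 1) := mul_nonneg ((Nat.cast_nonneg _).trans hK) (by positivity)
    rw [div_le_div_iff₀ (by positivity) (by positivity)]
    have b3 := mul_le_mul_of_nonneg_right b1 (by positivity : 0 ≤ (Fintype.card I : ℝ) * (2 * η))
    have b4 := mul_le_mul_of_nonneg_left hc b2
    nlinarith
  linarith

theorem up_val (hO : OApi) (hH : HApi) (hT : TApi) (hS : SwpStmt) {ν : Measure (OG I)}
    (S : Sys κ I Ts) {D n : ℕ} {y : κ → ℕ → ℝ} (B : Finset I) (τ : κ) {v g G e P K : ℝ}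
    {p : ℕ → ℝ} (hν : Haar ν) (hn : 1 ≤ n) (hl : LevOk n S.levs) (hv : Vb n y v) (hv0 : 0 ≤ v)
    (hp : Path n p) (hP : p 0 ≤ P) (hK : (B.card : ℝ) ≤ K) (hg0 : 0 ≤ g)
    (hg : ∀ i ∈ B, S.c i ≠ τ → g + v ≤ S.lam τ - S.lam (S.c i) ∧ S.lam τ - S.lam (S.c i) + v ≤ G)
    (ht : ∀ θ : I → ℝ, (∀ i ∈ B.filter (fun i => S.c i ≠ τ), g ≤ θ i ∧ θ i ≤ G) →
      |TH ν n ((S.up B τ).lev D n) (fun U ω => (S.up B τ).Z D n y U ω +
        ∑ i ∈ B.filter (fun i => S.c i ≠ τ), -θ i * yy U ω.2 i ^ 2 / 2) - (S.up B τ).T ν D n y -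
        ∑ i ∈ B.filter (fun i => S.c i ≠ τ), tr n (lg (θ i)) p| ≤ e) :
    |S.T ν D n y - (S.up B τ).T ν D n y -
      ∑ i ∈ B.filter (fun i => S.c i ≠ τ), tr n (lg (S.lam τ - S.lam (S.c i))) p| ≤
      e + K * (v / 2 * P) := by
  have hk := fun U => hS κ I Ts (Sg D n I Ts) S D n y B τ v (S.lev D n) id (fun _ => 0) U hn hv
    ⟨Function.injective_id, fun _ => rfl⟩ ((hH.ctz S D n y).2 hl) (fun _ _ _ _ => rfl)
  have cz := (hH.ctz S D n y).1
  have cc : ∀ θ : I → ℝ, Ct fun U ω => (S.up B τ).Z D n y U ω +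
      ∑ i ∈ B.filter (fun i => S.c i ≠ τ), -θ i * yy U ω.2 i ^ 2 / 2 := fun θ ω =>
    ((hH.ctz (S.up B τ) D n y).1 ω).add (continuous_finsetSum _ fun i _ =>
      (((hO.cont _ _).pow 2).const_mul _).div_const _)
  have l1 := hH.ptw ((S.up B τ).lev D n) (S.lev D n) 0 hν hn
    (cc fun i => S.lam τ - S.lam (S.c i) + v) cz fun U => by
      rw [add_zero]
      refine le_trans (le_of_eq ?_) ((hk U).1.trans (le_of_eq ?_))
      · congr 1
        funext ω
        rw [add_zero]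
        congr 1
        exact sum_congr rfl fun i _ => by ring
      · congr 1
        funext ω
        exact add_zero _
  have l2 := hH.ptw (S.lev D n) ((S.up B τ).lev D n) 0 hν hn cz
    (cc fun i => S.lam τ - S.lam (S.c i) - v) fun U => by
      rw [add_zero]
      refine le_trans (le_of_eq ?_) ((hk U).2.trans (le_of_eq ?_))
      · congr 1
        funext ω
        exact (add_zero _).symm
      · congr 1
        funext ω
        rw [add_zero]
        congr 1
        exact sum_congr rfl fun i _ => by ring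
  have hK' : ((B.filter (fun i => S.c i ≠ τ)).card : ℝ) ≤ K :=
    le_trans (by exact_mod_cast card_filter_le _ _) hK
  have t1 := ht (fun i => S.lam τ - S.lam (S.c i) + v) fun i hi => by
    have := hg i (mem_filter.1 hi).1 (mem_filter.1 hi).2
    constructor <;> linarith [this.1, this.2]
  have t2 := ht (fun i => S.lam τ - S.lam (S.c i) - v) fun i hi => by
    have := hg i (mem_filter.1 hi).1 (mem_filter.1 hi).2
    constructor <;> linarith [this.1, this.2]
  have s1 := lg_sum hT (B.filter (fun i => S.c i ≠ τ)) hp (θ := fun i => S.lam τ - S.lam (S.c i))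
    (θ' := fun i => S.lam τ - S.lam (S.c i) + v) hP hK' hv0 fun i hi => by
      have := hg i (mem_filter.1 hi).1 (mem_filter.1 hi).2
      refine ⟨by linarith [this.1], by linarith [this.1], ?_⟩
      rw [add_sub_cancel_left, abs_of_nonneg hv0]
  have s2 := lg_sum hT (B.filter (fun i => S.c i ≠ τ)) hp (θ := fun i => S.lam τ - S.lam (S.c i))
    (θ' := fun i => S.lam τ - S.lam (S.c i) - v) hP hK' hv0 fun i hi => by
      have := hg i (mem_filter.1 hi).1 (mem_filter.1 hi).2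
      refine ⟨by linarith [this.1], by linarith [this.1], ?_⟩
      rw [sub_sub_cancel_left, abs_neg, abs_of_nonneg hv0]
  change _ ≤ S.T ν D n y + 0 at l1
  change S.T ν D n y ≤ _ at l2
  rw [abs_le] at t1 t2 s1 s2 ⊢
  constructor <;> linarith [t1.1, t1.2, t2.1, t2.2, s1.1, s1.2, s2.1, s2.2]

end

theorem sum_sp {κ I : Type} [Fintype κ] [DecidableEq κ] [DecidableEq I] (c : I → κ) (k0 τ : κ)
    (sp : {k // k ≠ k0} → I) (hsp : ∀ j, c (sp j) = j.1) (F : κ → ℝ) (hF : F τ = 0) :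
    ∑ i ∈ (univ.image sp).filter (fun i => c i ≠ τ), F (c i) = ∑ k, F k - F k0 := by
  have hi : Function.Injective sp := fun j j' h => Subtype.ext (by rw [← hsp, ← hsp, h])
  rw [sum_filter, sum_image fun a _ b _ h => hi h, ← (Equiv.optionSubtypeNe k0).sum_comp F,
    Fintype.sum_option]
  simp only [Equiv.optionSubtypeNe_none, Equiv.optionSubtypeNe_some, hsp, add_sub_cancel_left]
  refine sum_congr rfl fun j _ => ?_
  split_ifs with h
  · rfl
  · rw [not_not.1 h, hF]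

end Spn

end Vale.Agent.P166
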