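import Vale.Agent.P166.Spec

/-! P166: module statements (proofs in notes/P166.md). -/

namespace Vale.Agent.P166

open MeasureTheory ProbabilityTheory Finset Real Filter Topology Vale.Agent.P157

noncomputable section

/-! ### Group layer -/

def HrStmt : Prop := ∀ (I : Type) [Fintype I] [DecidableEq I] (ν : Measure (OG I)),
  IsProbabilityMeasure ν → ν.IsMulLeftInvariant → Haar ν

structure OApi : Prop where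
  mul : ∀ {I : Type} [Fintype I] [DecidableEq I] (R U : OG I) σ i,
    yy (R * U) σ i = ∑ j, R.1 i j * yy U σ j
  dot : ∀ {I : Type} [Fintype I] [DecidableEq I] (U : OG I) σ σ',
    ∑ i, yy U σ i * yy U σ' i = ∑ j, spin (σ j) * spin (σ' j)
  sq : ∀ {I : Type} [Fintype I] [DecidableEq I] (U : OG I) σ,
    ∑ i, yy U σ i ^ 2 = Fintype.card I
  bd : ∀ {I : Type} [Fintype I] [DecidableEq I] (U : OG I) σ i,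
    yy U σ i ^ 2 ≤ Fintype.card I ∧ |yy U σ i| ≤ √(Fintype.card I : ℝ)
  cont : ∀ {I : Type} [Fintype I] [DecidableEq I] (σ : I → Bool) (i : I),
    Continuous fun U : OG I => yy U σ i
  blk : ∀ {I κ : Type} [Fintype I] [DecidableEq I] (c : I → κ) (R U : OG I), Blk c R →
    ∀ (a : κ → ℝ) σ σ', ∑ i, a (c i) * (yy (R * U) σ i * yy (R * U) σ' i) =
      ∑ i, a (c i) * (yy U σ i * yy U σ' i)
  sup : ∀ {I : Type} [Fintype I] [DecidableEq I] (A : Finset I) (R U : OG I), Sup A R →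
    ∀ σ j, j ∉ A → yy (R * U) σ j = yy U σ j
  supblk : ∀ {I κ : Type} [Fintype I] [DecidableEq I] (A : Finset I) (R : OG I) (c : I → κ) (k : κ),
    Sup A R → (∀ i ∈ A, c i = k) → Blk c R
  supmono : ∀ {I : Type} [Fintype I] [DecidableEq I] (A A' : Finset I) (R : OG I), A ⊆ A' →
    Sup A R → Sup A' R
  rot : ∀ {I : Type} [Fintype I] [DecidableEq I] (A : Finset I) (i : I) (φ : ℝ) (e : I → Bool),
    i ∉ A → A.Nonempty → ∃ R : OG I, Sup (insert i A) R ∧ ∀ U σ, yy (R * U) σ i =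
      cos φ * yy U σ i + sin φ * ((∑ j ∈ A, spin (e j) * yy U σ j) / √(A.card : ℝ))
  permL : ∀ {I : Type} [Fintype I] [DecidableEq I] (pm : Equiv.Perm I),
    ∃ R : OG I, ∀ U σ i, yy (R * U) σ i = yy U σ (pm i)
  permR : ∀ {I : Type} [Fintype I] [DecidableEq I] (pm : Equiv.Perm I),
    ∃ R : OG I, ∀ U σ i, yy (U * R) σ i = yy U (σ ∘ pm) i
  form : ∀ (β : ℝ) {N : ℕ} (lam : Fin N → ℝ) (U : OG (Fin N)),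
    PN β lam U = F0 (fun i => β * lam i) U / N
  f0 : ∀ {I : Type} [Fintype I] [DecidableEq I] (Λ Λ' : I → ℝ) (c : ℝ),
    Continuous (F0 Λ) ∧ ((∀ i, Λ i ≤ Λ' i + c) → ∀ U, F0 Λ U ≤ F0 Λ' U + c * Fintype.card I / 2) ∧
      ((∀ i, |Λ i| ≤ c) → ∀ U, |F0 Λ U| ≤ c * Fintype.card I / 2)

/-- second moment of the mass of a column on `A` -/
def SmStmt : Prop := ∀ (I : Type) [Fintype I] [DecidableEq I] (ν : Measure (OG I)) (A : Finset I)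
  (j : I), Haar ν → ∫ U, (∑ i ∈ A, U.1 i j ^ 2 - A.card / (Fintype.card I : ℝ)) ^ 2 ∂ν ≤
    3 / (Fintype.card I : ℝ)

/-! ### Recording layer -/

structure RApi : Prop where
  ok : ∀ {T I : Type} [Fintype T] [DecidableEq T] [Fintype I] [DecidableEq I] (n : ℕ) (lev : T → ℕ),
    1 ≤ n → Ok (ch (I := I) lev) (ex n) (n + 1) ∧ Fil (ch (I := I) lev) (rl lev)
  any : ∀ {T I : Type} [Fintype T] [DecidableEq T] [Fintype I] [DecidableEq I] (n : ℕ) (lev : T → ℕ),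
    LevOk n lev → ∀ (Z g : Cf T I → ℝ) ω, XX (ch lev) (ex n) Z (n + 1) ω = Xv n lev Z ∧
      Ce (ch lev) (ex n) Z 0 (n + 1) g ω = Ev n lev Z g
  emb : ∀ {T T' I : Type} [Fintype T] [DecidableEq T] [Fintype T'] [DecidableEq T'] [Fintype I]
    [DecidableEq I] (n : ℕ) (lev : T → ℕ) (lev' : T' → ℕ) (f : T → T'), Emb lev lev' f →
    ∀ Z : Cf T I → ℝ, Xv n lev' (fun ω => Z (pull f ω)) = Xv n lev Z ∧
      (∀ g, Ev n lev' (fun ω => Z (pull f ω)) (fun ω => g (pull f ω)) = Ev n lev Z g) ∧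
      ∀ d, d ≤ n → ∀ φ, Ew n lev' (fun ω => Z (pull f ω)) d
        (fun ω ω' => φ (pull f ω) (pull f ω')) = Ew n lev Z d φ
  site : ∀ {T I I' : Type} [Fintype T] [DecidableEq T] [Fintype I] [DecidableEq I] [Fintype I']
    [DecidableEq I'] (n : ℕ) (lev : T → ℕ) (pm : I ≃ I') (Z : Cf T I → ℝ),
    Xv n lev (fun ω : Cf T I' => Z (ω.1, ω.2 ∘ pm)) = Xv n lev Z ∧
      (∀ g, Ev n lev (fun ω : Cf T I' => Z (ω.1, ω.2 ∘ pm)) (fun ω => g (ω.1, ω.2 ∘ pm)) =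
        Ev n lev Z g) ∧
      ∀ d, d ≤ n → ∀ φ, Ew n lev (fun ω : Cf T I' => Z (ω.1, ω.2 ∘ pm)) d
        (fun ω ω' => φ (ω.1, ω.2 ∘ pm) (ω'.1, ω'.2 ∘ pm)) = Ew n lev Z d φ
  flip : ∀ {T I : Type} [Fintype T] [DecidableEq T] [Fintype I] [DecidableEq I] (n : ℕ) (lev : T → ℕ)
    (s : T) (Z : Cf T I → ℝ), LevOk n lev → Idp {s} Z →
    (∀ g, Ev n lev Z (fun ω => g (Function.update ω.1 s (!ω.1 s), ω.2)) = Ev n lev Z g) ∧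
      ∀ d, d ≤ n → ∀ φ : Cf T I → Cf T I → ℝ,
        Ew n lev Z d (fun ω ω' => φ (Function.update ω.1 s (!ω.1 s), ω.2)
          (Function.update ω'.1 s (!ω'.1 s), ω'.2)) = Ew n lev Z d φ ∧
        (lev s < d → Ew n lev Z d (fun ω ω' => φ (Function.update ω.1 s (!ω.1 s), ω.2) ω') =
          Ew n lev Z d φ)
  last : ∀ {T : Type} [Fintype T] [DecidableEq T] (n N : ℕ) (lev : T → ℕ)
    (Z : Cf T (Fin (N + 1)) → ℝ), 1 ≤ n → Xv n lev Z = Xv n (Sum.elim lev (fun _ : Unit => 0))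
      (fun ω : Cf (T ⊕ Unit) (Fin N) => Z (ω.1 ∘ Sum.inl, Fin.snoc ω.2 (ω.1 (Sum.inr ()))))
  top : ∀ {T I : Type} [Fintype T] [DecidableEq T] [Fintype I] [DecidableEq I] (n : ℕ) (lev : T → ℕ)
    (A : Finset T) (Z : Cf T I → ℝ), 1 ≤ n → (∀ s ∈ A, lev s = n - 1) →
    exp (Xv n lev Z / n) = (∑ e : T → Bool, exp (Xv n lev (fun ω => Z (frz A e ω)) / n)) /
      (Fintype.card (T → Bool) : ℝ)
  prod : ∀ {T T' I : Type} [Fintype T] [DecidableEq T] [Fintype T'] [DecidableEq T'] [Fintype I]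
    [DecidableEq I] (n : ℕ) (lev : T → ℕ) (lev' : T' → ℕ) (Z : Cf T I → ℝ) (Z' : (T' → Bool) → ℝ),
    1 ≤ n →
    Xv n (Sum.elim lev lev') (fun ω => Z (pull Sum.inl ω) + Z' (ω.1 ∘ Sum.inr)) =
        Xv n lev Z + Xs n lev' Z' ∧
      (∀ g, Ev n (Sum.elim lev lev') (fun ω => Z (pull Sum.inl ω) + Z' (ω.1 ∘ Sum.inr))
        (fun ω => g (pull Sum.inl ω)) = Ev n lev Z g) ∧
      ∀ d, d ≤ n → ∀ φ, Ew n (Sum.elim lev lev') (fun ω => Z (pull Sum.inl ω) + Z' (ω.1 ∘ Sum.inr)) d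
        (fun ω ω' => φ (pull Sum.inl ω) (pull Sum.inl ω')) = Ew n lev Z d φ
  empty : ∀ {T I : Type} [Fintype T] [DecidableEq T] [Fintype I] [DecidableEq I] (n : ℕ)
    (lev : T → ℕ) (H : (I → Bool) → ℝ), 1 ≤ n →
    Xv n lev (fun ω : Cf T I => H ω.2) = log ((∑ σ, exp (H σ)) / 2 ^ Fintype.card I)
  cont : ∀ {T I : Type} [Fintype T] [DecidableEq T] [Fintype I] [DecidableEq I] {X : Type}
    [TopologicalSpace X] (n : ℕ) (lev : T → ℕ) (Z g : X → Cf T I → ℝ)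
    (φ : X → Cf T I → Cf T I → ℝ), 1 ≤ n → (∀ ω, Continuous fun x => Z x ω) →
    (∀ j ω, j ≤ n + 1 → Continuous fun x => XX (ch lev) (ex n) (Z x) j ω) ∧
      ((∀ ω, Continuous fun x => g x ω) → ∀ a b ω, b ≤ n + 1 →
        Continuous fun x => Ce (ch lev) (ex n) (Z x) a b (g x) ω) ∧
      ((∀ ω ω', Continuous fun x => φ x ω ω') → ∀ d, d ≤ n →
        Continuous fun x => Ew n lev (Z x) d (φ x))

/-- inequalities in the recording model -/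
structure QApi : Prop where
  hole : ∀ {T I : Type} [Fintype T] [DecidableEq T] [Fintype I] [DecidableEq I] (n : ℕ) (lev : T → ℕ)
    (A : Finset T) (Z : Cf T I → ℝ) (u : T → Cf T I → ℝ), 1 ≤ n → LevOk n lev → Idp A Z →
    (∀ s ∈ A, Idp A (u s)) →
    Xv n lev Z ≤ Xv n lev (fun ω => Z ω + ∑ s ∈ A, spin (ω.1 s) * u s ω) ∧
      Xv n lev (fun ω => Z ω + ∑ s ∈ A, spin (ω.1 s) * u s ω) ≤
        Xv n lev (fun ω => Z ω + ∑ s ∈ A, u s ω ^ 2 / 2)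
  lowb : ∀ {Ω : Type} {P : ℕ → Op Ω} (n : ℕ), Ok P (ex n) (n + 1) → ∀ (Z A g : Ω → ℝ),
    (∀ ω, 0 ≤ A ω) → (∀ ω, 0 ≤ g ω) → ∀ ω,
    exp ((XX P (ex n) (Z + A) (n + 1) ω - XX P (ex n) Z (n + 1) ω) / n) *
        Ce P (ex n) (Z + A) 0 (n + 1) g ω ≤
      Ce P (ex n) Z 0 (n + 1) (fun x => exp (A x) * g x) ω
  lowexp : ∀ {Ω : Type} {P : ℕ → Op Ω} (n : ℕ), 1 ≤ n → Ok P (ex n) (n + 1) → ∀ (Z A : Ω → ℝ) ω,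
    XX P (ex n) Z (n + 1) ω + n * log (Ce P (ex n) Z 0 (n + 1) (fun x => exp (A x / n)) ω) ≤
      XX P (ex n) (Z + A) (n + 1) ω
  avg : ∀ {T I : Type} [Fintype T] [DecidableEq T] [Fintype I] [DecidableEq I] (n : ℕ) (lev : T → ℕ)
    (A : Finset T) (Z g : Cf T I → ℝ), 1 ≤ n → LevOk n lev → Idp A Z →
    Ev n lev Z g = (∑ e : T → Bool, Ev n lev Z (fun ω => g (frz A e ω))) /
      (Fintype.card (T → Bool) : ℝ)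
  mom4 : ∀ {T : Type} [Fintype T] [DecidableEq T] (A : Finset T) (a : T → ℝ),
    (∑ e : T → Bool, (∑ s ∈ A, spin (e s) * a s) ^ 4) / (Fintype.card (T → Bool) : ℝ) ≤
      3 * (∑ s ∈ A, a s ^ 2) ^ 2
  mexp : ∀ {T : Type} [Fintype T] [DecidableEq T] (A : Finset T) (a : T → ℝ) (t : ℝ), 0 ≤ t →
    t * ∑ s ∈ A, a s ^ 2 ≤ 1 / 4 →
    (∑ e : T → Bool, exp (t * (∑ s ∈ A, spin (e s) * a s) ^ 2)) /
      (Fintype.card (T → Bool) : ℝ) ≤ 2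
  mexp2 : ∀ {T : Type} [Fintype T] [DecidableEq T] (A : Finset T) (a : T → ℝ) (t : ℝ), 0 ≤ t →
    t * ∑ s ∈ A, a s ^ 2 ≤ 1 / 4 →
    (∑ e : T → Bool, exp (t * (∑ s ∈ A, spin (e s) * a s) ^ 2)) /
      (Fintype.card (T → Bool) : ℝ) ≤
      exp (t * ∑ s ∈ A, a s ^ 2 + 2 * (t * ∑ s ∈ A, a s ^ 2) ^ 2)

section
variable {T I : Type} [Fintype T] [DecidableEq T] [Fintype I] [DecidableEq I]

/-- the Haar level, one system -/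
structure HOne (ν : Measure (OG I)) (n : ℕ) (lev : T → ℕ) (Z : OG I → Cf T I → ℝ) : Prop where
  low : ∀ A, Ct A → TH ν n lev Z + EH ν n lev Z A ≤ TH ν n lev (fun U ω => Z U ω + A U ω)
  lowexp : ∀ A, Ct A → TH ν n lev Z + n * log (EH ν n lev Z (fun U ω => exp (A U ω / n))) ≤
    TH ν n lev (fun U ω => Z U ω + A U ω)
  xup : ∀ A, Ct A → TH ν n lev (fun U ω => Z U ω + A U ω) ≤
    TH ν n lev Z + log (EH ν n lev Z (fun U ω => exp (A U ω)))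
  first : ∀ A (b : ℝ), Ct A → (∀ U ω, |A U ω| ≤ b) → b ≤ 1 →
    |TH ν n lev (fun U ω => Z U ω + A U ω) - TH ν n lev Z - EH ν n lev Z A| ≤ b ^ 2
  lin : ∀ (g h : OG I → Cf T I → ℝ) (a b : ℝ), Ct g → Ct h →
    EH ν n lev Z (fun U ω => a * g U ω + b * h U ω) = a * EH ν n lev Z g + b * EH ν n lev Z h
  sum : ∀ {J : Type} (s : Finset J) (g : J → OG I → Cf T I → ℝ), (∀ j ∈ s, Ct (g j)) →
    EH ν n lev Z (fun U ω => ∑ j ∈ s, g j U ω) = ∑ j ∈ s, EH ν n lev Z (g j)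
  mono : ∀ (g h : OG I → Cf T I → ℝ), Ct g → Ct h → (∀ U ω, g U ω ≤ h U ω) →
    EH ν n lev Z g ≤ EH ν n lev Z h
  const : ∀ c : ℝ, EH ν n lev Z (fun _ _ => c) = c
  sq : ∀ g, Ct g → EH ν n lev Z g ^ 2 ≤ EH ν n lev Z (fun U ω => g U ω ^ 2)
  lin2 : ∀ d, d ≤ n → ∀ (φ ψ : OG I → Cf T I → Cf T I → ℝ) (a b : ℝ), Ct2 φ → Ct2 ψ →
    EW ν n lev Z d (fun U ω ω' => a * φ U ω ω' + b * ψ U ω ω') =
      a * EW ν n lev Z d φ + b * EW ν n lev Z d ψ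
  sum2 : ∀ d, d ≤ n → ∀ {J : Type} (s : Finset J) (φ : J → OG I → Cf T I → Cf T I → ℝ),
    (∀ j ∈ s, Ct2 (φ j)) →
    EW ν n lev Z d (fun U ω ω' => ∑ j ∈ s, φ j U ω ω') = ∑ j ∈ s, EW ν n lev Z d (φ j)
  mono2 : ∀ d, d ≤ n → ∀ (φ ψ : OG I → Cf T I → Cf T I → ℝ), Ct2 φ → Ct2 ψ →
    (∀ U ω ω', φ U ω ω' ≤ ψ U ω ω') → EW ν n lev Z d φ ≤ EW ν n lev Z d ψ
  const2 : ∀ d, d ≤ n → ∀ c : ℝ, EW ν n lev Z d (fun _ _ _ => c) = c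
  sq2 : ∀ d, d ≤ n → ∀ φ, Ct2 φ →
    EW ν n lev Z d φ ^ 2 ≤ EW ν n lev Z d (fun U ω ω' => φ U ω ω' ^ 2)
  one : ∀ d, d ≤ n → ∀ g, Ct g → EW ν n lev Z d (fun U ω _ => g U ω) = EH ν n lev Z g ∧
    EW ν n lev Z d (fun U _ ω' => g U ω') = EH ν n lev Z g
  anti : ∀ d d', d ≤ d' → d' ≤ n → ∀ g, Ct g →
    0 ≤ EW ν n lev Z d' (fun U ω ω' => g U ω * g U ω') ∧
      EW ν n lev Z d' (fun U ω ω' => g U ω * g U ω') ≤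
        EW ν n lev Z d (fun U ω ω' => g U ω * g U ω') ∧
      EW ν n lev Z d (fun U ω ω' => g U ω * g U ω') ≤ EH ν n lev Z (fun U ω => g U ω ^ 2)
  chg : ∀ A (B : ℝ), Ct A → (∀ U ω, |A U ω| ≤ B) →
    (∀ g, Ct g → (∀ U ω, 0 ≤ g U ω) →
      EH ν n lev (fun U ω => Z U ω + A U ω) g ≤ exp (4 * B) * EH ν n lev Z g) ∧
    ∀ d, d ≤ n → ∀ φ, Ct2 φ → (∀ U ω ω', 0 ≤ φ U ω ω') →
      EW ν n lev (fun U ω => Z U ω + A U ω) d φ ≤ exp (8 * B) * EW ν n lev Z d φ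
  lowb : ∀ A g, Ct A → Ct g → (∀ U ω, 0 ≤ A U ω) → (∀ U ω, 0 ≤ g U ω) →
    EH ν n lev (fun U ω => Z U ω + A U ω) g ≤ EH ν n lev Z (fun U ω => exp (A U ω) * g U ω)
  shift : ∀ c : ℝ, TH ν n lev (fun U ω => Z U ω + c) = TH ν n lev Z + c ∧
    ∀ g, EH ν n lev (fun U ω => Z U ω + c) g = EH ν n lev Z g
  invL : ∀ R : OG I, TH ν n lev (fun U => Z (R * U)) = TH ν n lev Z ∧
    (∀ g, Ct g → EH ν n lev (fun U => Z (R * U)) (fun U => g (R * U)) = EH ν n lev Z g) ∧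
    ∀ d, d ≤ n → ∀ φ, Ct2 φ →
      EW ν n lev (fun U => Z (R * U)) d (fun U => φ (R * U)) = EW ν n lev Z d φ
  invR : ∀ R : OG I, TH ν n lev (fun U => Z (U * R)) = TH ν n lev Z ∧
    (∀ g, Ct g → EH ν n lev (fun U => Z (U * R)) (fun U => g (U * R)) = EH ν n lev Z g) ∧
    ∀ d, d ≤ n → ∀ φ, Ct2 φ →
      EW ν n lev (fun U => Z (U * R)) d (fun U => φ (U * R)) = EW ν n lev Z d φ
  top : ∀ (A : Finset T) (t δ : ℝ), (∀ s ∈ A, lev s = n - 1) →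
    (∀ e, |TH ν n lev (fun U ω => Z U (frz A e ω)) - t| ≤ δ) → |TH ν n lev Z - t| ≤ δ

end

def H1Stmt : Prop := ∀ (T I : Type) [Fintype T] [DecidableEq T] [Fintype I] [DecidableEq I]
  (ν : Measure (OG I)) (n : ℕ) (lev : T → ℕ) (Z : OG I → Cf T I → ℝ), Haar ν → 1 ≤ n → Ct Z →
    HOne ν n lev Z

structure HApi : Prop where
  one : ∀ {T I : Type} [Fintype T] [DecidableEq T] [Fintype I] [DecidableEq I]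
    {ν : Measure (OG I)} {n : ℕ} (lev : T → ℕ) {Z : OG I → Cf T I → ℝ}, Haar ν → 1 ≤ n → Ct Z →
    HOne ν n lev Z
  ptw : ∀ {T T' I : Type} [Fintype T] [DecidableEq T] [Fintype T'] [DecidableEq T'] [Fintype I]
    [DecidableEq I] {ν : Measure (OG I)} {n : ℕ} (lev : T → ℕ) (lev' : T' → ℕ)
    {Z : OG I → Cf T I → ℝ} {Z' : OG I → Cf T' I → ℝ} (c : ℝ), Haar ν → 1 ≤ n → Ct Z → Ct Z' →
    (∀ U, Xv n lev (Z U) ≤ Xv n lev' (Z' U) + c) → TH ν n lev Z ≤ TH ν n lev' Z' + c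
  le : ∀ {T I : Type} [Fintype T] [DecidableEq T] [Fintype I] [DecidableEq I]
    {ν : Measure (OG I)} {n : ℕ} (lev : T → ℕ) {Z Z' : OG I → Cf T I → ℝ} (c : ℝ), Haar ν → 1 ≤ n →
    Ct Z → Ct Z' → (∀ U ω, Z U ω ≤ Z' U ω + c) → TH ν n lev Z ≤ TH ν n lev Z' + c
  incr : ∀ {T I : Type} [Fintype T] [DecidableEq T] [Fintype I] [DecidableEq I]
    {ν : Measure (OG I)} {n : ℕ} (lev : T → ℕ) {Z Z' : OG I → Cf T I → ℝ} (G : OG I → ℝ) (δ γ : ℝ),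
    Haar ν → 1 ≤ n → Ct Z → Ct Z' → Continuous G → (∀ U, |G U| ≤ γ) → γ + δ ≤ 1 →
    (∀ U, |Xv n lev (Z' U) - Xv n lev (Z U) - G U| ≤ δ) →
    |TH ν n lev Z' - TH ν n lev Z -
      ∫ U, exp ((Xv n lev (Z U) - TH ν n lev Z) / n) * G U ∂ν| ≤ δ + (γ + δ) ^ 2
  same : ∀ {T T' I : Type} [Fintype T] [DecidableEq T] [Fintype T'] [DecidableEq T'] [Fintype I]
    [DecidableEq I] {ν : Measure (OG I)} {n : ℕ} (lev : T → ℕ) (lev' : T' → ℕ)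
    {Z : OG I → Cf T I → ℝ} {Z' : OG I → Cf T' I → ℝ} (c : ℝ), Haar ν → 1 ≤ n → Ct Z →
    (∀ U, Xv n lev' (Z' U) = Xv n lev (Z U) + c) → TH ν n lev' Z' = TH ν n lev Z + c ∧
      (∀ g g', (∀ U, Ev n lev' (Z' U) (g' U) = Ev n lev (Z U) (g U)) →
        EH ν n lev' Z' g' = EH ν n lev Z g) ∧
      ∀ d φ φ', (∀ U, Ew n lev' (Z' U) d (φ' U) = Ew n lev (Z U) d (φ U)) →
        EW ν n lev' Z' d φ' = EW ν n lev Z d φ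
  inv : ∀ {T T' I : Type} [Fintype T] [DecidableEq T] [Fintype T'] [DecidableEq T'] [Fintype I]
    [DecidableEq I] {ν : Measure (OG I)} {n : ℕ} {lev : T → ℕ} {Z : OG I → Cf T I → ℝ}
    {F : Finset T} {𝓡 : Set (OG I)} {δ : ℝ}, Haar ν → 1 ≤ n → Ct Z → InvP n lev Z F 𝓡 δ →
    ∀ R ∈ 𝓡, ∀ (lev' : T' → ℕ) (f : T → T'), Emb lev lev' f → LevOk n lev' →
    ∀ V : OG I → Cf T' I → ℝ, Ct V → (∀ U, Idp (F.image f) (V U)) →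
      |TH ν n lev' (fun U ω => Z U (pull f ω) + V U ω) -
        TH ν n lev' (fun U ω => Z U (pull f ω) + V (R * U) ω)| ≤ δ
  inh : ∀ {T T' I : Type} [Fintype T] [DecidableEq T] [Fintype T'] [DecidableEq T'] [Fintype I]
    [DecidableEq I] {n : ℕ} {lev : T → ℕ} {Z : OG I → Cf T I → ℝ} {F : Finset T}
    {𝓡 𝓡' : Set (OG I)} {δ δ' : ℝ}, InvP n lev Z F 𝓡 δ → 𝓡' ⊆ 𝓡 → δ ≤ δ' →
    ∀ (lev' : T' → ℕ) (f : T → T'), Emb lev lev' f → ∀ V : OG I → Cf T' I → ℝ,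
    (∀ U, Idp (F.image f) (V U)) → (∀ R ∈ 𝓡', ∀ U, V (R * U) = V U) →
      InvP n lev' (fun U ω => Z U (pull f ω) + V U ω) (F.image f) 𝓡' δ'
  ctz : ∀ {κ I Ts : Type} [Fintype I] [DecidableEq I] (S : Sys κ I Ts) (D n : ℕ) (y : κ → ℕ → ℝ),
    Ct (S.Z D n y) ∧ (LevOk n S.levs → LevOk n (S.lev D n))

def GrpStmt : Prop := ∃ C : ℝ, 0 ≤ C ∧ ∀ (T I : Type) [Fintype T] [DecidableEq T] [Fintype I]
  [DecidableEq I] (n : ℕ) (lev : T → ℕ) (A : Finset T) (Z Z' : Cf T I → ℝ) (u : T → Cf T I → ℝ)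
  (v : T → T → Cf T I → ℝ) (b : ℝ), 1 ≤ n → LevOk n lev → b ≤ 1 → Exq A Z Z' u v b →
    |Xv n lev Z' - Xv n lev Z - Gm n lev Z A u v| ≤ C * b ^ 3 ∧ |Gm n lev Z A u v| ≤ C * b ^ 2

def GrhStmt : Prop := ∃ C : ℝ, 0 ≤ C ∧ ∀ (T I : Type) [Fintype T] [DecidableEq T] [Fintype I]
  [DecidableEq I] (ν : Measure (OG I)) (n : ℕ) (lev : T → ℕ) (A : Finset T)
  (Z Z' : OG I → Cf T I → ℝ) (u : T → OG I → Cf T I → ℝ) (v : T → T → OG I → Cf T I → ℝ) (b : ℝ),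
    Haar ν → 1 ≤ n → LevOk n lev → b ≤ 1 → Ct Z → Ct Z' → (∀ s, Ct (u s)) → (∀ s s', Ct (v s s')) →
    (∀ U, Exq A (Z U) (Z' U) (fun s => u s U) (fun s s' => v s s' U) b) →
    |TH ν n lev Z' - TH ν n lev Z - GmH ν n lev Z A u v| ≤ C * b ^ 3

def IsoStmt : Prop := ∀ (n N : ℕ) (Y δ : ℝ), 1 ≤ n → 0 < δ → ∃ D0 : ℕ, ∀ D, D0 ≤ D →
  ∀ (κ I Ts : Type) [Fintype I] [DecidableEq I] [Fintype Ts] [DecidableEq Ts] (S : Sys κ I Ts)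
    (y : κ → ℕ → ℝ), Fintype.card I ≤ N → (∀ k l, l < n → |y k l| ≤ Y) → S.Inv D n y δ

/-- moments of one direction -/
def MomStmt : Prop := ∀ (T I : Type) [Fintype T] [DecidableEq T] [Fintype I] [DecidableEq I]
  (ν : Measure (OG I)) (n : ℕ) (lev : T → ℕ) (Z : OG I → Cf T I → ℝ) (F : Finset T) (A : Finset I)
  (i : I) (δ : ℝ), Haar ν → 1 ≤ n → LevOk n lev → Ct Z → i ∉ A → A.Nonempty →
    InvP n lev Z F {R | Sup (insert i A) R} δ →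
    (δ * (Fintype.card I : ℝ) ^ 4 ≤ 1 →
      EH ν n lev Z (fun U ω => yy U ω.2 i ^ 4) ≤ 3 * ((Fintype.card I : ℝ) / A.card) ^ 2 + 3) ∧
    ∀ t : ℝ, 0 ≤ t → t * ((Fintype.card I : ℝ) / A.card) ≤ 1 / 4 →
      δ * exp (2 * t * Fintype.card I) ≤ 1 →
      EH ν n lev Z (fun U ω => exp (t * yy U ω.2 i ^ 2)) ≤ 5

/-! ### Tests -/

def SmtStmt : Prop := ∀ θ0 Γ Λ : ℝ, 0 < θ0 → 0 ≤ Λ → ∃ B : ℝ, 1 ≤ B ∧ ∀ θ γ : ℝ, θ0 ≤ θ → θ ≤ Γ →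
  |γ| ≤ Γ → ∃ g g1 g2 : ℝ → ℝ, Sm3 B g g1 g2 ∧ Continuous g1 ∧ Continuous g2 ∧ Cut Λ θ γ g

/-- a real direction is replaced by independent signs -/
def OuStmt : Prop := ∀ B η ε : ℝ, 1 ≤ B → 0 < η → 0 < ε → ∃ e0 : ℝ, 0 < e0 ∧
  ∀ (n N : ℕ) (η1 : ℝ), 1 ≤ n → 0 < η1 → ∃ δ : ℝ, 0 < δ ∧ ∃ S : ℕ,
  ∀ (T I : Type) [Fintype T] [DecidableEq T] [Fintype I] [DecidableEq I] (ν : Measure (OG I))
    (lev : T → ℕ) (Z : OG I → Cf T I → ℝ) (F : Finset T) (A : Finset I) (i : I) (w : Cf T I → ℝ)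
    (g g1 g2 : ℝ → ℝ) (p : ℕ → ℝ), Haar ν → LevOk n lev → Ct Z → Fintype.card I ≤ N → i ∉ A →
    A.Nonempty → (∀ ω, w ω ^ 2 = 1) → Idp F w → Sm3 B g g1 g2 → Continuous g1 → Continuous g2 →
    Path n p → p 0 ≤ 1 / η → InvP n lev Z F {R | Sup (insert i A) R} δ → ConcH ν n lev Z A p e0 →
    ∃ a : Fin S × Fin n → ℝ, Mic n (fun r => r.2) a p η1 ∧
      |TH ν n lev (fun U ω => Z U ω + g (yy U ω.2 i * w ω)) -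
        TH ν n (Sum.elim lev (fun r : Fin S × Fin n => r.2))
          (fun U ω => Z U (pull Sum.inl ω) + g (sg a (ω.1 ∘ Sum.inr) * w (pull Sum.inl ω)))| ≤ ε

def BrgStmt : Prop := ∀ (n : ℕ) (K Q ε : ℝ), 1 ≤ n → 0 < ε → ∃ η1 : ℝ, 0 < η1 ∧
  ∀ (T I R : Type) [Fintype T] [DecidableEq T] [Fintype I] [DecidableEq I] [Fintype R]
    [DecidableEq R] (lev : T → ℕ) (G : Cf T I → ℝ → ℝ) (p : ℕ → ℝ) (lv : R → ℕ) (a : R → ℝ),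
    (∀ ω t h, |G ω (t + h) - G ω t| ≤ K * |h|) → Path n p → p 0 ≤ Q → Mic n lv a p η1 →
    |Xv n (Sum.elim lev lv) (fun ω => G (pull Sum.inl ω) (sg a (ω.1 ∘ Sum.inr))) -
      YG (ch lev) (ex n) G (inc p) (n + 1) (w0 T I) 0| ≤ ε

def GidStmt : Prop := ∀ (Ω : Type) (P : ℕ → Op Ω) (n : ℕ) (Z w : Ω → ℝ) (θ γ : ℝ) (p : ℕ → ℝ) (ω : Ω),
  1 ≤ n → Ok P (ex n) (n + 1) → (∀ ω, w ω ^ 2 = 1) → 0 ≤ θ → Path n p →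
    YG P (ex n) (fun ω x => Z ω + qd θ γ (x * w ω)) (inc p) (n + 1) ω 0 = tr n (lg θ) p +
      YG P (ex n) (fun ω x => Z ω + x * w ω) (inc (fun d => γ ^ 2 * fp n (ph θ) p d)) (n + 1) ω 0

def GtrStmt : Prop := ∀ (n : ℕ) (θ0 Γ ε : ℝ), 1 ≤ n → 0 < θ0 → 0 < ε → ∃ Λ0 : ℝ, ∀ Λ, Λ0 ≤ Λ →
  ∀ (Ω : Type) (P : ℕ → Op Ω) (Z w : Ω → ℝ) (θ γ : ℝ) (p : ℕ → ℝ) (ω : Ω),
    Ok P (ex n) (n + 1) → (∀ ω, w ω ^ 2 = 1) → θ0 ≤ θ → θ ≤ Γ → |γ| ≤ Γ → Path n p → p 0 ≤ Γ →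
    |YG P (ex n) (fun ω x => Z ω + max (qd θ γ (x * w ω)) (-Λ)) (inc p) (n + 1) ω 0 -
      YG P (ex n) (fun ω x => Z ω + qd θ γ (x * w ω)) (inc p) (n + 1) ω 0| ≤ ε

/-- a cut quadratic in independent signs is integrated out -/
def QoStmt : Prop := ∀ θ0 Γ ε : ℝ, 0 < θ0 → 0 < ε → ∃ Λ0 : ℝ, 1 ≤ Λ0 ∧ ∀ Λ, Λ0 ≤ Λ →
  ∀ (n : ℕ) (B : ℝ), 1 ≤ n → ∃ η1 : ℝ, 0 < η1 ∧
  ∀ (T I R R' : Type) [Fintype T] [DecidableEq T] [Fintype I] [DecidableEq I] [Fintype R]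
    [DecidableEq R] [Fintype R'] [DecidableEq R'] (lev : T → ℕ) (Z w : Cf T I → ℝ) (θ γ : ℝ)
    (p : ℕ → ℝ) (g g1 g2 : ℝ → ℝ) (lv : R → ℕ) (a : R → ℝ) (lv' : R' → ℕ) (a' : R' → ℝ),
    LevOk n lev → (∀ ω, w ω ^ 2 = 1) → θ0 ≤ θ → θ ≤ Γ → |γ| ≤ Γ → Path n p → p 0 ≤ Γ →
    Sm3 B g g1 g2 → Cut Λ θ γ g → Mic n lv a p η1 →
    Mic n lv' a' (fun d => γ ^ 2 * fp n (ph θ) p d) η1 →
    |Xv n (Sum.elim lev lv)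
        (fun ω => Z (pull Sum.inl ω) + g (sg a (ω.1 ∘ Sum.inr) * w (pull Sum.inl ω))) -
      Xv n (Sum.elim lev lv')
        (fun ω => Z (pull Sum.inl ω) + sg a' (ω.1 ∘ Sum.inr) * w (pull Sum.inl ω)) -
      tr n (lg θ) p| ≤ ε

/-- micro steps exist; two families with the same profile give the same value -/
def MicStmt : Prop :=
  (∀ (n : ℕ) (p : ℕ → ℝ) (η1 : ℝ), Path n p → 0 < η1 →
    ∃ (S : ℕ) (a : Fin S × Fin n → ℝ), Mic n (fun r => r.2) a p η1) ∧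
  (∀ (n : ℕ) (R R' : Type) [Fintype R] [Fintype R'] (lv : R → ℕ) (a : R → ℝ) (lv' : R' → ℕ)
    (a' : R' → ℝ) (p p' : ℕ → ℝ) (η1 η2 : ℝ), 0 ≤ η1 → 0 ≤ η2 → Mic n lv a p η1 → Mic n lv' a' p' η2 →
    Mic n (Sum.elim lv lv') (Sum.elim a a') (fun d => p d + p' d) (η1 + η2)) ∧
  ∀ (n : ℕ) (Q ε : ℝ), 1 ≤ n → 0 < ε → ∃ η1 : ℝ, 0 < η1 ∧
    ∀ (T I R R' : Type) [Fintype T] [DecidableEq T] [Fintype I] [DecidableEq I] [Fintype R]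
    [DecidableEq R] [Fintype R'] [DecidableEq R'] (lev : T → ℕ) (Z w : Cf T I → ℝ) (p : ℕ → ℝ)
    (lv : R → ℕ) (a : R → ℝ) (lv' : R' → ℕ) (a' : R' → ℝ), (∀ ω, w ω ^ 2 = 1) → Path n p →
    p 0 ≤ Q → Mic n lv a p η1 → Mic n lv' a' p η1 →
    |Xv n (Sum.elim lev lv)
        (fun ω => Z (pull Sum.inl ω) + sg a (ω.1 ∘ Sum.inr) * w (pull Sum.inl ω)) -
      Xv n (Sum.elim lev lv')
        (fun ω => Z (pull Sum.inl ω) + sg a' (ω.1 ∘ Sum.inr) * w (pull Sum.inl ω))| ≤ ε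

/-- cutting the quadratic tests on real directions -/
def TrnStmt : Prop := ∀ η Γ : ℝ, 0 < η → ∃ C : ℝ, 0 ≤ C ∧
  ∀ (T I J : Type) [Fintype T] [DecidableEq T] [Fintype I] [DecidableEq I] [Fintype J]
    [DecidableEq J] (ν : Measure (OG I)) (n : ℕ) (lev : T → ℕ) (Z : OG I → Cf T I → ℝ) (F : Finset T)
    (A : Finset I) (sp : J → I) (w : Cf T I → ℝ) (θ γ : J → ℝ) (g : J → ℝ → ℝ) (δ Λ : ℝ),
    Haar ν → 1 ≤ n → LevOk n lev → Ct Z → Function.Injective sp → (∀ j, sp j ∉ A) → A.Nonempty →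
    η * Fintype.card I ≤ A.card → (∀ ω, w ω ^ 2 = 1) → Idp F w → (∀ j, |θ j| ≤ Γ ∧ |γ j| ≤ Γ) →
    (∀ j, Continuous (g j) ∧ Cut Λ (θ j) (γ j) (g j)) → 1 ≤ Λ →
    InvP n lev Z F {R | Sup (A ∪ univ.image sp) R} δ → δ * (Fintype.card I : ℝ) ^ 4 ≤ 1 →
    |TH ν n lev (fun U ω => Z U ω + ∑ j, g j (yy U ω.2 (sp j) * w ω)) -
      TH ν n lev (fun U ω => Z U ω + ∑ j, qd (θ j) (γ j) (yy U ω.2 (sp j) * w ω))| ≤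
      C * Fintype.card J / Λ

def CrsStmt : Prop := ∀ (T I : Type) [Fintype T] [DecidableEq T] [Fintype I] [DecidableEq I]
  (ν : Measure (OG I)) (n : ℕ) (lev : T → ℕ) (Z : OG I → Cf T I → ℝ) (A A0 : Finset I) (p : ℕ → ℝ)
  (e K M P : ℝ), Haar ν → 1 ≤ n → Ct Z → A0 ⊆ A → A0.Nonempty → ((A \ A0).card : ℝ) ≤ K →
    2 * K ≤ A.card → 0 ≤ M → (∀ i ∈ A \ A0, EH ν n lev Z (fun U ω => yy U ω.2 i ^ 4) ≤ M) →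
    Path n p → p 0 ≤ P → ConcH ν n lev Z A p e →
    ConcH ν n lev Z A0 p (12 * e + 12 * K ^ 2 * (P ^ 2 + M) / (A.card : ℝ) ^ 2)

/-- all real directions are replaced by independent signs -/
def TsaStmt : Prop := ∀ (K : ℕ) (B η ε : ℝ), 1 ≤ B → 0 < η → 0 < ε → ∃ e0 : ℝ, 0 < e0 ∧
  ∀ (n N : ℕ) (η1 : ℝ), 1 ≤ n → 0 < η1 → ∃ δ : ℝ, 0 < δ ∧
  ∀ (T I J T' : Type) [Fintype T] [DecidableEq T] [Fintype I] [DecidableEq I] [Fintype J]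
    [DecidableEq J] [Fintype T'] [DecidableEq T'] (ν : Measure (OG I)) (lev : T → ℕ)
    (Z : OG I → Cf T I → ℝ) (F : Finset T) (A : Finset I) (sp : J → I) (g g1 g2 : J → ℝ → ℝ)
    (p : ℕ → ℝ) (lev' : T' → ℕ) (Zs w : (T' → Bool) → ℝ), Haar ν → LevOk n lev → LevOk n lev' →
    Ct Z → Fintype.card I ≤ N → Fintype.card J ≤ K → Function.Injective sp → (∀ j, sp j ∉ A) →
    A.Nonempty → (∀ e, w e ^ 2 = 1) →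
    (∀ j, Sm3 B (g j) (g1 j) (g2 j) ∧ Continuous (g1 j) ∧ Continuous (g2 j)) → Path n p →
    p 0 ≤ 1 / η → InvP n lev Z F {R | Sup (A ∪ univ.image sp) R} δ → ConcH ν n lev Z A p e0 →
    ∃ (S : ℕ) (a : J → Fin S × Fin n → ℝ), (∀ j, Mic n (fun r => r.2) (a j) p η1) ∧
      |TH ν n (Sum.elim lev lev') (fun U ω => Z U (pull Sum.inl ω) + Zs (ω.1 ∘ Sum.inr) +
          ∑ j, g j (yy U ω.2 (sp j) * w (ω.1 ∘ Sum.inr))) - TH ν n lev Z -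
        Xs n (Sum.elim lev' (fun r : J × (Fin S × Fin n) => (r.2.2 : ℕ))) (fun e => Zs (e ∘ Sum.inl) +
          ∑ j, g j (sg (a j) (fun r => e (Sum.inr (j, r))) * w (e ∘ Sum.inl)))| ≤ ε

/-- all cut quadratics are integrated out -/
def TsbStmt : Prop := ∀ (K : ℕ) (θ0 Γ ε : ℝ), 0 < θ0 → 0 < ε → ∃ Λ0 : ℝ, 1 ≤ Λ0 ∧ ∀ Λ, Λ0 ≤ Λ →
  ∀ (n : ℕ) (B : ℝ), 1 ≤ n → ∃ η1 : ℝ, 0 < η1 ∧
  ∀ (J T' R : Type) [Fintype J] [DecidableEq J] [Fintype T'] [DecidableEq T'] [Fintype R]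
    [DecidableEq R] (S : ℕ) (lev' : T' → ℕ) (Zs w : (T' → Bool) → ℝ) (θ γ : J → ℝ) (p : ℕ → ℝ)
    (g g1 g2 : J → ℝ → ℝ) (a : J → Fin S × Fin n → ℝ) (lv : R → ℕ) (a' : R → ℝ), LevOk n lev' →
    Fintype.card J ≤ K → (∀ e, w e ^ 2 = 1) → (∀ j, θ0 ≤ θ j ∧ θ j ≤ Γ ∧ |γ j| ≤ Γ) → Path n p →
    p 0 ≤ Γ → (∀ j, Sm3 B (g j) (g1 j) (g2 j) ∧ Cut Λ (θ j) (γ j) (g j)) →
    (∀ j, Mic n (fun r => r.2) (a j) p η1) →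
    Mic n lv a' (fun d => ∑ j, γ j ^ 2 * fp n (ph (θ j)) p d) η1 →
    |Xs n (Sum.elim lev' (fun r : J × (Fin S × Fin n) => (r.2.2 : ℕ))) (fun e => Zs (e ∘ Sum.inl) +
          ∑ j, g j (sg (a j) (fun r => e (Sum.inr (j, r))) * w (e ∘ Sum.inl))) -
      ∑ j, tr n (lg (θ j)) p - Xs n (Sum.elim lev' lv)
        (fun e => Zs (e ∘ Sum.inl) + sg a' (e ∘ Sum.inr) * w (e ∘ Sum.inl))| ≤ ε

/-- value of quadratic tests on directions of a concentrated class -/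
def TstStmt : Prop := ∀ (K : ℕ) (η θ0 Γ ε : ℝ), 0 < η → 0 < θ0 → 0 < ε → ∃ e0 : ℝ, 0 < e0 ∧
  ∀ n : ℕ, 1 ≤ n → ∃ η1 : ℝ, 0 < η1 ∧ ∃ N0 : ℕ, ∀ N : ℕ, ∃ δ : ℝ, 0 < δ ∧
  ∀ (T I J T' R : Type) [Fintype T] [DecidableEq T] [Fintype I] [DecidableEq I] [Fintype J]
    [DecidableEq J] [Fintype T'] [DecidableEq T'] [Fintype R] [DecidableEq R] (ν : Measure (OG I))
    (lev : T → ℕ) (Z : OG I → Cf T I → ℝ) (F : Finset T) (A : Finset I) (sp : J → I) (θ γ : J → ℝ)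
    (p : ℕ → ℝ) (lev' : T' → ℕ) (Zs w : (T' → Bool) → ℝ) (lv : R → ℕ) (a : R → ℝ),
    Haar ν → LevOk n lev → LevOk n lev' → Ct Z → N0 ≤ Fintype.card I → Fintype.card I ≤ N →
    η * Fintype.card I ≤ A.card → Fintype.card J ≤ K → Function.Injective sp → (∀ j, sp j ∈ A) →
    (∀ j, θ0 ≤ θ j ∧ θ j ≤ Γ ∧ |γ j| ≤ Γ) → Path n p → p 0 ≤ Γ → InvP n lev Z F {R | Sup A R} δ →
    ConcH ν n lev Z A p e0 → (∀ e, w e ^ 2 = 1) →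
    Mic n lv a (fun d => ∑ j, γ j ^ 2 * fp n (ph (θ j)) p d) η1 →
    |TH ν n (Sum.elim lev lev') (fun U ω => Z U (pull Sum.inl ω) + Zs (ω.1 ∘ Sum.inr) +
        ∑ j, qd (θ j) (γ j) (yy U ω.2 (sp j) * w (ω.1 ∘ Sum.inr))) - TH ν n lev Z -
      ∑ j, tr n (lg (θ j)) p - Xs n (Sum.elim lev' lv)
        (fun e => Zs (e ∘ Sum.inl) + sg a (e ∘ Sum.inr) * w (e ∘ Sum.inl))| ≤ ε

/-- the case without linear terms -/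
def Ts0Stmt : Prop := ∀ (K : ℕ) (η θ0 Γ ε : ℝ), 0 < η → 0 < θ0 → 0 < ε → ∃ e0 : ℝ, 0 < e0 ∧
  ∀ n : ℕ, 1 ≤ n → ∃ N0 : ℕ, ∀ N : ℕ, ∃ δ : ℝ, 0 < δ ∧
  ∀ (T I : Type) [Fintype T] [DecidableEq T] [Fintype I] [DecidableEq I] (ν : Measure (OG I))
    (lev : T → ℕ) (Z : OG I → Cf T I → ℝ) (F : Finset T) (A B : Finset I) (θ : I → ℝ) (p : ℕ → ℝ),
    Haar ν → LevOk n lev → Ct Z → N0 ≤ Fintype.card I → Fintype.card I ≤ N →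
    η * Fintype.card I ≤ A.card → B.card ≤ K → B ⊆ A → (∀ i ∈ B, θ0 ≤ θ i ∧ θ i ≤ Γ) → Path n p →
    p 0 ≤ Γ → InvP n lev Z F {R | Sup A R} δ → ConcH ν n lev Z A p e0 →
    |TH ν n lev (fun U ω => Z U ω + ∑ i ∈ B, -θ i * yy U ω.2 i ^ 2 / 2) - TH ν n lev Z -
      ∑ i ∈ B, tr n (lg (θ i)) p| ≤ ε

def RespStmt : Prop := ∃ C : ℝ, 0 ≤ C ∧ ∀ (n l : ℕ) (ε : ℝ), l < n → 0 < ε → ∃ η1 : ℝ, 0 < η1 ∧
  ∀ (R : Type) [Fintype R] [DecidableEq R] (lv : R → ℕ) (a : R → ℝ) (q : ℕ → ℝ), Path n q →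
    q 0 ≤ 1 → Mic n lv a q η1 →
    |Xs n (Sum.elim (fun _ : Unit => l) lv)
      (fun e => sg a (e ∘ Sum.inr) * spin (e (Sum.inl ()))) - ell n q l / 2| ≤ C * q 0 ^ 2 + ε

def BrStmt : Prop := ∀ (n : ℕ) (R : Type) [Fintype R] [DecidableEq R] (lv : R → ℕ) (a : R → ℝ),
  1 ≤ n → LevOk n lv → Xs n (Sum.elim (fun _ : Unit => 0) lv)
      (fun e => sg a (e ∘ Sum.inr) * spin (e (Sum.inl ()))) =
      PD n (univ.val.map (fun r => (lv r, a r))) ∧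
    ∀ (I : Type) [Fintype I] [DecidableEq I], Xv n (fun s : I × R => lv s.2) (siteF a) =
      Fintype.card I * PD n (univ.val.map (fun r => (lv r, a r)))

def PdStmt : Prop := ∃ C : ℝ, 0 ≤ C ∧ ∀ (n : ℕ) (Q ε : ℝ), 1 ≤ n → 0 < ε → ∃ η1 : ℝ, 0 < η1 ∧
  ∀ (R : Type) [Fintype R] [DecidableEq R] (lv : R → ℕ) (a : R → ℝ) (q : ℕ → ℝ) (l : ℕ) (θ : ℝ),
    Path n q → q 0 ≤ Q → l < n → 0 ≤ θ → θ ≤ 1 → Mic n lv a q η1 →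
    |PD n (univ.val.map (fun r => (lv r, a r))) - psi n q - q 0 / 2| ≤ ε ∧
    |Xs n (Sum.elim (lB l) lv) (fun e => √θ * spin (e (Sum.inl true)) * spin (e (Sum.inl false)) +
        sg a (e ∘ Sum.inr) * spin (e (Sum.inl false))) -
      psi n (fun d => q d + if d ≤ l then θ else 0) - (q 0 + θ) / 2| ≤ ε + C * (θ * √θ)

def PslStmt : Prop := ∀ (n : ℕ) (q q' : ℕ → ℝ), 1 ≤ n → Path n q → Path n q' →
  |psi n q + q 0 / 2 - psi n q' - q' 0 / 2| ≤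
    (∑ d ∈ range n, |(q d - q (d + 1)) - (q' d - q' (d + 1))|) / 2

/-! ### Systems -/

/-- moving directions to the top class -/
def SwpStmt : Prop := ∀ (κ I Ts T' : Type) [Fintype κ] [DecidableEq κ] [Fintype I] [DecidableEq I]
  [Fintype Ts] [DecidableEq Ts] [Fintype T'] [DecidableEq T'] (S : Sys κ I Ts) (D n : ℕ)
  (y : κ → ℕ → ℝ) (B : Finset I) (τ : κ) (v : ℝ) (lev' : T' → ℕ) (f : Sg D n I Ts → T')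
  (V : Cf T' I → ℝ) (U : OG I), 1 ≤ n → Vb n y v → Emb (S.lev D n) lev' f → LevOk n lev' →
    Idp ((fs D n I Ts).image f) V →
    Xv n lev' (fun ω => (S.up B τ).Z D n y U (pull f ω) + V ω +
        ∑ i ∈ B.filter (fun i => S.c i ≠ τ), (S.lam (S.c i) - S.lam τ - v) * yy U ω.2 i ^ 2 / 2) ≤
      Xv n lev' (fun ω => S.Z D n y U (pull f ω) + V ω) ∧
    Xv n lev' (fun ω => S.Z D n y U (pull f ω) + V ω) ≤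
      Xv n lev' (fun ω => (S.up B τ).Z D n y U (pull f ω) + V ω +
        ∑ i ∈ B.filter (fun i => S.c i ≠ τ), (S.lam (S.c i) - S.lam τ + v) * yy U ω.2 i ^ 2 / 2)

def SyStmt : Prop := ∀ (κ I Ts : Type) [Fintype κ] [DecidableEq κ] [Fintype I] [DecidableEq I]
  [Fintype Ts] [DecidableEq Ts] (ν : Measure (OG I)) (S : Sys κ I Ts) (D n : ℕ) (y : κ → ℕ → ℝ),
    Haar ν → 1 ≤ n →
    (∀ i, EH ν n (S.lev D n) (S.Z D n y) (fun U ω => yy U ω.2 i ^ 2) ≤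
      (Fintype.card I : ℝ) / (S.cls (S.c i)).card) ∧
    ((∀ ω, S.SF ω = 0) → ∀ i l, l ≤ n → S.lt ν D n y l = 1 - (1 / (n : ℝ)) * ∑ d ∈ Icc 1 l,
      EW ν n (S.lev D n) (S.Z D n y) d (fun _ ω ω' => spin (ω.2 i) * spin (ω'.2 i))) ∧
    ∀ (pm : Equiv.Perm I) (Λ : I → ℝ), TH0 ν n (Λ ∘ pm) = TH0 ν n Λ ∧
      ∫ U, F0 (Λ ∘ pm) U ∂ν = ∫ U, F0 Λ U ∂ν

def NearStmt : Prop := ∀ (κ I Ts : Type) [Fintype κ] [DecidableEq κ] [Fintype I] [DecidableEq I]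
  [Fintype Ts] [DecidableEq Ts] (ν : Measure (OG I)) (S : Sys κ I Ts) (D n : ℕ) (y : κ → ℕ → ℝ)
  (B : Finset I) (τ : κ) (v Γ : ℝ), Haar ν → 1 ≤ n → LevOk n S.levs → Vb n y v →
    (∀ k, |S.lam k| ≤ Γ) → (∀ i ∈ B, S.c i ≠ τ → S.lam (S.c i) + v ≤ S.lam τ) →
    S.T ν D n y ≤ (S.up B τ).T ν D n y ∧ (S.up B τ).T ν D n y ≤ S.T ν D n y +
      B.card * (2 * Γ + v) * Fintype.card I / (2 * ((S.up B τ).cls τ).card)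

def MxStmt : Prop := ∀ (κ I Ts : Type) [Fintype κ] [DecidableEq κ] [Fintype I] [DecidableEq I]
  [Fintype Ts] [DecidableEq Ts] (ν : Measure (OG I)) (S : Sys κ I Ts) (D n Nr : ℕ) (lam : ℝ),
    Haar ν → 1 ≤ n → LevOk n S.levs → 0 < lam → Fintype.card I ≤ Nr →
    ∃ y, NM n Nr lam (S.T ν D n) y 0

def GgStmt : Prop := ∀ (n N : ℕ) (Y ε : ℝ), 1 ≤ n → 0 < ε → ∃ D0 : ℕ, ∀ D, D0 ≤ D →
  ∀ (T I : Type) [Fintype T] [DecidableEq T] [Fintype I] [DecidableEq I] (lev : T → ℕ)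
    (Z1 : Cf T I → ℝ) (A : Finset I) (f : Fin D × Fin n × I → T) (s : I → (I → Bool) → ℝ)
    (y : ℕ → ℝ), LevOk n lev → Emb (fun r : Fin D × Fin n × I => (r.2.1 : ℕ)) lev f →
    Fintype.card I ≤ N → A.Nonempty → (∀ σ, ∑ i ∈ A, s i σ ^ 2 ≤ Fintype.card I) →
    (∀ l, l < n → 0 < y l ∧ y l ≤ Y) →
    Idp ((univ.filter (fun r : Fin D × Fin n × I => r.2.2 ∈ A)).image f) Z1 →
    GG1 (ch lev) n (fun ω => Z1 ω + ∑ l ∈ range n, y l * hN A f s l ω)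
      (fun i ω => √((A.card : ℝ) / Fintype.card I) * s i ω.2) A
      (fun l ω => hN A f s l ω / (y l * Fintype.card I)) (w0 T I) ε

def AgStmt : Prop := ∀ (Ω I : Type) (P : ℕ → Op Ω) (r : ℕ → Ω → Ω → Prop) (n : ℕ), 1 ≤ n →
  Ok P (ex n) (n + 1) → Fil P r → ∀ (Z : Ω → ℝ) (s : I → Ω → ℝ) (A : Finset I) (h : ℕ → Ω → ℝ)
    (ω0 : Ω) (ε : ℝ), A.Nonempty → (∀ ω, ∑ i ∈ A, s i ω ^ 2 ≤ A.card) → 0 ≤ ε → ε ≤ 1 →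
    GG1 P n Z s A h ω0 ε →
    (∀ κ, κ < n → Ce P (ex n) Z 0 (n + 1)
      (fun ω => (h κ ω - Ce P (ex n) Z 0 (n + 1) (h κ) ω0) ^ 2) ω0 ≤ ε ^ 2) →
    Ce P (ex n) Z 0 (n + 1) (fun ω =>
      (aR s A ω ω - Ce P (ex n) Z 0 (n + 1) (fun x => aR s A x x) ω0) ^ 2) ω0 ≤ 3 * ε ∧
    (1 / (n : ℝ)) * ∑ l ∈ Ico 1 n, E2 P (ex n) Z (l + 1) (n + 1)
      (fun ω1 ω2 => (aR s A ω1 ω2 - E2 P (ex n) Z (l + 1) (n + 1) (aR s A) ω0) ^ 2) ω0 ≤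
      8 / √(n : ℝ) + 200 * (n : ℝ) ^ 2 * √ε

def CubStmt : Prop := ∀ (I J : Type) [Fintype I] [DecidableEq I] [Fintype J] (ν : Measure (OG I))
  (F : J → OG I → ℝ) (ε : ℝ), IsProbabilityMeasure ν → (∀ j, Continuous (F j)) → 0 < ε →
    ∃ (m : ℕ) (w : Fin m → ℝ) (x : Fin m → OG I), (∀ t, 0 ≤ w t) ∧ ∑ t, w t = 1 ∧
      ∀ j, |∑ t, w t * F j (x t) - ∫ U, F j U ∂ν| ≤ ε

def AhStmt : Prop := ∀ (T I : Type) [Fintype T] [DecidableEq T] [Fintype I] [DecidableEq I]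
  (ν : Measure (OG I)) (n : ℕ) (lev : T → ℕ) (Z : OG I → Cf T I → ℝ) (s : I → OG I → Cf T I → ℝ)
  (A : Finset I) (h : ℕ → OG I → Cf T I → ℝ) (ε : ℝ), Haar ν → 1 ≤ n → LevOk n lev → Ct Z →
    (∀ i, Ct (s i)) → (∀ l, Ct (h l)) → A.Nonempty → (∀ U ω, ∑ i ∈ A, s i U ω ^ 2 ≤ A.card) →
    0 < ε → 2 * ε ≤ 1 →
    (∀ U, GG1 (ch lev) n (Z U) (fun i => s i U) A (fun l => h l U) (w0 T I) ε) →
    (∀ l, l < n → EH ν n lev Z (fun U ω => (h l U ω - EH ν n lev Z (h l)) ^ 2) ≤ ε ^ 2) →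
    EH ν n lev Z (fun U ω => (aR (fun i => s i U) A ω ω -
      EH ν n lev Z (fun U x => aR (fun i => s i U) A x x)) ^ 2) ≤ 7 * ε ∧
    (1 / (n : ℝ)) * ∑ l ∈ Ico 1 n, EW ν n lev Z l (fun U ω1 ω2 => (aR (fun i => s i U) A ω1 ω2 -
      EW ν n lev Z l (fun U => aR (fun i => s i U) A)) ^ 2) ≤ 8 / √(n : ℝ) + 400 * (n : ℝ) ^ 2 * √ε

/-- near maximisers are concentrated around any pinned path -/
def GdStmt : Prop := ∀ η e0 : ℝ, 0 < η → 0 < e0 → ∃ n0 : ℕ, ∀ n, n0 ≤ n → 1 ≤ n →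
  ∀ lam C0 : ℝ, 0 < lam → lam ≤ 1 → 0 ≤ C0 → ∃ N0 : ℕ, ∀ Nr, N0 ≤ Nr → ∃ D0 : ℕ, ∀ D, D0 ≤ D →
  ∀ (κ I Ts : Type) [Fintype κ] [DecidableEq κ] [Fintype I] [DecidableEq I] [Fintype Ts]
    [DecidableEq Ts] (ν : Measure (OG I)) (S : Sys κ I Ts) (y : κ → ℕ → ℝ) (k : κ), Haar ν →
    LevOk n S.levs → Fintype.card I ≤ Nr → η * Nr ≤ (S.cls k).card →
    NM n Nr lam (S.T ν D n) y C0 →
    (∃ p : ℕ → ℝ, Path n p ∧ p 0 ≤ 1 / η ∧ Pin n Nr lam (y k) p (S.cls k).card) ∧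
      ∀ (p : ℕ → ℝ) (M : ℝ), Path n p → p 0 ≤ 1 / η → |M - (S.cls k).card| ≤ C0 →
        Pin n Nr lam (y k) p M → S.Cn ν D n y k p e0

/-- the overlap of a lower class is a function of the overlap of the top class -/
def RelStmt : Prop := ∀ η g0 Γ ε : ℝ, 0 < η → 0 < g0 → 0 < ε → ∃ e0 v0 : ℝ, 0 < e0 ∧ 0 < v0 ∧
  ∀ n : ℕ, 1 ≤ n → ∃ N0 : ℕ, ∀ N : ℕ, ∃ δ : ℝ, 0 < δ ∧
  ∀ (κ I Ts : Type) [Fintype κ] [DecidableEq κ] [Fintype I] [DecidableEq I] [Fintype Ts]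
    [DecidableEq Ts] (ν : Measure (OG I)) (S : Sys κ I Ts) (D : ℕ) (y : κ → ℕ → ℝ) (τ : κ) (i : I)
    (p p' : ℕ → ℝ), Haar ν → LevOk n S.levs → N0 ≤ Fintype.card I → Fintype.card I ≤ N →
    S.c i ≠ τ → η * Fintype.card I ≤ (S.cls (S.c i)).card → η * Fintype.card I ≤ (S.cls τ).card →
    S.lam (S.c i) + g0 ≤ S.lam τ → (∀ k, |S.lam k| ≤ Γ) → Vb n y v0 → S.Inv D n y δ →
    (S.up {i} τ).Inv D n y δ → Path n p → Path n p' → p 0 ≤ 1 / η → p' 0 ≤ 1 / η →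
    S.Cn ν D n y (S.c i) p' e0 → (S.up {i} τ).Cn ν D n y τ p e0 →
    ∀ l, l < n → |ell n p' l - ell n (fp n (ph (S.lam τ - S.lam (S.c i))) p) l| ≤ ε

def FamStmt : Prop := ∀ η g0 Γ ε : ℝ, 0 < η → 0 < g0 → 0 < ε → ∃ v0 : ℝ, 0 < v0 ∧ ∃ n0 : ℕ,
  ∀ n, n0 ≤ n → 1 ≤ n → ∀ lam C0 : ℝ, 0 < lam → lam ≤ 1 → 16 * n * lam ^ 2 ≤ v0 → 0 ≤ C0 →
  ∃ N0 : ℕ, ∀ Nr, N0 ≤ Nr → ∃ D0 : ℕ, ∀ D, D0 ≤ D →
  ∀ (κ I Ts : Type) [Fintype κ] [DecidableEq κ] [Fintype I] [DecidableEq I] [Fintype Ts]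
    [DecidableEq Ts] (ν : Measure (OG I)) (S : Sys κ I Ts) (y : κ → ℕ → ℝ) (τ : κ) (p : ℕ → ℝ)
    (M : ℝ), Haar ν → LevOk n S.levs → Fintype.card I ≤ Nr → S.Reg τ Γ g0 (η * Nr) →
    NM n Nr lam (S.T ν D n) y C0 → Path n p → p 0 ≤ 1 / η → |M - (S.cls τ).card| ≤ C0 →
    Pin n Nr lam (y τ) p M →
    ∀ l, l < n → |S.lt ν D n y l - ell n (fp n (Xi S.al S.lam τ) p) l| ≤ ε

/-! ### Cavity -/

def Cv1Stmt : Prop := ∀ (K : ℕ) (Γ η v : ℝ), 0 < η → 0 < v → ∃ δ1 : ℝ, 0 < δ1 ∧ ∀ N : ℕ,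
  ∃ em : OG (Fin N) → OG (Fin (N + 1)), Continuous em ∧
  ∀ (κ J : Type) [Fintype κ] [DecidableEq κ] [Fintype J] [DecidableEq J] (cl : Option J ≃ κ)
    (sp : J → Fin N) (c' : Fin (N + 1) → κ) (α lam : κ → ℝ) (nu γ : J → ℝ), Fintype.card κ ≤ K →
    Function.Injective sp → (∀ j, c' (sp j).castSucc = cl (some j)) → c' (Fin.last N) = cl none →
    (∀ k, η ≤ α k) → ∑ k, α k = 1 → (∀ k, |lam k| ≤ Γ) → Dg α lam cl nu γ →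
    ∀ W : OG (Fin (N + 1)), ∃ (B : OG (Fin (N + 1))) (V : OG (Fin N)), Blk c' B ∧
      ∀ (U : OG (Fin N)) (σ : Fin (N + 1) → Bool),
        (∀ i, i ∉ Set.range sp →
          yy (B * (W * em U)) σ i.castSucc = yy (V * U) (σ ∘ Fin.castSucc) i) ∧
        yy (B * (W * em U)) σ (Fin.last N) ^ 2 + ∑ j, yy (B * (W * em U)) σ (sp j).castSucc ^ 2 =
          1 + ∑ j, yy (V * U) (σ ∘ Fin.castSucc) (sp j) ^ 2 ∧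
        ((∀ k, |∑ i ∈ univ.filter (fun i => c' i = k), W.1 i (Fin.last N) ^ 2 - α k| ≤ δ1) →
          |lam (cl none) * yy (B * (W * em U)) σ (Fin.last N) ^ 2 +
            ∑ j, lam (cl (some j)) * yy (B * (W * em U)) σ (sp j).castSucc ^ 2 -
            (mn α lam + 2 * spin (σ (Fin.last N)) * ∑ j, γ j * yy (V * U) (σ ∘ Fin.castSucc) (sp j) +
              ∑ j, nu j * yy (V * U) (σ ∘ Fin.castSucc) (sp j) ^ 2)| ≤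
            v * (1 + ∑ j, yy (V * U) (σ ∘ Fin.castSucc) (sp j) ^ 2))

/-- the cavity comparison for fixed matrices -/
def Cv2Stmt : Prop := ∀ (N : ℕ) (κ J : Type) [Fintype κ] [DecidableEq κ] [Fintype J] [DecidableEq J]
  (D n : ℕ) (τ : κ) (cl : Option J ≃ κ) (sp : J → Fin N) (c' : Fin (N + 1) → κ) (lam : κ → ℝ)
  (nu γ : J → ℝ) (y : κ → ℕ → ℝ) (l : ℕ) (s v m : ℝ) (U' : OG (Fin (N + 1))) (U : OG (Fin N)),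
    l < n → |s| ≤ 1 → Vb n y v → Function.Injective sp →
    (∀ j, c' (sp j).castSucc = cl (some j)) → c' (Fin.last N) = cl none → (∀ k, lam k ≤ lam τ) →
    (∀ (σ : Fin (N + 1) → Bool) (i : Fin N), i ∉ Set.range sp →
      yy U' σ i.castSucc = yy U (σ ∘ Fin.castSucc) i) →
    (∀ σ : Fin (N + 1) → Bool, yy U' σ (Fin.last N) ^ 2 + ∑ j, yy U' σ (sp j).castSucc ^ 2 =
      1 + ∑ j, yy U (σ ∘ Fin.castSucc) (sp j) ^ 2) →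
    Xv n ((sL c' lam l s).lev D n) ((sL c' lam l s).Z D n y U') ≤
        Xv n (((s0 (c' ∘ Fin.castSucc) lam).up (univ.image sp) τ).lev D n) (fun ω =>
          ((s0 (c' ∘ Fin.castSucc) lam).up (univ.image sp) τ).Z D n y U ω +
            ∑ j, v * yy U ω.2 (sp j) ^ 2 / 2) + lam τ / 2 + v / 2 + 1 ∧
    ((∀ σ : Fin (N + 1) → Bool, |lam (cl none) * yy U' σ (Fin.last N) ^ 2 +
        ∑ j, lam (cl (some j)) * yy U' σ (sp j).castSucc ^ 2 -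
        (m + 2 * spin (σ (Fin.last N)) * ∑ j, γ j * yy U (σ ∘ Fin.castSucc) (sp j) +
          ∑ j, nu j * yy U (σ ∘ Fin.castSucc) (sp j) ^ 2)| ≤
        v * (1 + ∑ j, yy U (σ ∘ Fin.castSucc) (sp j) ^ 2)) →
      Xv n ((sL c' lam l s).lev D n) ((sL c' lam l s).Z D n y U') ≤
          Xv n (Sum.elim (((s0 (c' ∘ Fin.castSucc) lam).up (univ.image sp) τ).lev D n) (lB l))
            (cavZ ((s0 (c' ∘ Fin.castSucc) lam).up (univ.image sp) τ) D n y s sp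
              (fun j => lam τ - nu j - 2 * v) γ U) + m / 2 + v ∧
        Xv n (Sum.elim (((s0 (c' ∘ Fin.castSucc) lam).up (univ.image sp) τ).lev D n) (lB l))
            (cavZ ((s0 (c' ∘ Fin.castSucc) lam).up (univ.image sp) τ) D n y s sp
              (fun j => lam τ - nu j + 2 * v) γ U) + m / 2 - v ≤
          Xv n ((sL c' lam l s).lev D n) ((sL c' lam l s).Z D n y U'))

def CavStmt : Prop := ∀ (K : ℕ) (Γ η v ε : ℝ), 0 < η → 0 < v → v ≤ 1 → 8 * K * v ≤ η → 0 < ε →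
  ∃ δ1 : ℝ, 0 < δ1 ∧ ∀ n : ℕ, 1 ≤ n → ∃ C : ℝ, 0 ≤ C ∧ ∃ N0 : ℕ, ∀ N, N0 ≤ N → ∃ δ : ℝ, 0 < δ ∧
  ∀ (κ J : Type) [Fintype κ] [DecidableEq κ] [Fintype J] [DecidableEq J]
    (ν : Measure (OG (Fin N))) (ν' : Measure (OG (Fin (N + 1)))) (D : ℕ) (τ : κ) (cl : Option J ≃ κ)
    (sp : J → Fin N) (c' : Fin (N + 1) → κ) (α lam : κ → ℝ) (nu γ : J → ℝ) (y : κ → ℕ → ℝ) (l : ℕ)
    (s : ℝ), Haar ν → Haar ν' → Fintype.card κ ≤ K → Function.Injective sp →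
    (∀ j, c' (sp j).castSucc = cl (some j)) → c' (Fin.last N) = cl none → (∀ k, η ≤ α k) →
    Wt α lam τ Γ η → Dg α lam cl nu γ → (∀ j, |nu j| ≤ Γ ∧ |γ j| ≤ Γ) →
    (∀ k, |(sL c' lam l s).al k - α k| ≤ δ1) → l < n → |s| ≤ 1 → Vb n y v →
    η * N ≤ (((s0 (c' ∘ Fin.castSucc) lam).up (univ.image sp) τ).cls τ).card →
    (sL c' lam l s).Inv D n y δ → ((s0 (c' ∘ Fin.castSucc) lam).up (univ.image sp) τ).Inv D n y δ →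
    (sL c' lam l s).T ν' D n y ≤
        TH ν n (Sum.elim (((s0 (c' ∘ Fin.castSucc) lam).up (univ.image sp) τ).lev D n) (lB l))
          (cavZ ((s0 (c' ∘ Fin.castSucc) lam).up (univ.image sp) τ) D n y s sp
            (fun j => lam τ - nu j - 2 * v) γ) + mn α lam / 2 + v + ε ∧
      TH ν n (Sum.elim (((s0 (c' ∘ Fin.castSucc) lam).up (univ.image sp) τ).lev D n) (lB l))
          (cavZ ((s0 (c' ∘ Fin.castSucc) lam).up (univ.image sp) τ) D n y s sp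
            (fun j => lam τ - nu j + 2 * v) γ) + mn α lam / 2 - v - ε ≤ (sL c' lam l s).T ν' D n y ∧
      |(sL c' lam l s).T ν' D n y -
        ((s0 (c' ∘ Fin.castSucc) lam).up (univ.image sp) τ).T ν D n y| ≤ C

def SchStmt : Prop := ∀ (κ J : Type) [Fintype κ] [DecidableEq κ] [Fintype J] [DecidableEq J]
  (τ : κ) (cl : Option J ≃ κ) (α lam : κ → ℝ) (Γ η g0 : ℝ), 0 < η → 0 < g0 → (∀ k, η ≤ α k) →
    Wt α lam τ Γ η → (∀ k, k ≠ τ → lam k + g0 ≤ lam τ) →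
    ∃ nu γ : J → ℝ, Dg α lam cl nu γ ∧
      (∀ j, g0 * η ≤ lam τ - nu j ∧ |nu j| ≤ Γ ∧ |γ j| ≤ Γ) ∧ ∀ x, 0 ≤ x →
        ∑ j, lg (lam τ - nu j) x = ∑ k, lg (lam τ - lam k) x - log (rho α lam τ x) / 2 ∧
        ∑ j, γ j ^ 2 * ph (lam τ - nu j) x = bt α lam τ x

/-! ### Paths and the variational formula -/

structure TApi : Prop where
  xi_mono : ∀ {n : ℕ} {p : ℕ → ℝ}, Path n p → ∀ d d', d ≤ d' → d' ≤ n →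
    0 ≤ xi n p d ∧ xi n p d ≤ xi n p d' ∧ xi n p d' ≤ p 0
  nn : ∀ {n : ℕ} {p : ℕ → ℝ}, Path n p → ∀ d, d ≤ n → 0 ≤ p d ∧ p d ≤ p 0
  fp_path : ∀ {n : ℕ} {p : ℕ → ℝ} {f : ℝ → ℝ}, Path n p → MonotoneOn f (Set.Icc 0 (p 0)) →
    Path n (fp n f p)
  fp_zero : ∀ (n : ℕ) (f : ℝ → ℝ) (p : ℕ → ℝ), fp n f p 0 = tr n f p
  xi_fp : ∀ (n : ℕ) (f : ℝ → ℝ) (p : ℕ → ℝ) (d : ℕ), d ≤ n → xi n (fp n f p) d = f (xi n p d) - f 0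
  fp_id : ∀ {n : ℕ} {p : ℕ → ℝ}, Path n p → ∀ d, d ≤ n → fp n (fun x => x) p d = p d
  fp_lin : ∀ (n : ℕ) (f g : ℝ → ℝ) (a b c : ℝ) (p : ℕ → ℝ) (d : ℕ),
    fp n (fun x => a * f x + b * g x + c) p d = a * fp n f p d + b * fp n g p d
  fp_sum : ∀ {J : Type} (s : Finset J) (n : ℕ) (f : J → ℝ → ℝ) (a : J → ℝ) (p : ℕ → ℝ) (d : ℕ),
    fp n (fun x => ∑ j ∈ s, a j * f j x) p d = ∑ j ∈ s, a j * fp n (f j) p d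
  fp_comp : ∀ (n : ℕ) (f g : ℝ → ℝ) (p : ℕ → ℝ) (d : ℕ), f 0 = 0 →
    fp n g (fp n f p) d = fp n (fun x => g (f x)) p d
  fp_congr : ∀ {n : ℕ} {p : ℕ → ℝ} {f g : ℝ → ℝ}, Path n p →
    (∀ x, 0 ≤ x → x ≤ p 0 → f x = g x) → ∀ d, fp n f p d = fp n g p d
  lip : ∀ {n : ℕ} {p : ℕ → ℝ} {f : ℝ → ℝ} {L : ℝ}, Path n p →
    (∀ x x', 0 ≤ x → x ≤ x' → x' ≤ p 0 → |f x' - f x| ≤ L * (x' - x)) →
    |tr n f p| ≤ L * p 0 ∧ (∀ l, l < n → |ell n (fp n f p) l| ≤ L * p 0) ∧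
      ∑ d ∈ range n, |fp n f p d - fp n f p (d + 1)| ≤ L * p 0
  bil : ∀ (n : ℕ) (f g : ℝ → ℝ) (p : ℕ → ℝ), 1 ≤ n → f 0 = 0 → g 0 = 0 →
    tr n (fun x => f x * g x) p = tr n f p * tr n g p - 2 * ip n (fp n f p) (fp n g p)
  pair : ∀ (n : ℕ) (W p : ℕ → ℝ), 1 ≤ n → W n = 0 →
    ∑ l ∈ range n, (W l - W (l + 1)) * ell n p l / 2 = W 0 * p 0 / 2 - ip n p W
  sup : ∀ {n : ℕ} {p : ℕ → ℝ} {f g : ℝ → ℝ} {δ : ℝ}, Path n p →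
    (∀ x, 0 ≤ x → x ≤ p 0 → |f x - g x| ≤ δ) → |tr n f p - tr n g p| ≤ 2 * (n : ℝ) ^ 2 * δ
  inc : ∀ {n : ℕ} {p : ℕ → ℝ} {g g' : ℝ → ℝ} {δ X : ℝ}, Path n p → p 0 ≤ X → Inc g g' δ X →
    tr n g' p ≤ tr n g p + δ * p 0
  vbdd : ∀ {n : ℕ} {g : ℝ → ℝ} {L : ℝ}, 1 ≤ n →
    (∀ x x', 0 ≤ x → x ≤ x' → x' ≤ 1 → |g x' - g x| ≤ L * (x' - x)) →
    BddBelow (vals n g) ∧ |sInf (vals n g)| ≤ L
  vinc : ∀ {n : ℕ} {g g' : ℝ → ℝ} {δ : ℝ}, 1 ≤ n → Inc g g' δ 1 → BddBelow (vals n g') →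
    sInf (vals n g') ≤ sInf (vals n g) + δ
  ell_lin : ∀ (n : ℕ) (p p' : ℕ → ℝ) (a b : ℝ) (l : ℕ),
    ell n (fun d => a * p d + b * p' d) l = a * ell n p l + b * ell n p' l
  ell_sum : ∀ {J : Type} (s : Finset J) (n : ℕ) (p : J → ℕ → ℝ) (a : J → ℝ) (l : ℕ),
    ell n (fun d => ∑ j ∈ s, a j * p j d) l = ∑ j ∈ s, a j * ell n (p j) l
  ell_bd : ∀ {n : ℕ} {p : ℕ → ℝ}, Path n p → ∀ l, l < n → 0 ≤ ell n p l ∧ ell n p l ≤ p 0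
  ell_inv : ∀ {n : ℕ} {p p' : ℕ → ℝ} {τ : ℝ}, (∀ l, l < n → |ell n p l - ell n p' l| ≤ τ) →
    ∀ d, d < n → |p d - p' d| ≤ 2 * n * τ
  phl : ∀ θ θ' x x' : ℝ, 0 ≤ θ → 0 ≤ θ' → 0 ≤ x → x ≤ x' →
    0 ≤ ph θ x' - ph θ x ∧ ph θ x' - ph θ x ≤ x' - x ∧
      |(ph θ x' - ph θ' x') - (ph θ x - ph θ' x)| ≤ 2 * |θ - θ'| * x' * (x' - x) ∧
      |lg θ x' - lg θ x| ≤ θ / 2 * (x' - x) ∧
      |(lg θ x' - lg θ' x') - (lg θ x - lg θ' x)| ≤ |θ - θ'| / 2 * (x' - x)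

def SecStmt : Prop := ∀ (n : ℕ) (h : ℝ → ℝ) (X L M : ℝ) (p p' : ℕ → ℝ), 1 ≤ n → 0 ≤ L →
  Sec h X L M → Path n p → Path n p' → p 0 ≤ X → p' 0 ≤ X →
    ∃ W : ℕ → ℝ, Path n W ∧ W 0 ≤ 2 * M + 2 * L * (p 0 + p' 0) ∧ tr n h p - tr n h p' =
      ∑ l ∈ range n, (W l - W (l + 1)) * (ell n p l - ell n p' l) / 2

structure DApi : Prop where
  val : ∀ {κ : Type} [Fintype κ] {α lam : κ → ℝ} {τ : κ} {Γ η : ℝ}, 0 < η → Wt α lam τ Γ η →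
    ∀ x, 0 ≤ x → gD α lam τ (Xi α lam τ x) = (lam τ * Xi α lam τ x + rho α lam τ x - 1 -
      log (rho α lam τ x) - ∑ k, α k * log (1 + (lam τ - lam k) * x)) / 2
  basic : ∀ {κ : Type} [Fintype κ] {α lam : κ → ℝ} {τ : κ} {Γ η : ℝ}, 0 < η → Wt α lam τ Γ η →
    Xi α lam τ 0 = 0 ∧ bt α lam τ 0 = 0 ∧ |mn α lam| ≤ Γ ∧ ∀ x, 0 ≤ x →
      Xi α lam τ x = x * rho α lam τ x ∧ η ≤ rho α lam τ x ∧ rho α lam τ x ≤ 1 ∧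
      (bt α lam τ x + mn α lam) * Xi α lam τ x = lam τ * Xi α lam τ x + rho α lam τ x - 1
  xlip : ∀ {κ : Type} [Fintype κ] {α lam : κ → ℝ} {τ : κ} {Γ η : ℝ}, 0 < η → Wt α lam τ Γ η →
    ∀ x x', 0 ≤ x → x ≤ x' → η * (x' - x) ≤ Xi α lam τ x' - Xi α lam τ x ∧
      Xi α lam τ x' - Xi α lam τ x ≤ x' - x
  surj : ∀ {κ : Type} [Fintype κ] {α lam : κ → ℝ} {τ : κ} {Γ η : ℝ}, 0 < η → Wt α lam τ Γ η →
    ∀ ξ, 0 ≤ ξ → ∃ x, 0 ≤ x ∧ x ≤ ξ / η ∧ Xi α lam τ x = ξ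
  glip : ∀ {κ : Type} [Fintype κ] {α lam : κ → ℝ} {τ : κ} {Γ η : ℝ}, 0 < η → Wt α lam τ Γ η →
    ∀ x x', 0 ≤ x → x ≤ x' → |gD α lam τ x' - gD α lam τ x| ≤ Γ / 2 * (x' - x)
  pure : ∀ {κ : Type} [Fintype κ] {α lam : κ → ℝ} {τ : κ} {Γ : ℝ}, Wt α lam τ Γ 1 →
    ∀ x, 0 ≤ x → gD α lam τ x = lam τ * x / 2
  le : ∀ {κ : Type} [Fintype κ] {α lam : κ → ℝ} {τ : κ} {Γ η : ℝ}, 0 < η → Wt α lam τ Γ η →
    ∀ x b, 0 ≤ x → x * lam τ < b →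
      gD α lam τ x ≤ (b - 1 - ∑ k, α k * log (b - x * lam k)) / 2

def SepStmt : Prop := ∀ (κ : Type) [Fintype κ] (α lam : κ → ℝ) (τ : κ) (Γ η X L M : ℝ)
  (F ρ h : ℝ → ℝ), 0 < η → 0 ≤ L → Wt α lam τ Γ η →
    (∀ x, 0 ≤ x → HasDerivAt F (ρ x * ∑ k, α k / (1 + (lam τ - lam k) * x) ^ 2) x) →
    (∀ x x', 0 ≤ x → x ≤ x' → x' ≤ X / η →
      0 ≤ ρ x ∧ ρ x' ≤ M ∧ ρ x ≤ ρ x' ∧ ρ x' - ρ x ≤ L * (x' - x)) →
    (∀ x, 0 ≤ x → h (Xi α lam τ x) = F x) → Sec h X (L / η) M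

def An2Stmt : Prop := ∀ Γ η L : ℝ, 0 < η → 0 ≤ L → ∃ C : ℝ, 0 ≤ C ∧
  ∀ (n : ℕ) (κ : Type) [Fintype κ] (α lam : κ → ℝ) (τ : κ) (p pv : ℕ → ℝ) (t : ℝ), 1 ≤ n →
    Wt α lam τ Γ η → (∀ x x', 0 ≤ x → x ≤ x' →
      0 ≤ bt α lam τ x' - bt α lam τ x ∧ bt α lam τ x' - bt α lam τ x ≤ L * (x' - x)) →
    Path n p → p 0 ≤ 1 / η → Path n pv → pv 0 = 1 →
    (∀ q : ℕ → ℝ, Path n q → psi n q + ip n pv q ≤
      psi n (fp n (bt α lam τ) p) + ip n pv (fp n (bt α lam τ) p)) →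
    (∀ l, l < n → |ell n pv l - ell n (fp n (Xi α lam τ) p) l| ≤ t) →
    VD n α lam τ ≤ mn α lam / 2 + tr n (fun x => -log (rho α lam τ x) / 2) p +
      ∑ k, α k * tr n (lg (lam τ - lam k)) p + psi n (fp n (bt α lam τ) p) +
      fp n (bt α lam τ) p 0 / 2 + C * t

def An3Stmt : Prop := ∀ Γ η : ℝ, 0 < η → ∃ C : ℝ, 0 ≤ C ∧ ∀ (n : ℕ) (ε : ℝ), 1 ≤ n → 0 < ε →
  ∃ N1 : ℕ, ∀ N : ℕ, N1 ≤ N → ∀ (κ : Type) [Fintype κ] [DecidableEq κ] (α α' lam lam' : κ → ℝ)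
    (τ k0 : κ) (p q : ℕ → ℝ), k0 ≠ τ → Wt α lam τ Γ η → Wt α' lam' τ Γ η →
    α' τ = α τ + 1 / N → α' k0 = α k0 - 1 / N → (∀ k, k ≠ τ → k ≠ k0 → α' k = α k) →
    lam' τ = (α τ * lam τ + lam k0 / N) / (α τ + 1 / N) → (∀ k, k ≠ τ → lam' k = lam k) →
    Path n p → p 0 = 1 → Path n q → q 0 ≤ 1 / η →
    ∃ W : ℕ → ℝ, Path n W ∧ W 0 ≤ C ∧
      tr n (lg (lam τ - lam k0)) q + (lam τ - lam k0) * q 0 / 2 ≤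
        N * (tr n (gD α lam τ) p - tr n (gD α' lam' τ) p) +
          ∑ l ∈ range n, (W l - W (l + 1)) * ell n (fp n (Xi α' lam' τ) q) l / 2 -
          W 0 / 2 + ip n p W + ε

def OrdStmt : Prop := ∀ (μ μ' : Measure ℝ) (lo s s' δ δ' η1 a X : ℝ), IsProbabilityMeasure μ →
  IsProbabilityMeasure μ' → (∀ᵐ t ∂μ, lo ≤ t ∧ t ≤ s) → (∀ᵐ t ∂μ', lo + δ ≤ t ∧ t ≤ s') →
    s' ≤ s + δ → 0 ≤ δ → 0 ≤ δ' → 0 ≤ η1 →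
    (∀ u, μ'.real (Set.Ici u) ≤ μ.real (Set.Ici (u - δ)) + η1) → a ≤ μ.real {s} →
    η1 * (s - lo) ≤ δ' * a → Inc (Gs μ s) (Gs μ' s') ((δ + δ') / 2) X

def GslStmt : Prop := ∀ (μ : Measure ℝ) (s L : ℝ), IsProbabilityMeasure μ →
  (∀ᵐ t ∂μ, |t| ≤ L ∧ t ≤ s) → |s| ≤ L → ∀ x x', 0 ≤ x → x ≤ x' →
    |Gs μ s x' - Gs μ s x| ≤ L / 2 * (x' - x)

def OddStmt : Prop :=
  (∀ (κ : Type) [Fintype κ] (α lam : κ → ℝ) (τ : κ) (Γ η : ℝ), Wt α lam τ Γ η →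
    ∃ μ : Measure ℝ, IsProbabilityMeasure μ ∧ (∀ᵐ t ∂μ, -Γ ≤ t ∧ t ≤ lam τ) ∧
      (∀ u, μ.real (Set.Ici u) = tl α lam u) ∧ α τ ≤ μ.real {lam τ} ∧
      ∀ β x : ℝ, gD α (fun k => β * lam k) τ x = Gs μ (lam τ) (β * x)) ∧
  ∀ (κ : Type) [Fintype κ] (α α' lam : κ → ℝ) (τ : κ) (Γ η η' η1 δ X : ℝ), Wt α lam τ Γ η →
    Wt α' lam τ Γ η' → 0 ≤ η1 → 0 ≤ δ → (∀ s, tl α' lam s ≤ tl α lam s + η1) →
    η1 * (2 * Γ) ≤ δ * η → Inc (gD α lam τ) (gD α' lam τ) (δ / 2) X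

/-! ### Lower bound -/

def NrStmt : Prop := ∀ (K : ℕ) (Γ η g0 : ℝ), 0 < η → 0 < g0 → ∃ v0 δ1 : ℝ, 0 < v0 ∧ 0 < δ1 ∧
  ∀ n : ℕ, 1 ≤ n → ∃ C1 : ℝ, 0 ≤ C1 ∧ ∃ N0 : ℕ, ∀ Nr, N0 ≤ Nr → ∃ D0 : ℕ, ∀ D, D0 ≤ D →
  ∀ (N : ℕ) (κ : Type) [Fintype κ] [DecidableEq κ] (ν : Measure (OG (Fin N)))
    (ν' : Measure (OG (Fin (N + 1)))) (τ : κ) (α lam : κ → ℝ) (c' : Fin (N + 1) → κ)
    (y : κ → ℕ → ℝ), Haar ν → Haar ν' → Fintype.card κ ≤ K → N + 1 ≤ Nr → Wt α lam τ Γ η →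
    (∀ k, η ≤ α k) → (∀ k, k ≠ τ → lam k + g0 ≤ lam τ) →
    (∀ k, η * Nr ≤ ((s0 (c' ∘ Fin.castSucc) lam).cls k).card) →
    (∀ k, |(s0 c' lam).al k - α k| ≤ δ1) → (∀ k l, l < n → |y k l| ≤ 4) → Vb n y v0 →
    |(s0 c' lam).T ν' D n y - (s0 (c' ∘ Fin.castSucc) lam).T ν D n y| ≤ C1

def SpnStmt : Prop := ∃ C : ℝ, 0 ≤ C ∧ ∀ (K : ℕ) (Γ η g0 ε : ℝ), 0 < η → 0 < g0 → 0 < ε →
  ∃ v0 δ1 : ℝ, 0 < v0 ∧ 0 < δ1 ∧ ∃ n0 : ℕ, ∀ n, n0 ≤ n → 1 ≤ n →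
  ∀ lp C0 : ℝ, 0 < lp → lp ≤ 1 → 16 * n * lp ^ 2 ≤ v0 → 0 ≤ C0 →
  ∃ N0 : ℕ, ∀ Nr, N0 ≤ Nr → ∃ D0 : ℕ, ∀ D, D0 ≤ D →
  ∀ (N : ℕ) (κ : Type) [Fintype κ] [DecidableEq κ] (ν : Measure (OG (Fin N)))
    (ν' : Measure (OG (Fin (N + 1)))) (τ : κ) (α lam : κ → ℝ) (c' : Fin (N + 1) → κ)
    (y : κ → ℕ → ℝ) (p : ℕ → ℝ) (M : ℝ) (l : ℕ) (θ : ℝ), Haar ν → Haar ν' → Fintype.card κ ≤ K →
    N + 1 ≤ Nr → Wt α lam τ Γ η → (∀ k, η ≤ α k) → (∀ k, k ≠ τ → lam k + g0 ≤ lam τ) →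
    (∀ k, η * Nr ≤ ((s0 (c' ∘ Fin.castSucc) lam).cls k).card) →
    (∀ k, |(s0 c' lam).al k - α k| ≤ δ1) →
    NM n Nr lp ((s0 (c' ∘ Fin.castSucc) lam).T ν D n) y C0 → Path n p → p 0 ≤ 1 / η →
    |M - ((s0 (c' ∘ Fin.castSucc) lam).cls τ).card| ≤ C0 → Pin n Nr lp (y τ) p M → l < n →
    0 ≤ θ → θ ≤ 1 →
    |(sL c' lam l (√θ)).T ν' D n y - (s0 (c' ∘ Fin.castSucc) lam).T ν D n y -
      (mn α lam / 2 + tr n (fun x => -log (rho α lam τ x) / 2) p +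
        tr n (lg (lam τ - lam (c' (Fin.last N)))) p +
        psi n (fun d => fp n (bt α lam τ) p d + if d ≤ l then θ else 0) +
        (fp n (bt α lam τ) p 0 + θ) / 2)| ≤ ε + C * (θ * √θ)

def SfStmt : Prop := ∀ (K : ℕ) (Γ η g0 ε : ℝ), 0 < η → 0 < g0 → 0 < ε →
  ∃ v0 δ1 : ℝ, 0 < v0 ∧ 0 < δ1 ∧ ∃ n0 : ℕ, ∀ n, n0 ≤ n → 1 ≤ n →
  ∀ lp C0 : ℝ, 0 < lp → lp ≤ 1 → 16 * n * lp ^ 2 ≤ v0 → 0 ≤ C0 →
  ∃ N0 : ℕ, ∀ Nr, N0 ≤ Nr → ∃ D0 : ℕ, ∀ D, D0 ≤ D →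
  ∀ (N : ℕ) (κ : Type) [Fintype κ] [DecidableEq κ] (ν : Measure (OG (Fin N)))
    (ν' : Measure (OG (Fin (N + 1)))) (τ : κ) (α lam : κ → ℝ) (c' : Fin (N + 1) → κ)
    (y : κ → ℕ → ℝ) (p : ℕ → ℝ) (M : ℝ), Haar ν → Haar ν' → Fintype.card κ ≤ K →
    N + 1 ≤ Nr → Wt α lam τ Γ η → (∀ k, η ≤ α k) → (∀ k, k ≠ τ → lam k + g0 ≤ lam τ) →
    (∀ k, η * Nr ≤ ((s0 (c' ∘ Fin.castSucc) lam).cls k).card) →
    (∀ k, |(s0 c' lam).al k - α k| ≤ δ1) →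
    NM n Nr lp ((s0 (c' ∘ Fin.castSucc) lam).T ν D n) y C0 → NM n Nr lp ((s0 c' lam).T ν' D n) y C0 →
    Path n p → p 0 ≤ 1 / η → |M - ((s0 (c' ∘ Fin.castSucc) lam).cls τ).card| ≤ C0 →
    Pin n Nr lp (y τ) p M →
    (s0 (c' ∘ Fin.castSucc) lam).T ν D n y + VD n α lam τ +
        tr n (lg (lam τ - lam (c' (Fin.last N)))) p - ∑ k, α k * tr n (lg (lam τ - lam k)) p - ε ≤
      (s0 c' lam).T ν' D n y

def BlStmt : Prop := ∀ (κ : Type) [Fintype κ] [DecidableEq κ] (τ : κ) (lam : κ → ℝ) (b : ℕ)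
  (hb : 0 < b) (pat : Fin b → κ) (Γ g0 ρ ε : ℝ), Function.Surjective pat → (∀ k, |lam k| ≤ Γ) →
  0 < g0 → (∀ k, k ≠ τ → lam k + g0 ≤ lam τ) → 0 < ρ → 0 < ε →
  ∃ v0 : ℝ, 0 < v0 ∧ ∃ n0 : ℕ, ∀ n, n0 ≤ n → 1 ≤ n →
  ∀ lp : ℝ, 0 < lp → lp ≤ 1 → 16 * n * lp ^ 2 ≤ v0 →
  ∃ N0 : ℕ, ∀ Nr, N0 ≤ Nr → ∃ D0 : ℕ, ∀ D, D0 ≤ D →
  ∀ (ν : ∀ N : ℕ, Measure (OG (Fin N))) (j : ℕ) (y : κ → ℕ → ℝ), (∀ N, Haar (ν N)) →
    ρ * Nr ≤ j → j + b ≤ Nr → NM n Nr lp ((s0 (per hb pat j) lam).T (ν j) D n) y 0 →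
    (s0 (per hb pat j) lam).T (ν j) D n y + b * (VD n (pw pat) lam τ - ε) ≤
      (s0 (per hb pat (j + b)) lam).T (ν (j + b)) D n y

def EndStmt : Prop := ∀ (κ I : Type) [Fintype κ] [DecidableEq κ] [Fintype I] [DecidableEq I]
  (ν : Measure (OG I)) (c : I → κ) (lam : κ → ℝ) (D n : ℕ) (y : κ → ℕ → ℝ) (v : ℝ), Haar ν → 1 ≤ n →
    Vb n y v →
    TH0 ν n (lam ∘ c) ≤ (s0 c lam).T ν D n y ∧
    (s0 c lam).T ν D n y ≤ TH0 ν n (lam ∘ c) + Fintype.card I * v / 2 ∧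
    (∀ Γ, (∀ k, |lam k| ≤ Γ) → |TH0 ν n (lam ∘ c)| ≤ Γ * Fintype.card I / 2) ∧
    ∀ (R : Type) [Fintype R] [DecidableEq R] (lv : R → ℕ), LevOk n lv →
      TH0 ν n (lam ∘ c) ≤ (sF c lam lv (fun _ => 0)).T ν D n y ∧
      ∀ (a : R → ℝ) (τ : κ), (∀ i, c i = τ) → (sF c lam lv a).T ν D n y ≤
        Fintype.card I * ((lam τ + v) / 2 + PD n (univ.val.map (fun r => (lv r, a r))))

def LbStmt : Prop := ∀ (κ : Type) [Fintype κ] [DecidableEq κ] (τ : κ) (lam : κ → ℝ) (b : ℕ)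
  (hb : 0 < b) (pat : Fin b → κ) (g0 ε : ℝ) (ν : ∀ N : ℕ, Measure (OG (Fin N))),
    Function.Surjective pat → 0 < g0 → (∀ k, k ≠ τ → lam k + g0 ≤ lam τ) → 0 < ε →
    (∀ N, Haar (ν N)) → ∀ᶠ n : ℕ in atTop, ∀ᶠ N : ℕ in atTop,
      N * (VD n (pw pat) lam τ - ε) ≤ TH0 (ν N) n (lam ∘ per hb pat N)

/-! ### Upper bound -/

def FlnStmt : Prop := ∀ (κ I R : Type) [Fintype κ] [DecidableEq κ] [Fintype I] [DecidableEq I]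
  [Fintype R] [DecidableEq R] (ν : Measure (OG I)) (D n Ds : ℕ) (c : I → κ) (lam : κ → ℝ)
  (lv : R → ℕ) (a : R → ℝ) (f : Fin Ds × Fin n → R) (W : ℕ → ℝ) (y : κ → ℕ → ℝ) (t0 : ℕ),
    Haar ν → 1 ≤ n → LevOk n lv → Emb (fun s : Fin Ds × Fin n => (s.2 : ℕ)) lv f →
    (∀ s, a (f s) = 0) → Path n W →
    (sF c lam lv a).T ν D n y ≤ (sF c lam lv (act a f W (Fintype.card I) t0)).T ν D n y ∧
      (sF c lam lv (act a f W (Fintype.card I) t0)).T ν D n y ≤ (sF c lam lv a).T ν D n y + W 0 / 2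

def FldStmt : Prop := ∀ (n N : ℕ) (Wb ε : ℝ), 1 ≤ n → 0 < ε → ∃ Ds0 : ℕ, ∀ Ds, Ds0 ≤ Ds →
  ∀ (κ I R : Type) [Fintype κ] [DecidableEq κ] [Fintype I] [DecidableEq I] [Fintype R]
    [DecidableEq R] (ν : Measure (OG I)) (D : ℕ) (c : I → κ) (lam : κ → ℝ) (lv : R → ℕ) (a : R → ℝ)
    (f : Fin Ds × Fin n → R) (W L : ℕ → ℝ) (y : κ → ℕ → ℝ), Haar ν → Fintype.card I = N → 1 ≤ N →
    LevOk n lv → Emb (fun s : Fin Ds × Fin n => (s.2 : ℕ)) lv f → (∀ s, a (f s) = 0) → Path n W →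
    W 0 ≤ Wb → (∀ t0, t0 ≤ Ds → ∀ l, l < n → L l ≤ (sF c lam lv (act a f W N t0)).lt ν D n y l) →
    (sF c lam lv a).T ν D n y + ∑ l ∈ range n, (W l - W (l + 1)) * L l / 2 - ε ≤
      (sF c lam lv (act a f W N Ds)).T ν D n y

def UstStmt : Prop := ∀ Γ g0 η : ℝ, 0 < g0 → 0 < η → ∃ Wb : ℝ, 0 ≤ Wb ∧ ∀ ε : ℝ, 0 < ε →
  ∃ v0 : ℝ, 0 < v0 ∧ ∃ n0 : ℕ, ∀ n, n0 ≤ n → 1 ≤ n →
  ∀ lp : ℝ, 0 < lp → lp ≤ 1 → 16 * n * lp ^ 2 ≤ v0 →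
  ∃ N0 : ℕ, ∀ N, N0 ≤ N → ∃ D0 : ℕ, ∀ D Ds, D0 ≤ D → D0 ≤ Ds →
  ∀ (κ R : Type) [Fintype κ] [DecidableEq κ] [Fintype R] [DecidableEq R]
    (ν : Measure (OG (Fin N))) (c : Fin N → κ) (lam lam' : κ → ℝ) (τ : κ) (i : Fin N) (lv : R → ℕ)
    (a : R → ℝ) (f : Fin Ds × Fin n → R) (p : ℕ → ℝ) (y : κ → ℕ → ℝ), Haar ν → c i ≠ τ →
    lam' = Function.update lam τ ((((s0 c lam).cls τ).card * lam τ + lam (c i)) /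
      (((s0 c lam).cls τ).card + 1)) →
    (s0 c lam).Reg τ Γ g0 (η * N) → (s0 (Function.update c i τ) lam').Reg τ Γ g0 (η * N) →
    LevOk n lv → Emb (fun s : Fin Ds × Fin n => (s.2 : ℕ)) lv f → (∀ s, a (f s) = 0) →
    Path n p → p 0 = 1 → NM n N lp ((sF c lam lv a).T ν D n) y 0 →
    ∃ W : ℕ → ℝ, Path n W ∧ W 0 ≤ Wb ∧ (sF c lam lv a).T ν D n y ≤
      (sF (Function.update c i τ) lam' lv (act a f W N Ds)).T ν D n y +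
        N * (tr n (gD (s0 c lam).al lam τ) p -
          tr n (gD (s0 (Function.update c i τ) lam').al lam' τ) p) - W 0 / 2 + ip n p W + ε

def UbStmt : Prop := ∀ (κ : Type) [Fintype κ] [DecidableEq κ] (τ : κ) (lam : κ → ℝ) (g0 η ε : ℝ)
  (ν : ∀ N : ℕ, Measure (OG (Fin N))), 0 < g0 → (∀ k, k ≠ τ → lam k + g0 ≤ lam τ) → 0 < η →
    0 < ε → (∀ N, Haar (ν N)) → ∀ᶠ n : ℕ in atTop, ∀ᶠ N : ℕ in atTop, ∀ c : Fin N → κ,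
      η * N ≤ ((s0 c lam).cls τ).card → TH0 (ν N) n (lam ∘ c) ≤ N * (VD n (s0 c lam).al lam τ + ε)

/-! ### Quenched versus annealed -/

def PjStmt : Prop := ∀ (N L : ℕ) (S : Finset (Fin L)) (x : EU N),
  Measurable (fun G : Fin L → EU N => pj G S x) ∧ ∀ G : Fin L → EU N, 0 ≤ pj G S x ∧
    pj G S x ≤ ‖x‖ ^ 2 ∧ ∀ s, pj G (S.erase s) x ≤ pj G S x

def M4gStmt : Prop := ∀ (N L M : ℕ) (S : Finset (Fin L)) (s : Fin L) (G : Fin L → EU N) (x : EU N),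
  1 ≤ M → L + M ≤ N + 1 →
    ∫ g, (pj (Function.update G s g) S x - pj G (S.erase s) x) ^ 2 ∂stdGaussian (EU N) ≤
      3 * ‖x‖ ^ 4 / (M : ℝ) ^ 2

def TlgStmt : Prop := ∀ Γ η : ℝ, 0 < η → ∃ C : ℝ, 0 ≤ C ∧ ∀ (N L n : ℕ) (c : Fin L → ℝ), 1 ≤ n →
  L ≤ N → η * N + L ≤ N → (∀ t, 0 ≤ c t) → ∑ t, c t ≤ Γ →
    n * log (∫ G, exp (FG (N := N) c G / n) ∂gG N L) ≤ ∫ G, FG (N := N) c G ∂gG N L + C * L / n

def RpgStmt : Prop := ∀ (N L : ℕ) (ν : Measure (OG (Fin N))) (c : Fin L → ℝ) (Λ : Fin N → ℝ) (b : ℝ)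
  (φ : ℝ → ℝ), Haar ν → L ≤ N → Continuous φ →
    (∀ i : Fin N, Λ i = b - ∑ t : Fin L, if (i : ℕ) ≤ t then c t else 0) →
    ∫ G, φ (FG (N := N) c G + b * N / 2) ∂gG N L = ∫ U, φ (F0 Λ U) ∂ν

def TiltStmt : Prop := ∀ Γ η : ℝ, 0 < η → ∃ C : ℝ, 0 ≤ C ∧ ∀ (N n : ℕ) (ν : Measure (OG (Fin N)))
  (Λ : Fin N → ℝ) (b : ℝ), Haar ν → 1 ≤ n → (∀ i, |Λ i| ≤ Γ ∧ Λ i ≤ b) →
    η * N ≤ (univ.filter (fun i => Λ i = b)).card → TH0 ν n Λ ≤ ∫ U, F0 Λ U ∂ν + C * N / n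

/-! ### Discretisation -/

def Ds1Stmt : Prop := ∀ (μ : Measure ℝ) (lam : ∀ N : ℕ, Fin N → ℝ) (ε : ℝ), IsProbabilityMeasure μ →
  IsCompact μ.support →
  (∀ f : BoundedContinuousFunction ℝ ℝ,
    Tendsto (fun N : ℕ => (∑ i, f (lam N i)) / (N : ℝ)) atTop (𝓝 (∫ t, f t ∂μ))) →
  Tendsto (fun N : ℕ => ⨅ i, lam N i) atTop (𝓝 (sInf μ.support)) →
  Tendsto (fun N : ℕ => ⨆ i, lam N i) atTop (𝓝 (sSup μ.support)) → 0 < ε →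
  ∃ (K b : ℕ) (hb : 0 < b) (τ : Fin K) (t : Fin K → ℝ) (pat : Fin b → Fin K) (g0 Γ η η1 : ℝ),
    Function.Surjective pat ∧ 0 < g0 ∧ (∀ k, k ≠ τ → t k + g0 ≤ t τ) ∧ (∀ k, |t k| ≤ Γ) ∧
    (∀ u ∈ μ.support, |u| + ε ≤ Γ) ∧ 0 < η ∧ 0 ≤ η1 ∧ η1 * (2 * Γ) ≤ ε * pw pat τ ∧
    t τ ≤ sSup μ.support ∧ sSup μ.support ≤ t τ + ε ∧
    (∀ u, tl (pw pat) t u ≤ μ.real (Set.Ici u)) ∧
    (∀ u, μ.real (Set.Ici u) ≤ tl (pw pat) t (u - ε) + η1) ∧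
    (∀ᶠ N : ℕ in atTop, ∃ pm : Equiv.Perm (Fin N), ∀ i, t (per hb pat N i) ≤ lam N (pm i)) ∧
    ∀ᶠ N : ℕ in atTop, ∃ c : Fin N → Fin K, (∀ i, lam N i ≤ t (c i) + ε) ∧
      η * N ≤ ((s0 c t).cls τ).card ∧ ∀ u, tl (s0 c t).al t u ≤ tl (pw pat) t u + η1

end

end Vale.Agent.P166
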