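import Vale.Agent.P166.Stm

/-! P166 module Sy: symmetry under permutations. -/

namespace Vale.Agent.P166

open MeasureTheory Finset Real Vale.Agent.P157

namespace Symm

variable {κ I Ts : Type} [Fintype κ] [DecidableEq κ] [Fintype I] [DecidableEq I] [Fintype Ts]
  [DecidableEq Ts]

/-- permute the direction of a field sign -/
def pe (D n : ℕ) (pm : Equiv.Perm I) : (Fin D × Fin n × I) ≃ (Fin D × Fin n × I) :=
  (Equiv.refl _).prodCongr ((Equiv.refl _).prodCongr pm)

omit [Fintype κ] [DecidableEq κ] in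
lemma eh_eq (hO : OApi) (hR : RApi) (hH : HApi) (ν : Measure (OG I)) (S : Sys κ I Ts) (D n : ℕ)
    (y : κ → ℕ → ℝ) (hν : Haar ν) (hn : 1 ≤ n) (i i' : I) (hc : S.c i = S.c i') :
    EH ν n (S.lev D n) (S.Z D n y) (fun U ω => yy U ω.2 i ^ 2) =
      EH ν n (S.lev D n) (S.Z D n y) (fun U ω => yy U ω.2 i' ^ 2) := by
  set pm := Equiv.swap i i' with hpm
  have hcp : ∀ j, S.c (pm j) = S.c j := by
    intro j
    rw [hpm, Equiv.swap_apply_def]
    split_ifs with h1 h2
    · rw [h1, hc]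
    · rw [h2, hc]
    · rfl
  obtain ⟨R, hRy⟩ := hO.permL pm
  have hZ := (hH.ctz S D n y).1
  have h1 := ((hH.one (S.lev D n) hν hn hZ).invL R).2.1 (fun U ω => yy U ω.2 i ^ 2)
    (fun ω => (hO.cont ω.2 i).pow 2)
  set f : Sg D n I Ts → Sg D n I Ts := Sum.map (pe D n pm).symm id with hf
  have hemb : Emb (S.lev D n) (S.lev D n) f := by
    refine ⟨(pe D n pm).symm.injective.sumMap Function.injective_id, ?_⟩
    rintro (s | s) <;> rfl
  have hZR : (fun U => S.Z D n y (R * U)) = fun U ω => S.Z D n y U (pull f ω) := by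
    funext U ω
    simp only [Sys.Z, hRy]
    congr 1
    congr 1
    · refine Fintype.sum_equiv pm _ _ fun j => ?_
      rw [hcp]; rfl
    · refine Fintype.sum_equiv (pe D n pm) _ _ fun s => ?_
      have : (pull f ω).1 (Sum.inl (pe D n pm s)) = ω.1 (Sum.inl s) := by
        simp [pull, hf]
      rw [this]
      show _ = spin _ * (y (S.c (pm s.2.2)) s.2.1 / √(D : ℝ) * yy U ω.2 (pm s.2.2))
      rw [hcp]
  rw [← h1, hZR]
  refine (hH.same (S.lev D n) (S.lev D n) (Z' := fun U ω => S.Z D n y U (pull f ω)) 0 hν hn hZ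
    (fun U => by rw [add_zero]; exact (hR.emb n _ _ f hemb _).1)).2.1 _ _ fun U => ?_
  have := (hR.emb n _ _ f hemb (S.Z D n y U)).2.1 (fun ω => yy U ω.2 i' ^ 2)
  rw [← this]
  congr 1
  funext ω
  rw [hRy, hpm, Equiv.swap_apply_left]
  rfl

omit [Fintype κ] [DecidableEq κ] in
lemma ew_eq (hO : OApi) (hR : RApi) (hH : HApi) (ν : Measure (OG I)) (S : Sys κ I Ts) (D n : ℕ)
    (y : κ → ℕ → ℝ) (hν : Haar ν) (hn : 1 ≤ n) (hS : ∀ ω, S.SF ω = 0) (i i' : I) (d : ℕ)
    (hd : d ≤ n) :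
    EW ν n (S.lev D n) (S.Z D n y) d (fun _ ω ω' => spin (ω.2 i') * spin (ω'.2 i')) =
      EW ν n (S.lev D n) (S.Z D n y) d (fun _ ω ω' => spin (ω.2 i) * spin (ω'.2 i)) := by
  set pm := Equiv.swap i i' with hpm
  obtain ⟨R, hRy⟩ := hO.permR pm
  have hZ := (hH.ctz S D n y).1
  have h1 := ((hH.one (S.lev D n) hν hn hZ).invR R).2.2 d hd
    (fun _ ω ω' => spin (ω.2 i') * spin (ω'.2 i')) (fun _ _ => continuous_const)
  have hZR : (fun U => S.Z D n y (U * R)) = fun U ω => S.Z D n y U (ω.1, ω.2 ∘ pm) := by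
    funext U ω
    simp only [Sys.Z, hRy, hS]
  rw [← h1, hZR]
  refine (hH.same (S.lev D n) (S.lev D n) (Z' := fun U ω => S.Z D n y U (ω.1, ω.2 ∘ pm)) 0 hν hn hZ
    (fun U => by rw [add_zero]; exact (hR.site n _ pm _).1)).2.2 d _ _ fun U => ?_
  have := (hR.site n (S.lev D n) pm (S.Z D n y U)).2.2 d hd
    (fun ω ω' => spin (ω.2 i) * spin (ω'.2 i))
  rw [← this]
  congr 1
  funext ω ω'
  simp only [Function.comp, hpm, Equiv.swap_apply_left]

end Symm

open Symm

theorem syStmt (hO : OApi) (hR : RApi) (hH : HApi) : SyStmt := by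
  intro κ I Ts _ _ _ _ _ _ ν S D n y hν hn
  have hZ := (hH.ctz S D n y).1
  have h1 := hH.one (S.lev D n) hν hn hZ
  refine ⟨fun i => ?_, fun hS i l hl => ?_, fun pm Λ => ?_⟩
  · have hi : i ∈ S.cls (S.c i) := by simp [Sys.cls]
    have hpos : (0 : ℝ) < (S.cls (S.c i)).card := by exact_mod_cast card_pos.2 ⟨i, hi⟩
    rw [le_div_iff₀ hpos]
    have hct : ∀ j, Ct (T := Sg D n I Ts) (I := I) (fun U ω => yy U ω.2 j ^ 2) :=
      fun j ω => (hO.cont ω.2 j).pow 2
    have a1 := h1.sum (S.cls (S.c i)) (fun j U ω => yy U ω.2 j ^ 2) (fun j _ => hct j)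
    rw [sum_congr (s₁ := S.cls (S.c i)) rfl
      (fun j hj => eh_eq hO hR hH ν S D n y hν hn j i (mem_filter.1 hj).2),
      sum_const, nsmul_eq_mul] at a1
    have a2 := h1.mono (fun U ω => ∑ j ∈ S.cls (S.c i), yy U ω.2 j ^ 2)
      (fun _ _ => (Fintype.card I : ℝ)) (fun ω => continuous_finsetSum _ fun j _ => hct j ω)
      (fun _ => continuous_const) (fun U ω => by
        rw [← hO.sq U ω.2]
        exact sum_le_sum_of_subset_of_nonneg (subset_univ _) fun _ _ _ => sq_nonneg _)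
    rw [h1.const, a1] at a2
    linarith
  · unfold Sys.lt ltot
    congr 2
    refine sum_congr rfl fun d hd => ?_
    have hd : d ≤ n := (mem_Icc.1 hd).2.trans hl
    have hN : (0 : ℝ) < Fintype.card I := by exact_mod_cast Fintype.card_pos_iff.2 ⟨i⟩
    have a1 := h1.sum2 d hd univ (fun j _ ω ω' => spin (ω.2 j) * spin (ω'.2 j))
      (fun _ _ _ _ => continuous_const)
    rw [sum_congr rfl (fun j _ => ew_eq hO hR hH ν S D n y hν hn hS i j d hd), sum_const,
      nsmul_eq_mul, card_univ] at a1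
    have a2 := h1.lin2 d hd (fun _ ω ω' => ∑ j, spin (ω.2 j) * spin (ω'.2 j)) (fun _ _ _ => 0)
      (1 / (Fintype.card I : ℝ)) 0 (fun _ _ => continuous_const) (fun _ _ => continuous_const)
    rw [a1] at a2
    simp only [zero_mul, add_zero, one_div, ← div_eq_inv_mul] at a2
    rw [a2]
    field_simp
  · obtain ⟨R, hRy⟩ := hO.permL pm.symm
    have hF : ∀ U, F0 (Λ ∘ pm) U = F0 Λ (R * U) := by
      intro U
      simp only [F0, hRy]
      congr 2
      refine sum_congr rfl fun σ _ => ?_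
      congr 1
      exact Fintype.sum_equiv pm _ _ fun j => by simp
    have hc : Continuous (F0 Λ) := (hO.f0 Λ Λ 0).1
    simp only [TH0, hF]
    exact ⟨by rw [hν.left R (fun U => exp (F0 Λ U / n)) (by fun_prop)], hν.left R _ hc⟩

end Vale.Agent.P166
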