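import Vale.Agent.P166.Stm

/-! P166: bookkeeping for one step of the upper bound. -/

namespace Vale.Agent.P166

open MeasureTheory Finset Real Vale.Agent.P157

noncomputable section

namespace Ust

variable {κ : Type} [Fintype κ] [DecidableEq κ] {N : ℕ}

lemma up_eq {R : Type} [Fintype R] (c : Fin N → κ) (lam : κ → ℝ) (lv : R → ℕ) (a : R → ℝ)
    (i : Fin N) (τ : κ) :
    (sF c lam lv a).up {i} τ = sF (Function.update c i τ) lam lv a := by
  unfold Sys.up sF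
  congr 1
  funext j
  by_cases h : j = i
  · subst h; simp
  · simp [h]

lemma mem_cls (c : Fin N → κ) (lam : κ → ℝ) (j : Fin N) (k : κ) :
    j ∈ (s0 c lam).cls k ↔ c j = k := by
  unfold Sys.cls
  rw [mem_filter]
  exact ⟨fun h => h.2, fun h => ⟨mem_univ _, h⟩⟩

lemma cls_top (c : Fin N → κ) (lam lam' : κ → ℝ) {i : Fin N} {τ : κ} :
    (s0 (Function.update c i τ) lam').cls τ = insert i ((s0 c lam).cls τ) := by
  ext j
  by_cases h : j = i
  · subst h; simp [mem_cls]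
  · simp [mem_cls, h]

lemma cls_low (c : Fin N → κ) (lam lam' : κ → ℝ) {i : Fin N} {τ k : κ} (hk : k ≠ τ) :
    (s0 (Function.update c i τ) lam').cls k = ((s0 c lam).cls k).erase i := by
  ext j
  by_cases h : j = i
  · subst h; simp [mem_cls, hk.symm]
  · simp [mem_cls, h]

lemma card_top (c : Fin N → κ) (lam lam' : κ → ℝ) {i : Fin N} {τ : κ} (hi : c i ≠ τ) :
    (((s0 (Function.update c i τ) lam').cls τ).card : ℝ) = ((s0 c lam).cls τ).card + 1 := by
  rw [cls_top c lam lam', card_insert_of_notMem (by simp [mem_cls, hi])]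
  push_cast; rfl

lemma card_low (c : Fin N → κ) (lam lam' : κ → ℝ) {i : Fin N} {τ : κ} (hi : c i ≠ τ) :
    (((s0 (Function.update c i τ) lam').cls (c i)).card : ℝ) =
      ((s0 c lam).cls (c i)).card - 1 := by
  have h : i ∈ (s0 c lam).cls (c i) := by simp [mem_cls]
  rw [cls_low c lam lam' hi, ← card_erase_add_one h]
  push_cast; ring

lemma cls_oth (c : Fin N → κ) (lam lam' : κ → ℝ) {i : Fin N} {τ k : κ} (hk : k ≠ τ)
    (hk' : k ≠ c i) : (s0 (Function.update c i τ) lam').cls k = (s0 c lam).cls k := by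
  rw [cls_low c lam lam' hk, erase_eq_of_notMem (by simp [mem_cls, hk'.symm])]

lemma al_eq (c : Fin N → κ) (lam : κ → ℝ) (k : κ) :
    (s0 c lam).al k = ((s0 c lam).cls k).card / (N : ℝ) := by
  simp [Sys.al]

lemma wt (c : Fin N → κ) (lam : κ → ℝ) {τ : κ} {Γ g0 η : ℝ} (hN : 0 < N) (hg : 0 < g0)
    (h : (s0 c lam).Reg τ Γ g0 (η * N)) : Wt (s0 c lam).al lam τ Γ η := by
  have hN' : (0 : ℝ) < N := by exact_mod_cast hN
  refine ⟨fun k => by rw [al_eq]; positivity, ?_, ?_, h.bd, fun k hk => ?_⟩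
  · simp only [al_eq]
    rw [← sum_div, div_eq_one_iff_eq hN'.ne']
    have := card_eq_sum_card_fiberwise (f := c) (s := univ) (t := univ) (fun _ _ => mem_univ _)
    rw [card_univ, Fintype.card_fin] at this
    have h2 : (N : ℝ) = ∑ k, ((univ.filter (fun j => c j = k)).card : ℝ) := by exact_mod_cast this
    rw [h2]; rfl
  · rw [al_eq, le_div_iff₀ hN']; exact h.top
  · by_cases hk' : k = τ
    · rw [hk']
    · have hne : ((s0 c lam).cls k).Nonempty := by
        rw [al_eq] at hk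
        rw [← card_pos]
        have := (div_pos_iff_of_pos_right hN').1 hk
        exact_mod_cast this
      have := h.gap k hk' hne
      change lam k + g0 ≤ lam τ at this
      linarith

lemma vb {n : ℕ} {lp v : ℝ} {y : κ → ℕ → ℝ} (hy : Box n 0 (4 * lp) y) (hv : 16 * n * lp ^ 2 ≤ v) :
    Vb n y v := by
  intro k
  calc ∑ l ∈ range n, y k l ^ 2 ≤ ∑ _l ∈ range n, (4 * lp) ^ 2 := sum_le_sum fun l hl =>
        pow_le_pow_left₀ (hy k l (mem_range.1 hl)).1 (hy k l (mem_range.1 hl)).2 2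
    _ = 16 * n * lp ^ 2 := by rw [sum_const, card_range, nsmul_eq_mul]; ring
    _ ≤ v := hv

/-- the energy difference between the two eigenvalue profiles -/
lemma z_eq {R : Type} [Fintype R] [DecidableEq R] (c' : Fin N → κ) (lam : κ → ℝ) (lv : R → ℕ)
    (a : R → ℝ) (τ : κ) (x th : ℝ) (D n : ℕ) (y : κ → ℕ → ℝ)
    (hx : lam τ - x = th / ((s0 c' lam).cls τ).card) (U : OG (Fin N))
    (ω : Cf (Sg D n (Fin N) (Fin N × R)) (Fin N)) :
    (sF c' lam lv a).Z D n y U ω = (sF c' (Function.update lam τ x) lv a).Z D n y U ω +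
      th / 2 * rA ((s0 c' lam).cls τ) U ω.2 ω.2 := by
  have h1 : ∑ j, lam (c' j) * yy U ω.2 j ^ 2 / 2 =
      ∑ j, Function.update lam τ x (c' j) * yy U ω.2 j ^ 2 / 2 +
        th / 2 * rA ((s0 c' lam).cls τ) U ω.2 ω.2 := by
    have h2 : th / 2 * rA ((s0 c' lam).cls τ) U ω.2 ω.2 =
        ∑ j, if c' j = τ then (lam τ - x) * yy U ω.2 j ^ 2 / 2 else 0 := by
      rw [← sum_filter, hx, rA, sum_div, mul_sum]
      exact sum_congr rfl fun j _ => by ring
    rw [h2, ← sum_add_distrib]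
    refine sum_congr rfl fun j _ => ?_
    by_cases h : c' j = τ
    · rw [if_pos h, h, Function.update_self]; ring
    · rw [if_neg h, Function.update_of_ne h, add_zero]
  unfold Sys.Z
  simp only [sF]
  rw [h1]; ring

lemma rA_bd (hO : OApi) (A : Finset (Fin N)) {η : ℝ} (hη : 0 < η) (hN : 0 < N)
    (hA : η * N ≤ A.card) (U : OG (Fin N)) (σ : Fin N → Bool) :
    0 ≤ rA A U σ σ ∧ rA A U σ σ ≤ 1 / η := by
  have hN' : (0 : ℝ) < N := by exact_mod_cast hN
  have hc : (0 : ℝ) < A.card := lt_of_lt_of_le (by positivity) hA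
  refine ⟨div_nonneg (sum_nonneg fun j _ => mul_self_nonneg _) hc.le, ?_⟩
  rw [rA, div_le_div_iff₀ hc hη, one_mul]
  have h1 : ∑ j ∈ A, yy U σ j * yy U σ j ≤ N := by
    have h2 := hO.sq U σ
    rw [Fintype.card_fin] at h2
    rw [← h2]
    refine le_trans (le_of_eq (sum_congr rfl fun j _ => (sq _).symm)) ?_
    exact sum_le_sum_of_subset_of_nonneg (subset_univ _) fun j _ _ => sq_nonneg _
  nlinarith

lemma ct_rA {T : Type} (hO : OApi) (A : Finset (Fin N)) :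
    Ct2 (fun (U : OG (Fin N)) (ω ω' : Cf T (Fin N)) => rA A U ω.2 ω'.2) := fun ω ω' =>
  (continuous_finset_sum _ fun j _ => (hO.cont _ j).mul (hO.cont _ j)).div_const _

/-- concentration survives a bounded change of the energy -/
lemma conc_chg {T : Type} [Fintype T] [DecidableEq T] (hO : OApi) (hH : HApi)
    {ν : Measure (OG (Fin N))} {n : ℕ} (lev : T → ℕ) {Z V : OG (Fin N) → Cf T (Fin N) → ℝ}
    (hν : Haar ν) (hn : 1 ≤ n) (hZ : Ct Z) (hV : Ct V) {B : ℝ} (hB0 : 0 ≤ B)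
    (hB : ∀ U ω, |V U ω| ≤ B) {A : Finset (Fin N)} {p : ℕ → ℝ} {e : ℝ} (he : 0 ≤ e)
    (h : ConcH ν n lev Z A p e) :
    ConcH ν n lev (fun U ω => Z U ω + V U ω) A p (exp (8 * B) * e) := by
  obtain ⟨h1, h2⟩ := (hH.one lev hν hn hZ).chg V B hV hB
  have hc := ct_rA (T := T) hO A
  constructor
  · refine (h1 _ (fun ω => ((hc ω ω).sub continuous_const).pow 2) (fun U ω => sq_nonneg _)).trans ?_
    exact mul_le_mul (exp_le_exp.2 (by linarith)) h.1
      (le_trans (le_of_eq ((hH.one lev hν hn hZ).const 0).symm)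
        ((hH.one lev hν hn hZ).mono _ _ (fun _ => continuous_const)
          (fun ω => ((hc ω ω).sub continuous_const).pow 2) (fun U ω => sq_nonneg _)))
      (exp_pos _).le
  · have h3 : ∑ d ∈ Ico 1 n, EW ν n lev (fun U ω => Z U ω + V U ω) d
        (fun U ω ω' => (rA A U ω.2 ω'.2 - p d) ^ 2) ≤ ∑ d ∈ Ico 1 n, exp (8 * B) *
          EW ν n lev Z d (fun U ω ω' => (rA A U ω.2 ω'.2 - p d) ^ 2) :=
      sum_le_sum fun d hd => h2 d (mem_Ico.1 hd).2.le _
        (fun ω ω' => ((hc ω ω').sub continuous_const).pow 2) (fun U ω ω' => sq_nonneg _)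
    rw [← mul_sum] at h3
    refine (mul_le_mul_of_nonneg_left h3 (by positivity)).trans ?_
    rw [mul_left_comm]
    exact mul_le_mul_of_nonneg_left h.2 (exp_pos _).le

/-- adding a multiple of a concentrated self overlap -/
lemma add_r0 {T : Type} [Fintype T] [DecidableEq T] (hO : OApi) (hH : HApi)
    {ν : Measure (OG (Fin N))} {n : ℕ} (lev : T → ℕ) {Z Z' : OG (Fin N) → Cf T (Fin N) → ℝ}
    (hν : Haar ν) (hn : 1 ≤ n) (hZ : Ct Z) {A : Finset (Fin N)} {t : ℝ} (ht : 0 ≤ t)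
    (hZZ : ∀ U ω, Z U ω = Z' U ω + t * rA A U ω.2 ω.2) {p : ℕ → ℝ} {μ : ℝ} (hμ : 0 ≤ μ)
    (h : ConcH ν n lev Z A p (μ ^ 2)) :
    TH ν n lev Z ≤ TH ν n lev Z' + t * p 0 + t * μ := by
  have h1 := hH.one lev hν hn hZ
  have hc := ct_rA (T := T) hO A
  have cg : Ct (fun (U : OG (Fin N)) (ω : Cf T (Fin N)) => rA A U ω.2 ω.2 - p 0) :=
    fun ω => (hc ω ω).sub continuous_const
  have h2 := h1.low (fun U ω => (-t) * (rA A U ω.2 ω.2 - p 0) + (-(t * p 0)) * 1)
    (fun ω => (continuous_const.mul (cg ω)).add continuous_const)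
  have h3 : (fun U ω => Z U ω + ((-t) * (rA A U ω.2 ω.2 - p 0) + (-(t * p 0)) * 1)) = Z' := by
    funext U ω; rw [hZZ]; ring
  rw [h3, h1.lin _ (fun _ _ => 1) _ _ cg (fun _ => continuous_const), h1.const] at h2
  have h4 := (h1.sq _ cg).trans h.1
  have h5 := (abs_le_of_sq_le_sq' h4 hμ).2
  nlinarith [mul_le_mul_of_nonneg_left h5 ht]

lemma tele {n : ℕ} {W : ℕ → ℝ} (hW : Path n W) (L : ℕ → ℝ) (e : ℝ) :
    ∑ l ∈ range n, (W l - W (l + 1)) * (L l - e) / 2 =
      ∑ l ∈ range n, (W l - W (l + 1)) * L l / 2 - W 0 * e / 2 := by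
  have h1 : ∑ l ∈ range n, (W l - W (l + 1)) = W 0 := by
    rw [sum_range_sub', hW.2, sub_zero]
  rw [← h1, sum_mul, sum_div, ← sum_sub_distrib]
  exact sum_congr rfl fun l _ => by ring

section
variable {R : Type} [Fintype R] [DecidableEq R]

lemma levs_ok {n : ℕ} {lv : R → ℕ} (hlv : LevOk n lv) (c : Fin N → κ) (lam : κ → ℝ) (a : R → ℝ) :
    LevOk n (sF c lam lv a).levs := fun s => hlv s.2

lemma z_mid (c : Fin N → κ) (lam : κ → ℝ) (lv : R → ℕ) (a : R → ℝ) {i : Fin N} {τ : κ}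
    (hi : c i ≠ τ) {lam' : κ → ℝ}
    (hlam' : lam' = Function.update lam τ ((((s0 c lam).cls τ).card * lam τ + lam (c i)) /
      (((s0 c lam).cls τ).card + 1))) (D n : ℕ) (y : κ → ℕ → ℝ) (U : OG (Fin N))
    (ω : Cf (Sg D n (Fin N) (Fin N × R)) (Fin N)) :
    (sF (Function.update c i τ) lam lv a).Z D n y U ω =
      (sF (Function.update c i τ) lam' lv a).Z D n y U ω + (lam τ - lam (c i)) / 2 *
        rA ((s0 (Function.update c i τ) lam).cls τ) U ω.2 ω.2 := by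
  rw [hlam']
  refine z_eq _ lam lv a τ _ _ D n y ?_ U ω
  rw [card_top c lam lam hi]
  have : (0 : ℝ) ≤ ((s0 c lam).cls τ).card := Nat.cast_nonneg _
  field_simp
  ring

lemma swp_le (hO : OApi) (hH : HApi) (hSwp : SwpStmt) {ν : Measure (OG (Fin N))} (hν : Haar ν)
    {n : ℕ} (hn : 1 ≤ n) (c : Fin N → κ) (lam : κ → ℝ) {lv : R → ℕ} (hlv : LevOk n lv) (a : R → ℝ)
    {i : Fin N} {τ : κ} (hi : c i ≠ τ) (D : ℕ) {y : κ → ℕ → ℝ} {v : ℝ} (hv : Vb n y v) :
    (sF c lam lv a).T ν D n y ≤ TH ν n ((sF c lam lv a).lev D n)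
      (fun U ω => (sF (Function.update c i τ) lam lv a).Z D n y U ω +
        ∑ j ∈ ({i} : Finset (Fin N)), -(lam τ - lam (c i) - v) * yy U ω.2 j ^ 2 / 2) := by
  have h1 := hH.ptw ((sF c lam lv a).lev D n) ((sF c lam lv a).lev D n) 0 hν hn
    (hH.ctz (sF c lam lv a) D n y).1
    (Z' := fun U ω => (sF (Function.update c i τ) lam lv a).Z D n y U ω +
      ∑ j ∈ ({i} : Finset (Fin N)), -(lam τ - lam (c i) - v) * yy U ω.2 j ^ 2 / 2)
    (fun ω => ((hH.ctz (sF (Function.update c i τ) lam lv a) D n y).1 ω).add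
      (continuous_finset_sum _ fun j _ =>
        (continuous_const.mul ((hO.cont _ j).pow 2)).div_const _))
    (fun U => by
      have h2 := (hSwp κ (Fin N) (Fin N × R) _ (sF c lam lv a) D n y {i} τ v
        ((sF c lam lv a).lev D n) id (fun _ => 0) U hn hv ⟨Function.injective_id, fun _ => rfl⟩
        ((hH.ctz (sF c lam lv a) D n y).2 (levs_ok hlv c lam a)) (fun _ _ _ _ => rfl)).2
      rw [up_eq] at h2
      have h3 : ({i} : Finset (Fin N)).filter (fun j => (sF c lam lv a).c j ≠ τ) = {i} :=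
        filter_true_of_mem fun j hj => by rw [mem_singleton.1 hj]; exact hi
      rw [h3] at h2
      simp only [add_zero, sum_singleton] at h2 ⊢
      refine le_trans (le_of_eq rfl) (h2.trans (le_of_eq ?_))
      congr 1
      funext ω
      change _ + (lam (c i) - lam τ + v) * _ / 2 = _
      rw [show lam (c i) - lam τ + v = -(lam τ - lam (c i) - v) by ring]
      rfl)
  rw [add_zero] at h1
  exact h1

lemma near2 (hNear : NearStmt) {ν : Measure (OG (Fin N))} (hν : Haar ν)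
    {n : ℕ} (hn : 1 ≤ n) (c : Fin N → κ) (lam : κ → ℝ) {lv : R → ℕ} (hlv : LevOk n lv) (a : R → ℝ)
    {i : Fin N} {τ : κ} (D : ℕ) {y : κ → ℕ → ℝ} {v Γ G η : ℝ} (hv : Vb n y v) (hη : 0 < η)
    (hbd : ∀ k, |lam k| ≤ Γ) (hgap : lam (c i) + v ≤ lam τ) (hG : 2 * Γ + v ≤ 4 * G) (hG0 : 0 ≤ G)
    (hA : η * N ≤ ((s0 (Function.update c i τ) lam).cls τ).card) :
    (sF c lam lv a).T ν D n y ≤ (sF (Function.update c i τ) lam lv a).T ν D n y ∧
      (sF (Function.update c i τ) lam lv a).T ν D n y ≤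
        (sF c lam lv a).T ν D n y + 2 * (G / η) := by
  have hN' : (0 : ℝ) < N := by exact_mod_cast i.pos
  have h1 := hNear κ (Fin N) (Fin N × R) ν (sF c lam lv a) D n y {i} τ v Γ hν hn
    (levs_ok hlv c lam a) hv hbd (fun j hj _ => by rw [mem_singleton.1 hj]; exact hgap)
  rw [up_eq] at h1
  refine ⟨h1.1, h1.2.trans (add_le_add le_rfl ?_)⟩
  have h2 : (((sF (Function.update c i τ) lam lv a).cls τ).card : ℝ) =
      ((s0 (Function.update c i τ) lam).cls τ).card := rfl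
  rw [h2]
  generalize (((s0 (Function.update c i τ) lam).cls τ).card : ℝ) = m at hA
  have h3 : 0 < m := lt_of_lt_of_le (by positivity) hA
  rw [card_singleton, Fintype.card_fin, div_le_iff₀ (by positivity)]
  have h4 : 2 * (G / η) * (2 * m) = 4 * G * (m / η) := by ring
  have h5 : (N : ℝ) ≤ m / η := by rw [le_div_iff₀ hη]; linarith
  rw [h4, Nat.cast_one, one_mul]
  exact mul_le_mul hG h5 hN'.le (by positivity)

lemma mid_bd (hH : HApi) {ν : Measure (OG (Fin N))} (hν : Haar ν) {n : ℕ} (hn : 1 ≤ n)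
    (c : Fin N → κ) (lam lam' : κ → ℝ) (lv : R → ℕ) (a : R → ℝ) (D : ℕ) (y : κ → ℕ → ℝ)
    {V : OG (Fin N) → (Fin N → Bool) → ℝ} {B : ℝ} (hV : ∀ U σ, 0 ≤ V U σ ∧ V U σ ≤ B)
    (hz : ∀ U ω, (sF c lam lv a).Z D n y U ω = (sF c lam' lv a).Z D n y U ω + V U ω.2) :
    (sF c lam' lv a).T ν D n y ≤ (sF c lam lv a).T ν D n y ∧
      (sF c lam lv a).T ν D n y ≤ (sF c lam' lv a).T ν D n y + B := by
  constructor
  · have := hH.le ((sF c lam lv a).lev D n) 0 hν hn (hH.ctz (sF c lam' lv a) D n y).1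
      (hH.ctz (sF c lam lv a) D n y).1 (fun U ω => by rw [hz]; linarith [(hV U ω.2).1])
    rw [add_zero] at this
    exact this
  · exact hH.le ((sF c lam lv a).lev D n) B hν hn (hH.ctz (sF c lam lv a) D n y).1
      (hH.ctz (sF c lam' lv a) D n y).1 (fun U ω => by rw [hz]; linarith [(hV U ω.2).2])

lemma nm_act (hFln : FlnStmt) {ν : Measure (OG (Fin N))} (hν : Haar ν) {n : ℕ} (hn : 1 ≤ n)
    (c : Fin N → κ) (lam : κ → ℝ) {lv : R → ℕ} (hlv : LevOk n lv) {a : R → ℝ} (D : ℕ) {Ds : ℕ}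
    {f : Fin Ds × Fin n → R} (hf : Emb (fun s : Fin Ds × Fin n => (s.2 : ℕ)) lv f)
    (ha : ∀ s, a (f s) = 0) {W : ℕ → ℝ} (hW : Path n W) {lp C Wb : ℝ} (hW0 : W 0 ≤ Wb)
    {y : κ → ℕ → ℝ} (h : NM n N lp ((sF c lam lv a).T ν D n) y C) (t0 : ℕ) :
    NM n N lp ((sF c lam lv (act a f W N t0)).T ν D n) y (C + Wb / 2) := by
  have h1 := fun y0 => hFln κ (Fin N) R ν D n Ds c lam lv a f W y0 t0 hν hn hlv hf ha hW
  rw [Fintype.card_fin] at h1
  exact ⟨h.1, fun y0 hy0 => by linarith [h.2 y0 hy0, (h1 y0).2, (h1 y).1]⟩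

end

lemma fin_ineq {T0 T1 Tm T' T2 t1 t2 th q0 μ v X Sm W0 e2 ipp ε η G Wb : ℝ} (hη : 0 < η)
    (hε : 0 < ε) (hG : 0 < G) (hWb : 0 ≤ Wb) (s1 : T0 ≤ T1) (s2 : |T1 - Tm - t1| ≤ ε / 6)
    (s3 : t1 ≤ t2 + v / 2 * q0) (s4 : Tm ≤ T' + th / 2 * q0 + th / 2 * μ)
    (s5 : t2 + th * q0 / 2 ≤ X + Sm - W0 / 2 + ipp + ε / 6)
    (s6 : T' + (Sm - W0 * e2 / 2) - ε / 6 ≤ T2) (hth : th ≤ 2 * G) (hμ : μ = ε / (6 * G))
    (hv : v ≤ ε * η / 3) (hq : 0 ≤ q0) (hq' : q0 ≤ 1 / η) (hW : W0 ≤ Wb)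
    (he : e2 = ε / (3 * (Wb + 1))) : T0 ≤ T2 + X - W0 / 2 + ipp + ε := by
  have b1 : th / 2 * μ ≤ ε / 6 := by
    calc th / 2 * μ ≤ G * μ := mul_le_mul_of_nonneg_right (by linarith) (by rw [hμ]; positivity)
      _ = ε / 6 := by rw [hμ]; field_simp
  have b2 : v / 2 * q0 ≤ ε / 6 := by
    calc v / 2 * q0 ≤ (ε * η / 3) / 2 * (1 / η) :=
          mul_le_mul (by linarith) hq' hq (by positivity)
      _ = ε / 6 := by field_simp; ring
  have b3 : W0 * e2 / 2 ≤ ε / 6 := by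
    have : W0 * e2 ≤ (Wb + 1) * e2 :=
      mul_le_mul_of_nonneg_right (by linarith) (by rw [he]; positivity)
    have h2 : (Wb + 1) * e2 = ε / 3 := by rw [he]; field_simp
    linarith
  linarith [(abs_le.1 s2).2]

end Ust

end

end Vale.Agent.P166
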